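import Vale.Agent.Lib.P217.Mu

set_option linter.unusedSectionVars false
set_option linter.unusedVariables false

namespace Vale.Agent.Lib.P217

open scoped Topology
open Filter

variable {C : Type*} [NormedField C] [IsUltrametricDist C] [CompleteSpace C]
variable {p n : ℕ} [hp : Fact p.Prime] [CharP C p]

/-- The monomial of a two variable series at a point. -/
lemma prod_two (a b : OC C) (d : Fin 2 →₀ ℕ) :
    (d.prod fun s e => (![a, b] s) ^ e) = a ^ d 0 * b ^ d 1 := by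
  rw [Finsupp.prod_fintype _ _ (by simp), Fin.prod_univ_two]
  rfl

lemma norm_pow_le_of_ne_zero (a : OC C) {j : ℕ} (hj : j ≠ 0) : ‖((a ^ j : OC C) : C)‖ ≤ ‖(a : C)‖ := by
  obtain ⟨i, rfl⟩ := Nat.exists_eq_succ_of_ne_zero hj
  have : ((a ^ (i + 1) : OC C) : C) = ((a ^ i : OC C) : C) * (a : C) := by
    push_cast; ring
  rw [Nat.succ_eq_add_one, this, norm_mul]
  exact mul_le_of_le_one_left (norm_nonneg _) (norm_OC_le _)

lemma norm_pow_two_le_of_two_le (a : OC C) {j : ℕ} (hj : 2 ≤ j) : ‖((a ^ j : OC C) : C)‖ ≤ ‖(a : C)‖ ^ 2 := by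
  obtain ⟨i, rfl⟩ := Nat.exists_eq_add_of_le hj
  have : ((a ^ (2 + i) : OC C) : C) = (a : C) ^ 2 * ((a ^ i : OC C) : C) := by
    push_cast; ring
  rw [this, norm_mul, norm_pow]
  exact mul_le_of_le_one_right (by positivity) (norm_OC_le _)

/-- The group law is the field sum up to the product: coefficients of `F(X,Y)` at `(i,0)`, `i ≠ 1` and at `(0,j)`, `j ≠ 1`
vanish by `G.zero_add`, `G.add_zero` and `(1,0)`, `(0,1)` are `1`. -/
theorem norm_add_sub_field_le {G : FormalGroup (OC C)} (x y : Pts G) :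
    ‖(x + y).v - (x.v + y.v)‖ ≤ ‖x.v‖ * ‖y.v‖ := by
  have h1 := hasSum_Ev (RingHom.id (OC C)) ![x.o, y.o] (hb2 x y) G.toPowerSeries
  have h2 := hasSum_Ev (RingHom.id (OC C)) ![x.o, (0 : Pts G).o] (hb2 x 0) G.toPowerSeries
  have h3 := hasSum_Ev (RingHom.id (OC C)) ![(0 : Pts G).o, y.o] (hb2 0 y) G.toPowerSeries
  have h4 := hasSum_Ev (RingHom.id (OC C)) ![(0 : Pts G).o, (0 : Pts G).o] (hb2 0 0) G.toPowerSeries
  have e2 : Ev (RingHom.id (OC C)) ![x.o, (0 : Pts G).o] G.toPowerSeries = x.o := by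
    rw [← Pts.add_o, Pts.add_zero']
  have e3 : Ev (RingHom.id (OC C)) ![(0 : Pts G).o, y.o] G.toPowerSeries = y.o := by
    rw [← Pts.add_o, Pts.zero_add']
  have e4 : Ev (RingHom.id (OC C)) ![(0 : Pts G).o, (0 : Pts G).o] G.toPowerSeries = 0 := by
    rw [← Pts.add_o, Pts.zero_add']
    rfl
  rw [e2] at h2
  rw [e3] at h3
  rw [e4] at h4
  have h := ((h1.sub h2).sub h3).add h4
  have hb : ‖(((x + y).o - x.o - y.o + 0 : OC C) : C)‖ ≤ ‖x.v‖ * ‖y.v‖ := by
    refine norm_sum_le_of_hasSum h (mul_nonneg (norm_nonneg _) (norm_nonneg _)) ?_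
    intro d
    simp only [prod_two, RingHom.id_apply]
    have e : (((MvPowerSeries.coeff d G.toPowerSeries) * (x.o ^ d 0 * y.o ^ d 1) -
        (MvPowerSeries.coeff d G.toPowerSeries) * (x.o ^ d 0 * (0 : Pts G).o ^ d 1) -
        (MvPowerSeries.coeff d G.toPowerSeries) * ((0 : Pts G).o ^ d 0 * y.o ^ d 1) +
        (MvPowerSeries.coeff d G.toPowerSeries) * ((0 : Pts G).o ^ d 0 * (0 : Pts G).o ^ d 1) : OC C)) =
        (MvPowerSeries.coeff d G.toPowerSeries) * ((x.o ^ d 0 - (0 : Pts G).o ^ d 0) * (y.o ^ d 1 - (0 : Pts G).o ^ d 1)) := by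
      ring
    rw [e]
    have h0 : (0 : Pts G).o = (0 : OC C) := rfl
    rw [h0]
    by_cases hd0 : d 0 = 0
    · simp [hd0, mul_nonneg]
    by_cases hd1 : d 1 = 0
    · simp [hd1, mul_nonneg]
    simp only [zero_pow hd0, zero_pow hd1, sub_zero]
    have e5 : (((MvPowerSeries.coeff d G.toPowerSeries) * (x.o ^ d 0 * y.o ^ d 1) : OC C) : C) =
        ((MvPowerSeries.coeff d G.toPowerSeries : OC C) : C) * (((x.o ^ d 0 : OC C) : C) * ((y.o ^ d 1 : OC C) : C)) := rfl
    rw [e5, norm_mul, norm_mul]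
    refine (mul_le_of_le_one_left (by positivity) (norm_OC_le _)).trans ?_
    exact mul_le_mul (norm_pow_le_of_ne_zero _ hd0) (norm_pow_le_of_ne_zero _ hd1) (norm_nonneg _) (norm_nonneg _)
  have e6 : (((x + y).o - x.o - y.o + 0 : OC C) : C) = (x + y).v - (x.v + y.v) := by
    have : (((x + y).o - x.o - y.o + 0 : OC C) : C) = (x + y).v - x.v - y.v + 0 := rfl
    rw [this]; ring
  rwa [e6] at hb

/-- `m • x` is `m x` up to second order. -/
theorem norm_nsmul_sub_mul_le (L : Law C p n) (x : Pts L.G) (m : ℕ) :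
    ‖(m • x).v - (m : C) * x.v‖ ≤ ‖x.v‖ ^ 2 := by
  induction m with
  | zero => simp
  | succ m ih =>
    rw [succ_nsmul]
    have h1 := norm_add_sub_field_le (m • x) x
    have h2 : ‖(m • x).v‖ * ‖x.v‖ ≤ ‖x.v‖ ^ 2 := by
      rw [pow_two]
      exact mul_le_mul_of_nonneg_right (norm_nsmul_le L x m) (norm_nonneg _)
    have e : (m • x + x).v - ((m + 1 : ℕ) : C) * x.v =
        ((m • x + x).v - ((m • x).v + x.v)) + ((m • x).v - (m : C) * x.v) := by
      push_cast; ring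
    rw [e]
    exact (IsUltrametricDist.norm_add_le_max _ _).trans (max_le (h1.trans h2) ih)

/-- A group combination is the field combination up to second order. -/
theorem norm_sum_nsmul_sub_le (L : Law C p n) {J : Type*} (s : Finset J) (Z : J → Pts L.G) (a : J → ℕ) {δ : ℝ}
    (hZ : ∀ i, ‖(Z i).v‖ ≤ δ) :
    ‖(∑ i ∈ s, a i • Z i).v - ∑ i ∈ s, (a i : C) * (Z i).v‖ ≤ δ ^ 2 := by
  classical
  have hW : ∀ s : Finset J, s.Nonempty → ‖(∑ i ∈ s, a i • Z i).v‖ ≤ δ := by
    intro s hs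
    induction hs using Finset.Nonempty.cons_induction with
    | singleton i =>
      simp only [Finset.sum_singleton]
      exact (norm_nsmul_le L _ _).trans (hZ i)
    | cons i s his hs ih =>
      rw [Finset.sum_cons]
      exact (norm_add_le _ _ _).trans (max_le ((norm_nsmul_le L _ _).trans (hZ i)) ih)
  induction s using Finset.induction_on with
  | empty => simp; positivity
  | insert i s his ih =>
    have hδ : 0 ≤ δ := (norm_nonneg _).trans (hZ i)
    rw [Finset.sum_insert his, Finset.sum_insert his]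
    have h1 := norm_add_sub_field_le (a i • Z i) (∑ i ∈ s, a i • Z i)
    have h2 : ‖(a i • Z i).v‖ ≤ δ := (norm_nsmul_le L _ _).trans (hZ i)
    have h3 : ‖(∑ i ∈ s, a i • Z i).v‖ ≤ δ := by
      rcases s.eq_empty_or_nonempty with hs | hs
      · subst hs
        simpa using hδ
      · exact hW s hs
    have h4 : ‖(a i • Z i).v‖ * ‖(∑ i ∈ s, a i • Z i).v‖ ≤ δ ^ 2 := by
      rw [pow_two]
      exact mul_le_mul h2 h3 (norm_nonneg _) hδ
    have h5 : ‖(a i • Z i).v - (a i : C) * (Z i).v‖ ≤ δ ^ 2 :=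
      (norm_nsmul_sub_mul_le L (Z i) (a i)).trans (pow_le_pow_left₀ (norm_nonneg _) (hZ i) 2)
    have e : (a i • Z i + ∑ i ∈ s, a i • Z i).v - ((a i : C) * (Z i).v + ∑ i ∈ s, (a i : C) * (Z i).v) =
        ((a i • Z i + ∑ i ∈ s, a i • Z i).v - ((a i • Z i).v + (∑ i ∈ s, a i • Z i).v)) +
        (((a i • Z i).v - (a i : C) * (Z i).v) + ((∑ i ∈ s, a i • Z i).v - ∑ i ∈ s, (a i : C) * (Z i).v)) := by
      ring
    rw [e]
    refine (IsUltrametricDist.norm_add_le_max _ _).trans (max_le (h1.trans h4) ?_)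
    exact (IsUltrametricDist.norm_add_le_max _ _).trans (max_le h5 ih)

omit [CompleteSpace C] in
/-- In characteristic `p`, an integer prime to `p` has norm one. -/
lemma norm_natCast_of_not_dvd {m : ℕ} (hm : ¬ p ∣ m) : ‖(m : C)‖ = 1 := by
  have h0 : (m : C) ≠ 0 := by
    rw [Ne, CharP.cast_eq_zero_iff C p m]
    exact hm
  have hm0 : ‖(m : C)‖ ≠ 0 := norm_ne_zero_iff.mpr h0
  have h1 : (m : C) ^ p = (m : C) := by
    have := map_natCast (frobenius C p) m
    rwa [frobenius_def] at this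
  have h2 : ‖(m : C)‖ ^ p = ‖(m : C)‖ := by
    rw [← norm_pow, h1]
  have hp2 : 2 ≤ p := hp.out.two_le
  obtain ⟨q, rfl⟩ : ∃ q, p = q + 2 := ⟨p - 2, by omega⟩
  have h3 : ‖(m : C)‖ ^ (q + 1) = 1 := by
    have : ‖(m : C)‖ ^ (q + 1) * ‖(m : C)‖ = 1 * ‖(m : C)‖ := by
      rw [one_mul, ← pow_succ]; exact h2
    exact mul_right_cancel₀ hm0 this
  exact (pow_eq_one_iff_of_nonneg (norm_nonneg _) (Nat.succ_ne_zero q)).mp h3

/-- If `p ∤ m` then `‖m • x‖ = ‖x‖`. (`C` has characteristic `p`, so `‖(m : C)‖ = 1`: it is a nonzero element of the image of `ZMod p`, a root of unity.) -/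
theorem norm_nsmul_of_not_dvd (L : Law C p n) (x : Pts L.G) {m : ℕ} (hm : ¬ p ∣ m) :
    ‖(m • x).v‖ = ‖x.v‖ := by
  apply le_antisymm (norm_nsmul_le L x m)
  by_cases hx : x.v = 0
  · rw [hx, norm_zero]
    exact norm_nonneg _
  by_contra hlt
  push Not at hlt
  have h1 := norm_nsmul_sub_mul_le L x m
  have hx1 : ‖x.v‖ ^ 2 < ‖x.v‖ := by
    have hpos : 0 < ‖x.v‖ := norm_pos_iff.mpr hx
    nlinarith [x.norm_lt]
  have h2 : (m : C) * x.v = (m • x).v - ((m • x).v - (m : C) * x.v) := by ring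
  have h3 : ‖(m : C) * x.v‖ = ‖x.v‖ := by
    rw [norm_mul, norm_natCast_of_not_dvd hm, one_mul]
  have h4 : ‖(m : C) * x.v‖ ≤ max ‖(m • x).v‖ ‖(m • x).v - (m : C) * x.v‖ := by
    conv_lhs => rw [h2, sub_eq_add_neg]
    refine (IsUltrametricDist.norm_add_le_max _ _).trans ?_
    rw [norm_neg]
  rw [h3] at h4
  exact absurd h4 (not_le.mpr (max_lt hlt (lt_of_le_of_lt h1 hx1)))

/-- The series `f₁(X) = ∂₂F(X, 0)`, the coefficient of `Y^1` in `F(X,Y)`. -/
noncomputable def f1 (G : FormalGroup (OC C)) : PowerSeries (OC C) :=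
  PowerSeries.mk fun j => MvPowerSeries.coeff (Finsupp.single (0 : Fin 2) j + Finsupp.single (1 : Fin 2) 1) G.toPowerSeries

/-- The injection `j ↦ (j, 1)`. -/
noncomputable def jOne (j : ℕ) : Fin 2 →₀ ℕ := Finsupp.single (0 : Fin 2) j + Finsupp.single (1 : Fin 2) 1

lemma jOne_zero (j : ℕ) : jOne j 0 = j := by
  simp [jOne]

lemma jOne_one (j : ℕ) : jOne j 1 = 1 := by
  simp [jOne]

lemma jOne_injective : Function.Injective jOne := by
  intro a b h
  have := congrArg (fun d : Fin 2 →₀ ℕ => d 0) h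
  simpa [jOne_zero] using this

lemma eq_jOne (d : Fin 2 →₀ ℕ) (h : d 1 = 1) : d = jOne (d 0) := by
  ext s
  fin_cases s
  · simp [jOne_zero]
  · simp [jOne_one, h]

/-- Expansion of the group law to first order in the second variable. -/
theorem norm_add_expand {G : FormalGroup (OC C)} (x y : Pts G) :
    ‖(x + y).v - x.v - ((ev1 (RingHom.id _) x.o (f1 G) : OC C) : C) * y.v‖ ≤ ‖y.v‖ ^ 2 := by
  classical
  have h1 := hasSum_Ev (RingHom.id (OC C)) ![x.o, y.o] (hb2 x y) G.toPowerSeries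
  have h2 := hasSum_Ev (RingHom.id (OC C)) ![x.o, (0 : Pts G).o] (hb2 x 0) G.toPowerSeries
  have e2 : Ev (RingHom.id (OC C)) ![x.o, (0 : Pts G).o] G.toPowerSeries = x.o := by
    rw [← Pts.add_o, Pts.add_zero']
  rw [e2] at h2
  have h3 := (hasSum_ev1 (RingHom.id (OC C)) x.norm_o_lt (f1 G)).mul_right y.o
  have h3' : HasSum (fun d : Fin 2 →₀ ℕ => if d 1 = 1 then
      MvPowerSeries.coeff d G.toPowerSeries * x.o ^ d 0 * y.o else 0) (ev1 (RingHom.id _) x.o (f1 G) * y.o) := by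
    have hinj := jOne_injective
    refine (hinj.hasSum_iff ?_).mp ?_
    · intro d hd
      rw [if_neg]
      intro h1d
      exact hd ⟨d 0, (eq_jOne d h1d).symm⟩
    · have e : (fun d : Fin 2 →₀ ℕ => if d 1 = 1 then
          MvPowerSeries.coeff d G.toPowerSeries * x.o ^ d 0 * y.o else 0) ∘ jOne =
          fun i => (RingHom.id (OC C)) (PowerSeries.coeff i (f1 G)) * x.o ^ i * y.o := by
        funext j
        simp only [Function.comp, jOne_zero, jOne_one, if_true, RingHom.id_apply, f1, PowerSeries.coeff_mk]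
        rfl
      rw [e]
      exact h3
  have h := (h1.sub h2).sub h3'
  have hb : ‖(((x + y).o - x.o - ev1 (RingHom.id _) x.o (f1 G) * y.o : OC C) : C)‖ ≤ ‖y.v‖ ^ 2 := by
    refine norm_sum_le_of_hasSum h (by positivity) ?_
    intro d
    simp only [prod_two, RingHom.id_apply]
    have h0 : (0 : Pts G).o = (0 : OC C) := rfl
    rw [h0]
    by_cases hd0 : d 1 = 0
    · simp [hd0]
    by_cases hd1 : d 1 = 1
    · rw [if_pos hd1, hd1, zero_pow one_ne_zero, pow_one]
      have e : MvPowerSeries.coeff d G.toPowerSeries * (x.o ^ d 0 * y.o) -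
          MvPowerSeries.coeff d G.toPowerSeries * (x.o ^ d 0 * 0) -
          MvPowerSeries.coeff d G.toPowerSeries * x.o ^ d 0 * y.o = 0 := by ring
      rw [e]
      simp
    have h2d : 2 ≤ d 1 := by omega
    rw [if_neg hd1, zero_pow hd0]
    have e : (MvPowerSeries.coeff d G.toPowerSeries * (x.o ^ d 0 * y.o ^ d 1) -
        MvPowerSeries.coeff d G.toPowerSeries * (x.o ^ d 0 * 0) - 0 : OC C) =
        (MvPowerSeries.coeff d G.toPowerSeries * x.o ^ d 0) * y.o ^ d 1 := by ring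
    rw [e]
    have e5 : (((MvPowerSeries.coeff d G.toPowerSeries * x.o ^ d 0) * y.o ^ d 1 : OC C) : C) =
        ((MvPowerSeries.coeff d G.toPowerSeries * x.o ^ d 0 : OC C) : C) * ((y.o ^ d 1 : OC C) : C) := rfl
    rw [e5, norm_mul]
    exact (mul_le_of_le_one_left (norm_nonneg _) (norm_OC_le _)).trans (norm_pow_two_le_of_two_le _ h2d)
  exact hb

/-- The value of `f₁` is a unit. -/
theorem norm_f1_sub_one {G : FormalGroup (OC C)} (x : Pts G) :
    ‖((ev1 (RingHom.id _) x.o (f1 G) : OC C) : C) - 1‖ ≤ ‖x.v‖ := by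
  classical
  have h1 := hasSum_ev1 (RingHom.id (OC C)) x.norm_o_lt (f1 G)
  have h2 : HasSum (fun j : ℕ => if j = 0 then (1 : OC C) else 0) 1 := hasSum_ite_eq 0 1
  have h := h1.sub h2
  have hb : ‖((ev1 (RingHom.id _) x.o (f1 G) - 1 : OC C) : C)‖ ≤ ‖x.v‖ := by
    refine norm_sum_le_of_hasSum h (norm_nonneg _) ?_
    intro j
    by_cases hj : j = 0
    · subst hj
      have : PowerSeries.coeff 0 (f1 G) = 1 := by
        simp only [f1, PowerSeries.coeff_mk]
        rw [Finsupp.single_zero, zero_add]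
        exact G.lin_coeff_Y
      simp [this]
    · rw [if_neg hj, sub_zero, RingHom.id_apply]
      have e5 : ((PowerSeries.coeff j (f1 G) * x.o ^ j : OC C) : C) =
          ((PowerSeries.coeff j (f1 G) : OC C) : C) * ((x.o ^ j : OC C) : C) := rfl
      rw [e5, norm_mul]
      exact (mul_le_of_le_one_left (norm_nonneg _) (norm_OC_le _)).trans (norm_pow_le_of_ne_zero _ hj)
  exact hb

/-- Comparison of `f₁` for two close group laws at two close points. -/
theorem norm_f1_sub_f1 {G G' : FormalGroup (OC C)} (x : Pts G) (x' : Pts G') {ε : ℝ} (hε : 0 ≤ ε)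
    (hc : ∀ d, ‖((MvPowerSeries.coeff d G.toPowerSeries : OC C) : C) - (MvPowerSeries.coeff d G'.toPowerSeries : OC C)‖ ≤ ε)
    (hx : ‖x.v - x'.v‖ ≤ ε) :
    ‖((ev1 (RingHom.id _) x.o (f1 G) : OC C) : C) - (ev1 (RingHom.id _) x'.o (f1 G') : OC C)‖ ≤ ε := by
  refine norm_Ev_sub_le _ _ _ _ (fun _ => x.norm_lt) (fun _ => x'.norm_lt) _ _ hε ?_ (fun _ => hx)
  intro d
  simp only [RingHom.id_apply]
  rw [coeff_unit, coeff_unit]
  simp only [f1, PowerSeries.coeff_mk]
  exact hc _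

end Vale.Agent.Lib.P217
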