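import Vale.Agent.Lib.P217.SmallDisc
import Vale.Agent.Lib.P217.GroupExp

set_option linter.unusedSectionVars false
set_option linter.unusedVariables false

namespace Vale.Agent.Lib.P217

open scoped Topology
open Filter

variable {C : Type*} [NormedField C] [IsUltrametricDist C] [CompleteSpace C]
variable {p n : ℕ} [hp : Fact p.Prime] [CharP C p] [IsAlgClosed C]

/-- The main term: `b * B_j / ϖ ^ (p ^ j) → 1`. -/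
lemma asymp_R {L₀ L : Law C p n} (hb : IsBase L₀) (hcL : Close L₀ L)
    (ℒ : ℕ → Law C p n) (hcℒ : ∀ j, Close L₀ (ℒ j)) (hcc : ∀ j, (ℒ j).c ≤ L.c)
    {A : ℝ} (hA0 : 0 ≤ A) (hA1 : A < 1)
    (hε : ∀ j d, ‖((MvPowerSeries.coeff d (ℒ j).G.toPowerSeries : OC C) : C) - (MvPowerSeries.coeff d L.G.toPowerSeries : OC C)‖ ≤ A ^ (p ^ j))
    (hεp : ∀ j, ‖((PowerSeries.coeff p (mulSeries (ℒ j).G p) : OC C) : C) - (PowerSeries.coeff p (mulSeries L.G p) : OC C)‖ ≤ A ^ (p ^ j))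
    (b : C) (hb0 : ((PowerSeries.coeff p (mulSeries L.G p) : OC C) : C) ≠ 0)
    (hbp : b ^ (p - 1) = ((PowerSeries.coeff p (mulSeries L.G p) : OC C) : C))
    (y : Pts L₀.G) (hy : ‖y.v‖ ≤ L.c) (ζ : ℕ → Pts L₀.G) (hζ : ∀ j, ‖(ζ j).v‖ ≤ L.c)
    (r s u : ℕ) (hu : ¬ p ∣ u)
    (hZ0 : ((p ^ r) • mu L₀ L y).v ≠ 0)
    (hr : (L.c ^ (p ^ r)) ^ p < ‖((PowerSeries.coeff p (mulSeries L.G p) : OC C) : C)‖)
    (hs : L.c ^ (p ^ s) < ‖((p ^ r) • mu L₀ L y).v‖)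
    (hϖ0 : b * (u • ((p ^ r) • mu L₀ L y)).v ≠ 0) :
    Tendsto (fun j : ℕ =>
      b * (mu L₀ (ℒ j) ((p ^ j) • (p ^ r) • (u • y + (p ^ s) • ζ j))).v /
        (b * (u • ((p ^ r) • mu L₀ L y)).v) ^ (p ^ j)) atTop (𝓝 1) := by
  classical
  have hpp : p.Prime := hp.out
  have hp1 : 1 < p := hpp.one_lt
  have hp0 : 0 < p := hpp.pos
  have hc0 : 0 ≤ L.c := L.c_nonneg
  have hc1 : L.c < 1 := L.c_lt_one
  obtain ⟨a, hadef⟩ : ∃ a : C, a = ((PowerSeries.coeff p (mulSeries L.G p) : OC C) : C) := ⟨_, rfl⟩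
  rw [← hadef] at hb0 hbp hr
  obtain ⟨Z, hZdef⟩ : ∃ Z : Pts L.G, Z = (p ^ r) • mu L₀ L y := ⟨_, rfl⟩
  rw [← hZdef] at hZ0 hs hϖ0 ⊢
  obtain ⟨Ω, hΩdef⟩ : ∃ Ω : Pts L.G, Ω = u • Z := ⟨_, rfl⟩
  rw [← hΩdef] at hϖ0 ⊢
  have hz0 : 0 < ‖Z.v‖ := norm_pos_iff.mpr hZ0
  have hΩnorm : ‖Ω.v‖ = ‖Z.v‖ := by rw [hΩdef]; exact norm_nsmul_of_not_dvd L Z hu
  have hΩ0 : Ω.v ≠ 0 := by rw [← norm_pos_iff, hΩnorm]; exact hz0
  have ha0 : 0 < ‖a‖ := norm_pos_iff.mpr hb0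
  -- the parameters
  have hpow_tend : Tendsto (fun j : ℕ => p ^ j) atTop atTop :=
    tendsto_pow_atTop_atTop_of_one_lt hp1
  have hε_tend : Tendsto (fun j : ℕ => A ^ (p ^ j)) atTop (𝓝 0) :=
    (tendsto_pow_atTop_nhds_zero_of_lt_one hA0 hA1).comp hpow_tend
  obtain ⟨τ, hτdef⟩ : ∃ τ : ℝ, τ = (L.c ^ (p ^ s) + ‖Z.v‖) / 2 := ⟨_, rfl⟩
  have hτ1 : L.c ^ (p ^ s) < τ := by rw [hτdef]; linarith
  have hτ2 : τ < ‖Z.v‖ := by rw [hτdef]; linarith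
  have hτ0 : 0 < τ := lt_of_le_of_lt (pow_nonneg hc0 _) hτ1
  obtain ⟨ηs, hηsdef⟩ : ∃ ηs : ℝ, ηs = τ / ‖Z.v‖ := ⟨_, rfl⟩
  have hηs0 : 0 ≤ ηs := by rw [hηsdef]; positivity
  have hηs1 : ηs < 1 := by rw [hηsdef, div_lt_one hz0]; exact hτ2
  obtain ⟨ρ, hρdef⟩ : ∃ ρ : ℝ, ρ = L.c ^ (p ^ r) := ⟨_, rfl⟩
  have hρ0 : 0 ≤ ρ := by rw [hρdef]; positivity
  rw [← hρdef] at hr
  obtain ⟨θ, hθdef⟩ : ∃ θ : ℝ, θ = ρ ^ p / ‖a‖ := ⟨_, rfl⟩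
  have hθ0 : 0 ≤ θ := by rw [hθdef]; positivity
  have hθ1 : θ < 1 := by rw [hθdef, div_lt_one ha0]; exact hr
  -- the bound
  have hg1 : Tendsto (fun j : ℕ => ηs ^ (p ^ j)) atTop (𝓝 0) :=
    (tendsto_pow_atTop_nhds_zero_of_lt_one hηs0 hηs1).comp hpow_tend
  have hg2 : Tendsto (fun j : ℕ => A ^ (p ^ j) / ‖a‖) atTop (𝓝 0) := by
    simpa using hε_tend.div_const ‖a‖
  have hg3 : Tendsto (fun j : ℕ => θ ^ (p ^ (j - 1))) atTop (𝓝 0) :=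
    (tendsto_pow_atTop_nhds_zero_of_lt_one hθ0 hθ1).comp
      (hpow_tend.comp (tendsto_sub_atTop_nat 1))
  have hg : Tendsto (fun j : ℕ => max (ηs ^ (p ^ j)) (max (A ^ (p ^ j) / ‖a‖) (θ ^ (p ^ (j - 1)))))
      atTop (𝓝 0) := by
    have := hg1.max (hg2.max hg3)
    simpa using this
  rw [tendsto_iff_norm_sub_tendsto_zero]
  refine squeeze_zero' (Eventually.of_forall fun _ => norm_nonneg _) ?_ hg
  have hev1 : ∀ᶠ j in atTop, A ^ (p ^ j) < τ := hε_tend.eventually (gt_mem_nhds hτ0)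
  have hev2 : ∀ᶠ j in atTop, A ^ (p ^ j) < ‖a‖ := hε_tend.eventually (gt_mem_nhds ha0)
  filter_upwards [hev1, hev2, eventually_gt_atTop 0] with j hj1 hj2 hj3
  obtain ⟨l, rfl⟩ : ∃ l, j = l + 1 := ⟨j - 1, by omega⟩
  have hε0 : (0 : ℝ) ≤ A ^ (p ^ (l + 1)) := by positivity
  -- the point `Ω_j`
  obtain ⟨w, hwdef⟩ : ∃ w : Pts L₀.G, w = u • y + (p ^ s) • ζ (l + 1) := ⟨_, rfl⟩
  obtain ⟨Ωj, hΩjdef⟩ : ∃ Ωj : Pts (ℒ (l + 1)).G, Ωj = (p ^ r) • mu L₀ (ℒ (l + 1)) w := ⟨_, rfl⟩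
  have hB : mu L₀ (ℒ (l + 1)) ((p ^ (l + 1)) • (p ^ r) • w) = (p ^ (l + 1)) • Ωj := by
    rw [mu_nsmul hb (hcℒ _), mu_nsmul hb (hcℒ _), hΩjdef]
  rw [← hwdef, hB]
  -- norm of `Ω_j`
  have hwnorm : ‖w.v‖ ≤ L.c := by
    rw [hwdef]
    refine (norm_add_le _ _ _).trans (max_le ?_ ?_)
    · exact (norm_nsmul_le L₀ y u).trans hy
    · exact (norm_nsmul_le L₀ _ _).trans (hζ _)
  have hμnorm : ∀ x : Pts L₀.G, ‖x.v‖ ≤ L.c → ‖(mu L₀ (ℒ (l + 1)) x).v‖ ≤ L.c := fun x hx =>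
    (norm_mu_le _ x).trans (max_le hx (hcc _))
  have hΩjnorm : ‖Ωj.v‖ ≤ ρ := by
    rw [hΩjdef, hρdef]
    exact (norm_nsmul_pow_le _ _ r).trans (pow_le_pow_left₀ (norm_nonneg _) (hμnorm w hwnorm) _)
  -- comparison of `Ω_j` with `Ω`
  have hmuy : ‖(mu L₀ (ℒ (l + 1)) y).v - (mu L₀ L y).v‖ ≤ A ^ (p ^ (l + 1)) :=
    norm_mu_sub_mu_le hε0 (hε _) y
  obtain ⟨X, hXdef⟩ : ∃ X : Pts (ℒ (l + 1)).G, X = (u * p ^ r) • mu L₀ (ℒ (l + 1)) y := ⟨_, rfl⟩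
  obtain ⟨W, hWdef⟩ : ∃ W : Pts (ℒ (l + 1)).G,
      W = (p ^ r) • (p ^ s) • mu L₀ (ℒ (l + 1)) (ζ (l + 1)) := ⟨_, rfl⟩
  have hΩjsplit : Ωj = X + W := by
    rw [hΩjdef, hwdef, mu_add hb (hcℒ _), mu_nsmul hb (hcℒ _), mu_nsmul hb (hcℒ _), nsmul_add,
      hXdef, hWdef, mul_comm u, mul_nsmul']
  have hXΩ : ‖X.v - Ω.v‖ ≤ A ^ (p ^ (l + 1)) := by
    have h1 := norm_nsmul_sub_nsmul_le hε0 (hε _) _ _ hmuy (u * p ^ r)
    have h2 : (u * p ^ r) • mu L₀ L y = Ω := by rw [hΩdef, hZdef, mul_nsmul']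
    rwa [h2, ← hXdef] at h1
  have hWnorm : ‖W.v‖ ≤ L.c ^ (p ^ s) := by
    rw [hWdef]
    refine (norm_nsmul_le _ _ _).trans ((norm_nsmul_pow_le _ _ s).trans ?_)
    exact pow_le_pow_left₀ (norm_nonneg _) (hμnorm _ (hζ _)) _
  have hΩjΩ : ‖Ωj.v - Ω.v‖ ≤ τ := by
    have e : Ωj.v - Ω.v = (Ωj.v - X.v) + (X.v - Ω.v) := by ring
    rw [e]
    refine (IsUltrametricDist.norm_add_le_max _ _).trans (max_le ?_ (hXΩ.trans hj1.le))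
    rw [hΩjsplit]
    exact (norm_add_sub_left _ _).trans (hWnorm.trans hτ1.le)
  -- the ratio `η`
  obtain ⟨η, hηdef⟩ : ∃ η : C, η = (Ωj.v - Ω.v) / Ω.v := ⟨_, rfl⟩
  have hΩjη : Ωj.v = Ω.v * (1 + η) := by
    rw [hηdef]; field_simp; ring
  have hηnorm : ‖η‖ ≤ ηs := by
    rw [hηdef, norm_div, hΩnorm, hηsdef]
    exact div_le_div_of_nonneg_right hΩjΩ hz0.le
  have hη1 : ‖η‖ < 1 := lt_of_le_of_lt hηnorm hηs1
  have h1η : ‖1 + η‖ = 1 := by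
    apply le_antisymm
    · exact (IsUltrametricDist.norm_add_le_max _ _).trans (max_le (by simp) hη1.le)
    · by_contra hlt
      push Not at hlt
      have e : (1 : C) = (1 + η) + (-η) := by ring
      have h2 : ‖(1 : C)‖ ≤ max ‖1 + η‖ ‖-η‖ := by
        conv_lhs => rw [e]
        exact IsUltrametricDist.norm_add_le_max _ _
      rw [norm_one, norm_neg] at h2
      exact absurd h2 (not_le.mpr (max_lt hlt hη1))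
  have hΩj0 : Ωj.v ≠ 0 := by
    rw [hΩjη]
    refine mul_ne_zero hΩ0 ?_
    rw [← norm_pos_iff, h1η]
    exact one_pos
  -- the small disc law
  have hξ1 : A ^ (p ^ (l + 1)) / ‖a‖ < 1 := (div_lt_one ha0).mpr hj2
  have hcoeff : ‖((PowerSeries.coeff p (mulSeries (ℒ (l + 1)).G p) : OC C) : C) - a‖ ≤
      A ^ (p ^ (l + 1)) / ‖a‖ * ‖a‖ := by
    rw [div_mul_cancel₀ _ ha0.ne', hadef]
    exact hεp _
  obtain ⟨ζ', hζ'1, hζ'2⟩ := smalldisc_iter (ℒ (l + 1)) hb0 hbp (by positivity) hξ1 hcoeff hρ0 hθdef hθ1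
    Ωj hΩjnorm hΩj0 l
  -- conclusion
  have hϖpow : (b * Ωj.v) ^ (p ^ (l + 1)) =
      (b * Ω.v) ^ (p ^ (l + 1)) * (1 + η ^ (p ^ (l + 1))) := by
    rw [hΩjη, ← mul_assoc, mul_pow _ (1 + η), add_pow_char_pow, one_pow]
  have hϖpow0 : (b * Ω.v) ^ (p ^ (l + 1)) ≠ 0 := pow_ne_zero _ hϖ0
  have hval : b * ((p ^ (l + 1)) • Ωj).v / (b * Ω.v) ^ (p ^ (l + 1)) - 1 =
      η ^ (p ^ (l + 1)) + ζ' + η ^ (p ^ (l + 1)) * ζ' := by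
    rw [hζ'1, hϖpow]
    field_simp
    ring
  rw [hval]
  have hun : ‖η ^ (p ^ (l + 1))‖ ≤ ηs ^ (p ^ (l + 1)) := by
    rw [norm_pow]
    exact pow_le_pow_left₀ (norm_nonneg _) hηnorm _
  have hwn : ‖ζ'‖ ≤ max (A ^ (p ^ (l + 1)) / ‖a‖) (θ ^ (p ^ (l + 1 - 1))) := by
    simpa using hζ'2
  have hwn1 : ‖ζ'‖ ≤ 1 := by
    refine hζ'2.trans (max_le hξ1.le ?_)
    exact pow_le_one₀ hθ0 hθ1.le
  refine (IsUltrametricDist.norm_add_le_max _ _).trans (max_le ?_ ?_)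
  · refine (IsUltrametricDist.norm_add_le_max _ _).trans (max_le ?_ ?_)
    · exact le_max_of_le_left hun
    · exact le_max_of_le_right hwn
  · rw [norm_mul]
    refine le_max_of_le_left ?_
    exact (mul_le_of_le_one_right (norm_nonneg _) hwn1).trans hun

/-- The asymptotic formula.  `L₀` is the base law, `L` a close law and `ℒ j` a sequence of close laws, with constant at most `c = L.c`, converging to `L` at the rate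
`ε j = A ^ (p ^ j)`, `A < 1`.  Let `a = coeff_p [p]_L ≠ 0`, `b ^ (p - 1) = a`.  Let `y ∈ Pts L₀.G` with `‖y‖ ≤ c`, and `ζ j` with `‖ζ j‖ ≤ c`, and put
`d j = p^j • p^r • (u • y + p^s • ζ j)`, `p ∤ u`.  Put `Z = p^r • μ_L y ≠ 0`, `ϖ = b * (u • Z).v`, with `(c ^ (p ^ r)) ^ p < ‖a‖`, and `c ^ (p ^ s) < ‖Z‖`, `A < ‖ϖ‖`.
For any `α` put `z = μ_L α`, `ψ = f₁(z)`. Then
`(μ_j α +_j μ_j (d j)) - z = (ψ / b) * ϖ ^ (p ^ j) * (1 + o(1))`, as `j → ∞`.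

Proof.  Let `Ω_j = p^r • μ_j (u • y + p^s • ζ j) = u • (p^r • μ_j y) + p^(r+s) • μ_j (ζ j)`, `Ω = u • Z`.  By `norm_mu_sub_mu_le` and `norm_nsmul_sub_nsmul_le`,
`‖u • p^r • μ_j y - Ω‖ ≤ ε j`, and `‖p^(r+s) • μ_j (ζ j)‖ ≤ c ^ (p ^ (r + s)) ≤ c ^ (p ^ s)`, where `‖μ_j x‖ ≤ max ‖x‖ c`.  So with `norm_add_sub_left`, `Ω_j = Ω (1 + η_j)`, `‖η_j‖ ≤ η := max (c^(p^s)) (ε j) / ‖Z‖ < 1`, for large `j`, noting `‖u • Z‖ = ‖Z‖` by `norm_nsmul_of_not_dvd`.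
Since `μ_j (d j) = p^j • Ω_j =: B_j` (`mu_nsmul`, `mu_add`), by `smalldisc_iter` (applied to `Y = Ω_j`, `ρ = c ^ (p^r)`, `ξ = ε j / ‖a‖`, `θ = ρ^p / ‖a‖`),
`b * B_j = (b Ω_j) ^ (p ^ j) * (1 + ζ'_j)`, `‖ζ'_j‖ ≤ max (ε j / ‖a‖) (θ ^ (p ^ (j-1)))`, and `(b Ω_j) ^ (p ^ j) = ϖ ^ (p ^ j) (1 + η_j ^ (p ^ j))`.
Therefore `b * B_j = ϖ ^ (p ^ j) (1 + o₁ j)`, `o₁ → 0`.
By `norm_add_expand`, with `A_j = μ_j α`, `‖A_j - z‖ ≤ ε j`: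
`(A_j +_j B_j) - z = (A_j - z) + ψ B_j + (f₁(A_j) - ψ) B_j + O(‖B_j‖ ^ 2)`, where `‖ψ‖ = 1` (`norm_f1_sub_one`), `‖f₁(A_j) - ψ‖ ≤ ε j` (`norm_f1_sub_f1`).
Dividing by the main term `(ψ / b) ϖ ^ (p ^ j)`, of norm `‖ϖ‖ ^ (p ^ j) / ‖b‖`: the terms are at most `‖b‖ (A / ‖ϖ‖) ^ (p ^ j)`, and `1 + o₁`, and `ε j (1 + ..)`, and `‖B_j‖ (1 + ..)`, with limit `1`. -/
theorem asymp_main {L₀ L : Law C p n} (hb : IsBase L₀) (hcL : Close L₀ L)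
    (ℒ : ℕ → Law C p n) (hcℒ : ∀ j, Close L₀ (ℒ j)) (hcc : ∀ j, (ℒ j).c ≤ L.c)
    {A : ℝ} (hA0 : 0 ≤ A) (hA1 : A < 1)
    (hε : ∀ j d, ‖((MvPowerSeries.coeff d (ℒ j).G.toPowerSeries : OC C) : C) - (MvPowerSeries.coeff d L.G.toPowerSeries : OC C)‖ ≤ A ^ (p ^ j))
    (hεp : ∀ j, ‖((PowerSeries.coeff p (mulSeries (ℒ j).G p) : OC C) : C) - (PowerSeries.coeff p (mulSeries L.G p) : OC C)‖ ≤ A ^ (p ^ j))
    (b : C) (hb0 : ((PowerSeries.coeff p (mulSeries L.G p) : OC C) : C) ≠ 0)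
    (hbp : b ^ (p - 1) = ((PowerSeries.coeff p (mulSeries L.G p) : OC C) : C))
    (y : Pts L₀.G) (hy : ‖y.v‖ ≤ L.c) (ζ : ℕ → Pts L₀.G) (hζ : ∀ j, ‖(ζ j).v‖ ≤ L.c)
    (r s u : ℕ) (hu : ¬ p ∣ u)
    (hZ0 : ((p ^ r) • mu L₀ L y).v ≠ 0)
    (hr : (L.c ^ (p ^ r)) ^ p < ‖((PowerSeries.coeff p (mulSeries L.G p) : OC C) : C)‖)
    (hs : L.c ^ (p ^ s) < ‖((p ^ r) • mu L₀ L y).v‖)
    (hAϖ : A < ‖b * (u • ((p ^ r) • mu L₀ L y)).v‖)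
    (α : Pts L₀.G) :
    Tendsto (fun j : ℕ =>
      ((mu L₀ (ℒ j) α + mu L₀ (ℒ j) ((p ^ j) • (p ^ r) • (u • y + (p ^ s) • ζ j))).v - (mu L₀ L α).v) /
        (((ev1 (RingHom.id _) (mu L₀ L α).o (f1 L.G) : OC C) : C) / b * (b * (u • ((p ^ r) • mu L₀ L y)).v) ^ (p ^ j)))
      atTop (𝓝 1) := by
  classical
  have hpp : p.Prime := hp.out
  have hp1 : 1 < p := hpp.one_lt
  have hϖpos : 0 < ‖b * (u • ((p ^ r) • mu L₀ L y)).v‖ := lt_of_le_of_lt hA0 hAϖ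
  have hϖ0 : b * (u • ((p ^ r) • mu L₀ L y)).v ≠ 0 := norm_pos_iff.mp hϖpos
  have hbne : b ≠ 0 := left_ne_zero_of_mul hϖ0
  have hR := asymp_R hb hcL ℒ hcℒ hcc hA0 hA1 hε hεp b hb0 hbp y hy ζ hζ r s u hu hZ0 hr hs hϖ0
  obtain ⟨ϖ, hϖdef⟩ : ∃ ϖ : C, ϖ = b * (u • ((p ^ r) • mu L₀ L y)).v := ⟨_, rfl⟩
  rw [← hϖdef] at hAϖ hϖpos hϖ0 hR ⊢
  -- `‖ϖ‖ < 1`
  have hbnorm : ‖b‖ ≤ 1 := by
    by_contra hcon
    push Not at hcon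
    have h1 : ‖b‖ ^ (p - 1) = ‖((PowerSeries.coeff p (mulSeries L.G p) : OC C) : C)‖ := by
      rw [← norm_pow, hbp]
    have h2 : 1 < ‖b‖ ^ (p - 1) := one_lt_pow₀ hcon (by omega)
    have h3 := norm_OC_le (PowerSeries.coeff p (mulSeries L.G p))
    linarith
  have hϖ1 : ‖ϖ‖ < 1 := by
    rw [hϖdef, norm_mul]
    exact lt_of_le_of_lt (mul_le_of_le_one_left (norm_nonneg _) hbnorm) (Pts.norm_lt _)
  have hpow_tend : Tendsto (fun j : ℕ => p ^ j) atTop atTop :=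
    tendsto_pow_atTop_atTop_of_one_lt hp1
  have hε_tend : Tendsto (fun j : ℕ => A ^ (p ^ j)) atTop (𝓝 0) :=
    (tendsto_pow_atTop_nhds_zero_of_lt_one hA0 hA1).comp hpow_tend
  have hϖ_tend : Tendsto (fun j : ℕ => ϖ ^ (p ^ j)) atTop (𝓝 0) :=
    (tendsto_pow_atTop_nhds_zero_of_norm_lt_one hϖ1).comp hpow_tend
  -- the value `ψ`
  obtain ⟨z, hzdef⟩ : ∃ z : Pts L.G, z = mu L₀ L α := ⟨_, rfl⟩
  rw [← hzdef]
  obtain ⟨ψ, hψdef⟩ : ∃ ψ : C, ψ = ((ev1 (RingHom.id _) z.o (f1 L.G) : OC C) : C) := ⟨_, rfl⟩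
  rw [← hψdef]
  have hψ1 : ‖ψ - 1‖ < 1 := by
    rw [hψdef]; exact lt_of_le_of_lt (norm_f1_sub_one z) z.norm_lt
  have hψnorm : ‖ψ‖ = 1 := by
    apply le_antisymm
    · have e : ψ = (ψ - 1) + 1 := by ring
      rw [e]
      exact (IsUltrametricDist.norm_add_le_max _ _).trans (max_le hψ1.le (by simp))
    · by_contra hlt
      push Not at hlt
      have e : (1 : C) = ψ + (-(ψ - 1)) := by ring
      have h2 : ‖(1 : C)‖ ≤ max ‖ψ‖ ‖-(ψ - 1)‖ := by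
        conv_lhs => rw [e]
        exact IsUltrametricDist.norm_add_le_max _ _
      rw [norm_one, norm_neg] at h2
      exact absurd h2 (not_le.mpr (max_lt hlt hψ1))
  have hψ0 : ψ ≠ 0 := by rw [← norm_pos_iff, hψnorm]; exact one_pos
  -- the sequences
  let Aj : ∀ j, Pts (ℒ j).G := fun j => mu L₀ (ℒ j) α
  let Bj : ∀ j, Pts (ℒ j).G := fun j => mu L₀ (ℒ j) ((p ^ j) • (p ^ r) • (u • y + (p ^ s) • ζ j))
  let fj : ℕ → C := fun j => ((ev1 (RingHom.id _) (Aj j).o (f1 (ℒ j).G) : OC C) : C)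
  let R : ℕ → C := fun j => b * (Bj j).v / ϖ ^ (p ^ j)
  have hR' : Tendsto R atTop (𝓝 1) := hR
  have hBv : ∀ j, (Bj j).v = R j * ϖ ^ (p ^ j) / b := fun j => by
    simp only [R]
    have : ϖ ^ (p ^ j) ≠ 0 := pow_ne_zero _ hϖ0
    field_simp
  have hAz : ∀ j, ‖(Aj j).v - z.v‖ ≤ A ^ (p ^ j) := fun j => by
    rw [hzdef]
    exact norm_mu_sub_mu_le (by positivity) (hε j) α
  have hff : ∀ j, ‖fj j - ψ‖ ≤ A ^ (p ^ j) := fun j => by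
    rw [hψdef]
    exact norm_f1_sub_f1 _ _ (by positivity) (hε j) (hAz j)
  -- the three terms
  have hMne : ∀ j, ψ / b * ϖ ^ (p ^ j) ≠ 0 := fun j =>
    mul_ne_zero (div_ne_zero hψ0 hbne) (pow_ne_zero _ hϖ0)
  have hMnorm : ∀ j, ‖ψ / b * ϖ ^ (p ^ j)‖ = ‖ϖ‖ ^ (p ^ j) / ‖b‖ := fun j => by
    rw [norm_mul, norm_div, hψnorm, norm_pow]; ring
  have hbpos : 0 < ‖b‖ := norm_pos_iff.mpr hbne
  -- term 1
  have ht1 : Tendsto (fun j => ((Aj j).v - z.v) / (ψ / b * ϖ ^ (p ^ j))) atTop (𝓝 0) := by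
    rw [tendsto_zero_iff_norm_tendsto_zero]
    have hq : A / ‖ϖ‖ < 1 := (div_lt_one hϖpos).mpr hAϖ
    have hq0 : 0 ≤ A / ‖ϖ‖ := by positivity
    have h0 : Tendsto (fun j : ℕ => ‖b‖ * (A / ‖ϖ‖) ^ (p ^ j)) atTop (𝓝 0) := by
      simpa using ((tendsto_pow_atTop_nhds_zero_of_lt_one hq0 hq).comp hpow_tend).const_mul ‖b‖
    refine squeeze_zero (fun _ => norm_nonneg _) (fun j => ?_) h0
    rw [norm_div, hMnorm, div_pow]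
    have h1 : 0 < ‖ϖ‖ ^ (p ^ j) := by positivity
    rw [div_le_iff₀ (by positivity)]
    have h2 : ‖b‖ * (A ^ (p ^ j) / ‖ϖ‖ ^ (p ^ j)) * (‖ϖ‖ ^ (p ^ j) / ‖b‖) = A ^ (p ^ j) := by
      field_simp
    rw [h2]
    exact hAz j
  -- term 2
  have ht2 : Tendsto (fun j => fj j / ψ * R j) atTop (𝓝 1) := by
    have h0 : Tendsto fj atTop (𝓝 ψ) := by
      rw [tendsto_iff_norm_sub_tendsto_zero]
      exact squeeze_zero (fun _ => norm_nonneg _) hff hε_tend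
    have h1 := (h0.div_const ψ).mul hR'
    rwa [div_self hψ0, one_mul] at h1
  -- term 3
  have hBtend : Tendsto (fun j => (Bj j).v) atTop (𝓝 0) := by
    have h0 := (hR'.mul hϖ_tend).div_const b
    simp only [mul_zero, zero_div] at h0
    exact h0.congr fun j => (hBv j).symm
  have ht3 : Tendsto (fun j => ((Aj j + Bj j).v - (Aj j).v - fj j * (Bj j).v) /
      (ψ / b * ϖ ^ (p ^ j))) atTop (𝓝 0) := by
    rw [tendsto_zero_iff_norm_tendsto_zero]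
    have h0 : Tendsto (fun j => ‖(Bj j).v‖ * ‖R j / ψ‖) atTop (𝓝 0) := by
      have h1 := hBtend.norm.mul (hR'.div_const ψ).norm
      simpa using h1
    refine squeeze_zero (fun _ => norm_nonneg _) (fun j => ?_) h0
    rw [norm_div, div_le_iff₀ (norm_pos_iff.mpr (hMne j))]
    refine (norm_add_expand (Aj j) (Bj j)).trans (le_of_eq ?_)
    have h2 : (Bj j).v = R j / ψ * (ψ / b * ϖ ^ (p ^ j)) := by
      rw [hBv j]; field_simp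
    conv_lhs => rw [pow_two]; arg 2; rw [h2]
    rw [norm_mul (R j / ψ), mul_assoc]
  have hsum := (ht1.add ht2).add ht3
  rw [zero_add, add_zero] at hsum
  refine hsum.congr fun j => ?_
  have h2 : (Bj j).v = R j / ψ * (ψ / b * ϖ ^ (p ^ j)) := by
    rw [hBv j]; field_simp
  have hM := hMne j
  change ((Aj j).v - z.v) / (ψ / b * ϖ ^ (p ^ j)) + fj j / ψ * R j +
    ((Aj j + Bj j).v - (Aj j).v - fj j * (Bj j).v) / (ψ / b * ϖ ^ (p ^ j)) =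
    ((Aj j + Bj j).v - z.v) / (ψ / b * ϖ ^ (p ^ j))
  have h3 : fj j / ψ * R j = fj j * (Bj j).v / (ψ / b * ϖ ^ (p ^ j)) := by
    rw [h2]; field_simp
  rw [h3, ← add_div, ← add_div]
  congr 1
  ring

end Vale.Agent.Lib.P217
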