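import Mathlib

set_option linter.unusedSectionVars false
set_option linter.unusedVariables false

namespace Vale.Agent.Lib.P217

open Polynomial

/-- Second order expansion of a power of `1 + z` in a commutative ring. -/
theorem one_add_pow_expand {R : Type*} [CommRing R] (z : R) (n : ℕ) :
    ∃ h : R, (1 + z) ^ n = 1 + (n : R) * z + z ^ 2 * h := by
  induction n with
  | zero => exact ⟨0, by simp⟩
  | succ n ih =>
    obtain ⟨h, hh⟩ := ih
    refine ⟨(n : R) + h + z * h, ?_⟩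
    rw [pow_succ, hh]
    push_cast
    ring

/-- The power `p ^ T` step of the binomial lemma. -/
theorem exists_binom_aux (p : ℕ) (s T : ℕ) :
    ∃ g : ℤ[X], ((1 + (C (p : ℤ)) ^ (s + 1) * X) ^ (p ^ T) : ℤ[X]) =
      1 + (C (p : ℤ)) ^ (T + s + 1) * (X + (C (p : ℤ)) ^ s * g) := by
  induction T with
  | zero =>
    refine ⟨0, ?_⟩
    simp
  | succ T ih =>
    obtain ⟨g, hg⟩ := ih
    set P : ℤ[X] := C (p : ℤ) with hP
    set Y : ℤ[X] := X + P ^ s * g with hY
    obtain ⟨h, hh⟩ := one_add_pow_expand (P ^ (T + s + 1) * Y) p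
    refine ⟨g + P ^ T * Y ^ 2 * h, ?_⟩
    rw [pow_succ p T, pow_mul, hg, hh]
    have hcast : ((p : ℕ) : ℤ[X]) = P := by
      simp [hP]
    rw [hcast, hY]
    ring

/-- Binomial lemma: for `s ≥ 1`, `(1 + p^s X)^(u p^T) - 1 = p^(T+s) (u X + p^(s-1) f(X))`, for some `f ∈ ℤ[X]`.

Proof: first `(1 + p^s X)^p = 1 + p^(s+1) (X + p^(s-1) h(X))` (the terms of the binomial expansion with `2 ≤ k < p` are divisible by `p^(1+2s)`, the term `k = p` is divisible by `p^(p s)`, `p s ≥ 2 s`).  By induction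
`(1 + p^s X)^(p^T) = 1 + p^(T+s) (X + p^(s-1) f_T(X))`.  Then use `(1 + p^(T+s) Y)^u = 1 + p^(T+s) (u Y + p^(T+s) g(Y))`. -/
theorem exists_binom (p : ℕ) [Fact p.Prime] (s u T : ℕ) :
    ∃ f : ℤ[X], ((1 + (C (p : ℤ)) ^ (s + 1) * X) ^ (u * p ^ T) : ℤ[X]) - 1 =
      (C (p : ℤ)) ^ (T + s + 1) * ((C (u : ℤ)) * X + (C (p : ℤ)) ^ s * f) := by
  obtain ⟨g, hg⟩ := exists_binom_aux p s T
  set P : ℤ[X] := C (p : ℤ) with hP
  set Y : ℤ[X] := X + P ^ s * g with hY
  obtain ⟨h, hh⟩ := one_add_pow_expand (P ^ (T + s + 1) * Y) u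
  refine ⟨(u : ℤ[X]) * g + P ^ (T + 1) * Y ^ 2 * h, ?_⟩
  rw [mul_comm u, pow_mul, hg, hh]
  have hcast : (C (u : ℤ) : ℤ[X]) = (u : ℤ[X]) := by
    simp
  rw [hcast, hY]
  ring

/-- Integer multiples do not increase an ultrametric length. -/
theorem nm_zsmul_le {M : Type*} [AddCommGroup M] (nm : M → ℝ) (hadd : ∀ x y, nm (x + y) ≤ max (nm x) (nm y))
    (hneg : ∀ x, nm (-x) = nm x) (h0 : ∀ x, nm 0 ≤ nm x) (a : ℤ) (y : M) : nm (a • y) ≤ nm y := by
  have hnat : ∀ n : ℕ, nm (n • y) ≤ nm y := by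
    intro n
    induction n with
    | zero => simpa using h0 y
    | succ n ih =>
      rw [succ_nsmul]
      exact (hadd _ _).trans (max_le ih le_rfl)
  cases a with
  | ofNat n => simpa using hnat n
  | negSucc n =>
    rw [negSucc_zsmul, hneg]
    exact hnat (n + 1)

/-- A polynomial in a norm non increasing endomorphism is norm non increasing. -/
theorem nm_aeval_le {M : Type*} [AddCommGroup M] (nm : M → ℝ) (hadd : ∀ x y, nm (x + y) ≤ max (nm x) (nm y))
    (hneg : ∀ x, nm (-x) = nm x) (h0 : ∀ x, nm 0 ≤ nm x)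
    (γ : AddMonoid.End M) (hγ : ∀ x, nm (γ x) ≤ nm x) (f : ℤ[X]) (x : M) :
    nm ((aeval γ f : AddMonoid.End M) x) ≤ nm x := by
  have hpow : ∀ (n : ℕ) (y : M), nm ((γ ^ n : AddMonoid.End M) y) ≤ nm y := by
    intro n
    induction n with
    | zero => intro y; simp
    | succ n ih =>
      intro y
      rw [pow_succ]
      exact (ih (γ y)).trans (hγ y)
  induction f using Polynomial.induction_on' with
  | add p q hp hq =>
    rw [map_add]
    exact (hadd _ _).trans (max_le hp hq)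
  | monomial n a =>
    rw [aeval_monomial]
    have hmul : ((algebraMap ℤ (AddMonoid.End M)) a * γ ^ n) x = a • (γ ^ n : AddMonoid.End M) x := by
      rw [eq_intCast]
      show ((a : AddMonoid.End M)) ((γ ^ n : AddMonoid.End M) x) = _
      rw [AddMonoid.End.intCast_apply]
    rw [hmul]
    exact (nm_zsmul_le nm hadd hneg h0 a _).trans (hpow n x)

/-- The binomial formula in the endomorphism ring of an additive group, evaluated on an element.  If `γ` is an endomorphism of the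
commutative group `M`, with `nm (γ x) ≤ nm x`, for a norm `nm` with `nm (x + y) ≤ max`, `nm (-x) = nm x`, `nm 0 ≤ nm x`, then for all `s u T`, there is an additive map `ζ`, norm non increasing, with
`(1 + p^(s+1) γ)^(u p^T) x = x + p^(T+s+1) (u γ x + p^s ζ x)`, for all `x`, the power being in the ring `AddMonoid.End M`.

Proof: Apply `Polynomial.aeval γ` (over `ℤ`) to `exists_binom`, with `ζ = aeval γ f`.  Polynomial induction shows `nm (aeval γ f x) ≤ nm x` (the powers of `γ` are non increasing, and so are integer multiples, by ultrametricity). -/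
theorem exists_end_binom {M : Type*} [AddCommGroup M] (nm : M → ℝ) (hadd : ∀ x y, nm (x + y) ≤ max (nm x) (nm y))
    (hneg : ∀ x, nm (-x) = nm x) (h0 : ∀ x, nm 0 ≤ nm x)
    (p : ℕ) [Fact p.Prime] (γ : AddMonoid.End M) (hγ : ∀ x, nm (γ x) ≤ nm x) (s u T : ℕ) :
    ∃ ζ : AddMonoid.End M, (∀ x, nm (ζ x) ≤ nm x) ∧ ∀ x,
      ((1 + (p ^ (s + 1) : ℕ) • γ) ^ (u * p ^ T) : AddMonoid.End M) x =
        x + (p ^ (T + s + 1)) • (u • γ x + (p ^ s) • ζ x) := by
  obtain ⟨f, hf⟩ := exists_binom p s u T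
  refine ⟨aeval γ f, nm_aeval_le nm hadd hneg h0 γ hγ f, ?_⟩
  intro x
  have h1 := congrArg (aeval γ) hf
  simp only [map_sub, map_one, map_mul, map_add, map_pow, aeval_X, aeval_C] at h1
  have hp : (algebraMap ℤ (AddMonoid.End M)) (p : ℤ) = (p : AddMonoid.End M) := by
    simp
  have hu : (algebraMap ℤ (AddMonoid.End M)) (u : ℤ) = (u : AddMonoid.End M) := by
    simp
  rw [hp, hu] at h1
  have h2 := DFunLike.congr_fun h1 x
  have h3 : ((1 + ((p : AddMonoid.End M)) ^ (s + 1) * γ) ^ (u * p ^ T) : AddMonoid.End M) =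
      ((1 + (p ^ (s + 1) : ℕ) • γ) : AddMonoid.End M) ^ (u * p ^ T) := by
    rw [nsmul_eq_mul]
    push_cast
    rfl
  rw [h3] at h2
  have e : ((p : AddMonoid.End M) ^ (T + s + 1) * ((u : AddMonoid.End M) * γ + (p : AddMonoid.End M) ^ s * (aeval γ) f)) x =
      p ^ (T + s + 1) • (u • γ x + p ^ s • ((aeval γ) f) x) := by
    rw [← Nat.cast_pow, ← Nat.cast_pow]
    show ((p ^ (T + s + 1) : ℕ) : AddMonoid.End M) (((u : AddMonoid.End M) * γ + ((p ^ s : ℕ) : AddMonoid.End M) * (aeval γ) f) x) = _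
    rw [AddMonoid.End.natCast_apply]
    congr 1
  rw [e] at h2
  have h4 : ((1 + (p ^ (s + 1) : ℕ) • γ) ^ (u * p ^ T) : AddMonoid.End M) x - x =
      p ^ (T + s + 1) • (u • γ x + p ^ s • ((aeval γ) f) x) := h2
  rw [← h4]
  abel

end Vale.Agent.Lib.P217
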