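import Vale.Agent.Lib.P217.FG2

set_option linter.unusedSectionVars false
set_option linter.unusedVariables false

namespace Vale.Agent.Lib.P217

variable {R S : Type*} [CommRing R] [CommRing S]

open MvPowerSeries in
/-- Chain rule, polynomial case. -/
lemma pderiv_subst_coe {σ τ : Type*} [Fintype σ] [DecidableEq σ] (a : σ → MvPowerSeries τ R)
    (ha : MvPowerSeries.HasSubst a) (p : MvPolynomial σ R) (i : τ) :
    pderiv R i (subst a (p : MvPowerSeries σ R)) =
      ∑ s, subst a (pderiv R s (p : MvPowerSeries σ R)) * pderiv R i (a s) := by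
  induction p using MvPolynomial.induction_on with
  | C r =>
    simp only [MvPolynomial.coe_C]
    have : subst a (C r : MvPowerSeries σ R) = C r := subst_C r
    rw [this]
    simp
    refine (Finset.sum_eq_zero ?_).symm
    intro s _
    rw [show (subst a (0 : MvPowerSeries σ R)) = 0 from by
      rw [← coe_substAlgHom ha, map_zero]]
    simp
  | add p q hp hq =>
    rw [MvPolynomial.coe_add, subst_add ha, map_add, hp, hq, ← Finset.sum_add_distrib]
    refine Finset.sum_congr rfl ?_
    intro s _
    rw [map_add, subst_add ha, add_mul]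
  | mul_X p s₀ hp =>
    rw [MvPolynomial.coe_mul, MvPolynomial.coe_X, subst_mul ha, subst_X ha, Derivation.leibniz, hp]
    simp only [smul_eq_mul]
    have h : ∀ s, subst a (pderiv R s ((p : MvPowerSeries σ R) * X s₀)) * pderiv R i (a s) =
        a s₀ * (subst a (pderiv R s (p : MvPowerSeries σ R)) * pderiv R i (a s)) +
        (if s = s₀ then subst a (p : MvPowerSeries σ R) * pderiv R i (a s) else 0) := by
      intro s
      rw [Derivation.leibniz, smul_eq_mul, smul_eq_mul, subst_add ha, subst_mul ha, subst_mul ha,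
        subst_X ha]
      by_cases hs : s = s₀
      · subst hs
        simp only [pderiv_X_self, if_true]
        rw [show subst a (1 : MvPowerSeries σ R) = 1 from by
          rw [← coe_substAlgHom ha, map_one]]
        ring
      · rw [pderiv_X_of_ne (Ne.symm hs), if_neg hs]
        rw [show subst a (0 : MvPowerSeries σ R) = 0 from by
          rw [← coe_substAlgHom ha, map_zero]]
        ring
    rw [Finset.sum_congr rfl (fun s _ => h s), Finset.sum_add_distrib, ← Finset.mul_sum,
      Finset.sum_ite_eq' Finset.univ s₀]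
    simp only [Finset.mem_univ, if_true]
    ring

open MvPowerSeries in
/-- Coefficients of a substitution vanish below the order. -/
lemma coeff_subst_eq_zero_of_low {σ τ : Type*} [Finite σ] (a : σ → MvPowerSeries τ R)
    (ha : ∀ s, constantCoeff (a s) = 0) (f : MvPowerSeries σ R) (n : ℕ)
    (hf : ∀ e : σ →₀ ℕ, e.degree < n → coeff e f = 0) (d : τ →₀ ℕ) (hd : d.degree < n) :
    coeff d (subst a f) = 0 := by
  have hs : HasSubst a := hasSubst_of_constantCoeff_zero ha
  refine coeff_of_lt_order ?_
  have h1 : (n : ℕ∞) ≤ f.order := nat_le_order hf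
  have h2 : (1 : ℕ∞) ≤ ⨅ i, (a i).order := by
    refine le_iInf ?_
    intro i
    have : ((1 : ℕ) : ℕ∞) ≤ (a i).order := by
      refine nat_le_order ?_
      intro e he
      have : e = 0 := by
        have h0 : e.degree = 0 := by omega
        exact (Finsupp.degree_eq_zero_iff e).mp h0
      subst this
      simpa using ha i
    simpa using this
  have h3 := le_order_subst (f := f) hs
  have h4 : (n : ℕ∞) ≤ (⨅ i, (a i).order) * f.order := by
    calc (n : ℕ∞) = 1 * n := by simp
      _ ≤ _ := mul_le_mul' h2 h1
  exact lt_of_lt_of_le (Nat.cast_lt.mpr hd) (h4.trans h3)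

open MvPowerSeries in
/-- Chain rule for multivariate substitution. -/
theorem pderiv_subst {σ τ : Type*} [Fintype σ] (a : σ → MvPowerSeries τ R)
    (ha : ∀ s, constantCoeff (a s) = 0) (f : MvPowerSeries σ R) (i : τ) :
    pderiv R i (subst a f) = ∑ s, subst a (pderiv R s f) * pderiv R i (a s) := by
  classical
  have hs : HasSubst a := hasSubst_of_constantCoeff_zero ha
  ext d
  set N := d.degree + 2 with hN
  set t : MvPolynomial σ R := truncTotal N f with ht
  set r : MvPowerSeries σ R := f - (t : MvPowerSeries σ R) with hr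
  have hfr : f = (t : MvPowerSeries σ R) + r := by rw [hr]; ring
  have hrlow : ∀ e : σ →₀ ℕ, e.degree < N → coeff e r = 0 := by
    intro e he
    rw [hr, map_sub, MvPolynomial.coeff_coe, ht, coeff_truncTotal _ he, sub_self]
  have h1 : coeff d (pderiv R i (subst a r)) = 0 := by
    rw [coeff_pderiv, coeff_subst_eq_zero_of_low a ha r N hrlow, zero_mul]
    simp [hN]
  have h2 : ∀ s, coeff d (subst a (pderiv R s r) * pderiv R i (a s)) = 0 := by
    intro s
    have hlow : ∀ e : τ →₀ ℕ, e.degree < d.degree + 1 → coeff e (subst a (pderiv R s r)) = 0 := by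
      refine coeff_subst_eq_zero_of_low a ha _ _ ?_
      intro e he
      rw [coeff_pderiv, hrlow, zero_mul]
      simp [hN]
      omega
    rw [coeff_mul]
    refine Finset.sum_eq_zero ?_
    rintro ⟨u, v⟩ huv
    have : u + v = d := by simpa using huv
    rw [hlow u, zero_mul]
    rw [← this, map_add]
    simp
  have h3 := pderiv_subst_coe a hs t i
  rw [hfr, subst_add hs, map_add, map_add, h1, add_zero, h3, map_sum, map_sum]
  refine Finset.sum_congr rfl ?_
  intro s _
  rw [map_add, subst_add hs, add_mul, map_add, h2 s, add_zero]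

open MvPowerSeries in
/-- Chain rule for a substitution of two series. -/
lemma pderiv_subst_pair {τ : Type*} (x y : MvPowerSeries τ R) (hx : constantCoeff x = 0)
    (hy : constantCoeff y = 0) (G : MvPowerSeries (Fin 2) R) (i : τ) :
    pderiv R i (subst ![x, y] G) = subst ![x, y] (pderiv R 0 G) * pderiv R i x +
      subst ![x, y] (pderiv R 1 G) * pderiv R i y := by
  rw [pderiv_subst ![x, y] (by intro s; fin_cases s <;> simpa) G i, Fin.sum_univ_two]
  simp

open MvPowerSeries in
lemma hasSubst_pair {τ : Type*} {x y : MvPowerSeries τ R} (hx : constantCoeff x = 0)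
    (hy : constantCoeff y = 0) : HasSubst ![x, y] :=
  hasSubst_of_constantCoeff_zero (by intro s; fin_cases s <;> simpa)

open MvPowerSeries in
/-- Composition of a pair substitution with a further substitution. -/
lemma subst_subst_pair' {τ τ' : Type*} (w : τ → MvPowerSeries τ' R) (hw : HasSubst w)
    {a b : MvPowerSeries τ R} (ha : constantCoeff a = 0) (hb : constantCoeff b = 0)
    (G : MvPowerSeries (Fin 2) R) :
    subst w (subst ![a, b] G) = subst ![subst w a, subst w b] G := by
  rw [subst_comp_subst_apply (hasSubst_pair ha hb) hw]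
  congr 1
  funext s
  fin_cases s <;> rfl

open MvPowerSeries in
lemma constantCoeff_subst_pair (F : FormalGroup R) {τ : Type*} {x y : MvPowerSeries τ R}
    (hx : constantCoeff x = 0) (hy : constantCoeff y = 0) :
    constantCoeff (subst ![x, y] F.toPowerSeries) = 0 :=
  constantCoeff_subst_eq_zero (hasSubst_pair hx hy) (by intro s; fin_cases s <;> simpa)
    F.zero_constantCoeff

open MvPowerSeries in
/-- The differentiated associativity law, in three variables. -/
lemma assoc_pderiv (F : FormalGroup R) :
    subst ![subst ![(X 0 : MvPowerSeries (Fin 3) R), X 1] F.toPowerSeries, X 2]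
        (pderiv R 1 F.toPowerSeries) =
      subst ![(X 0 : MvPowerSeries (Fin 3) R), subst ![(X 1 : MvPowerSeries (Fin 3) R), X 2]
          F.toPowerSeries] (pderiv R 1 F.toPowerSeries) *
        subst ![(X 1 : MvPowerSeries (Fin 3) R), X 2] (pderiv R 1 F.toPowerSeries) := by
  have h := congrArg (pderiv R (2 : Fin 3)) F.assoc
  have c0 : constantCoeff (X 0 : MvPowerSeries (Fin 3) R) = 0 := by simp
  have c1 : constantCoeff (X 1 : MvPowerSeries (Fin 3) R) = 0 := by simp
  have c2 : constantCoeff (X 2 : MvPowerSeries (Fin 3) R) = 0 := by simp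
  rw [pderiv_subst_pair _ _ (constantCoeff_subst_pair F c0 c1) c2,
    pderiv_subst_pair _ _ c0 (constantCoeff_subst_pair F c1 c2),
    pderiv_subst_pair _ _ c0 c1, pderiv_subst_pair _ _ c1 c2] at h
  have e0 : pderiv R (2 : Fin 3) (X 0 : MvPowerSeries (Fin 3) R) = 0 :=
    pderiv_X_of_ne (by decide)
  have e1 : pderiv R (2 : Fin 3) (X 1 : MvPowerSeries (Fin 3) R) = 0 :=
    pderiv_X_of_ne (by decide)
  have e2 : pderiv R (2 : Fin 3) (X 2 : MvPowerSeries (Fin 3) R) = 1 := pderiv_X_self
  simp only [e0, e1, e2, mul_zero, zero_add, add_zero, mul_one] at h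
  exact h

open MvPowerSeries in
/-- `D(F(x,y)) = F₂(x,y) D(y)`. -/
lemma star_one (F : FormalGroup R) {τ : Type*} {x y : MvPowerSeries τ R}
    (hx : constantCoeff x = 0) (hy : constantCoeff y = 0) :
    subst ![subst ![x, y] F.toPowerSeries, 0] (pderiv R 1 F.toPowerSeries) =
      subst ![x, y] (pderiv R 1 F.toPowerSeries) * subst ![y, 0] (pderiv R 1 F.toPowerSeries) := by
  have hw : HasSubst ![x, y, 0] :=
    hasSubst_of_constantCoeff_zero (by
      intro s; fin_cases s
      · simpa using hx
      · simpa using hy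
      · simp)
  have c0 : constantCoeff (X 0 : MvPowerSeries (Fin 3) R) = 0 := by simp
  have c1 : constantCoeff (X 1 : MvPowerSeries (Fin 3) R) = 0 := by simp
  have c2 : constantCoeff (X 2 : MvPowerSeries (Fin 3) R) = 0 := by simp
  have h := congrArg (subst ![x, y, 0]) (assoc_pderiv F)
  rw [subst_mul hw, subst_subst_pair' _ hw (constantCoeff_subst_pair F c0 c1) c2,
    subst_subst_pair' _ hw c0 (constantCoeff_subst_pair F c1 c2), subst_subst_pair' _ hw c1 c2,
    subst_subst_pair' _ hw c0 c1, subst_subst_pair' _ hw c1 c2] at h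
  have e0 : subst ![x, y, 0] (X 0 : MvPowerSeries (Fin 3) R) = x := by
    rw [subst_X hw]; rfl
  have e1 : subst ![x, y, 0] (X 1 : MvPowerSeries (Fin 3) R) = y := by
    rw [subst_X hw]; rfl
  have e2 : subst ![x, y, 0] (X 2 : MvPowerSeries (Fin 3) R) = 0 := by
    rw [subst_X hw]; rfl
  simp only [e0, e1, e2] at h
  rw [h, F.add_zero (PowerSeries.HasSubst.of_constantCoeff_zero hy)]

open MvPowerSeries in
/-- `F₁(x,y) = F₂(y,x)` for a commutative law. -/
lemma comm_pderiv (F : FormalGroup R) [F.IsComm] {τ : Type*} {x y : MvPowerSeries τ R}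
    (hx : constantCoeff x = 0) (hy : constantCoeff y = 0) :
    subst ![x, y] (pderiv R 0 F.toPowerSeries) = subst ![y, x] (pderiv R 1 F.toPowerSeries) := by
  have c0 : constantCoeff (X 0 : MvPowerSeries (Fin 2) R) = 0 := by simp
  have c1 : constantCoeff (X 1 : MvPowerSeries (Fin 2) R) = 0 := by simp
  have hc : F.toPowerSeries = subst ![(X 1 : MvPowerSeries (Fin 2) R), X 0] F.toPowerSeries :=
    FormalGroup.IsComm.comm
  have h := congrArg (pderiv R (0 : Fin 2)) hc
  rw [pderiv_subst_pair _ _ c1 c0] at h
  have e0 : pderiv R (0 : Fin 2) (X 0 : MvPowerSeries (Fin 2) R) = 1 := pderiv_X_self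
  have e1 : pderiv R (0 : Fin 2) (X 1 : MvPowerSeries (Fin 2) R) = 0 :=
    pderiv_X_of_ne (by decide)
  simp only [e0, e1, mul_zero, zero_add, mul_one] at h
  have hs := hasSubst_pair hx hy
  rw [h, subst_subst_pair' _ hs c1 c0, subst_X hs, subst_X hs]
  rfl

open MvPowerSeries in
/-- `D(F(x,y)) = F₁(x,y) D(x)`. -/
lemma star_two (F : FormalGroup R) [F.IsComm] {τ : Type*} {x y : MvPowerSeries τ R}
    (hx : constantCoeff x = 0) (hy : constantCoeff y = 0) :
    subst ![subst ![x, y] F.toPowerSeries, 0] (pderiv R 1 F.toPowerSeries) =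
      subst ![x, y] (pderiv R 0 F.toPowerSeries) * subst ![x, 0] (pderiv R 1 F.toPowerSeries) := by
  rw [F.comm' (PowerSeries.HasSubst.of_constantCoeff_zero hx)
    (PowerSeries.HasSubst.of_constantCoeff_zero hy), star_one F hy hx, comm_pderiv F hx hy]

open MvPowerSeries in
lemma deriv_mulSeries (F : FormalGroup R) [F.IsComm] (m : ℕ) :
    pderiv R () (mulSeries F m : MvPowerSeries Unit R) *
        subst ![(PowerSeries.X : MvPowerSeries Unit R), 0] (pderiv R 1 F.toPowerSeries) =
      (m : MvPowerSeries Unit R) *
        subst ![(mulSeries F m : MvPowerSeries Unit R), 0] (pderiv R 1 F.toPowerSeries) := by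
  have hX : constantCoeff (PowerSeries.X : MvPowerSeries Unit R) = 0 :=
    PowerSeries.constantCoeff_X
  have hX' : pderiv R () (PowerSeries.X : MvPowerSeries Unit R) = 1 := pderiv_X_self
  induction m with
  | zero =>
    simp [mulSeries]
  | succ m ih =>
    have hc : constantCoeff (mulSeries F m : MvPowerSeries Unit R) = 0 :=
      constantCoeff_mulSeries F m
    have e : (mulSeries F (m + 1) : MvPowerSeries Unit R) =
        subst ![(mulSeries F m : MvPowerSeries Unit R), (PowerSeries.X : MvPowerSeries Unit R)]
          F.toPowerSeries := rfl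
    rw [e, pderiv_subst_pair _ _ hc hX, hX', mul_one, Nat.cast_succ]
    have h1 := star_one F hc hX
    have h2 := star_two F hc hX
    linear_combination (subst ![(mulSeries F m : MvPowerSeries Unit R),
      (PowerSeries.X : MvPowerSeries Unit R)] (pderiv R 0 F.toPowerSeries)) * ih -
      (m : MvPowerSeries Unit R) * h2 - h1

/-- In characteristic `p` the series `[p]_F` has only exponents divisible by `p`.

Proof.  Write `F₂(X, Y) = ∂F/∂Y`, `F₁ = ∂F/∂X`, `D(X) = F₂(X, 0)`, a unit series.  Differentiating associativity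
`F(F(X,Y),Z) = F(X,F(Y,Z))` in `Z` at `Z = 0` gives `D(F(X,Y)) = F₂(X,Y) D(Y)`, and by commutativity
`D(F(X,Y)) = F₁(X,Y) D(X)`.  Differentiating `[m+1](X) = F([m](X), X)` gives
`[m+1]' = F₁([m]X, X) [m]' + F₂([m]X, X)`; dividing by `D([m+1]X)` one obtains by induction
`[m]'(X) = m · D([m]X) / D(X)`.  For `m = p` the derivative vanishes since `p = 0` in `R`, and `j • coeff j = 0` gives
`coeff j [p] = 0` for `p ∤ j`. -/
theorem coeff_mulSeries_of_not_dvd (p : ℕ) [Fact p.Prime] [CharP R p] (F : FormalGroup R) [F.IsComm]
    (j : ℕ) (hj : ¬ p ∣ j) : PowerSeries.coeff j (mulSeries F p) = 0 := by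
  have hp : p.Prime := Fact.out
  have hD := deriv_mulSeries F p
  have hp0 : ((p : ℕ) : MvPowerSeries Unit R) = 0 := by
    rw [← map_natCast (MvPowerSeries.C (σ := Unit) (R := R)) p, CharP.cast_eq_zero R p, map_zero]
  rw [hp0, zero_mul] at hD
  -- the unit
  have hU : IsUnit (MvPowerSeries.subst ![(PowerSeries.X : MvPowerSeries Unit R), 0]
      (MvPowerSeries.pderiv R 1 F.toPowerSeries)) := by
    rw [MvPowerSeries.isUnit_iff_constantCoeff]
    have hs : MvPowerSeries.HasSubst ![(PowerSeries.X : MvPowerSeries Unit R), 0] :=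
      hasSubst_pair PowerSeries.constantCoeff_X (by simp)
    set G := MvPowerSeries.pderiv R 1 F.toPowerSeries with hG
    have h1 : MvPowerSeries.constantCoeff G = 1 := by
      rw [← MvPowerSeries.coeff_zero_eq_constantCoeff_apply, hG, MvPowerSeries.coeff_pderiv]
      simp [F.lin_coeff_Y]
    have h2 : G = MvPowerSeries.C 1 + (G - MvPowerSeries.C 1) := by ring
    have h3 : MvPowerSeries.constantCoeff (G - MvPowerSeries.C 1) = 0 := by
      simp [h1]
    have h4 : MvPowerSeries.constantCoeff (MvPowerSeries.subst
        ![(PowerSeries.X : MvPowerSeries Unit R), 0] (G - MvPowerSeries.C 1)) = 0 :=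
      MvPowerSeries.constantCoeff_subst_eq_zero hs (by
        intro s; fin_cases s
        · exact PowerSeries.constantCoeff_X
        · simp) h3
    have h5 : MvPowerSeries.subst ![(PowerSeries.X : MvPowerSeries Unit R), 0] G =
        MvPowerSeries.C 1 + MvPowerSeries.subst ![(PowerSeries.X : MvPowerSeries Unit R), 0]
          (G - MvPowerSeries.C 1) := by
      conv_lhs => rw [h2]
      rw [MvPowerSeries.subst_add hs, MvPowerSeries.subst_C]
    rw [h5, map_add, h4, add_zero]
    simp
  have hD0 : MvPowerSeries.pderiv R () (mulSeries F p : MvPowerSeries Unit R) = 0 :=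
    (hU.mul_left_eq_zero).mp hD
  have hD1 : PowerSeries.derivative R (mulSeries F p) = 0 := hD0
  obtain ⟨n, rfl⟩ : ∃ n, j = n + 1 := by
    cases j with
    | zero => exact absurd (dvd_zero p) hj
    | succ n => exact ⟨n, rfl⟩
  have h6 := PowerSeries.coeff_derivative (mulSeries F p) n
  rw [hD1, map_zero] at h6
  have hcop : Nat.Coprime p (n + 1) := (Nat.Prime.coprime_iff_not_dvd hp).2 hj
  have hbez := Nat.gcd_eq_gcd_ab p (n + 1)
  rw [hcop.gcd_eq_one] at hbez
  have hbez' := congrArg (fun z : ℤ => (z : R)) hbez
  simp only [Nat.cast_one, Int.cast_one, Int.cast_add, Int.cast_mul, Int.cast_natCast,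
    CharP.cast_eq_zero R p, zero_mul, zero_add] at hbez'
  have h7 := congrArg (fun z : R => z * ((Nat.gcdB p (n + 1) : ℤ) : R)) h6
  simp only [zero_mul, mul_assoc] at h7
  have h8 : (((n : R) + 1) * ((Nat.gcdB p (n + 1) : ℤ) : R)) = 1 := by
    rw [← Nat.cast_succ]
    exact hbez'.symm
  rw [h8, mul_one] at h7
  exact h7.symm


/-- Base change of the multiplication series. -/
theorem mulSeries_map (h : R →+* S) (F : FormalGroup R) (m : ℕ) :
    mulSeries (F.map h) m = PowerSeries.map h (mulSeries F m) := by
  induction m with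
  | zero => simp [mulSeries]
  | succ m ih =>
    have hc : MvPowerSeries.constantCoeff (mulSeries F m : MvPowerSeries Unit R) = 0 :=
      constantCoeff_mulSeries F m
    have hX : MvPowerSeries.constantCoeff (PowerSeries.X : MvPowerSeries Unit R) = 0 :=
      PowerSeries.constantCoeff_X
    have hs : MvPowerSeries.HasSubst ![mulSeries F m, (PowerSeries.X : PowerSeries R)] :=
      MvPowerSeries.hasSubst_of_constantCoeff_zero (by
        intro s; fin_cases s
        · exact hc
        · exact hX)
    simp only [mulSeries]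
    have e : PowerSeries.map h (MvPowerSeries.subst ![mulSeries F m, (PowerSeries.X : PowerSeries R)]
        F.toPowerSeries) = MvPowerSeries.map h (MvPowerSeries.subst
          ![mulSeries F m, (PowerSeries.X : PowerSeries R)] F.toPowerSeries) := rfl
    rw [e, MvPowerSeries.map_subst hs]
    simp only [FormalGroup.map_toPowerSeries]
    congr 1
    funext s
    fin_cases s
    · exact ih
    · exact (PowerSeries.map_X h).symm

/-- A substitution instance of the homomorphism identity. -/
theorem IsHom.subst_add {F G : FormalGroup R} {f : PowerSeries R} (hf : IsHom F G f)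
    {σ : Type*} {x y : MvPowerSeries σ R} (hx : PowerSeries.HasSubst x) (hy : PowerSeries.HasSubst y) :
    MvPowerSeries.subst ![PowerSeries.subst x f, PowerSeries.subst y f] G.toPowerSeries =
      PowerSeries.subst (MvPowerSeries.subst ![x, y] F.toPowerSeries) f := by
  have hs : MvPowerSeries.HasSubst ![x, y] :=
    MvPowerSeries.hasSubst_of_constantCoeff_nilpotent (by
      intro s; fin_cases s
      · exact hx
      · exact hy)
  have h1 := congrArg (MvPowerSeries.subst ![x, y]) hf.map_add
  have hX0 : PowerSeries.HasSubst (MvPowerSeries.X 0 : MvPowerSeries (Fin 2) R) :=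
    PowerSeries.HasSubst.X 0
  have hX1 : PowerSeries.HasSubst (MvPowerSeries.X 1 : MvPowerSeries (Fin 2) R) :=
    PowerSeries.HasSubst.X 1
  have hc0 : PowerSeries.HasSubst (PowerSeries.subst (MvPowerSeries.X 0 : MvPowerSeries (Fin 2) R) f) :=
    PowerSeries.HasSubst.of_constantCoeff_zero
      (PowerSeries.constantCoeff_subst_eq_zero (by simp) f hf.constantCoeff_eq)
  have hc1 : PowerSeries.HasSubst (PowerSeries.subst (MvPowerSeries.X 1 : MvPowerSeries (Fin 2) R) f) :=
    PowerSeries.HasSubst.of_constantCoeff_zero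
      (PowerSeries.constantCoeff_subst_eq_zero (by simp) f hf.constantCoeff_eq)
  have hA : MvPowerSeries.HasSubst ![PowerSeries.subst (MvPowerSeries.X 0 : MvPowerSeries (Fin 2) R) f,
      PowerSeries.subst (MvPowerSeries.X 1 : MvPowerSeries (Fin 2) R) f] :=
    MvPowerSeries.hasSubst_of_constantCoeff_nilpotent (by
      intro s; fin_cases s
      · exact hc0
      · exact hc1)
  have hF : PowerSeries.HasSubst F.toPowerSeries :=
    PowerSeries.HasSubst.of_constantCoeff_zero F.zero_constantCoeff
  have key : ∀ (a : MvPowerSeries (Fin 2) R), PowerSeries.HasSubst a →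
      MvPowerSeries.subst ![x, y] (PowerSeries.subst a f) =
        PowerSeries.subst (MvPowerSeries.subst ![x, y] a) f := by
    intro a ha
    exact MvPowerSeries.subst_comp_subst_apply (PowerSeries.HasSubst.const ha) hs f
  rw [MvPowerSeries.subst_comp_subst_apply hA hs, key _ hF] at h1
  rw [← h1]
  congr 1
  funext s
  fin_cases s
  · simp only [Fin.zero_eta, Matrix.cons_val_zero]
    rw [key _ hX0, MvPowerSeries.subst_X hs]
    simp
  · simp only [Fin.mk_one, Matrix.cons_val_one, Matrix.cons_val_fin_one]
    rw [key _ hX1, MvPowerSeries.subst_X hs]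
    simp

/-- Base change of a homomorphism of formal groups. -/
theorem IsHom.map' {F G : FormalGroup R} {f : PowerSeries R} (hf : IsHom F G f) (h : R →+* S) :
    IsHom (F.map h) (G.map h) (PowerSeries.map h f) := by
  refine ⟨?_, ?_⟩
  · have h0 : MvPowerSeries.constantCoeff (f : MvPowerSeries Unit R) = 0 := hf.constantCoeff_eq
    show MvPowerSeries.constantCoeff (MvPowerSeries.map h f) = 0
    rw [MvPowerSeries.constantCoeff_map, h0, map_zero]
  · have hX0 : PowerSeries.HasSubst (MvPowerSeries.X 0 : MvPowerSeries (Fin 2) R) :=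
      PowerSeries.HasSubst.X 0
    have hX1 : PowerSeries.HasSubst (MvPowerSeries.X 1 : MvPowerSeries (Fin 2) R) :=
      PowerSeries.HasSubst.X 1
    have hc0 : PowerSeries.HasSubst (PowerSeries.subst (MvPowerSeries.X 0 : MvPowerSeries (Fin 2) R) f) :=
      PowerSeries.HasSubst.of_constantCoeff_zero
        (PowerSeries.constantCoeff_subst_eq_zero (by simp) f hf.constantCoeff_eq)
    have hc1 : PowerSeries.HasSubst (PowerSeries.subst (MvPowerSeries.X 1 : MvPowerSeries (Fin 2) R) f) :=
      PowerSeries.HasSubst.of_constantCoeff_zero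
        (PowerSeries.constantCoeff_subst_eq_zero (by simp) f hf.constantCoeff_eq)
    have hA : MvPowerSeries.HasSubst ![PowerSeries.subst (MvPowerSeries.X 0 : MvPowerSeries (Fin 2) R) f,
        PowerSeries.subst (MvPowerSeries.X 1 : MvPowerSeries (Fin 2) R) f] :=
      MvPowerSeries.hasSubst_of_constantCoeff_nilpotent (by
        intro s; fin_cases s
        · exact hc0
        · exact hc1)
    have hF : PowerSeries.HasSubst F.toPowerSeries :=
      PowerSeries.HasSubst.of_constantCoeff_zero F.zero_constantCoeff
    have h1 := congrArg (MvPowerSeries.map h) hf.map_add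
    rw [MvPowerSeries.map_subst hA, PowerSeries.map_subst hF] at h1
    simp only [FormalGroup.map_toPowerSeries]
    rw [← h1]
    congr 1
    funext s
    fin_cases s
    · simp only [Fin.zero_eta, Matrix.cons_val_zero]
      rw [PowerSeries.map_subst hX0]
      simp
    · simp only [Fin.mk_one, Matrix.cons_val_one, Matrix.cons_val_fin_one]
      rw [PowerSeries.map_subst hX1]
      simp

/-- Composition of homomorphisms. -/
theorem IsHom.comp {F G H : FormalGroup R} {f g : PowerSeries R} (hf : IsHom F G f) (hg : IsHom G H g) :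
    IsHom F H (PowerSeries.subst f g) := by
  have hfs : PowerSeries.HasSubst f := PowerSeries.HasSubst.of_constantCoeff_zero' hf.constantCoeff_eq
  refine ⟨PowerSeries.constantCoeff_subst_eq_zero hf.constantCoeff_eq g hg.constantCoeff_eq, ?_⟩
  have hX0 : PowerSeries.HasSubst (MvPowerSeries.X 0 : MvPowerSeries (Fin 2) R) :=
    PowerSeries.HasSubst.X 0
  have hX1 : PowerSeries.HasSubst (MvPowerSeries.X 1 : MvPowerSeries (Fin 2) R) :=
    PowerSeries.HasSubst.X 1
  have hc0 : PowerSeries.HasSubst (PowerSeries.subst (MvPowerSeries.X 0 : MvPowerSeries (Fin 2) R) f) :=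
    PowerSeries.HasSubst.of_constantCoeff_zero
      (PowerSeries.constantCoeff_subst_eq_zero (by simp) f hf.constantCoeff_eq)
  have hc1 : PowerSeries.HasSubst (PowerSeries.subst (MvPowerSeries.X 1 : MvPowerSeries (Fin 2) R) f) :=
    PowerSeries.HasSubst.of_constantCoeff_zero
      (PowerSeries.constantCoeff_subst_eq_zero (by simp) f hf.constantCoeff_eq)
  have hF : PowerSeries.HasSubst F.toPowerSeries :=
    PowerSeries.HasSubst.of_constantCoeff_zero F.zero_constantCoeff
  rw [PowerSeries.subst_comp_subst_apply hfs hX0, PowerSeries.subst_comp_subst_apply hfs hX1,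
    PowerSeries.subst_comp_subst_apply hfs hF, hg.subst_add hc0 hc1, hf.map_add]

/-- A point of a formal group, with its multiples. -/
theorem subst_mulSeries (F : FormalGroup R) (m : ℕ) {σ : Type*} (x : F.Point σ) :
    PowerSeries.subst x.val (mulSeries F m) = (m • x).val := by
  induction m with
  | zero =>
    simp only [mulSeries, zero_smul, FormalGroup.zero_apply]
    rw [← PowerSeries.coe_substAlgHom x.prop, map_zero]
  | succ m ih =>
    rw [succ_nsmul, FormalGroup.add_apply]
    simp only [mulSeries]
    have hc : MvPowerSeries.constantCoeff (mulSeries F m : MvPowerSeries Unit R) = 0 :=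
      constantCoeff_mulSeries F m
    have hX : MvPowerSeries.constantCoeff (PowerSeries.X : MvPowerSeries Unit R) = 0 :=
      PowerSeries.constantCoeff_X
    have hs : MvPowerSeries.HasSubst ![mulSeries F m, (PowerSeries.X : PowerSeries R)] :=
      MvPowerSeries.hasSubst_of_constantCoeff_zero (by
        intro s; fin_cases s
        · exact hc
        · exact hX)
    have e := MvPowerSeries.subst_comp_subst_apply hs (PowerSeries.HasSubst.const x.prop)
      F.toPowerSeries
    rw [PowerSeries.subst, e]
    congr 1
    funext s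
    fin_cases s
    · exact ih
    · exact PowerSeries.subst_X x.prop

/-- The point `X 0`. -/
noncomputable def ptX (F : FormalGroup R) (i : Fin 2) : F.Point (Fin 2) :=
  ⟨MvPowerSeries.X i, PowerSeries.HasSubst.X i⟩

lemma ptX_add (F : FormalGroup R) : (ptX F 0 + ptX F 1).val = F.toPowerSeries := by
  rw [FormalGroup.add_apply]
  have : ![(ptX F 0).val, (ptX F 1).val] = (MvPowerSeries.X : Fin 2 → MvPowerSeries (Fin 2) R) := by
    funext s; fin_cases s <;> rfl
  rw [this, MvPowerSeries.subst_self]
  rfl

/-- `[m]_F` is an endomorphism of a commutative formal group. -/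
theorem IsHom.mulSeries {F : FormalGroup R} [F.IsComm] (m : ℕ) : IsHom F F (mulSeries F m) := by
  refine ⟨constantCoeff_mulSeries F m, ?_⟩
  have h0 := subst_mulSeries F m (ptX F 0)
  have h1 := subst_mulSeries F m (ptX F 1)
  have h2 := subst_mulSeries F m (ptX F 0 + ptX F 1)
  rw [ptX_add] at h2
  rw [h2, nsmul_add, FormalGroup.add_apply]
  congr 1
  funext s
  fin_cases s
  · exact h0
  · exact h1

/-- Value at a point of the sum of two series. -/
lemma subst_subst_pair (F : FormalGroup R) {f g : PowerSeries R}
    (hf : PowerSeries.constantCoeff f = 0) (hg : PowerSeries.constantCoeff g = 0)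
    {σ : Type*} {x : MvPowerSeries σ R} (hx : PowerSeries.HasSubst x) :
    PowerSeries.subst x (MvPowerSeries.subst ![f, g] F.toPowerSeries : PowerSeries R) =
      MvPowerSeries.subst ![PowerSeries.subst x f, PowerSeries.subst x g] F.toPowerSeries := by
  have hs : MvPowerSeries.HasSubst ![f, g] :=
    MvPowerSeries.hasSubst_of_constantCoeff_zero (by
      intro s; fin_cases s
      · exact hf
      · exact hg)
  have e := MvPowerSeries.subst_comp_subst_apply hs (PowerSeries.HasSubst.const hx) F.toPowerSeries
  rw [PowerSeries.subst, e]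
  congr 1
  funext s
  fin_cases s <;> rfl

/-- The sum of two endomorphisms of a commutative formal group. -/
theorem IsHom.add {F : FormalGroup R} [F.IsComm] {f g : PowerSeries R} (hf : IsHom F F f) (hg : IsHom F F g) :
    IsHom F F (MvPowerSeries.subst ![f, g] F.toPowerSeries) := by
  have hfc := hf.constantCoeff_eq
  have hgc := hg.constantCoeff_eq
  have hs : MvPowerSeries.HasSubst ![f, g] :=
    MvPowerSeries.hasSubst_of_constantCoeff_zero (by
      intro s; fin_cases s
      · exact hfc
      · exact hgc)
  refine ⟨?_, ?_⟩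
  · refine MvPowerSeries.constantCoeff_subst_eq_zero hs (by
      intro s; fin_cases s
      · exact hfc
      · exact hgc) F.zero_constantCoeff
  · have hX0 : PowerSeries.HasSubst (MvPowerSeries.X 0 : MvPowerSeries (Fin 2) R) :=
      PowerSeries.HasSubst.X 0
    have hX1 : PowerSeries.HasSubst (MvPowerSeries.X 1 : MvPowerSeries (Fin 2) R) :=
      PowerSeries.HasSubst.X 1
    have hF : PowerSeries.HasSubst F.toPowerSeries :=
      PowerSeries.HasSubst.of_constantCoeff_zero F.zero_constantCoeff
    -- the points
    let a : FormalGroup.Point F (Fin 2) := ⟨PowerSeries.subst (MvPowerSeries.X 0) f,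
      PowerSeries.HasSubst.of_constantCoeff_zero
        (PowerSeries.constantCoeff_subst_eq_zero (by simp) f hfc)⟩
    let b : FormalGroup.Point F (Fin 2) := ⟨PowerSeries.subst (MvPowerSeries.X 1) f,
      PowerSeries.HasSubst.of_constantCoeff_zero
        (PowerSeries.constantCoeff_subst_eq_zero (by simp) f hfc)⟩
    let c : FormalGroup.Point F (Fin 2) := ⟨PowerSeries.subst (MvPowerSeries.X 0) g,
      PowerSeries.HasSubst.of_constantCoeff_zero
        (PowerSeries.constantCoeff_subst_eq_zero (by simp) g hgc)⟩
    let d : FormalGroup.Point F (Fin 2) := ⟨PowerSeries.subst (MvPowerSeries.X 1) g,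
      PowerSeries.HasSubst.of_constantCoeff_zero
        (PowerSeries.constantCoeff_subst_eq_zero (by simp) g hgc)⟩
    have e1 : (a + b).val = PowerSeries.subst F.toPowerSeries f := hf.map_add
    have e2 : (c + d).val = PowerSeries.subst F.toPowerSeries g := hg.map_add
    have key : (a + c) + (b + d) = (a + b) + (c + d) := add_add_add_comm a c b d
    have key' := congrArg Subtype.val key
    rw [subst_subst_pair F hfc hgc hX0, subst_subst_pair F hfc hgc hX1,
      subst_subst_pair F hfc hgc hF, ← e1, ← e2]
    exact key'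

/-- The `p`-power map `X ^ p` is an endomorphism when the coefficients of `F` are fixed by Frobenius. -/
theorem IsHom.X_pow (p : ℕ) [Fact p.Prime] [CharP R p] {F : FormalGroup R}
    (hF : ∀ d, (MvPowerSeries.coeff d F.toPowerSeries) ^ p = MvPowerSeries.coeff d F.toPowerSeries) :
    IsHom F F (PowerSeries.X ^ p) := by
  have hp : p ≠ 0 := (Fact.out : p.Prime).ne_zero
  have : ExpChar R p := ExpChar.prime (Fact.out : p.Prime)
  refine ⟨by simp [hp], ?_⟩
  have hX0 : PowerSeries.HasSubst (MvPowerSeries.X 0 : MvPowerSeries (Fin 2) R) :=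
    PowerSeries.HasSubst.X 0
  have hX1 : PowerSeries.HasSubst (MvPowerSeries.X 1 : MvPowerSeries (Fin 2) R) :=
    PowerSeries.HasSubst.X 1
  have hFs : PowerSeries.HasSubst F.toPowerSeries :=
    PowerSeries.HasSubst.of_constantCoeff_zero F.zero_constantCoeff
  have e0 : ∀ (x : MvPowerSeries (Fin 2) R), PowerSeries.HasSubst x →
      PowerSeries.subst x (PowerSeries.X ^ p : PowerSeries R) = x ^ p := by
    intro x hx
    rw [PowerSeries.subst_pow hx, PowerSeries.subst_X hx]
  rw [e0 _ hX0, e0 _ hX1, e0 _ hFs]
  have h1 := MvPowerSeries.map_frobenius_expand (σ := Fin 2) p hp (f := F.toPowerSeries)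
  rw [← h1, MvPowerSeries.map_expand]
  have h2 : MvPowerSeries.map (frobenius R p) F.toPowerSeries = F.toPowerSeries := by
    ext d
    simp [frobenius_def, hF]
  rw [h2, MvPowerSeries.expand, MvPowerSeries.substAlgHom_apply]
  congr 1
  funext s
  fin_cases s <;> rfl

end Vale.Agent.Lib.P217
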