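import Mathlib

set_option linter.unusedSectionVars false
set_option linter.unusedVariables false

namespace Vale.Agent.Lib.P217

section DigitsAux

variable {M : Type*} [AddCommGroup M] {nm : M → ℝ}

lemma digits_nm_nonneg (hn0 : nm 0 = 0) (hnpos : ∀ x, x ≠ 0 → 0 < nm x) (x : M) : 0 ≤ nm x := by
  by_cases h : x = 0
  · simp [h, hn0]
  · exact (hnpos x h).le

lemma digits_nm_sub_le (hnneg : ∀ x, nm (-x) = nm x)
    (hnadd : ∀ x y, nm (x + y) ≤ max (nm x) (nm y)) (x y : M) :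
    nm (x - y) ≤ max (nm x) (nm y) := by
  have := hnadd x (-y)
  rwa [← sub_eq_add_neg, hnneg] at this

lemma digits_nm_sum_le {ι : Type*} (s : Finset ι) (f : ι → M) (B : ℝ) (hB : 0 ≤ B)
    (hn0 : nm 0 = 0) (hnadd : ∀ x y, nm (x + y) ≤ max (nm x) (nm y))
    (h : ∀ i ∈ s, nm (f i) ≤ B) : nm (∑ i ∈ s, f i) ≤ B := by
  classical
  induction s using Finset.induction_on with
  | empty => simpa [hn0] using hB
  | insert a s ha ih =>
    rw [Finset.sum_insert ha]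
    refine (hnadd _ _).trans (max_le (h a (Finset.mem_insert_self a s)) ?_)
    exact ih (fun i hi => h i (Finset.mem_insert_of_mem hi))

lemma digits_nm_pow_nsmul {p n : ℕ} (hnp : ∀ x, nm (p • x) = nm x ^ (p ^ n)) (j : ℕ) (x : M) :
    nm ((p ^ j) • x) = nm x ^ ((p ^ n) ^ j) := by
  induction j generalizing x with
  | zero => simp
  | succ j ih =>
    rw [pow_succ, mul_nsmul', ih, hnp, ← pow_mul, pow_succ, mul_comm ((p ^ n) ^ j)]

lemma digits_inj {p n : ℕ} (hn0 : nm 0 = 0) (hnpos : ∀ x, x ≠ 0 → 0 < nm x)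
    (hnp : ∀ x, nm (p • x) = nm x ^ (p ^ n)) (j : ℕ) {x y : M}
    (h : (p ^ j) • x = (p ^ j) • y) : x = y := by
  by_contra hne
  have h1 : (p ^ j) • (x - y) = 0 := by rw [nsmul_sub, h, sub_self]
  have h2 := digits_nm_pow_nsmul hnp j (x - y)
  rw [h1, hn0] at h2
  have h3 : 0 < nm (x - y) := hnpos _ (sub_ne_zero.mpr hne)
  exact absurd h2.symm (pow_pos h3 _).ne'

lemma digits_pow_small {p n : ℕ} (hp : 2 ≤ p) (hn : 1 ≤ n) {c r : ℝ} (hc0 : 0 ≤ c) (hc1 : c < 1)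
    (hr : 0 < r) : ∃ e : ℕ, c ^ ((p ^ n) ^ e) < r := by
  obtain ⟨e, he⟩ := exists_pow_lt_of_lt_one hr hc1
  refine ⟨e, lt_of_le_of_lt ?_ he⟩
  apply pow_le_pow_of_le_one hc0 hc1.le
  have h2 : 2 ≤ p ^ n := by
    calc 2 ≤ p := hp
      _ = p ^ 1 := (pow_one p).symm
      _ ≤ p ^ n := Nat.pow_le_pow_right (by omega) hn
  exact (Nat.lt_pow_self (by omega)).le

/-- Descent of the index in `p^j x ∈ T`. -/
lemma digits_desc {p n : ℕ} (hn0 : nm 0 = 0) (hnpos : ∀ x, x ≠ 0 → 0 < nm x)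
    (hnp : ∀ x, nm (p • x) = nm x ^ (p ^ n)) (hp : 2 ≤ p) (hn : 1 ≤ n)
    (T : AddSubgroup M) {c₁ r₀ : ℝ} (hc0 : 0 ≤ c₁) (hc₁ : c₁ < 1)
    (hTr : ∀ β ∈ T, (∀ y ∈ T, β ≠ p • y) → r₀ ≤ nm β) {j₀ : ℕ} (hj₀ : c₁ ^ ((p ^ n) ^ j₀) < r₀)
    {x : M} (hx : nm x ≤ c₁) (k : ℕ) (hk : (p ^ (j₀ + k)) • x ∈ T) : (p ^ j₀) • x ∈ T := by
  have hnn := digits_nm_nonneg hn0 hnpos
  have hpn : 0 < p ^ n := by positivity
  induction k with
  | zero => simpa using hk
  | succ k ih =>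
    apply ih
    have hw : (p ^ (j₀ + (k + 1))) • x = p • ((p ^ (j₀ + k)) • x) := by
      rw [← add_assoc, pow_succ, mul_nsmul]
    by_cases hmem : ∀ y ∈ T, (p ^ (j₀ + (k + 1))) • x ≠ p • y
    · exfalso
      have h1 := hTr _ hk hmem
      rw [digits_nm_pow_nsmul hnp] at h1
      have h2 : nm x ^ ((p ^ n) ^ (j₀ + (k + 1))) ≤ c₁ ^ ((p ^ n) ^ j₀) := by
        calc nm x ^ ((p ^ n) ^ (j₀ + (k + 1))) ≤ c₁ ^ ((p ^ n) ^ (j₀ + (k + 1))) :=
              pow_le_pow_left₀ (hnn x) hx _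
          _ ≤ c₁ ^ ((p ^ n) ^ j₀) := by
              apply pow_le_pow_of_le_one hc0 hc₁.le
              exact Nat.pow_le_pow_right hpn (by omega)
      linarith
    · push Not at hmem
      obtain ⟨y, hy, hxy⟩ := hmem
      rw [hw] at hxy
      have h3 : (p ^ 1) • ((p ^ (j₀ + k)) • x) = (p ^ 1) • y := by simpa using hxy
      have h4 := digits_inj hn0 hnpos hnp 1 h3
      rwa [h4]

/-- Every nonzero element of `T` is `p ^ e` times an element of `T \ p T`. -/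
lemma digits_decomp {p n : ℕ} (hn0 : nm 0 = 0) (hnpos : ∀ x, x ≠ 0 → 0 < nm x)
    (hnp : ∀ x, nm (p • x) = nm x ^ (p ^ n)) (hp : 2 ≤ p)
    (T : AddSubgroup M) {c₁ : ℝ} (hc0 : 0 ≤ c₁) (hTc : ∀ β ∈ T, nm β ≤ c₁) (e : ℕ) :
    ∀ β ∈ T, c₁ ^ ((p ^ n) ^ e) < nm β →
      ∃ (e' : ℕ) (β₀ : M), β₀ ∈ T ∧ (∀ y ∈ T, β₀ ≠ p • y) ∧ β = (p ^ e') • β₀ := by
  have hnn := digits_nm_nonneg hn0 hnpos
  have hpn : p ^ n ≠ 0 := by positivity
  induction e with
  | zero =>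
    intro β hβ h
    simp only [pow_zero, pow_one] at h
    exact absurd (hTc β hβ) (not_le.mpr h)
  | succ e ih =>
    intro β hβ h
    by_cases hmem : ∀ y ∈ T, β ≠ p • y
    · exact ⟨0, β, hβ, hmem, by simp⟩
    · push Not at hmem
      obtain ⟨y, hy, hyβ⟩ := hmem
      have h1 : nm β = nm y ^ (p ^ n) := by rw [hyβ, hnp]
      have h2 : c₁ ^ ((p ^ n) ^ e) < nm y := by
        have h0 : c₁ ^ ((p ^ n) ^ (e + 1)) = (c₁ ^ ((p ^ n) ^ e)) ^ (p ^ n) := by
          rw [pow_succ (p ^ n) e, pow_mul]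
        rw [h1, h0] at h
        exact lt_of_pow_lt_pow_left₀ (p ^ n) (hnn y) h
      obtain ⟨e', β₀, hβ₀, hβ₀', hy'⟩ := ih y hy h2
      refine ⟨e' + 1, β₀, hβ₀, hβ₀', ?_⟩
      rw [hyβ, hy', pow_succ, mul_nsmul]

end DigitsAux

section DigitsMain

variable {M : Type*} [AddCommGroup M] {nm : M → ℝ} {k : Type*} [Field k]

/-- The operator `γ_d = ∑_{i<s} c (d i) Φ^i`. -/
def digitsGam (c : k → M →+ M) (Φ : AddMonoid.End M) {s : ℕ} (d : Fin s → k) (x : M) : M :=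
  ∑ i : Fin s, c (d i) ((Φ ^ (i : ℕ)) x)

lemma digitsGam_sub (c : k → M →+ M) (Φ : AddMonoid.End M) {s : ℕ} (d : Fin s → k) (x y : M) :
    digitsGam c Φ d (x - y) = digitsGam c Φ d x - digitsGam c Φ d y := by
  simp only [digitsGam, map_sub, Finset.sum_sub_distrib]

lemma digitsGam_nsmul (c : k → M →+ M) (Φ : AddMonoid.End M) {s : ℕ} (d : Fin s → k) (e : ℕ)
    (x : M) : digitsGam c Φ d (e • x) = e • digitsGam c Φ d x := by
  simp only [digitsGam, map_nsmul, Finset.smul_sum]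

lemma digits_nm_Phi {p : ℕ} {Φ : AddMonoid.End M} (hΦ : ∀ x, nm (Φ x) = nm x ^ p) (i : ℕ) (x : M) :
    nm ((Φ ^ i) x) = nm x ^ (p ^ i) := by
  induction i with
  | zero => simp
  | succ i ih =>
    have h0 : (Φ ^ (i + 1)) x = Φ ((Φ ^ i) x) := by rw [pow_succ']; rfl
    rw [h0, hΦ, ih, ← pow_mul, pow_succ]

lemma digits_nm_c {c : k → M →+ M} (hn0 : nm 0 = 0) (hc0 : c 0 = 0)
    (hcc : ∀ a a' x, a ≠ a' → nm (c a x - c a' x) = nm x) (hnn : ∀ x, 0 ≤ nm x) (a : k) (x : M) :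
    nm (c a x) ≤ nm x := by
  by_cases ha : a = 0
  · simp [ha, hc0, hn0, hnn x]
  · have := hcc a 0 x ha
    simpa [hc0] using this.le

lemma digits_nm_gam_le {p : ℕ} {c : k → M →+ M} {Φ : AddMonoid.End M} (hp : 2 ≤ p)
    (hn0 : nm 0 = 0) (hnn : ∀ x, 0 ≤ nm x) (hnlt : ∀ x, nm x < 1)
    (hnadd : ∀ x y, nm (x + y) ≤ max (nm x) (nm y))
    (hΦ : ∀ x, nm (Φ x) = nm x ^ p) (hc0 : c 0 = 0)
    (hcc : ∀ a a' x, a ≠ a' → nm (c a x - c a' x) = nm x) {s : ℕ} (d : Fin s → k) (x : M) :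
    nm (digitsGam c Φ d x) ≤ nm x := by
  apply digits_nm_sum_le _ _ _ (hnn x) hn0 hnadd
  intro i _
  refine (digits_nm_c hn0 hc0 hcc hnn _ _).trans ?_
  rw [digits_nm_Phi hΦ]
  exact pow_le_of_le_one (hnn x) (hnlt x).le (by positivity)

/-- Lower bound for the difference of two operators at the first differing digit. -/
lemma digits_nm_diff_ge {p : ℕ} {c : k → M →+ M} {Φ : AddMonoid.End M} (hp : 2 ≤ p)
    (hn0 : nm 0 = 0) (hnn : ∀ x, 0 ≤ nm x) (hnlt : ∀ x, nm x < 1)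
    (hnneg : ∀ x, nm (-x) = nm x)
    (hnadd : ∀ x y, nm (x + y) ≤ max (nm x) (nm y))
    (hΦ : ∀ x, nm (Φ x) = nm x ^ p)
    (hcc : ∀ a a' x, a ≠ a' → nm (c a x - c a' x) = nm x) {s : ℕ} (d d' : Fin s → k)
    (i₀ : Fin s) (hi₀ : d i₀ ≠ d' i₀) (hmin : ∀ i, i < i₀ → d i = d' i) (x : M) (hx : 0 < nm x) :
    nm x ^ (p ^ (i₀ : ℕ)) ≤ nm (digitsGam c Φ d x - digitsGam c Φ d' x) := by
  classical
  set g : Fin s → M := fun i => c (d i) ((Φ ^ (i : ℕ)) x) - c (d' i) ((Φ ^ (i : ℕ)) x) with hg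
  have hsum : digitsGam c Φ d x - digitsGam c Φ d' x = ∑ i, g i := by
    simp only [digitsGam, hg, Finset.sum_sub_distrib]
  have hA : nm (g i₀) = nm x ^ (p ^ (i₀ : ℕ)) := by
    rw [hg]; simp only; rw [hcc _ _ _ hi₀, digits_nm_Phi hΦ]
  have hAB : nm x ^ (p ^ ((i₀ : ℕ) + 1)) < nm x ^ (p ^ (i₀ : ℕ)) :=
    pow_lt_pow_right_of_lt_one₀ hx (hnlt x) (Nat.pow_lt_pow_right (by omega) (by omega))
  have hrest : nm (∑ i ∈ Finset.univ.erase i₀, g i) ≤ nm x ^ (p ^ ((i₀ : ℕ) + 1)) := by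
    apply digits_nm_sum_le _ _ _ (pow_nonneg (hnn x) _) hn0 hnadd
    intro i hi
    have hne : i ≠ i₀ := Finset.ne_of_mem_erase hi
    rcases lt_or_gt_of_ne hne with hlt | hgt
    · have : g i = 0 := by rw [hg]; simp only; rw [hmin i hlt, sub_self]
      rw [this, hn0]; exact pow_nonneg (hnn x) _
    · by_cases hdi : d i = d' i
      · have : g i = 0 := by rw [hg]; simp only; rw [hdi, sub_self]
        rw [this, hn0]; exact pow_nonneg (hnn x) _
      · have : nm (g i) = nm x ^ (p ^ (i : ℕ)) := by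
          rw [hg]; simp only; rw [hcc _ _ _ hdi, digits_nm_Phi hΦ]
        rw [this]
        apply pow_le_pow_of_le_one (hnn x) (hnlt x).le
        exact Nat.pow_le_pow_right (by omega) hgt
  have hdecomp : g i₀ = (∑ i, g i) - ∑ i ∈ Finset.univ.erase i₀, g i := by
    rw [← Finset.add_sum_erase Finset.univ g (Finset.mem_univ i₀)]; abel
  rw [hsum]
  by_contra hcon
  push Not at hcon
  have h5 : nm (g i₀) ≤ max (nm (∑ i, g i)) (nm (∑ i ∈ Finset.univ.erase i₀, g i)) := by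
    conv_lhs => rw [hdecomp]
    exact digits_nm_sub_le hnneg hnadd _ _
  rw [hA] at h5
  rcases le_max_iff.mp h5 with h6 | h6
  · linarith
  · linarith

end DigitsMain

/-- Pigeonhole for the operators `γ = ∑_{i<s} [d i] Φ^i` on a `p`-divisible group `M` with a norm.

`M` is a group with an ultrametric norm `nm` with values in `[0,1)`, zero only at zero, with
`nm (p • x) = nm x ^ (p ^ n)`; `p •` is surjective on `M`. `Φ` and `c a` (`a ∈ k`, `#k = p ^ n`) are endomorphisms of `M` with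
`nm (Φ x) = nm x ^ p`, `nm (c a x - c a' x) = nm x` for `a ≠ a'`, `c 0 = 0`, and so `nm (c a x) = nm x` for `a ≠ 0`. `T` is a subgroup
of `M`, with norm at most `c₁ < 1`, norm at least `r₀ > 0` outside `p T`, and with `T / p^m T` of size at most `p ^ (m N)`, where `N < n`.

Then some `γ` maps no nonzero element of `T` into `V = ⋃ p^(-j) T`.

Proof.  For `β ∈ T \ pT`, `γ β ∈ V` and norm at most `c₁` forces `γ β ∈ T₀ = p^(-j₀) T` with `j₀` fixed (as elements of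
`p^(-j) T \ p^(-j+1) T` have norm at least `r₀ ^ (1 / p^(n j))`, tending to `1`).  If every digit vector `d` of length `s` were
bad, choose `β_d ∈ T \ pT` and `β'_d = γ_d β_d ∈ T₀`.  The pair of classes `(β_d mod p^m T, β'_d mod p^m T₀)` takes at most
`p ^ (2 m N)` values, and there are `p ^ (n s)` digit vectors. Two different digit vectors `d, d'` in the same class give
`(γ_d - γ_d') β_d = γ_d' (β_d' - β_d) + (β'_d - β'_d') `, of norm at most `max (c₁, c₁ ^ (1 / p ^ (n j₀))) ^ (p ^ (n m))`,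
while the left side has norm `nm β_d ^ (p ^ i) ≥ r₀ ^ (p ^ s)`, where `i < s` is the first digit where they differ.
Take `s = n m - C - 1` (`C` fixed), and `m` large: `n s > 2 m N` as `n² > 2 (n - 1)`. -/
theorem exists_good_digits {M : Type*} [AddCommGroup M] (nm : M → ℝ) (p n N : ℕ) [Fact p.Prime]
    (hn0 : nm 0 = 0) (hnpos : ∀ x, x ≠ 0 → 0 < nm x) (hnlt : ∀ x, nm x < 1)
    (hnneg : ∀ x, nm (-x) = nm x)
    (hnadd : ∀ x y, nm (x + y) ≤ max (nm x) (nm y))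
    (hnp : ∀ x, nm (p • x) = nm x ^ (p ^ n))
    (hdiv : ∀ x : M, ∃ y : M, p • y = x)
    {k : Type*} [Field k] [Fintype k] (hk : Fintype.card k = p ^ n)
    (c : k → M →+ M) (Φ : AddMonoid.End M)
    (hΦ : ∀ x, nm (Φ x) = nm x ^ p)
    (hc0 : c 0 = 0)
    (hcc : ∀ a a' x, a ≠ a' → nm (c a x - c a' x) = nm x)
    (T : AddSubgroup M) (hN : N < n)
    (hTfin : ∀ m : ℕ, Nat.card (T ⧸ (nsmulAddMonoidHom (α := T) (p ^ m)).range) ≤ p ^ (m * N))
    (hTfin' : ∀ m : ℕ, Finite (T ⧸ (nsmulAddMonoidHom (α := T) (p ^ m)).range))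
    (c₁ : ℝ) (hc₁ : c₁ < 1) (hTc : ∀ β ∈ T, nm β ≤ c₁)
    (r₀ : ℝ) (hr₀ : 0 < r₀) (hTr : ∀ β ∈ T, (∀ y ∈ T, β ≠ p • y) → r₀ ≤ nm β) :
    ∃ (s : ℕ) (d : ℕ → k), ∀ β ∈ T, β ≠ 0 → ∀ j : ℕ,
      (p ^ j) • ∑ i ∈ Finset.range s, c (d i) ((Φ ^ i) β) ∉ T := by
  classical
  have hp : 2 ≤ p := (Fact.out : p.Prime).two_le
  have hn : 1 ≤ n := by omega
  have hnn := digits_nm_nonneg hn0 hnpos
  have hc0' : 0 ≤ c₁ := by simpa [hn0] using hTc 0 T.zero_mem
  have hpn : 0 < p ^ n := by positivity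
  obtain ⟨j₀, hj₀⟩ := digits_pow_small hp hn hc0' hc₁ hr₀
  -- parameters
  set t : ℕ := 4 * j₀ * N + 1 with ht
  set m' : ℕ := j₀ + t with hm'
  set m : ℕ := j₀ + m' with hm
  set s : ℕ := n * t with hs
  -- the key claim: some digit vector is good on `T \ p T`
  have key : ∃ d : Fin s → k, ∀ β ∈ T, (∀ y ∈ T, β ≠ p • y) →
      (p ^ j₀) • digitsGam c Φ d β ∉ T := by
    by_contra hbad
    push Not at hbad
    choose b hbT hbp hbT' using hbad
    have := hTfin' m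
    let Q := T ⧸ (nsmulAddMonoidHom (α := T) (p ^ m)).range
    let f : (Fin s → k) → Q × Q := fun d =>
      (QuotientAddGroup.mk ⟨b d, hbT d⟩, QuotientAddGroup.mk ⟨_, hbT' d⟩)
    have hnotinj : ¬ Function.Injective f := by
      intro hinj
      have h1 := Nat.card_le_card_of_injective f hinj
      have h2 : Nat.card (Fin s → k) = p ^ (n * s) := by
        rw [Nat.card_eq_fintype_card, Fintype.card_fun, hk, Fintype.card_fin, ← pow_mul]
      have h3 : Nat.card (Q × Q) ≤ p ^ (2 * m * N) := by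
        rw [Nat.card_prod]
        calc Nat.card Q * Nat.card Q ≤ p ^ (m * N) * p ^ (m * N) :=
              Nat.mul_le_mul (hTfin m) (hTfin m)
          _ = p ^ (2 * m * N) := by rw [← pow_add]; congr 1; ring
      have h4 : 2 * m * N < n * s := by
        have hnN : 2 * N + 1 ≤ n * n := by nlinarith
        have h5 : (2 * N + 1) * t ≤ n * n * t := Nat.mul_le_mul_right t hnN
        have h6 : n * s = n * n * t := by rw [hs]; ring
        rw [h6]
        have h7 : 2 * m * N = 4 * j₀ * N + 2 * N * t := by rw [hm, hm']; ring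
        have h8 : (2 * N + 1) * t = 2 * N * t + t := by ring
        omega
      have h5 : p ^ (2 * m * N) < p ^ (n * s) := Nat.pow_lt_pow_right (by omega) h4
      omega
    rw [Function.Injective] at hnotinj
    push Not at hnotinj
    obtain ⟨d, d', hff, hdd⟩ := hnotinj
    have hf1 := congrArg Prod.fst hff
    have hf2 := congrArg Prod.snd hff
    simp only [f] at hf1 hf2
    rw [QuotientAddGroup.eq] at hf1 hf2
    obtain ⟨t₁, ht₁⟩ := hf1
    obtain ⟨t₂, ht₂⟩ := hf2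
    have ht₁' : (p ^ m) • (t₁ : M) = - b d + b d' := by
      have := congrArg (Subtype.val) ht₁
      simpa using this
    have ht₂' : (p ^ m) • (t₂ : M) =
        -((p ^ j₀) • digitsGam c Φ d (b d)) + (p ^ j₀) • digitsGam c Φ d' (b d') := by
      have := congrArg (Subtype.val) ht₂
      simpa using this
    -- the first differing digit
    obtain ⟨i₁, hi₁⟩ := Function.ne_iff.mp hdd
    let S : Finset (Fin s) := Finset.univ.filter (fun i => d i ≠ d' i)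
    have hSne : S.Nonempty := ⟨i₁, by simp [S, hi₁]⟩
    let i₀ : Fin s := S.min' hSne
    have hi₀ : d i₀ ≠ d' i₀ := by
      have := S.min'_mem hSne
      simpa [S] using this
    have hmin : ∀ i, i < i₀ → d i = d' i := by
      intro i hi
      by_contra hne
      have hiS : i ∈ S := by simp [S, hne]
      exact absurd (S.min'_le i hiS) (not_le.mpr hi)
    have hr : r₀ ≤ nm (b d) := hTr _ (hbT d) (hbp d)
    have hpos : 0 < nm (b d) := lt_of_lt_of_le hr₀ hr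
    have hlow := digits_nm_diff_ge hp hn0 hnn hnlt hnneg hnadd hΦ hcc d d' i₀ hi₀ hmin (b d) hpos
    -- upper bound
    have hB0 : 0 ≤ c₁ ^ ((p ^ n) ^ m') := pow_nonneg hc0' _
    have hu1 : digitsGam c Φ d (b d) - digitsGam c Φ d' (b d') = (p ^ m') • (-(t₂ : M)) := by
      apply digits_inj hn0 hnpos hnp j₀
      rw [nsmul_sub, ← mul_nsmul', ← pow_add, ← hm, smul_neg, ht₂']
      abel
    have hu1' : nm (digitsGam c Φ d (b d) - digitsGam c Φ d' (b d')) ≤ c₁ ^ ((p ^ n) ^ m') := by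
      rw [hu1, digits_nm_pow_nsmul hnp, hnneg]
      exact pow_le_pow_left₀ (hnn _) (hTc _ t₂.2) _
    have hu2 : nm (digitsGam c Φ d' (b d' - b d)) ≤ c₁ ^ ((p ^ n) ^ m') := by
      refine (digits_nm_gam_le hp hn0 hnn hnlt hnadd hΦ hc0 hcc d' _).trans ?_
      have h1 : b d' - b d = (p ^ m) • (t₁ : M) := by rw [ht₁']; abel
      rw [h1, digits_nm_pow_nsmul hnp]
      calc nm (t₁ : M) ^ ((p ^ n) ^ m) ≤ c₁ ^ ((p ^ n) ^ m) :=
            pow_le_pow_left₀ (hnn _) (hTc _ t₁.2) _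
        _ ≤ c₁ ^ ((p ^ n) ^ m') := by
            apply pow_le_pow_of_le_one hc0' hc₁.le
            exact Nat.pow_le_pow_right hpn (by omega)
    have hsplit : digitsGam c Φ d (b d) - digitsGam c Φ d' (b d) =
        (digitsGam c Φ d (b d) - digitsGam c Φ d' (b d')) + digitsGam c Φ d' (b d' - b d) := by
      rw [digitsGam_sub]; abel
    have hup : nm (digitsGam c Φ d (b d) - digitsGam c Φ d' (b d)) ≤ c₁ ^ ((p ^ n) ^ m') := by
      rw [hsplit]
      exact (hnadd _ _).trans (max_le hu1' hu2)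
    have hstrict : (c₁ ^ ((p ^ n) ^ j₀)) ^ (p ^ (i₀ : ℕ)) < nm (b d) ^ (p ^ (i₀ : ℕ)) :=
      pow_lt_pow_left₀ (lt_of_lt_of_le hj₀ hr) (pow_nonneg hc0' _) (by positivity)
    have hexp : c₁ ^ ((p ^ n) ^ m') ≤ (c₁ ^ ((p ^ n) ^ j₀)) ^ (p ^ (i₀ : ℕ)) := by
      have h1 : (c₁ ^ ((p ^ n) ^ j₀)) ^ (p ^ (i₀ : ℕ)) = c₁ ^ ((p ^ n) ^ j₀ * p ^ (i₀ : ℕ)) :=
        (pow_mul _ _ _).symm
      rw [h1]
      apply pow_le_pow_of_le_one hc0' hc₁.le
      rw [← pow_mul, ← pow_mul, ← pow_add]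
      apply Nat.pow_le_pow_right (by omega)
      have hi₀s : (i₀ : ℕ) < n * t := i₀.2
      have : n * m' = n * j₀ + n * t := by rw [hm']; ring
      omega
    linarith
  obtain ⟨d, hd⟩ := key
  refine ⟨s, fun i => if h : i < s then d ⟨i, h⟩ else 0, ?_⟩
  intro β hβ hβ0 j hmem
  have hconv : ∑ i ∈ Finset.range s, c (if h : i < s then d ⟨i, h⟩ else 0) ((Φ ^ i) β) =
      digitsGam c Φ d β := by
    rw [Finset.sum_range]
    apply Finset.sum_congr rfl
    intro i _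
    rw [dif_pos i.2]
  rw [hconv] at hmem
  obtain ⟨e, he⟩ := digits_pow_small hp hn hc0' hc₁ (hnpos β hβ0)
  obtain ⟨e', β₀, hβ₀, hβ₀', hβeq⟩ := digits_decomp hn0 hnpos hnp hp T hc0' hTc e β hβ he
  rw [hβeq, digitsGam_nsmul, ← mul_nsmul', ← pow_add] at hmem
  have hx : nm (digitsGam c Φ d β₀) ≤ c₁ :=
    (digits_nm_gam_le hp hn0 hnn hnlt hnadd hΦ hc0 hcc d _).trans (hTc _ hβ₀)
  refine hd β₀ hβ₀ hβ₀' ?_
  by_cases hle : j + e' ≤ j₀
  · obtain ⟨q, hq⟩ := Nat.exists_eq_add_of_le hle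
    rw [hq, add_comm, pow_add, mul_nsmul']
    exact T.nsmul_mem hmem _
  · obtain ⟨q, hq⟩ := Nat.exists_eq_add_of_le (not_le.mp hle).le
    rw [hq] at hmem
    exact digits_desc hn0 hnpos hnp hp hn T hc0' hc₁ hTr hj₀ hx q hmem

end Vale.Agent.Lib.P217
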