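import Vale.Agent.Lib.P217.Tors

set_option linter.unusedSectionVars false
set_option linter.unusedVariables false

namespace Vale.Agent.Lib.P217

open scoped Topology
open Filter

variable {C : Type*} [NormedField C] [IsUltrametricDist C] [CompleteSpace C]
variable {p n : ℕ} [hp : Fact p.Prime] [CharP C p] [IsAlgClosed C]
variable {L₀ L : Law C p n} (hb : IsBase L₀) (hc : Close L₀ L)

/-- The Tate lattice: the kernel of the quasi-logarithm. -/
noncomputable def Lat : AddSubgroup (Pts L₀.G) := (muHom hb hc).ker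

lemma mem_Lat {β : Pts L₀.G} : β ∈ Lat hb hc ↔ mu L₀ L β = 0 := Iff.rfl

/-- Elements of the lattice have norm at most `L.c`, since `‖μ β - β‖ ≤ L.c`. -/
theorem norm_le_of_mem_Lat {β : Pts L₀.G} (h : β ∈ Lat hb hc) : ‖β.v‖ ≤ L.c := by
  have h1 := norm_mu_sub_le L β
  rw [(mem_Lat hb hc).mp h] at h1
  simpa using h1

section aux

lemma rti_pow_v (j : ℕ) (x : Pts L₀.G) : (rti j x).v ^ (p ^ (n * j)) = x.v := by
  induction j with
  | zero => simp [rti_zero]
  | succ j ih =>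
    rw [Nat.mul_succ, pow_add, mul_comm (p ^ (n * j)), pow_mul, nsmul_rti_succ, ih]

lemma nsmul_pow_rti_add (hb : IsBase L₀) (j k : ℕ) (x : Pts L₀.G) :
    (p ^ j) • rti (j + k) x = rti k x := by
  induction j with
  | zero => simp
  | succ j ih =>
    rw [show j + 1 + k = (j + k) + 1 by omega, rti_succ, pow_succ, mul_nsmul', nsmul_rt hb, ih]

lemma c_pow_anti (L : Law C p n) {a b : ℕ} (h : a ≤ b) : L.c ^ (p ^ b) ≤ L.c ^ (p ^ a) :=
  pow_le_pow_of_le_one L.c_nonneg L.c_lt_one.le (Nat.pow_le_pow_right hp.out.pos h)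

end aux

/-- The quasi-logarithm is surjective: given `z`, choose `z₀ = z`, `p • z_{j+1} = z_j` by `nsmul_p_surjective`; then `b_j = z_j ^ (p^(n j))` is Cauchy
(`‖b_{j+1} - b_j‖ ≤ L.c ^ (p^(n j))`); let `β` be its limit. Then `‖rti j β - z_j‖ ≤ L.c` and so `nuSeq β j` is within `L.c ^ (p ^ j)` of `(p^j) • z_j = z`. -/
theorem mu_surjective (hn : 1 ≤ n) (ht : ∃ t : C, t ≠ 0 ∧ ‖t‖ < 1) : Function.Surjective (mu L₀ L) := by
  intro z
  choose dv hdv using nsmul_p_surjective L hn ht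
  let zs : ℕ → Pts L.G := fun j => dv^[j] z
  have hzs : ∀ j, p • zs (j + 1) = zs j := by
    intro j
    simp only [zs, Function.iterate_succ_apply']
    exact hdv _
  have hzsp : ∀ j, (p ^ j) • zs j = z := by
    intro j
    induction j with
    | zero => simp [zs]
    | succ j ih => rw [pow_succ, mul_nsmul', hzs, ih]
  let bv : ℕ → C := fun j => (zs j).v ^ (p ^ (n * j))
  have hstep : ∀ j, ‖bv (j + 1) - bv j‖ ≤ L.c ^ (p ^ (n * j)) := by
    intro j
    have e1 : bv (j + 1) = ((zs (j + 1)).v ^ (p ^ n)) ^ (p ^ (n * j)) := by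
      simp only [bv]
      rw [Nat.mul_succ, pow_add, mul_comm (p ^ (n * j)), pow_mul]
    have e2 : bv j = ((p • zs (j + 1)).v) ^ (p ^ (n * j)) := by
      simp only [bv]
      rw [hzs]
    rw [e1, e2, ← sub_pow_char_pow, norm_pow]
    refine pow_le_pow_left₀ (norm_nonneg _) ?_ _
    rw [norm_sub_rev]
    exact norm_nsmul_p_sub_pow_le L _
  have hnexp : ∀ j, p ^ (n * j) ≤ p ^ (n * (j + 1)) := fun j =>
    Nat.pow_le_pow_right hp.out.pos (by nlinarith)
  have hexpanti : ∀ {i j : ℕ}, i ≤ j → L.c ^ (p ^ (n * j)) ≤ L.c ^ (p ^ (n * i)) := by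
    intro i j hij
    refine pow_le_pow_of_le_one L.c_nonneg L.c_lt_one.le (Nat.pow_le_pow_right hp.out.pos ?_)
    exact Nat.mul_le_mul_left n hij
  have hcle : ∀ j, L.c ^ (p ^ (n * j)) ≤ L.c := by
    intro j
    have := hexpanti (Nat.zero_le j)
    simpa using this
  have hbnd : ∀ j, ‖bv j‖ ≤ max ‖z.v‖ L.c := by
    intro j
    induction j with
    | zero =>
      simp only [bv, Nat.mul_zero, pow_zero, pow_one]
      exact le_max_left _ _
    | succ j ih =>
      have e : bv (j + 1) = (bv (j + 1) - bv j) + bv j := by ring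
      rw [e]
      refine (IsUltrametricDist.norm_add_le_max _ _).trans (max_le ?_ ih)
      exact ((hstep j).trans (hcle j)).trans (le_max_right _ _)
  have hr1 : max ‖z.v‖ L.c < 1 := max_lt z.norm_lt L.c_lt_one
  let s : ℕ → Pts L₀.G := fun j => Pts.mk (bv j) (lt_of_le_of_lt (hbnd j) hr1)
  have hexp_tendsto : Tendsto (fun j : ℕ => L.c ^ (p ^ (n * j))) atTop (𝓝 0) := by
    refine squeeze_zero (fun j => pow_nonneg L.c_nonneg _) (fun j => ?_) (tendsto_c_pow L)
    refine pow_le_pow_of_le_one L.c_nonneg L.c_lt_one.le (Nat.pow_le_pow_right hp.out.pos ?_)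
    exact Nat.le_mul_of_pos_left j (by omega)
  obtain ⟨β, hβ, -⟩ := exists_lim_pts s (by
    rw [tendsto_zero_iff_norm_tendsto_zero]
    exact squeeze_zero (fun _ => norm_nonneg _) (fun j => hstep j) hexp_tendsto) hr1
    (fun j => hbnd j)
  refine ⟨β, ?_⟩
  have hdiff : ∀ j i, ‖bv (j + i) - bv j‖ ≤ L.c ^ (p ^ (n * j)) := by
    intro j i
    induction i with
    | zero => simpa using pow_nonneg L.c_nonneg _
    | succ i ih =>
      have e : bv (j + (i + 1)) - bv j = (bv (j + i + 1) - bv (j + i)) + (bv (j + i) - bv j) := by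
        rw [← add_assoc]; ring
      rw [e]
      refine (IsUltrametricDist.norm_add_le_max _ _).trans (max_le ?_ ih)
      exact (hstep _).trans (hexpanti (by omega))
  have hdist : ∀ j, ‖β.v - bv j‖ ≤ L.c ^ (p ^ (n * j)) := by
    intro j
    have h1 : Tendsto (fun i => bv (j + i) - bv j) atTop (𝓝 (β.v - bv j)) := by
      have h2 : Tendsto (fun i => (s (j + i)).v) atTop (𝓝 β.v) := by
        have := hβ.comp (tendsto_add_atTop_nat j)
        simpa [Function.comp_def, add_comm] using this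
      exact h2.sub_const _
    exact le_of_tendsto h1.norm (Eventually.of_forall (hdiff j))
  have hrti : ∀ j, ‖(rti j β).v - (zs j).v‖ ≤ L.c := by
    intro j
    have hq : p ^ (n * j) ≠ 0 := (Nat.pow_pos hp.out.pos).ne'
    have h1 : ‖(rti j β).v - (zs j).v‖ ^ (p ^ (n * j)) ≤ L.c ^ (p ^ (n * j)) := by
      rw [← norm_pow, sub_pow_char_pow, rti_pow_v]
      exact hdist j
    exact le_of_pow_le_pow_left₀ hq L.c_nonneg h1
  have hlim : Tendsto (fun j => (nuSeq L₀ L β j).v) atTop (𝓝 z.v) := by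
    rw [tendsto_iff_norm_sub_tendsto_zero]
    refine squeeze_zero (fun _ => norm_nonneg _) (fun j => ?_) (tendsto_c_pow L)
    conv_lhs => rw [← hzsp j]
    refine (norm_nsmul_pow_sub_le L _ _ j).trans (pow_le_pow_left₀ (norm_nonneg _) ?_ _)
    exact hrti j
  exact Pts.ext (tendsto_nhds_unique (tendsto_nuSeq L β) hlim)

section torsion_count

omit [NormedField C] in
/-- Counting torsion. -/
lemma card_ker_pow_le {A : Type*} [AddCommGroup A] {p N : ℕ} (hp0 : 0 < p)
    (hN : Nat.card (nsmulAddMonoidHom (α := A) p).ker = p ^ N) (m : ℕ) :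
    Finite (nsmulAddMonoidHom (α := A) (p ^ m)).ker ∧
      Nat.card (nsmulAddMonoidHom (α := A) (p ^ m)).ker ≤ p ^ (m * N) := by
  classical
  have hfin : Finite (nsmulAddMonoidHom (α := A) p).ker :=
    Nat.finite_of_card_ne_zero (by rw [hN]; exact (Nat.pow_pos hp0).ne')
  induction m with
  | zero =>
    have h1 : Subsingleton (nsmulAddMonoidHom (α := A) (p ^ 0)).ker := by
      refine ⟨fun x y => Subtype.ext ?_⟩
      have hx := x.2
      have hy := y.2
      have h0 : ∀ a : A, (p ^ 0) • a = a := fun a => by simp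
      rw [AddMonoidHom.mem_ker, nsmulAddMonoidHom_apply, h0] at hx hy
      rw [hx, hy]
    refine ⟨inferInstance, ?_⟩
    simp
  | succ m ih =>
    obtain ⟨hH, hc⟩ := ih
    let f : (nsmulAddMonoidHom (α := A) (p ^ m)).ker → A := fun y =>
      if h : ∃ g : A, p • g = (y : A) then h.choose else 0
    have hf : ∀ y : (nsmulAddMonoidHom (α := A) (p ^ m)).ker, (∃ g : A, p • g = (y : A)) →
        p • f y = y := by
      intro y h
      simp only [f, dif_pos h]
      exact h.choose_spec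
    have hmem1 : ∀ g : (nsmulAddMonoidHom (α := A) (p ^ (m + 1))).ker,
        p • (g : A) ∈ (nsmulAddMonoidHom (α := A) (p ^ m)).ker := by
      intro g
      have := g.2
      have h0 : ∀ a : A, (p ^ (m + 1)) • a = (p ^ m) • (p • a) := fun a => by
        rw [pow_succ, mul_nsmul']
      rw [AddMonoidHom.mem_ker, nsmulAddMonoidHom_apply, h0] at this
      rw [AddMonoidHom.mem_ker, nsmulAddMonoidHom_apply]
      exact this
    let e1 : (nsmulAddMonoidHom (α := A) (p ^ (m + 1))).ker → (nsmulAddMonoidHom (α := A) (p ^ m)).ker :=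
      fun g => ⟨p • (g : A), hmem1 g⟩
    have hmem2 : ∀ g : (nsmulAddMonoidHom (α := A) (p ^ (m + 1))).ker,
        (g : A) - f (e1 g) ∈ (nsmulAddMonoidHom (α := A) p).ker := by
      intro g
      rw [AddMonoidHom.mem_ker, nsmulAddMonoidHom_apply, nsmul_sub,
        hf (e1 g) ⟨(g : A), rfl⟩, sub_eq_zero]
    let e : (nsmulAddMonoidHom (α := A) (p ^ (m + 1))).ker →
        (nsmulAddMonoidHom (α := A) (p ^ m)).ker × (nsmulAddMonoidHom (α := A) p).ker :=
      fun g => (e1 g, ⟨(g : A) - f (e1 g), hmem2 g⟩)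
    have he : Function.Injective e := by
      intro g g' h
      have h1 : e1 g = e1 g' := congrArg Prod.fst h
      have h2 : (g : A) - f (e1 g) = (g' : A) - f (e1 g') :=
        congrArg (fun u : (nsmulAddMonoidHom (α := A) (p ^ m)).ker × (nsmulAddMonoidHom (α := A) p).ker =>
          (u.2 : A)) h
      rw [h1] at h2
      exact Subtype.ext (sub_left_inj.mp h2)
    refine ⟨Finite.of_injective e he, ?_⟩
    calc Nat.card (nsmulAddMonoidHom (α := A) (p ^ (m + 1))).ker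
        ≤ Nat.card ((nsmulAddMonoidHom (α := A) (p ^ m)).ker × (nsmulAddMonoidHom (α := A) p).ker) :=
          Nat.card_le_card_of_injective e he
      _ = Nat.card (nsmulAddMonoidHom (α := A) (p ^ m)).ker * Nat.card (nsmulAddMonoidHom (α := A) p).ker :=
          Nat.card_prod _ _
      _ ≤ p ^ (m * N) * p ^ N := by rw [hN]; exact Nat.mul_le_mul_right _ hc
      _ = p ^ ((m + 1) * N) := by rw [← pow_add]; congr 1; ring

end torsion_count

section quot

/-- `rti` as a homomorphism. -/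
noncomputable def rtiHom (m : ℕ) : Pts L₀.G →+ Pts L₀.G :=
  AddMonoidHom.mk' (rti m) (rti_add hb m)

/-- The map `β ↦ μ (rti m β)` from the lattice to the torsion. -/
noncomputable def phiHom (m : ℕ) : Lat hb hc →+ (nsmulAddMonoidHom (α := Pts L.G) (p ^ m)).ker :=
  AddMonoidHom.codRestrict (((muHom hb hc).comp (rtiHom hb m)).comp (Lat hb hc).subtype) _ (by
    intro β
    rw [AddMonoidHom.mem_ker, nsmulAddMonoidHom_apply]
    change (p ^ m) • mu L₀ L (rti m (β : Pts L₀.G)) = 0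
    rw [← mu_nsmul hb hc, nsmul_pow_rti hb]
    exact β.2)

lemma phiHom_apply (m : ℕ) (β : Lat hb hc) :
    ((phiHom hb hc m β : (nsmulAddMonoidHom (α := Pts L.G) (p ^ m)).ker) : Pts L.G) =
      mu L₀ L (rti m (β : Pts L₀.G)) := rfl

lemma phiHom_eq_zero_iff (m : ℕ) (β : Lat hb hc) :
    phiHom hb hc m β = 0 ↔ β ∈ (nsmulAddMonoidHom (α := Lat hb hc) (p ^ m)).range := by
  constructor
  · intro h
    have h1 : mu L₀ L (rti m (β : Pts L₀.G)) = 0 := by
      have := congrArg (fun u : (nsmulAddMonoidHom (α := Pts L.G) (p ^ m)).ker => (u : Pts L.G)) h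
      simpa [phiHom_apply] using this
    refine ⟨⟨rti m (β : Pts L₀.G), h1⟩, ?_⟩
    apply Subtype.ext
    rw [nsmulAddMonoidHom_apply, AddSubgroup.coe_nsmul]
    exact nsmul_pow_rti hb m _
  · rintro ⟨γ, rfl⟩
    apply Subtype.ext
    rw [phiHom_apply, nsmulAddMonoidHom_apply, AddSubgroup.coe_nsmul, rti_nsmul_pow hb]
    exact γ.2

/-- The induced map on the quotient. -/
noncomputable def phiQuot (m : ℕ) :
    (Lat hb hc ⧸ (nsmulAddMonoidHom (α := Lat hb hc) (p ^ m)).range) →+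
      (nsmulAddMonoidHom (α := Pts L.G) (p ^ m)).ker :=
  QuotientAddGroup.lift _ (phiHom hb hc m) (fun x hx => (phiHom_eq_zero_iff hb hc m x).mpr hx)

lemma phiQuot_injective (m : ℕ) : Function.Injective (phiQuot hb hc m) := by
  rw [injective_iff_map_eq_zero]
  intro x
  induction x using QuotientAddGroup.induction_on with
  | H β =>
    intro h
    have h1 : phiHom hb hc m β = 0 := h
    exact (QuotientAddGroup.eq_zero_iff β).mpr ((phiHom_eq_zero_iff hb hc m β).mp h1)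

end quot

/-- `T / p^m T` embeds into the `p^m`-torsion by `β ↦ μ (rti m β)`, and the torsion has at most `(p^N)^m` elements when
the `p`-torsion has `p^N` elements. -/
theorem card_Lat_quot_le (N : ℕ) (hN : Nat.card (nsmulAddMonoidHom (α := Pts L.G) p).ker = p ^ N) (m : ℕ) :
    Finite (Lat hb hc ⧸ (nsmulAddMonoidHom (α := Lat hb hc) (p ^ m)).range) ∧
      Nat.card (Lat hb hc ⧸ (nsmulAddMonoidHom (α := Lat hb hc) (p ^ m)).range) ≤ p ^ (m * N) := by
  obtain ⟨h1, h2⟩ := card_ker_pow_le (A := Pts L.G) hp.out.pos hN m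
  exact ⟨Finite.of_injective _ (phiQuot_injective hb hc m),
    (Nat.card_le_card_of_injective _ (phiQuot_injective hb hc m)).trans h2⟩

/-- `T / p T` is isomorphic to the `p`-torsion (surjectivity from `mu_surjective`). -/
theorem card_Lat_quot_p (hn : 1 ≤ n) (ht : ∃ t : C, t ≠ 0 ∧ ‖t‖ < 1) (N : ℕ)
    (hN : Nat.card (nsmulAddMonoidHom (α := Pts L.G) p).ker = p ^ N) :
    Nat.card (Lat hb hc ⧸ (nsmulAddMonoidHom (α := Lat hb hc) p).range) = p ^ N := by
  have hsurj : Function.Surjective (phiQuot hb hc 1) := by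
    intro τ
    obtain ⟨γ, hγ⟩ := mu_surjective (L₀ := L₀) (L := L) hn ht (τ : Pts L.G)
    have hτ := τ.2
    have h0 : ∀ a : Pts L.G, (p ^ 1) • a = p • a := fun a => by rw [pow_one]
    rw [AddMonoidHom.mem_ker, nsmulAddMonoidHom_apply, h0] at hτ
    have hβ : p • γ ∈ Lat hb hc := by
      rw [mem_Lat, mu_nsmul hb hc, hγ]
      exact hτ
    refine ⟨QuotientAddGroup.mk ⟨p • γ, hβ⟩, ?_⟩
    apply Subtype.ext
    change mu L₀ L (rti 1 (p • γ)) = _
    have e : rti 1 (p • γ) = γ := by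
      have := rti_nsmul_pow hb 1 γ
      rwa [pow_one] at this
    rw [e, hγ]
  have h1 := Nat.card_congr (Equiv.ofBijective _ ⟨phiQuot_injective hb hc 1, hsurj⟩)
  rw [pow_one] at h1
  rw [h1, hN]

/-- Lower bound of the norm outside `p T`.  For `β ∈ T \ pT` the point `z₁ = μ (rti 1 β)` is a nonzero element of the finite group of
`p`-torsion, so `‖z₁‖ ≥ ρ₁ > 0`; with `z_j = μ (rti j β)` one has `‖z_j‖ ≤ ‖z_{j+1}‖ ^ p`, so for a fixed `j₁` we get
`‖z_{j₁}‖ > L.c`; then `‖rti j₁ β‖ = ‖z_{j₁}‖` and `‖β‖ = ‖rti j₁ β‖ ^ (p ^ (n j₁)) ≥ L.c ^ (p ^ (n j₁))` if `L.c > 0`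
(use `max L.c (1/2)` in place of `L.c`). -/
theorem exists_norm_ge_Lat (N : ℕ) (hN : Nat.card (nsmulAddMonoidHom (α := Pts L.G) p).ker = p ^ N) :
    ∃ r₀ : ℝ, 0 < r₀ ∧ ∀ β ∈ Lat hb hc, (∀ y ∈ Lat hb hc, β ≠ p • y) → r₀ ≤ ‖β.v‖ := by
  classical
  have hfin : Finite (nsmulAddMonoidHom (α := Pts L.G) p).ker :=
    Nat.finite_of_card_ne_zero (by rw [hN]; exact (Nat.pow_pos hp.out.pos).ne')
  obtain ⟨ρ, hρ0, hρ⟩ : ∃ ρ : ℝ, 0 < ρ ∧ ∀ x : Pts L.G, p • x = 0 → x ≠ 0 → ρ ≤ ‖x.v‖ := by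
    by_cases hne : Nonempty {x : (nsmulAddMonoidHom (α := Pts L.G) p).ker // x ≠ 0}
    · obtain ⟨x₀, hx₀⟩ := Finite.exists_min
        (fun x : {x : (nsmulAddMonoidHom (α := Pts L.G) p).ker // x ≠ 0} => ‖((x.1 : Pts L.G)).v‖)
      refine ⟨‖((x₀.1 : Pts L.G)).v‖, ?_, ?_⟩
      · rw [norm_pos_iff]
        intro h0
        apply x₀.2
        apply Subtype.ext
        apply Pts.ext
        exact h0
      · intro x hx hx0
        have hxk : x ∈ (nsmulAddMonoidHom (α := Pts L.G) p).ker := by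
          rw [AddMonoidHom.mem_ker, nsmulAddMonoidHom_apply]
          exact hx
        exact hx₀ ⟨⟨x, hxk⟩, fun h => hx0 (congrArg Subtype.val h)⟩
    · refine ⟨1, one_pos, fun x hx hx0 => ?_⟩
      exfalso
      apply hne
      have hxk : x ∈ (nsmulAddMonoidHom (α := Pts L.G) p).ker := by
        rw [AddMonoidHom.mem_ker, nsmulAddMonoidHom_apply]
        exact hx
      exact ⟨⟨⟨x, hxk⟩, fun h => hx0 (congrArg Subtype.val h)⟩⟩
  set c' : ℝ := max L.c (1 / 2) with hc'
  have hc'1 : c' < 1 := max_lt L.c_lt_one (by norm_num)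
  have hc'0 : 0 < c' := lt_of_lt_of_le (by norm_num) (le_max_right _ _)
  have h1 : Tendsto (fun j : ℕ => c' ^ j) atTop (𝓝 0) :=
    tendsto_pow_atTop_nhds_zero_of_lt_one hc'0.le hc'1
  have h2 : Tendsto (fun j : ℕ => p ^ j) atTop atTop :=
    tendsto_pow_atTop_atTop_of_one_lt hp.out.one_lt
  obtain ⟨j, hj⟩ := ((h1.comp h2).eventually (gt_mem_nhds hρ0)).exists
  simp only [Function.comp] at hj
  refine ⟨c' ^ (p ^ (n * (j + 1))), by positivity, fun β hβ hnot => ?_⟩
  set z₁ : Pts L.G := mu L₀ L (rti 1 β) with hz₁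
  have hz₁0 : z₁ ≠ 0 := by
    intro h0
    apply hnot (rti 1 β) h0
    have := nsmul_pow_rti hb 1 β
    rw [pow_one] at this
    exact this.symm
  have hz₁p : p • z₁ = 0 := by
    rw [hz₁, ← mu_nsmul hb hc]
    have := nsmul_pow_rti hb 1 β
    rw [pow_one] at this
    rw [this]
    exact hβ
  have hz₁ρ := hρ z₁ hz₁p hz₁0
  set γ : Pts L₀.G := rti (j + 1) β with hγ
  have hz : z₁ = (p ^ j) • mu L₀ L γ := by
    rw [← mu_nsmul hb hc, hγ, nsmul_pow_rti_add hb]
  have hle : ‖z₁.v‖ ≤ ‖(mu L₀ L γ).v‖ ^ (p ^ j) := by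
    rw [hz]
    exact norm_nsmul_pow_le L _ j
  have hlarge : c' < ‖(mu L₀ L γ).v‖ := by
    by_contra hcon
    push Not at hcon
    have := pow_le_pow_left₀ (norm_nonneg _) hcon (p ^ j)
    linarith
  have hγn : ‖γ.v‖ = ‖(mu L₀ L γ).v‖ := by
    apply norm_eq_of_sub_lt
    rw [norm_sub_rev]
    exact lt_of_le_of_lt ((norm_mu_sub_le L γ).trans (le_max_left _ _)) hlarge
  have hγβ := norm_rti_pow hb (j + 1) β
  rw [← hγ] at hγβ
  rw [← hγβ]
  refine pow_le_pow_left₀ hc'0.le ?_ _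
  rw [hγn]
  exact hlarge.le

/-- Compactness of the lattice, in the form needed: a homomorphism `Ψ` from the base group, continuous at `0`
and not vanishing on `T \ pT`, is bounded below on `T \ pT`.  (`T` is closed in `C` as `μ` is continuous by `mu_small`, totally bounded since the finite
quotients `T / p^m T` are finite and `p^m T` has small norm; `pT` is open and closed in `T`.) -/
theorem exists_lower_bound_Lat (N : ℕ) (hN : Nat.card (nsmulAddMonoidHom (α := Pts L.G) p).ker = p ^ N)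
    {A : Type*} [AddGroup A] (nA : A → ℝ) (hnA0 : ∀ x, 0 ≤ nA x)
    (hnAadd : ∀ x y, nA (x + y) ≤ max (nA x) (nA y))  (hnAneg : ∀ x, nA (-x) = nA x)
    (Ψ : Pts L₀.G →+ A)
    (hΨ : ∀ ε : ℝ, 0 < ε → ∃ δ : ℝ, 0 < δ ∧ ∀ x : Pts L₀.G, ‖x.v‖ < δ → nA (Ψ x) < ε)
    (hne : ∀ β ∈ Lat hb hc, (∀ y ∈ Lat hb hc, β ≠ p • y) → 0 < nA (Ψ β)) :
    ∃ r : ℝ, 0 < r ∧ ∀ β ∈ Lat hb hc, (∀ y ∈ Lat hb hc, β ≠ p • y) → r ≤ nA (Ψ β) := by
  classical
  -- the set
  let K : Set C := {x | ∃ β : Pts L₀.G, β ∈ Lat hb hc ∧ (∀ y ∈ Lat hb hc, β ≠ p • y) ∧ β.v = x}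
  -- total boundedness
  have hTB : TotallyBounded K := by
    rw [Metric.totallyBounded_iff]
    intro ε hε
    obtain ⟨m, hm⟩ := ((tendsto_c_pow L).eventually (gt_mem_nhds hε)).exists
    obtain ⟨hfin, -⟩ := card_Lat_quot_le hb hc N hN m
    let rep : (Lat hb hc ⧸ (nsmulAddMonoidHom (α := Lat hb hc) (p ^ m)).range) → C :=
      fun q => ((Quotient.out q : Lat hb hc) : Pts L₀.G).v
    refine ⟨Set.range rep, Set.finite_range _, ?_⟩
    rintro x ⟨β, hβ, -, rfl⟩
    rw [Set.mem_iUnion₂]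
    let q : Lat hb hc ⧸ (nsmulAddMonoidHom (α := Lat hb hc) (p ^ m)).range :=
      QuotientAddGroup.mk ⟨β, hβ⟩
    refine ⟨rep q, ⟨q, rfl⟩, ?_⟩
    rw [Metric.mem_ball, dist_eq_norm]
    have hq : (QuotientAddGroup.mk (Quotient.out q) : Lat hb hc ⧸ (nsmulAddMonoidHom (α := Lat hb hc) (p ^ m)).range) = q :=
      Quotient.out_eq q
    have hmem : -(Quotient.out q) + (⟨β, hβ⟩ : Lat hb hc) ∈ (nsmulAddMonoidHom (α := Lat hb hc) (p ^ m)).range :=
      QuotientAddGroup.eq.mp hq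
    obtain ⟨γ, hγ⟩ := hmem
    have hγ' : (p ^ m) • (γ : Pts L₀.G) = β - ((Quotient.out q : Lat hb hc) : Pts L₀.G) := by
      have := congrArg (fun u : Lat hb hc => (u : Pts L₀.G)) hγ
      simp only [nsmulAddMonoidHom_apply, AddSubgroup.coe_nsmul, AddSubgroup.coe_add,
        AddSubgroup.coe_neg] at this
      rw [this]
      abel
    have hnm : ‖β.v - rep q‖ = ‖(β - ((Quotient.out q : Lat hb hc) : Pts L₀.G)).v‖ :=
      (norm_sub_law L₀ _ _).symm
    rw [hnm, ← hγ']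
    refine lt_of_le_of_lt (norm_nsmul_pow_le L₀ _ m) (lt_of_le_of_lt ?_ hm)
    exact pow_le_pow_left₀ (norm_nonneg _) (norm_le_of_mem_Lat hb hc γ.2) _
  -- closedness
  obtain ⟨r₀, hr₀, hr₀le⟩ := exists_norm_ge_Lat hb hc N hN
  have hClosed : IsClosed K := by
    apply IsSeqClosed.isClosed
    intro u x hu hux
    choose β hβ hβ2 hβv using hu
    have hxn : ‖x‖ ≤ L.c := by
      refine le_of_tendsto hux.norm (Eventually.of_forall fun i => ?_)
      rw [← hβv]
      exact norm_le_of_mem_Lat hb hc (hβ i)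
    have hx1 : ‖x‖ < 1 := lt_of_le_of_lt hxn L.c_lt_one
    let l : Pts L₀.G := Pts.mk x hx1
    have hux2 : Tendsto (fun i => ‖(β i).v - l.v‖) atTop (𝓝 0) := by
      have := tendsto_iff_norm_sub_tendsto_zero.mp hux
      simpa [hβv, l] using this
    have hmul : mu L₀ L l = 0 := by
      apply Pts.ext
      rw [Pts.zero_v, ← norm_eq_zero]
      refine le_antisymm (le_of_forall_pos_le_add fun ε hε => ?_) (norm_nonneg _)
      obtain ⟨δ, hδ, hδ2⟩ := mu_small hb hc hε
      obtain ⟨i, hi⟩ := (hux2.eventually (gt_mem_nhds hδ)).exists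
      have h1 : ‖(β i - l).v‖ < δ := by rwa [norm_sub_law]
      have h2 := hδ2 _ h1
      rw [show mu L₀ L (β i - l) = - mu L₀ L l by
        have := map_sub (muHom hb hc) (β i) l
        simp only [muHom_apply] at this
        rw [this, (mem_Lat hb hc).mp (hβ i), zero_sub], norm_neg_law] at h2
      linarith
    refine ⟨l, hmul, ?_, rfl⟩
    intro y hy hly
    obtain ⟨i, hi⟩ := (hux2.eventually (gt_mem_nhds hr₀)).exists
    have hmem : β i - l ∈ Lat hb hc := (Lat hb hc).sub_mem (hβ i) hmul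
    have h1 : ‖(β i - l).v‖ < r₀ := by rwa [norm_sub_law]
    have h2 : ¬ (∀ y' ∈ Lat hb hc, β i - l ≠ p • y') := fun h3 =>
      absurd (hr₀le _ hmem h3) (not_le.mpr h1)
    push Not at h2
    obtain ⟨y', hy', hy'2⟩ := h2
    apply hβ2 i (y + y') ((Lat hb hc).add_mem hy hy')
    rw [nsmul_add, ← hy'2, ← hly]
    abel
  have hK : IsCompact K := hTB.isCompact_of_isClosed hClosed
  by_contra hcon
  push Not at hcon
  have hcon2 : ∀ i : ℕ, ∃ β : Pts L₀.G, β ∈ Lat hb hc ∧ (∀ y ∈ Lat hb hc, β ≠ p • y) ∧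
      nA (Ψ β) < 1 / ((i : ℝ) + 1) := by
    intro i
    obtain ⟨β, h1, h2, h3⟩ := hcon (1 / ((i : ℝ) + 1)) (by positivity)
    exact ⟨β, h1, h2, h3⟩
  choose β hβ hβ2 hβ3 using hcon2
  obtain ⟨a, ⟨l, hl, hl2, hlv⟩, φ, hφ, hlim⟩ := hK.tendsto_subseq
    (x := fun i => (β i).v) (fun i => ⟨β i, hβ i, hβ2 i, rfl⟩)
  have hpos := hne l hl hl2
  obtain ⟨δ, hδ, hδ2⟩ := hΨ _ hpos
  have hev1 : ∀ᶠ i in atTop, ‖(β (φ i)).v - l.v‖ < δ := by
    have := tendsto_iff_norm_sub_tendsto_zero.mp hlim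
    rw [← hlv] at this
    exact this.eventually (gt_mem_nhds hδ)
  have hev2 : ∀ᶠ i in atTop, 1 / (((φ i : ℕ) : ℝ) + 1) < nA (Ψ l) := by
    have h1 : Tendsto (fun i : ℕ => 1 / ((i : ℝ) + 1)) atTop (𝓝 0) :=
      tendsto_one_div_add_atTop_nhds_zero_nat
    exact (h1.comp hφ.tendsto_atTop).eventually (gt_mem_nhds hpos)
  obtain ⟨i, hi1, hi2⟩ := (hev1.and hev2).exists
  have h1 : ‖(l - β (φ i)).v‖ < δ := by
    rw [norm_sub_law, norm_sub_rev]
    exact hi1
  have h2 := hδ2 _ h1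
  have h3 : Ψ l = Ψ (l - β (φ i)) + Ψ (β (φ i)) := by
    rw [← map_add, sub_add_cancel]
  have h4 := hnAadd (Ψ (l - β (φ i))) (Ψ (β (φ i)))
  rw [← h3] at h4
  have h5 := hβ3 (φ i)
  exact absurd h4 (not_le.mpr (max_lt h2 (h5.trans hi2)))

end Vale.Agent.Lib.P217
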