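import Vale.Agent.Lib.P217.Tors

set_option linter.unusedSectionVars false
set_option linter.unusedVariables false

namespace Vale.Agent.Lib.P217

open scoped Topology
open Filter

variable {C : Type*} [NormedField C] [IsUltrametricDist C] [CompleteSpace C]
variable {p n : ℕ} [hp : Fact p.Prime] [CharP C p] [IsAlgClosed C]

omit [CompleteSpace C] [CharP C p] [IsAlgClosed C] hp in
lemma norm_one_add_of_lt {η : C} (h : ‖η‖ < 1) : ‖1 + η‖ = 1 := by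
  have hne : ‖(1 : C)‖ ≠ ‖η‖ := by
    rw [norm_one]; exact h.ne'
  rw [IsUltrametricDist.norm_add_eq_max_of_norm_ne_norm hne, norm_one]
  exact max_eq_left h.le

omit [CompleteSpace C] [CharP C p] [IsAlgClosed C] hp in
/-- Ultrametric: a small perturbation does not change the norm. -/
lemma norm_add_eq_of_lt {x e : C} (h : ‖e‖ < ‖x‖) : ‖x + e‖ = ‖x‖ := by
  rw [IsUltrametricDist.norm_add_eq_max_of_norm_ne_norm h.ne']
  exact max_eq_left h.le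

omit [CompleteSpace C] [IsAlgClosed C] in
/-- One step of the iteration, in the field. -/
lemma smalldisc_step_field {a b aL y y' w ζ : C} {ξ ϑ : ℝ} {l : ℕ}
    (ha : a ≠ 0) (hb : b ^ (p - 1) = a) (hξ0 : 0 ≤ ξ) (hξ : ξ < 1) (hϑ0 : 0 ≤ ϑ) (hϑ1 : ϑ < 1)
    (hcoeff : ‖aL - a‖ ≤ ξ * ‖a‖) (haL : ‖aL‖ ≤ 1)
    (hE : ‖y' - aL * y ^ p‖ ≤ ‖y‖ ^ (2 * p)) (hy0 : y ≠ 0) (hy : ‖y‖ ^ p ≤ ϑ * ‖a‖) (hw0 : w ≠ 0)
    (hH : b * y = w ^ (p ^ l) * (1 + ζ)) (hζ : ‖ζ‖ < 1) (hζp : ‖ζ‖ ^ p ≤ max ξ ϑ) :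
    ∃ ζ' : C, b * y' = w ^ (p ^ (l + 1)) * (1 + ζ') ∧ ‖ζ'‖ ≤ max ξ ϑ ∧ y' ≠ 0 ∧
      ‖y'‖ ^ p ≤ ϑ ^ p * ‖a‖ := by
  have hp2 : 2 ≤ p := hp.out.two_le
  have hp0 : p ≠ 0 := by omega
  have hb0 : b ≠ 0 := by
    rintro rfl
    rw [zero_pow (by omega)] at hb
    exact ha hb.symm
  have hna : 0 < ‖a‖ := norm_pos_iff.mpr ha
  have hnb : 0 < ‖b‖ := norm_pos_iff.mpr hb0
  have hny : 0 < ‖y‖ := norm_pos_iff.mpr hy0
  set η : C := aL / a - 1 with hη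
  have hηa : aL = (1 + η) * a := by
    rw [hη]; field_simp; ring
  have hηn : ‖η‖ ≤ ξ := by
    have : η = (aL - a) / a := by
      rw [hη]; field_simp
    rw [this, norm_div, div_le_iff₀ hna]
    exact hcoeff
  have hη1 : ‖η‖ < 1 := lt_of_le_of_lt hηn hξ
  have hone : ‖1 + η‖ = 1 := norm_one_add_of_lt hη1
  have hnaL : ‖aL‖ = ‖a‖ := by
    rw [hηa, norm_mul, hone, one_mul]
  have ha1 : ‖a‖ ≤ 1 := hnaL ▸ haL
  have hba : b * a = b ^ p := by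
    rw [← hb]
    exact mul_pow_sub_one hp0 b
  have hnba : ‖b‖ ^ (p - 1) = ‖a‖ := by
    rw [← norm_pow, hb]
  set E : C := y' - aL * y ^ p with hEdef
  have hy'eq : y' = aL * y ^ p + E := by
    rw [hEdef]; ring
  set T : C := w ^ (p ^ (l + 1)) with hT
  have hT0 : T ≠ 0 := pow_ne_zero _ hw0
  have hTeq : T = (w ^ (p ^ l)) ^ p := by
    rw [hT, ← pow_mul, pow_succ]
  have hone' : ‖1 + ζ‖ = 1 := norm_one_add_of_lt hζ
  have hnH : ‖b‖ * ‖y‖ = ‖w ^ (p ^ l)‖ := by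
    have := congrArg norm hH
    rwa [norm_mul, norm_mul, hone', mul_one] at this
  have hnT : ‖T‖ = ‖b‖ ^ p * ‖y‖ ^ p := by
    rw [hTeq, norm_pow, ← hnH, mul_pow]
  have hTpos : 0 < ‖T‖ := norm_pos_iff.mpr hT0
  -- the main identity
  have hpow : (b * y) ^ p = T * (1 + ζ ^ p) := by
    rw [hH, mul_pow, hTeq, add_pow_char, one_pow]
  have hmain : b * y' = (1 + η) * (b * y) ^ p + b * E := by
    rw [hy'eq, hηa, mul_add, mul_pow, ← hba]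
    ring
  refine ⟨(1 + η) * (1 + ζ ^ p) - 1 + b * E / T, ?_, ?_, ?_, ?_⟩
  · rw [hmain, hpow]
    field_simp
    ring
  · -- norm of the new error
    have h1 : ‖b * E / T‖ ≤ ϑ := by
      rw [norm_div, norm_mul, hnT, div_le_iff₀ (by positivity)]
      have hE' : ‖E‖ ≤ ‖y‖ ^ p * ‖y‖ ^ p := by
        have : 2 * p = p + p := by ring
        rw [hEdef]
        refine hE.trans (le_of_eq ?_)
        rw [this, pow_add]
      have hbp : ‖b‖ ^ p = ‖b‖ * ‖a‖ := by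
        rw [← hnba, ← pow_succ']
        congr 1
        omega
      rw [hbp]
      calc ‖b‖ * ‖E‖ ≤ ‖b‖ * (‖y‖ ^ p * ‖y‖ ^ p) := by gcongr
        _ ≤ ‖b‖ * ((ϑ * ‖a‖) * ‖y‖ ^ p) := by gcongr
        _ = ϑ * (‖b‖ * ‖a‖ * ‖y‖ ^ p) := by ring
    have e : (1 + η) * (1 + ζ ^ p) - 1 + b * E / T = η + (ζ ^ p + (η * ζ ^ p + b * E / T)) := by ring
    rw [e]
    have hζ1 : ‖ζ ^ p‖ ≤ 1 := by
      rw [norm_pow]; exact pow_le_one₀ (norm_nonneg _) hζ.le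
    have h2 : ‖η‖ ≤ max ξ ϑ := hηn.trans (le_max_left _ _)
    have h3 : ‖ζ ^ p‖ ≤ max ξ ϑ := by
      rw [norm_pow]; exact hζp
    have h4 : ‖η * ζ ^ p‖ ≤ max ξ ϑ := by
      rw [norm_mul]
      exact (mul_le_of_le_one_right (norm_nonneg _) hζ1).trans h2
    have h5 : ‖b * E / T‖ ≤ max ξ ϑ := h1.trans (le_max_right _ _)
    refine (IsUltrametricDist.norm_add_le_max _ _).trans (max_le h2 ?_)
    refine (IsUltrametricDist.norm_add_le_max _ _).trans (max_le h3 ?_)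
    exact (IsUltrametricDist.norm_add_le_max _ _).trans (max_le h4 h5)
  · -- nonvanishing
    have hlt : ‖E‖ < ‖aL * y ^ p‖ := by
      rw [norm_mul, hnaL, norm_pow]
      have hE' : ‖E‖ ≤ ‖y‖ ^ p * ‖y‖ ^ p := by
        have : 2 * p = p + p := by ring
        rw [hEdef]
        refine hE.trans (le_of_eq ?_)
        rw [this, pow_add]
      have hypos : 0 < ‖y‖ ^ p := by positivity
      calc ‖E‖ ≤ ‖y‖ ^ p * ‖y‖ ^ p := hE'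
        _ ≤ (ϑ * ‖a‖) * ‖y‖ ^ p := by gcongr
        _ < ‖a‖ * ‖y‖ ^ p := by
          have : ϑ * ‖a‖ < ‖a‖ := by nlinarith
          exact mul_lt_mul_of_pos_right this hypos
    have hn : ‖y'‖ = ‖aL * y ^ p‖ := by
      rw [hy'eq]; exact norm_add_eq_of_lt hlt
    intro h0
    rw [h0, norm_zero, norm_mul, hnaL, norm_pow] at hn
    have : 0 < ‖a‖ * ‖y‖ ^ p := by positivity
    linarith
  · -- norm
    have hlt : ‖E‖ < ‖aL * y ^ p‖ := by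
      rw [norm_mul, hnaL, norm_pow]
      have hE' : ‖E‖ ≤ ‖y‖ ^ p * ‖y‖ ^ p := by
        have : 2 * p = p + p := by ring
        rw [hEdef]
        refine hE.trans (le_of_eq ?_)
        rw [this, pow_add]
      have hypos : 0 < ‖y‖ ^ p := by positivity
      calc ‖E‖ ≤ ‖y‖ ^ p * ‖y‖ ^ p := hE'
        _ ≤ (ϑ * ‖a‖) * ‖y‖ ^ p := by gcongr
        _ < ‖a‖ * ‖y‖ ^ p := by
          have : ϑ * ‖a‖ < ‖a‖ := by nlinarith
          exact mul_lt_mul_of_pos_right this hypos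
    have hn : ‖y'‖ = ‖a‖ * ‖y‖ ^ p := by
      rw [hy'eq, norm_add_eq_of_lt hlt, norm_mul, hnaL, norm_pow]
    rw [hn, mul_pow]
    have h1 : ‖a‖ ^ p ≤ 1 := pow_le_one₀ hna.le ha1
    calc ‖a‖ ^ p * (‖y‖ ^ p) ^ p ≤ ‖a‖ ^ p * (ϑ * ‖a‖) ^ p := by gcongr
      _ = (‖a‖ ^ p * ‖a‖ ^ (p - 1)) * (ϑ ^ p * ‖a‖) := by
        rw [mul_pow]
        have : ‖a‖ ^ p = ‖a‖ ^ (p - 1) * ‖a‖ := by
          rw [← pow_succ]; congr 1; omega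
        rw [this]
        ring
      _ ≤ 1 * (ϑ ^ p * ‖a‖) := by
        gcongr
        exact mul_le_one₀ h1 (by positivity) (pow_le_one₀ hna.le ha1)
      _ = ϑ ^ p * ‖a‖ := one_mul _

/-- Iteration of the small disc law.  Let `L` be a law, `a ≠ 0`, `b ^ (p - 1) = a`, and suppose that the coefficient `a_L` of `X^p` in `[p]_L`
satisfies `‖a_L - a‖ ≤ ξ ‖a‖`, `ξ < 1`. Let `Y` be a nonzero point with `‖Y‖ ≤ ρ`, `θ = ρ ^ p / ‖a‖ < 1`.  Then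
`b * [p^(l+1)] Y = (b Y) ^ (p ^ (l+1)) * (1 + ζ)`, with `‖ζ‖ ≤ max ξ (θ ^ (p ^ l))`.

Proof: let `Y_l = [p^l] Y`, `V_l = b Y_l`, `W = b Y`. By `norm_smalldisc_sub_le`,
`V_{l+1} = (a_L / a) V_l ^ p + b E`, with `‖E‖ ≤ ‖Y_l‖ ^ (2 p)` as `b a = b ^ p`.
If `V_l = W ^ (p^l) (1 + ζ_l)`, `‖ζ_l‖ < 1`, then `V_l ^ p = W ^ (p^(l+1)) (1 + ζ_l ^ p)` (characteristic `p`), and
`‖b E‖ / ‖W ^ (p^(l+1))‖ = ‖b‖ ‖Y_l‖ ^ (2 p) / ‖V_l‖ ^ p = ‖Y_l‖ ^ p / ‖a‖ =: θ_l`. Therefore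
`‖ζ_{l+1}‖ ≤ max ξ (‖ζ_l‖ ^ p) θ_l`. Moreover `‖Y_{l+1}‖ = ‖a‖ ‖Y_l‖ ^ p` so that `θ_{l+1} = ‖a‖ ^ (2p - 1) θ_l ^ p ≤ θ_l ^ p`, so `θ_l ≤ θ ^ (p ^ l)`.
Hence by induction `‖ζ_{l+1}‖ ≤ max ξ (θ ^ (p ^ l))`. -/
theorem smalldisc_iter (L : Law C p n) {a b : C} (ha : a ≠ 0) (hb : b ^ (p - 1) = a) {ξ ρ θ : ℝ}
    (hξ0 : 0 ≤ ξ) (hξ : ξ < 1)
    (hcoeff : ‖((PowerSeries.coeff p (mulSeries L.G p) : OC C) : C) - a‖ ≤ ξ * ‖a‖)
    (hρ : 0 ≤ ρ) (hθ : θ = ρ ^ p / ‖a‖) (hθ1 : θ < 1)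
    (Y : Pts L.G) (hY : ‖Y.v‖ ≤ ρ) (hY0 : Y.v ≠ 0) (l : ℕ) :
    ∃ ζ : C, b * ((p ^ (l + 1)) • Y).v = (b * Y.v) ^ (p ^ (l + 1)) * (1 + ζ) ∧ ‖ζ‖ ≤ max ξ (θ ^ (p ^ l)) := by
  have hp2 : 2 ≤ p := hp.out.two_le
  have hp0 : p ≠ 0 := by omega
  have hb0 : b ≠ 0 := by
    rintro rfl
    rw [zero_pow (by omega)] at hb
    exact ha hb.symm
  have hna : 0 < ‖a‖ := norm_pos_iff.mpr ha
  have hθ0 : 0 ≤ θ := by
    rw [hθ]; positivity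
  have hw0 : b * Y.v ≠ 0 := mul_ne_zero hb0 hY0
  have hθp : ∀ m : ℕ, θ ^ (p ^ m) < 1 := by
    intro m
    exact pow_lt_one₀ hθ0 hθ1 (by positivity)
  have hstep : ∀ (l : ℕ) (ζ : C), b * ((p ^ l) • Y).v = (b * Y.v) ^ (p ^ l) * (1 + ζ) → ‖ζ‖ < 1 →
      ‖ζ‖ ^ p ≤ max ξ (θ ^ (p ^ l)) → ((p ^ l) • Y).v ≠ 0 → ‖((p ^ l) • Y).v‖ ^ p ≤ θ ^ (p ^ l) * ‖a‖ →
      ∃ ζ' : C, b * ((p ^ (l + 1)) • Y).v = (b * Y.v) ^ (p ^ (l + 1)) * (1 + ζ') ∧ ‖ζ'‖ ≤ max ξ (θ ^ (p ^ l)) ∧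
        ((p ^ (l + 1)) • Y).v ≠ 0 ∧ ‖((p ^ (l + 1)) • Y).v‖ ^ p ≤ θ ^ (p ^ (l + 1)) * ‖a‖ := by
    intro l ζ hH hζ hζp hy0 hy
    have hE := norm_smalldisc_sub_le L ((p ^ l) • Y)
    rw [← nsmul_pow_succ L Y l] at hE
    obtain ⟨ζ', h1, h2, h3, h4⟩ := smalldisc_step_field (p := p) ha hb hξ0 hξ (pow_nonneg hθ0 _) (hθp l) hcoeff (norm_OC_le _)
      hE hy0 hy hw0 hH hζ hζp
    refine ⟨ζ', h1, h2, h3, ?_⟩
    have e : θ ^ (p ^ (l + 1)) = (θ ^ (p ^ l)) ^ p := by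
      rw [← pow_mul, pow_succ]
    rw [e]
    exact h4
  have hall : ∀ l : ℕ, ∃ ζ : C, b * ((p ^ l) • Y).v = (b * Y.v) ^ (p ^ l) * (1 + ζ) ∧ ‖ζ‖ < 1 ∧
      ‖ζ‖ ^ p ≤ max ξ (θ ^ (p ^ l)) ∧ ((p ^ l) • Y).v ≠ 0 ∧ ‖((p ^ l) • Y).v‖ ^ p ≤ θ ^ (p ^ l) * ‖a‖ := by
    intro l
    induction l with
    | zero =>
      refine ⟨0, by simp, by simp, ?_, by simpa using hY0, ?_⟩
      · rw [norm_zero, zero_pow hp0]
        exact le_max_of_le_left hξ0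
      · simp only [pow_zero, one_smul, pow_one]
        rw [hθ, div_mul_cancel₀ _ hna.ne']
        exact pow_le_pow_left₀ (norm_nonneg _) hY p
    | succ l ih =>
      obtain ⟨ζ, h1, h2, h3, h4, h5⟩ := ih
      obtain ⟨ζ', h6, h7, h8, h9⟩ := hstep l ζ h1 h2 h3 h4 h5
      have hmax : max ξ (θ ^ (p ^ l)) < 1 := max_lt hξ (hθp l)
      refine ⟨ζ', h6, lt_of_le_of_lt h7 hmax, ?_, h8, h9⟩
      have e : θ ^ (p ^ (l + 1)) = (θ ^ (p ^ l)) ^ p := by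
        rw [← pow_mul, pow_succ]
      rw [e]
      refine (pow_le_pow_left₀ (norm_nonneg _) h7 p).trans ?_
      have hm0 : 0 ≤ θ ^ p ^ l := pow_nonneg hθ0 _
      rcases le_total ξ (θ ^ p ^ l) with h | h
      · rw [max_eq_right h]
        exact le_max_right _ _
      · rw [max_eq_left h]
        refine le_max_of_le_left ?_
        calc ξ ^ p ≤ ξ ^ 1 := pow_le_pow_of_le_one hξ0 hξ.le (by omega)
          _ = ξ := pow_one _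
  obtain ⟨ζ, h1, h2, h3, h4, h5⟩ := hall l
  obtain ⟨ζ', h6, h7, -, -⟩ := hstep l ζ h1 h2 h3 h4 h5
  exact ⟨ζ', h6, h7⟩

/-- The norm form of the small disc law for the window norm. If `b ^ (p - 1) = a`, `a` the coefficient of `X ^ p` in `[p]_L`, `a ≠ 0`, `‖Y‖ ^ p < ‖a‖`, then
`‖b‖ ‖p • Y‖ = (‖b‖ ‖Y‖) ^ p`. -/
theorem norm_smalldisc (L : Law C p n) {b : C}
    (ha : ((PowerSeries.coeff p (mulSeries L.G p) : OC C) : C) ≠ 0)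
    (hb : b ^ (p - 1) = ((PowerSeries.coeff p (mulSeries L.G p) : OC C) : C))
    (Y : Pts L.G) (hY : ‖Y.v‖ ^ p < ‖((PowerSeries.coeff p (mulSeries L.G p) : OC C) : C)‖) :
    ‖b‖ * ‖(p • Y).v‖ = (‖b‖ * ‖Y.v‖) ^ p := by
  have hp2 : 2 ≤ p := hp.out.two_le
  have hp0 : p ≠ 0 := by omega
  set a : C := ((PowerSeries.coeff p (mulSeries L.G p) : OC C) : C) with hadef
  have hna : 0 < ‖a‖ := norm_pos_iff.mpr ha
  by_cases hY0 : Y.v = 0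
  · have hE := norm_smalldisc_sub_le L Y
    rw [hY0, zero_pow hp0, mul_zero, sub_zero, norm_zero, zero_pow (by omega)] at hE
    have hz : (p • Y).v = 0 := norm_le_zero_iff.mp hE
    rw [hz, hY0, norm_zero, mul_zero, zero_pow hp0]
  · have hny : 0 < ‖Y.v‖ := norm_pos_iff.mpr hY0
    have hE := norm_smalldisc_sub_le L Y
    have hlt : ‖(p • Y).v - a * Y.v ^ p‖ < ‖a * Y.v ^ p‖ := by
      rw [norm_mul, norm_pow]
      have e : 2 * p = p + p := by ring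
      have hypos : 0 < ‖Y.v‖ ^ p := by positivity
      calc ‖(p • Y).v - a * Y.v ^ p‖ ≤ ‖Y.v‖ ^ p * ‖Y.v‖ ^ p := by
            refine hE.trans (le_of_eq ?_)
            rw [e, pow_add]
        _ < ‖a‖ * ‖Y.v‖ ^ p := mul_lt_mul_of_pos_right hY hypos
    have hn : ‖(p • Y).v‖ = ‖a‖ * ‖Y.v‖ ^ p := by
      have e : (p • Y).v = a * Y.v ^ p + ((p • Y).v - a * Y.v ^ p) := by ring
      rw [e, norm_add_eq_of_lt hlt, norm_mul, norm_pow]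
    have hnba : ‖a‖ = ‖b‖ ^ (p - 1) := by
      rw [← hb, norm_pow]
    rw [hn, mul_pow, hnba, ← mul_assoc, ← pow_succ']
    congr 2
    omega

end Vale.Agent.Lib.P217
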