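import Mathlib

namespace Vale.Agent.Lib.P217

namespace Window

variable {T : Type*} [AddCommGroup T] {n : T → ℝ}

/-- Ultrametric group norm. -/
structure UM (n : T → ℝ) : Prop where
  nonneg : ∀ x, 0 ≤ n x
  zero : n 0 = 0
  neg : ∀ x, n (-x) = n x
  add : ∀ x y, n (x + y) ≤ max (n x) (n y)

theorem UM.sub_le (h : UM n) (x y : T) : n (x - y) ≤ max (n x) (n y) := by
  rw [sub_eq_add_neg]
  simpa [h.neg] using h.add x (-y)

theorem UM.add_eq_left (h : UM n) {x y : T} (hy : n y < n x) : n (x + y) = n x := by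
  apply le_antisymm
  · exact (h.add x y).trans (by simp [hy.le])
  · have h1 : n x ≤ max (n (x + y)) (n y) := by
      have := h.sub_le (x + y) y
      simpa using this
    rcases le_max_iff.1 h1 with h2 | h2
    · exact h2
    · exact absurd h2 (not_le.2 hy)

theorem UM.add_eq_right (h : UM n) {x y : T} (hy : n x < n y) : n (x + y) = n y := by
  rw [add_comm]; exact h.add_eq_left hy

theorem UM.nsmul_le (h : UM n) (a : ℕ) (x : T) : n (a • x) ≤ n x := by
  induction a with
  | zero => simpa [h.zero] using h.nonneg x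
  | succ a ih =>
    rw [succ_nsmul]
    exact (h.add _ _).trans (max_le ih le_rfl)

theorem UM.sum_le (h : UM n) {ι : Type*} (s : Finset ι) (f : ι → T) (t : ℝ) (ht : 0 ≤ t)
    (hf : ∀ i ∈ s, n (f i) ≤ t) : n (∑ i ∈ s, f i) ≤ t := by
  classical
  induction s using Finset.induction_on with
  | empty => simpa [h.zero] using ht
  | insert i s hi ih =>
    rw [Finset.sum_insert hi]
    exact (h.add _ _).trans (max_le (hf i (Finset.mem_insert_self _ _))
      (ih fun j hj => hf j (Finset.mem_insert_of_mem hj)))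

theorem UM.nsmul_eq (h : UM n) {p : ℕ} (hp : p.Prime) (hnp : ∀ x, n (p • x) = n x ^ p)
    (hlt : ∀ x, n x < 1) {a : ℕ} (ha : ¬ p ∣ a) (x : T) : n (a • x) = n x := by
  apply le_antisymm (h.nsmul_le a x)
  rcases (h.nonneg x).eq_or_lt with h0 | h0
  · rw [← h0]; exact h.nonneg _
  have hcop : Nat.Coprime a p := ((Nat.Prime.coprime_iff_not_dvd hp).2 ha).symm
  obtain ⟨b, hb⟩ := Nat.exists_mul_mod_eq_one_of_coprime hcop hp.one_lt
  have e : a * b = p * (a * b / p) + 1 := by
    have := Nat.div_add_mod (a * b) p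
    omega
  set c := a * b / p
  have e2 : x = b • (a • x) - p • (c • x) := by
    rw [smul_smul, smul_smul, mul_comm b a, e, add_smul, one_smul]
    abel
  have h1 : n x ≤ max (n (a • x)) (n x ^ p) := by
    conv_lhs => rw [e2]
    refine (h.sub_le _ _).trans (max_le_max (h.nsmul_le b _) ?_)
    rw [hnp]
    exact pow_le_pow_left₀ (h.nonneg _) (h.nsmul_le c x) p
  have h2 : n x ^ p < n x := by
    have : n x ^ p < n x ^ 1 := pow_lt_pow_right_of_lt_one₀ h0 (hlt x) hp.one_lt
    simpa using this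
  rcases le_max_iff.1 h1 with h3 | h3
  · exact h3
  · exact absurd h3 (not_le.2 h2)

/-- The subgroup of elements of norm at most `t`. -/
def ball (h : UM n) (t : ℝ) (ht : 0 ≤ t) : AddSubgroup T where
  carrier := {x | n x ≤ t}
  add_mem' := fun {a b} ha hb => (h.add a b).trans (max_le ha hb)
  zero_mem' := by simpa [h.zero] using ht
  neg_mem' := fun {a} ha => by simpa [h.neg] using ha

theorem mem_ball (h : UM n) (t : ℝ) (ht : 0 ≤ t) (x : T) : x ∈ ball h t ht ↔ n x ≤ t := Iff.rfl

/-- The `p`-multiples of the ball form the smaller ball, and the index is as in `T`. -/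
theorem relIndex_ball (h : UM n) {p N : ℕ} (hp : p.Prime) (hnp : ∀ x, n (p • x) = n x ^ p)
    (t : ℝ) (ht : 0 ≤ t)
    (hdiv : ∀ x, n x ≤ t ^ p → ∃ y, x = p • y)
    (hinj : ∀ x : T, p • x = 0 → x = 0)
    (hcard : Nat.card (T ⧸ (nsmulAddMonoidHom (α := T) p).range) = p ^ N)
    (hfi : (ball h t ht).index ≠ 0) (htp : t ^ p ≤ t) :
    (ball h (t ^ p) (pow_nonneg ht p)).relIndex (ball h t ht) = p ^ N := by
  set f := nsmulAddMonoidHom (α := T) p
  have hmap : (ball h t ht).map f = ball h (t ^ p) (pow_nonneg ht p) := by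
    ext x
    simp only [AddSubgroup.mem_map, mem_ball]
    constructor
    · rintro ⟨y, hy, rfl⟩
      show n (p • y) ≤ _
      rw [hnp]
      exact pow_le_pow_left₀ (h.nonneg _) hy p
    · intro hx
      obtain ⟨y, rfl⟩ := hdiv x hx
      refine ⟨y, ?_, rfl⟩
      rw [hnp] at hx
      exact (pow_le_pow_iff_left₀ (h.nonneg _) ht hp.ne_zero).1 hx
  have hker : f.ker = ⊥ := by
    rw [AddMonoidHom.ker_eq_bot_iff]
    intro a b hab
    have : p • (a - b) = 0 := by
      rw [smul_sub, sub_eq_zero]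
      exact hab
    exact sub_eq_zero.1 (hinj _ this)
  have hidx : (ball h (t ^ p) (pow_nonneg ht p)).index = (ball h t ht).index * p ^ N := by
    rw [← hmap, AddSubgroup.index_map, hker, sup_bot_eq]
    congr 1
  have hle : ball h (t ^ p) (pow_nonneg ht p) ≤ ball h t ht := fun x hx => hx.trans htp
  have hmul := AddSubgroup.relIndex_mul_index hle
  rw [hidx, mul_comm] at hmul
  exact Nat.eq_of_mul_eq_mul_left (Nat.pos_of_ne_zero hfi) hmul

/-- Orthogonal families in the window between `t ^ p` and `t`. -/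
def Good (n : T → ℝ) (p : ℕ) (t : ℝ) {k : ℕ} (x : Fin k → T) : Prop :=
  (∀ i, t ^ p < n (x i) ∧ n (x i) ≤ t) ∧
    ∀ a : Fin k → ℕ, (∃ i, ¬ p ∣ a i) → ∃ i, ¬ p ∣ a i ∧
      n (∑ j, a j • x j) = n (x i) ∧ ∀ j, ¬ p ∣ a j → n (x j) ≤ n (x i)

theorem comb_le (h : UM n) {t : ℝ} (ht : 0 ≤ t) {k : ℕ} {x : Fin k → T}
    (hx : ∀ i, n (x i) ≤ t) (a : Fin k → ℕ) : n (∑ j, a j • x j) ≤ t :=
  h.sum_le _ _ t ht fun i _ => (h.nsmul_le _ _).trans (hx i)

theorem multiple_le (h : UM n) {p : ℕ} (hnp : ∀ x, n (p • x) = n x ^ p) {t : ℝ}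
    {x : T} (hx : n x ≤ t) {a : ℕ} (ha : p ∣ a) : n (a • x) ≤ t ^ p := by
  obtain ⟨c, rfl⟩ := ha
  rw [mul_smul, hnp]
  exact pow_le_pow_left₀ (h.nonneg _) ((h.nsmul_le c x).trans hx) p

theorem comb_multiple_le (h : UM n) {p : ℕ} (hnp : ∀ x, n (p • x) = n x ^ p) {t : ℝ}
    (ht : 0 ≤ t) {k : ℕ} {x : Fin k → T} (hx : ∀ i, n (x i) ≤ t) {a : Fin k → ℕ}
    (ha : ∀ i, p ∣ a i) : n (∑ j, a j • x j) ≤ t ^ p :=
  h.sum_le _ _ _ (pow_nonneg ht p) fun i _ => multiple_le h hnp (hx i) (ha i)

theorem comb_mod_le (h : UM n) {p : ℕ} (hnp : ∀ x, n (p • x) = n x ^ p) {t : ℝ}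
    (ht : 0 ≤ t) {k : ℕ} {x : Fin k → T} (hx : ∀ i, n (x i) ≤ t) (a : Fin k → ℕ) :
    n (∑ j, a j • x j - ∑ j, (a j % p) • x j) ≤ t ^ p := by
  have e : ∑ j, a j • x j - ∑ j, (a j % p) • x j = ∑ j, (p * (a j / p)) • x j := by
    rw [← Finset.sum_sub_distrib]
    refine Finset.sum_congr rfl fun j _ => ?_
    have hj : a j • x j = (p * (a j / p)) • x j + (a j % p) • x j := by
      rw [← add_smul, Nat.div_add_mod]
    rw [hj, add_sub_cancel_right]
  rw [e]
  exact comb_multiple_le h hnp ht hx fun i => dvd_mul_right _ _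

theorem key_identity {p : ℕ} (w s : T) {A b c : ℕ} (hA : A * b = p * c + 1) :
    A • w + s = A • (w + b • s) + (-(p • (c • s))) := by
  rw [smul_add A w (b • s), smul_smul, hA, add_smul, one_smul, mul_smul]
  abel

/-- One greedy step. -/
theorem extend (h : UM n) {p : ℕ} (hp : p.Prime) (hnp : ∀ x, n (p • x) = n x ^ p)
    (hlt : ∀ x, n x < 1) {t : ℝ} (ht : 0 ≤ t) {k : ℕ} {x : Fin k → T} (hx : Good n p t x)
    {v : T} (hv : n v ≤ t) (hvS : ∀ a : Fin k → ℕ, t ^ p < n (v - ∑ j, a j • x j)) :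
    ∃ u, Good n p t (Fin.cons u x : Fin (k + 1) → T) := by
  have : NeZero p := ⟨hp.ne_zero⟩
  have hxt : ∀ i, n (x i) ≤ t := fun i => (hx.1 i).2
  -- first fact
  have F1 : ∀ c : Fin k → ℕ, t ^ p < n (v + ∑ j, c j • x j) := by
    intro c
    have e : v + ∑ j, c j • x j =
        (v - ∑ j, ((p - 1) * c j) • x j) + ∑ j, (p * c j) • x j := by
      have : ∑ j, (p * c j) • x j = ∑ j, ((p - 1) * c j) • x j + ∑ j, c j • x j := by
        rw [← Finset.sum_add_distrib]
        refine Finset.sum_congr rfl fun j _ => ?_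
        rw [← add_smul]
        congr 1
        have : p = (p - 1) + 1 := by have := hp.one_lt; omega
        conv_lhs => rw [this]
        ring
      rw [this]; abel
    rw [e, h.add_eq_left (lt_of_le_of_lt
      (comb_multiple_le h hnp ht hxt fun i => dvd_mul_right _ _) (hvS _))]
    exact hvS _
  -- the minimiser
  obtain ⟨b₀, hb₀⟩ := Finite.exists_min
    (fun b : Fin k → Fin p => n (v + ∑ j, ((b j : ℕ)) • x j))
  set u := v + ∑ j, ((b₀ j : ℕ)) • x j with hu
  have hu1 : t ^ p < n u := F1 _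
  have hu2 : n u ≤ t := (h.add _ _).trans (max_le hv (comb_le h ht hxt _))
  have F2 : ∀ c : Fin k → ℕ, n u ≤ n (v + ∑ j, c j • x j) := by
    intro c
    have e : v + ∑ j, c j • x j = (v + ∑ j, (c j % p) • x j) +
        (∑ j, c j • x j - ∑ j, (c j % p) • x j) := by abel
    rw [e, h.add_eq_left (lt_of_le_of_lt (comb_mod_le h hnp ht hxt c) (F1 _))]
    exact hb₀ (fun j => ⟨c j % p, Nat.mod_lt _ hp.pos⟩)
  have F3 : ∀ c : Fin k → ℕ, n u ≤ n (u + ∑ j, c j • x j) := by
    intro c
    have e : u + ∑ j, c j • x j = v + ∑ j, (((b₀ j : ℕ)) + c j) • x j := by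
      rw [hu, add_assoc, ← Finset.sum_add_distrib]
      congr 1
      refine Finset.sum_congr rfl fun j _ => ?_
      rw [add_smul]
    rw [e]; exact F2 _
  clear_value u
  refine ⟨u, ?_, ?_⟩
  · intro i
    refine Fin.cases ?_ (fun i => ?_) i
    · simpa using ⟨hu1, hu2⟩
    · simpa using hx.1 i
  · intro a ha
    have hsum : ∑ j, a j • (Fin.cons u x : Fin (k + 1) → T) j =
        a 0 • u + ∑ j : Fin k, a j.succ • x j := by
      rw [Fin.sum_univ_succ]; simp
    rw [hsum]
    set a' : Fin k → ℕ := fun j => a j.succ with ha'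
    set s := ∑ j : Fin k, a' j • x j with hs
    by_cases h0 : p ∣ a 0
    · -- new coefficient is a multiple of `p`
      have hi' : ∃ i, ¬ p ∣ a' i := by
        obtain ⟨i, hi⟩ := ha
        revert hi
        refine Fin.cases (fun hi => absurd h0 hi) (fun i hi => ⟨i, hi⟩) i
      obtain ⟨i, hi1, hi2, hi3⟩ := hx.2 a' hi'
      have hlt1 : n (a 0 • u) < n s := by
        rw [hi2]
        exact lt_of_le_of_lt (multiple_le h hnp hu2 h0) (hx.1 i).1
      refine ⟨i.succ, hi1, ?_, ?_⟩
      · rw [h.add_eq_right hlt1, hi2]; simp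
      · intro j
        refine Fin.cases (fun hj => absurd h0 hj) (fun j hj => ?_) j
        simpa using hi3 j hj
    · -- new coefficient is a unit
      have hnu : n (a 0 • u) = n u := h.nsmul_eq hp hnp hlt h0 u
      by_cases hi' : ∃ i, ¬ p ∣ a' i
      · obtain ⟨i, hi1, hi2, hi3⟩ := hx.2 a' hi'
        rcases lt_trichotomy (n u) (n (x i)) with hc | hc | hc
        · -- old part dominates
          refine ⟨i.succ, hi1, ?_, ?_⟩
          · rw [h.add_eq_right (by rw [hnu, hi2]; exact hc), hi2]; simp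
          · intro j
            refine Fin.cases (fun _ => ?_) (fun j hj => ?_) j
            · simpa using hc.le
            · simpa using hi3 j hj
        · -- equal norms: use minimality
          refine ⟨0, h0, ?_, ?_⟩
          · simp only [Fin.cons_zero]
            have hcop : Nat.Coprime (a 0) p := ((Nat.Prime.coprime_iff_not_dvd hp).2 h0).symm
            obtain ⟨b, hb⟩ := Nat.exists_mul_mod_eq_one_of_coprime hcop hp.one_lt
            have e : a 0 * b = p * (a 0 * b / p) + 1 := by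
              have := Nat.div_add_mod (a 0 * b) p
              omega
            set c := a 0 * b / p
            have e1 : b • s = ∑ j, (b * a' j) • x j := by
              rw [hs, Finset.smul_sum]
              refine Finset.sum_congr rfl fun j _ => ?_
              rw [mul_smul]
            have hmin : n u ≤ n (u + b • s) := by rw [e1]; exact F3 _
            have hs1 : n s ≤ t := by rw [hs]; exact comb_le h ht hxt _
            have e2 : a 0 • u + s = a 0 • (u + b • s) + (-(p • (c • s))) := key_identity u s e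
            have hle : n (a 0 • u + s) ≤ n u := by
              refine (h.add _ _).trans (max_le hnu.le ?_)
              rw [hi2, ← hc]
            apply le_antisymm hle
            have hlt2 : n (-(p • (c • s))) < n (a 0 • (u + b • s)) := by
              rw [h.neg, h.nsmul_eq hp hnp hlt h0, hnp]
              refine lt_of_le_of_lt ?_ (lt_of_lt_of_le hu1 hmin)
              exact pow_le_pow_left₀ (h.nonneg _) ((h.nsmul_le c s).trans hs1) p
            rw [e2, h.add_eq_left hlt2, h.nsmul_eq hp hnp hlt h0]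
            exact hmin
          · intro j
            refine Fin.cases (fun _ => ?_) (fun j hj => ?_) j
            · exact le_rfl
            · simpa using (hi3 j hj).trans hc.ge
        · -- new part dominates
          refine ⟨0, h0, ?_, ?_⟩
          · simp only [Fin.cons_zero]
            rw [h.add_eq_left (by rw [hnu, hi2]; exact hc), hnu]
          · intro j
            refine Fin.cases (fun _ => ?_) (fun j hj => ?_) j
            · exact le_rfl
            · simpa using ((hi3 j hj).trans hc.le)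
      · -- all old coefficients are multiples
        push Not at hi'
        have hs1 : n s ≤ t ^ p := comb_multiple_le h hnp ht hxt hi'
        refine ⟨0, h0, ?_, ?_⟩
        · simp only [Fin.cons_zero]
          rw [h.add_eq_left (by rw [hnu]; exact lt_of_le_of_lt hs1 hu1), hnu]
        · intro j
          refine Fin.cases (fun _ => ?_) (fun j hj => ?_) j
          · exact le_rfl
          · exact absurd (hi' j) hj

/-- The quotient of the ball by the smaller ball. -/
abbrev Q (h : UM n) (p : ℕ) (t : ℝ) (ht : 0 ≤ t) : Type _ :=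
  ↥(ball h t ht) ⧸ (ball h (t ^ p) (pow_nonneg ht p)).addSubgroupOf (ball h t ht)

/-- The class of a combination. -/
noncomputable def combClass (h : UM n) (p : ℕ) (t : ℝ) (ht : 0 ≤ t) {k : ℕ} (x : Fin k → T)
    (hx : ∀ i, n (x i) ≤ t) (b : Fin k → Fin p) : Q h p t ht :=
  QuotientAddGroup.mk (⟨∑ j, ((b j : ℕ)) • x j, comb_le h ht hx _⟩ : ball h t ht)

theorem combClass_eq_iff (h : UM n) (p : ℕ) (t : ℝ) (ht : 0 ≤ t) {k : ℕ} (x : Fin k → T)
    (hx : ∀ i, n (x i) ≤ t) (b : Fin k → Fin p) (y : ball h t ht) :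
    combClass h p t ht x hx b = QuotientAddGroup.mk y ↔
      n (-(∑ j, ((b j : ℕ)) • x j) + y) ≤ t ^ p := by
  unfold combClass
  rw [QuotientAddGroup.eq, AddSubgroup.mem_addSubgroupOf]
  rfl

/-- If all elements of the ball are combinations then the dimension is at most `k`. -/
theorem card_le_of_span (h : UM n) {p N : ℕ} (hp : p.Prime) (hnp : ∀ x, n (p • x) = n x ^ p)
    {t : ℝ} (ht : 0 ≤ t)
    (hrel : (ball h (t ^ p) (pow_nonneg ht p)).relIndex (ball h t ht) = p ^ N)
    {k : ℕ} (x : Fin k → T) (hx : ∀ i, n (x i) ≤ t)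
    (hS : ∀ v, n v ≤ t → ∃ a : Fin k → ℕ, n (v - ∑ j, a j • x j) ≤ t ^ p) : N ≤ k := by
  have hsurj : Function.Surjective (combClass h p t ht x hx) := by
    intro q
    induction q using QuotientAddGroup.induction_on with
    | H y =>
      obtain ⟨a, ha⟩ := hS y y.2
      refine ⟨fun j => ⟨a j % p, Nat.mod_lt _ hp.pos⟩, ?_⟩
      rw [combClass_eq_iff]
      have e : -(∑ j, (a j % p) • x j) + (y : T) =
          ((y : T) - ∑ j, a j • x j) + (∑ j, a j • x j - ∑ j, (a j % p) • x j) := by abel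
      simp only
      rw [e]
      exact (h.add _ _).trans (max_le ha (comb_mod_le h hnp ht hx a))
  have hc := Nat.card_le_card_of_surjective _ hsurj
  have hQ : Nat.card (Q h p t ht) = p ^ N := hrel
  rw [hQ] at hc
  simp only [Nat.card_eq_fintype_card, Fintype.card_fun, Fintype.card_fin] at hc
  exact (Nat.pow_le_pow_iff_right hp.one_lt).1 hc

/-- Existence of good families of every size up to the dimension. -/
theorem exists_good (h : UM n) {p N : ℕ} (hp : p.Prime) (hnp : ∀ x, n (p • x) = n x ^ p)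
    (hlt : ∀ x, n x < 1) {t : ℝ} (ht : 0 ≤ t)
    (hrel : (ball h (t ^ p) (pow_nonneg ht p)).relIndex (ball h t ht) = p ^ N) (k : ℕ)
    (hk : k ≤ N) : ∃ x : Fin k → T, Good n p t x := by
  induction k with
  | zero =>
    exact ⟨Fin.elim0, fun i => i.elim0, fun a ⟨i, _⟩ => i.elim0⟩
  | succ k ih =>
    obtain ⟨x, hx⟩ := ih (by omega)
    have hv : ∃ v, n v ≤ t ∧ ∀ a : Fin k → ℕ, t ^ p < n (v - ∑ j, a j • x j) := by
      by_contra hcon
      push Not at hcon
      have := card_le_of_span h hp hnp ht hrel x (fun i => (hx.1 i).2) hcon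
      omega
    obtain ⟨v, hv1, hv2⟩ := hv
    obtain ⟨u, hu⟩ := extend h hp hnp hlt ht hx hv1 hv2
    exact ⟨_, hu⟩

/-- A good family of full size spans. -/
theorem good_spans (h : UM n) {p N : ℕ} (hp : p.Prime) (hnp : ∀ x, n (p • x) = n x ^ p)
    {t : ℝ} (ht : 0 ≤ t)
    (hrel : (ball h (t ^ p) (pow_nonneg ht p)).relIndex (ball h t ht) = p ^ N)
    {x : Fin N → T} (hx : Good n p t x) (y : T) (hy : n y ≤ t) :
    ∃ b : Fin N → Fin p, n (-(∑ j, ((b j : ℕ)) • x j) + y) ≤ t ^ p := by
  have hxt : ∀ i, n (x i) ≤ t := fun i => (hx.1 i).2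
  have hQ : Nat.card (Q h p t ht) = p ^ N := hrel
  have : NeZero p := ⟨hp.ne_zero⟩
  have hfin : Finite (Q h p t ht) := by
    apply Nat.finite_of_card_ne_zero
    rw [hQ]
    exact pow_ne_zero _ hp.ne_zero
  have hinj : Function.Injective (combClass h p t ht x hxt) := by
    intro b b' hbb
    by_contra hne
    obtain ⟨i, hi⟩ := Function.ne_iff.1 hne
    have heq : n (-(∑ j, ((b j : ℕ)) • x j) + ∑ j, ((b' j : ℕ)) • x j) ≤ t ^ p :=
      (combClass_eq_iff h p t ht x hxt b _).1 hbb
    -- a combination with natural coefficients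
    set d : Fin N → ℕ := fun j => (b' j : ℕ) + (p - 1) * (b j : ℕ) with hd
    have hdsum : ∑ j, d j • x j = (-(∑ j, ((b j : ℕ)) • x j) + ∑ j, ((b' j : ℕ)) • x j) +
        ∑ j, (p * (b j : ℕ)) • x j := by
      have e1 : ∑ j, (p * (b j : ℕ)) • x j = ∑ j, ((b j : ℕ)) • x j +
          ∑ j, ((p - 1) * (b j : ℕ)) • x j := by
        rw [← Finset.sum_add_distrib]
        refine Finset.sum_congr rfl fun j _ => ?_
        rw [← add_smul]
        congr 1
        have hp1 : (p - 1) + 1 = p := by have := hp.one_lt; omega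
        have key : ∀ B : ℕ, p * B = B + (p - 1) * B := fun B => by
          calc p * B = ((p - 1) + 1) * B := by rw [hp1]
            _ = B + (p - 1) * B := by ring
        exact key _
      have e2 : ∑ j, d j • x j = ∑ j, ((b' j : ℕ)) • x j +
          ∑ j, ((p - 1) * (b j : ℕ)) • x j := by
        rw [← Finset.sum_add_distrib]
        refine Finset.sum_congr rfl fun j _ => ?_
        rw [← add_smul]
      rw [e2, e1]
      abel
    have hdi : ¬ p ∣ d i := by
      intro hdvd
      have h1 : ((b' i : ℕ) : ℤ) ≡ ((b i : ℕ) : ℤ) [ZMOD p] := by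
        have h2 : (p : ℤ) ∣ ((b' i : ℕ) : ℤ) + ((p : ℤ) - 1) * ((b i : ℕ) : ℤ) := by
          have : ((d i : ℕ) : ℤ) = ((b' i : ℕ) : ℤ) + ((p : ℤ) - 1) * ((b i : ℕ) : ℤ) := by
            simp only [hd]
            have hp1 : 1 ≤ p := hp.one_lt.le
            push_cast [Nat.cast_sub hp1]
            ring
          rw [← this]
          exact_mod_cast hdvd
        apply Int.ModEq.symm
        rw [Int.modEq_iff_dvd]
        have e : ((b' i : ℕ) : ℤ) - ((b i : ℕ) : ℤ) =
            ((b' i : ℕ) : ℤ) + ((p : ℤ) - 1) * ((b i : ℕ) : ℤ) - (p : ℤ) * ((b i : ℕ) : ℤ) := by ring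
        rw [e]
        exact dvd_sub h2 (dvd_mul_right _ _)
      have h3 : (b' i : ℕ) ≡ (b i : ℕ) [MOD p] := by exact_mod_cast h1
      have h4 : (b' i : ℕ) = (b i : ℕ) := Nat.ModEq.eq_of_lt_of_lt h3 (b' i).2 (b i).2
      exact hi (Fin.ext h4.symm)
    obtain ⟨i', _, hi2, _⟩ := hx.2 d ⟨i, hdi⟩
    have hle : n (∑ j, d j • x j) ≤ t ^ p := by
      rw [hdsum]
      exact (h.add _ _).trans (max_le heq
        (comb_multiple_le h hnp ht hxt fun i => dvd_mul_right _ _))
    rw [hi2] at hle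
    exact absurd hle (not_le.2 (hx.1 i').1)
  have hsurj : Function.Surjective (combClass h p t ht x hxt) := by
    have hcard : Nat.card (Q h p t ht) ≤ Nat.card (Fin N → Fin p) := by
      rw [hQ]; simp
    exact ((Function.Injective.bijective_of_nat_card_le hinj hcard)).2
  obtain ⟨b, hb⟩ := hsurj (QuotientAddGroup.mk (⟨y, hy⟩ : ball h t ht))
  exact ⟨b, (combClass_eq_iff h p t ht x hxt b _).1 hb⟩

theorem norm_pow_iter {p : ℕ} (hnp : ∀ x, n (p • x) = n x ^ p) (m : ℕ) (y : T) :
    n ((p ^ m) • y) = n y ^ (p ^ m) := by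
  induction m with
  | zero => simp
  | succ m ih =>
    rw [pow_succ', mul_smul, hnp, ih, ← pow_mul, mul_comm]

end Window

open Window in
/-- Window-orthogonal family in a `p`-adic lattice.

`T` is an abelian group, multiplication by `p` is injective on it, `T / pT` has `p ^ N` elements,
`n : T → ℝ` is an ultrametric norm with `n (p • x) = n x ^ p`, bounded by `κ < 1` and bounded below by `r > 0` outside `pT`,
and `T / p^m T` is finite for all `m`.  Put `L = {x | n x ≤ n₁}`.  For a suitable `n₁` the set `L` is a subgroup,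
`p L = {x | n x ≤ n₁ ^ p}`, and one finds `N` elements `x i ∈ L \ pL` which span `L` modulo `pL` and are
orthogonal: the norm of a combination `∑ a i • x i` which is not `0` modulo `p` is the maximum of the norms
of the `x i` with `p ∤ a i`. -/
theorem exists_window_family {T : Type*} [AddCommGroup T] (p : ℕ) [Fact p.Prime] (N : ℕ)
    (n : T → ℝ) (hn0 : ∀ x, 0 ≤ n x) (hnzero : n 0 = 0)
    (hnneg : ∀ x, n (-x) = n x)
    (hnadd : ∀ x y, n (x + y) ≤ max (n x) (n y))
    (hnp : ∀ x, n (p • x) = n x ^ p)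
    (κ : ℝ) (hκ : κ < 1) (hκn : ∀ x, n x ≤ κ)
    (r : ℝ) (hr : 0 < r) (hrn : ∀ x, (∀ y, x ≠ p • y) → r ≤ n x)
    (hinj : ∀ x : T, p • x = 0 → x = 0)
    (hcard : Nat.card (T ⧸ (nsmulAddMonoidHom (α := T) p).range) = p ^ N)
    (hfin : ∀ m : ℕ, Finite (T ⧸ (nsmulAddMonoidHom (α := T) (p ^ m)).range)) :
    ∃ (n₁ : ℝ) (x : Fin N → T), 0 < n₁ ∧ n₁ < 1 ∧
      (∀ i, n₁ ^ p < n (x i) ∧ n (x i) ≤ n₁) ∧
      -- orthogonality modulo `p`
      (∀ a : Fin N → ℕ, (∃ i, ¬ p ∣ a i) → ∃ i, ¬ p ∣ a i ∧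
        n (∑ j, a j • x j) = n (x i) ∧ ∀ j, ¬ p ∣ a j → n (x j) ≤ n (x i)) ∧
      -- spanning modulo `p`
      (∀ y : T, n y ≤ n₁ → ∃ (a : Fin N → ℕ) (z : T), n z ≤ n₁ ∧ y = ∑ j, a j • x j + p • z) := by
  have hp : p.Prime := Fact.out
  have h : UM n := ⟨hn0, hnzero, hnneg, hnadd⟩
  have hlt : ∀ x, n x < 1 := fun x => lt_of_le_of_lt (hκn x) hκ
  have hκ0 : 0 ≤ κ := by simpa [hnzero] using hκn 0
  set t : ℝ := min (1 / 2) (r / 2) with ht_def
  have ht0 : 0 < t := lt_min (by norm_num) (by positivity)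
  have ht1 : t < 1 := lt_of_le_of_lt (min_le_left _ _) (by norm_num)
  have htr : t < r := lt_of_le_of_lt (min_le_right _ _) (by linarith)
  have htp : t ^ p < t := by
    have : t ^ p < t ^ 1 := pow_lt_pow_right_of_lt_one₀ ht0 ht1 hp.one_lt
    simpa using this
  have hdiv : ∀ x, n x ≤ t ^ p → ∃ y, x = p • y := by
    intro x hx
    by_contra hcon
    push Not at hcon
    have := hrn x hcon
    linarith
  -- finite index
  have hfi : (ball h t ht0.le).index ≠ 0 := by
    obtain ⟨e, he⟩ := exists_pow_lt_of_lt_one ht0 hκ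
    have hle : (nsmulAddMonoidHom (α := T) (p ^ e)).range ≤ ball h t ht0.le := by
      rintro _ ⟨y, rfl⟩
      show n ((p ^ e) • y) ≤ t
      rw [norm_pow_iter hnp]
      have h1 : n y ^ (p ^ e) ≤ κ ^ (p ^ e) := pow_le_pow_left₀ (hn0 y) (hκn y) _
      have h2 : κ ^ (p ^ e) ≤ κ ^ e :=
        pow_le_pow_of_le_one hκ0 hκ.le (Nat.lt_pow_self hp.one_lt).le
      linarith
    have := hfin e
    have h0 : (nsmulAddMonoidHom (α := T) (p ^ e)).range.index ≠ 0 :=
      AddSubgroup.index_ne_zero_of_finite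
    intro h00
    exact h0 (Nat.eq_zero_of_zero_dvd (h00 ▸ AddSubgroup.index_dvd_of_le hle))
  have hrel := relIndex_ball h hp hnp t ht0.le hdiv hinj hcard hfi htp.le
  obtain ⟨x, hx⟩ := exists_good h hp hnp hlt ht0.le hrel N le_rfl
  refine ⟨t, x, ht0, ht1, hx.1, hx.2, fun y hy => ?_⟩
  obtain ⟨b, hb⟩ := good_spans h hp hnp ht0.le hrel hx y hy
  obtain ⟨z, hz⟩ := hdiv _ hb
  refine ⟨fun j => (b j : ℕ), z, ?_, ?_⟩
  · have : n z ^ p ≤ t ^ p := by
      rw [← hnp, ← hz]; exact hb
    exact (pow_le_pow_iff_left₀ (hn0 z) ht0.le hp.ne_zero).1 this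
  · rw [← hz]
    abel

end Vale.Agent.Lib.P217
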