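import Vale.Agent.Lib.P217.EndSeries
import Vale.Agent.Lib.P217.Lattice
import Vale.Agent.Lib.P217.Digits
import Vale.Agent.Lib.P217.Window
import Vale.Agent.Lib.P217.SmallDisc
import Vale.Agent.Lib.P217.GroupExp

set_option linter.unusedSectionVars false
set_option linter.unusedVariables false

namespace Vale.Agent.Lib.P217

open scoped Topology
open Filter

variable {C : Type*} [NormedField C] [IsUltrametricDist C] [CompleteSpace C]
variable {p n N : ℕ} [hp : Fact p.Prime] [CharP C p] [IsAlgClosed C]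
variable {k : Type*} [Field k] [Fintype k] [CharP k p]

lemma exists_small_of_coeff {L : Law C p n} (hn2 : 2 ≤ n) (ha : PowerSeries.coeff p (mulSeries L.G p) ≠ 0) :
    ∃ t : C, t ≠ 0 ∧ ‖t‖ < 1 := by
  refine ⟨((PowerSeries.coeff p (mulSeries L.G p) : OC C) : C), ?_, ?_⟩
  · intro h
    exact ha (Subtype.ext h)
  · have h := L.coeff_p p
    have hne : p ≠ p ^ n := by
      have h1 : p ^ 1 < p ^ n := Nat.pow_lt_pow_right hp.out.one_lt (by omega)
      rw [pow_one] at h1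
      exact h1.ne
    rw [if_neg hne, sub_zero] at h
    exact lt_of_le_of_lt h L.c_lt_one

lemma norm_kappa (S : Setting C p n N k) {a : k} (ha : a ≠ 0) : ‖((S.κ a : OC C) : C)‖ = 1 := by
  apply le_antisymm (norm_OC_le _)
  have h1 : ((S.κ a : OC C) : C) * ((S.κ a⁻¹ : OC C) : C) = 1 := by
    have : S.κ a * S.κ a⁻¹ = 1 := by rw [← map_mul, mul_inv_cancel₀ ha, map_one]
    exact congrArg Subtype.val this
  have h2 : ‖((S.κ a : OC C) : C)‖ * ‖((S.κ a⁻¹ : OC C) : C)‖ = 1 := by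
    rw [← norm_mul, h1, norm_one]
  have h3 : ‖((S.κ a⁻¹ : OC C) : C)‖ ≤ 1 := norm_OC_le _
  have h4 : 0 ≤ ‖((S.κ a : OC C) : C)‖ := norm_nonneg _
  nlinarith

lemma gammaEnd_apply (S : Setting C p n N k) (hω : HOm S) (hF : HFr S) (s : ℕ) (d : ℕ → k) (β : Pts (baseLaw S).G) :
    gammaEnd S hω hF s d β = ∑ i ∈ Finset.range s, cEnd S hω (d i) ((phiEnd S hF ^ i) β) := by
  simp only [gammaEnd]
  induction Finset.range s using Finset.induction_on with
  | empty => rfl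
  | insert i t hi ih =>
    rw [Finset.sum_insert hi, Finset.sum_insert hi, ← ih]
    rfl

/-- Existence of the good digits: there is `γ = ∑_{i<s} [d i] Φ^i` such that `p^j • γ β` is not in the lattice `T` for all `β ∈ T`, `β ≠ 0`.
Apply `exists_good_digits`, with the lattice lemmas `card_Lat_quot_le`, `norm_le_of_mem_Lat`, `exists_norm_ge_Lat`, with `card_torsion`. -/
theorem exists_good_gamma (S : Setting C p n N k) (hω : HOm S) (hF : HFr S) (hk : Fintype.card k = p ^ n) (hN : N + 1 = n) (hn2 : 2 ≤ n)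
    {φ} (hφ : Adm S φ) (ha : PowerSeries.coeff p (mulSeries (lawOf S φ hφ).G p) ≠ 0) :
    ∃ (s : ℕ) (d : ℕ → k), ∀ β ∈ Lat (baseLaw_isBase S) (close_lawOf S hφ), β ≠ 0 → ∀ j : ℕ,
      (p ^ j) • (gammaEnd S hω hF s d β) ∉ Lat (baseLaw_isBase S) (close_lawOf S hφ) := by
  have hb := baseLaw_isBase S
  have hc := close_lawOf S hφ
  have hn : 1 ≤ n := S.hn
  have ht := exists_small_of_coeff hn2 ha
  have hNn : N < n := by omega
  have hcard : Nat.card (nsmulAddMonoidHom (α := Pts (lawOf S φ hφ).G) p).ker = p ^ N := by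
    have h1 := card_torsion (lawOf S φ hφ) hn ht ha
    have e : n - 1 = N := by omega
    rwa [e] at h1
  obtain ⟨r₀, hr₀, hr₀'⟩ := exists_norm_ge_Lat hb hc N hcard
  have key := exists_good_digits (M := Pts (baseLaw S).G) (fun x => ‖x.v‖) p n N (by simp)
    (fun x hx => norm_pos_iff.mpr (fun h => hx (Pts.ext h)))
    (fun x => x.norm_lt) (fun x => norm_neg_law _ x)
    (fun x y => norm_add_le _ x y)
    (fun x => by
      change ‖(p • x).v‖ = _
      rw [hb.nsmul_v, norm_pow])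
    (fun x => ⟨rt x, nsmul_rt hb x⟩) hk (fun a => cEnd S hω a) (phiEnd S hF)
    (fun x => by
      change ‖(phiEnd S hF x).v‖ = _
      rw [phiEnd_v, norm_pow])
    (by
      apply AddMonoidHom.ext
      intro x
      apply Pts.ext
      exact (cEnd_v S hω 0 x).trans (by simp))
    (fun a a' x haa => by
      change ‖(cEnd S hω a x - cEnd S hω a' x).v‖ = _
      rw [norm_sub_law, cEnd_v, cEnd_v, ← sub_mul, norm_mul]
      have h1 : ((S.κ a : OC C) : C) - ((S.κ a' : OC C) : C) = ((S.κ (a - a') : OC C) : C) := by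
        rw [map_sub]; rfl
      rw [h1, norm_kappa S (sub_ne_zero.mpr haa), one_mul])
    (Lat hb hc) hNn
    (fun m => (card_Lat_quot_le hb hc N hcard m).2)
    (fun m => (card_Lat_quot_le hb hc N hcard m).1)
    (lawOf S φ hφ).c (lawOf S φ hφ).c_lt_one
    (fun β hβ => norm_le_of_mem_Lat hb hc hβ)
    r₀ hr₀ (fun β hβ h => hr₀' β hβ h)
  obtain ⟨s, d, hsd⟩ := key
  refine ⟨s, d, fun β hβ h0 j => ?_⟩
  rw [gammaEnd_apply]
  exact hsd β hβ h0 j

/-- The window data.  Fix `γ` as above and a bound `r` with `(c^(p^r))^p < ‖a‖`; `Z β = p^r • μ_L (γ β)`, and the norm on the lattice `T` is `n β = ‖b‖ ‖Z β‖`.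
Then `n (p β) = n(β)^p` by `norm_smalldisc`, `n ≤ ‖b‖ c ^ (p ^ r) < 1`, `n` is bounded below on `T \ pT` by `exists_lower_bound_Lat`, since `Z` is continuous by `mu_small` and `norm_nsmul_le`.
Apply `exists_window_family` to get `n₁`, `x`; `norm_sum_nsmul_sub_le` to pass from the group sum to the field sum for the independence statement. The last statement is obtained by iterating the spanning statement
of `exists_window_family`, with `f` large such that `‖b‖ c ^ (p ^ r) ) ^ (p ^ f) ≤ n₁`. -/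
theorem exists_good_data (S : Setting C p n N k) (hω : HOm S) (hF : HFr S) (hk : Fintype.card k = p ^ n) (hN : N + 1 = n) (hn2 : 2 ≤ n)
    {φ} (hφ : Adm S φ) (ha : PowerSeries.coeff p (mulSeries (lawOf S φ hφ).G p) ≠ 0)
    {b : C} (hb : b ^ (p - 1) = ((PowerSeries.coeff p (mulSeries (lawOf S φ hφ).G p) : OC C) : C))
    (s : ℕ) (d : ℕ → k)
    (hgood : ∀ β ∈ Lat (baseLaw_isBase S) (close_lawOf S hφ), β ≠ 0 → ∀ j : ℕ,
      (p ^ j) • (gammaEnd S hω hF s d β) ∉ Lat (baseLaw_isBase S) (close_lawOf S hφ)) :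
    ∃ (r f : ℕ) (n₁ : ℝ) (x : Fin N → Pts (baseLaw S).G),
      (S.c ^ (p ^ r)) ^ p < ‖((PowerSeries.coeff p (mulSeries (lawOf S φ hφ).G p) : OC C) : C)‖ ∧
      0 < n₁ ∧ n₁ < 1 ∧
      (∀ i, x i ∈ Lat (baseLaw_isBase S) (close_lawOf S hφ)) ∧
      (∀ i, n₁ ^ p < ‖b‖ * ‖((p ^ r) • mu (baseLaw S) (lawOf S φ hφ) (gammaEnd S hω hF s d (x i))).v‖ ∧
        ‖b‖ * ‖((p ^ r) • mu (baseLaw S) (lawOf S φ hφ) (gammaEnd S hω hF s d (x i))).v‖ ≤ n₁) ∧
      (∀ (j : Fin N) (a' : Fin N → ℕ), (∀ i, a' i < p) → (∃ i, a' i ≠ 0) →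
        (∀ i, a' i ≠ 0 → ‖((p ^ r) • mu (baseLaw S) (lawOf S φ hφ) (gammaEnd S hω hF s d (x i))).v‖ =
          ‖((p ^ r) • mu (baseLaw S) (lawOf S φ hφ) (gammaEnd S hω hF s d (x j))).v‖) →
        ‖∑ i, (a' i : C) * ((p ^ r) • mu (baseLaw S) (lawOf S φ hφ) (gammaEnd S hω hF s d (x i))).v‖ =
          ‖((p ^ r) • mu (baseLaw S) (lawOf S φ hφ) (gammaEnd S hω hF s d (x j))).v‖) ∧
      (∀ (R : ℕ), ∀ y ∈ Lat (baseLaw_isBase S) (close_lawOf S hφ), ∃ (a' : Fin N → ℕ), ∃ z ∈ Lat (baseLaw_isBase S) (close_lawOf S hφ),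
        (p ^ f) • y = ∑ j, a' j • x j + (p ^ R) • z) := by
  classical
  have hb' := baseLaw_isBase S
  have hc := close_lawOf S hφ
  have hn : 1 ≤ n := S.hn
  have ht := exists_small_of_coeff hn2 ha
  have hp2 : 2 ≤ p := hp.out.two_le
  have hNn : N < n := by omega
  have hcard : Nat.card (nsmulAddMonoidHom (α := Pts (lawOf S φ hφ).G) p).ker = p ^ N := by
    have h1 := card_torsion (lawOf S φ hφ) hn ht ha
    have e : n - 1 = N := by omega
    rwa [e] at h1
  set a : C := ((PowerSeries.coeff p (mulSeries (lawOf S φ hφ).G p) : OC C) : C) with ha_def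
  have ha0 : a ≠ 0 := fun h => ha (Subtype.ext h)
  have hanorm : 0 < ‖a‖ := norm_pos_iff.mpr ha0
  have hb0 : b ≠ 0 := by
    rintro rfl
    rw [zero_pow (by omega)] at hb
    exact ha0 hb.symm
  have hbpos : 0 < ‖b‖ := norm_pos_iff.mpr hb0
  have hb1 : ‖b‖ ≤ 1 := by
    by_contra h
    push Not at h
    have h1 : 1 < ‖b‖ ^ (p - 1) := one_lt_pow₀ h (by omega)
    rw [← norm_pow, hb] at h1
    exact absurd (norm_OC_le _) (not_le.mpr h1)
  -- choice of `r`
  have hcS : (lawOf S φ hφ).c = S.c := rfl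
  obtain ⟨r, hr⟩ : ∃ r : ℕ, (S.c ^ (p ^ r)) ^ p < ‖a‖ := by
    have h1 := (tendsto_c_pow (lawOf S φ hφ)).pow p
    rw [zero_pow (by omega)] at h1
    exact (h1.eventually (gt_mem_nhds hanorm)).exists
  -- the homomorphism
  let γ := gammaEnd S hω hF s d
  let Ψ : Pts (baseLaw S).G →+ Pts (lawOf S φ hφ).G :=
    (nsmulAddMonoidHom (p ^ r)).comp ((muHom hb' hc).comp γ)
  have hΨ : ∀ β, Ψ β = (p ^ r) • mu (baseLaw S) (lawOf S φ hφ) (gammaEnd S hω hF s d β) := fun β => rfl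
  have hbd : ∀ β ∈ Lat hb' hc, ‖(Ψ β).v‖ ≤ S.c ^ (p ^ r) := by
    intro β hβ
    have h1 : ‖β.v‖ ≤ S.c := norm_le_of_mem_Lat hb' hc hβ
    have h2 : ‖(gammaEnd S hω hF s d β).v‖ ≤ S.c := (norm_gammaEnd_le S hω hF s d β).trans h1
    have h3 : ‖(mu (baseLaw S) (lawOf S φ hφ) (gammaEnd S hω hF s d β)).v‖ ≤ S.c :=
      (norm_mu_le _ _).trans (max_le h2 le_rfl)
    rw [hΨ]
    exact (norm_nsmul_pow_le _ _ r).trans (pow_le_pow_left₀ (norm_nonneg _) h3 _)
  have hc01 : S.c ^ (p ^ r) < 1 := pow_lt_one₀ S.c0 S.c1 (by positivity)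
  -- the norm on the lattice
  let ΨT : Lat hb' hc →+ Pts (lawOf S φ hφ).G := Ψ.comp (Lat hb' hc).subtype
  let nT : Lat hb' hc → ℝ := fun β => ‖b‖ * ‖(ΨT β).v‖
  have hnT : ∀ β, nT β = ‖b‖ * ‖(ΨT β).v‖ := fun β => rfl
  have hnp : ∀ x, nT (p • x) = nT x ^ p := by
    intro x
    rw [hnT, hnT, map_nsmul]
    refine norm_smalldisc (lawOf S φ hφ) ha0 hb _ ?_
    refine lt_of_le_of_lt (pow_le_pow_left₀ (norm_nonneg _) (hbd _ x.2) _) hr
  have hκ : ‖b‖ * S.c ^ (p ^ r) < 1 :=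
    lt_of_le_of_lt (mul_le_of_le_one_left (pow_nonneg S.c0 _) hb1) hc01
  have hκ0 : 0 ≤ ‖b‖ * S.c ^ (p ^ r) := mul_nonneg hbpos.le (pow_nonneg S.c0 _)
  have hκn : ∀ x, nT x ≤ ‖b‖ * S.c ^ (p ^ r) := fun x =>
    mul_le_mul_of_nonneg_left (hbd _ x.2) hbpos.le
  -- lower bound
  obtain ⟨r₁, hr₁, hr₁'⟩ := exists_lower_bound_Lat hb' hc N hcard (A := Pts (lawOf S φ hφ).G)
    (fun y => ‖b‖ * ‖y.v‖) (fun y => mul_nonneg hbpos.le (norm_nonneg _))
    (fun y y' => by
      have h1 := norm_add_le _ y y'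
      rw [← mul_max_of_nonneg _ _ hbpos.le]
      exact mul_le_mul_of_nonneg_left h1 hbpos.le)
    (fun y => by
      change ‖b‖ * ‖(-y).v‖ = _
      rw [norm_neg_law])
    Ψ
    (fun ε hε => by
      obtain ⟨δ, hδ, h⟩ := mu_small hb' hc hε
      refine ⟨δ, hδ, fun x hx => ?_⟩
      have h1 := h (gammaEnd S hω hF s d x) (lt_of_le_of_lt (norm_gammaEnd_le S hω hF s d x) hx)
      have h2 : ‖(Ψ x).v‖ < ε := by
        rw [hΨ]
        exact lt_of_le_of_lt (norm_nsmul_le _ _ _) h1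
      exact lt_of_le_of_lt (mul_le_of_le_one_left (norm_nonneg _) hb1) h2)
    (fun β hβ hne => by
      have h0 : β ≠ 0 := by
        rintro rfl
        exact hne 0 (zero_mem _) (by simp)
      have h1 := hgood β hβ h0 r
      have h2 : (Ψ β) ≠ 0 := by
        intro h
        apply h1
        rw [mem_Lat, mu_nsmul hb' hc]
        exact h
      have h3 : (Ψ β).v ≠ 0 := fun h => h2 (Pts.ext h)
      exact mul_pos hbpos (norm_pos_iff.mpr h3))
  have hcardT := card_Lat_quot_p hb' hc hn ht N hcard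
  obtain ⟨n₁, x, hn₁0, hn₁1, hwin, horth, hspan⟩ := exists_window_family (T := Lat hb' hc) p N nT
    (fun x => mul_nonneg hbpos.le (norm_nonneg _))
    (by
      rw [hnT, map_zero]
      simp)
    (fun x => by
      rw [hnT, hnT, map_neg, norm_neg_law])
    (fun x y => by
      rw [hnT, hnT, hnT, map_add, ← mul_max_of_nonneg _ _ hbpos.le]
      exact mul_le_mul_of_nonneg_left (norm_add_le _ _ _) hbpos.le)
    hnp _ hκ hκn r₁ hr₁
    (fun x hx => hr₁' x.1 x.2 (fun y hy h => hx ⟨y, hy⟩ (Subtype.ext h)))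
    (fun x hx => by
      apply Subtype.ext
      apply nsmul_p_injective hb'
      have h1 := congrArg Subtype.val hx
      simpa using h1)
    hcardT
    (fun m => (card_Lat_quot_le hb' hc N hcard m).1)
  -- choice of `f`
  obtain ⟨f, hf⟩ : ∃ f : ℕ, (‖b‖ * S.c ^ (p ^ r)) ^ (p ^ f) ≤ n₁ := by
    have h1 : Tendsto (fun j : ℕ => (‖b‖ * S.c ^ (p ^ r)) ^ j) atTop (𝓝 0) :=
      tendsto_pow_atTop_nhds_zero_of_lt_one hκ0 hκ
    have h2 : Tendsto (fun j : ℕ => p ^ j) atTop atTop :=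
      tendsto_pow_atTop_atTop_of_one_lt hp.out.one_lt
    obtain ⟨f, hf⟩ := ((h1.comp h2).eventually (gt_mem_nhds hn₁0)).exists
    exact ⟨f, hf.le⟩
  -- iterated spanning
  have hspanR : ∀ (R : ℕ) (y : Lat hb' hc), nT y ≤ n₁ → ∃ (a' : Fin N → ℕ) (z : Lat hb' hc),
      nT z ≤ n₁ ∧ y = ∑ j, a' j • x j + (p ^ R) • z := by
    intro R
    induction R with
    | zero =>
      intro y hy
      exact ⟨0, y, hy, by simp⟩
    | succ R ih =>
      intro y hy
      obtain ⟨a₁, z₁, hz₁, e₁⟩ := ih y hy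
      obtain ⟨a₂, z₂, hz₂, e₂⟩ := hspan z₁ hz₁
      refine ⟨fun j => a₁ j + p ^ R * a₂ j, z₂, hz₂, ?_⟩
      rw [e₁, e₂, smul_add, Finset.smul_sum, pow_succ, mul_smul]
      simp only [add_smul, mul_smul, Finset.sum_add_distrib]
      abel
  refine ⟨r, f, n₁, fun i => (x i : Pts (baseLaw S).G), hr, hn₁0, hn₁1, fun i => (x i).2, fun i => hwin i, ?_, ?_⟩
  · intro j a' ha'p hne heq
    obtain ⟨i, hi⟩ := hne
    have hdvd : ∀ i, a' i ≠ 0 → ¬ p ∣ a' i := fun i h hd => h (Nat.eq_zero_of_dvd_of_lt hd (ha'p i))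
    obtain ⟨i₀, hi₀, hn_eq, -⟩ := horth a' ⟨i, hdvd i hi⟩
    have hi₀' : a' i₀ ≠ 0 := by
      intro h
      apply hi₀
      rw [h]
      exact dvd_zero p
    have hν : ‖(ΨT (x i₀)).v‖ = ‖(ΨT (x j)).v‖ := heq i₀ hi₀'
    have hνpos : 0 < ‖(ΨT (x j)).v‖ := by
      have h1 := (hwin i₀).1
      have h2 : 0 < n₁ ^ p := by positivity
      have h3 : 0 < ‖b‖ * ‖(ΨT (x i₀)).v‖ := lt_trans h2 h1
      rw [hν] at h3
      exact (pos_iff_pos_of_mul_pos h3).mp hbpos
    have hν1 : ‖(ΨT (x j)).v‖ < 1 := Pts.norm_lt _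
    have hgroup : ‖(∑ i, a' i • ΨT (x i)).v‖ = ‖(ΨT (x j)).v‖ := by
      have h1 : ΨT (∑ j, a' j • x j) = ∑ i, a' i • ΨT (x i) := by
        rw [map_sum]
        simp only [map_nsmul]
      rw [hnT, hnT, h1, hν] at hn_eq
      exact mul_left_cancel₀ hbpos.ne' hn_eq
    let Z' : Fin N → Pts (lawOf S φ hφ).G := fun i => if a' i = 0 then 0 else ΨT (x i)
    have hZ' : ∀ i, ‖(Z' i).v‖ ≤ ‖(ΨT (x j)).v‖ := by
      intro i
      by_cases h : a' i = 0
      · simp only [Z', if_pos h]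
        simp
      · simp only [Z', if_neg h]
        exact (heq i h).le
    have hdiff := norm_sum_nsmul_sub_le (lawOf S φ hφ) Finset.univ Z' a' hZ'
    have e1 : (∑ i, a' i • Z' i) = ∑ i, a' i • ΨT (x i) := by
      refine Finset.sum_congr rfl fun i _ => ?_
      by_cases h : a' i = 0
      · simp [h]
      · simp only [Z', if_neg h]
    have e2 : (∑ i, (a' i : C) * (Z' i).v) = ∑ i, (a' i : C) * (ΨT (x i)).v := by
      refine Finset.sum_congr rfl fun i _ => ?_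
      by_cases h : a' i = 0
      · simp [h]
      · simp only [Z', if_neg h]
    rw [e1, e2] at hdiff
    have hlt : ‖(ΨT (x j)).v‖ ^ 2 < ‖(ΨT (x j)).v‖ := by
      nlinarith
    have hdiff' := lt_of_le_of_lt hdiff hlt
    change ‖∑ i, (a' i : C) * (ΨT (x i)).v‖ = ‖(ΨT (x j)).v‖
    set u := (∑ i, a' i • ΨT (x i)).v with hu
    set w := ∑ i, (a' i : C) * (ΨT (x i)).v with hw
    apply le_antisymm
    · have e : w = u + (w - u) := by ring
      rw [e]
      refine (IsUltrametricDist.norm_add_le_max _ _).trans (max_le hgroup.le ?_)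
      rw [norm_sub_rev]
      exact hdiff'.le
    · by_contra hcon
      push Not at hcon
      have e : u = w + (u - w) := by ring
      have h1 : ‖u‖ ≤ max ‖w‖ ‖u - w‖ := by
        conv_lhs => rw [e]
        exact IsUltrametricDist.norm_add_le_max _ _
      rw [hgroup] at h1
      exact absurd h1 (not_le.mpr (max_lt hcon hdiff'))
  · intro R y hy
    have h1 : nT ((p ^ f) • (⟨y, hy⟩ : Lat hb' hc)) ≤ n₁ := by
      rw [Window.norm_pow_iter hnp]
      exact (pow_le_pow_left₀ (mul_nonneg hbpos.le (norm_nonneg _)) (hκn _) _).trans hf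
    obtain ⟨a', z, hz, e⟩ := hspanR R _ h1
    refine ⟨a', z.1, z.2, ?_⟩
    have h2 := congrArg (Lat hb' hc).subtype e
    simpa using h2

end Vale.Agent.Lib.P217
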