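import Mathlib

namespace Vale.Agent.Lib.P217

open Filter Topology Polynomial

section Moore

variable {C : Type*} [NormedField C] [IsUltrametricDist C] (p : ℕ) [Fact p.Prime] [CharP C p]

omit [CharP C p] [NormedField C] [IsUltrametricDist C] in
theorem x_pow_sub_x_eq_prod :
    (X ^ p - X : (ZMod p)[X]) = ∏ c : ZMod p, (X - Polynomial.C c) := by
  have hp : 1 < p := (Fact.out : p.Prime).one_lt
  have hm : (X ^ p - X : (ZMod p)[X]).Monic :=
    monic_X_pow_sub (by simpa [degree_X] using (by exact_mod_cast hp : (1 : WithBot ℕ) < p))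
  have hr := FiniteField.roots_X_pow_card_sub_X (ZMod p)
  rw [ZMod.card] at hr
  have hd := FiniteField.X_pow_card_sub_X_natDegree_eq (ZMod p) hp
  have := Polynomial.prod_multiset_X_sub_C_of_monic_of_roots_card_eq hm (by
    rw [hr, hd]; simp [ZMod.card])
  rw [hr] at this
  exact this.symm

omit [IsUltrametricDist C] in
/-- The Frobenius minus identity as a product over the prime field, evaluated in `C`. -/
theorem pow_sub_self_eq_prod (Z : C) :
    Z ^ p - Z = ∏ c : ZMod p, (Z - ZMod.castHom (dvd_refl p) C c) := by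
  have h := congrArg (Polynomial.eval₂ (ZMod.castHom (dvd_refl p) C) Z) (x_pow_sub_x_eq_prod p)
  simpa [Polynomial.eval₂_sub, Polynomial.eval₂_pow, Polynomial.eval₂_X,
    Polynomial.eval₂_finsetProd, Polynomial.eval₂_C] using h

omit [IsUltrametricDist C] in
/-- The norm of the twisted Frobenius difference. -/
theorem norm_frob (Y a : C) (ha : ‖a‖ = 1)
    (h : ∀ c : ZMod p, ‖Y - ZMod.castHom (dvd_refl p) C c * a‖ = 1) :
    ‖Y ^ p - Y * a ^ (p - 1)‖ = 1 := by
  have hp : 1 ≤ p := (Fact.out : p.Prime).one_lt.le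
  have ha0 : a ≠ 0 := by
    intro h0; rw [h0, norm_zero] at ha; exact zero_ne_one ha
  have e : Y ^ p - Y * a ^ (p - 1) = a ^ p * ((Y / a) ^ p - Y / a) := by
    have : a ^ p = a ^ (p - 1) * a := by
      rw [← pow_succ]; congr 1; omega
    rw [div_pow, mul_sub, mul_div_cancel₀ _ (pow_ne_zero _ ha0), this]
    field_simp
  rw [e, pow_sub_self_eq_prod p (Y / a), norm_mul, norm_pow, ha, one_pow, one_mul, norm_prod]
  refine Finset.prod_eq_one fun c _ => ?_
  have e2 : Y / a - ZMod.castHom (dvd_refl p) C c =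
      (Y - ZMod.castHom (dvd_refl p) C c * a) / a := by
    field_simp
  rw [e2, norm_div, ha, h c, div_one]

omit [IsUltrametricDist C] in
theorem natCast_pow_char (n : ℕ) : ((n : C)) ^ p = n := by
  rw [← frobenius_def]
  exact map_natCast _ n

/-- Induction on the finite index set. -/
theorem moore_aux {J : Type*} [DecidableEq J] (s : Finset J) :
    ∀ ρ v : J → C, (∀ i ∈ s, ‖ρ i‖ ≤ 1) →
      (∀ a : J → ℕ, (∀ i ∈ s, a i < p) → (∃ i ∈ s, a i ≠ 0) →
        ‖∑ i ∈ s, (a i : C) * ρ i‖ = 1) →
      Tendsto (fun t : ℕ => ∑ i ∈ s, v i * ρ i ^ (p ^ t)) atTop (𝓝 0) →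
      ∀ i ∈ s, v i = 0 := by
  induction s using Finset.induction_on with
  | empty => intro _ _ _ _ _ i hi; simp at hi
  | insert i0 s hi0 IH =>
    intro ρ v hρ hind hlim
    have hp : 1 ≤ p := (Fact.out : p.Prime).one_lt.le
    have hp1 : 1 < p := (Fact.out : p.Prime).one_lt
    -- the norm of the new element
    have hnorm0 : ‖ρ i0‖ = 1 := by
      have := hind (fun i => if i = i0 then 1 else 0)
        (fun i _ => by by_cases h : i = i0 <;> simp only [h, if_true, if_false] <;> omega)
        ⟨i0, Finset.mem_insert_self _ _, by simp⟩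
      rw [Finset.sum_insert hi0] at this
      have h0 : ∑ i ∈ s, (((if i = i0 then 1 else 0 : ℕ)) : C) * ρ i = 0 := by
        refine Finset.sum_eq_zero fun i hi => ?_
        have : i ≠ i0 := fun h => hi0 (h ▸ hi)
        simp [this]
      rw [h0] at this
      simpa using this
    have hρ0 : ‖ρ i0‖ ≤ 1 := hnorm0.le
    -- the new family
    let ρ' : J → C := fun i => ρ i ^ p - ρ i * ρ i0 ^ (p - 1)
    have h1 : ∀ i ∈ s, ‖ρ' i‖ ≤ 1 := by
      intro i hi
      have hi1 : ‖ρ i‖ ≤ 1 := hρ i (Finset.mem_insert_of_mem hi)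
      simp only [ρ']
      rw [sub_eq_add_neg]
      refine (IsUltrametricDist.norm_add_le_max _ _).trans (max_le ?_ ?_)
      · rw [norm_pow]; exact pow_le_one₀ (norm_nonneg _) hi1
      · rw [norm_neg, norm_mul, norm_pow, hnorm0, one_pow, mul_one]; exact hi1
    have h2 : ∀ a : J → ℕ, (∀ i ∈ s, a i < p) → (∃ i ∈ s, a i ≠ 0) →
        ‖∑ i ∈ s, (a i : C) * ρ' i‖ = 1 := by
      intro a ha hne
      set Y : C := ∑ i ∈ s, (a i : C) * ρ i with hY
      have e : ∑ i ∈ s, (a i : C) * ρ' i = Y ^ p - Y * ρ i0 ^ (p - 1) := by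
        rw [hY, sum_pow_char, Finset.sum_mul, ← Finset.sum_sub_distrib]
        refine Finset.sum_congr rfl fun i _ => ?_
        rw [mul_pow, natCast_pow_char]
        simp only [ρ']
        ring
      rw [e]
      refine norm_frob p Y (ρ i0) hnorm0 fun c => ?_
      have := hind (Function.update a i0 ((-c).val)) (fun i hi => ?_) ?_
      · rw [Finset.sum_insert hi0, Function.update_self] at this
        have h3 : ∑ i ∈ s, ((Function.update a i0 ((-c).val) i : ℕ) : C) * ρ i = Y := by
          refine Finset.sum_congr rfl fun i hi => ?_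
          have : i ≠ i0 := fun h => hi0 (h ▸ hi)
          rw [Function.update_of_ne this]
        rw [h3] at this
        have h4 : (((-c).val : ℕ) : C) = - ZMod.castHom (dvd_refl p) C c := by
          rw [ZMod.natCast_val, ← map_neg]; rfl
        rw [h4] at this
        rw [← this]
        congr 1
        ring
      · rcases Finset.mem_insert.1 hi with h | h
        · subst h
          rw [Function.update_self]
          exact ZMod.val_lt _
        · have : i ≠ i0 := fun h' => hi0 (h' ▸ h)
          rw [Function.update_of_ne this]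
          exact ha i h
      · obtain ⟨i, hi, hai⟩ := hne
        refine ⟨i, Finset.mem_insert_of_mem hi, ?_⟩
        have : i ≠ i0 := fun h' => hi0 (h' ▸ hi)
        rw [Function.update_of_ne this]
        exact hai
    -- the limit
    have h3 : Tendsto (fun t : ℕ => ∑ i ∈ s, v i * ρ' i ^ (p ^ t)) atTop (𝓝 0) := by
      set S : ℕ → C := fun t => ∑ i ∈ insert i0 s, v i * ρ i ^ (p ^ t) with hS
      have e : ∀ t, ∑ i ∈ s, v i * ρ' i ^ (p ^ t) =
          S (t + 1) - ρ i0 ^ (p ^ t * (p - 1)) * S t := by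
        intro t
        simp only [hS, ρ']
        rw [Finset.sum_insert hi0, Finset.sum_insert hi0, mul_add, Finset.mul_sum]
        have e1 : p ^ (t + 1) = p ^ t * (p - 1) + p ^ t := by
          calc p ^ (t + 1) = p ^ t * ((p - 1) + 1) := by rw [Nat.sub_add_cancel hp, pow_succ]
            _ = _ := by ring
        have e2 : ρ i0 ^ (p ^ t * (p - 1)) * (v i0 * ρ i0 ^ p ^ t) = v i0 * ρ i0 ^ p ^ (t + 1) := by
          rw [e1, pow_add]; ring
        rw [e2]
        have e3 : ∀ i ∈ s, v i * (ρ i ^ p - ρ i * ρ i0 ^ (p - 1)) ^ p ^ t =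
            v i * ρ i ^ p ^ (t + 1) - ρ i0 ^ (p ^ t * (p - 1)) * (v i * ρ i ^ p ^ t) := by
          intro i _
          rw [sub_pow_char_pow, mul_pow, ← pow_mul, ← pow_mul, ← pow_succ', mul_comm (p - 1) (p ^ t)]
          ring
        rw [Finset.sum_congr rfl e3, Finset.sum_sub_distrib]
        ring
      simp_rw [e]
      have hS1 : Tendsto (fun t => S (t + 1)) atTop (𝓝 0) := hlim.comp (tendsto_add_atTop_nat 1)
      have hS2 : Tendsto (fun t => ρ i0 ^ (p ^ t * (p - 1)) * S t) atTop (𝓝 0) := by
        refine squeeze_zero_norm (a := fun t => ‖S t‖) (fun t => ?_) ?_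
        · rw [norm_mul, norm_pow, hnorm0, one_pow, one_mul]
        · simpa using hlim.norm
      simpa using hS1.sub hS2
    have hs := IH ρ' v h1 h2 h3
    -- the new coefficient
    have hv0 : v i0 = 0 := by
      have hl := hlim.norm
      have e : ∀ t : ℕ, ‖∑ i ∈ insert i0 s, v i * ρ i ^ (p ^ t)‖ = ‖v i0‖ := by
        intro t
        rw [Finset.sum_insert hi0, Finset.sum_eq_zero (fun i hi => by rw [hs i hi, zero_mul]),
          add_zero, norm_mul, norm_pow, hnorm0, one_pow, mul_one]
      simp_rw [e] at hl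
      rw [norm_zero] at hl
      exact norm_eq_zero.1 (tendsto_nhds_unique tendsto_const_nhds hl)
    intro i hi
    rcases Finset.mem_insert.1 hi with h | h
    · rw [h]; exact hv0
    · exact hs i h

/-- Moore determinant lemma in the residue field, in analytic form.  `ρ i` lie in the closed unit ball
and are `𝔽_p`-independent modulo the open unit ball: every combination with coefficients
`0 ≤ a i < p`, not all zero, has norm `1`.  If `∑ v i * ρ i ^ (p ^ t) → 0` as `t → ∞` then all `v i = 0`. -/
theorem moore_vanish {J : Type*} [Fintype J] (ρ v : J → C) (hρ : ∀ i, ‖ρ i‖ ≤ 1)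
    (hind : ∀ a : J → ℕ, (∀ i, a i < p) → (∃ i, a i ≠ 0) → ‖∑ i, (a i : C) * ρ i‖ = 1)
    (hlim : Tendsto (fun t : ℕ => ∑ i, v i * ρ i ^ (p ^ t)) atTop (𝓝 0)) :
    ∀ i, v i = 0 := by
  classical
  intro i
  refine moore_aux p Finset.univ ρ v (fun i _ => hρ i) (fun a ha hne => ?_) hlim i (Finset.mem_univ i)
  obtain ⟨j, _, hj⟩ := hne
  exact hind a (fun i => ha i (Finset.mem_univ i)) ⟨j, hj⟩

end Moore

end Vale.Agent.Lib.P217
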