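import Vale.Agent.Lib.P217.Ev

set_option linter.unusedSectionVars false
set_option linter.unusedVariables false

namespace Vale.Agent.Lib.P217

open scoped Topology
open Filter

variable {C : Type*} [NormedField C] [IsUltrametricDist C] [CompleteSpace C]
variable {k : Type*} [Field k]

/-- The point `x ^ (p ^ e)` of the polydisc, coordinatewise. -/
def frobPoint (p : ℕ) {N : ℕ} (x : Fin N → OC C) (e : Fin N → ℕ) : Fin N → OC C :=
  fun i => x i ^ (p ^ e i)

section Slices

variable {N : ℕ}

/-- The part of `b` with exponent of `X_j` congruent to `s` modulo `p`, divided by `X_j ^ s`. -/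
noncomputable def secS (p : ℕ) (j : Fin N) (s : ℕ) (b : MvPowerSeries (Fin N) k) :
    MvPowerSeries (Fin N) k :=
  fun d => if p ∣ d j then MvPowerSeries.coeff (d + Finsupp.single j s) b else 0

/-- The part of `b` with exponent of `X_j` less than `m` modulo `p`. -/
noncomputable def partS (p : ℕ) (j : Fin N) (m : ℕ) (b : MvPowerSeries (Fin N) k) :
    MvPowerSeries (Fin N) k :=
  fun d => if d j % p < m then MvPowerSeries.coeff d b else 0

lemma coeff_secS (p : ℕ) (j : Fin N) (s : ℕ) (b : MvPowerSeries (Fin N) k) (d : Fin N →₀ ℕ) :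
    MvPowerSeries.coeff d (secS p j s b) =
      if p ∣ d j then MvPowerSeries.coeff (d + Finsupp.single j s) b else 0 := rfl

lemma coeff_partS (p : ℕ) (j : Fin N) (m : ℕ) (b : MvPowerSeries (Fin N) k) (d : Fin N →₀ ℕ) :
    MvPowerSeries.coeff d (partS p j m b) =
      if d j % p < m then MvPowerSeries.coeff d b else 0 := rfl

lemma partS_zero (p : ℕ) (j : Fin N) (b : MvPowerSeries (Fin N) k) : partS p j 0 b = 0 := by
  ext d
  simp [coeff_partS]

lemma partS_top {p : ℕ} (hp : 0 < p) (j : Fin N) (b : MvPowerSeries (Fin N) k) :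
    partS p j p b = b := by
  ext d
  simp [coeff_partS, Nat.mod_lt _ hp]

/-- Coefficients of iterated partial derivatives. -/
lemma coeff_iter_pderiv (j : Fin N) (m : ℕ) (f : MvPowerSeries (Fin N) k) (d : Fin N →₀ ℕ) :
    MvPowerSeries.coeff d ((MvPowerSeries.pderiv k j)^[m] f) =
      MvPowerSeries.coeff (d + Finsupp.single j m) f * (((d j + m).descFactorial m : ℕ) : k) := by
  induction m generalizing d with
  | zero => simp
  | succ m ih =>
      rw [Function.iterate_succ_apply', MvPowerSeries.coeff_pderiv, ih]
      have h1 : d + Finsupp.single j 1 + Finsupp.single j m = d + Finsupp.single j (m + 1) := by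
        rw [add_assoc, ← Finsupp.single_add, add_comm 1 m]
      have h2 : (d + Finsupp.single j 1 : Fin N →₀ ℕ) j = d j + 1 := by simp
      rw [h1, h2]
      have h3 : (d j + (m + 1)).descFactorial (m + 1) =
          (d j + 1) * (d j + 1 + m).descFactorial m := by
        rw [show d j + (m + 1) = d j + 1 + m by omega, Nat.descFactorial_succ]
        congr 1
        omega
      rw [h3]
      push_cast
      ring

lemma cast_descFactorial_of_dvd {p : ℕ} [CharP k p] {n : ℕ} (hn : p ∣ n) (m : ℕ) :
    (((n + m).descFactorial m : ℕ) : k) = ((m.factorial : ℕ) : k) := by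
  have h0 : (n : k) = 0 := (CharP.cast_eq_zero_iff k p n).2 hn
  induction m with
  | zero => simp
  | succ m ih =>
      rw [show n + (m + 1) = (n + m) + 1 by omega, Nat.succ_descFactorial_succ, Nat.factorial_succ]
      push_cast
      rw [ih, h0]
      ring

lemma dvd_descFactorial {p n i : ℕ} (hi : 1 ≤ i) (hn : p ∣ n + i) (m : ℕ) (hm : i ≤ m) :
    p ∣ (n + m).descFactorial m := by
  induction m with
  | zero => omega
  | succ m ih =>
      rw [show n + (m + 1) = (n + m) + 1 by omega, Nat.succ_descFactorial_succ]
      by_cases h : i ≤ m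
      · exact (ih h).mul_left _
      · have : i = m + 1 := by omega
        subst this
        exact Dvd.dvd.mul_right (by simpa [add_assoc] using hn) _

/-- The top derivative of a partial sum is a multiple of the top section. -/
lemma iter_pderiv_partS {p : ℕ} [Fact p.Prime] [CharP k p] (j : Fin N) {m : ℕ} (hm : m < p)
    (b : MvPowerSeries (Fin N) k) :
    (MvPowerSeries.pderiv k j)^[m] (partS p j (m + 1) b) =
      MvPowerSeries.C ((m.factorial : ℕ) : k) * secS p j m b := by
  have hp : 0 < p := (Fact.out : p.Prime).pos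
  ext d
  rw [coeff_iter_pderiv, MvPowerSeries.coeff_C_mul, coeff_secS, coeff_partS]
  have hdj : (d + Finsupp.single j m) j = d j + m := by simp
  rw [hdj]
  by_cases hd : p ∣ d j
  · have h1 : (d j + m) % p = m := by
      rw [Nat.add_mod, Nat.mod_eq_zero_of_dvd hd, zero_add, Nat.mod_mod, Nat.mod_eq_of_lt hm]
    rw [if_pos hd, h1, if_pos (Nat.lt_succ_self m), cast_descFactorial_of_dvd (p := p) hd]
    ring
  · rw [if_neg hd, mul_zero]
    split_ifs with h
    · -- the product contains a multiple of `p`
      set r := d j % p with hr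
      have hr0 : r ≠ 0 := fun h0 => hd (Nat.dvd_of_mod_eq_zero h0)
      have hrp : r < p := Nat.mod_lt _ hp
      have hle : p ≤ r + m := by
        by_contra hlt
        have h2 : (d j + m) % p = r + m := by
          rw [Nat.add_mod, Nat.mod_eq_of_lt hm, ← hr, Nat.mod_eq_of_lt (by omega)]
        omega
      have hdvd : p ∣ d j + (p - r) := by
        have : d j = p * (d j / p) + r := (Nat.div_add_mod _ _).symm
        refine ⟨d j / p + 1, ?_⟩
        rw [mul_add, mul_one]
        omega
      have h3 := dvd_descFactorial (n := d j) (i := p - r) (by omega) hdvd m (by omega)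
      rw [(CharP.cast_eq_zero_iff k p _).2 h3, mul_zero]
    · rw [zero_mul]

/-- Decomposition of a partial sum. -/
lemma partS_succ {p : ℕ} (hp : 0 < p) (j : Fin N) {m : ℕ} (hm : m < p)
    (b : MvPowerSeries (Fin N) k) :
    partS p j (m + 1) b = partS p j m b + MvPowerSeries.X j ^ m * secS p j m b := by
  ext d
  rw [map_add, coeff_partS, coeff_partS, MvPowerSeries.X_pow_eq, MvPowerSeries.coeff_monomial_mul]
  by_cases hle : Finsupp.single j m ≤ d
  · have hmd : m ≤ d j := by simpa using hle j
    rw [if_pos hle, coeff_secS, one_mul, tsub_add_cancel_of_le hle]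
    have hsub : (d - Finsupp.single j m) j = d j - m := by simp
    rw [hsub]
    by_cases hc : d j % p = m
    · have hdvd : p ∣ d j - m := by
        refine (Nat.modEq_iff_dvd' hmd).1 ?_
        show m % p = d j % p
        rw [hc, Nat.mod_eq_of_lt hm]
      rw [if_pos (by omega), if_neg (by omega), if_pos hdvd, zero_add]
    · have hndvd : ¬ p ∣ d j - m := by
        intro hdvd
        apply hc
        have := (Nat.modEq_iff_dvd' hmd).2 hdvd
        have h2 : m % p = d j % p := this
        rw [← h2, Nat.mod_eq_of_lt hm]
      rw [if_neg hndvd, add_zero]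
      by_cases hlt : d j % p < m
      · rw [if_pos (by omega), if_pos hlt]
      · rw [if_neg (by omega), if_neg hlt]
  · rw [if_neg hle, add_zero]
    have hmd : ¬ m ≤ d j := by
      intro h
      apply hle
      intro i
      by_cases hi : i = j
      · subst hi
        simpa using h
      · simp [Ne.symm hi]
    have h1 : d j % p = d j := Nat.mod_eq_of_lt (by omega)
    rw [h1, if_pos (by omega), if_pos (by omega)]

/-- Kernels stable by the derivative contain the sections. -/
lemma Ev_secS_eq_zero {p : ℕ} [Fact p.Prime] [CharP k p] (κ : k →+* OC C) (y : Fin N → OC C)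
    (hy : ∀ i, ‖(y i : C)‖ < 1) (j : Fin N)
    (hst : ∀ a : MvPowerSeries (Fin N) k, Ev κ y a = 0 →
      Ev κ y (MvPowerSeries.pderiv k j a) = 0)
    (b : MvPowerSeries (Fin N) k) (hb : Ev κ y b = 0) :
    ∀ s, s < p → Ev κ y (secS p j s b) = 0 := by
  have hp : 0 < p := (Fact.out : p.Prime).pos
  have hit : ∀ m a, Ev κ y a = 0 → Ev κ y ((MvPowerSeries.pderiv k j)^[m] a) = 0 := by
    intro m a ha
    induction m with
    | zero => simpa using ha
    | succ m ih =>
        rw [Function.iterate_succ_apply']
        exact hst _ ih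
  -- descending induction
  have key : ∀ t, t ≤ p → Ev κ y (partS p j (p - t) b) = 0 ∧
      ∀ s, p - t ≤ s → s < p → Ev κ y (secS p j s b) = 0 := by
    intro t
    induction t with
    | zero =>
        intro _
        refine ⟨by simpa [partS_top hp] using hb, fun s h1 h2 => by omega⟩
    | succ t ih =>
        intro ht
        obtain ⟨h1, h2⟩ := ih (by omega)
        set m := p - (t + 1) with hm
        have hm1 : p - t = m + 1 := by omega
        have hmp : m < p := by omega
        rw [hm1] at h1
        have h3 := hit m _ h1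
        rw [iter_pderiv_partS j hmp, Ev_mul κ y hy, Ev_C] at h3
        have h4 : κ ((m.factorial : ℕ) : k) ≠ 0 := by
          intro h0
          have h5 : ((m.factorial : ℕ) : k) = 0 := by
            exact κ.injective (by simpa using h0)
          rw [CharP.cast_eq_zero_iff k p] at h5
          have := (Nat.Prime.dvd_factorial (Fact.out : p.Prime)).1 h5
          omega
        have h6 : Ev κ y (secS p j m b) = 0 := by
          rcases mul_eq_zero.1 h3 with h | h
          · exact absurd h h4
          · exact h
        refine ⟨?_, fun s hs hs2 => ?_⟩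
        · rw [partS_succ hp j hmp, Ev_add κ y hy, Ev_mul κ y hy, h6, mul_zero, add_zero] at h1
          exact h1
        · by_cases hsm : s = m
          · rw [hsm]; exact h6
          · exact h2 s (by omega) hs2
  intro s hs
  exact (key p le_rfl).2 s (by omega) hs

/-- The slice of `a` along the exponents `r + p ^ e * ν`. -/
noncomputable def sliceS (p : ℕ) (e r : Fin N → ℕ) (a : MvPowerSeries (Fin N) k) :
    MvPowerSeries (Fin N) k :=
  fun ν => MvPowerSeries.coeff (Finsupp.equivFunOnFinite.symm fun i => r i + p ^ e i * ν i) a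

lemma coeff_sliceS (p : ℕ) (e r : Fin N → ℕ) (a : MvPowerSeries (Fin N) k) (ν : Fin N →₀ ℕ) :
    MvPowerSeries.coeff ν (sliceS p e r a) =
      MvPowerSeries.coeff (Finsupp.equivFunOnFinite.symm fun i => r i + p ^ e i * ν i) a := rfl

/-- Multiplying the exponent of `X_j` by `p`. -/
noncomputable def frobExp (p : ℕ) (j : Fin N) (ν : Fin N →₀ ℕ) : Fin N →₀ ℕ :=
  Finsupp.equivFunOnFinite.symm fun i => if i = j then p * ν i else ν i

lemma frobExp_apply (p : ℕ) (j : Fin N) (ν : Fin N →₀ ℕ) (i : Fin N) :
    frobExp p j ν i = if i = j then p * ν i else ν i := rfl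

lemma frobExp_injective {p : ℕ} (hp : 0 < p) (j : Fin N) : Function.Injective (frobExp p j) := by
  intro ν ν' h
  ext i
  have := DFunLike.congr_fun h i
  rw [frobExp_apply, frobExp_apply] at this
  by_cases hi : i = j
  · rw [if_pos hi, if_pos hi] at this
    exact Nat.eq_of_mul_eq_mul_left hp this
  · rwa [if_neg hi, if_neg hi] at this

/-- Evaluation of a section in terms of the Frobenius twisted point. -/
lemma Ev_secS_eq {p : ℕ} (hp : 0 < p) (κ : k →+* OC C) (y : Fin N → OC C)
    (hy : ∀ i, ‖(y i : C)‖ < 1) (j : Fin N) (s : ℕ) (b : MvPowerSeries (Fin N) k)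
    (y' : Fin N → OC C) (hy' : ∀ i, ‖(y' i : C)‖ < 1)
    (hyy : ∀ i, y' i = if i = j then y i ^ p else y i) (f : MvPowerSeries (Fin N) k)
    (hf : ∀ ν, MvPowerSeries.coeff ν f =
      MvPowerSeries.coeff (frobExp p j ν + Finsupp.single j s) b) :
    Ev κ y (secS p j s b) = Ev κ y' f := by
  have h1 := hasSum_Ev κ y hy (secS p j s b)
  have h2 := hasSum_Ev κ y' hy' f
  have hinj := frobExp_injective (N := N) hp j
  have hvan : ∀ d, d ∉ Set.range (frobExp p j) →
      κ (MvPowerSeries.coeff d (secS p j s b)) * (d.prod fun i e => y i ^ e) = 0 := by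
    intro d hd
    have : ¬ p ∣ d j := by
      rintro ⟨c, hc⟩
      apply hd
      refine ⟨Finsupp.equivFunOnFinite.symm fun i => if i = j then c else d i, ?_⟩
      ext i
      rw [frobExp_apply]
      by_cases hi : i = j
      · subst hi
        simp [hc]
      · simp [hi]
    rw [coeff_secS, if_neg this, map_zero, zero_mul]
  have h3 := (hinj.hasSum_iff hvan).2 h1
  refine h3.unique ?_
  convert h2 using 2 with ν
  simp only [Function.comp]
  rw [coeff_secS, if_pos, ← hf]
  · congr 1
    rw [Finsupp.prod_fintype _ _ (by simp), Finsupp.prod_fintype _ _ (by simp)]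
    refine Finset.prod_congr rfl fun i _ => ?_
    rw [frobExp_apply, hyy]
    by_cases hi : i = j
    · rw [if_pos hi, if_pos hi, pow_mul]
    · rw [if_neg hi, if_neg hi]
  · rw [frobExp_apply, if_pos rfl]
    exact dvd_mul_right _ _

/-- Elements in the kernel of evaluation have zero constant term. -/
lemma coeff_zero_of_Ev_eq_zero (κ : k →+* OC C) (y : Fin N → OC C)
    (hy : ∀ i, ‖(y i : C)‖ < 1) (b : MvPowerSeries (Fin N) k) (hb : Ev κ y b = 0) :
    MvPowerSeries.constantCoeff b = 0 := by
  by_contra h
  have hu : IsUnit b := MvPowerSeries.isUnit_iff_constantCoeff.2 (Ne.isUnit h)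
  have h2 := hu.map (EvHom κ y hy)
  rw [EvHom_apply, hb] at h2
  exact not_isUnit_zero h2

end Slices

/-- Frobenius descent.  Let `w i ∈ (0, 1)`.  Suppose that for every exponent vector `e` and for every coordinate `j` at
which `w i ^ (p ^ e i)` is maximal, the kernel of evaluation at the point `x ^ (p ^ e)` is stable
under `∂/∂X_j`.  Then evaluation at `x` is injective on `k⟦X_1,…,X_N⟧`.

Proof: write `a = ∑_{r < p} X_j^r f_r(X_j^p)` (slices). If `∂_j` preserves the kernel `P_e` at `x^(p^e)` and `a ∈ P_e`, by
descending induction on `r` (apply `∂_j^r` to the partial sum, `r!` is invertible) each `X_j^r f_r(X_j^p) ∈ P_e`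
hence `f_r(X_j^p) ∈ P_e` (`x` need not be nonzero: apply the derivative as said, getting `f_r(X_j^p) ∈ P_e`
directly), i.e. `f_r ∈ P_{e + δ_j}`.  Iterating: claim `S(e)`: for `a ∈ P_0` and all `r⃗` with `r i < p ^ e i`, the slice
`∑_ν a_{r⃗ + p^e ν} X^ν` lies in `P_e`.  `S(e)` implies `S(e + δ_j)` for a top coordinate `j`.  The constant term
of a slice is then zero since elements of `P_e` have zero constant term (the point is in the open
ball and `k` is a field with `κ` injective on it), i.e. `a_{r⃗} = 0`.  Finally all coordinates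
`e i` can be raised above any bound: with the potential `∑ (E i - e i)` where `E i` is least with
`w i ^ (p ^ E i) ≤ B`, `B = max_i w i ^ (p ^ E)`: if some `e i < E i` then a top coordinate `j` has `e j < E j`. -/
theorem Ev_injective_of_descent (p : ℕ) [Fact p.Prime] [CharP k p] {N : ℕ} (κ : k →+* OC C)
    (x : Fin N → OC C) (hx : ∀ i, ‖(x i : C)‖ < 1) (w : Fin N → ℝ) (hw0 : ∀ i, 0 < w i) (hw1 : ∀ i, w i < 1)
    (hstep : ∀ (e : Fin N → ℕ) (j : Fin N), (∀ i, w i ^ (p ^ e i) ≤ w j ^ (p ^ e j)) →
      ∀ a : MvPowerSeries (Fin N) k, Ev κ (frobPoint p x e) a = 0 →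
        Ev κ (frobPoint p x e) (MvPowerSeries.pderiv k j a) = 0)
    (a : MvPowerSeries (Fin N) k) (ha : Ev κ x a = 0) : a = 0 := by
  have hpp : p.Prime := Fact.out
  have hp : 0 < p := hpp.pos
  have hp1 : 1 < p := hpp.one_lt
  -- points stay in the open ball
  have hfb : ∀ (e : Fin N → ℕ) i, ‖(frobPoint p x e i : C)‖ < 1 := by
    intro e i
    have h0 : ((frobPoint p x e i : OC C) : C) = (x i : C) ^ (p ^ e i) := by
      simp [frobPoint]
    rw [h0, norm_pow]
    exact pow_lt_one₀ (norm_nonneg _) (hx i) (pow_ne_zero _ hp.ne')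
  -- the invariant
  let S : (Fin N → ℕ) → Prop := fun e =>
    ∀ r : Fin N → ℕ, (∀ i, r i < p ^ e i) → Ev κ (frobPoint p x e) (sliceS p e r a) = 0
  have hS0 : S (fun _ => 0) := by
    intro r hr
    have hr0 : ∀ i, r i = 0 := fun i => by
      have := hr i
      simpa using this
    have h1 : sliceS p (fun _ => 0) r a = a := by
      ext ν
      rw [coeff_sliceS]
      congr 1
      ext i
      simp [hr0]
    have h2 : frobPoint p x (fun _ => 0) = x := by
      funext i
      simp [frobPoint]
    rw [h1, h2]
    exact ha
  -- the step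
  have hSstep : ∀ (e : Fin N → ℕ) (j : Fin N), (∀ i, w i ^ (p ^ e i) ≤ w j ^ (p ^ e j)) → S e →
      S (Function.update e j (e j + 1)) := by
    intro e j htop hSe r' hr'
    set e' := Function.update e j (e j + 1) with he'
    have he'j : e' j = e j + 1 := by simp [he']
    have he'i : ∀ i, i ≠ j → e' i = e i := fun i hi => by simp [he', hi]
    have hq : 0 < p ^ e j := pow_pos hp _
    let r : Fin N → ℕ := Function.update r' j (r' j % p ^ e j)
    have hrj : r j = r' j % p ^ e j := by simp [r]
    have hri : ∀ i, i ≠ j → r i = r' i := fun i hi => by simp [r, hi]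
    have hrlt : ∀ i, r i < p ^ e i := by
      intro i
      by_cases hi : i = j
      · subst hi
        rw [hrj]
        exact Nat.mod_lt _ hq
      · rw [hri i hi, ← he'i i hi]
        exact hr' i
    set s := r' j / p ^ e j with hs
    have hslt : s < p := by
      rw [hs]
      refine Nat.div_lt_of_lt_mul ?_
      have := hr' j
      rw [he'j, pow_succ] at this
      exact this
    have hb := hSe r hrlt
    have hsec := Ev_secS_eq_zero (p := p) κ (frobPoint p x e) (hfb e) j (hstep e j htop)
      (sliceS p e r a) hb s hslt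
    have hyy : ∀ i, frobPoint p x e' i = if i = j then frobPoint p x e i ^ p else frobPoint p x e i := by
      intro i
      by_cases hi : i = j
      · subst hi
        rw [if_pos rfl]
        simp only [frobPoint, he'j, pow_succ, pow_mul]
      · rw [if_neg hi]
        simp only [frobPoint, he'i i hi]
    have heq := Ev_secS_eq hp κ (frobPoint p x e) (hfb e) j s (sliceS p e r a)
      (frobPoint p x e') (hfb e') hyy (sliceS p e' r' a) (by
        intro ν
        rw [coeff_sliceS, coeff_sliceS]
        refine congrArg (fun D => MvPowerSeries.coeff D a) ?_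
        ext i
        simp only [Finsupp.equivFunOnFinite_symm_apply_apply, Finsupp.add_apply, frobExp_apply,
          Finsupp.single_apply]
        by_cases hi : i = j
        · subst hi
          simp only [if_true, he'j, hrj]
          have h1 : r' i = r' i % p ^ e i + p ^ e i * s := by
            rw [hs]
            exact (Nat.mod_add_div _ _).symm
          rw [pow_succ]
          conv_lhs => rw [h1]
          ring
        · have hji : ¬ j = i := fun h => hi h.symm
          simp only [hi, hji, if_false, add_zero, hri i hi, he'i i hi])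
    rw [← heq]
    exact hsec
  -- termination
  have hmono : ∀ (t : ℝ), 0 < t → t < 1 → ∀ {u v : ℕ}, u ≤ v → t ^ v ≤ t ^ u := by
    intro t ht0 ht1 u v huv
    exact pow_le_pow_of_le_one ht0.le ht1.le huv
  have hreach : ∀ (B : ℝ), 0 < B → ∃ e, S e ∧ ∀ i, w i ^ (p ^ e i) < B := by
    intro B hB
    -- bounds
    have hE : ∀ i, ∃ E : ℕ, w i ^ (p ^ E) < B := by
      intro i
      have hlim : Tendsto (fun n : ℕ => w i ^ n) atTop (𝓝 0) :=
        tendsto_pow_atTop_nhds_zero_of_lt_one (hw0 i).le (hw1 i)
      obtain ⟨n₀, hn₀⟩ := (hlim.eventually (gt_mem_nhds hB)).exists_forall_of_atTop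
      refine ⟨n₀, hn₀ _ ?_⟩
      exact (Nat.lt_pow_self hp1).le
    choose E hE using hE
    -- induction on the potential
    have hind : ∀ (n : ℕ) (e : Fin N → ℕ), S e → (∀ i, e i ≤ E i) →
        ∑ i, (E i - e i) = n → ∃ e', S e' ∧ ∀ i, w i ^ (p ^ e' i) < B := by
      intro n
      induction n using Nat.strong_induction_on with
      | _ n ih =>
        intro e hSe hle hsum
        by_cases hall : ∀ i, w i ^ (p ^ e i) < B
        · exact ⟨e, hSe, hall⟩
        · push Not at hall
          obtain ⟨i₀, hi₀⟩ := hall
          obtain ⟨j, -, hj⟩ := Finset.exists_max_image Finset.univ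
            (fun i => w i ^ (p ^ e i)) ⟨i₀, Finset.mem_univ _⟩
          have htop : ∀ i, w i ^ (p ^ e i) ≤ w j ^ (p ^ e j) := fun i => hj i (Finset.mem_univ _)
          have hBj : B ≤ w j ^ (p ^ e j) := hi₀.trans (htop i₀)
          have hlt : e j < E j := by
            by_contra hcon
            have h1 : E j ≤ e j := by omega
            have h2 : w j ^ (p ^ e j) ≤ w j ^ (p ^ E j) :=
              hmono _ (hw0 j) (hw1 j) (Nat.pow_le_pow_right hp h1)
            have := hE j
            linarith
          refine ih (∑ i, (E i - Function.update e j (e j + 1) i)) ?_ _ (hSstep e j htop hSe)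
            ?_ rfl
          · rw [← hsum]
            refine Finset.sum_lt_sum (fun i _ => ?_) ⟨j, Finset.mem_univ _, ?_⟩
            · by_cases hi : i = j
              · subst hi
                simp only [Function.update_self]
                omega
              · simp [Function.update_of_ne hi]
            · simp only [Function.update_self]
              omega
          · intro i
            by_cases hi : i = j
            · subst hi
              simp only [Function.update_self]
              omega
            · simp only [Function.update_of_ne hi]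
              exact hle i
    exact hind _ (fun _ => 0) hS0 (fun i => Nat.zero_le _) rfl
  -- conclusion
  ext d
  -- a bound above all exponents of `d`
  set M := Finset.univ.sup (fun i => d i) with hM
  have hdM : ∀ i, d i < p ^ M := by
    intro i
    calc d i ≤ M := Finset.le_sup (f := fun i => d i) (Finset.mem_univ i)
      _ < p ^ M := Nat.lt_pow_self hp1
  -- a value below all `w i ^ (p ^ M)`
  have hBex : ∃ B : ℝ, 0 < B ∧ ∀ i, B ≤ w i ^ (p ^ M) := by
    by_cases hN : Nonempty (Fin N)
    · obtain ⟨i₀, -, hi₀⟩ := Finset.exists_min_image Finset.univ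
        (fun i => w i ^ (p ^ M)) ⟨hN.some, Finset.mem_univ _⟩
      exact ⟨w i₀ ^ (p ^ M), pow_pos (hw0 _) _, fun i => hi₀ i (Finset.mem_univ _)⟩
    · exact ⟨1, one_pos, fun i => (hN ⟨i⟩).elim⟩
  obtain ⟨B, hB0, hB⟩ := hBex
  obtain ⟨e, hSe, he⟩ := hreach B hB0
  have hde : ∀ i, d i < p ^ e i := by
    intro i
    have h1 : M ≤ e i := by
      by_contra hcon
      have h2 : w i ^ (p ^ M) ≤ w i ^ (p ^ e i) :=
        hmono _ (hw0 i) (hw1 i) (Nat.pow_le_pow_right hp (by omega))
      have := hB i
      have := he i
      linarith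
    exact (hdM i).trans_le (Nat.pow_le_pow_right hp h1)
  have h0 := coeff_zero_of_Ev_eq_zero κ _ (hfb e) _ (hSe (fun i => d i) hde)
  rw [← MvPowerSeries.coeff_zero_eq_constantCoeff_apply, coeff_sliceS] at h0
  have h1 : (Finsupp.equivFunOnFinite.symm fun i => d i + p ^ e i * (0 : Fin N →₀ ℕ) i) = d := by
    ext i
    simp
  rw [h1] at h0
  simpa using h0

end Vale.Agent.Lib.P217
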