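import Vale.Agent.Lib.P217.Taylor
import Vale.Agent.Lib.P217.Slices
import Vale.Agent.Lib.P217.Moore

set_option linter.unusedSectionVars false
set_option linter.unusedVariables false

namespace Vale.Agent.Lib.P217

open scoped Topology
open Filter

variable {C : Type*} [NormedField C] [IsUltrametricDist C] [CompleteSpace C]
variable {k : Type*} [Field k]

/-- The core analytic step.  `x` is a point of the open polydisc and `y t` a sequence of points of the polydisc with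
`y t i - x i = κ' i * ϖ i ^ (p ^ (t + c)) * (1 + o t i)`, `κ' i ≠ 0`, `o t i → 0`, `0 < ‖ϖ i‖ < 1`.
Let `e` be an exponent vector and `a` a power series over `k` vanishing at `x ^ (p ^ e)` and at all `y t ^ (p ^ e)`.
Let `j` be a coordinate at which `‖ϖ i‖ ^ (p ^ e i)` is maximal.  The coordinates of the top set `J` have all equal `e i` and `‖ϖ i‖`, by the hypothesis `hwin`.
Suppose the `ϖ i` with `‖ϖ i‖ = ‖ϖ j‖` are linearly independent modulo the next norm over the prime field (`hind`).  Then `∂_j a` vanishes at `x ^ (p ^ e)`.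

Proof.  In characteristic `p`: `y t i ^ (p ^ e i) = x i ^ (p ^ e i) + Δ t i`, where
`Δ t i = (κ' i) ^ (p ^ e i) * ϖ i ^ (p ^ (t + c + e i)) * (1 + o t i ^ (p ^ e i))`.
By `norm_Ev_taylor_le`, `‖∑ i, v i Δ t i‖ ≤ D_t ^ 2`, `D_t = max ‖Δ t i‖`, `v i = (∂_i a)(x ^ (p ^ e))`.  Divide by `Π_t = ϖ j ^ (p ^ (t + c + e j))`.  For `i ∉ J`,
`‖Δ t i / Π_t‖ → 0`, as it is a constant times `(‖ϖ i‖ ^ (p ^ e i) / ‖ϖ j‖ ^ (p ^ e j)) ^ (p ^ (t + c))` for large `t`.  Also `D_t ^ 2 / ‖Π_t‖ → 0`.  For `i ∈ J`, `Δ t i / Π_t = (κ' i) ^ (p ^ e j) * ρ i ^ (p ^ (t + c + e j)) * (1 + o(1))`,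
where `ρ i = ϖ i / ϖ j`, and `‖ρ i‖ = 1`. Thus `∑_{i ∈ J} v i (κ' i) ^ (p ^ e j) ρ i ^ (p ^ (t + c + e j)) → 0`. Apply `moore_vanish` to the family `ρ` over `J`
(the limit along `t + c + e j` gives the limit along all naturals by `tendsto_add_atTop_iff_nat`): `hind` gives exactly its independence hypothesis; the coefficient `v j (κ' j)^(p^e j)` is zero so `v j = 0`. -/
theorem core_step {p : ℕ} [Fact p.Prime] [CharP C p] {N : ℕ} (κ : k →+* OC C) (x : Fin N → OC C)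
    (hx : ∀ i, ‖(x i : C)‖ < 1)
    (ϖ κ' : Fin N → C) (hκ' : ∀ i, κ' i ≠ 0) (hϖ0 : ∀ i, ϖ i ≠ 0) (hϖ1 : ∀ i, ‖ϖ i‖ < 1)
    (c : ℕ) (y : ℕ → Fin N → OC C) (hy : ∀ t i, ‖(y t i : C)‖ < 1)
    (o : ℕ → Fin N → C) (ho : ∀ i, Tendsto (fun t => o t i) atTop (𝓝 0))
    (hform : ∀ t i, (y t i : C) - x i = κ' i * ϖ i ^ (p ^ (t + c)) * (1 + o t i))
    (e : Fin N → ℕ) (a : MvPowerSeries (Fin N) k)
    (ha0 : Ev κ (frobPoint p x e) a = 0) (hay : ∀ t, Ev κ (frobPoint p (y t) e) a = 0)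
    (j : Fin N) (htop : ∀ i, ‖ϖ i‖ ^ (p ^ e i) ≤ ‖ϖ j‖ ^ (p ^ e j))
    (hwin : ∀ i, ‖ϖ i‖ ^ (p ^ e i) = ‖ϖ j‖ ^ (p ^ e j) → e i = e j ∧ ‖ϖ i‖ = ‖ϖ j‖)
    (hind : ∀ b : Fin N → ℕ, (∀ i, b i < p) → (∃ i, b i ≠ 0) → (∀ i, b i ≠ 0 → ‖ϖ i‖ = ‖ϖ j‖) →
      ‖∑ i, (b i : C) * ϖ i‖ = ‖ϖ j‖) :
    Ev κ (frobPoint p x e) (MvPowerSeries.pderiv k j a) = 0 := by
  classical
  have hpp : p.Prime := Fact.out
  have hp1 : 1 < p := hpp.one_lt
  have hp0 : 0 < p := hpp.pos
  obtain ⟨X, hXdef⟩ : ∃ X : Fin N → OC C, X = frobPoint p x e := ⟨_, rfl⟩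
  rw [← hXdef] at ha0 ⊢
  obtain ⟨v, hv⟩ : ∃ v : Fin N → C, ∀ i, v i = ((Ev κ X (MvPowerSeries.pderiv k i a) : OC C) : C) :=
    ⟨_, fun _ => rfl⟩
  obtain ⟨T, hT⟩ : ∃ T : ℕ → ℕ, ∀ t, T t = p ^ (t + c) := ⟨_, fun _ => rfl⟩
  obtain ⟨q, hq⟩ : ∃ q : Fin N → ℕ, ∀ i, q i = p ^ e i := ⟨_, fun _ => rfl⟩
  obtain ⟨θ, hθ⟩ : ∃ θ : Fin N → C, ∀ i, θ i = ϖ i ^ q i := ⟨_, fun _ => rfl⟩
  obtain ⟨K, hK⟩ : ∃ K : Fin N → C, ∀ i, K i = κ' i ^ q i := ⟨_, fun _ => rfl⟩
  have hq0 : ∀ i, q i ≠ 0 := fun i => by rw [hq]; exact (pow_pos hp0 _).ne'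
  have hXv : ∀ i, ((X i : OC C) : C) = (x i : C) ^ q i := fun i => by
    rw [hXdef, hq]; rfl
  have hYv : ∀ t i, ((frobPoint p (y t) e i : OC C) : C) = (y t i : C) ^ q i := fun t i => by
    rw [hq]; rfl
  have hX : ∀ i, ‖(X i : C)‖ < 1 := fun i => by
    rw [hXv, norm_pow]; exact pow_lt_one₀ (norm_nonneg _) (hx i) (hq0 i)
  have hY : ∀ t i, ‖((frobPoint p (y t) e i : OC C) : C)‖ < 1 := fun t i => by
    rw [hYv, norm_pow]; exact pow_lt_one₀ (norm_nonneg _) (hy t i) (hq0 i)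
  -- the increments
  have hΔform : ∀ t i, ((frobPoint p (y t) e i : OC C) : C) - (X i : C) =
      K i * θ i ^ T t * (1 + o t i ^ q i) := by
    intro t i
    rw [hYv, hXv, hq i, ← sub_pow_char_pow, hform, hK, hθ, hq i, hT, mul_pow, mul_pow,
      add_pow_char_pow, one_pow, ← pow_mul, ← pow_mul, mul_comm (p ^ (t + c))]
  obtain ⟨W, hWdef⟩ : ∃ W : ℝ, W = ‖θ j‖ := ⟨_, rfl⟩
  have hθ0 : ∀ i, θ i ≠ 0 := fun i => by rw [hθ]; exact pow_ne_zero _ (hϖ0 i)
  have hW0 : 0 < W := by rw [hWdef]; exact norm_pos_iff.mpr (hθ0 j)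
  have hW1 : W < 1 := by
    rw [hWdef, hθ, norm_pow]; exact pow_lt_one₀ (norm_nonneg _) (hϖ1 j) (hq0 j)
  have hθW : ∀ i, ‖θ i‖ ≤ W := fun i => by
    rw [hWdef, hθ, hθ, norm_pow, norm_pow, hq, hq]; exact htop i
  obtain ⟨M, hMdef⟩ : ∃ M : ℝ, M = ∑ i, ‖K i‖ + 1 := ⟨_, rfl⟩
  have hM0 : 0 < M := by
    rw [hMdef]; exact add_pos_of_nonneg_of_pos (Finset.sum_nonneg fun _ _ => norm_nonneg _) one_pos
  have hKM : ∀ i, ‖K i‖ ≤ M := fun i => by
    rw [hMdef]
    have : ‖K i‖ ≤ ∑ i, ‖K i‖ :=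
      Finset.single_le_sum (f := fun i => ‖K i‖) (fun _ _ => norm_nonneg _) (Finset.mem_univ i)
    linarith
  have hTtend : Tendsto T atTop atTop := by
    have h1 : T = (fun m : ℕ => p ^ m) ∘ (fun t => t + c) := by
      funext t; simp [hT]
    rw [h1]
    exact (tendsto_pow_atTop_atTop_of_one_lt hp1).comp (tendsto_add_atTop_nat c)
  have hWtend : Tendsto (fun t => W ^ T t) atTop (𝓝 0) :=
    (tendsto_pow_atTop_nhds_zero_of_lt_one hW0.le hW1).comp hTtend
  -- eventually the errors are small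
  have hoev : ∀ᶠ t in atTop, ∀ i, ‖o t i‖ ≤ 1 := by
    rw [Filter.eventually_all]
    intro i
    have h := (ho i).norm
    rw [norm_zero] at h
    exact (h.eventually (gt_mem_nhds one_pos)).mono fun _ h => h.le
  -- the normalized sum
  have hG : Tendsto (fun t => ∑ i, v i * K i * (θ i / θ j) ^ T t * (1 + o t i ^ q i)) atTop (𝓝 0) := by
    rw [tendsto_zero_iff_norm_tendsto_zero]
    have hbound : Tendsto (fun t => M ^ 2 * W ^ T t) atTop (𝓝 0) := by
      simpa using hWtend.const_mul (M ^ 2)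
    refine squeeze_zero' (Eventually.of_forall fun _ => norm_nonneg _) ?_ hbound
    filter_upwards [hoev] with t ht
    -- Taylor
    let Δ : Fin N → OC C := fun i => frobPoint p (y t) e i - X i
    have hΔv : ∀ i, ((Δ i : OC C) : C) = K i * θ i ^ T t * (1 + o t i ^ q i) := fun i => hΔform t i
    have hΔlt : ∀ i, ‖(Δ i : C)‖ < 1 := fun i => by
      have : ((Δ i : OC C) : C) = ((frobPoint p (y t) e i : OC C) : C) - (X i : C) := rfl
      rw [this, sub_eq_add_neg]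
      exact lt_of_le_of_lt (IsUltrametricDist.norm_add_le_max _ _)
        (max_lt (hY t i) (by rw [norm_neg]; exact hX i))
    have hΔb : ∀ i, ‖(Δ i : C)‖ ≤ M * W ^ T t := fun i => by
      rw [hΔv, norm_mul, norm_mul, norm_pow]
      have h1 : ‖1 + o t i ^ q i‖ ≤ 1 := by
        refine (IsUltrametricDist.norm_add_le_max _ _).trans (max_le (by simp) ?_)
        rw [norm_pow]
        exact pow_le_one₀ (norm_nonneg _) (ht i)
      have h2 : ‖θ i‖ ^ T t ≤ W ^ T t := pow_le_pow_left₀ (norm_nonneg _) (hθW i) _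
      calc ‖K i‖ * ‖θ i‖ ^ T t * ‖1 + o t i ^ q i‖ ≤ ‖K i‖ * ‖θ i‖ ^ T t * 1 :=
            mul_le_mul_of_nonneg_left h1 (by positivity)
        _ = ‖K i‖ * ‖θ i‖ ^ T t := mul_one _
        _ ≤ M * W ^ T t := mul_le_mul (hKM i) h2 (by positivity) hM0.le
    have hD0 : 0 ≤ M * W ^ T t := by positivity
    have htay := norm_Ev_taylor_le κ X Δ hX hΔlt a hD0 hΔb
    have hXΔ : X + Δ = frobPoint p (y t) e := by
      funext i
      simp [Δ]
    rw [hXΔ, hay t, ha0] at htay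
    have hsum : ∑ i, v i * ((Δ i : OC C) : C) =
        θ j ^ T t * ∑ i, v i * K i * (θ i / θ j) ^ T t * (1 + o t i ^ q i) := by
      rw [Finset.mul_sum]
      refine Finset.sum_congr rfl fun i _ => ?_
      rw [hΔv, div_pow]
      have : θ j ^ T t ≠ 0 := pow_ne_zero _ (hθ0 j)
      field_simp
    have htay2 : ‖∑ i, v i * ((Δ i : OC C) : C)‖ ≤ (M * W ^ T t) ^ 2 := by
      have e1 : (((0 : OC C) : C)) = 0 := rfl
      simpa [e1, hv] using htay
    rw [hsum, norm_mul, norm_pow, ← hWdef] at htay2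
    have hWT : 0 < W ^ T t := by positivity
    have : W ^ T t * ‖∑ i, v i * K i * (θ i / θ j) ^ T t * (1 + o t i ^ q i)‖ ≤
        W ^ T t * (M ^ 2 * W ^ T t) := by
      calc _ ≤ (M * W ^ T t) ^ 2 := htay2
        _ = _ := by ring
    exact le_of_mul_le_mul_left this hWT
  -- removing the error terms
  have hrnorm : ∀ i, ‖θ i / θ j‖ ≤ 1 := fun i => by
    rw [norm_div, ← hWdef]
    exact (div_le_one hW0).mpr (hθW i)
  have hH : Tendsto (fun t => ∑ i, v i * K i * (θ i / θ j) ^ T t) atTop (𝓝 0) := by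
    have hdiff : Tendsto (fun t => ∑ i, v i * K i * (θ i / θ j) ^ T t * o t i ^ q i) atTop (𝓝 0) := by
      rw [← Finset.sum_const_zero (s := (Finset.univ : Finset (Fin N)))]
      refine tendsto_finsetSum _ fun i _ => ?_
      rw [tendsto_zero_iff_norm_tendsto_zero]
      have h0 : Tendsto (fun t => ‖v i * K i‖ * ‖o t i ^ q i‖) atTop (𝓝 0) := by
        have h1 : Tendsto (fun t => o t i ^ q i) atTop (𝓝 0) := by
          have := (ho i).pow (q i)
          rwa [zero_pow (hq0 i)] at this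
        simpa using (h1.norm).const_mul ‖v i * K i‖
      refine squeeze_zero (fun _ => norm_nonneg _) (fun t => ?_) h0
      rw [norm_mul, norm_mul _ ((θ i / θ j) ^ T t), norm_pow]
      refine mul_le_mul_of_nonneg_right ?_ (norm_nonneg _)
      exact mul_le_of_le_one_right (norm_nonneg _) (pow_le_one₀ (norm_nonneg _) (hrnorm i))
    have := hG.sub hdiff
    rw [sub_zero] at this
    refine this.congr fun t => ?_
    rw [← Finset.sum_sub_distrib]
    refine Finset.sum_congr rfl fun i _ => ?_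
    ring
  -- the top coordinates
  let Jp : Fin N → Prop := fun i => ‖θ i‖ = W
  have hJ : ∀ i, Jp i → e i = e j ∧ ‖ϖ i‖ = ‖ϖ j‖ := fun i hi => by
    apply hwin
    have h1 : ‖θ i‖ = ‖θ j‖ := by rw [hi, hWdef]
    rwa [hθ, hθ, norm_pow, norm_pow, hq, hq] at h1
  have hHJ : Tendsto (fun t => ∑ i : {i // Jp i}, v i * K i * (θ i / θ j) ^ T t) atTop (𝓝 0) := by
    have hout : Tendsto (fun t => ∑ i : {i // ¬ Jp i}, v i * K i * (θ i / θ j) ^ T t) atTop (𝓝 0) := by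
      rw [← Finset.sum_const_zero (s := (Finset.univ : Finset {i // ¬ Jp i}))]
      refine tendsto_finsetSum _ fun i _ => ?_
      have hlt : ‖θ (i : Fin N) / θ j‖ < 1 := by
        rw [norm_div, ← hWdef, div_lt_one hW0]
        exact lt_of_le_of_ne (hθW _) i.2
      have h1 : Tendsto (fun t => (θ (i : Fin N) / θ j) ^ T t) atTop (𝓝 0) :=
        (tendsto_pow_atTop_nhds_zero_of_norm_lt_one hlt).comp hTtend
      simpa using h1.const_mul (v i * K i)
    have := hH.sub hout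
    rw [sub_zero] at this
    refine this.congr fun t => ?_
    rw [← Fintype.sum_subtype_add_sum_subtype Jp]
    ring
  -- Moore
  let ρ : {i // Jp i} → C := fun i => ϖ i / ϖ j
  let v' : {i // Jp i} → C := fun i => v i * K i
  have hρ1 : ∀ i, ‖ρ i‖ = 1 := fun i => by
    simp only [ρ]
    rw [norm_div, (hJ i i.2).2, div_self]
    exact (norm_pos_iff.mpr (hϖ0 j)).ne'
  have hr : ∀ (i : {i // Jp i}) t, (θ (i : Fin N) / θ j) ^ T t = ρ i ^ (p ^ (t + (c + e j))) := by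
    intro i t
    simp only [ρ]
    have h1 : q (i : Fin N) = q j := by rw [hq, hq, (hJ i i.2).1]
    rw [hθ, hθ, h1, ← div_pow, ← pow_mul, hq j, hT]
    congr 1
    rw [← pow_add]
    congr 1
    omega
  have hmoore := moore_vanish p ρ v' (fun i => (hρ1 i).le) ?_ ?_ ⟨j, hWdef.symm⟩
  · have h1 : v j * K j = 0 := hmoore
    have hKj : K j ≠ 0 := by rw [hK]; exact pow_ne_zero _ (hκ' j)
    have h2 : v j = 0 := (mul_eq_zero.mp h1).resolve_right hKj
    rw [hv] at h2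
    exact Subtype.ext h2
  · intro b₀ hb₀ hb₁
    obtain ⟨i₀, hi₀⟩ := hb₁
    let b : Fin N → ℕ := fun i => if h : Jp i then b₀ ⟨i, h⟩ else 0
    have hbJ : ∀ i : {i // Jp i}, b i = b₀ i := fun i => by
      simp only [b]
      rw [dif_pos i.2]
    have hbn : ∀ i, ¬ Jp i → b i = 0 := fun i hi => by
      simp only [b]
      rw [dif_neg hi]
    have h1 := hind b (fun i => by
        by_cases h : Jp i
        · have := hbJ ⟨i, h⟩
          simp only at this
          rw [this]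
          exact hb₀ _
        · rw [hbn i h]; exact hp0)
      ⟨i₀, by rw [hbJ i₀]; exact hi₀⟩
      (fun i hi => by
        by_contra hne
        have hJi : Jp i := by
          by_contra h
          exact hi (hbn i h)
        exact hne (hJ i hJi).2)
    have h2 : ∑ i, (b i : C) * ϖ i = (∑ i : {i // Jp i}, (b₀ i : C) * ρ i) * ϖ j := by
      rw [← Fintype.sum_subtype_add_sum_subtype Jp, Finset.sum_eq_zero (s := Finset.univ)
        (f := fun i : {i // ¬ Jp i} => (b i : C) * ϖ i) (fun i _ => by simp [hbn i i.2]), add_zero,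
        Finset.sum_mul]
      refine Finset.sum_congr rfl fun i _ => ?_
      simp only [ρ]
      rw [hbJ i, mul_assoc, div_mul_cancel₀ _ (hϖ0 j)]
    rw [h2, norm_mul] at h1
    have h3 : 0 < ‖ϖ j‖ := norm_pos_iff.mpr (hϖ0 j)
    exact mul_right_cancel₀ h3.ne' (by rw [h1, one_mul])
  · rw [← tendsto_add_atTop_iff_nat (c + e j)]
    refine hHJ.congr fun t => ?_
    refine Finset.sum_congr rfl fun i _ => ?_
    simp only [v']
    rw [hr]

end Vale.Agent.Lib.P217
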