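import Mathlib

/-!
Definitions used in the statement of the theorem on invariant primes of the Lubin-Tate ring.
-/

namespace Vale.Agent.Lib.P217

noncomputable section

variable {R : Type*} [CommRing R]

/-- The series `[m]_F(X)`, defined by `[0]_F = 0` and `[m+1]_F = F([m]_F(X), X)`. -/
def mulSeries (F : FormalGroup R) : ℕ → PowerSeries R
  | 0 => 0
  | m + 1 => MvPowerSeries.subst ![mulSeries F m, (PowerSeries.X : PowerSeries R)] F.toPowerSeries

/-- `f(X)` is a homomorphism of formal groups from `F` to `G`: it has no constant term and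
`G(f(X₀), f(X₁)) = f(F(X₀, X₁))`. -/
structure IsHom (F G : FormalGroup R) (f : PowerSeries R) : Prop where
  constantCoeff_eq : PowerSeries.constantCoeff f = 0
  map_add : MvPowerSeries.subst
      ![PowerSeries.subst (MvPowerSeries.X 0 : MvPowerSeries (Fin 2) R) f,
        PowerSeries.subst (MvPowerSeries.X 1 : MvPowerSeries (Fin 2) R) f] G.toPowerSeries
    = PowerSeries.subst F.toPowerSeries f

/-- The height ideal: generated by the coefficients of `[p]_F` of degree less than `p ^ h`. -/
def heightIdeal (F : FormalGroup R) (p h : ℕ) : Ideal R :=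
  Ideal.span {a | ∃ j, j < p ^ h ∧ a = PowerSeries.coeff j (mulSeries F p)}

/-- The height ideals of `W(k)⟦u⟧`: `(p, u_1, …, u_(h-1))`. -/
noncomputable def zheight (p n : ℕ) [Fact p.Prime] (k : Type*) [Field k] (h : ℕ) : Ideal (MvPowerSeries (Fin (n - 1)) (WittVector p k)) :=
  Ideal.span ({(p : MvPowerSeries (Fin (n - 1)) (WittVector p k))} ∪ (MvPowerSeries.X : Fin (n - 1) → MvPowerSeries (Fin (n - 1)) (WittVector p k)) '' {l | l.val + 1 < h})

end

end Vale.Agent.Lib.P217
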