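import Mathlib

namespace Vale.Agent.Lib.P217

open Order

/-- An injective integral ring map does not lower the Krull dimension (going up). -/
theorem ringKrullDim_le_of_injective_of_isIntegral {R S : Type*} [CommRing R] [CommRing S]
    (f : R →+* S) (hf : Function.Injective f) (hint : f.IsIntegral) :
    ringKrullDim R ≤ ringKrullDim S := by
  let _ : Algebra R S := f.toAlgebra
  have : Algebra.IsIntegral R S := ⟨hint⟩
  have : FaithfulSMul R S := (faithfulSMul_iff_algebraMap_injective R S).mpr hf
  unfold ringKrullDim
  refine iSup_le fun l => ?_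
  -- a prime of `S` over the first prime of the chain
  obtain ⟨P, _, hP, hPl⟩ := Ideal.exists_ideal_over_prime_of_isIntegral
    (S := S) (RelSeries.head l).asIdeal (⊥ : Ideal S)
    (by
      have : (⊥ : Ideal S).comap (algebraMap R S) = ⊥ := by
        rw [← RingHom.ker_eq_comap_bot]
        exact (RingHom.injective_iff_ker_eq_bot _).mp hf
      rw [this]; exact bot_le)
  have : P.LiesOver (RelSeries.head l).asIdeal := ⟨hPl.symm⟩
  obtain ⟨L, hL, -, -⟩ := Ideal.exists_ltSeries_of_hasGoingUp (S := S) l P
  rw [← hL]
  exact LTSeries.length_le_krullDim L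

/-- An integral ring map (injective or not) satisfies `dim S ≤ dim R` (incomparability). -/
theorem ringKrullDim_le_of_isIntegral {R S : Type*} [CommRing R] [CommRing S]
    (f : R →+* S) (hint : f.IsIntegral) :
    ringKrullDim S ≤ ringKrullDim R := by
  let _ : Algebra R S := f.toAlgebra
  have : Algebra.IsIntegral R S := ⟨hint⟩
  refine krullDim_le_of_strictMono (PrimeSpectrum.comap (algebraMap R S)) ?_
  intro P Q hPQ
  have hlt : P.asIdeal < Q.asIdeal := hPQ
  exact Ideal.IsIntegral.comap_lt_comap (R := R) hlt

/-- Dimension count, general form: `A` a Noetherian local domain, `S` integral over `A` via two maps,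
one of them injective; then the other is injective as well. -/
theorem injective_of_integral_of_integral_aux {A S : Type*} [CommRing A] [IsDomain A]
    [IsNoetherianRing A] [IsLocalRing A] [CommRing S]
    (ιA : A →+* S) (ιO : A →+* S)
    (hO : Function.Injective ιO) (hOint : ιO.IsIntegral) (hAint : ιA.IsIntegral) :
    Function.Injective ιA := by
  classical
  rw [RingHom.injective_iff_ker_eq_bot, eq_bot_iff]
  intro r hr
  rw [Ideal.mem_bot]
  by_contra hr0
  -- the map factors through `A ⧸ (r)`
  have hle : Ideal.span {r} ≤ RingHom.ker ιA := by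
    rw [Ideal.span_singleton_le_iff_mem]; exact hr
  let g : (A ⧸ Ideal.span {r}) →+* S := Ideal.Quotient.lift _ ιA (fun a ha => hle ha)
  have hgcomp : g.comp (Ideal.Quotient.mk _) = ιA := by ext a; rfl
  have hgint : g.IsIntegral := by
    have : (g.comp (Ideal.Quotient.mk (Ideal.span {r}))).IsIntegral := by rw [hgcomp]; exact hAint
    exact RingHom.IsIntegral.tower_top _ _ this
  have h1 : ringKrullDim A ≤ ringKrullDim S :=
    ringKrullDim_le_of_injective_of_isIntegral ιO hO hOint
  have h2 : ringKrullDim S ≤ ringKrullDim (A ⧸ Ideal.span {r}) :=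
    ringKrullDim_le_of_isIntegral g hgint
  have h3 : ringKrullDim (A ⧸ Ideal.span {r}) + 1 ≤ ringKrullDim A :=
    ringKrullDim_quotient_succ_le_of_nonZeroDivisor (mem_nonZeroDivisors_of_ne_zero hr0)
  have h4 : ringKrullDim A + 1 ≤ ringKrullDim A :=
    le_trans (add_le_add_left (h1.trans h2) 1) h3
  -- finite dimension: a Noetherian local ring
  have htop : ringKrullDim A ≠ ⊤ := ringKrullDim_ne_top
  have hbot : ringKrullDim A ≠ ⊥ := ringKrullDim_ne_bot
  obtain ⟨m, hm⟩ : ∃ m : ℕ, ringKrullDim A = m := by
    cases h : ringKrullDim A with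
    | bot => exact absurd h hbot
    | coe n =>
      cases n with
      | top => exact absurd h htop
      | coe m => exact ⟨m, rfl⟩
  rw [hm] at h4
  have : ((m : WithBot ℕ∞) + 1) = ((m + 1 : ℕ) : WithBot ℕ∞) := by push_cast; rfl
  rw [this] at h4
  have h5 : (m + 1 : ℕ) ≤ m := by exact_mod_cast h4
  omega

/-- Dimension count.  Let `A = O = k⟦X_1,…,X_N⟧`, and let `S` be a domain with ring maps `ιA : A → S`
and `ιO : O → S`, with `ιO` injective and `S` integral over both `A` and `O`.  Then `ιA` is injective. -/
theorem injective_of_integral_of_integral {k S : Type*} [Field k] [CommRing S] [IsDomain S]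
    {N : ℕ} (ιA : MvPowerSeries (Fin N) k →+* S) (ιO : MvPowerSeries (Fin N) k →+* S)
    (hO : Function.Injective ιO) (hOint : ιO.IsIntegral) (hAint : ιA.IsIntegral) :
    Function.Injective ιA := by
  have : IsDomain (MvPowerSeries (Fin N) k) := NoZeroDivisors.to_isDomain _
  exact injective_of_integral_of_integral_aux ιA ιO hO hOint hAint

end Vale.Agent.Lib.P217
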