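import Vale.Agent.Lib.P217.Setup

set_option linter.unusedSectionVars false
set_option linter.unusedVariables false

namespace Vale.Agent.Lib.P217

open scoped Topology
open Filter

variable {C : Type*} [NormedField C] [IsUltrametricDist C] [CompleteSpace C]
variable {p n N : ℕ} [hp : Fact p.Prime] [CharP C p] [IsAlgClosed C]
variable {k : Type*} [Field k] [Finite k] [CharP k p]

/-- Multiplications by elements of `k` are endomorphisms of `Γ`. -/
abbrev HOm (S : Setting C p n N k) : Prop := ∀ a : k, IsHom S.Γ S.Γ (PowerSeries.C a * PowerSeries.X)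

/-- The coefficients of `Γ` are fixed by Frobenius. -/
abbrev HFr (S : Setting C p n N k) : Prop :=
  ∀ d, (MvPowerSeries.coeff d S.Γ.toPowerSeries) ^ p = MvPowerSeries.coeff d S.Γ.toPowerSeries

/-- The multiplications by elements of `k`, on the points of the base law. -/
noncomputable def cEnd (S : Setting C p n N k) (hω : HOm S) (a : k) :
    AddMonoid.End (Pts (baseLaw S).G) :=
  evHom (L := baseLaw S) (L' := baseLaw S) _ (isHom_baseLaw S (hω a))

/-- The Frobenius endomorphism on the points of the base law. -/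
noncomputable def phiEnd (S : Setting C p n N k) (hF : HFr S) :
    AddMonoid.End (Pts (baseLaw S).G) :=
  evHom (L := baseLaw S) (L' := baseLaw S) _ (isHom_baseLaw S (IsHom.X_pow p hF))

lemma end_mul_apply {A : Type*} [AddCommMonoid A] (e f : AddMonoid.End A) (x : A) :
    (e * f) x = e (f x) := rfl

lemma end_add_apply {A : Type*} [AddCommMonoid A] (e f : AddMonoid.End A) (x : A) :
    (e + f) x = e x + f x := rfl

/-- The value of `homEnd` as an evaluation through `κ`. -/
lemma homEnd_v (S : Setting C p n N k) {g : PowerSeries k} (hg : IsHom S.Γ S.Γ g)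
    (x : Pts (baseLaw S).G) :
    (homEnd S hg x).v = ((ev1 S.κ x.o g : OC C) : C) := by
  have h1 : (homEnd S hg x).v = ((ev1 (RingHom.id _) x.o (PowerSeries.map S.κ g) : OC C) : C) := rfl
  rw [h1]
  have h2 := Ev_map S.κ (RingHom.id (OC C)) (fun _ : Unit => x.o) (fun _ => x.norm_lt) g
  have h3 : ev1 (RingHom.id _) x.o (PowerSeries.map S.κ g) = ev1 S.κ x.o g := h2
  rw [h3]

/-- `homEnd` as an equality of `o`. -/
lemma homEnd_o (S : Setting C p n N k) {g : PowerSeries k} (hg : IsHom S.Γ S.Γ g)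
    (x : Pts (baseLaw S).G) :
    (homEnd S hg x).o = ev1 S.κ x.o g :=
  Subtype.ext (homEnd_v S hg x)

theorem cEnd_v (S : Setting C p n N k) (hω : HOm S) (a : k) (x : Pts (baseLaw S).G) :
    (cEnd S hω a x).v = (S.κ a : C) * x.v := by
  have h1 : (cEnd S hω a x).v = (homEnd S (hω a) x).v := rfl
  rw [h1, homEnd_v]
  have h2 : ev1 S.κ x.o (PowerSeries.C a * PowerSeries.X : PowerSeries k) = S.κ a * x.o := by
    have := Ev_mul S.κ (fun _ : Unit => x.o) (fun _ => x.norm_lt)
      (PowerSeries.C a : PowerSeries k) (PowerSeries.X : PowerSeries k)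
    refine this.trans ?_
    congr 1
    · exact ev1_C S.κ x.o a
    · exact ev1_X S.κ x.o
  rw [h2]
  rfl

theorem phiEnd_v (S : Setting C p n N k) (hF : HFr S) (x : Pts (baseLaw S).G) :
    (phiEnd S hF x).v = x.v ^ p := by
  have h1 : (phiEnd S hF x).v = (homEnd S (IsHom.X_pow p hF) x).v := rfl
  rw [h1, homEnd_v]
  have h2 : ev1 S.κ x.o (PowerSeries.X ^ p : PowerSeries k) = x.o ^ p := by
    have := Ev_pow S.κ (fun _ : Unit => x.o) (fun _ => x.norm_lt)
      (PowerSeries.X : PowerSeries k) p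
    refine this.trans ?_
    congr 1
    exact ev1_X S.κ x.o
  rw [h2]
  rfl

/-- The endomorphism `γ = ∑_{i<s} [d i] Φ^i`. -/
noncomputable def gammaEnd (S : Setting C p n N k) (hω : HOm S) (hF : HFr S) (s : ℕ) (d : ℕ → k) :
    AddMonoid.End (Pts (baseLaw S).G) :=
  ∑ i ∈ Finset.range s, cEnd S hω (d i) * (phiEnd S hF) ^ i

theorem norm_gammaEnd_le (S : Setting C p n N k) (hω : HOm S) (hF : HFr S) (s : ℕ) (d : ℕ → k) (x : Pts (baseLaw S).G) :
    ‖(gammaEnd S hω hF s d x).v‖ ≤ ‖x.v‖ := by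
  have hphi : ∀ (i : ℕ) (y : Pts (baseLaw S).G), ‖(((phiEnd S hF) ^ i) y).v‖ ≤ ‖y.v‖ := by
    intro i y
    induction i with
    | zero => simp
    | succ i ih =>
      rw [pow_succ', end_mul_apply, phiEnd_v, norm_pow]
      have hle : ‖(((phiEnd S hF) ^ i) y).v‖ ≤ 1 := le_trans (Pts.norm_lt _).le (le_refl _)
      calc ‖(((phiEnd S hF) ^ i) y).v‖ ^ p ≤ ‖(((phiEnd S hF) ^ i) y).v‖ ^ 1 :=
            pow_le_pow_of_le_one (norm_nonneg _) hle (hp.out.pos)
        _ ≤ ‖y.v‖ := by simpa using ih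
  have hc : ∀ (a : k) (y : Pts (baseLaw S).G), ‖(cEnd S hω a y).v‖ ≤ ‖y.v‖ := by
    intro a y
    rw [cEnd_v, norm_mul]
    exact mul_le_of_le_one_left (norm_nonneg _) (norm_OC_le _)
  unfold gammaEnd
  induction s with
  | zero => simp
  | succ s ih =>
    rw [Finset.sum_range_succ, end_add_apply]
    refine (norm_add_le _ _ _).trans (max_le ih ?_)
    rw [end_mul_apply]
    exact (hc _ _).trans (hphi _ _)

section linear

variable {R : Type*} [CommRing R]

lemma constantCoeff_subst_of_zero {σ τ : Type*} [Finite σ] {a : σ → MvPowerSeries τ R}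
    (ha : ∀ s, MvPowerSeries.constantCoeff (a s) = 0) (G : MvPowerSeries σ R) :
    MvPowerSeries.constantCoeff (MvPowerSeries.subst a G) = MvPowerSeries.constantCoeff G := by
  have hs : MvPowerSeries.HasSubst a := MvPowerSeries.hasSubst_of_constantCoeff_zero ha
  set c := MvPowerSeries.constantCoeff G with hc
  have h2 : G = MvPowerSeries.C c + (G - MvPowerSeries.C c) := by ring
  have h3 : MvPowerSeries.constantCoeff (G - MvPowerSeries.C c) = 0 := by
    simp [hc]
  have h4 : MvPowerSeries.constantCoeff (MvPowerSeries.subst a (G - MvPowerSeries.C c)) = 0 :=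
    MvPowerSeries.constantCoeff_subst_eq_zero hs ha h3
  have h5 : MvPowerSeries.subst a G =
      MvPowerSeries.C c + MvPowerSeries.subst a (G - MvPowerSeries.C c) := by
    conv_lhs => rw [h2]
    rw [MvPowerSeries.subst_add hs, MvPowerSeries.subst_C]
  rw [h5, map_add, h4, add_zero]
  simp

lemma coeff_one_eq_constantCoeff_pderiv (h : PowerSeries R) :
    PowerSeries.coeff 1 h =
      MvPowerSeries.constantCoeff (MvPowerSeries.pderiv R () (h : MvPowerSeries Unit R)) := by
  have h1 := PowerSeries.coeff_derivative h 0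
  have h2 : PowerSeries.coeff 0 (PowerSeries.derivative R h) =
      MvPowerSeries.constantCoeff (MvPowerSeries.pderiv R () (h : MvPowerSeries Unit R)) := by
    simp [PowerSeries.derivative]
    rfl
  rw [← h2, h1]
  simp

/-- The linear coefficient is additive under the group law. -/
lemma coeff_one_subst_pair (F : FormalGroup R) {f g : PowerSeries R}
    (hf : PowerSeries.constantCoeff f = 0) (hg : PowerSeries.constantCoeff g = 0) :
    PowerSeries.coeff 1 (MvPowerSeries.subst ![f, g] F.toPowerSeries : PowerSeries R) =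
      PowerSeries.coeff 1 f + PowerSeries.coeff 1 g := by
  have hf' : MvPowerSeries.constantCoeff (f : MvPowerSeries Unit R) = 0 := hf
  have hg' : MvPowerSeries.constantCoeff (g : MvPowerSeries Unit R) = 0 := hg
  rw [coeff_one_eq_constantCoeff_pderiv, pderiv_subst_pair _ _ hf' hg', map_add, map_mul, map_mul,
    coeff_one_eq_constantCoeff_pderiv f, coeff_one_eq_constantCoeff_pderiv g]
  have hw : ∀ s : Fin 2, MvPowerSeries.constantCoeff
      ((![f, g] : Fin 2 → MvPowerSeries Unit R) s) = 0 := by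
    intro s; fin_cases s
    · exact hf'
    · exact hg'
  rw [constantCoeff_subst_of_zero hw, constantCoeff_subst_of_zero hw]
  have e0 : MvPowerSeries.constantCoeff (MvPowerSeries.pderiv R 0 F.toPowerSeries) = 1 := by
    rw [← MvPowerSeries.coeff_zero_eq_constantCoeff_apply, MvPowerSeries.coeff_pderiv]
    simp [F.lin_coeff_X]
  have e1 : MvPowerSeries.constantCoeff (MvPowerSeries.pderiv R 1 F.toPowerSeries) = 1 := by
    rw [← MvPowerSeries.coeff_zero_eq_constantCoeff_apply, MvPowerSeries.coeff_pderiv]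
    simp [F.lin_coeff_Y]
  rw [e0, e1, one_mul, one_mul]

/-- The linear coefficient is multiplicative under composition. -/
lemma coeff_one_subst {f g : PowerSeries R} (hf : PowerSeries.constantCoeff f = 0) :
    PowerSeries.coeff 1 (PowerSeries.subst f g) = PowerSeries.coeff 1 g * PowerSeries.coeff 1 f := by
  have hfs : PowerSeries.HasSubst f := PowerSeries.HasSubst.of_constantCoeff_zero' hf
  have h1 := PowerSeries.derivative_subst (f := g) hfs
  have h2 := congrArg (PowerSeries.constantCoeff) h1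
  have h3 : ∀ h : PowerSeries R, PowerSeries.constantCoeff (PowerSeries.derivative R h) =
      PowerSeries.coeff 1 h := fun h => (coeff_one_eq_constantCoeff_pderiv h).symm
  have h4 : ∀ h : PowerSeries R, PowerSeries.constantCoeff (PowerSeries.subst f h) =
      PowerSeries.constantCoeff h := fun h =>
    constantCoeff_subst_of_zero (a := fun _ : Unit => (f : MvPowerSeries Unit R)) (fun _ => hf) h
  rw [map_mul, h3, h3, h4, h3] at h2
  exact h2

lemma coeff_one_mulSeries (F : FormalGroup R) (m : ℕ) :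
    PowerSeries.coeff 1 (mulSeries F m) = (m : R) := by
  induction m with
  | zero => simp [mulSeries]
  | succ m ih =>
    have h := coeff_one_subst_pair F (constantCoeff_mulSeries F m) (PowerSeries.constantCoeff_X)
    have e : mulSeries F (m + 1) = (MvPowerSeries.subst ![mulSeries F m, (PowerSeries.X : PowerSeries R)]
        F.toPowerSeries : PowerSeries R) := rfl
    rw [e, h, ih]
    simp

lemma isHom_X (F : FormalGroup R) : IsHom F F PowerSeries.X := by
  refine ⟨PowerSeries.constantCoeff_X, ?_⟩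
  have hF : PowerSeries.HasSubst F.toPowerSeries :=
    PowerSeries.HasSubst.of_constantCoeff_zero F.zero_constantCoeff
  rw [PowerSeries.subst_X hF, PowerSeries.subst_X (PowerSeries.HasSubst.X 0),
    PowerSeries.subst_X (PowerSeries.HasSubst.X 1)]
  have : ![(MvPowerSeries.X 0 : MvPowerSeries (Fin 2) R), MvPowerSeries.X 1] = MvPowerSeries.X := by
    funext s; fin_cases s <;> rfl
  rw [this, MvPowerSeries.subst_self]
  rfl

lemma isHom_zero (F : FormalGroup R) : IsHom F F 0 := by
  refine ⟨by simp, ?_⟩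
  have hF : PowerSeries.HasSubst F.toPowerSeries :=
    PowerSeries.HasSubst.of_constantCoeff_zero F.zero_constantCoeff
  have e : ∀ {x : MvPowerSeries (Fin 2) R}, PowerSeries.HasSubst x →
      PowerSeries.subst x (0 : PowerSeries R) = 0 := by
    intro x hx
    rw [← PowerSeries.coe_substAlgHom hx, map_zero]
  rw [e hF, e (PowerSeries.HasSubst.X 0), e (PowerSeries.HasSubst.X 1)]
  have : ![(0 : MvPowerSeries (Fin 2) R), 0] = 0 := by
    funext s; fin_cases s <;> rfl
  rw [this]
  exact MvPowerSeries.subst_zero_of_constantCoeff_zero F.zero_constantCoeff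

end linear

/-- An endomorphism represented by a series over `k` with a given linear coefficient. -/
def RepEnd (S : Setting C p n N k) (e : AddMonoid.End (Pts (baseLaw S).G)) (c : k) : Prop :=
  ∃ g : PowerSeries k, ∃ hg : IsHom S.Γ S.Γ g, homEnd S hg = e ∧ PowerSeries.coeff 1 g = c

lemma homEnd_add (S : Setting C p n N k) {f g : PowerSeries k} (hf : IsHom S.Γ S.Γ f)
    (hg : IsHom S.Γ S.Γ g) : homEnd S (hf.add hg) = homEnd S hf + homEnd S hg := by
  ext x
  rw [end_add_apply, homEnd_v, Pts.add_v]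
  have h1 : ev1 S.κ x.o (MvPowerSeries.subst ![f, g] S.Γ.toPowerSeries : PowerSeries k) =
      Ev S.κ ![ev1 S.κ x.o f, ev1 S.κ x.o g] S.Γ.toPowerSeries :=
    Ev_subst2 S.κ f g hf.constantCoeff_eq hg.constantCoeff_eq (fun _ : Unit => x.o)
      (fun _ => x.norm_lt) S.Γ.toPowerSeries
  rw [h1, homEnd_o, homEnd_o]
  have h2 := Ev_map S.κ (RingHom.id (OC C)) ![ev1 S.κ x.o f, ev1 S.κ x.o g]
    (hb2 (G := (baseLaw S).G) (homEnd S hf x) (homEnd S hg x) |> fun h => by
      simpa only [homEnd_o] using h) S.Γ.toPowerSeries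
  have h3 : Ev (RingHom.id (OC C)) ![ev1 S.κ x.o f, ev1 S.κ x.o g] (baseLaw S).G.toPowerSeries =
      Ev S.κ ![ev1 S.κ x.o f, ev1 S.κ x.o g] S.Γ.toPowerSeries := h2
  rw [h3]

lemma homEnd_comp (S : Setting C p n N k) {f g : PowerSeries k} (hf : IsHom S.Γ S.Γ f)
    (hg : IsHom S.Γ S.Γ g) : homEnd S (hf.comp hg) = homEnd S hg * homEnd S hf := by
  ext x
  rw [end_mul_apply, homEnd_v, homEnd_v, homEnd_o]
  rw [ev1_subst S.κ (x := x.o) (PowerSeries.HasSubst.of_constantCoeff_zero' hf.constantCoeff_eq) x.norm_lt]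

lemma homEnd_mulSeries (S : Setting C p n N k) (m : ℕ) :
    homEnd S (IsHom.mulSeries (F := S.Γ) m) = m • (1 : AddMonoid.End (Pts (baseLaw S).G)) := by
  ext x
  have h1 : (homEnd S (IsHom.mulSeries (F := S.Γ) m) x).v =
      ((ev1 (RingHom.id _) x.o (PowerSeries.map S.κ (mulSeries S.Γ m)) : OC C) : C) := rfl
  rw [h1, ← mulSeries_map]
  have h2 := ev1_mulSeries (G := S.Γ.map S.κ) x m
  exact congrArg (fun t : OC C => (t : C)) h2

lemma RepEnd.add {S : Setting C p n N k} {e e' : AddMonoid.End (Pts (baseLaw S).G)} {c c' : k}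
    (h : RepEnd S e c) (h' : RepEnd S e' c') : RepEnd S (e + e') (c + c') := by
  obtain ⟨g, hg, rfl, rfl⟩ := h
  obtain ⟨g', hg', rfl, rfl⟩ := h'
  exact ⟨_, hg.add hg', homEnd_add S hg hg',
    coeff_one_subst_pair S.Γ hg.constantCoeff_eq hg'.constantCoeff_eq⟩

lemma RepEnd.mul {S : Setting C p n N k} {e e' : AddMonoid.End (Pts (baseLaw S).G)} {c c' : k}
    (h : RepEnd S e c) (h' : RepEnd S e' c') : RepEnd S (e * e') (c * c') := by
  obtain ⟨g, hg, rfl, rfl⟩ := h
  obtain ⟨g', hg', rfl, rfl⟩ := h'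
  exact ⟨_, hg'.comp hg, homEnd_comp S hg' hg, coeff_one_subst hg'.constantCoeff_eq⟩

lemma RepEnd.one (S : Setting C p n N k) : RepEnd S 1 1 := by
  refine ⟨PowerSeries.X, isHom_X S.Γ, ?_, by simp⟩
  ext x
  rw [homEnd_v, ev1_X]
  rfl

lemma RepEnd.zero (S : Setting C p n N k) : RepEnd S 0 0 := by
  refine ⟨0, isHom_zero S.Γ, ?_, by simp⟩
  ext x
  rw [homEnd_v]
  have : ev1 S.κ x.o (0 : PowerSeries k) = 0 := Ev_zero _ _ (fun _ => x.norm_lt)
  rw [this]
  rfl

lemma RepEnd.mulSeries (S : Setting C p n N k) (m : ℕ) :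
    RepEnd S (m • (1 : AddMonoid.End (Pts (baseLaw S).G))) (m : k) :=
  ⟨_, IsHom.mulSeries (F := S.Γ) m, homEnd_mulSeries S m, coeff_one_mulSeries S.Γ m⟩

lemma RepEnd.exists_gamma (S : Setting C p n N k) (hω : HOm S) (hF : HFr S) (s : ℕ) (d : ℕ → k) :
    ∃ c, RepEnd S (gammaEnd S hω hF s d) c := by
  have hphi : RepEnd S (phiEnd S hF) (PowerSeries.coeff 1 (PowerSeries.X ^ p : PowerSeries k)) :=
    ⟨_, IsHom.X_pow p hF, rfl, rfl⟩
  have hpow : ∀ i, ∃ c, RepEnd S ((phiEnd S hF) ^ i) c := by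
    intro i
    induction i with
    | zero => exact ⟨1, by simpa using RepEnd.one S⟩
    | succ i ih =>
      obtain ⟨c, hc⟩ := ih
      refine ⟨c * PowerSeries.coeff 1 (PowerSeries.X ^ p : PowerSeries k), ?_⟩
      rw [pow_succ]
      exact hc.mul hphi
  unfold gammaEnd
  induction s with
  | zero => exact ⟨0, by simpa using RepEnd.zero S⟩
  | succ s ih =>
    obtain ⟨c, hc⟩ := ih
    obtain ⟨c', hc'⟩ := hpow s
    refine ⟨c + PowerSeries.coeff 1 (PowerSeries.C (d s) * PowerSeries.X : PowerSeries k) * c', ?_⟩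
    rw [Finset.sum_range_succ]
    exact hc.add (RepEnd.mul ⟨_, hω (d s), rfl, rfl⟩ hc')

/-- There is a series over `k` acting as `1 + p^(t + 1) γ`.

Proof: endomorphisms of `Γ` over `k` are stable under the sum `IsHom.add`, composition `IsHom.comp`, and contain `[m]`, `C a * X`, `X ^ p`. Take for `g` the sum of `X` and of the composite of `∑_{i<s} (C (d i) * X) ∘ X^(p^i)` with `[p^(t+1)]`.
The coefficient of `X` in `g` is `1` since `[p^(t+1)]_Γ = X^(p^(n (t+1)))` has no linear term. Evaluating: `evPt` of a sum is the sum of `evPt`, etc. -/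
theorem exists_digit_series (S : Setting C p n N k) (hω : HOm S) (hF : HFr S) (s t : ℕ) (d : ℕ → k) :
    ∃ g : PowerSeries k, ∃ hg : IsHom S.Γ S.Γ g, IsUnit (PowerSeries.coeff 1 g) ∧
      homEnd S hg = 1 + (p ^ (t + 1) : ℕ) • gammaEnd S hω hF s d := by
  obtain ⟨c, hc⟩ := RepEnd.exists_gamma S hω hF s d
  have h := (RepEnd.one S).add (hc.mul (RepEnd.mulSeries S (p ^ (t + 1))))
  have h0 : ((p ^ (t + 1) : ℕ) : k) = 0 := by
    rw [Nat.cast_pow, CharP.cast_eq_zero k p]
    simp
  rw [h0, mul_zero, add_zero, mul_smul_comm, mul_one] at h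
  obtain ⟨g, hg, h1, h2⟩ := h
  refine ⟨g, hg, ?_, h1⟩
  rw [h2]
  exact isUnit_one

end Vale.Agent.Lib.P217
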