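import Vale.Agent.Lib.P217.OC

namespace Vale.Agent.Lib.P217

open scoped Topology
open Filter

variable {C : Type*} [NormedField C] [IsUltrametricDist C]

section Ev

variable {B σ τ : Type*} [CommRing B]

/-- Evaluation of a power series with coefficients in `B` through `φ : B → OC C` at `a`. -/
noncomputable def Ev (φ : B →+* OC C) (a : σ → OC C) (f : MvPowerSeries σ B) : OC C :=
  letI : UniformSpace B := ⊥
  MvPowerSeries.eval₂ φ a f

lemma hasEval_ball [Finite σ] {a : σ → OC C} (ha : ∀ s, ‖(a s : C)‖ < 1) :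
    MvPowerSeries.HasEval a := by
  refine ⟨fun s => ?_, ?_⟩
  · have : Tendsto (fun n : ℕ => (a s : C) ^ n) atTop (𝓝 0) :=
      tendsto_pow_atTop_nhds_zero_of_norm_lt_one (ha s)
    rw [IsTopologicallyNilpotent]
    rw [tendsto_subtype_rng]
    simpa using this
  · simp [Filter.cofinite_eq_bot]

variable [CompleteSpace C]

/-- Evaluation as a ring homomorphism. -/
noncomputable def EvHom [Finite σ] (φ : B →+* OC C) (a : σ → OC C) (ha : ∀ s, ‖(a s : C)‖ < 1) :
    MvPowerSeries σ B →+* OC C :=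
  letI : UniformSpace B := ⊥
  haveI : DiscreteUniformity B := ⟨rfl⟩
  MvPowerSeries.eval₂Hom (φ := φ) continuous_of_discreteTopology (hasEval_ball ha)

lemma EvHom_apply [Finite σ] (φ : B →+* OC C) (a : σ → OC C) (ha : ∀ s, ‖(a s : C)‖ < 1)
    (f : MvPowerSeries σ B) : EvHom φ a ha f = Ev φ a f := by
  let _ : UniformSpace B := ⊥
  have : DiscreteUniformity B := ⟨rfl⟩
  simp only [EvHom, Ev]
  exact congrFun (MvPowerSeries.coe_eval₂Hom (φ := φ) continuous_of_discreteTopology (hasEval_ball ha)) f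

lemma hasSum_Ev [Finite σ] (φ : B →+* OC C) (a : σ → OC C) (ha : ∀ s, ‖(a s : C)‖ < 1)
    (f : MvPowerSeries σ B) :
    HasSum (fun d : σ →₀ ℕ => φ (MvPowerSeries.coeff d f) * d.prod fun s e => a s ^ e) (Ev φ a f) := by
  let _ : UniformSpace B := ⊥
  have : DiscreteUniformity B := ⟨rfl⟩
  exact MvPowerSeries.hasSum_eval₂ (φ := φ) continuous_of_discreteTopology (hasEval_ball ha) f

/-- Chain rule. -/
lemma Ev_subst [Finite σ] [Finite τ] (φ : B →+* OC C) {a : σ → MvPowerSeries τ B}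
    (ha : MvPowerSeries.HasSubst a)
    (b : τ → OC C) (hb : ∀ s, ‖(b s : C)‖ < 1) (f : MvPowerSeries σ B) :
    Ev φ b (MvPowerSeries.subst a f) = Ev φ (fun s => Ev φ b (a s)) f := by
  let _ : UniformSpace B := ⊥
  have : DiscreteUniformity B := ⟨rfl⟩
  let _ : Algebra B (OC C) := φ.toAlgebra
  exact MvPowerSeries.eval₂_subst (R := B) (S := B) (T := OC C) ha (hasEval_ball hb) f

lemma Ev_add [Finite σ] (φ : B →+* OC C) (a : σ → OC C) (ha : ∀ s, ‖(a s : C)‖ < 1)
    (f g : MvPowerSeries σ B) : Ev φ a (f + g) = Ev φ a f + Ev φ a g := by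
  simp only [← EvHom_apply φ a ha, map_add]

lemma Ev_sub [Finite σ] (φ : B →+* OC C) (a : σ → OC C) (ha : ∀ s, ‖(a s : C)‖ < 1)
    (f g : MvPowerSeries σ B) : Ev φ a (f - g) = Ev φ a f - Ev φ a g := by
  simp only [← EvHom_apply φ a ha, map_sub]

lemma Ev_mul [Finite σ] (φ : B →+* OC C) (a : σ → OC C) (ha : ∀ s, ‖(a s : C)‖ < 1)
    (f g : MvPowerSeries σ B) : Ev φ a (f * g) = Ev φ a f * Ev φ a g := by
  simp only [← EvHom_apply φ a ha, map_mul]

lemma Ev_pow [Finite σ] (φ : B →+* OC C) (a : σ → OC C) (ha : ∀ s, ‖(a s : C)‖ < 1)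
    (f : MvPowerSeries σ B) (m : ℕ) : Ev φ a (f ^ m) = Ev φ a f ^ m := by
  simp only [← EvHom_apply φ a ha, map_pow]

lemma Ev_zero [Finite σ] (φ : B →+* OC C) (a : σ → OC C) (ha : ∀ s, ‖(a s : C)‖ < 1) :
    Ev φ a (0 : MvPowerSeries σ B) = 0 := by
  simp only [← EvHom_apply φ a ha, map_zero]

lemma Ev_one [Finite σ] (φ : B →+* OC C) (a : σ → OC C) (ha : ∀ s, ‖(a s : C)‖ < 1) :
    Ev φ a (1 : MvPowerSeries σ B) = 1 := by
  simp only [← EvHom_apply φ a ha, map_one]

lemma Ev_C (φ : B →+* OC C) (a : σ → OC C) (r : B) :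
    Ev φ a (MvPowerSeries.C r : MvPowerSeries σ B) = φ r := by
  let _ : UniformSpace B := ⊥
  exact MvPowerSeries.eval₂_C φ a r

lemma Ev_X (φ : B →+* OC C) (a : σ → OC C) (s : σ) :
    Ev φ a (MvPowerSeries.X s : MvPowerSeries σ B) = a s := by
  let _ : UniformSpace B := ⊥
  exact MvPowerSeries.eval₂_X φ a s

/-- Coefficient change. -/
lemma Ev_map [Finite σ] {B' : Type*} [CommRing B'] (h : B →+* B') (ψ : B' →+* OC C) (a : σ → OC C)
    (ha : ∀ s, ‖(a s : C)‖ < 1) (f : MvPowerSeries σ B) :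
    Ev ψ a (MvPowerSeries.map h f) = Ev (ψ.comp h) a f := by
  have h1 := hasSum_Ev ψ a ha (MvPowerSeries.map h f)
  have h2 := hasSum_Ev (ψ.comp h) a ha f
  simp only [MvPowerSeries.coeff_map, RingHom.comp_apply] at h1 h2
  exact h1.unique h2

end Ev

section Bounds

variable [CompleteSpace C] {B σ τ : Type*} [CommRing B]

omit [CompleteSpace C] in
lemma norm_sum_le_of_hasSum {ι : Type*} {f : ι → OC C} {s : OC C} (h : HasSum f s) {r : ℝ}
    (hr : 0 ≤ r) (hf : ∀ i, ‖(f i : C)‖ ≤ r) : ‖(s : C)‖ ≤ r := by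
  have h' : HasSum (fun i => (f i : C)) (s : C) :=
    h.map (OC C).subtype continuous_subtype_val
  rw [← h'.tsum_eq]
  exact IsUltrametricDist.norm_tsum_le_of_forall_le_of_nonneg hr hf

omit [CompleteSpace C] in
lemma finsupp_prod_sub_mem {σ : Type*} (I : Ideal (OC C)) (a a' : σ → OC C)
    (h : ∀ s, a s - a' s ∈ I) (d : σ →₀ ℕ) :
    (d.prod fun s e => a s ^ e) - (d.prod fun s e => a' s ^ e) ∈ I := by
  rw [← Ideal.Quotient.eq]
  simp only [Finsupp.prod, map_prod, map_pow]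
  refine Finset.prod_congr rfl fun s _ => ?_
  rw [Ideal.Quotient.eq.mpr (h s)]

/-- Main comparison estimate for evaluations. -/
lemma norm_Ev_sub_le [Finite σ] {B' : Type*} [CommRing B'] (φ : B →+* OC C) (φ' : B' →+* OC C)
    (a a' : σ → OC C) (ha : ∀ s, ‖(a s : C)‖ < 1) (ha' : ∀ s, ‖(a' s : C)‖ < 1)
    (f : MvPowerSeries σ B) (g : MvPowerSeries σ B') {ε : ℝ} (hε : 0 ≤ ε)
    (hc : ∀ d, ‖((φ (MvPowerSeries.coeff d f) : OC C) : C) - (φ' (MvPowerSeries.coeff d g) : OC C)‖ ≤ ε)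
    (hp : ∀ s, ‖(a s : C) - (a' s : C)‖ ≤ ε) :
    ‖((Ev φ a f : OC C) : C) - (Ev φ' a' g : OC C)‖ ≤ ε := by
  have h := (hasSum_Ev φ a ha f).sub (hasSum_Ev φ' a' ha' g)
  have := norm_sum_le_of_hasSum h hε ?_
  · simpa using this
  · intro d
    set I := cballIdeal (C := C) ε hε
    have h1 : φ (MvPowerSeries.coeff d f) - φ' (MvPowerSeries.coeff d g) ∈ I := by
      simpa [I, mem_cballIdeal] using hc d
    have h2 := finsupp_prod_sub_mem I a a' (fun s => by simpa [I, mem_cballIdeal] using hp s) d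
    have h3 : φ (MvPowerSeries.coeff d f) * (d.prod fun s e => a s ^ e) -
        φ' (MvPowerSeries.coeff d g) * (d.prod fun s e => a' s ^ e) ∈ I := by
      rw [← Ideal.Quotient.eq, map_mul, map_mul, Ideal.Quotient.eq.mpr h1, Ideal.Quotient.eq.mpr h2]
    exact h3

end Bounds

section OneVar

variable [CompleteSpace C] {B : Type*} [CommRing B]

/-- Evaluation of a one variable power series. -/
noncomputable def ev1 (φ : B →+* OC C) (x : OC C) (f : PowerSeries B) : OC C :=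
  Ev φ (fun _ : Unit => x) f

lemma hasSum_ev1 (φ : B →+* OC C) {x : OC C} (hx : ‖(x : C)‖ < 1) (f : PowerSeries B) :
    HasSum (fun j : ℕ => φ (PowerSeries.coeff j f) * x ^ j) (ev1 φ x f) := by
  have h := hasSum_Ev φ (fun _ : Unit => x) (fun _ => hx) f
  let e : ℕ ≃ (Unit →₀ ℕ) := (Finsupp.equivFunOnFinite.trans (Equiv.funUnique Unit ℕ)).symm
  have h2 := (Equiv.hasSum_iff e).mpr h
  have h3 : ((fun d : Unit →₀ ℕ => φ (MvPowerSeries.coeff d f) * d.prod fun s e => x ^ e) ∘ e)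
      = fun j : ℕ => φ (PowerSeries.coeff j f) * x ^ j := by
    funext j
    have h4 : (e j) = Finsupp.single () j := by
      ext u
      simp [e, Equiv.funUnique]
    simp only [Function.comp, h4]
    rw [Finsupp.prod_single_index (by simp)]
    rfl
  rw [h3] at h2
  exact h2

lemma ev1_subst (φ : B →+* OC C) {g f : PowerSeries B} (hg : PowerSeries.HasSubst g)
    {x : OC C} (hx : ‖(x : C)‖ < 1) :
    ev1 φ x (PowerSeries.subst g f) = ev1 φ (ev1 φ x g) f := by
  have := Ev_subst φ (a := fun _ : Unit => (g : MvPowerSeries Unit B)) hg.const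
    (fun _ : Unit => x) (fun _ => hx) f
  exact this

lemma Ev_psubst {τ : Type*} [Finite τ] (φ : B →+* OC C) {g : MvPowerSeries τ B}
    (hg : PowerSeries.HasSubst g) {f : PowerSeries B} (b : τ → OC C) (hb : ∀ s, ‖(b s : C)‖ < 1) :
    Ev φ b (PowerSeries.subst g f) = ev1 φ (Ev φ b g) f := by
  have := Ev_subst φ (a := fun _ : Unit => g) hg.const b hb f
  exact this

lemma ev1_X (φ : B →+* OC C) (x : OC C) : ev1 φ x (PowerSeries.X : PowerSeries B) = x :=
  Ev_X φ (fun _ : Unit => x) ()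

lemma ev1_C (φ : B →+* OC C) (x : OC C) (r : B) : ev1 φ x (PowerSeries.C r : PowerSeries B) = φ r :=
  Ev_C φ (fun _ : Unit => x) r

end OneVar

end Vale.Agent.Lib.P217
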