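import Vale.Agent.Lib.P217.Ev
import Vale.Agent.Lib.P217.Defs

set_option linter.unusedSectionVars false
set_option linter.unusedVariables false

namespace Vale.Agent.Lib.P217

open scoped Topology
open Filter

variable {C : Type*} [NormedField C] [IsUltrametricDist C]

/-- The open unit ball. -/
abbrev Ball (C : Type*) [NormedField C] [IsUltrametricDist C] := {x : OC C // ‖(x : C)‖ < 1}

/-- The value in `C`. -/
abbrev Ball.v (x : Ball C) : C := (x.1 : C)

section basic

variable [CompleteSpace C] {B σ τ : Type*} [CommRing B]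

lemma norm_Ev_le_of_zero [Finite σ] (φ : B →+* OC C) (a : σ → OC C) (ha : ∀ s, ‖(a s : C)‖ < 1)
    (f : MvPowerSeries σ B) (hf : MvPowerSeries.constantCoeff f = 0) {r : ℝ} (hr : 0 ≤ r)
    (hb : ∀ s, ‖(a s : C)‖ ≤ r) : ‖(Ev φ a f : C)‖ ≤ r := by
  refine norm_sum_le_of_hasSum (hasSum_Ev φ a ha f) hr ?_
  intro d
  by_cases hd : d = 0
  · subst hd
    have : MvPowerSeries.coeff (0 : σ →₀ ℕ) f = 0 := by
      simpa using hf
    simp [this, hr]
  · obtain ⟨s, hs⟩ := Finsupp.ne_iff.mp hd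
    have hs' : s ∈ d.support := by simpa using hs
    set I := cballIdeal (C := C) r hr
    have h1 : a s ^ d s ∈ I := by
      have hds : d s ≠ 0 := by simpa using hs
      exact I.pow_mem_of_mem (by simpa [I, mem_cballIdeal] using hb s) _ (Nat.pos_of_ne_zero hds)
    have h2 : (d.prod fun s e => a s ^ e) ∈ I := by
      rw [Finsupp.prod]
      exact I.prod_mem hs' h1
    have h3 : φ (MvPowerSeries.coeff d f) * (d.prod fun s e => a s ^ e) ∈ I :=
      I.mul_mem_left _ h2
    exact h3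

lemma Ev_subst2 {τ : Type*} [Finite τ] (φ : B →+* OC C) (g₀ g₁ : MvPowerSeries τ B)
    (h₀ : MvPowerSeries.constantCoeff g₀ = 0) (h₁ : MvPowerSeries.constantCoeff g₁ = 0)
    (b : τ → OC C) (hb : ∀ s, ‖(b s : C)‖ < 1) (f : MvPowerSeries (Fin 2) B) :
    Ev φ b (MvPowerSeries.subst ![g₀, g₁] f) = Ev φ ![Ev φ b g₀, Ev φ b g₁] f := by
  have hs : MvPowerSeries.HasSubst ![g₀, g₁] :=
    MvPowerSeries.hasSubst_of_constantCoeff_zero (by
      intro s; fin_cases s <;> simpa)
  rw [Ev_subst φ hs b hb f]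
  congr 1
  funext s
  fin_cases s <;> rfl

end basic

section FG

variable [CompleteSpace C]

variable (G : FormalGroup (OC C))

/-- Points of the open unit ball, to carry the law of `G`. -/
def Pts (_G : FormalGroup (OC C)) : Type _ := Ball C

/-- The value in `C` of a point. -/
def Pts.v {G : FormalGroup (OC C)} (x : Pts G) : C := ((x : Ball C).1 : C)

/-- The value in `OC` of a point. -/
def Pts.o {G : FormalGroup (OC C)} (x : Pts G) : OC C := (x : Ball C).1

lemma Pts.norm_lt {G : FormalGroup (OC C)} (x : Pts G) : ‖x.v‖ < 1 := (x : Ball C).2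

@[ext] lemma Pts.ext {G : FormalGroup (OC C)} {x y : Pts G} (h : x.v = y.v) : x = y :=
  Subtype.ext (Subtype.ext h)

/-- Make a point. -/
def Pts.mk {G : FormalGroup (OC C)} (x : C) (hx : ‖x‖ < 1) : Pts G :=
  (⟨⟨x, by exact hx.le⟩, hx⟩ : Ball C)

@[simp] lemma Pts.v_mk {G : FormalGroup (OC C)} (x : C) (hx : ‖x‖ < 1) :
    (Pts.mk x hx : Pts G).v = x := rfl

/-- Change of group law on the same set. -/
def Pts.cast {G G' : FormalGroup (OC C)} (x : Pts G) : Pts G' := x

@[simp] lemma Pts.v_cast {G G' : FormalGroup (OC C)} (x : Pts G) : (x.cast : Pts G').v = x.v := rfl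

lemma constantCoeff_G : MvPowerSeries.constantCoeff G.toPowerSeries = 0 := G.zero_constantCoeff

/-- The sum of two points. -/
noncomputable def Pts.add (x y : Pts G) : Pts G :=
  (⟨Ev (RingHom.id _) ![x.o, y.o] G.toPowerSeries, by
    have hb : ∀ s : Fin 2, ‖((![x.o, y.o] s : OC C) : C)‖ < 1 := by
      intro s; fin_cases s
      · exact x.norm_lt
      · exact y.norm_lt
    have hr : (0 : ℝ) ≤ max ‖x.v‖ ‖y.v‖ := le_max_of_le_left (norm_nonneg _)
    have := norm_Ev_le_of_zero (RingHom.id (OC C)) ![x.o, y.o] hb G.toPowerSeries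
      G.zero_constantCoeff hr (by
        intro s; fin_cases s
        · exact le_max_left _ _
        · exact le_max_right _ _)
    exact lt_of_le_of_lt this (max_lt x.norm_lt y.norm_lt)⟩ : Ball C)

noncomputable instance : Add (Pts G) := ⟨Pts.add G⟩

lemma Pts.add_v (x y : Pts G) :
    (x + y).v = (Ev (RingHom.id _) ![x.o, y.o] G.toPowerSeries : C) := rfl

lemma Pts.add_o (x y : Pts G) :
    (x + y).o = Ev (RingHom.id _) ![x.o, y.o] G.toPowerSeries := rfl

lemma norm_add_le (x y : Pts G) : ‖(x + y).v‖ ≤ max ‖x.v‖ ‖y.v‖ := by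
  have hb : ∀ s : Fin 2, ‖((![x.o, y.o] s : OC C) : C)‖ < 1 := by
    intro s; fin_cases s
    · exact x.norm_lt
    · exact y.norm_lt
  have hr : (0 : ℝ) ≤ max ‖x.v‖ ‖y.v‖ := le_max_of_le_left (norm_nonneg _)
  exact norm_Ev_le_of_zero (RingHom.id (OC C)) ![x.o, y.o] hb G.toPowerSeries
      G.zero_constantCoeff hr (by
        intro s; fin_cases s
        · exact le_max_left _ _
        · exact le_max_right _ _)

noncomputable instance : Zero (Pts G) := ⟨Pts.mk 0 (by simp)⟩

@[simp] lemma Pts.zero_v : (0 : Pts G).v = 0 := rfl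

lemma Pts.zero_o : (0 : Pts G).o = 0 := rfl

variable {G}

lemma Pts.norm_o_lt (x : Pts G) : ‖(x.o : C)‖ < 1 := x.norm_lt

lemma hb2 (x y : Pts G) : ∀ s : Fin 2, ‖((![x.o, y.o] s : OC C) : C)‖ < 1 := by
  intro s; fin_cases s
  · exact x.norm_lt
  · exact y.norm_lt

lemma hb3 (x y z : Pts G) : ∀ s : Fin 3, ‖((![x.o, y.o, z.o] s : OC C) : C)‖ < 1 := by
  intro s; fin_cases s
  · exact x.norm_lt
  · exact y.norm_lt
  · exact z.norm_lt

theorem Pts.add_assoc' (x y z : Pts G) : x + y + z = x + (y + z) := by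
  have h := G.assoc' (σ := Fin 3) (f₀ := MvPowerSeries.X 0) (f₁ := MvPowerSeries.X 1)
    (f₂ := MvPowerSeries.X 2) (PowerSeries.HasSubst.X 0) (PowerSeries.HasSubst.X 1)
    (PowerSeries.HasSubst.X 2)
  have h2 := congrArg (Ev (RingHom.id (OC C)) ![x.o, y.o, z.o]) h
  have c1 : MvPowerSeries.constantCoeff
      (MvPowerSeries.subst ![MvPowerSeries.X 0, MvPowerSeries.X 1] G.toPowerSeries :
        MvPowerSeries (Fin 3) (OC C)) = 0 :=
    MvPowerSeries.constantCoeff_subst_eq_zero
      (MvPowerSeries.hasSubst_of_constantCoeff_zero (by intro s; fin_cases s <;> simp))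
      (by intro s; fin_cases s <;> simp) G.zero_constantCoeff
  have c2 : MvPowerSeries.constantCoeff
      (MvPowerSeries.subst ![MvPowerSeries.X 1, MvPowerSeries.X 2] G.toPowerSeries :
        MvPowerSeries (Fin 3) (OC C)) = 0 :=
    MvPowerSeries.constantCoeff_subst_eq_zero
      (MvPowerSeries.hasSubst_of_constantCoeff_zero (by intro s; fin_cases s <;> simp))
      (by intro s; fin_cases s <;> simp) G.zero_constantCoeff
  rw [Ev_subst2 _ _ _ c1 (by simp) _ (hb3 x y z), Ev_subst2 _ _ _ (by simp) c2 _ (hb3 x y z),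
    Ev_subst2 _ _ _ (by simp) (by simp) _ (hb3 x y z), Ev_subst2 _ _ _ (by simp) (by simp) _ (hb3 x y z)]
    at h2
  simp only [Ev_X] at h2
  apply Pts.ext
  simp only [Pts.add_v, Pts.add_o]
  simpa using congrArg (fun t : OC C => (t : C)) h2

noncomputable instance : Add (Pts G) := ⟨Pts.add G⟩

theorem Pts.zero_add' (x : Pts G) : (0 : Pts G) + x = x := by
  have h := G.zero_add (σ := Unit) (f := MvPowerSeries.X ()) (PowerSeries.HasSubst.X ())
  have h2 := congrArg (Ev (RingHom.id (OC C)) (fun _ : Unit => x.o)) h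
  rw [Ev_subst2 _ _ _ (by simp) (by simp) (fun _ : Unit => x.o) (fun _ => x.norm_lt)] at h2
  simp only [Ev_X] at h2
  have h0 : Ev (RingHom.id (OC C)) (fun _ : Unit => x.o) (0 : MvPowerSeries Unit (OC C)) = 0 :=
    Ev_zero _ _ (fun _ => x.norm_lt)
  rw [h0] at h2
  apply Pts.ext
  exact congrArg (fun t : OC C => (t : C)) h2

theorem Pts.add_zero' (x : Pts G) : x + (0 : Pts G) = x := by
  have h := G.add_zero (σ := Unit) (f := MvPowerSeries.X ()) (PowerSeries.HasSubst.X ())
  have h2 := congrArg (Ev (RingHom.id (OC C)) (fun _ : Unit => x.o)) h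
  rw [Ev_subst2 _ _ _ (by simp) (by simp) (fun _ : Unit => x.o) (fun _ => x.norm_lt)] at h2
  simp only [Ev_X] at h2
  have h0 : Ev (RingHom.id (OC C)) (fun _ : Unit => x.o) (0 : MvPowerSeries Unit (OC C)) = 0 :=
    Ev_zero _ _ (fun _ => x.norm_lt)
  rw [h0] at h2
  apply Pts.ext
  exact congrArg (fun t : OC C => (t : C)) h2

theorem Pts.add_comm' [G.IsComm] (x y : Pts G) : x + y = y + x := by
  have h := G.comm' (σ := Fin 2) (f := MvPowerSeries.X 0) (g := MvPowerSeries.X 1)
    (PowerSeries.HasSubst.X 0) (PowerSeries.HasSubst.X 1)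
  have h2 := congrArg (Ev (RingHom.id (OC C)) ![x.o, y.o]) h
  rw [Ev_subst2 _ _ _ (by simp) (by simp) _ (hb2 x y),
    Ev_subst2 _ _ _ (by simp) (by simp) _ (hb2 x y)] at h2
  simp only [Ev_X] at h2
  apply Pts.ext
  simp only [Pts.add_v]
  simpa using congrArg (fun t : OC C => (t : C)) h2

noncomputable instance : AddMonoid (Pts G) where
  add_assoc := Pts.add_assoc'
  zero_add := Pts.zero_add'
  add_zero := Pts.add_zero'
  nsmul := nsmulRec

noncomputable instance [G.IsComm] : AddCommMonoid (Pts G) where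
  add_comm := Pts.add_comm'

end FG

end Vale.Agent.Lib.P217
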