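import Vale.Agent.Lib.P217.FG

set_option linter.unusedSectionVars false
set_option linter.unusedVariables false

namespace Vale.Agent.Lib.P217

open scoped Topology
open Filter

variable {C : Type*} [NormedField C] [IsUltrametricDist C] [CompleteSpace C]

section mul

variable {R : Type*} [CommRing R]

lemma constantCoeff_mulSeries (G : FormalGroup R) (m : ℕ) :
    PowerSeries.constantCoeff (mulSeries G m) = 0 := by
  induction m with
  | zero => simp [mulSeries]
  | succ m ih =>
    simp only [mulSeries]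
    have hc : MvPowerSeries.constantCoeff (mulSeries G m : MvPowerSeries Unit R) = 0 := ih
    have hX : MvPowerSeries.constantCoeff (PowerSeries.X : MvPowerSeries Unit R) = 0 :=
      PowerSeries.constantCoeff_X
    have h2 : ∀ s, MvPowerSeries.constantCoeff
        ((![mulSeries G m, (PowerSeries.X : PowerSeries R)] : Fin 2 → MvPowerSeries Unit R) s) = 0 := by
      intro s; fin_cases s
      · exact hc
      · exact hX
    exact MvPowerSeries.constantCoeff_subst_eq_zero (R := R) (S := R) (τ := Unit)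
      (a := ![mulSeries G m, (PowerSeries.X : PowerSeries R)])
      (MvPowerSeries.hasSubst_of_constantCoeff_zero h2) h2 G.zero_constantCoeff

end mul

variable {G G' : FormalGroup (OC C)}

lemma ev1_mulSeries (x : Pts G) (m : ℕ) :
    ev1 (RingHom.id _) x.o (mulSeries G m) = (m • x).o := by
  induction m with
  | zero =>
    simp only [mulSeries, zero_smul, Pts.zero_o]
    exact Ev_zero _ _ (fun _ => x.norm_lt)
  | succ m ih =>
    rw [succ_nsmul, Pts.add_o]
    simp only [mulSeries]
    have hc : MvPowerSeries.constantCoeff (mulSeries G m : MvPowerSeries Unit (OC C)) = 0 :=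
      constantCoeff_mulSeries G m
    have hX : MvPowerSeries.constantCoeff (PowerSeries.X : MvPowerSeries Unit (OC C)) = 0 :=
      PowerSeries.constantCoeff_X
    rw [ev1, Ev_subst2 _ _ _ hc hX (fun _ : Unit => x.o) (fun _ => x.norm_lt)]
    have e1 : Ev (RingHom.id (OC C)) (fun _ : Unit => x.o) (mulSeries G m) = (m • x).o := ih
    have e2 : Ev (RingHom.id (OC C)) (fun _ : Unit => x.o)
        (PowerSeries.X : MvPowerSeries Unit (OC C)) = x.o := ev1_X _ _
    rw [e1, e2]

lemma norm_ev1_le (f : PowerSeries (OC C)) (hf : PowerSeries.constantCoeff f = 0) (x : Pts G) :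
    ‖(ev1 (RingHom.id _) x.o f : C)‖ ≤ ‖x.v‖ :=
  norm_Ev_le_of_zero _ _ (fun _ => x.norm_lt) f hf (norm_nonneg _) (fun _ => le_rfl)

/-- A homomorphism of formal groups evaluated on points. -/
noncomputable def evPt (f : PowerSeries (OC C)) (hf : PowerSeries.constantCoeff f = 0)
    (x : Pts G) : Pts G' :=
  Pts.mk (ev1 (RingHom.id _) x.o f : C) (lt_of_le_of_lt (norm_ev1_le f hf x) x.norm_lt)

@[simp] lemma evPt_v (f : PowerSeries (OC C)) (hf : PowerSeries.constantCoeff f = 0) (x : Pts G) :
    (evPt f hf x : Pts G').v = ev1 (RingHom.id _) x.o f := rfl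

lemma evPt_o (f : PowerSeries (OC C)) (hf : PowerSeries.constantCoeff f = 0) (x : Pts G) :
    (evPt f hf x : Pts G').o = ev1 (RingHom.id _) x.o f := rfl

/-- Values of a homomorphism. -/
lemma evPt_add {f : PowerSeries (OC C)} (h : IsHom G G' f) (x y : Pts G) :
    (evPt f h.constantCoeff_eq (x + y) : Pts G') =
      evPt f h.constantCoeff_eq x + evPt f h.constantCoeff_eq y := by
  have h1 := congrArg (Ev (RingHom.id (OC C)) ![x.o, y.o]) h.map_add
  have hfc : MvPowerSeries.constantCoeff (f : MvPowerSeries Unit (OC C)) = 0 := h.constantCoeff_eq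
  have hs0 : PowerSeries.HasSubst (MvPowerSeries.X 0 : MvPowerSeries (Fin 2) (OC C)) :=
    PowerSeries.HasSubst.X 0
  have hs1 : PowerSeries.HasSubst (MvPowerSeries.X 1 : MvPowerSeries (Fin 2) (OC C)) :=
    PowerSeries.HasSubst.X 1
  have c0 : MvPowerSeries.constantCoeff
      (PowerSeries.subst (MvPowerSeries.X 0 : MvPowerSeries (Fin 2) (OC C)) f) = 0 :=
    PowerSeries.constantCoeff_subst_eq_zero (by simp) f h.constantCoeff_eq
  have c1 : MvPowerSeries.constantCoeff
      (PowerSeries.subst (MvPowerSeries.X 1 : MvPowerSeries (Fin 2) (OC C)) f) = 0 :=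
    PowerSeries.constantCoeff_subst_eq_zero (by simp) f h.constantCoeff_eq
  rw [Ev_subst2 _ _ _ c0 c1 _ (hb2 x y), Ev_psubst _ hs0 _ (hb2 x y), Ev_psubst _ hs1 _ (hb2 x y),
    Ev_psubst _ (PowerSeries.HasSubst.of_constantCoeff_zero G.zero_constantCoeff) _ (hb2 x y)] at h1
  simp only [Ev_X] at h1
  apply Pts.ext
  rw [Pts.add_v, evPt_v, Pts.add_o]
  have h2 := congrArg (fun t : OC C => (t : C)) h1
  simp only [evPt_o]
  exact h2.symm

/-- Lipschitz estimate for the group law. -/
lemma norm_add_sub_add_le (x y x' y' : Pts G) {ε : ℝ} (hε : 0 ≤ ε) (h1 : ‖x.v - x'.v‖ ≤ ε)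
    (h2 : ‖y.v - y'.v‖ ≤ ε) : ‖(x + y).v - (x' + y').v‖ ≤ ε := by
  refine norm_Ev_sub_le _ _ _ _ (hb2 x y) (hb2 x' y') _ _ hε (fun d => by simpa using hε) ?_
  · intro s; fin_cases s
    · exact h1
    · exact h2

end Vale.Agent.Lib.P217
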