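import Mathlib

namespace Vale.Agent.Lib.P217

universe u


section RealLog

variable {Γ : Type*} [LinearOrderedCommGroupWithZero Γ]

/-- The exponents `m / n` with `γ ^ n ≤ g ^ m`. -/
def expSet (g γ : Γ) : Set ℝ :=
  {q | ∃ (m : ℤ) (n : ℕ), 0 < n ∧ q = (m : ℝ) / n ∧ γ ^ n ≤ g ^ m}

theorem zpow_le_zpow_iff_of_lt_one' {g : Γ} (hg0 : g ≠ 0) (hg1 : g < 1) {a b : ℤ} :
    g ^ a ≤ g ^ b ↔ b ≤ a :=
  zpow_le_zpow_iff_right_of_lt_one₀ (zero_lt_iff.2 hg0) hg1

/-- The logarithm to the base `g` of the value group. -/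
theorem exists_real_log (g : Γ) (hg0 : g ≠ 0) (hg1 : g < 1)
    (H : ∀ γ : Γ, γ ≠ 0 → ∃ N : ℕ, g ^ N ≤ γ) :
    ∃ ℓ : Γ → ℝ, (∀ γ δ, γ ≠ 0 → δ ≠ 0 → ℓ (γ * δ) = ℓ γ + ℓ δ) ∧
      (∀ γ δ, γ ≠ 0 → γ ≤ δ → ℓ δ ≤ ℓ γ) ∧ ℓ g = 1 ∧ ℓ 1 = 0 := by
  classical
  have hne : ∀ γ : Γ, γ ≠ 0 → (expSet g γ).Nonempty := by
    intro γ hγ
    obtain ⟨N, hN⟩ := H γ⁻¹ (inv_ne_zero hγ)
    refine ⟨((-(N : ℤ) : ℤ) : ℝ) / (1 : ℕ), -(N : ℤ), 1, Nat.one_pos, rfl, ?_⟩
    rw [pow_one, zpow_neg, zpow_natCast]
    exact (le_inv_comm₀ (zero_lt_iff.2 hγ) (zero_lt_iff.2 (pow_ne_zero N hg0))).2 hN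
  have hbdd : ∀ γ : Γ, γ ≠ 0 → BddAbove (expSet g γ) := by
    intro γ hγ
    obtain ⟨N, hN⟩ := H γ hγ
    refine ⟨(N : ℝ), ?_⟩
    rintro q ⟨m, n, hn, rfl, hq⟩
    have h1 : g ^ ((N * n : ℕ) : ℤ) ≤ g ^ m := by
      rw [zpow_natCast, pow_mul]
      exact (pow_le_pow_left₀ zero_le hN n).trans hq
    have h2 : m ≤ ((N * n : ℕ) : ℤ) := (zpow_le_zpow_iff_of_lt_one' hg0 hg1).1 h1
    have h3 : (m : ℝ) ≤ (N : ℝ) * n := by exact_mod_cast h2
    have hn' : (0 : ℝ) < n := by exact_mod_cast hn
    exact (div_le_iff₀ hn').2 h3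
  have hadd : ∀ γ δ : Γ, ∀ q ∈ expSet g γ, ∀ r ∈ expSet g δ, q + r ∈ expSet g (γ * δ) := by
    rintro γ δ q ⟨m, n, hn, rfl, hq⟩ r ⟨m', n', hn', rfl, hr⟩
    refine ⟨m * n' + m' * n, n * n', Nat.mul_pos hn hn', ?_, ?_⟩
    · have h1 : (n : ℝ) ≠ 0 := by exact_mod_cast hn.ne'
      have h2 : (n' : ℝ) ≠ 0 := by exact_mod_cast hn'.ne'
      push_cast
      field_simp
    · have h1 : (γ ^ n) ^ n' ≤ (g ^ m) ^ n' := pow_le_pow_left₀ zero_le hq n'
      have h2 : (δ ^ n') ^ n ≤ (g ^ m') ^ n := pow_le_pow_left₀ zero_le hr n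
      have h3 : (γ * δ) ^ (n * n') = (γ ^ n) ^ n' * (δ ^ n') ^ n := by
        rw [mul_pow, ← pow_mul, ← pow_mul, mul_comm n' n]
      have h4 : g ^ (m * n' + m' * n) = (g ^ m) ^ n' * (g ^ m') ^ n := by
        rw [zpow_add₀ hg0, zpow_mul, zpow_mul, zpow_natCast, zpow_natCast]
      rw [h3, h4]
      exact mul_le_mul' h1 h2
  let ℓ : Γ → ℝ := fun γ => sSup (expSet g γ)
  have hle : ∀ γ : Γ, γ ≠ 0 → ∀ q ∈ expSet g γ, q ≤ ℓ γ :=
    fun γ hγ q hq => le_csSup (hbdd γ hγ) hq
  have hsuper : ∀ γ δ : Γ, γ ≠ 0 → δ ≠ 0 → ℓ γ + ℓ δ ≤ ℓ (γ * δ) := by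
    intro γ δ hγ hδ
    have h1 : ∀ q ∈ expSet g γ, ℓ δ ≤ ℓ (γ * δ) - q := by
      intro q hq
      refine csSup_le (hne δ hδ) ?_
      intro r hr
      have := hle (γ * δ) (mul_ne_zero hγ hδ) _ (hadd γ δ q hq r hr)
      linarith
    have h2 : ℓ γ ≤ ℓ (γ * δ) - ℓ δ := by
      refine csSup_le (hne γ hγ) ?_
      intro q hq
      have := h1 q hq
      linarith
    linarith
  have hinv : ∀ γ : Γ, γ ≠ 0 → -ℓ γ ≤ ℓ γ⁻¹ := by
    intro γ hγ
    by_contra hcon
    push Not at hcon
    have h0 : ℓ γ < -ℓ γ⁻¹ := by linarith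
    obtain ⟨q, hq1, hq2⟩ := exists_rat_btwn h0
    have hden : 0 < q.den := q.den_pos
    have hdenR : (q.num : ℝ) / (q.den : ℝ) = (q : ℝ) := by
      exact_mod_cast Rat.num_div_den q
    have h1 : ¬ γ ^ q.den ≤ g ^ q.num := by
      intro h
      have h2 := hle γ hγ _ ⟨q.num, q.den, hden, rfl, h⟩
      rw [hdenR] at h2
      linarith
    push Not at h1
    have h2 : (γ⁻¹) ^ q.den ≤ g ^ (-q.num) := by
      rw [inv_pow, zpow_neg]
      exact (inv_le_inv₀ (zero_lt_iff.2 (pow_ne_zero _ hγ))
        (zero_lt_iff.2 (zpow_ne_zero _ hg0))).2 h1.le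
    have h3 := hle γ⁻¹ (inv_ne_zero hγ) _ ⟨-q.num, q.den, hden, rfl, h2⟩
    have h4 : (((-q.num : ℤ) : ℝ)) / (q.den : ℝ) = -(q : ℝ) := by
      rw [Int.cast_neg, neg_div, hdenR]
    rw [h4] at h3
    linarith
  have hmul : ∀ γ δ : Γ, γ ≠ 0 → δ ≠ 0 → ℓ (γ * δ) = ℓ γ + ℓ δ := by
    intro γ δ hγ hδ
    refine le_antisymm ?_ (hsuper γ δ hγ hδ)
    have h1 := hsuper (γ * δ) δ⁻¹ (mul_ne_zero hγ hδ) (inv_ne_zero hδ)
    have h2 : γ * δ * δ⁻¹ = γ := mul_inv_cancel_right₀ hδ γ
    rw [h2] at h1
    have h3 := hinv δ hδ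
    linarith
  have hmono : ∀ γ δ : Γ, γ ≠ 0 → γ ≤ δ → ℓ δ ≤ ℓ γ := by
    intro γ δ hγ hγδ
    have hδ : δ ≠ 0 := fun h => hγ (le_antisymm (h ▸ hγδ) zero_le)
    refine csSup_le_csSup (hbdd γ hγ) (hne δ hδ) ?_
    rintro q ⟨m, n, hn, rfl, hq⟩
    exact ⟨m, n, hn, rfl, (pow_le_pow_left₀ zero_le hγδ n).trans hq⟩
  refine ⟨ℓ, hmul, hmono, ?_, ?_⟩
  · apply le_antisymm
    · refine csSup_le (hne g hg0) ?_
      rintro q ⟨m, n, hn, rfl, hq⟩
      have h1 : g ^ ((n : ℕ) : ℤ) ≤ g ^ m := by rwa [zpow_natCast]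
      have h2 : m ≤ (n : ℤ) := (zpow_le_zpow_iff_of_lt_one' hg0 hg1).1 h1
      have h3 : (m : ℝ) ≤ n := by exact_mod_cast h2
      have hn' : (0 : ℝ) < n := by exact_mod_cast hn
      exact (div_le_one hn').2 h3
    · have h1 : (1 : ℝ) ∈ expSet g g := ⟨1, 1, Nat.one_pos, by norm_num, by simp⟩
      exact hle g hg0 _ h1
  · have h1 := hmul 1 1 one_ne_zero one_ne_zero
    rw [mul_one] at h1
    linarith

/-- From a valuation with cofinal powers of `g` to a real absolute value. -/
theorem exists_absoluteValue_of_valuation {K : Type*} [Field K] (v : Valuation K Γ)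
    (hv : Function.Surjective v) (x : K) (hx0 : x ≠ 0) (hx1 : v x < 1)
    (H : ∀ y : K, y ≠ 0 → ∃ N : ℕ, (v x) ^ N ≤ v y) :
    ∃ f : AbsoluteValue K ℝ, (∀ y z, f (y + z) ≤ max (f y) (f z)) ∧
      (∀ y, v y ≤ 1 → f y ≤ 1) ∧ (∀ y, v y ≤ v x → f y ≤ 1 / 2) := by
  classical
  have hg0 : v x ≠ 0 := (Valuation.ne_zero_iff v).2 hx0
  obtain ⟨ℓ, hmul, hmono, hg, h1⟩ := exists_real_log (v x) hg0 hx1 (by
    intro γ hγ
    obtain ⟨y, rfl⟩ := hv γ
    exact H y ((Valuation.ne_zero_iff v).1 hγ))
  let φ : Γ → ℝ := fun γ => if γ = 0 then 0 else (1 / 2 : ℝ) ^ ℓ γ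
  have hφ0 : ∀ γ, 0 ≤ φ γ := by
    intro γ
    simp only [φ]
    split_ifs <;> positivity
  have hφpos : ∀ γ, γ ≠ 0 → φ γ = (1 / 2 : ℝ) ^ ℓ γ := fun γ hγ => if_neg hγ
  have hφzero : φ 0 = 0 := if_pos rfl
  have hφmul : ∀ γ δ, φ (γ * δ) = φ γ * φ δ := by
    intro γ δ
    by_cases hγ : γ = 0
    · simp [hγ, hφzero]
    by_cases hδ : δ = 0
    · simp [hδ, hφzero]
    rw [hφpos _ (mul_ne_zero hγ hδ), hφpos _ hγ, hφpos _ hδ, hmul γ δ hγ hδ,
      Real.rpow_add (by norm_num)]
  have hφmono : Monotone φ := by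
    intro γ δ hγδ
    by_cases hγ : γ = 0
    · rw [hγ, hφzero]; exact hφ0 δ
    have hδ : δ ≠ 0 := fun h => hγ (le_antisymm (h ▸ hγδ) zero_le)
    rw [hφpos _ hγ, hφpos _ hδ]
    exact Real.rpow_le_rpow_of_exponent_ge (by norm_num) (by norm_num) (hmono γ δ hγ hγδ)
  have hφne : ∀ γ, φ γ = 0 ↔ γ = 0 := by
    intro γ
    constructor
    · intro h
      by_contra hγ
      rw [hφpos _ hγ] at h
      exact absurd h (by positivity)
    · rintro rfl; exact hφzero
  have hmax : ∀ y z, φ (v (y + z)) ≤ max (φ (v y)) (φ (v z)) := by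
    intro y z
    have h2 := hφmono (v.map_add y z)
    rwa [hφmono.map_max] at h2
  let f : AbsoluteValue K ℝ :=
    { toFun := fun y => φ (v y)
      map_mul' := fun y z => by simp only [map_mul, hφmul]
      nonneg' := fun y => hφ0 _
      eq_zero' := fun y => by
        rw [hφne]
        exact Valuation.zero_iff v
      add_le' := fun y z => by
        refine (hmax y z).trans (max_le ?_ ?_)
        · have := hφ0 (v z); linarith
        · have := hφ0 (v y); linarith }
  have hf : ∀ y, f y = φ (v y) := fun y => rfl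
  refine ⟨f, fun y z => hmax y z, ?_, ?_⟩
  · intro y hy
    rw [hf]
    have h2 := hφmono hy
    rw [hφpos 1 one_ne_zero, h1] at h2
    simpa using h2
  · intro y hy
    rw [hf]
    have h2 := hφmono hy
    rw [hφpos _ hg0, hg] at h2
    simpa using h2

end RealLog

section Subring

/-- A Noetherian subring of a field and a nonzero nonunit `x`: a valuation ring in which the powers
of `x` are cofinal among the values of nonzero elements of the subring. -/
theorem exists_valuationSubring_of_noetherian {K : Type*} [Field K] (A : Subring K)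
    [IsNoetherianRing A] (x : A) (hx0 : (x : K) ≠ 0) (hx : Ideal.span {x} ≠ ⊤) :
    ∃ V : ValuationSubring K, A ≤ V.toSubring ∧ V.valuation x < 1 ∧
      ∀ a : A, a ≠ 0 → ∃ N : ℕ, (V.valuation x) ^ N ≤ V.valuation a := by
  classical
  obtain ⟨Q, hQ⟩ := Ideal.nonempty_minimalPrimes hx
  have hQp : Q.IsPrime := hQ.isPrime
  have hQ1 : Q.height ≤ 1 :=
    Ideal.height_le_one_of_isPrincipal_of_mem_minimalPrimes (Ideal.span {x}) Q hQ
  have hxQ : x ∈ Q := hQ.1.2 (Ideal.mem_span_singleton_self x)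
  obtain ⟨V, hV⟩ := (LocalSubring.ofPrime A Q).exists_le_valuationSubring
  have hAV : A ≤ V.toSubring := (LocalSubring.le_ofPrime A Q).trans hV.1
  obtain ⟨hle, hloc⟩ := hV
  have hunit : ∀ s : A, (V.valuation (s : K) = 1 ↔ s ∉ Q) := by
    intro s
    have h1 := IsLocalization.AtPrime.isUnit_to_map_iff (LocalSubring.ofPrime A Q).toSubring Q s
    let s' : (LocalSubring.ofPrime A Q).toSubring :=
      algebraMap A (LocalSubring.ofPrime A Q).toSubring s
    have h2 : IsUnit (Subring.inclusion hle s') ↔ IsUnit s' := isUnit_map_iff _ _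
    have h3 : IsUnit (Subring.inclusion hle s') ↔ V.valuation (s : K) = 1 :=
      ValuationSubring.valuation_eq_one_iff V (⟨(s : K), hAV s.2⟩ : V)
    rw [← h3, h2]
    exact h1
  set v := V.valuation with hv
  have hle1 : ∀ s : A, v (s : K) ≤ 1 := fun s => (V.valuation_le_one_iff _).2 (hAV s.2)
  have hg0 : v (x : K) ≠ 0 := (Valuation.ne_zero_iff v).2 hx0
  have hg1 : v (x : K) < 1 := by
    refine lt_of_le_of_ne (hle1 x) ?_
    intro h
    exact ((hunit x).1 h) hxQ
  refine ⟨V, hAV, hg1, ?_⟩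
  -- the prime of infinitesimal elements
  let P : Ideal A :=
    { carrier := {a | ∀ N : ℕ, v (a : K) < v (x : K) ^ N}
      add_mem' := by
        intro a b ha hb N
        have h1 := v.map_add_lt (ha N) (hb N)
        simpa using h1
      zero_mem' := by
        intro N
        simpa using zero_lt_iff.2 (pow_ne_zero N hg0)
      smul_mem' := by
        intro c a ha N
        have h1 := ha N
        have h2 : v ((c • a : A) : K) = v (c : K) * v (a : K) := by
          simp [smul_eq_mul, map_mul]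
        rw [h2]
        exact lt_of_le_of_lt (mul_le_of_le_one_left' (hle1 c)) h1 }
  have hPmem : ∀ a : A, a ∈ P ↔ ∀ N : ℕ, v (a : K) < v (x : K) ^ N := fun a => Iff.rfl
  have hPprime : P.IsPrime := by
    refine ⟨?_, ?_⟩
    · intro h
      have h1 : (1 : A) ∈ P := h ▸ Submodule.mem_top
      have h2 := ((hPmem 1).1 h1) 0
      simp at h2
    · intro a b hab
      by_contra hcon
      push Not at hcon
      obtain ⟨ha, hb⟩ := hcon
      rw [hPmem] at ha hb
      push Not at ha hb
      obtain ⟨N, hN⟩ := ha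
      obtain ⟨M, hM⟩ := hb
      have h1 := ((hPmem _).1 hab) (N + M)
      have h2 : v ((a * b : A) : K) = v (a : K) * v (b : K) := by simp [map_mul]
      rw [h2, pow_add] at h1
      exact absurd (mul_le_mul' hN hM) (not_le.2 h1)
  have hPQ : P < Q := by
    refine lt_of_le_of_ne ?_ ?_
    · intro a ha
      by_contra haQ
      have h1 := ((hPmem a).1 ha) 0
      rw [pow_zero, (hunit a).2 haQ] at h1
      exact lt_irrefl _ h1
    · intro h
      have h1 : x ∈ P := h ▸ hxQ
      have h2 := ((hPmem x).1 h1) 1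
      rw [pow_one] at h2
      exact lt_irrefl _ h2
  have hheight : P.height < Q.height := by
    have : Q.FiniteHeight := Q.finiteHeight_iff.2 (Or.inr (ne_top_of_le_ne_top (by simp) hQ1))
    exact Ideal.height_strict_mono_of_isPrime_of_isPrime hPQ
  have hP0 : P.height = 0 := by
    have h1 : P.height < 1 := lt_of_lt_of_le hheight hQ1
    exact Order.lt_one_iff.1 h1
  have hPbot : P = ⊥ := Ideal.height_eq_zero_iff_eq_bot.1 hP0
  intro a ha
  have h1 : a ∉ P := by
    rw [hPbot]
    simpa using ha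
  rw [hPmem] at h1
  push Not at h1
  exact h1

end Subring

section LocalRing

open IsLocalRing

/-- A Noetherian local domain which is not a field has a valuation on its fraction field, for which
the ring is integral, with a small element `x` bounding the maximal ideal and having
cofinal powers. -/
theorem exists_valuationSubring_of_isLocalRing {R : Type u} [CommRing R] [IsDomain R]
    [IsNoetherianRing R] [IsLocalRing R] (hR : maximalIdeal R ≠ ⊥)
    (K : Type u) [Field K] [Algebra R K] [IsFractionRing R K] :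
    ∃ (V : ValuationSubring K) (x : K), x ≠ 0 ∧ V.valuation x < 1 ∧
      (∀ r : R, V.valuation (algebraMap R K r) ≤ 1) ∧
      (∀ a ∈ maximalIdeal R, V.valuation (algebraMap R K a) ≤ V.valuation x) ∧
      ∀ y : K, y ≠ 0 → ∃ N : ℕ, (V.valuation x) ^ N ≤ V.valuation y := by
  classical
  have hinj : Function.Injective (algebraMap R K) := IsFractionRing.injective R K
  -- a first valuation ring dominating `R`
  obtain ⟨V₀, hV₀, hloc⟩ := IsLocalRing.exists_factor_valuationRing (algebraMap R K)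
  have hV₀1 : ∀ r : R, V₀.valuation (algebraMap R K r) ≤ 1 :=
    fun r => (V₀.valuation_le_one_iff _).2 (hV₀ r)
  have hV₀m : ∀ a ∈ maximalIdeal R, V₀.valuation (algebraMap R K a) < 1 := by
    intro a ha
    refine lt_of_le_of_ne (hV₀1 a) ?_
    intro h
    have h1 : IsUnit ((algebraMap R K).codRestrict V₀.toSubring hV₀ a) :=
      (ValuationSubring.valuation_eq_one_iff V₀ (⟨algebraMap R K a, hV₀ a⟩ : V₀)).2 h
    have h2 : IsUnit a := isUnit_of_map_unit _ _ h1
    exact (IsLocalRing.mem_maximalIdeal a).1 ha h2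
  -- generators
  obtain ⟨gens, hgens⟩ : (maximalIdeal R).FG := IsNoetherian.noetherian _
  have hgne : gens.Nonempty := by
    by_contra h
    rw [Finset.not_nonempty_iff_eq_empty] at h
    rw [h] at hgens
    simp only [Finset.coe_empty, Submodule.span_empty] at hgens
    exact hR hgens.symm
  obtain ⟨x, hxg, hxmax⟩ := Finset.exists_max_image gens
    (fun g => V₀.valuation (algebraMap R K g)) hgne
  have hgm : ∀ g ∈ gens, g ∈ maximalIdeal R := fun g hg => by
    rw [← hgens]; exact Ideal.subset_span hg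
  have hx0 : algebraMap R K x ≠ 0 := by
    intro h0
    have h1 : ∀ g ∈ gens, g = 0 := by
      intro g hg
      have h2 := hxmax g hg
      rw [h0, map_zero] at h2
      have h3 : V₀.valuation (algebraMap R K g) = 0 := le_antisymm h2 zero_le
      have h4 := (Valuation.zero_iff _).1 h3
      exact hinj (by rw [h4, map_zero])
    apply hR
    rw [← hgens, Ideal.span_eq_bot]
    exact fun g hg => h1 g hg
  set x' := algebraMap R K x with hx'
  -- the blow up chart
  let T : Set K := (fun g => algebraMap R K g / x') '' (gens : Set R)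
  let S : Subalgebra R K := Algebra.adjoin R T
  have hTfin : T.Finite := (Finset.finite_toSet gens).image _
  have hSfg : S.FG := ⟨hTfin.toFinset, by simp [S]⟩
  have hSft : Algebra.FiniteType R S := (Subalgebra.fg_iff_finiteType S).1 hSfg
  have hSnoeth : IsNoetherianRing S := Algebra.FiniteType.isNoetherianRing R S
  have hSV₀ : ∀ s ∈ S, V₀.valuation s ≤ 1 := by
    intro s hs
    refine Algebra.adjoin_induction (p := fun s _ => V₀.valuation s ≤ 1) ?_ ?_ ?_ ?_ hs
    · rintro _ ⟨g, hg, rfl⟩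
      simp only
      rw [map_div₀]
      exact div_le_one_of_le₀ (hxmax g hg) zero_le
    · exact hV₀1
    · intro a b _ _ ha hb
      exact (V₀.valuation.map_add a b).trans (max_le ha hb)
    · intro a b _ _ ha hb
      rw [map_mul]
      exact mul_le_one' ha hb
  -- every element of the maximal ideal is divisible by `x` in `S`
  have hdiv : ∀ a ∈ maximalIdeal R, algebraMap R K a / x' ∈ S := by
    intro a ha
    rw [← hgens] at ha
    refine Submodule.span_induction (p := fun a _ => algebraMap R K a / x' ∈ S) ?_ ?_ ?_ ?_ ha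
    · intro g hg
      exact Algebra.subset_adjoin ⟨g, hg, rfl⟩
    · simp
    · intro a b _ _ ha hb
      rw [map_add, add_div]
      exact S.add_mem ha hb
    · intro c a _ ha
      rw [smul_eq_mul, map_mul, mul_div_assoc]
      exact S.mul_mem (S.algebraMap_mem c) ha
  -- apply the subring lemma
  let A : Subring K := S.toSubring
  have hAnoeth : IsNoetherianRing A := hSnoeth
  have hxS : x' ∈ A := S.algebraMap_mem x
  let xA : A := ⟨x', hxS⟩
  have hxA : Ideal.span {xA} ≠ ⊤ := by
    intro h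
    rw [Ideal.span_singleton_eq_top] at h
    obtain ⟨⟨u, hu⟩, hu1⟩ := isUnit_iff_exists_inv.1 h
    have h1 : x' * u = 1 := congrArg Subtype.val hu1
    have h2 : V₀.valuation x' * V₀.valuation u = 1 := by rw [← map_mul, h1, map_one]
    have h3 := hSV₀ u hu
    have h4 := hV₀m x (hgm x hxg)
    have h5 : V₀.valuation x' * V₀.valuation u < 1 := by
      calc _ ≤ V₀.valuation x' := mul_le_of_le_one_right' h3
        _ < 1 := h4
    rw [h2] at h5
    exact lt_irrefl _ h5
  obtain ⟨V, hAV, hx1, hcof⟩ := exists_valuationSubring_of_noetherian A xA hx0 hxA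
  have hAle : ∀ s ∈ S, V.valuation s ≤ 1 := fun s hs => (V.valuation_le_one_iff _).2 (hAV hs)
  have hRle : ∀ r : R, V.valuation (algebraMap R K r) ≤ 1 :=
    fun r => hAle _ (S.algebraMap_mem r)
  refine ⟨V, x', hx0, hx1, hRle, ?_, ?_⟩
  · intro a ha
    have h1 : algebraMap R K a = x' * (algebraMap R K a / x') := by field_simp
    rw [h1, map_mul]
    exact mul_le_of_le_one_right' (hAle _ (hdiv a ha))
  · intro y hy
    obtain ⟨a, t, ht, rfl⟩ := IsFractionRing.div_surjective (A := R) y
    have ha0 : algebraMap R K a ≠ 0 := by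
      intro h
      apply hy
      rw [h, zero_div]
    have hS : algebraMap R K a ∈ A := S.algebraMap_mem a
    have hne : (⟨algebraMap R K a, hS⟩ : A) ≠ 0 := by
      intro h
      exact ha0 (congrArg Subtype.val h)
    obtain ⟨N, hN⟩ := hcof ⟨algebraMap R K a, hS⟩ hne
    refine ⟨N, hN.trans ?_⟩
    rw [map_div₀]
    have ht0 : V.valuation (algebraMap R K t) ≠ 0 := by
      rw [Valuation.ne_zero_iff]
      exact IsFractionRing.to_map_ne_zero_of_mem_nonZeroDivisors ht
    exact (le_div_iff₀ (zero_lt_iff.2 ht0)).2 (mul_le_of_le_one_right' (hRle t))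

/-- Rank one absolute value on the fraction field. -/
theorem exists_absoluteValue_of_isLocalRing {R : Type u} [CommRing R] [IsDomain R]
    [IsNoetherianRing R] [IsLocalRing R] (hR : maximalIdeal R ≠ ⊥)
    (K : Type u) [Field K] [Algebra R K] [IsFractionRing R K] :
    ∃ f : AbsoluteValue K ℝ, (∀ y z, f (y + z) ≤ max (f y) (f z)) ∧
      (∀ r : R, f (algebraMap R K r) ≤ 1) ∧
      (∀ a ∈ maximalIdeal R, f (algebraMap R K a) ≤ 1 / 2) := by
  obtain ⟨V, x, hx0, hx1, hle, hm, hcof⟩ := exists_valuationSubring_of_isLocalRing hR K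
  obtain ⟨f, hf1, hf2, hf3⟩ := exists_absoluteValue_of_valuation V.valuation
    V.valuation_surjective x hx0 hx1 hcof
  exact ⟨f, hf1, fun r => hf2 _ (hle r), fun a ha => hf3 _ (hm a ha)⟩

end LocalRing

section Closure

open Polynomial

/-- The completion-type closure theorem, in all characteristics: a complete normed field with a
dense algebraically closed subfield is algebraically closed. -/
theorem isAlgClosed_of_denseRange_general {K L : Type*} [Field K] [IsAlgClosed K] [NormedField L]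
    [CompleteSpace L] [Algebra K L] (hd : DenseRange (algebraMap K L)) : IsAlgClosed L := by
  refine IsAlgClosed.of_exists_root _ ?_
  intro f hfm hfi
  set d := f.natDegree with hd_def
  have hd0 : d ≠ 0 := hfi.natDegree_pos.ne'
  have hd1 : (1 : ℝ) ≤ d := by exact_mod_cast Nat.one_le_iff_ne_zero.mpr hd0
  -- the uniform bound
  set M : NNReal := ∑ i ∈ Finset.range (d + 1), ‖f.coeff i‖₊ + 1 with hM
  set R : ℝ := (M : ℝ) + 1 with hR
  have hM0 : (0 : ℝ) ≤ M := M.2
  have hR1 : 1 ≤ R := by rw [hR]; linarith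
  have hR0 : 0 < R := by linarith
  -- approximation errors
  let t : ℕ → ℝ := fun j => (1 / 2) ^ j / R
  have ht0 : ∀ j, 0 < t j := fun j => by positivity
  have ht1 : ∀ j, t j ≤ 1 := fun j => by
    refine (div_le_one hR0).2 ?_
    exact (pow_le_one₀ (by norm_num) (by norm_num)).trans hR1
  have htanti : ∀ j, t (j + 1) ≤ t j := fun j => by
    refine div_le_div_of_nonneg_right ?_ hR0.le
    exact pow_le_pow_of_le_one (by norm_num) (by norm_num) (Nat.le_succ j)
  let ε : ℕ → ℝ := fun j => t j ^ d / (2 * (d + 1))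
  have hε0 : ∀ j, 0 < ε j := fun j => by have := ht0 j; positivity
  have hε1 : ∀ j, ε j ≤ 1 := fun j => by
    refine (div_le_one (by positivity)).2 ?_
    have : t j ^ d ≤ 1 := pow_le_one₀ (ht0 j).le (ht1 j)
    nlinarith
  have hεanti : ∀ j, ε (j + 1) ≤ ε j := fun j => by
    refine div_le_div_of_nonneg_right ?_ (by positivity)
    exact pow_le_pow_left₀ (ht0 _).le (htanti j) d
  -- approximating polynomials
  have hex : ∀ j, ∃ g : K[X], g.Monic ∧ f.natDegree = g.natDegree ∧ ∀ n : ℕ,
      ‖(g.map (algebraMap K L)).coeff n - f.coeff n‖ < ε j := fun j =>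
    exists_monic_and_natDegree_eq_and_norm_map_algebraMap_coeff_sub_lt hd hfm (hε0 j)
  choose g hgm hgd hgc using hex
  let G : ℕ → L[X] := fun j => (g j).map (algebraMap K L)
  have hGm : ∀ j, (G j).Monic := fun j => (hgm j).map _
  have hGd : ∀ j, (G j).natDegree = d := fun j => by
    simp only [G]
    rw [Polynomial.natDegree_map]
    exact (hgd j).symm
  have hGs : ∀ j, (G j).Splits := fun j => by
    simp only [G]
    exact (IsAlgClosed.splits (g j)).map _
  -- root bound
  have hbound : ∀ j (a : L), (G j).IsRoot a → ‖a‖ ≤ R := by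
    intro j a ha
    have h0 : G j ≠ 0 := (hGm j).ne_zero
    have h1 := Polynomial.IsRoot.norm_lt_cauchyBound h0 ha
    have h2 : Polynomial.cauchyBound (G j) ≤ M + 1 := by
      rw [Polynomial.cauchyBound, (hGm j).leadingCoeff]
      simp only [nnnorm_one, div_one]
      gcongr
      refine Finset.sup_le ?_
      intro i hi
      have hi' : i ∈ Finset.range (d + 1) := by
        have := Finset.mem_range.1 hi
        rw [hGd j] at this
        exact Finset.mem_range.2 (by omega)
      have h3 : ‖f.coeff i‖₊ ≤ ∑ i ∈ Finset.range (d + 1), ‖f.coeff i‖₊ :=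
        Finset.single_le_sum (f := fun i => ‖f.coeff i‖₊) (fun _ _ => zero_le) hi'
      have h4 : ‖(G j).coeff i - f.coeff i‖ < 1 := (hgc j i).trans_le (hε1 j)
      have h5 : ‖(G j).coeff i‖ ≤ ‖(G j).coeff i - f.coeff i‖ + ‖f.coeff i‖ := by
        simpa using norm_add_le ((G j).coeff i - f.coeff i) (f.coeff i)
      have h3' : ‖f.coeff i‖ ≤ ((∑ i ∈ Finset.range (d + 1), ‖f.coeff i‖₊ : NNReal) : ℝ) := by
        exact_mod_cast h3
      rw [← NNReal.coe_le_coe, hM]
      push_cast at h3' ⊢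
      linarith
    have h6 : (Polynomial.cauchyBound (G j) : ℝ) ≤ R := by
      rw [hR]; exact_mod_cast h2
    have h1' : ‖a‖ < (Polynomial.cauchyBound (G j) : ℝ) := by exact_mod_cast h1
    exact h1'.le.trans h6
  -- one step
  have hstep : ∀ j (a : L), (G j).IsRoot a → ∃ b, (G (j + 1)).IsRoot b ∧ ‖a - b‖ ≤ (1 / 2) ^ j := by
    intro j a ha
    have hpos : 0 < ε j + ε (j + 1) := add_pos (hε0 _) (hε0 _)
    have hc : ∀ i, ‖(G (j + 1)).coeff i - (G j).coeff i‖ < ε j + ε (j + 1) := by
      intro i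
      have h1 := hgc j i
      have h2 := hgc (j + 1) i
      have h3 : (G (j + 1)).coeff i - (G j).coeff i
          = ((G (j + 1)).coeff i - f.coeff i) - ((G j).coeff i - f.coeff i) := by ring
      rw [h3]
      refine (norm_sub_le _ _).trans_lt ?_
      simp only [G] at *
      linarith
    obtain ⟨b, hb, hab⟩ := exists_roots_norm_sub_lt_of_norm_coeff_sub_lt hpos
      (f := G j) (g := G (j + 1)) ha (hGm j) (hGm (j + 1))
      (by rw [hGd, hGd]) hc (hGs (j + 1))
    refine ⟨b, (Polynomial.mem_roots'.1 hb).2, hab.le.trans ?_⟩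
    rw [hGd j]
    have hx : (d + 1 : ℝ) * (ε j + ε (j + 1)) ≤ t j ^ d := by
      have h1 := hεanti j
      have h2 : (d + 1 : ℝ) * (2 * ε j) = t j ^ d := by
        simp only [ε]
        field_simp
      have h3 : (0 : ℝ) < d + 1 := by positivity
      nlinarith
    have hy : (((d : ℝ) + 1) * (ε j + ε (j + 1))) ^ (d : ℝ)⁻¹ ≤ t j := by
      have h1 : (t j ^ d) ^ (d : ℝ)⁻¹ = t j :=
        Real.pow_rpow_inv_natCast (ht0 j).le hd0
      calc _ ≤ (t j ^ d) ^ (d : ℝ)⁻¹ :=
            Real.rpow_le_rpow (by positivity) hx (by positivity)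
        _ = t j := h1
    have hz : max ‖a‖ 1 ≤ R := max_le (hbound j a ha) hR1
    calc _ ≤ t j * R := mul_le_mul hy hz (by positivity) (ht0 j).le
      _ = (1 / 2) ^ j := by simp only [t]; field_simp
  -- the initial root
  obtain ⟨a0, ha0⟩ : ∃ a, (G 0).IsRoot a := by
    have h1 := (hGs 0).natDegree_eq_card_roots
    have h2 : (G 0).roots ≠ 0 := by
      intro h
      rw [h, hGd 0] at h1
      simp at h1
      exact hd0 h1
    obtain ⟨a, ha⟩ := Multiset.exists_mem_of_ne_zero h2
    exact ⟨a, (Polynomial.mem_roots'.1 ha).2⟩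
  -- the sequence
  let s : (j : ℕ) → {a : L // (G j).IsRoot a} :=
    fun j => Nat.rec ⟨a0, ha0⟩
      (fun j p => ⟨(hstep j p.1 p.2).choose, (hstep j p.1 p.2).choose_spec.1⟩) j
  have hs : ∀ j, dist (s j).1 (s (j + 1)).1 ≤ (1 / 2) ^ j := by
    intro j
    rw [dist_eq_norm]
    exact (hstep j (s j).1 (s j).2).choose_spec.2
  have hcauchy : CauchySeq (fun j => (s j).1) :=
    cauchySeq_of_le_geometric (1 / 2) 1 (by norm_num) (fun j => by simpa using hs j)
  obtain ⟨x, hx⟩ := cauchySeq_tendsto_of_complete hcauchy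
  refine ⟨x, ?_⟩
  -- the limit is a root
  have hlim : Filter.Tendsto (fun j => f.eval (s j).1) Filter.atTop (nhds (f.eval x)) :=
    (f.continuous.tendsto x).comp hx
  have hsmall : ∀ j, ‖f.eval (s j).1‖ ≤ (1 / 2) ^ j := by
    intro j
    have hroot := (s j).2
    have hbd := hbound j _ hroot
    set a := (s j).1 with ha
    have hdiff : f.eval a = (f - G j).eval a := by
      rw [Polynomial.eval_sub, Polynomial.IsRoot.def.1 hroot, sub_zero]
    have hdeg : (f - G j).natDegree < d + 1 := by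
      have := Polynomial.natDegree_sub_le f (G j)
      rw [hGd j] at this
      simp only [← hd_def, max_self] at this
      omega
    rw [hdiff, Polynomial.eval_eq_sum_range' hdeg]
    have hterm : ∀ i ∈ Finset.range (d + 1), ‖(f - G j).coeff i * a ^ i‖ ≤ ε j * R ^ d := by
      intro i hi
      rw [norm_mul, norm_pow, Polynomial.coeff_sub, norm_sub_rev]
      have h1 := (hgc j i).le
      have h2 : ‖a‖ ^ i ≤ R ^ d := by
        refine (pow_le_pow_left₀ (norm_nonneg _) hbd i).trans ?_
        exact pow_le_pow_right₀ hR1 (by have := Finset.mem_range.1 hi; omega)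
      exact mul_le_mul h1 h2 (by positivity) (hε0 j).le
    refine (norm_sum_le _ _).trans ((Finset.sum_le_card_nsmul _ _ _ hterm).trans ?_)
    simp only [Finset.card_range, nsmul_eq_mul]
    have h3 : ((d + 1 : ℕ) : ℝ) * (ε j * R ^ d) = ((1 / 2) ^ j) ^ d / 2 := by
      simp only [ε, t]
      push_cast
      rw [div_pow]
      field_simp
    rw [h3]
    have h4 : ((1 / 2 : ℝ) ^ j) ^ d ≤ (1 / 2) ^ j := pow_le_of_le_one (by positivity)
      (pow_le_one₀ (by norm_num) (by norm_num)) hd0
    have h5 : (0 : ℝ) ≤ ((1 / 2 : ℝ) ^ j) ^ d := by positivity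
    linarith
  have hlim0 : Filter.Tendsto (fun j => f.eval (s j).1) Filter.atTop (nhds 0) := by
    rw [tendsto_zero_iff_norm_tendsto_zero]
    exact squeeze_zero (fun _ => norm_nonneg _) hsmall
      (tendsto_pow_atTop_nhds_zero_of_lt_one (by norm_num) (by norm_num))
  exact tendsto_nhds_unique hlim hlim0

/-- First completion. -/
theorem exists_completion (K : Type u) [NontriviallyNormedField K] [IsUltrametricDist K] :
    ∃ (K₁ : Type u) (_ : NontriviallyNormedField K₁) (_ : IsUltrametricDist K₁)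
      (_ : CompleteSpace K₁) (j : K →+* K₁), ∀ x, ‖j x‖ = ‖x‖ := by
  let inst : NontriviallyNormedField (UniformSpace.Completion K) :=
    { (inferInstance : NormedField (UniformSpace.Completion K)) with
      non_trivial := by
        obtain ⟨x, hx⟩ := NontriviallyNormedField.non_trivial (α := K)
        exact ⟨(x : UniformSpace.Completion K), by simpa using hx⟩ }
  refine ⟨UniformSpace.Completion K, inst, ?_, inferInstance,
    UniformSpace.Completion.coeRingHom, ?_⟩
  · exact IsUltrametricDist.of_normedAlgebra K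
  · intro x
    exact UniformSpace.Completion.norm_coe x

/-- Algebraic closure with the spectral norm. -/
theorem exists_algClosure (K : Type u) [NontriviallyNormedField K] [IsUltrametricDist K]
    [CompleteSpace K] :
    ∃ (L : Type u) (_ : NormedField L) (_ : IsUltrametricDist L) (_ : IsAlgClosed L)
      (j : K →+* L), ∀ x, ‖j x‖ = ‖x‖ := by
  let inst : NormedField (AlgebraicClosure K) := spectralNorm.normedField K (AlgebraicClosure K)
  refine ⟨AlgebraicClosure K, inst, ?_, inferInstance, algebraMap K (AlgebraicClosure K), ?_⟩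
  · exact IsUltrametricDist.isUltrametricDist_of_forall_norm_add_le_max_norm
      (isNonarchimedean_spectralNorm (K := K) (L := AlgebraicClosure K))
  · intro x
    exact spectralNorm_extends x

/-- Second completion. -/
theorem exists_completion_algClosed (L : Type u) [NormedField L] [IsUltrametricDist L]
    [IsAlgClosed L] :
    ∃ (C : Type u) (_ : NormedField C) (_ : IsUltrametricDist C) (_ : CompleteSpace C)
      (_ : IsAlgClosed C) (j : L →+* C), ∀ x, ‖j x‖ = ‖x‖ := by
  refine ⟨UniformSpace.Completion L, inferInstance, ?_, inferInstance, ?_,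
    UniformSpace.Completion.coeRingHom, ?_⟩
  · exact IsUltrametricDist.of_normedAlgebra L
  · exact isAlgClosed_of_denseRange_general (K := L) UniformSpace.Completion.denseRange_coe
  · intro x
    exact UniformSpace.Completion.norm_coe x

/-- Existence of a complete algebraically closed ultrametric overfield of a nontrivially normed
ultrametric field. -/
theorem exists_complete_algClosed (K : Type u) [NontriviallyNormedField K] [IsUltrametricDist K] :
    ∃ (C : Type u) (_ : NormedField C) (_ : IsUltrametricDist C) (_ : CompleteSpace C)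
      (_ : IsAlgClosed C) (j : K →+* C), ∀ x, ‖j x‖ = ‖x‖ := by
  obtain ⟨K₁, i1, i2, i3, j₁, hj₁⟩ := exists_completion K
  obtain ⟨L, i4, i5, i6, j₂, hj₂⟩ := exists_algClosure K₁
  obtain ⟨C, i7, i8, i9, i10, j₃, hj₃⟩ := exists_completion_algClosed L
  exact ⟨C, i7, i8, i9, i10, j₃.comp (j₂.comp j₁), fun x => by
    simp only [RingHom.comp_apply, hj₃, hj₂, hj₁]⟩

/-- The complete algebraically closed overfield, for a field with a nontrivial ultrametric absolute
value. -/
theorem exists_complete_algClosed_of_absoluteValue (K : Type u) [Field K] (f : AbsoluteValue K ℝ)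
    (hna : ∀ y z, f (y + z) ≤ max (f y) (f z)) (hnt : ∃ x : K, x ≠ 0 ∧ f x ≠ 1) :
    ∃ (C : Type u) (_ : NormedField C) (_ : IsUltrametricDist C) (_ : CompleteSpace C)
      (_ : IsAlgClosed C) (j : K →+* C), ∀ x, ‖j x‖ = f x := by
  let inst0 : NormedField K := f.toNormedField
  let inst1 : NontriviallyNormedField K := NontriviallyNormedField.ofNormNeOne hnt
  have inst2 : IsUltrametricDist K :=
    IsUltrametricDist.isUltrametricDist_of_forall_norm_add_le_max_norm hna
  obtain ⟨C, i1, i2, i3, i4, j, hj⟩ := exists_complete_algClosed K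
  exact ⟨C, i1, i2, i3, i4, j, hj⟩

end Closure

/-- Existence of a complete algebraically closed ultrametric field containing a Noetherian local
domain `R` (not a field) as a subring of the closed unit ball, with the maximal ideal strictly
inside the open unit ball. -/
theorem exists_valued_embedding {R : Type u} [CommRing R] [IsDomain R] [IsNoetherianRing R]
    [IsLocalRing R] (hR : IsLocalRing.maximalIdeal R ≠ ⊥) :
    ∃ (C : Type u) (_ : NormedField C) (_ : IsUltrametricDist C) (_ : CompleteSpace C)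
      (_ : IsAlgClosed C) (ι : R →+* C),
      Function.Injective ι ∧ (∀ a, ‖ι a‖ ≤ 1) ∧
        ∃ c : ℝ, c < 1 ∧ ∀ a ∈ IsLocalRing.maximalIdeal R, ‖ι a‖ ≤ c := by
  obtain ⟨f, hf1, hf2, hf3⟩ := exists_absoluteValue_of_isLocalRing hR (FractionRing R)
  have hinj : Function.Injective (algebraMap R (FractionRing R)) :=
    IsFractionRing.injective R (FractionRing R)
  obtain ⟨a, ha, ha0⟩ := Submodule.exists_mem_ne_zero_of_ne_bot hR
  have hnt : ∃ x : FractionRing R, x ≠ 0 ∧ f x ≠ 1 := by
    refine ⟨algebraMap R _ a, ?_, ?_⟩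
    · exact fun h => ha0 (hinj (by rw [h, map_zero]))
    · have := hf3 a ha
      intro h
      rw [h] at this
      norm_num at this
  obtain ⟨C, i1, i2, i3, i4, j, hj⟩ :=
    exists_complete_algClosed_of_absoluteValue (FractionRing R) f hf1 hnt
  refine ⟨C, i1, i2, i3, i4, j.comp (algebraMap R (FractionRing R)), ?_, ?_, 1 / 2, by norm_num, ?_⟩
  · exact j.injective.comp hinj
  · intro r
    rw [RingHom.comp_apply, hj]
    exact hf2 r
  · intro a ha
    rw [RingHom.comp_apply, hj]
    exact hf3 a ha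

end Vale.Agent.Lib.P217
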