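import Vale.Agent.Lib.P217.Main
import Vale.Agent.Lib.P217.Val

set_option linter.unusedSectionVars false
set_option linter.unusedVariables false

namespace Vale.Agent.Lib.P217

open scoped Topology
open Filter

/-- The membership in the maximal ideal of a quotient of the power series ring. -/
theorem mem_maximalIdeal_quot {N : ℕ} {k : Type*} [Field k] (𝔭 : Ideal (MvPowerSeries (Fin N) k)) [𝔭.IsPrime]
    [IsLocalRing (MvPowerSeries (Fin N) k ⧸ 𝔭)] (a : MvPowerSeries (Fin N) k) :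
    Ideal.Quotient.mk 𝔭 a ∈ IsLocalRing.maximalIdeal (MvPowerSeries (Fin N) k ⧸ 𝔭) ↔
      MvPowerSeries.constantCoeff a = 0 := by
  have hpne : (𝔭 : Ideal (MvPowerSeries (Fin N) k)) ≠ ⊤ := Ideal.IsPrime.ne_top ‹_›
  rw [IsLocalRing.mem_maximalIdeal, mem_nonunits_iff]
  constructor
  · intro h
    by_contra h0
    apply h
    have hu : IsUnit a := by
      rw [MvPowerSeries.isUnit_iff_constantCoeff]
      exact IsUnit.mk0 _ h0
    exact hu.map _
  · intro h0 hu
    obtain ⟨b, hb⟩ := hu.exists_right_inv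
    rw [← Ideal.Quotient.mk_surjective b |>.choose_spec, ← map_mul, ← map_one (Ideal.Quotient.mk 𝔭),
      Ideal.Quotient.eq] at hb
    set c := Ideal.Quotient.mk_surjective b |>.choose
    have h1 : MvPowerSeries.constantCoeff (a * c - 1) ≠ 0 := by
      simp [h0]
    apply hpne
    refine Ideal.eq_top_of_isUnit_mem _ hb ?_
    rw [MvPowerSeries.isUnit_iff_constantCoeff]
    exact IsUnit.mk0 _ h1

/-- An ideal invariant under an automorphism has an invariant membership. -/
theorem mem_iff_of_map_eq {k A : Type*} [Field k] [CommRing A] [Algebra k A] (τ : A ≃ₐ[k] A) (𝔭 : Ideal A)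
    (h : 𝔭.map (τ : A →+* A) = 𝔭) (a : A) : τ a ∈ 𝔭 ↔ a ∈ 𝔭 := by
  constructor
  · intro ha
    rw [← h] at ha
    obtain ⟨x, hx, hxa⟩ := (Ideal.mem_map_iff_of_surjective (τ : A →+* A) τ.surjective).mp ha
    have hxa' : τ x = τ a := hxa
    rwa [← τ.injective hxa']
  · intro ha
    rw [← h]
    exact Ideal.mem_map_of_mem (τ : A →+* A) ha

theorem invariant_main {p n : ℕ} [Fact p.Prime] (hn : 2 ≤ n) {k : Type} [Field k] [Fintype k] [CharP k p]
    (hk : Fintype.card k = p ^ n)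
    (Γ : FormalGroup k) [Γ.IsComm] (hΓp : mulSeries Γ p = PowerSeries.X ^ (p ^ n))
    (hΓF : ∀ d, (MvPowerSeries.coeff d Γ.toPowerSeries) ^ p = MvPowerSeries.coeff d Γ.toPowerSeries)
    (hΓω : ∀ c : k, c ≠ 0 → IsHom Γ Γ (PowerSeries.C c * PowerSeries.X))
    (F : FormalGroup (MvPowerSeries (Fin (n - 1)) k)) [F.IsComm]
    (hF : F.map MvPowerSeries.constantCoeff = Γ)
    (hI : IsLocalRing.maximalIdeal (MvPowerSeries (Fin (n - 1)) k) =
      Ideal.span {a | ∃ j, j < p ^ n ∧ a = PowerSeries.coeff j (mulSeries F p)})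
    (𝔭 : Ideal (MvPowerSeries (Fin (n - 1)) k)) [𝔭.IsPrime]
    (hinv : ∀ g : PowerSeries k, IsHom Γ Γ g → IsUnit (PowerSeries.coeff 1 g) →
      ∃ (τ : MvPowerSeries (Fin (n - 1)) k ≃ₐ[k] MvPowerSeries (Fin (n - 1)) k)
        (K : PowerSeries (MvPowerSeries (Fin (n - 1)) k)),
        IsHom F (F.map (τ : MvPowerSeries (Fin (n - 1)) k →+* MvPowerSeries (Fin (n - 1)) k)) K ∧
        PowerSeries.map MvPowerSeries.constantCoeff K = g ∧
        𝔭.map (τ : MvPowerSeries (Fin (n - 1)) k →+* MvPowerSeries (Fin (n - 1)) k) = 𝔭) :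
    PowerSeries.coeff p (mulSeries F p) ∈ 𝔭 ∨ 𝔭 = ⊥ := by
  classical
  by_cases hcp : PowerSeries.coeff p (mulSeries F p) ∈ 𝔭
  · exact Or.inl hcp
  right
  have hpne : (𝔭 : Ideal (MvPowerSeries (Fin (n - 1)) k)) ≠ ⊤ := Ideal.IsPrime.ne_top ‹_›
  -- the constant coefficient of `c_p` is zero
  have hp1 : 1 < p := (Fact.out : p.Prime).one_lt
  have hcp0 : MvPowerSeries.constantCoeff (PowerSeries.coeff p (mulSeries F p)) = 0 := by
    have h1 : PowerSeries.map (MvPowerSeries.constantCoeff) (mulSeries F p) = mulSeries Γ p := by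
      rw [← hF, mulSeries_map]
    have h2 : PowerSeries.coeff p (PowerSeries.map (MvPowerSeries.constantCoeff) (mulSeries F p)) =
        MvPowerSeries.constantCoeff (PowerSeries.coeff p (mulSeries F p)) := by
      simp
    rw [← h2, h1, hΓp, PowerSeries.coeff_X_pow, if_neg]
    intro he
    have h3 : p ^ 1 < p ^ n := Nat.pow_lt_pow_right hp1 (by omega)
    rw [pow_one] at h3
    omega
  -- the quotient ring
  have : Nontrivial (MvPowerSeries (Fin (n - 1)) k ⧸ 𝔭) := Ideal.Quotient.nontrivial_iff.mpr hpne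
  have : IsLocalRing (MvPowerSeries (Fin (n - 1)) k ⧸ 𝔭) :=
    IsLocalRing.of_surjective' (Ideal.Quotient.mk 𝔭) Ideal.Quotient.mk_surjective
  have hRm : IsLocalRing.maximalIdeal (MvPowerSeries (Fin (n - 1)) k ⧸ 𝔭) ≠ ⊥ := by
    intro hbot
    have h1 := (mem_maximalIdeal_quot 𝔭 _).mpr hcp0
    rw [hbot, Ideal.mem_bot, Ideal.Quotient.eq_zero_iff_mem] at h1
    exact hcp h1
  obtain ⟨C, _, _, _, _, ι, hιinj, hι1, c, hc1, hc⟩ := exists_valued_embedding hRm
  -- the map to the closed unit ball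
  let φ₀ : MvPowerSeries (Fin (n - 1)) k →+* OC C :=
    RingHom.codRestrict (ι.comp (Ideal.Quotient.mk 𝔭)) (OC C) (fun a => hι1 _)
  have hφ₀v : ∀ a, ((φ₀ a : OC C) : C) = ι (Ideal.Quotient.mk 𝔭 a) := fun a => rfl
  have hφ₀z : ∀ a, φ₀ a = 0 ↔ a ∈ 𝔭 := by
    intro a
    rw [← Ideal.Quotient.eq_zero_iff_mem, ← map_eq_zero_iff ι hιinj, ← hφ₀v]
    exact ⟨fun h => by rw [h]; rfl, fun h => Subtype.ext h⟩
  let κ : k →+* OC C := φ₀.comp MvPowerSeries.C
  have : CharP C p := charP_of_injective_ringHom ((OC C).subtype.comp κ).injective p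
  let S : Setting C p n (n - 1) k :=
    { hn := by omega
      Γ := Γ
      commΓ := inferInstance
      hΓp := hΓp
      F := F
      commF := inferInstance
      hF := hF
      κ := κ
      c := max c 0
      c0 := le_max_right _ _
      c1 := max_lt hc1 zero_lt_one }
  have hφ₀A : Adm S φ₀ :=
    { hκ := fun r => rfl
      hc := fun a ha => by
        have h1 := hc _ ((mem_maximalIdeal_quot 𝔭 a).mpr ha)
        exact h1.trans (le_max_left _ _) }
  have hω : HOm S := by
    intro a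
    by_cases ha : a = 0
    · subst ha
      simpa using isHom_zero Γ
    · exact hΓω a ha
  have hinj := injective_main S hω hΓF hk (by omega) hn hφ₀A hI
    (fun h => hcp ((hφ₀z _).mp h))
    (fun g hg hgu => by
      obtain ⟨τ, K, hK, hKg, hτ⟩ := hinv g hg hgu
      refine ⟨τ, K, hK, hKg, fun a => ?_⟩
      rw [hφ₀z, hφ₀z]
      exact mem_iff_of_map_eq τ 𝔭 hτ a)
  rw [eq_bot_iff]
  intro a ha
  rw [Ideal.mem_bot]
  apply hinj
  rw [map_zero]
  exact (hφ₀z a).mpr ha

end Vale.Agent.Lib.P217
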