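import Mathlib

set_option linter.unusedSectionVars false
set_option linter.unusedVariables false

/-!
The domination inequality (a statement on real numbers).
-/

namespace Vale.Agent.Lib.P217

/-- The Key Lemma's inequality. Notation: `P = (p : ℝ) ≥ 2`, `q = P ^ h`, `Q = P ^ n`, `h < n`. We have radii in logarithmic form: `ξ₀, ξ' > 0`, values `H₀, H' , γ`.
(`H₀ = H(ξ₀)`, `H' = H(ξ')` where `H` is minus the logarithm of the Gauss norm, `γ` is minus the logarithm of the norm of the coefficient number `m' = P ^ t'`, in competition.)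
`E₀ = P ^ e₀`, `E' = P ^ e'`. `N₀ = E₀ * P ^ t₀`, `N' = E' * P ^ t'`, `a₀ = E₀ * H₀`, `S₀ = N₀ * ξ₀`, `S' = N' * ξ'`.

The hypotheses:
* tangent inequalities: `γ + P ^ t' * ξ' ≥ H'`, `γ + P ^ t' * ξ₀ ≥ H₀`, `γ + P ^ t' * (Q * ξ₀) ≥ q * H₀`,
* `E₀ * H₀ ≤ E' * H'` (the top condition),
* the monotonicity statements: `ξ' < ξ₀ → H' < H₀`; `H' < q * H₀` (a consequence of `ξ' < Q ξ₀`); `ξ' = ξ₀ → H' = H₀`,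
* the window: `ξ₀ < Q * ξ'`, `ξ' < Q * ξ₀`,
* the key inequality `S₀ * P ^ z ≤ (1 - ε₀) * a₀`, `z ≥ 1`, `0 < ε₀ ≤ 1`, `0 < a₀`,
* same class: `t' + e' ≡ t₀ + e₀ [MOD n]`, and not the main term: `¬ (ξ' = ξ₀ ∧ e' = e₀ ∧ t' = t₀)`,
* `δ` is such that `S' > S₀ → S' ≥ (1 + δ) * S₀`, and `S₀ > 0`.

The conclusion: with `V₀ = a₀ + S₀ * (P ^ z - 1)`,
`E' * (γ + P ^ t' * P ^ z * ξ') ≥ V₀ + min (ε₀ * a₀) (δ * S₀)`.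

Proof. `V' := E' * (γ + P ^ t' * P ^ z * ξ') = E' * γ + S' * P ^ z`. Let `l` be the integer with `N' = N₀ * Q ^ l`.
Case `S' > S₀`: `V' ≥ E' * H' - S' + S' * P ^ z ≥ a₀ + S' * (P ^ z - 1) ≥ a₀ + S₀ * (P ^ z - 1) + δ * S₀ * (P ^ z - 1)` and `P ^ z - 1 ≥ 1`.
Case `S' = S₀`: then `Q ^ l * ξ' = ξ₀` and by the window `l = 0`, `ξ' = ξ₀`; so `N' = N₀`. If `e' = e₀` then `t' = t₀`: excluded. Otherwise by the top condition `E' * H₀ ≥ E₀ * H₀` so `e' > e₀`, so `E' ≥ P * E₀`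
and `V' ≥ P * a₀ + S₀ * (P ^ z - 1) ≥ V₀ + a₀`.
Case `S' < S₀`: then `l ≤ 0` (if `l ≥ 1`, `S' ≥ N₀ * Q * ξ' > S₀`).
If `l = 0`, `ξ' < ξ₀`, `H' < H₀`, so by the top condition `E' > E₀`, `E' ≥ P * E₀`; from the tangent at `ξ₀`, `E' * γ ≥ E' * H₀ - N₀ * ξ₀ ≥ P * a₀ - S₀`
so `V' ≥ P * a₀ - S₀ + S' * P ^ z`, and `V' - V₀ ≥ (P - 1) * a₀ - S₀ * P ^ z ≥ a₀ - (1 - ε₀) * a₀ = ε₀ * a₀`.
If `l ≤ -1`: from the tangent at `Q * ξ₀`, `E' * γ ≥ E' * q * H₀ - N' * Q * ξ₀ ≥ E' * q * H₀ - S₀`, and as `E' * q * H₀ > E' * H' ≥ E₀ * H₀`, `E' * q > E₀`, so `E' * q ≥ P * E₀` as these are powers of `P`. So again `V' ≥ P * a₀ - S₀ + S' * P ^ z`.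
-/
theorem domination {p h n e₀ e' t₀ t' z : ℕ} (hp : 2 ≤ p) (hhn : h < n) (hz : 1 ≤ z)
    {ξ₀ ξ' H₀ H' γ ε₀ δ : ℝ} (hξ₀ : 0 < ξ₀) (hξ' : 0 < ξ') (hH₀ : 0 < H₀)
    (hε₀ : 0 < ε₀) (hε₁ : ε₀ ≤ 1) (hδ : 0 ≤ δ)
    (htan1 : (H' : ℝ) ≤ γ + (p : ℝ) ^ t' * ξ')
    (htan2 : (H₀ : ℝ) ≤ γ + (p : ℝ) ^ t' * ξ₀)
    (htan3 : ((p : ℝ) ^ h) * H₀ ≤ γ + (p : ℝ) ^ t' * ((p : ℝ) ^ n * ξ₀))
    (htop : (p : ℝ) ^ e₀ * H₀ ≤ (p : ℝ) ^ e' * H')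
    (hmono1 : ξ' < ξ₀ → H' < H₀) (hmono2 : H' < (p : ℝ) ^ h * H₀) (hsame : ξ' = ξ₀ → H' = H₀)
    (hwin1 : ξ₀ < (p : ℝ) ^ n * ξ') (hwin2 : ξ' < (p : ℝ) ^ n * ξ₀)
    (hkey : ((p : ℝ) ^ e₀ * (p : ℝ) ^ t₀ * ξ₀) * (p : ℝ) ^ z ≤ (1 - ε₀) * ((p : ℝ) ^ e₀ * H₀))
    (hclass : t' + e' ≡ t₀ + e₀ [MOD n])
    (hmain : ¬ (ξ' = ξ₀ ∧ e' = e₀ ∧ t' = t₀))
    (hdelta : (p : ℝ) ^ e₀ * (p : ℝ) ^ t₀ * ξ₀ < (p : ℝ) ^ e' * (p : ℝ) ^ t' * ξ' →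
      (1 + δ) * ((p : ℝ) ^ e₀ * (p : ℝ) ^ t₀ * ξ₀) ≤ (p : ℝ) ^ e' * (p : ℝ) ^ t' * ξ') :
    (p : ℝ) ^ e₀ * H₀ + ((p : ℝ) ^ e₀ * (p : ℝ) ^ t₀ * ξ₀) * ((p : ℝ) ^ z - 1) +
        min (ε₀ * ((p : ℝ) ^ e₀ * H₀)) (δ * ((p : ℝ) ^ e₀ * (p : ℝ) ^ t₀ * ξ₀)) ≤
      (p : ℝ) ^ e' * (γ + (p : ℝ) ^ t' * (p : ℝ) ^ z * ξ') := by
  have hP : (1:ℝ) < (p:ℝ) := by exact_mod_cast (show 1 < p by omega)
  have hP2 : (2:ℝ) ≤ (p:ℝ) := by exact_mod_cast hp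
  have hPpos : (0:ℝ) < (p:ℝ) := by linarith
  have hstep : ∀ a b : ℕ, (p:ℝ) ^ a < (p:ℝ) ^ b → (p:ℝ) * (p:ℝ) ^ a ≤ (p:ℝ) ^ b := by
    intro a b hab
    have hlt : a < b := (pow_lt_pow_iff_right₀ hP).1 hab
    have : (p:ℝ) ^ (a + 1) ≤ (p:ℝ) ^ b := pow_le_pow_right₀ hP.le hlt
    rw [pow_succ'] at this
    exact this
  have hZ : (2:ℝ) ≤ (p:ℝ) ^ z := by
    have h1 : (p:ℝ) ^ 1 ≤ (p:ℝ) ^ z := pow_le_pow_right₀ hP.le hz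
    rw [pow_one] at h1
    linarith
  have hN0 : (p:ℝ) ^ e₀ * (p:ℝ) ^ t₀ = (p:ℝ) ^ (t₀ + e₀) := by rw [pow_add, mul_comm]
  have hN' : (p:ℝ) ^ e' * (p:ℝ) ^ t' = (p:ℝ) ^ (t' + e') := by rw [pow_add, mul_comm]
  have hE0pos : (0:ℝ) < (p:ℝ) ^ e₀ := pow_pos hPpos _
  have hE'pos : (0:ℝ) < (p:ℝ) ^ e' := pow_pos hPpos _
  have hT0pos : (0:ℝ) < (p:ℝ) ^ t₀ := pow_pos hPpos _
  have hT'pos : (0:ℝ) < (p:ℝ) ^ t' := pow_pos hPpos _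
  have hQpos : (0:ℝ) < (p:ℝ) ^ n := pow_pos hPpos _
  have hqpos : (0:ℝ) < (p:ℝ) ^ h := pow_pos hPpos _
  -- exponent gaps force size gaps
  have hup : t₀ + e₀ + n ≤ t' + e' →
      (p:ℝ) ^ e₀ * (p:ℝ) ^ t₀ * ξ₀ < (p:ℝ) ^ e' * (p:ℝ) ^ t' * ξ' := by
    intro hle
    have h1 : (p:ℝ) ^ (t₀ + e₀ + n) ≤ (p:ℝ) ^ (t' + e') := pow_le_pow_right₀ hP.le hle
    rw [pow_add, ← hN0, ← hN'] at h1
    have hN0pos : (0:ℝ) < (p:ℝ) ^ e₀ * (p:ℝ) ^ t₀ := mul_pos hE0pos hT0pos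
    have h2 : (p:ℝ) ^ e₀ * (p:ℝ) ^ t₀ * ξ₀ < (p:ℝ) ^ e₀ * (p:ℝ) ^ t₀ * ((p:ℝ) ^ n * ξ') :=
      mul_lt_mul_of_pos_left hwin1 hN0pos
    have h3 : (p:ℝ) ^ e₀ * (p:ℝ) ^ t₀ * (p:ℝ) ^ n * ξ' ≤ (p:ℝ) ^ e' * (p:ℝ) ^ t' * ξ' :=
      mul_le_mul_of_nonneg_right h1 hξ'.le
    calc (p:ℝ) ^ e₀ * (p:ℝ) ^ t₀ * ξ₀ < (p:ℝ) ^ e₀ * (p:ℝ) ^ t₀ * ((p:ℝ) ^ n * ξ') := h2
      _ = (p:ℝ) ^ e₀ * (p:ℝ) ^ t₀ * (p:ℝ) ^ n * ξ' := by ring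
      _ ≤ _ := h3
  have hdown : t' + e' + n ≤ t₀ + e₀ →
      (p:ℝ) ^ e' * (p:ℝ) ^ t' * ((p:ℝ) ^ n * ξ₀) ≤ (p:ℝ) ^ e₀ * (p:ℝ) ^ t₀ * ξ₀ := by
    intro hle
    have h1 : (p:ℝ) ^ (t' + e' + n) ≤ (p:ℝ) ^ (t₀ + e₀) := pow_le_pow_right₀ hP.le hle
    rw [pow_add, ← hN0, ← hN'] at h1
    have h3 := mul_le_mul_of_nonneg_right h1 hξ₀.le
    calc (p:ℝ) ^ e' * (p:ℝ) ^ t' * ((p:ℝ) ^ n * ξ₀)
        = (p:ℝ) ^ e' * (p:ℝ) ^ t' * (p:ℝ) ^ n * ξ₀ := by ring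
      _ ≤ _ := h3
  -- trichotomy of the exponents modulo n
  have hcases : t' + e' = t₀ + e₀ ∨ t₀ + e₀ + n ≤ t' + e' ∨ t' + e' + n ≤ t₀ + e₀ := by
    rcases lt_trichotomy (t' + e') (t₀ + e₀) with hlt | heq | hgt
    · right; right
      have hd : n ∣ (t₀ + e₀) - (t' + e') := (Nat.modEq_iff_dvd' hlt.le).1 hclass
      have := Nat.le_of_dvd (by omega) hd
      omega
    · left; exact heq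
    · right; left
      have hd : n ∣ (t' + e') - (t₀ + e₀) := (Nat.modEq_iff_dvd' hgt.le).1 hclass.symm
      have := Nat.le_of_dvd (by omega) hd
      omega
  -- abbreviations (generalized atoms)
  have hS'nonneg : (0:ℝ) ≤ (p:ℝ) ^ e' * (p:ℝ) ^ t' * ξ' :=
    (mul_pos (mul_pos hE'pos hT'pos) hξ').le
  have hS0pos : (0:ℝ) < (p:ℝ) ^ e₀ * (p:ℝ) ^ t₀ * ξ₀ := mul_pos (mul_pos hE0pos hT0pos) hξ₀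
  have ha0pos : (0:ℝ) < (p:ℝ) ^ e₀ * H₀ := mul_pos hE0pos hH₀
  have hgoal : (p:ℝ) ^ e' * (γ + (p:ℝ) ^ t' * (p:ℝ) ^ z * ξ') =
      (p:ℝ) ^ e' * γ + (p:ℝ) ^ e' * (p:ℝ) ^ t' * ξ' * (p:ℝ) ^ z := by ring
  rw [hgoal]
  have htan1' : (p:ℝ) ^ e' * H' ≤ (p:ℝ) ^ e' * γ + (p:ℝ) ^ e' * (p:ℝ) ^ t' * ξ' := by
    have h := mul_le_mul_of_nonneg_left htan1 hE'pos.le
    have e : (p:ℝ) ^ e' * (γ + (p:ℝ) ^ t' * ξ') =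
        (p:ℝ) ^ e' * γ + (p:ℝ) ^ e' * (p:ℝ) ^ t' * ξ' := by ring
    linarith
  -- the common finish of the two lower cases
  have hfinish : (p:ℝ) * ((p:ℝ) ^ e₀ * H₀) - (p:ℝ) ^ e₀ * (p:ℝ) ^ t₀ * ξ₀ ≤ (p:ℝ) ^ e' * γ →
      (p:ℝ) ^ e₀ * H₀ + ((p:ℝ) ^ e₀ * (p:ℝ) ^ t₀ * ξ₀) * ((p:ℝ) ^ z - 1) +
        min (ε₀ * ((p:ℝ) ^ e₀ * H₀)) (δ * ((p:ℝ) ^ e₀ * (p:ℝ) ^ t₀ * ξ₀)) ≤
      (p:ℝ) ^ e' * γ + (p:ℝ) ^ e' * (p:ℝ) ^ t' * ξ' * (p:ℝ) ^ z := by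
    intro hγ
    have hm : min (ε₀ * ((p:ℝ) ^ e₀ * H₀)) (δ * ((p:ℝ) ^ e₀ * (p:ℝ) ^ t₀ * ξ₀)) ≤
        ε₀ * ((p:ℝ) ^ e₀ * H₀) := min_le_left _ _
    have hs : (0:ℝ) ≤ (p:ℝ) ^ e' * (p:ℝ) ^ t' * ξ' * (p:ℝ) ^ z :=
      mul_nonneg hS'nonneg (by linarith)
    have hpa : 2 * ((p:ℝ) ^ e₀ * H₀) ≤ (p:ℝ) * ((p:ℝ) ^ e₀ * H₀) :=
      mul_le_mul_of_nonneg_right hP2 ha0pos.le
    linarith
  rcases lt_trichotomy ((p:ℝ) ^ e₀ * (p:ℝ) ^ t₀ * ξ₀) ((p:ℝ) ^ e' * (p:ℝ) ^ t' * ξ') with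
    hlt | heq | hgt
  · -- Case S₀ < S'
    have h1 := hdelta hlt
    have hm : min (ε₀ * ((p:ℝ) ^ e₀ * H₀)) (δ * ((p:ℝ) ^ e₀ * (p:ℝ) ^ t₀ * ξ₀)) ≤
        δ * ((p:ℝ) ^ e₀ * (p:ℝ) ^ t₀ * ξ₀) := min_le_right _ _
    have hZ1 : (1:ℝ) ≤ (p:ℝ) ^ z - 1 := by linarith
    have h2 := mul_le_mul_of_nonneg_right h1 (by linarith : (0:ℝ) ≤ (p:ℝ) ^ z - 1)
    have hds : (0:ℝ) ≤ δ * ((p:ℝ) ^ e₀ * (p:ℝ) ^ t₀ * ξ₀) := mul_nonneg hδ hS0pos.le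
    have h3 := mul_le_mul_of_nonneg_left hZ1 hds
    linarith
  · -- Case S₀ = S'
    rcases hcases with hA | hA | hA
    · have hNeq : (p:ℝ) ^ e' * (p:ℝ) ^ t' = (p:ℝ) ^ e₀ * (p:ℝ) ^ t₀ := by
        rw [hN0, hN', hA]
      have hNpos : (0:ℝ) < (p:ℝ) ^ e₀ * (p:ℝ) ^ t₀ := mul_pos hE0pos hT0pos
      have hξeq : ξ' = ξ₀ := by
        rw [hNeq] at heq
        exact (mul_left_cancel₀ hNpos.ne' heq).symm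
      have hHeq := hsame hξeq
      have hene : e' ≠ e₀ := by
        intro he
        apply hmain
        refine ⟨hξeq, he, ?_⟩
        omega
      have hElt : (p:ℝ) ^ e₀ < (p:ℝ) ^ e' := by
        have hle : (p:ℝ) ^ e₀ * H₀ ≤ (p:ℝ) ^ e' * H₀ := by rw [hHeq] at htop; exact htop
        have hle' : (p:ℝ) ^ e₀ ≤ (p:ℝ) ^ e' := le_of_mul_le_mul_right hle hH₀
        have hee : e₀ ≤ e' := (pow_le_pow_iff_right₀ hP).1 hle'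
        exact pow_lt_pow_right₀ hP (lt_of_le_of_ne hee (Ne.symm hene))
      have hst := hstep _ _ hElt
      have h4 := mul_le_mul_of_nonneg_right hst hH₀.le
      rw [hHeq] at htan1'
      rw [← heq]
      have hm : min (ε₀ * ((p:ℝ) ^ e₀ * H₀)) (δ * ((p:ℝ) ^ e₀ * (p:ℝ) ^ t₀ * ξ₀)) ≤
          ε₀ * ((p:ℝ) ^ e₀ * H₀) := min_le_left _ _
      have hpa : 2 * ((p:ℝ) ^ e₀ * H₀) ≤ (p:ℝ) * ((p:ℝ) ^ e₀ * H₀) :=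
        mul_le_mul_of_nonneg_right hP2 ha0pos.le
      have hea : ε₀ * ((p:ℝ) ^ e₀ * H₀) ≤ 1 * ((p:ℝ) ^ e₀ * H₀) :=
        mul_le_mul_of_nonneg_right hε₁ ha0pos.le
      rw [← heq] at htan1'
      linarith
    · exact absurd heq (hup hA).ne
    · have h5 := hdown hA
      have h6 : (p:ℝ) ^ e' * (p:ℝ) ^ t' * ((p:ℝ) ^ n * ξ₀) > (p:ℝ) ^ e' * (p:ℝ) ^ t' * ξ' :=
        mul_lt_mul_of_pos_left hwin2 (mul_pos hE'pos hT'pos)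
      linarith
  · -- Case S' < S₀
    rcases hcases with hA | hA | hA
    · -- same exponent sum: ξ' < ξ₀
      have hNeq : (p:ℝ) ^ e' * (p:ℝ) ^ t' = (p:ℝ) ^ e₀ * (p:ℝ) ^ t₀ := by
        rw [hN0, hN', hA]
      have hNpos : (0:ℝ) < (p:ℝ) ^ e₀ * (p:ℝ) ^ t₀ := mul_pos hE0pos hT0pos
      have hξlt : ξ' < ξ₀ := by
        rw [hNeq] at hgt
        exact lt_of_mul_lt_mul_left hgt hNpos.le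
      have hHlt := hmono1 hξlt
      have hElt : (p:ℝ) ^ e₀ < (p:ℝ) ^ e' := by
        have h1 : (p:ℝ) ^ e' * H' < (p:ℝ) ^ e' * H₀ := mul_lt_mul_of_pos_left hHlt hE'pos
        have h2 : (p:ℝ) ^ e₀ * H₀ < (p:ℝ) ^ e' * H₀ := lt_of_le_of_lt htop h1
        exact lt_of_mul_lt_mul_right h2 hH₀.le
      have hst := hstep _ _ hElt
      have h4 := mul_le_mul_of_nonneg_right hst hH₀.le
      apply hfinish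
      have h5 := mul_le_mul_of_nonneg_left htan2 hE'pos.le
      have e : (p:ℝ) ^ e' * (γ + (p:ℝ) ^ t' * ξ₀) =
          (p:ℝ) ^ e' * γ + (p:ℝ) ^ e' * (p:ℝ) ^ t' * ξ₀ := by ring
      rw [hNeq] at e
      linarith
    · exact absurd hgt (not_lt.2 (hup hA).le)
    · -- l ≤ -1: tangent at Q ξ₀
      have h5 := hdown hA
      have h6 := mul_le_mul_of_nonneg_left htan3 hE'pos.le
      have e : (p:ℝ) ^ e' * (γ + (p:ℝ) ^ t' * ((p:ℝ) ^ n * ξ₀)) =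
          (p:ℝ) ^ e' * γ + (p:ℝ) ^ e' * (p:ℝ) ^ t' * ((p:ℝ) ^ n * ξ₀) := by ring
      have h7 : (p:ℝ) ^ e' * H' < (p:ℝ) ^ e' * ((p:ℝ) ^ h * H₀) :=
        mul_lt_mul_of_pos_left hmono2 hE'pos
      have h8 : (p:ℝ) ^ e₀ * H₀ < ((p:ℝ) ^ e' * (p:ℝ) ^ h) * H₀ := by
        calc (p:ℝ) ^ e₀ * H₀ ≤ (p:ℝ) ^ e' * H' := htop
          _ < (p:ℝ) ^ e' * ((p:ℝ) ^ h * H₀) := h7
          _ = ((p:ℝ) ^ e' * (p:ℝ) ^ h) * H₀ := by ring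
      have h9 : (p:ℝ) ^ e₀ < (p:ℝ) ^ e' * (p:ℝ) ^ h := lt_of_mul_lt_mul_right h8 hH₀.le
      have h10 : (p:ℝ) ^ e' * (p:ℝ) ^ h = (p:ℝ) ^ (e' + h) := (pow_add _ _ _).symm
      rw [h10] at h9
      have hst := hstep _ _ h9
      rw [← h10] at hst
      have h11 := mul_le_mul_of_nonneg_right hst hH₀.le
      apply hfinish
      have h12 : (p:ℝ) ^ e' * ((p:ℝ) ^ h * H₀) = ((p:ℝ) ^ e' * (p:ℝ) ^ h) * H₀ := by ring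
      linarith

end Vale.Agent.Lib.P217
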