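import Vale.Agent.Lib.P217.HGauss

set_option linter.unusedSectionVars false
set_option linter.unusedVariables false

/-!
Fourier extraction over the finite field `k`.
-/

namespace Vale.Agent.Lib.P217

open scoped Topology
open Filter

variable {C : Type*} [NormedField C] [IsUltrametricDist C] [CompleteSpace C]
variable {p : ℕ} [hp : Fact p.Prime] [CharP C p]
variable {k : Type*} [Field k] [Fintype k] [CharP k p]

/-- Fourier extraction.

Let `P` be a series over `OC C`, `b ∈ C`, `Y i` points of the open ball, `e i` exponents, `v i` scalars. Consider for `d ∈ k`, `d ≠ 0`, the value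
`Ψ d = ∑ i, v i * (b * P(κ d * Y i)) ^ (p ^ e i)`, which is assumed to have norm at most `E`.

Since we are in characteristic `p`, and by `hasSum_ev1`,
`Ψ d = ∑ i, ∑ m, v i * (b * c_m * Y i ^ m) ^ (p ^ e i) * (κ d) ^ (m * p ^ e i)`.
Multiplying by `-(κ d) ^ (Q' - L₀)` where `Q' = (Q - 1) * L₀`, hmm: precisely by `(κ d)⁻¹ ^ L₀`, and summing over `d ∈ kˣ`, we find by
`FiniteField.sum_pow_units` that
`- ∑ d, (κ d)⁻¹ ^ L₀ * Ψ d = ∑ i, ∑ m with m * p ^ e i ≡ L₀ [MOD Q - 1], v i * (b * c_m * Y i ^ m) ^ (p ^ e i)`.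
The left side has norm at most `E`. If the terms other than those with `i ∈ Λ`, `m = m₀` have norm at most `B`, we get the conclusion, with `i ∈ Λ`, `m = m₀`
satisfying `m₀ * p ^ e i ≡ L₀`. -/
theorem fourier_main {J : Type*} [Fintype J] [DecidableEq J] {Q : ℕ} (hQ : Fintype.card k = Q) (κ : k →+* OC C) (P : PowerSeries (OC C)) (b : C)
    (Y : J → OC C) (hY : ∀ i, ‖(Y i : C)‖ < 1) (e : J → ℕ) (v : J → C) {E B : ℝ} (hE : 0 ≤ E) (hB : 0 ≤ B)
    (hΨ : ∀ d : k, d ≠ 0 → ‖∑ i, v i * (b * ((ev1 (RingHom.id _) (κ d * Y i) P : OC C) : C)) ^ (p ^ e i)‖ ≤ E)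
    (L₀ : ℕ) (Λ : Finset J) (m₀ : ℕ) (hΛ : ∀ i ∈ Λ, m₀ * p ^ e i ≡ L₀ [MOD Q - 1])
    (hother : ∀ i m, m * p ^ e i ≡ L₀ [MOD Q - 1] → ¬ (i ∈ Λ ∧ m = m₀) →
      ‖v i * (b * ((PowerSeries.coeff m P : OC C) : C) * (Y i : C) ^ m) ^ (p ^ e i)‖ ≤ B) :
    ‖∑ i ∈ Λ, v i * (b * ((PowerSeries.coeff m₀ P : OC C) : C) * (Y i : C) ^ m₀) ^ (p ^ e i)‖ ≤ max E B := by
  classical
  subst hQ
  have hQ2 : 2 ≤ Fintype.card k := Fintype.one_lt_card
  set Q : ℕ := Fintype.card k with hQdef
  let c : ℕ → C := fun m => ((PowerSeries.coeff m P : OC C) : C)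
  let u : kˣ → C := fun x => ((κ (x : k) : OC C) : C)
  have hupow : ∀ x : kˣ, u x ^ (Q - 1) = 1 := by
    intro x
    have h1 : (x : k) ^ (Q - 1) = 1 := FiniteField.pow_card_sub_one_eq_one _ x.ne_zero
    have h2 : (κ (x : k)) ^ (Q - 1) = 1 := by rw [← map_pow, h1, map_one]
    simpa [u] using congrArg (Subtype.val) h2
  have hu : ∀ x : kˣ, ‖u x‖ = 1 := by
    intro x
    have h3 : ‖u x‖ ^ (Q - 1) = 1 := by rw [← norm_pow, hupow, norm_one]
    exact (pow_eq_one_iff_of_nonneg (norm_nonneg _) (by omega)).mp h3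
  have hne : ∀ x, u x ≠ 0 := by
    intro x h0
    have := hu x
    rw [h0, norm_zero] at this
    exact zero_ne_one this
  have hinv : ∀ x : kˣ, (u x)⁻¹ = u x ^ (Q - 2) := by
    intro x
    have h1 : u x ^ (Q - 2) * u x = 1 := by
      rw [← pow_succ, show Q - 2 + 1 = Q - 1 by omega, hupow]
    exact (eq_inv_of_mul_eq_one_left h1).symm
  have hdvd : ∀ t : ℕ, (Q - 1 ∣ t + L₀ * (Q - 2)) ↔ t ≡ L₀ [MOD Q - 1] := by
    intro t
    obtain ⟨n, hn⟩ : ∃ n, Q = n + 2 := ⟨Q - 2, by omega⟩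
    rw [hn, show n + 2 - 1 = n + 1 by omega, show n + 2 - 2 = n by omega]
    have h1 : t + L₀ * n + L₀ = t + (n + 1) * L₀ := by ring
    constructor
    · intro h
      have h2 : (t + L₀ * n) + L₀ ≡ 0 + L₀ [MOD n + 1] :=
        Nat.ModEq.add_right _ ((Nat.modEq_zero_iff_dvd).mpr h)
      rw [h1, zero_add] at h2
      have h3 : t + (n + 1) * L₀ ≡ t [MOD n + 1] := by
        unfold Nat.ModEq
        rw [Nat.add_mul_mod_self_left]
      exact h3.symm.trans h2
    · intro h
      have h3 : t + (n + 1) * L₀ ≡ t [MOD n + 1] := by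
        unfold Nat.ModEq
        rw [Nat.add_mul_mod_self_left]
      have h2 : (t + L₀ * n) + L₀ ≡ 0 + L₀ [MOD n + 1] := by
        rw [h1, zero_add]
        exact h3.trans h
      exact (Nat.modEq_zero_iff_dvd).mp (Nat.ModEq.add_right_cancel' _ h2)
  have horth : ∀ t : ℕ, ∑ x : kˣ, (u x)⁻¹ ^ L₀ * (u x) ^ t = if t ≡ L₀ [MOD Q - 1] then -1 else 0 := by
    intro t
    have h1 : ∀ x : kˣ, (u x)⁻¹ ^ L₀ * (u x) ^ t =
        ((κ (((x ^ (t + L₀ * (Q - 2)) : kˣ) : k)) : OC C) : C) := by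
      intro x
      rw [hinv, ← pow_mul, ← pow_add, Units.val_pow_eq_pow_val, map_pow]
      push_cast
      congr 1
      ring
    simp_rw [h1]
    have h2 := FiniteField.sum_pow_units k (t + L₀ * (Q - 2))
    have h3 : ∑ x : kˣ, ((κ (((x ^ (t + L₀ * (Q - 2)) : kˣ) : k)) : OC C) : C)
        = ((κ (∑ x : kˣ, ((x ^ (t + L₀ * (Q - 2)) : kˣ) : k)) : OC C) : C) := by
      rw [map_sum]
      push_cast
      rfl
    rw [h3]
    have h4 : ∑ x : kˣ, ((x ^ (t + L₀ * (Q - 2)) : kˣ) : k) = if Q - 1 ∣ t + L₀ * (Q - 2) then -1 else 0 := by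
      simpa [Units.val_pow_eq_pow_val] using h2
    rw [h4]
    by_cases hmod : t ≡ L₀ [MOD Q - 1]
    · rw [if_pos ((hdvd t).mpr hmod), if_pos hmod]
      simp
    · rw [if_neg (fun h => hmod ((hdvd t).mp h)), if_neg hmod]
      simp
  let a : J → ℕ → C := fun i m => v i * (b * c m * (Y i : C) ^ m) ^ (p ^ e i)
  let val : kˣ → J → C := fun x i =>
    v i * (b * ((ev1 (RingHom.id _) (κ (x : k) * Y i) P : OC C) : C)) ^ (p ^ e i)
  have hs1 : ∀ (x : kˣ) (i : J), HasSum (fun m => a i m * (u x) ^ (m * p ^ e i)) (val x i) := by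
    intro x i
    have hx : ‖((κ (x : k) * Y i : OC C) : C)‖ < 1 := by
      push_cast
      rw [norm_mul]
      change ‖u x‖ * _ < 1
      rw [hu, one_mul]
      exact hY i
    have h1 := (hasSum_ev1 (RingHom.id (OC C)) hx P).map (OC C).subtype continuous_subtype_val
    have h2 := (h1.mul_left b).map (iterateFrobenius C p (e i)) (continuous_pow (p ^ e i))
    have h3 := h2.mul_left (v i)
    have h4 : (fun m => a i m * (u x) ^ (m * p ^ e i)) = fun m =>
        v i * ((iterateFrobenius C p (e i)) ∘ (fun j => b * (((OC C).subtype ∘ fun j : ℕ =>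
          (RingHom.id (OC C)) ((PowerSeries.coeff j) P) * (κ (x : k) * Y i) ^ j) j))) m := by
      funext m
      simp only [a, Function.comp, iterateFrobenius_def, c, RingHom.id_apply, Subring.subtype_apply]
      push_cast
      rw [mul_assoc (v i)]
      congr 1
      change (b * c m * (Y i : C) ^ m) ^ (p ^ e i) * (u x) ^ (m * p ^ e i) =
        (b * (c m * (u x * (Y i : C)) ^ m)) ^ (p ^ e i)
      rw [pow_mul (u x), ← mul_pow, mul_pow (u x)]
      congr 1
      ring
    rw [h4]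
    simpa [val, iterateFrobenius_def, Function.comp] using h3
  let F : J → C := fun i => ∑ x : kˣ, (u x)⁻¹ ^ L₀ * val x i
  have hs2 : ∀ i, HasSum (fun m => a i m * if m * p ^ e i ≡ L₀ [MOD Q - 1] then -1 else 0) (F i) := by
    intro i
    have h1 := hasSum_sum (s := (Finset.univ : Finset kˣ))
      (fun x _ => (hs1 x i).mul_left ((u x)⁻¹ ^ L₀))
    have h2 : (fun m => a i m * if m * p ^ e i ≡ L₀ [MOD Q - 1] then -1 else 0) =
        fun m => ∑ x : kˣ, (u x)⁻¹ ^ L₀ * (a i m * (u x) ^ (m * p ^ e i)) := by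
      funext m
      rw [← horth, Finset.mul_sum]
      refine Finset.sum_congr rfl fun x _ => ?_
      ring
    rw [h2]
    exact h1
  have hF : ‖∑ i, F i‖ ≤ E := by
    have h1 : ∑ i, F i = ∑ x : kˣ, (u x)⁻¹ ^ L₀ * ∑ i, val x i := by
      simp only [F, Finset.mul_sum]
      exact Finset.sum_comm
    rw [h1]
    refine IsUltrametricDist.norm_sum_le_of_forall_le_of_nonneg hE fun x _ => ?_
    rw [norm_mul, norm_pow, norm_inv, hu, inv_one, one_pow, one_mul]
    exact hΨ (x : k) x.ne_zero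
  -- bound on the remainders
  let G : J → C := fun i => if i ∈ Λ then F i + a i m₀ else F i
  have hG : ∀ i, ‖G i‖ ≤ B := by
    intro i
    by_cases hi : i ∈ Λ
    · have h1 := norm_hasSum_sub_single_le (hs2 i) m₀ hB (fun m hm => ?_)
      · have h2 : F i - a i m₀ * (if m₀ * p ^ e i ≡ L₀ [MOD Q - 1] then -1 else 0) = G i := by
          simp only [G, if_pos hi, if_pos (hΛ i hi)]
          ring
        rwa [h2] at h1
      · by_cases hmod : m * p ^ e i ≡ L₀ [MOD Q - 1]
        · rw [if_pos hmod, mul_neg_one, norm_neg]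
          exact hother i m hmod (fun h => hm h.2)
        · rw [if_neg hmod, mul_zero, norm_zero]
          exact hB
    · have h0 : G i = F i := if_neg hi
      rw [h0, ← (hs2 i).tsum_eq]
      refine IsUltrametricDist.norm_tsum_le_of_forall_le_of_nonneg hB fun m => ?_
      by_cases hmod : m * p ^ e i ≡ L₀ [MOD Q - 1]
      · rw [if_pos hmod, mul_neg_one, norm_neg]
        exact hother i m hmod (fun h => hi h.1)
      · rw [if_neg hmod, mul_zero, norm_zero]
        exact hB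
  have hGs : ‖∑ i, G i‖ ≤ B :=
    IsUltrametricDist.norm_sum_le_of_forall_le_of_nonneg hB fun i _ => hG i
  have hsum : ∑ i ∈ Λ, a i m₀ = ∑ i, G i - ∑ i, F i := by
    have h1 : ∀ i, G i = F i + if i ∈ Λ then a i m₀ else 0 := by
      intro i
      by_cases hi : i ∈ Λ
      · simp [G, hi]
      · simp [G, hi]
    simp_rw [h1]
    rw [Finset.sum_add_distrib, add_sub_cancel_left, Finset.sum_ite_mem, Finset.univ_inter]
  change ‖∑ i ∈ Λ, a i m₀‖ ≤ max E B
  rw [hsum, sub_eq_add_neg]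
  refine (IsUltrametricDist.norm_add_le_max _ _).trans ?_
  rw [norm_neg, max_comm]
  exact max_le_max hF hGs

end Vale.Agent.Lib.P217
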