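import Vale.Agent.Lib.P217.HVertex
import Vale.Agent.Lib.P217.HFourier
import Vale.Agent.Lib.P217.HDom

set_option linter.unusedSectionVars false
set_option linter.unusedVariables false

/-!
The analysis theorem: a relation between the values of `[p ^ K]` at the rows `κ d * X i ^ (p ^ z)` forces the vanishing of the coefficients at the top.
-/

namespace Vale.Agent.Lib.P217

open scoped Topology
open Filter

variable {C : Type*} [NormedField C] [IsUltrametricDist C] [CompleteSpace C]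
variable {p n : ℕ} [hp : Fact p.Prime] [CharP C p] [IsAlgClosed C]
variable {L : Law C p n} {h : ℕ}

/-- Powers of `p` congruent modulo `p ^ n - 1` have exponents congruent modulo `n`. -/
theorem exponent_mod_of_pow_modEq {a c : ℕ} (hn : 1 ≤ n) (hac : p ^ a ≡ p ^ c [MOD p ^ n - 1]) : a ≡ c [MOD n] := by
  have hp2 : 2 ≤ p := hp.out.two_le
  rcases Nat.lt_or_ge n 2 with h1 | h2
  · have : n = 1 := by omega
    subst this
    exact Nat.modEq_one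
  have hone : p ^ n ≡ 1 [MOD p ^ n - 1] := by
    have h1 : 1 ≤ p ^ n := Nat.one_le_pow _ _ (by omega)
    exact ((Nat.modEq_iff_dvd' h1).2 (dvd_refl _)).symm
  have hred : ∀ x, p ^ x ≡ p ^ (x % n) [MOD p ^ n - 1] := by
    intro x
    conv_lhs => rw [← Nat.div_add_mod x n, pow_add, pow_mul]
    have := (hone.pow (x / n)).mul_right (p ^ (x % n))
    simpa using this
  have h3 : p ^ (a % n) ≡ p ^ (c % n) [MOD p ^ n - 1] := (hred a).symm.trans (hac.trans (hred c))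
  have hlt : ∀ x, x < n → p ^ x < p ^ n - 1 := by
    intro x hx
    have h4 : p ^ x ≤ p ^ (n - 1) := Nat.pow_le_pow_right (by omega) (by omega)
    have h5 : p ^ n = p ^ (n - 1) * p := by rw [← pow_succ]; congr 1; omega
    have h6 : 2 ≤ p ^ (n - 1) := by
      calc 2 ≤ p := hp2
        _ = p ^ 1 := (pow_one p).symm
        _ ≤ p ^ (n - 1) := Nat.pow_le_pow_right (by omega) (by omega)
    have h7 : p ^ (n-1) * 2 ≤ p ^ (n-1) * p := Nat.mul_le_mul_left _ hp2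
    omega
  have h8 : p ^ (a % n) = p ^ (c % n) :=
    Nat.ModEq.eq_of_lt_of_lt h3 (hlt _ (Nat.mod_lt _ (by omega))) (hlt _ (Nat.mod_lt _ (by omega)))
  exact Nat.pow_right_injective hp2 h8

/-- The slope estimate: `H₀ = γ + m * ξ₀` (vertex at `ξ₀`), `H₀ / q ≤ γ + m * (ξ₀ / Q)` (tangent at `ξ₀ / Q`) give
`m * ξ₀ ≤ (1 - ε₀) * H₀` with `1 - ε₀ = (1 - 1 / q) / (1 - 1 / Q)`. -/
theorem key_slope {q Q H₀ γ m ξ₀ : ℝ} (hq : 1 < q) (hqQ : q < Q) (hvert : H₀ = γ + m * ξ₀) (htan : H₀ / q ≤ γ + m * (ξ₀ / Q)) :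
    m * ξ₀ ≤ ((1 - 1 / q) / (1 - 1 / Q)) * H₀ := by
  have hq0 : 0 < q := by linarith
  have hQ0 : 0 < Q := by linarith
  have h1 : 0 < 1 - 1 / Q := by
    have : 1 / Q < 1 := by rw [div_lt_one hQ0]; linarith
    linarith
  have e : H₀ / q = H₀ * (1 / q) := by ring
  have h2 : m * ξ₀ * (1 - 1 / Q) ≤ (1 - 1 / q) * H₀ := by
    have e2 : m * (ξ₀ / Q) = m * ξ₀ * (1 / Q) := by ring
    rw [e2, e] at htan
    have e3 : (1 - 1 / q) * H₀ = H₀ - H₀ * (1 / q) := by ring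
    have e4 : m * ξ₀ * (1 - 1 / Q) = m * ξ₀ - m * ξ₀ * (1 / Q) := by ring
    rw [e3, e4]
    linarith
  rw [div_mul_eq_mul_div, le_div_iff₀ h1]
  exact h2


/-- Basic facts on `b`. -/
theorem b_facts (H : HtLaw L h) (hh1 : 1 ≤ h) (hhn : h < n) {b : C} (hb : b ^ (p ^ h - 1) = aL L h) :
    b ≠ 0 ∧ ‖b‖ < 1 := by
  have hp2 : 2 ≤ p := hp.out.two_le
  have hq : 2 ≤ p ^ h := by
    calc 2 ≤ p := hp2
      _ = p ^ 1 := (pow_one p).symm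
      _ ≤ p ^ h := Nat.pow_le_pow_right (by omega) hh1
  have hq1 : p ^ h - 1 ≠ 0 := by omega
  constructor
  · intro h0
    rw [h0, zero_pow hq1] at hb
    exact H.aL_ne hb.symm
  · by_contra hcon
    push Not at hcon
    have h1 : 1 ≤ ‖b‖ ^ (p ^ h - 1) := one_le_pow₀ hcon
    rw [← norm_pow, hb] at h1
    have h2 := norm_aL_le_c L hhn
    have h3 := L.c_lt_one
    linarith

/-- The facts on `gK` at a radius. -/
theorem radius_facts (hn : 1 ≤ n) (H : HtLaw L h) (hh1 : 1 ≤ h) (hhn : h < n) {b : C} (hb : b ^ (p ^ h - 1) = aL L h) (K : ℕ)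
    (x : C) {r : ℝ} (hr : ‖x‖ = r) (h0 : 0 < r) (h1 : r < 1) (hc : L.c < r ^ (p ^ n))
    (hsm : ∀ y : Pts L.G, ‖y.v‖ ^ (p ^ n) ≤ r → ‖((p ^ K) • y).v‖ < ‖aL L h‖) :
    ∃ ρ : ℝ, ∃ w : C, ‖w‖ = ρ ∧ 0 < ρ ∧ ρ < 1 ∧ ρ ^ (p ^ n) = r ∧ gK L b K ρ ^ (p ^ h) = gK L b K r ∧
      gK L b K ρ ≤ ‖b‖ * ‖aL L h‖ ∧ gK L b K (r ^ (p ^ n)) = gK L b K r ^ (p ^ h) := by
  have hp2 : 2 ≤ p := hp.out.two_le
  have hQ : 0 < p ^ n := by positivity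
  have hQ1 : p ^ n ≠ 0 := hQ.ne'
  have hrQ : r ^ (p ^ n) ≤ r := pow_le_of_le_one h0.le h1.le hQ1
  obtain ⟨w, hw⟩ := IsAlgClosed.exists_pow_nat_eq x hQ
  have hρQ : ‖w‖ ^ (p ^ n) = r := by rw [← norm_pow, hw, hr]
  have hρ0 : 0 < ‖w‖ := by
    rcases (norm_nonneg w).lt_or_eq with h | h
    · exact h
    · rw [← h, zero_pow hQ1] at hρQ
      linarith
  have hρ1 : ‖w‖ < 1 := by
    by_contra hcon
    push Not at hcon
    have := one_le_pow₀ (n := p ^ n) hcon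
    linarith
  have hsm1 : ∀ y : Pts L.G, ‖y.v‖ ≤ ‖w‖ → ‖((p ^ K) • y).v‖ < ‖aL L h‖ := by
    intro y hy
    refine hsm y ?_
    calc ‖y.v‖ ^ (p ^ n) ≤ ‖w‖ ^ (p ^ n) := pow_le_pow_left₀ (norm_nonneg _) hy _
      _ = r := hρQ
  have hsm2 : ∀ y : Pts L.G, ‖y.v‖ ≤ r → ‖((p ^ K) • y).v‖ < ‖aL L h‖ := by
    intro y hy
    refine hsm y ?_
    calc ‖y.v‖ ^ (p ^ n) ≤ r ^ (p ^ n) := pow_le_pow_left₀ (norm_nonneg _) hy _
      _ ≤ r := hrQ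
  have hc1 : L.c < ‖w‖ ^ (p ^ n) := by rw [hρQ]; exact lt_of_lt_of_le hc hrQ
  refine ⟨‖w‖, w, rfl, hρ0, hρ1, hρQ, ?_, ?_, ?_⟩
  · have := H.gK_homog hh1 hhn hb K w rfl hρ0 hρ1 hc1 hsm1
    rw [hρQ] at this
    exact this.symm
  · refine gK_le_of_eval L b K w rfl hρ0 hρ1 (mul_nonneg (norm_nonneg _) (norm_nonneg _)) fun y hy => ?_
    rw [norm_mul]
    exact mul_le_mul_of_nonneg_left (hsm1 y hy).le (norm_nonneg _)
  · exact H.gK_homog hh1 hhn hb K x hr h0 h1 hc hsm2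

/-- Iteration of the scaling. -/
theorem gK_iter (H : HtLaw L h) (hh1 : 1 ≤ h) {b : C} (hb : b ^ (p ^ h - 1) = aL L h) (K₀ K : ℕ) (hK : K₀ ≤ K)
    (x : C) {r : ℝ} (hr : ‖x‖ = r) (h0 : 0 < r) (h1 : r < 1)
    (hsm : ∀ K', K₀ ≤ K' → ∀ y : Pts L.G, ‖y.v‖ ≤ r → ‖((p ^ K') • y).v‖ < ‖aL L h‖) :
    gK L b K r = gK L b K₀ r ^ ((p ^ h) ^ (K - K₀)) := by
  induction K, hK using Nat.le_induction with
  | base => simp
  | succ K' hK' ih =>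
    rw [H.gK_succ hh1 hb K' x hr h0 h1 (hsm K' hK'), ih, ← pow_mul]
    congr 1
    rw [← pow_succ]
    congr 1
    omega

/-- The monomials of degree not a power of `p` at a row. -/
theorem term_nonpow (hadd : AddQ L) {b : C} (hb0 : b ≠ 0) (hb1 : ‖b‖ ≤ 1) (K : ℕ) {ri : ℝ} (x : C) (hx : ‖x‖ = ri)
    (h0 : 0 < ri) (h1 : ri < 1) (z : ℕ) (hcz : L.c ≤ (ri ^ (p ^ z)) ^ (p ^ n)) (hh2 : 2 ≤ p ^ h)
    (F2 : gK L b K (ri ^ (p ^ n)) = gK L b K ri ^ (p ^ h)) (hG0 : 0 ≤ gK L b K ri) (hG1 : gK L b K ri ≤ 1) {m : ℕ}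
    (hm : ¬ ∃ t, m = p ^ t) :
    ‖b * ((PowerSeries.coeff m (mulSeries L.G (p ^ K)) : OC C) : C) * (x ^ (p ^ z)) ^ m‖ ≤ (gK L b K ri) ^ 2 / ‖b‖ := by
  have hp1 : 1 ≤ p := hp.out.one_lt.le
  have hz0 : p ^ z ≠ 0 := by positivity
  have hr'0 : 0 < ri ^ (p ^ z) := pow_pos h0 _
  have hr'le : ri ^ (p ^ z) ≤ ri := pow_le_of_le_one h0.le h1.le hz0
  have hr'1 : ri ^ (p ^ z) < 1 := lt_of_le_of_lt hr'le h1
  have hn' : ‖x ^ (p ^ z)‖ = ri ^ (p ^ z) := by rw [norm_pow, hx]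
  have hb0' : 0 < ‖b‖ := norm_pos_iff.mpr hb0
  have h2 := monomial_nonpow_le hadd hb0 K (x ^ (p ^ z)) hn' hr'0 hr'1 hcz hm
  have e : ‖b * ((PowerSeries.coeff m (mulSeries L.G (p ^ K)) : OC C) : C) * (x ^ (p ^ z)) ^ m‖ =
      ‖b * ((PowerSeries.coeff m (mulSeries L.G (p ^ K)) : OC C) : C)‖ * (ri ^ (p ^ z)) ^ m := by
    rw [norm_mul, norm_pow, hn']
  rw [e]
  refine h2.trans (max_le ?_ ?_)
  · have h3 : gK L b K (ri ^ (p ^ z)) ≤ gK L b K ri := gK_mono L b K hr'0.le hr'le h1.le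
    have h4 : 0 ≤ gK L b K (ri ^ (p ^ z)) :=
      mul_nonneg (norm_nonneg _) (gn_nonneg _ hr'0.le hr'1.le)
    exact div_le_div_of_nonneg_right (pow_le_pow_left₀ h4 h3 2) hb0'.le
  · have h3 : (ri ^ (p ^ z)) ^ (p ^ n) ≤ ri ^ (p ^ n) :=
      pow_le_pow_left₀ hr'0.le hr'le _
    have h4 : gK L b K ((ri ^ (p ^ z)) ^ (p ^ n)) ≤ gK L b K (ri ^ (p ^ n)) :=
      gK_mono L b K (pow_nonneg hr'0.le _) h3 (pow_le_one₀ h0.le h1.le)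
    rw [F2] at h4
    have h5 : gK L b K ri ^ (p ^ h) ≤ gK L b K ri ^ 2 := pow_le_pow_of_le_one hG0 hG1 hh2
    have h6 : gK L b K ri ^ 2 ≤ gK L b K ri ^ 2 / ‖b‖ := by
      rw [le_div_iff₀ hb0']
      exact mul_le_of_le_one_right (by positivity) hb1
    linarith

/-- The log form of the domination inequality, in terms of the values. -/
theorem term_dom {e₀ e' t₀ t' z : ℕ} (hhn : h < n) (hz : 1 ≤ z)
    {u Ri Rj Gi Gj ε₀ δ : ℝ} (hu : 0 < u) (hRi0 : 0 < Ri) (hRi1 : Ri < 1) (hRj0 : 0 < Rj) (hRj1 : Rj < 1)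
    (hGi0 : 0 < Gi) (hGj0 : 0 < Gj) (hGj1 : Gj < 1) (hε₀ : 0 < ε₀) (hε₁ : ε₀ ≤ 1) (hδ : 0 ≤ δ)
    (T1 : u * Ri ^ (p ^ t') ≤ Gi) (T2 : u * Rj ^ (p ^ t') ≤ Gj) (T3 : u * (Rj ^ (p ^ n)) ^ (p ^ t') ≤ Gj ^ (p ^ h))
    (Top : Gi ^ (p ^ e') ≤ Gj ^ (p ^ e₀))
    (mono1 : Rj < Ri → Gj < Gi) (mono2 : Gj ^ (p ^ h) < Gi) (same : Ri = Rj → Gi = Gj)
    (win1 : Ri ^ (p ^ n) < Rj) (win2 : Rj ^ (p ^ n) < Ri)
    (hkey : ((p : ℝ) ^ e₀ * (p : ℝ) ^ t₀ * (-Real.log Rj)) * (p : ℝ) ^ z ≤ (1 - ε₀) * ((p : ℝ) ^ e₀ * (-Real.log Gj)))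
    (hclass : t' + e' ≡ t₀ + e₀ [MOD n]) (hmain : ¬ (Ri = Rj ∧ e' = e₀ ∧ t' = t₀))
    (hdelta : (p : ℝ) ^ e₀ * (p : ℝ) ^ t₀ * (-Real.log Rj) < (p : ℝ) ^ e' * (p : ℝ) ^ t' * (-Real.log Ri) →
      (1 + δ) * ((p : ℝ) ^ e₀ * (p : ℝ) ^ t₀ * (-Real.log Rj)) ≤ (p : ℝ) ^ e' * (p : ℝ) ^ t' * (-Real.log Ri)) :
    (u * (Ri ^ (p ^ z)) ^ (p ^ t')) ^ (p ^ e') ≤
      Real.exp (-((p : ℝ) ^ e₀ * (-Real.log Gj) + ((p : ℝ) ^ e₀ * (p : ℝ) ^ t₀ * (-Real.log Rj)) * ((p : ℝ) ^ z - 1) +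
        min (ε₀ * ((p : ℝ) ^ e₀ * (-Real.log Gj))) (δ * ((p : ℝ) ^ e₀ * (p : ℝ) ^ t₀ * (-Real.log Rj))))) := by
  have hp2 : 2 ≤ p := hp.out.two_le
  have hlogRi : Real.log Ri < 0 := Real.log_neg hRi0 hRi1
  have hlogRj : Real.log Rj < 0 := Real.log_neg hRj0 hRj1
  have hlogGj : Real.log Gj < 0 := Real.log_neg hGj0 hGj1
  have cl : ∀ a : ℕ, ((p ^ a : ℕ) : ℝ) = (p : ℝ) ^ a := fun a => by push_cast; rfl
  have log1 : ∀ (s R G : ℝ), 0 < R → 0 < G → ∀ a : ℕ, u * R ^ (p ^ a) ≤ G →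
      -Real.log G ≤ -Real.log u + (p : ℝ) ^ a * (-Real.log R) := by
    intro s R G hR hG a hle
    have h1 : 0 < u * R ^ (p ^ a) := mul_pos hu (pow_pos hR _)
    have h2 := Real.log_le_log h1 hle
    rw [Real.log_mul hu.ne' (pow_pos hR _).ne', Real.log_pow, cl] at h2
    linarith
  have htan1 := log1 0 Ri Gi hRi0 hGi0 t' T1
  have htan2 := log1 0 Rj Gj hRj0 hGj0 t' T2
  have htan3 : (p : ℝ) ^ h * (-Real.log Gj) ≤ -Real.log u + (p : ℝ) ^ t' * ((p : ℝ) ^ n * (-Real.log Rj)) := by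
    have h1 : 0 < u * (Rj ^ (p ^ n)) ^ (p ^ t') := mul_pos hu (pow_pos (pow_pos hRj0 _) _)
    have h2 := Real.log_le_log h1 T3
    rw [Real.log_mul hu.ne' (pow_pos (pow_pos hRj0 _) _).ne', Real.log_pow, Real.log_pow, Real.log_pow, cl, cl, cl] at h2
    linarith
  have htop : (p : ℝ) ^ e₀ * (-Real.log Gj) ≤ (p : ℝ) ^ e' * (-Real.log Gi) := by
    have h2 := Real.log_le_log (pow_pos hGi0 _) Top
    rw [Real.log_pow, Real.log_pow, cl, cl] at h2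
    linarith
  have hmono1' : -Real.log Ri < -Real.log Rj → -Real.log Gi < -Real.log Gj := by
    intro hlt
    have h1 : Real.log Rj < Real.log Ri := by linarith
    have h2 : Rj < Ri := (Real.log_lt_log_iff hRj0 hRi0).1 h1
    have h3 := Real.log_lt_log hGj0 (mono1 h2)
    linarith
  have hmono2' : -Real.log Gi < (p : ℝ) ^ h * (-Real.log Gj) := by
    have h1 := Real.log_lt_log (pow_pos hGj0 _) mono2
    rw [Real.log_pow, cl] at h1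
    linarith
  have hsame' : -Real.log Ri = -Real.log Rj → -Real.log Gi = -Real.log Gj := by
    intro he
    have h1 : Real.log Ri = Real.log Rj := by linarith
    have h2 : Ri = Rj := Real.log_injOn_pos (Set.mem_Ioi.2 hRi0) (Set.mem_Ioi.2 hRj0) h1
    rw [same h2]
  have hwin1 : -Real.log Rj < (p : ℝ) ^ n * (-Real.log Ri) := by
    have h1 := Real.log_lt_log (pow_pos hRi0 _) win1
    rw [Real.log_pow, cl] at h1
    linarith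
  have hwin2 : -Real.log Ri < (p : ℝ) ^ n * (-Real.log Rj) := by
    have h1 := Real.log_lt_log (pow_pos hRj0 _) win2
    rw [Real.log_pow, cl] at h1
    linarith
  have hmain' : ¬ (-Real.log Ri = -Real.log Rj ∧ e' = e₀ ∧ t' = t₀) := by
    rintro ⟨h1, h2, h3⟩
    apply hmain
    refine ⟨?_, h2, h3⟩
    exact Real.log_injOn_pos (Set.mem_Ioi.2 hRi0) (Set.mem_Ioi.2 hRj0) (by linarith)
  have hdom := domination (p := p) (h := h) (n := n) (e₀ := e₀) (e' := e') (t₀ := t₀) (t' := t') (z := z)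
    hp2 hhn hz (ξ₀ := -Real.log Rj) (ξ' := -Real.log Ri) (H₀ := -Real.log Gj) (H' := -Real.log Gi)
    (γ := -Real.log u) (ε₀ := ε₀) (δ := δ) (by linarith) (by linarith) (by linarith) hε₀ hε₁ hδ
    htan1 htan2 htan3 htop hmono1' hmono2' hsame' hwin1 hwin2 hkey hclass hmain' hdelta
  have hpos : 0 < (u * (Ri ^ (p ^ z)) ^ (p ^ t')) ^ (p ^ e') := pow_pos (mul_pos hu (pow_pos (pow_pos hRi0 _) _)) _
  rw [← Real.exp_log hpos]
  apply Real.exp_le_exp.2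
  rw [Real.log_pow, Real.log_mul hu.ne' (pow_pos (pow_pos hRi0 _) _).ne', Real.log_pow, Real.log_pow, cl, cl, cl]
  have e : (p : ℝ) ^ e' * (-Real.log u + (p : ℝ) ^ t' * (p : ℝ) ^ z * -Real.log Ri) =
      -((p : ℝ) ^ e' * (Real.log u + (p : ℝ) ^ t' * ((p : ℝ) ^ z * Real.log Ri))) := by ring
  rw [e] at hdom
  linarith

/-- The factorisation of the main term. -/
theorem main_factor {J : Type*} (Λ : Finset J) (x : J → C) (π : C) (hπ : π ≠ 0) (v : J → C) (e : J → ℕ) (E : ℕ)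
    (he : ∀ i ∈ Λ, e i = E) (β : C) (m₀ z : ℕ) :
    ∑ i ∈ Λ, v i * (β * (x i ^ (p ^ z)) ^ m₀) ^ (p ^ e i) =
      (β ^ (p ^ E) * π ^ (p ^ z * (m₀ * p ^ E))) * ∑ i ∈ Λ, v i * ((x i / π) ^ (m₀ * p ^ E)) ^ (p ^ z) := by
  rw [Finset.mul_sum]
  refine Finset.sum_congr rfl fun i hi => ?_
  rw [he i hi]
  have h1 : ((x i / π) ^ (m₀ * p ^ E)) ^ (p ^ z) * π ^ (p ^ z * (m₀ * p ^ E)) = x i ^ (p ^ z * (m₀ * p ^ E)) := by
    rw [← pow_mul, div_pow, mul_comm (m₀ * p ^ E) (p ^ z)]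
    field_simp
  have h2 : (β * (x i ^ (p ^ z)) ^ m₀) ^ (p ^ E) = β ^ (p ^ E) * x i ^ (p ^ z * (m₀ * p ^ E)) := by
    rw [mul_pow, ← pow_mul, ← pow_mul]
  rw [h2, ← h1]
  ring


/-- The condition on `δ` in the domination inequality. -/
theorem delta_cond {e₀ e' t₀ t' : ℕ} (hn : 1 ≤ n) {ξ₀ ξ' δ : ℝ} (hξ₀ : 0 < ξ₀) (hξ' : 0 < ξ')
    (hclass : t' + e' ≡ t₀ + e₀ [MOD n])
    (hδ1 : ξ₀ < ξ' → (1 + δ) * ξ₀ ≤ ξ') (hδ2 : (1 + δ) * ξ₀ ≤ (p : ℝ) ^ n * ξ') (hwin2 : ξ' < (p : ℝ) ^ n * ξ₀) :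
    (p : ℝ) ^ e₀ * (p : ℝ) ^ t₀ * ξ₀ < (p : ℝ) ^ e' * (p : ℝ) ^ t' * ξ' →
      (1 + δ) * ((p : ℝ) ^ e₀ * (p : ℝ) ^ t₀ * ξ₀) ≤ (p : ℝ) ^ e' * (p : ℝ) ^ t' * ξ' := by
  intro hlt
  have hp1 : (1 : ℝ) < (p : ℝ) := by exact_mod_cast hp.out.one_lt
  have hP0 : (0 : ℝ) < (p : ℝ) := by linarith
  have hN0 : (p : ℝ) ^ e₀ * (p : ℝ) ^ t₀ = (p : ℝ) ^ (t₀ + e₀) := by rw [pow_add, mul_comm]
  have hN' : (p : ℝ) ^ e' * (p : ℝ) ^ t' = (p : ℝ) ^ (t' + e') := by rw [pow_add, mul_comm]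
  rw [hN0, hN'] at hlt ⊢
  have hcases : t' + e' = t₀ + e₀ ∨ t₀ + e₀ + n ≤ t' + e' ∨ t' + e' + n ≤ t₀ + e₀ := by
    rcases lt_trichotomy (t' + e') (t₀ + e₀) with hlt | heq | hgt
    · right; right
      have hd : n ∣ (t₀ + e₀) - (t' + e') := (Nat.modEq_iff_dvd' hlt.le).1 hclass
      have := Nat.le_of_dvd (by omega) hd
      omega
    · left; exact heq
    · right; left
      have hd : n ∣ (t' + e') - (t₀ + e₀) := (Nat.modEq_iff_dvd' hgt.le).1 hclass.symm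
      have := Nat.le_of_dvd (by omega) hd
      omega
  have hNpos : (0 : ℝ) < (p : ℝ) ^ (t₀ + e₀) := pow_pos hP0 _
  rcases hcases with hA | hA | hA
  · rw [hA] at hlt ⊢
    have h1 : ξ₀ < ξ' := lt_of_mul_lt_mul_left hlt hNpos.le
    have h2 := mul_le_mul_of_nonneg_left (hδ1 h1) hNpos.le
    calc (1 + δ) * ((p : ℝ) ^ (t₀ + e₀) * ξ₀) = (p : ℝ) ^ (t₀ + e₀) * ((1 + δ) * ξ₀) := by ring
      _ ≤ _ := h2
  · have h1 : (p : ℝ) ^ (t₀ + e₀ + n) ≤ (p : ℝ) ^ (t' + e') := pow_le_pow_right₀ hp1.le hA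
    rw [pow_add] at h1
    have h2 := mul_le_mul_of_nonneg_right h1 hξ'.le
    have h3 := mul_le_mul_of_nonneg_left hδ2 hNpos.le
    calc (1 + δ) * ((p : ℝ) ^ (t₀ + e₀) * ξ₀) = (p : ℝ) ^ (t₀ + e₀) * ((1 + δ) * ξ₀) := by ring
      _ ≤ (p : ℝ) ^ (t₀ + e₀) * ((p : ℝ) ^ n * ξ') := h3
      _ = (p : ℝ) ^ (t₀ + e₀) * (p : ℝ) ^ n * ξ' := by ring
      _ ≤ _ := h2
  · exfalso
    have h1 : (p : ℝ) ^ (t' + e' + n) ≤ (p : ℝ) ^ (t₀ + e₀) := pow_le_pow_right₀ hp1.le hA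
    rw [pow_add] at h1
    have h2 := mul_le_mul_of_nonneg_right h1 hξ₀.le
    have h3 : (p : ℝ) ^ (t' + e') * ξ' < (p : ℝ) ^ (t' + e') * ((p : ℝ) ^ n * ξ₀) :=
      mul_lt_mul_of_pos_left hwin2 (pow_pos hP0 _)
    have e3 : (p : ℝ) ^ (t' + e') * ((p : ℝ) ^ n * ξ₀) = (p : ℝ) ^ (t' + e') * (p : ℝ) ^ n * ξ₀ := by ring
    linarith

/-- The key inequality in the log form. -/
theorem key_ineq {u R ρ G g' : ℝ} {m Q q : ℕ} (hu : 0 < u) (hR : 0 < R) (hρ : 0 < ρ) (hG : 0 < G) (hg' : 0 < g')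
    (hq : 1 < q) (hqQ : q < Q) (hvert : u * R ^ m = G) (htan : u * ρ ^ m ≤ g') (hρQ : ρ ^ Q = R) (hgq : g' ^ q = G) :
    (m : ℝ) * (-Real.log R) ≤ ((1 - 1 / (q : ℝ)) / (1 - 1 / (Q : ℝ))) * (-Real.log G) := by
  have hq' : (1 : ℝ) < (q : ℝ) := by exact_mod_cast hq
  have hqQ' : (q : ℝ) < (Q : ℝ) := by exact_mod_cast hqQ
  have hq0 : (0 : ℝ) < q := by linarith
  have hQ0 : (0 : ℝ) < Q := by linarith
  have h1 : -Real.log G = -Real.log u + (m : ℝ) * (-Real.log R) := by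
    rw [← hvert, Real.log_mul hu.ne' (pow_pos hR _).ne', Real.log_pow]
    ring
  have h2 : Real.log R = (Q : ℝ) * Real.log ρ := by rw [← hρQ, Real.log_pow]
  have h3 : Real.log G = (q : ℝ) * Real.log g' := by rw [← hgq, Real.log_pow]
  have h4 : Real.log u + (m : ℝ) * Real.log ρ ≤ Real.log g' := by
    have := Real.log_le_log (mul_pos hu (pow_pos hρ _)) htan
    rwa [Real.log_mul hu.ne' (pow_pos hρ _).ne', Real.log_pow] at this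
  refine key_slope hq' hqQ' h1 ?_
  have e1 : -Real.log G / (q : ℝ) = -Real.log g' := by
    rw [h3]; field_simp
  have e2 : -Real.log R / (Q : ℝ) = -Real.log ρ := by
    rw [h2]; field_simp
  rw [e1, e2]
  linarith

/-- Extension by zero of a coefficient family on a finset. -/
theorem sum_extend {J : Type*} [Fintype J] [DecidableEq J] (Λ : Finset J) (a : Λ → ℕ) (f : J → C) :
    ∑ i, (((if h : i ∈ Λ then a ⟨i, h⟩ else 0 : ℕ)) : C) * f i = ∑ i : Λ, (a i : C) * f i := by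
  set F : J → C := fun i => (((if h : i ∈ Λ then a ⟨i, h⟩ else 0 : ℕ)) : C) * f i with hF
  calc ∑ i, F i = ∑ i ∈ Λ, F i :=
        (Finset.sum_subset (Finset.subset_univ Λ) (fun i _ hi => by simp [F, hi])).symm
    _ = ∑ i : Λ, F i := (Finset.sum_coe_sort Λ F).symm
    _ = ∑ i : Λ, (a i : C) * f i := Finset.sum_congr rfl (fun i _ => by simp [F, i.2])

/-- The facts at the level `K`. -/
structure LF (L : Law C p n) (h : ℕ) (b : C) (K : ℕ) {J : Type*} (X : J → Pts L.G) (e : J → ℕ) (j : J) : Prop where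
  r0 : ∀ i, 0 < ‖(X i).v‖
  G0 : ∀ i, 0 < gK L b K ‖(X i).v‖
  G1 : ∀ i, gK L b K ‖(X i).v‖ < 1
  F2 : ∀ i, gK L b K (‖(X i).v‖ ^ (p ^ n)) = gK L b K ‖(X i).v‖ ^ (p ^ h)
  Top : ∀ i, gK L b K ‖(X i).v‖ ^ (p ^ e i) ≤ gK L b K ‖(X j).v‖ ^ (p ^ e j)
  win : ∀ i j', ‖(X j').v‖ ^ (p ^ n) < ‖(X i).v‖
  b0 : b ≠ 0
  b1 : ‖b‖ < 1
  ht : ∃ t : C, t ≠ 0 ∧ ‖t‖ < 1
  hq : 2 ≤ p ^ h

/-- The estimate of the other terms. -/
theorem term_bound {J : Type*} {b : C} {K : ℕ} {X : J → Pts L.G} {e : J → ℕ} {j : J} (F : LF L h b K X e j)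
    (hn : 1 ≤ n) (hhn : h < n) (hadd : AddQ L) (z : ℕ) (hz : 1 ≤ z)
    (hcz : ∀ i, L.c ≤ (‖(X i).v‖ ^ (p ^ z)) ^ (p ^ n)) (t₀ : ℕ) {ε₀ δ A a₀ S₀ : ℝ} (hε₀ : 0 < ε₀) (hε₁ : ε₀ ≤ 1)
    (hδ0 : 0 ≤ δ)
    (hδ1 : ∀ i, -Real.log ‖(X j).v‖ < -Real.log ‖(X i).v‖ → (1 + δ) * (-Real.log ‖(X j).v‖) ≤ -Real.log ‖(X i).v‖)
    (hδ2 : ∀ i, (1 + δ) * (-Real.log ‖(X j).v‖) ≤ (p : ℝ) ^ n * (-Real.log ‖(X i).v‖))
    (v : J → C) (hA : ∀ i, ‖v i‖ * (1 + ‖b‖⁻¹ ^ (p ^ e i)) ≤ A) (hA0 : 0 ≤ A)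
    (ha₀ : a₀ = (p : ℝ) ^ e j * (-Real.log (gK L b K ‖(X j).v‖)))
    (hS₀ : S₀ = (p : ℝ) ^ e j * (p : ℝ) ^ t₀ * (-Real.log ‖(X j).v‖))
    (hkey : S₀ * (p : ℝ) ^ z ≤ (1 - ε₀) * a₀)
    (i : J) (m : ℕ) (hmod : m * p ^ e i ≡ p ^ (t₀ + e j) [MOD p ^ n - 1])
    (hnot : ¬ (‖(X i).v‖ = ‖(X j).v‖ ∧ e i = e j ∧ m = p ^ t₀)) :
    ‖v i * (b * ((PowerSeries.coeff m (mulSeries L.G (p ^ K)) : OC C) : C) * ((X i).v ^ (p ^ z)) ^ m) ^ (p ^ e i)‖ ≤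
      A * Real.exp (-(a₀ + S₀ * ((p : ℝ) ^ z - 1) + min (ε₀ * a₀) (δ * S₀))) := by
  have hb0' : 0 < ‖b‖ := norm_pos_iff.mpr F.b0
  have hri1 := (X i).norm_lt
  have hrj1 := (X j).norm_lt
  have hri0 := F.r0 i
  have hrj0 := F.r0 j
  have hvA : ‖v i‖ ≤ A := by
    refine le_trans ?_ (hA i)
    refine le_mul_of_one_le_right (norm_nonneg _) ?_
    have : (0 : ℝ) ≤ ‖b‖⁻¹ ^ (p ^ e i) := by positivity
    linarith
  rw [norm_mul, norm_pow]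
  by_cases hmp : ∃ t, m = p ^ t
  · obtain ⟨t', rfl⟩ := hmp
    set c' : C := ((PowerSeries.coeff (p ^ t') (mulSeries L.G (p ^ K)) : OC C) : C) with hc'
    by_cases hu : b * c' = 0
    · rw [hu, zero_mul, norm_zero, zero_pow (pow_ne_zero _ hp.out.ne_zero), mul_zero]
      exact mul_nonneg hA0 (Real.exp_pos _).le
    · have hu0 : 0 < ‖b * c'‖ := norm_pos_iff.mpr hu
      have hclass : t' + e i ≡ t₀ + e j [MOD n] := by
        refine exponent_mod_of_pow_modEq (p := p) hn ?_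
        rw [pow_add]
        exact hmod
      have hmain : ¬ (‖(X i).v‖ = ‖(X j).v‖ ∧ e i = e j ∧ t' = t₀) := by
        rintro ⟨h1, h2, h3⟩
        exact hnot ⟨h1, h2, by rw [h3]⟩
      have hξj : 0 < -Real.log ‖(X j).v‖ := by
        have := Real.log_neg hrj0 hrj1
        linarith
      have hξi : 0 < -Real.log ‖(X i).v‖ := by
        have := Real.log_neg hri0 hri1
        linarith
      have hwin2' : -Real.log ‖(X i).v‖ < (p : ℝ) ^ n * (-Real.log ‖(X j).v‖) := by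
        have h1 := Real.log_lt_log (pow_pos hrj0 _) (F.win i j)
        rw [Real.log_pow] at h1
        push_cast at h1
        linarith
      have hdom := term_dom (e₀ := e j) (e' := e i) (t₀ := t₀) (t' := t') (z := z) (u := ‖b * c'‖)
        (Ri := ‖(X i).v‖) (Rj := ‖(X j).v‖) (Gi := gK L b K ‖(X i).v‖) (Gj := gK L b K ‖(X j).v‖)
        (ε₀ := ε₀) (δ := δ) hhn hz hu0 hri0 hri1 hrj0 hrj1 (F.G0 i) (F.G0 j) (F.G1 j) hε₀ hε₁ hδ0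
        (monomial_le_gK L b K _ hri0.le hri1.le) (monomial_le_gK L b K _ hrj0.le hrj1.le)
        (by
          have := monomial_le_gK L b K (p ^ t') (pow_nonneg hrj0.le (p ^ n)) (pow_le_one₀ hrj0.le hrj1.le)
          rwa [F.F2 j] at this)
        (F.Top i)
        (fun hlt => gK_lt hn F.ht L F.b0 K hrj0.le hlt hri1)
        (by
          rw [← F.F2 j]
          exact gK_lt hn F.ht L F.b0 K (pow_nonneg hrj0.le _) (F.win i j) hri1)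
        (fun he => by rw [he])
        (F.win j i) (F.win i j)
        (by rw [← hS₀, ← ha₀]; exact hkey) hclass hmain
        (delta_cond hn hξj hξi hclass (hδ1 i) (hδ2 i) hwin2')
      rw [← hS₀, ← ha₀] at hdom
      have e1 : ‖b * c' * ((X i).v ^ (p ^ z)) ^ (p ^ t')‖ = ‖b * c'‖ * (‖(X i).v‖ ^ (p ^ z)) ^ (p ^ t') := by
        rw [norm_mul, norm_pow, norm_pow]
      rw [e1]
      exact mul_le_mul hvA hdom (pow_nonneg (mul_nonneg hu0.le (pow_nonneg (pow_nonneg hri0.le _) _)) _) hA0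
  · -- the monomials of degree not a power of `p`
    have hle2 : ‖b * ((PowerSeries.coeff m (mulSeries L.G (p ^ K)) : OC C) : C) * ((X i).v ^ (p ^ z)) ^ m‖ ≤
        (gK L b K ‖(X i).v‖) ^ 2 / ‖b‖ :=
      term_nonpow hadd F.b0 F.b1.le K (X i).v rfl hri0 hri1 z (hcz i) F.hq (F.F2 i) (F.G0 i).le (F.G1 i).le hmp
    have hpow := pow_le_pow_left₀ (norm_nonneg _) hle2 (p ^ e i)
    have hGj0 := F.G0 j
    have hlogGj : Real.log (gK L b K ‖(X j).v‖) < 0 := Real.log_neg hGj0 (F.G1 j)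
    have hGa : gK L b K ‖(X j).v‖ ^ (p ^ e j) = Real.exp (-a₀) := by
      rw [ha₀]
      have : -((p : ℝ) ^ e j * (-Real.log (gK L b K ‖(X j).v‖))) = Real.log (gK L b K ‖(X j).v‖ ^ (p ^ e j)) := by
        rw [Real.log_pow]; push_cast; ring
      rw [this, Real.exp_log (pow_pos hGj0 _)]
    have e2 : ((gK L b K ‖(X i).v‖) ^ 2 / ‖b‖) ^ (p ^ e i) =
        (gK L b K ‖(X i).v‖ ^ (p ^ e i)) ^ 2 * ‖b‖⁻¹ ^ (p ^ e i) := by
      rw [div_eq_mul_inv, mul_pow, ← pow_mul, ← pow_mul, mul_comm 2]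
    rw [e2] at hpow
    have hTop2 : (gK L b K ‖(X i).v‖ ^ (p ^ e i)) ^ 2 ≤ Real.exp (-a₀) ^ 2 := by
      rw [← hGa]
      exact pow_le_pow_left₀ (pow_nonneg (F.G0 i).le _) (F.Top i) 2
    have hbinv : (0 : ℝ) ≤ ‖b‖⁻¹ ^ (p ^ e i) := by positivity
    have h3 : ‖v i‖ * ‖b * ((PowerSeries.coeff m (mulSeries L.G (p ^ K)) : OC C) : C) * ((X i).v ^ (p ^ z)) ^ m‖ ^ (p ^ e i) ≤
        ‖v i‖ * (Real.exp (-a₀) ^ 2 * ‖b‖⁻¹ ^ (p ^ e i)) :=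
      mul_le_mul_of_nonneg_left (hpow.trans (mul_le_mul_of_nonneg_right hTop2 hbinv)) (norm_nonneg _)
    refine h3.trans ?_
    have h4 : ‖v i‖ * (Real.exp (-a₀) ^ 2 * ‖b‖⁻¹ ^ (p ^ e i)) =
        (‖v i‖ * ‖b‖⁻¹ ^ (p ^ e i)) * Real.exp (-a₀) ^ 2 := by ring
    rw [h4]
    have h5 : ‖v i‖ * ‖b‖⁻¹ ^ (p ^ e i) ≤ A := by
      refine le_trans ?_ (hA i)
      refine mul_le_mul_of_nonneg_left ?_ (norm_nonneg _)
      linarith
    have h6 : Real.exp (-a₀) ^ 2 = Real.exp (-(2 * a₀)) := by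
      rw [← Real.exp_nat_mul]
      congr 1
      push_cast
      ring
    rw [h6]
    refine mul_le_mul h5 (Real.exp_le_exp.2 ?_) (Real.exp_pos _).le hA0
    -- `V₀ + μ ≤ 2 a₀`
    have h7 : min (ε₀ * a₀) (δ * S₀) ≤ ε₀ * a₀ := min_le_left _ _
    have hS0 : 0 ≤ S₀ := by
      rw [hS₀]
      have h8 : 0 < -Real.log ‖(X j).v‖ := by
        have := Real.log_neg hrj0 hrj1
        linarith
      have hP : (0 : ℝ) ≤ (p : ℝ) := Nat.cast_nonneg _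
      positivity
    have e3 : S₀ * ((p : ℝ) ^ z - 1) = S₀ * (p : ℝ) ^ z - S₀ := by ring
    have e4 : (1 - ε₀) * a₀ = a₀ - ε₀ * a₀ := by ring
    rw [e3]
    rw [e4] at hkey
    linarith

/-- The bound of a row. -/
theorem row_bound {J : Type*} [Fintype J] [DecidableEq J] {b : C} {K : ℕ} {X : J → Pts L.G} {e : J → ℕ} {j : J}
    (F : LF L h b K X e j) (hn : 1 ≤ n) (hhn : h < n) (hadd : AddQ L)
    {k : Type*} [Field k] [Fintype k] [CharP k p] (hk : Fintype.card k = p ^ n) (κ : k →+* OC C)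
    (z : ℕ) (hz : 1 ≤ z)
    (hcz : ∀ i, L.c ≤ (‖(X i).v‖ ^ (p ^ z)) ^ (p ^ n)) (t₀ : ℕ) {ε₀ δ A a₀ S₀ : ℝ} (hε₀ : 0 < ε₀) (hε₁ : ε₀ ≤ 1)
    (hδ0 : 0 ≤ δ)
    (hδ1 : ∀ i, -Real.log ‖(X j).v‖ < -Real.log ‖(X i).v‖ → (1 + δ) * (-Real.log ‖(X j).v‖) ≤ -Real.log ‖(X i).v‖)
    (hδ2 : ∀ i, (1 + δ) * (-Real.log ‖(X j).v‖) ≤ (p : ℝ) ^ n * (-Real.log ‖(X i).v‖))
    (v : J → C) (hA : ∀ i, ‖v i‖ * (1 + ‖b‖⁻¹ ^ (p ^ e i)) ≤ A) (hA0 : 0 ≤ A)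
    (ha₀ : a₀ = (p : ℝ) ^ e j * (-Real.log (gK L b K ‖(X j).v‖)))
    (hS₀ : S₀ = (p : ℝ) ^ e j * (p : ℝ) ^ t₀ * (-Real.log ‖(X j).v‖))
    (hkey : S₀ * (p : ℝ) ^ z ≤ (1 - ε₀) * a₀)
    (Λ : Finset J) (hΛ : ∀ i, i ∈ Λ ↔ (‖(X i).v‖ = ‖(X j).v‖ ∧ e i = e j))
    (hvert : ‖b * ((PowerSeries.coeff (p ^ t₀) (mulSeries L.G (p ^ K)) : OC C) : C)‖ * ‖(X j).v‖ ^ (p ^ t₀) =
      gK L b K ‖(X j).v‖)
    (hrel : ∀ d : k, d ≠ 0 →
      ‖∑ i, v i * (b * ((ev1 (RingHom.id _) (κ d * (X i).o ^ (p ^ z)) (mulSeries L.G (p ^ K)) : OC C) : C)) ^ (p ^ e i)‖ ≤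
        A * Real.exp (-(2 * a₀))) :
    ‖∑ i ∈ Λ, v i * (((X i).v / (X j).v) ^ (p ^ t₀ * p ^ e j)) ^ (p ^ z)‖ ≤
      A * Real.exp (-(min (ε₀ * a₀) (δ * S₀))) := by
  have hrj0 := F.r0 j
  have hrj1 := (X j).norm_lt
  have hGj0 := F.G0 j
  have hP : (0 : ℝ) < (p : ℝ) := by exact_mod_cast hp.out.pos
  have hξ : 0 < -Real.log ‖(X j).v‖ := by
    have := Real.log_neg hrj0 hrj1
    linarith
  have hS0 : 0 ≤ S₀ := by
    rw [hS₀]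
    positivity
  set μ : ℝ := min (ε₀ * a₀) (δ * S₀) with hμ
  set V : ℝ := a₀ + S₀ * ((p : ℝ) ^ z - 1) with hV
  have hle : V + μ ≤ 2 * a₀ := by
    have h7 : μ ≤ ε₀ * a₀ := min_le_left _ _
    have e3 : S₀ * ((p : ℝ) ^ z - 1) = S₀ * (p : ℝ) ^ z - S₀ := by ring
    have e4 : (1 - ε₀) * a₀ = a₀ - ε₀ * a₀ := by ring
    rw [e4] at hkey
    rw [hV, e3]
    linarith
  have hBnn : 0 ≤ A * Real.exp (-(V + μ)) := mul_nonneg hA0 (Real.exp_pos _).le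
  have hfm := fourier_main (p := p) hk κ (mulSeries L.G (p ^ K)) b (fun i => (X i).o ^ (p ^ z))
    (fun i => by
      have h1 : ‖(((X i).o ^ (p ^ z) : OC C) : C)‖ = ‖(X i).v‖ ^ (p ^ z) := by
        show ‖(X i).v ^ (p ^ z)‖ = _
        rw [norm_pow]
      rw [h1]
      exact pow_lt_one₀ (norm_nonneg _) (X i).norm_lt (pow_ne_zero _ hp.out.ne_zero)) e v
    (E := A * Real.exp (-(V + μ))) (B := A * Real.exp (-(V + μ))) hBnn hBnn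
    (fun d hd => (hrel d hd).trans (mul_le_mul_of_nonneg_left (Real.exp_le_exp.2 (by linarith)) hA0))
    (p ^ (t₀ + e j)) Λ (p ^ t₀)
    (fun i hi => by
      rw [((hΛ i).1 hi).2, pow_add])
    (fun i m hmod hnot => by
      refine term_bound F hn hhn hadd z hz hcz t₀ hε₀ hε₁ hδ0 hδ1 hδ2 v hA hA0 ha₀ hS₀ hkey i m hmod ?_
      rintro ⟨h1, h2, h3⟩
      exact hnot ⟨(hΛ i).2 ⟨h1, h2⟩, h3⟩)
  rw [max_self] at hfm
  -- the factorisation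
  have hfac := main_factor (p := p) Λ (fun i => (X i).v) (X j).v (norm_pos_iff.mp hrj0) v e (e j)
    (fun i hi => ((hΛ i).1 hi).2) (b * ((PowerSeries.coeff (p ^ t₀) (mulSeries L.G (p ^ K)) : OC C) : C)) (p ^ t₀) z
  have hfm' : ‖∑ i ∈ Λ, v i * (b * ((PowerSeries.coeff (p ^ t₀) (mulSeries L.G (p ^ K)) : OC C) : C) *
      ((X i).v ^ (p ^ z)) ^ (p ^ t₀)) ^ (p ^ e i)‖ ≤ A * Real.exp (-(V + μ)) := hfm
  rw [hfac, norm_mul] at hfm'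
  set u : ℝ := ‖b * ((PowerSeries.coeff (p ^ t₀) (mulSeries L.G (p ^ K)) : OC C) : C)‖ with hu
  have hu0 : 0 < u := by
    by_contra hcon
    have h0 : u = 0 := le_antisymm (not_lt.1 hcon) (norm_nonneg _)
    rw [h0, zero_mul] at hvert
    linarith
  have hW : ‖(b * ((PowerSeries.coeff (p ^ t₀) (mulSeries L.G (p ^ K)) : OC C) : C)) ^ (p ^ e j) *
      (X j).v ^ (p ^ z * (p ^ t₀ * p ^ e j))‖ = Real.exp (-V) := by
    rw [norm_mul, norm_pow, norm_pow, ← hu]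
    have hpos : 0 < u ^ (p ^ e j) * ‖(X j).v‖ ^ (p ^ z * (p ^ t₀ * p ^ e j)) :=
      mul_pos (pow_pos hu0 _) (pow_pos hrj0 _)
    rw [← Real.exp_log hpos]
    congr 1
    rw [Real.log_mul (pow_pos hu0 _).ne' (pow_pos hrj0 _).ne', Real.log_pow, Real.log_pow]
    have hlog : Real.log (gK L b K ‖(X j).v‖) = Real.log u + ((p : ℝ) ^ t₀) * Real.log ‖(X j).v‖ := by
      rw [← hvert, Real.log_mul hu0.ne' (pow_pos hrj0 _).ne', Real.log_pow]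
      push_cast
      ring
    rw [hV, ha₀, hS₀, hlog]
    push_cast
    ring
  rw [hW] at hfm'
  have hexp : Real.exp (-(V + μ)) = Real.exp (-V) * Real.exp (-μ) := by
    rw [← Real.exp_add]
    congr 1
    ring
  rw [hexp] at hfm'
  have hexp0 : 0 < Real.exp (-V) := Real.exp_pos _
  have e5 : A * (Real.exp (-V) * Real.exp (-μ)) = Real.exp (-V) * (A * Real.exp (-μ)) := by ring
  rw [e5] at hfm'
  exact le_of_mul_le_mul_left hfm' hexp0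

/-- The bound at the level `K`. -/
theorem aat_level {J : Type*} [Fintype J] [DecidableEq J] (hn : 1 ≤ n) (H : HtLaw L h) (hh1 : 1 ≤ h) (hhn : h < n) (hadd : AddQ L)
    {b : C} (hb : b ^ (p ^ h - 1) = aL L h)
    {k : Type*} [Field k] [Fintype k] [CharP k p] (hk : Fintype.card k = p ^ n) (κ : k →+* OC C)
    (X : J → Pts L.G) (hX0 : ∀ i, (X i).v ≠ 0) (Z : ℕ) (hZ : Fintype.card J ≤ Z)
    (hwin : ∀ i j, ‖(X j).v‖ ^ (p ^ n) < ‖(X i).v‖)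
    (hc : ∀ i, L.c < ‖(X i).v‖ ^ (p ^ Z * p ^ n))
    (hind : ∀ (j : J) (a : J → ℕ), (∀ i, a i < p) → (∃ i, a i ≠ 0) → (∀ i, a i ≠ 0 → ‖(X i).v‖ = ‖(X j).v‖) →
      ‖∑ i, (a i : C) * (X i).v‖ = ‖(X j).v‖)
    (K₀ : ℕ)
    (hsm : ∀ i, ∀ K, K₀ ≤ K → ∀ x : Pts L.G, ‖x.v‖ ^ (p ^ n) ≤ ‖(X i).v‖ → ‖((p ^ K) • x).v‖ < ‖aL L h‖)
    (hvan : ∀ i, ∀ K, K₀ ≤ K → ‖b * ((p ^ K) • X i).v‖ < gK L b K ‖(X i).v‖)
    (e : J → ℕ) (j : J)
    (htop : ∀ i, gK L b K₀ ‖(X i).v‖ ^ (p ^ e i) ≤ gK L b K₀ ‖(X j).v‖ ^ (p ^ e j))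
    (v : J → C) (Cst : ℝ) (K₁ : ℕ)
    (hrel : ∀ z, 1 ≤ z → z ≤ Z → ∀ d : k, d ≠ 0 → ∀ K, K₁ ≤ K →
      ‖∑ i, v i * (b * ((ev1 (RingHom.id _) (κ d * (X i).o ^ (p ^ z)) (mulSeries L.G (p ^ K)) : OC C) : C)) ^ (p ^ e i)‖ ≤
        Cst * (gK L b K₀ ‖(X j).v‖ ^ (p ^ e j)) ^ (2 * (p ^ h) ^ (K - K₀)))
    {ε₀ δ A : ℝ} (hε₀def : ε₀ = 1 - (1 - 1 / ((p : ℝ) ^ h)) / (1 - 1 / ((p : ℝ) ^ n)))
    (hε₀ : 0 < ε₀) (hε₁ : ε₀ ≤ 1) (hδ0 : 0 < δ)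
    (hδ1 : ∀ i, -Real.log ‖(X j).v‖ < -Real.log ‖(X i).v‖ → (1 + δ) * (-Real.log ‖(X j).v‖) ≤ -Real.log ‖(X i).v‖)
    (hδ2 : ∀ i, (1 + δ) * (-Real.log ‖(X j).v‖) ≤ (p : ℝ) ^ n * (-Real.log ‖(X i).v‖))
    (hA : ∀ i, ‖v i‖ * (1 + ‖b‖⁻¹ ^ (p ^ e i)) ≤ A) (hA0 : 0 ≤ A) (hCA : Cst ≤ A)
    (K : ℕ) (hK₀ : K₀ ≤ K) (hK₁ : K₁ ≤ K) (i₀ : J) (hi₀ : ‖(X i₀).v‖ = ‖(X j).v‖) (hei₀ : e i₀ = e j) :
    ‖v i₀‖ ≤ A * Real.exp (-(min (ε₀ * ((p : ℝ) ^ e j * (-Real.log (gK L b K ‖(X j).v‖))))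
      (δ * ((p : ℝ) ^ e j * ((p : ℝ) ^ h) ^ K * (-Real.log ‖(X j).v‖))))) := by
  classical
  have hp2 : 2 ≤ p := hp.out.two_le
  have hP : (0 : ℝ) < (p : ℝ) := by exact_mod_cast hp.out.pos
  have hP1 : (1 : ℝ) < (p : ℝ) := by exact_mod_cast hp.out.one_lt
  obtain ⟨hb0, hb1⟩ := b_facts H hh1 hhn hb
  have ht := H.exists_small hhn
  have hr0 : ∀ i, 0 < ‖(X i).v‖ := fun i => norm_pos_iff.2 (hX0 i)
  have hr1 : ∀ i, ‖(X i).v‖ < 1 := fun i => (X i).norm_lt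
  have hQ0 : p ^ n ≠ 0 := pow_ne_zero _ hp.out.ne_zero
  have hq2 : 2 ≤ p ^ h := by
    calc 2 ≤ p := hp2
      _ = p ^ 1 := (pow_one p).symm
      _ ≤ p ^ h := Nat.pow_le_pow_right (by omega) hh1
  have hqQ : p ^ h < p ^ n := Nat.pow_lt_pow_right (by omega) hhn
  have hcz : ∀ i z, z ≤ Z → L.c < (‖(X i).v‖ ^ (p ^ z)) ^ (p ^ n) := by
    intro i z hz
    refine lt_of_lt_of_le (hc i) ?_
    rw [← pow_mul]
    exact pow_le_pow_of_le_one (norm_nonneg _) (hr1 i).le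
      (Nat.mul_le_mul_right _ (Nat.pow_le_pow_right (by omega) hz))
  have hc1 : ∀ i, L.c < ‖(X i).v‖ ^ (p ^ n) := by
    intro i
    refine lt_of_lt_of_le (hc i) ?_
    exact pow_le_pow_of_le_one (norm_nonneg _) (hr1 i).le
      (Nat.le_mul_of_pos_left _ (by positivity))
  have hRF := fun i => radius_facts (b := b) hn H hh1 hhn hb K (X i).v rfl (hr0 i) (hr1 i) (hc1 i) (hsm i K hK₀)
  have ha1 : ‖aL L h‖ < 1 := lt_of_le_of_lt (norm_aL_le_c L hhn) L.c_lt_one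
  have hb0' : 0 < ‖b‖ := norm_pos_iff.mpr hb0
  have hGbd : ∀ i, gK L b K ‖(X i).v‖ ≤ ‖b‖ * ‖aL L h‖ := by
    intro i
    obtain ⟨ρ, w, hw, hρ0, hρ1, hρQ, hg, hle, hF2⟩ := hRF i
    have h1 : ‖(X i).v‖ ≤ ρ := by
      rw [← hρQ]
      exact pow_le_of_le_one hρ0.le hρ1.le hQ0
    exact (gK_mono L b K (norm_nonneg _) h1 hρ1.le).trans hle
  have hbab : ‖b‖ * ‖aL L h‖ < ‖b‖ := by
    have := mul_lt_mul_of_pos_left ha1 hb0'
    linarith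
  have hGb : ∀ i, gK L b K ‖(X i).v‖ < ‖b‖ := fun i => lt_of_le_of_lt (hGbd i) hbab
  have hG1 : ∀ i, gK L b K ‖(X i).v‖ < 1 := fun i => (hGb i).trans hb1
  have hG0 : ∀ i, 0 < gK L b K ‖(X i).v‖ := fun i => gK_pos hn ht L hb0 K (hr0 i) (hr1 i)
  have hF3 : ∀ i, gK L b K ‖(X i).v‖ = gK L b K₀ ‖(X i).v‖ ^ ((p ^ h) ^ (K - K₀)) := by
    intro i
    refine gK_iter H hh1 hb K₀ K hK₀ (X i).v rfl (hr0 i) (hr1 i) fun K' hK' y hy => hsm i K' hK' y ?_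
    calc ‖y.v‖ ^ (p ^ n) ≤ ‖(X i).v‖ ^ (p ^ n) := pow_le_pow_left₀ (norm_nonneg _) hy _
      _ ≤ ‖(X i).v‖ := pow_le_of_le_one (norm_nonneg _) (hr1 i).le hQ0
  have hG00 : ∀ i, 0 ≤ gK L b K₀ ‖(X i).v‖ := fun i =>
    (gK_pos hn ht L hb0 K₀ (hr0 i) (hr1 i)).le
  have hTop : ∀ i, gK L b K ‖(X i).v‖ ^ (p ^ e i) ≤ gK L b K ‖(X j).v‖ ^ (p ^ e j) := by
    intro i
    rw [hF3 i, hF3 j]
    calc (gK L b K₀ ‖(X i).v‖ ^ ((p ^ h) ^ (K - K₀))) ^ (p ^ e i)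
        = (gK L b K₀ ‖(X i).v‖ ^ (p ^ e i)) ^ ((p ^ h) ^ (K - K₀)) := pow_right_comm _ _ _
      _ ≤ (gK L b K₀ ‖(X j).v‖ ^ (p ^ e j)) ^ ((p ^ h) ^ (K - K₀)) :=
          pow_le_pow_left₀ (pow_nonneg (hG00 i) _) (htop i) _
      _ = (gK L b K₀ ‖(X j).v‖ ^ ((p ^ h) ^ (K - K₀))) ^ (p ^ e j) := pow_right_comm _ _ _
  have F : LF L h b K X e j :=
    { r0 := hr0, G0 := hG0, G1 := hG1,
      F2 := fun i => by
        obtain ⟨ρ, w, hw, hρ0, hρ1, hρQ, hg, hle, hF2⟩ := hRF i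
        exact hF2
      Top := hTop, win := hwin, b0 := hb0, b1 := hb1, ht := ht, hq := hq2 }
  -- the set of the main indices
  set Λ : Finset J := Finset.univ.filter (fun i => ‖(X i).v‖ = ‖(X j).v‖ ∧ e i = e j) with hΛdef
  have hΛ : ∀ i, i ∈ Λ ↔ (‖(X i).v‖ = ‖(X j).v‖ ∧ e i = e j) := by
    intro i
    simp [Λ]
  have hcard : Fintype.card Λ ≤ Z := by
    rw [Fintype.card_coe]
    exact (Finset.card_le_univ Λ).trans hZ
  have hind' : ∀ a : Λ → ℕ, (∀ i, a i < p) → (∃ i, a i ≠ 0) →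
      ‖∑ i : Λ, (a i : C) * (X i).v‖ = ‖(X j).v‖ := by
    intro a ha hne
    rw [← sum_extend Λ a (fun i => (X i).v)]
    refine hind j (fun i => if h : i ∈ Λ then a ⟨i, h⟩ else 0) ?_ ?_ ?_
    · intro i
      by_cases hi : i ∈ Λ
      · simp only [hi, dite_true]; exact ha _
      · simp only [hi, dite_false]; exact hp.out.pos
    · obtain ⟨i, hi⟩ := hne
      refine ⟨i, ?_⟩
      simp only [i.2, dite_true]
      exact hi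
    · intro i hi
      by_cases hi' : i ∈ Λ
      · exact ((hΛ i).1 hi').1
      · simp [hi'] at hi
  obtain ⟨t₀, t₁, htt, hv₀, hv₁⟩ := vertex_lemma (J := Λ) hn ht hadd hb0 K (π := (X j).v) rfl (hr0 j) (hr1 j) (hc1 j).le (hGb j)
    (fun i => X i) (fun i => ((hΛ i).1 i.2).1)
    (fun i => by
      have := hvan i K hK₀
      rwa [((hΛ i).1 i.2).1] at this)
    hind'
  -- the lowest degree
  have hlow : (p ^ h) ^ K ≤ p ^ t₀ := by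
    by_contra hcon
    push Not at hcon
    have h0 := H.coeff_pow_eq_zero K (p ^ t₀) (by rw [pow_mul]; exact hcon)
    rw [h0] at hv₀
    have h1 := hG0 j
    have e0 : ((0 : OC C) : C) = 0 := rfl
    rw [e0, mul_zero, norm_zero, zero_mul] at hv₀
    linarith
  -- the key inequality
  have hkey0 : ((p : ℝ) ^ t₁) * (-Real.log ‖(X j).v‖) ≤ (1 - ε₀) * (-Real.log (gK L b K ‖(X j).v‖)) := by
    obtain ⟨ρ, w, hw, hρ0, hρ1, hρQ, hg, hle, hF2⟩ := hRF j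
    set u : ℝ := ‖b * ((PowerSeries.coeff (p ^ t₁) (mulSeries L.G (p ^ K)) : OC C) : C)‖ with hu
    have hu0 : 0 < u := by
      by_contra hcon
      have h0 : u = 0 := le_antisymm (not_lt.1 hcon) (norm_nonneg _)
      rw [h0, zero_mul] at hv₁
      have h1 := hG0 j
      linarith
    have hg'0 : 0 < gK L b K ρ := gK_pos hn ht L hb0 K hρ0 hρ1
    have := key_ineq (u := u) (R := ‖(X j).v‖) (ρ := ρ) (G := gK L b K ‖(X j).v‖) (g' := gK L b K ρ)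
      (m := p ^ t₁) (Q := p ^ n) (q := p ^ h) hu0 (hr0 j) hρ0 (hG0 j) hg'0 (by omega) hqQ hv₁
      (monomial_le_gK L b K _ hρ0.le hρ1.le) hρQ hg
    have e1 : (1 - ε₀) = ((1 - 1 / ((p ^ h : ℕ) : ℝ)) / (1 - 1 / ((p ^ n : ℕ) : ℝ))) := by
      rw [hε₀def]; push_cast; ring
    rw [e1]
    have e2 : ((p ^ t₁ : ℕ) : ℝ) = (p : ℝ) ^ t₁ := by push_cast; rfl
    rw [e2] at this
    exact this
  set a₀ : ℝ := (p : ℝ) ^ e j * (-Real.log (gK L b K ‖(X j).v‖)) with ha₀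
  set S₀ : ℝ := (p : ℝ) ^ e j * (p : ℝ) ^ t₀ * (-Real.log ‖(X j).v‖) with hS₀
  have hξ : 0 < -Real.log ‖(X j).v‖ := by
    have := Real.log_neg (hr0 j) (hr1 j)
    linarith
  have hGa : gK L b K ‖(X j).v‖ ^ (p ^ e j) = Real.exp (-a₀) := by
    rw [ha₀]
    have : -((p : ℝ) ^ e j * (-Real.log (gK L b K ‖(X j).v‖))) = Real.log (gK L b K ‖(X j).v‖ ^ (p ^ e j)) := by
      rw [Real.log_pow]; push_cast; ring
    rw [this, Real.exp_log (pow_pos (hG0 j) _)]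
  -- the rows
  have hrow : ∀ z, 1 ≤ z → z ≤ Fintype.card Λ →
      ‖∑ i ∈ Λ, v i * (((X i).v / (X j).v) ^ (p ^ t₀ * p ^ e j)) ^ (p ^ z)‖ ≤
        A * Real.exp (-(min (ε₀ * a₀) (δ * S₀))) := by
    intro z hz1 hz2
    have hzZ : z ≤ Z := hz2.trans hcard
    refine row_bound F hn hhn hadd hk κ z hz1 (fun i => (hcz i z hzZ).le) t₀ hε₀ hε₁ hδ0.le hδ1 hδ2 v hA hA0 ha₀ hS₀ ?_ Λ hΛ hv₀ ?_
    · -- `hkey`
      have h1 : (p : ℝ) ^ t₀ * (p : ℝ) ^ z ≤ (p : ℝ) ^ t₁ := by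
        rw [← pow_add]
        refine pow_le_pow_right₀ hP1.le ?_
        omega
      have h2 := mul_le_mul_of_nonneg_right h1 hξ.le
      have h3 := h2.trans hkey0
      have h4 := mul_le_mul_of_nonneg_left h3 (pow_pos hP (e j)).le
      calc S₀ * (p : ℝ) ^ z = (p : ℝ) ^ e j * ((p : ℝ) ^ t₀ * (p : ℝ) ^ z * (-Real.log ‖(X j).v‖)) := by
            rw [hS₀]; ring
        _ ≤ _ := h4
        _ = _ := by rw [ha₀]; ring
    · -- `hrel`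
      intro d hd
      refine (hrel z hz1 hzZ d hd K hK₁).trans ?_
      have e1 : (gK L b K₀ ‖(X j).v‖ ^ (p ^ e j)) ^ (2 * (p ^ h) ^ (K - K₀)) = Real.exp (-(2 * a₀)) := by
        have h1 : (gK L b K₀ ‖(X j).v‖ ^ (p ^ e j)) ^ (2 * (p ^ h) ^ (K - K₀)) =
            (gK L b K ‖(X j).v‖ ^ (p ^ e j)) ^ 2 := by
          have hgen : ∀ (x : ℝ) (a c : ℕ), (x ^ a) ^ (2 * c) = ((x ^ c) ^ a) ^ 2 := by
            intro x a c
            rw [← pow_mul, ← pow_mul, ← pow_mul]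
            congr 1
            ring
          rw [hF3 j]
          exact hgen _ _ _
        rw [h1, hGa, ← Real.exp_nat_mul]
        congr 1
        push_cast
        ring
      rw [e1]
      exact mul_le_mul_of_nonneg_right hCA (Real.exp_pos _).le
  -- the Moore bound
  have hπ : (X j).v ≠ 0 := hX0 j
  have hρnorm : ∀ i : Λ, ‖(X i).v / (X j).v‖ = 1 := by
    intro i
    rw [norm_div, ((hΛ i).1 i.2).1]
    exact div_self (hr0 j).ne'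
  have hindρ : ∀ a : Λ → ℕ, (∀ i, a i < p) → (∃ i, a i ≠ 0) →
      ‖∑ i : Λ, (a i : C) * ((X i).v / (X j).v)‖ = 1 := by
    intro a ha hne
    have e1 : ∑ i : Λ, (a i : C) * ((X i).v / (X j).v) = (∑ i : Λ, (a i : C) * (X i).v) / (X j).v := by
      rw [Finset.sum_div]
      exact Finset.sum_congr rfl fun i _ => by ring
    rw [e1, norm_div, hind' a ha hne]
    exact div_self (hr0 j).ne'
  have hmoore := moore_bound p (fun i : Λ => ((X i).v / (X j).v) ^ (p ^ (t₀ + e j + 1))) (fun i : Λ => v i)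
    (fun i => by rw [norm_pow, hρnorm i, one_pow])
    (fun a ha hne => ind_pow p (fun i : Λ => (X i).v / (X j).v) hindρ (t₀ + e j + 1) a ha hne)
    (mul_nonneg hA0 (Real.exp_pos (-(min (ε₀ * a₀) (δ * S₀)))).le)
    (fun t ht => by
      have h1 := hrow (t + 1) (by omega) (by omega)
      have e1 : ∑ i : Λ, v i * (((X i).v / (X j).v) ^ (p ^ (t₀ + e j + 1))) ^ (p ^ t) =
          ∑ i ∈ Λ, v i * (((X i).v / (X j).v) ^ (p ^ t₀ * p ^ e j)) ^ (p ^ (t + 1)) := by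
        rw [← Finset.sum_coe_sort Λ]
        refine Finset.sum_congr rfl fun i _ => ?_
        congr 1
        rw [← pow_mul, ← pow_mul]
        congr 1
        ring
      rw [e1]
      exact h1)
  have hi₀Λ : i₀ ∈ Λ := (hΛ i₀).2 ⟨hi₀, hei₀⟩
  have hfin := hmoore ⟨i₀, hi₀Λ⟩
  refine hfin.trans (mul_le_mul_of_nonneg_left (Real.exp_le_exp.2 ?_) hA0)
  apply neg_le_neg
  apply min_le_min le_rfl
  apply mul_le_mul_of_nonneg_left _ hδ0.le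
  rw [hS₀]
  have hlow' : ((p : ℝ) ^ h) ^ K ≤ (p : ℝ) ^ t₀ := by exact_mod_cast hlow
  have := mul_le_mul_of_nonneg_right (mul_le_mul_of_nonneg_left hlow' (pow_pos hP (e j)).le) hξ.le
  exact this

/-- The analysis theorem.

Setting: `L` a law of height `h`, `1 ≤ h < n`, `b ^ (q - 1) = a`, with `q = p ^ h`, `Q = p ^ n`, `k` the field with `Q` elements. Points `X i` (`i ∈ J`) with the window condition `r j ^ Q < r i` for all `i, j`, where `r i = ‖X i‖`, and `c < r i ^ (p ^ Z * Q)`, `F_p`-independence in the shells,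
`Z ≥ card J`. For `K ≥ K₀`, `[p ^ K]` is small on the disc of radius `r i ^ (1 / Q)` (this is hypothesis `hsm`) and nearly vanishes at `X i` (`hvan`). Let `j` be top for the exponents `e`: `w i ^ (p ^ e i) ≤ w j ^ (p ^ e j)` where `w i = gK K₀ (r i)`. Let `v` be such that for all the rows `z ∈ [1, Z]`, for all `d ∈ kˣ`, all `K ≥ K₁`:
`‖∑ i, v i * (b * [p ^ K](κ d * X i ^ (p ^ z))) ^ (p ^ e i)‖ ≤ Cst * (w j ^ (p ^ e j)) ^ (2 * q ^ (K - K₀))`.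
Conclusion: `v i = 0` for all `i` with `r i = r j`, `e i = e j`.

Proof. Notation for a level `K ≥ max K₀ K₁`: `g r = gK L b K r`, `ξ i = - log (r i)`, `H(r) = - log (g r)`, for `m` with `c_m ≠ 0`: `γ m = - log ‖b c_m‖`. `Λ₀ = {i | r i = r j ∧ e i = e j}`, `l = card Λ₀ ≤ Z`, `ξ₀ = ξ j`, `H₀ = H (r j)`, `E₀ = p ^ (e j)`, `a₀ = E₀ * H₀`.
Facts, from `HtLaw.gK_succ`, `HtLaw.gK_homog`, `gK_lt`, (the `Q`-th root `ρ i` of `r i` is a norm):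
(F1) `g (r i) = g (ρ i) ^ q`, (F2) `g (r i ^ Q) = g (r i) ^ q`, (F3) `gK K (r i) = (gK K₀ (r i)) ^ (q ^ (K - K₀))`, (F4) `g (r i) ≤ g (ρ i) ≤ ‖b‖ * ‖a‖ < min ‖b‖ 1`.
So `g (r i) ^ (p ^ e i) ≤ g (r j) ^ E₀ = exp (- a₀)`, `a₀ = E₀ * q ^ (K - K₀) * H^{K₀}(r j)`.
Vertices: `vertex_lemma` for the subtype `Λ₀`, at the level `K`: `t₀, t₁` (`hvan`, `hind` provide the hypotheses). `c_{p ^ t₀} ≠ 0`, so `p ^ t₀ ≥ q ^ K` (`HtLaw.coeff_pow_eq_zero`). Put `S₀ = E₀ * p ^ t₀ * ξ₀`. Now `H₀ = γ (p ^ t₁) + p ^ t₁ * ξ₀`, and by (F1) and `monomial_le_gK` at radius `ρ j`, `H₀ / q ≤ γ (p ^ t₁) + p ^ t₁ * (ξ₀ / Q)`.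
So by `key_slope`, with `1 - ε₀ = (1 - 1 / q) / (1 - 1 / Q)`, `ε₀ > 0`, `p ^ t₁ * ξ₀ ≤ (1 - ε₀) * H₀`, hence for `z ≤ l`, `S₀ * p ^ z ≤ E₀ * p ^ t₁ * ξ₀ ≤ (1 - ε₀) * a₀`. Put `V₀ z = a₀ + S₀ * (p ^ z - 1)`. So `V₀ z + ε₀ * a₀ ≤ 2 * a₀`.
Choice of `δ > 0` (independent of `K`): for all `i`, `ξ i > ξ₀ → ξ i ≥ (1 + δ) * ξ₀`, and `Q * ξ i ≥ (1 + δ) * ξ₀`, (possible: `J` is finite, `Q * ξ i > ξ₀`).
Rows. Fix `z ∈ [1, l]`. Let `Y i = X i ^ (p ^ z)`. Apply `fourier_main` with `P = [p ^ K]`, `L₀ = p ^ (t₀ + e j)`, `Λ = Λ₀`, `m₀ = p ^ t₀`, `E = Cst * exp (- 2 * a₀)`. The other terms `(i, m)`: `m * p ^ e i ≡ p ^ (t₀ + e j) mod Q - 1`, not main: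
 - If `m` is not a power of `p`, by `monomial_nonpow_le` at radius `r' = r i ^ (p ^ z)`, using `c ≤ r' ^ Q`, and (F2), (F4) the monomial has norm at most `g (r i) ^ 2 / ‖b‖`. The term is bounded by `‖v i‖ * ‖b‖⁻¹ ^ (p ^ e i) * exp (- 2 * a₀)`.
 - If `m = p ^ t'`: by `exponent_mod_of_pow_modEq`, `t' + e i ≡ t₀ + e j [MOD n]`. Apply `domination`, with `ξ' = ξ i`, `H' = H (r i)`, `γ = γ m`, `e' = e i`, `e₀ = e j` (the case `c_m = 0` is trivial): `htan1`, `htan2`, `htan3` from `monomial_le_gK` at radii `r i`, `r j`, `r j ^ Q` and (F2). The top condition: from `htop`, (F3). `hmono1`, `hmono2`, by `gK_lt`, and (F2), the window. `hdelta` from the choice of `δ`: writing `p ^ (t' + e') = p ^ (t₀ + e₀) * Q ^ l` with `l` an integer; `S' / S₀ = Q ^ l * ξ' / ξ₀`, which if `> 1` is at least `1 + δ` (if `l ≤ -1` then it is `< 1`).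
   The result: the term has norm at most `‖v i‖ * exp (- V₀ z - min (ε₀ * a₀) (δ * S₀))`.
The main term: `∑_{i ∈ Λ₀} v i * (b c_{m₀} Y i ^ m₀) ^ E₀ = (b c_{m₀}) ^ E₀ * π ^ (p ^ z * N₀) * ∑_{i ∈ Λ₀} v i * (ρ i ^ N₀) ^ (p ^ z)`, where `π = X j`, `ρ i = X i / π`, `N₀ = p ^ (t₀ + e j)`. The factor in front has norm `exp (- V₀ z)`: `‖b c_{m₀}‖ * r j ^ m₀ = exp (- H₀)`.
So by `fourier_main`, `‖∑_{i ∈ Λ₀} v i * (ρ i ^ N₀) ^ (p ^ z)‖ ≤ A * exp (- min (ε₀ * a₀) (δ * S₀))`, with the constant `A = max over i of (max Cst (‖v i‖ * max 1 ‖b‖⁻¹ ^ (p ^ e i)))`, independent of `K`, `z`.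
Now `moore_bound` on `Λ₀` with the family `ρ i ^ (N₀ * p)` (and `t = z - 1`) gives `‖v i‖ ≤ A * exp (- min (ε₀ * a₀) (δ * S₀))`, for all `i ∈ Λ₀`. Finally `a₀ → ∞` and `S₀ ≥ E₀ * q ^ K * ξ₀ → ∞` when `K → ∞`, so `v i = 0`. -/
theorem aat {J : Type*} [Fintype J] [DecidableEq J] (hn : 1 ≤ n) (H : HtLaw L h) (hh1 : 1 ≤ h) (hhn : h < n) (hadd : AddQ L)
    {b : C} (hb : b ^ (p ^ h - 1) = aL L h)
    {k : Type*} [Field k] [Fintype k] [CharP k p] (hk : Fintype.card k = p ^ n) (κ : k →+* OC C)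
    (X : J → Pts L.G) (hX0 : ∀ i, (X i).v ≠ 0) (Z : ℕ) (hZ : Fintype.card J ≤ Z)
    (hwin : ∀ i j, ‖(X j).v‖ ^ (p ^ n) < ‖(X i).v‖)
    (hc : ∀ i, L.c < ‖(X i).v‖ ^ (p ^ Z * p ^ n))
    (hind : ∀ (j : J) (a : J → ℕ), (∀ i, a i < p) → (∃ i, a i ≠ 0) → (∀ i, a i ≠ 0 → ‖(X i).v‖ = ‖(X j).v‖) →
      ‖∑ i, (a i : C) * (X i).v‖ = ‖(X j).v‖)
    (K₀ : ℕ)
    (hsm : ∀ i, ∀ K, K₀ ≤ K → ∀ x : Pts L.G, ‖x.v‖ ^ (p ^ n) ≤ ‖(X i).v‖ → ‖((p ^ K) • x).v‖ < ‖aL L h‖)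
    (hvan : ∀ i, ∀ K, K₀ ≤ K → ‖b * ((p ^ K) • X i).v‖ < gK L b K ‖(X i).v‖)
    (e : J → ℕ) (j : J)
    (htop : ∀ i, gK L b K₀ ‖(X i).v‖ ^ (p ^ e i) ≤ gK L b K₀ ‖(X j).v‖ ^ (p ^ e j))
    (v : J → C) (Cst : ℝ) (K₁ : ℕ)
    (hrel : ∀ z, 1 ≤ z → z ≤ Z → ∀ d : k, d ≠ 0 → ∀ K, K₁ ≤ K →
      ‖∑ i, v i * (b * ((ev1 (RingHom.id _) (κ d * (X i).o ^ (p ^ z)) (mulSeries L.G (p ^ K)) : OC C) : C)) ^ (p ^ e i)‖ ≤
        Cst * (gK L b K₀ ‖(X j).v‖ ^ (p ^ e j)) ^ (2 * (p ^ h) ^ (K - K₀))) :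
    ∀ i, ‖(X i).v‖ = ‖(X j).v‖ → e i = e j → v i = 0 := by
  classical
  intro i₀ hi₀ hei₀
  have hp2 : 2 ≤ p := hp.out.two_le
  have hP : (0 : ℝ) < (p : ℝ) := by exact_mod_cast hp.out.pos
  have hP1 : (1 : ℝ) < (p : ℝ) := by exact_mod_cast hp.out.one_lt
  have hq1 : (1 : ℝ) < (p : ℝ) ^ h := one_lt_pow₀ hP1 (by omega)
  have hqQ : (p : ℝ) ^ h < (p : ℝ) ^ n := pow_lt_pow_right₀ hP1 hhn
  have hQ1 : (1 : ℝ) < (p : ℝ) ^ n := hq1.trans hqQ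
  have hr0 : ∀ i, 0 < ‖(X i).v‖ := fun i => norm_pos_iff.2 (hX0 i)
  have hr1 : ∀ i, ‖(X i).v‖ < 1 := fun i => (X i).norm_lt
  obtain ⟨hb0, hb1⟩ := b_facts H hh1 hhn hb
  have ht := H.exists_small hhn
  -- the constant `ε₀`
  set ε₀ : ℝ := 1 - (1 - 1 / ((p : ℝ) ^ h)) / (1 - 1 / ((p : ℝ) ^ n)) with hε₀def
  have hden : 0 < 1 - 1 / ((p : ℝ) ^ n) := by
    have : 1 / ((p : ℝ) ^ n) < 1 := by rw [div_lt_one (by linarith)]; exact hQ1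
    linarith
  have hnum : 0 < 1 - 1 / ((p : ℝ) ^ h) := by
    have : 1 / ((p : ℝ) ^ h) < 1 := by rw [div_lt_one (by linarith)]; exact hq1
    linarith
  have hε₀ : 0 < ε₀ := by
    have h1 : (1 - 1 / ((p : ℝ) ^ h)) / (1 - 1 / ((p : ℝ) ^ n)) < 1 := by
      rw [div_lt_one hden]
      have : 1 / ((p : ℝ) ^ n) < 1 / ((p : ℝ) ^ h) :=
        one_div_lt_one_div_of_lt (by linarith) hqQ
      linarith
    rw [hε₀def]
    linarith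
  have hε₁ : ε₀ ≤ 1 := by
    have h1 : 0 ≤ (1 - 1 / ((p : ℝ) ^ h)) / (1 - 1 / ((p : ℝ) ^ n)) := (div_pos hnum hden).le
    rw [hε₀def]
    linarith
  -- the constant `δ`
  have hξ : ∀ i, 0 < -Real.log ‖(X i).v‖ := fun i => by
    have := Real.log_neg (hr0 i) (hr1 i)
    linarith
  have hd : ∀ i, ∃ d : ℝ, 0 < d ∧ (-Real.log ‖(X j).v‖ < -Real.log ‖(X i).v‖ →
      (1 + d) * (-Real.log ‖(X j).v‖) ≤ -Real.log ‖(X i).v‖) ∧
      (1 + d) * (-Real.log ‖(X j).v‖) ≤ (p : ℝ) ^ n * (-Real.log ‖(X i).v‖) := by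
    intro i
    have hw : -Real.log ‖(X j).v‖ < (p : ℝ) ^ n * (-Real.log ‖(X i).v‖) := by
      have h1 := Real.log_lt_log (pow_pos (hr0 i) _) (hwin j i)
      rw [Real.log_pow] at h1
      push_cast at h1
      linarith
    have hj := hξ j
    by_cases hlt : -Real.log ‖(X j).v‖ < -Real.log ‖(X i).v‖
    · refine ⟨min (-Real.log ‖(X i).v‖ / (-Real.log ‖(X j).v‖) - 1)
        ((p : ℝ) ^ n * (-Real.log ‖(X i).v‖) / (-Real.log ‖(X j).v‖) - 1), ?_, ?_, ?_⟩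
      · refine lt_min ?_ ?_
        · have := (one_lt_div hj).2 hlt
          linarith
        · have := (one_lt_div hj).2 hw
          linarith
      · intro _
        have h1 := min_le_left (-Real.log ‖(X i).v‖ / (-Real.log ‖(X j).v‖) - 1)
          ((p : ℝ) ^ n * (-Real.log ‖(X i).v‖) / (-Real.log ‖(X j).v‖) - 1)
        have h2 := mul_le_mul_of_nonneg_right (by linarith : 1 + min (-Real.log ‖(X i).v‖ / (-Real.log ‖(X j).v‖) - 1)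
          ((p : ℝ) ^ n * (-Real.log ‖(X i).v‖) / (-Real.log ‖(X j).v‖) - 1) ≤ -Real.log ‖(X i).v‖ / (-Real.log ‖(X j).v‖)) hj.le
        rwa [div_mul_cancel₀ _ hj.ne'] at h2
      · have h1 := min_le_right (-Real.log ‖(X i).v‖ / (-Real.log ‖(X j).v‖) - 1)
          ((p : ℝ) ^ n * (-Real.log ‖(X i).v‖) / (-Real.log ‖(X j).v‖) - 1)
        have h2 := mul_le_mul_of_nonneg_right (by linarith : 1 + min (-Real.log ‖(X i).v‖ / (-Real.log ‖(X j).v‖) - 1)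
          ((p : ℝ) ^ n * (-Real.log ‖(X i).v‖) / (-Real.log ‖(X j).v‖) - 1) ≤ (p : ℝ) ^ n * (-Real.log ‖(X i).v‖) / (-Real.log ‖(X j).v‖)) hj.le
        rwa [div_mul_cancel₀ _ hj.ne'] at h2
    · refine ⟨(p : ℝ) ^ n * (-Real.log ‖(X i).v‖) / (-Real.log ‖(X j).v‖) - 1, ?_, fun hlt' => absurd hlt' hlt, ?_⟩
      · have := (one_lt_div hj).2 hw
        linarith
      · have e1 : (1 + ((p : ℝ) ^ n * (-Real.log ‖(X i).v‖) / (-Real.log ‖(X j).v‖) - 1)) =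
            (p : ℝ) ^ n * (-Real.log ‖(X i).v‖) / (-Real.log ‖(X j).v‖) := by ring
        rw [e1, div_mul_cancel₀ _ hj.ne']
  choose d hd0 hd1 hd2 using hd
  obtain ⟨i₁, _, hi₁⟩ := Finset.exists_min_image Finset.univ d ⟨j, Finset.mem_univ j⟩
  set δ : ℝ := d i₁ with hδdef
  have hδ0 : 0 < δ := hd0 i₁
  have hδ1 : ∀ i, -Real.log ‖(X j).v‖ < -Real.log ‖(X i).v‖ →
      (1 + δ) * (-Real.log ‖(X j).v‖) ≤ -Real.log ‖(X i).v‖ := by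
    intro i hi
    refine le_trans (mul_le_mul_of_nonneg_right ?_ (hξ j).le) (hd1 i hi)
    have := hi₁ i (Finset.mem_univ i)
    linarith
  have hδ2 : ∀ i, (1 + δ) * (-Real.log ‖(X j).v‖) ≤ (p : ℝ) ^ n * (-Real.log ‖(X i).v‖) := by
    intro i
    refine le_trans (mul_le_mul_of_nonneg_right ?_ (hξ j).le) (hd2 i)
    have := hi₁ i (Finset.mem_univ i)
    linarith
  -- the constant `A`
  set A : ℝ := |Cst| + ∑ i, ‖v i‖ * (1 + ‖b‖⁻¹ ^ (p ^ e i)) with hAdef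
  have hterm : ∀ i, 0 ≤ ‖v i‖ * (1 + ‖b‖⁻¹ ^ (p ^ e i)) := fun i => by positivity
  have hA : ∀ i, ‖v i‖ * (1 + ‖b‖⁻¹ ^ (p ^ e i)) ≤ A := by
    intro i
    have h1 := Finset.single_le_sum (f := fun i => ‖v i‖ * (1 + ‖b‖⁻¹ ^ (p ^ e i))) (fun i _ => hterm i)
      (Finset.mem_univ i)
    have h2 := abs_nonneg Cst
    rw [hAdef]
    linarith
  have hA0 : 0 ≤ A := (hterm j).trans (hA j)
  have hCA : Cst ≤ A := by
    have h1 := le_abs_self Cst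
    have h2 : 0 ≤ ∑ i, ‖v i‖ * (1 + ‖b‖⁻¹ ^ (p ^ e i)) := Finset.sum_nonneg fun i _ => hterm i
    rw [hAdef]
    linarith
  -- the height at the level `K₀`
  set H₁ : ℝ := -Real.log (gK L b K₀ ‖(X j).v‖) with hH₁
  have hG₀0 : 0 < gK L b K₀ ‖(X j).v‖ := gK_pos hn ht L hb0 K₀ (hr0 j) (hr1 j)
  have hsm' : ∀ K', K₀ ≤ K' → ∀ y : Pts L.G, ‖y.v‖ ≤ ‖(X j).v‖ → ‖((p ^ K') • y).v‖ < ‖aL L h‖ := by
    intro K' hK' y hy
    refine hsm j K' hK' y ?_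
    calc ‖y.v‖ ^ (p ^ n) ≤ ‖(X j).v‖ ^ (p ^ n) := pow_le_pow_left₀ (norm_nonneg _) hy _
      _ ≤ ‖(X j).v‖ := pow_le_of_le_one (norm_nonneg _) (hr1 j).le (pow_ne_zero _ hp.out.ne_zero)
  have hH₁0 : 0 < H₁ := by
    have hc1 : L.c < ‖(X j).v‖ ^ (p ^ n) := by
      refine lt_of_lt_of_le (hc j) ?_
      exact pow_le_pow_of_le_one (norm_nonneg _) (hr1 j).le
        (Nat.le_mul_of_pos_left _ (by positivity))
    obtain ⟨ρ, w, hw, hρ0, hρ1, hρQ, hg, hle, hF2⟩ :=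
      radius_facts (b := b) hn H hh1 hhn hb K₀ (X j).v rfl (hr0 j) (hr1 j) hc1 (hsm j K₀ le_rfl)
    have h1 : ‖(X j).v‖ ≤ ρ := by
      rw [← hρQ]
      exact pow_le_of_le_one hρ0.le hρ1.le (pow_ne_zero _ hp.out.ne_zero)
    have h2 := (gK_mono L b K₀ (norm_nonneg _) h1 hρ1.le).trans hle
    have ha1 : ‖aL L h‖ ≤ 1 := norm_aL_le L h
    have hba : ‖b‖ * ‖aL L h‖ < 1 := by
      have := mul_le_of_le_one_right (norm_nonneg b) ha1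
      linarith
    have h3 := Real.log_neg hG₀0 (lt_of_le_of_lt h2 hba)
    rw [hH₁]
    linarith
  -- the level bound
  set c₀ : ℝ := min (ε₀ * ((p : ℝ) ^ e j * H₁)) (δ * ((p : ℝ) ^ e j * (-Real.log ‖(X j).v‖))) with hc₀
  have hE0 : (0 : ℝ) < (p : ℝ) ^ e j := pow_pos hP _
  have hc₀0 : 0 < c₀ := lt_min (mul_pos hε₀ (mul_pos hE0 hH₁0)) (mul_pos hδ0 (mul_pos hE0 (hξ j)))
  set K₂ : ℕ := max K₀ K₁ with hK₂
  have hbound : ∀ s : ℕ, ‖v i₀‖ ≤ A * Real.exp (-c₀) ^ s := by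
    intro s
    have hK0 : K₀ ≤ K₂ + s := (le_max_left _ _).trans (Nat.le_add_right _ _)
    have hK1 : K₁ ≤ K₂ + s := (le_max_right _ _).trans (Nat.le_add_right _ _)
    have hl := aat_level hn H hh1 hhn hadd hb hk κ X hX0 Z hZ hwin hc hind K₀ hsm hvan e j htop v Cst K₁ hrel
      hε₀def hε₀ hε₁ hδ0 hδ1 hδ2 hA hA0 hCA (K₂ + s) hK0 hK1 i₀ hi₀ hei₀
    refine hl.trans (mul_le_mul_of_nonneg_left ?_ hA0)
    rw [← Real.exp_nat_mul]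
    apply Real.exp_le_exp.2
    have e1 : ((s : ℝ)) * -c₀ = -((s : ℝ) * c₀) := by ring
    rw [e1]
    apply neg_le_neg
    -- powers dominate
    have hpow : ∀ m : ℕ, (m : ℝ) ≤ ((p : ℝ) ^ h) ^ m := by
      intro m
      have h1 : m < 2 ^ m := Nat.lt_two_pow_self
      have h2 : 2 ^ m ≤ (p ^ h) ^ m := by
        refine Nat.pow_le_pow_left ?_ m
        calc 2 ≤ p := hp2
          _ = p ^ 1 := (pow_one p).symm
          _ ≤ p ^ h := Nat.pow_le_pow_right (by omega) hh1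
      have h3 : m ≤ (p ^ h) ^ m := h1.le.trans h2
      exact_mod_cast h3
    have hs0 : (0 : ℝ) ≤ (s : ℝ) := Nat.cast_nonneg _
    have hiter := gK_iter H hh1 hb K₀ (K₂ + s) hK0 (X j).v rfl (hr0 j) (hr1 j) hsm'
    have hlog : -Real.log (gK L b (K₂ + s) ‖(X j).v‖) = ((p : ℝ) ^ h) ^ (K₂ + s - K₀) * H₁ := by
      rw [hiter, Real.log_pow, hH₁]
      push_cast
      ring
    rw [hlog]
    have hm1 : (s : ℝ) ≤ ((p : ℝ) ^ h) ^ (K₂ + s - K₀) := by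
      have h1 : s ≤ K₂ + s - K₀ := by
        have : K₀ ≤ K₂ := le_max_left _ _
        omega
      exact le_trans (by exact_mod_cast h1) (hpow _)
    have hm2 : (s : ℝ) ≤ ((p : ℝ) ^ h) ^ (K₂ + s) := by
      have h1 : s ≤ K₂ + s := Nat.le_add_left _ _
      exact le_trans (by exact_mod_cast h1) (hpow _)
    refine le_min ?_ ?_
    · have h4 : (s : ℝ) * c₀ ≤ (s : ℝ) * (ε₀ * ((p : ℝ) ^ e j * H₁)) :=
        mul_le_mul_of_nonneg_left (min_le_left _ _) hs0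
      have h5 : (s : ℝ) * (ε₀ * ((p : ℝ) ^ e j * H₁)) ≤ ((p : ℝ) ^ h) ^ (K₂ + s - K₀) * (ε₀ * ((p : ℝ) ^ e j * H₁)) :=
        mul_le_mul_of_nonneg_right hm1 (mul_pos hε₀ (mul_pos hE0 hH₁0)).le
      calc (s : ℝ) * c₀ ≤ _ := h4.trans h5
        _ = _ := by ring
    · have h4 : (s : ℝ) * c₀ ≤ (s : ℝ) * (δ * ((p : ℝ) ^ e j * (-Real.log ‖(X j).v‖))) :=
        mul_le_mul_of_nonneg_left (min_le_right _ _) hs0
      have h5 : (s : ℝ) * (δ * ((p : ℝ) ^ e j * (-Real.log ‖(X j).v‖))) ≤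
          ((p : ℝ) ^ h) ^ (K₂ + s) * (δ * ((p : ℝ) ^ e j * (-Real.log ‖(X j).v‖))) :=
        mul_le_mul_of_nonneg_right hm2 (mul_pos hδ0 (mul_pos hE0 (hξ j))).le
      calc (s : ℝ) * c₀ ≤ _ := h4.trans h5
        _ = _ := by ring
  have hlim : Tendsto (fun s : ℕ => A * Real.exp (-c₀) ^ s) atTop (𝓝 (A * 0)) := by
    refine Tendsto.const_mul A ?_
    refine tendsto_pow_atTop_nhds_zero_of_lt_one (Real.exp_pos _).le ?_
    rw [Real.exp_lt_one_iff]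
    linarith
  have hfin : ‖v i₀‖ ≤ A * 0 := ge_of_tendsto' hlim hbound
  rw [mul_zero] at hfin
  exact norm_le_zero_iff.1 hfin

end Vale.Agent.Lib.P217
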