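import Vale.Agent.Lib.P217.HScale
import Vale.Agent.Lib.P217.EndSeries
import Vale.Agent.Lib.P217.GroupExp

set_option linter.unusedSectionVars false
set_option linter.unusedVariables false

/-!
Additivity of `[p ^ K]` up to second order, and the smallness of the monomials whose degrees are not powers of `p`.
-/

namespace Vale.Agent.Lib.P217

open scoped Topology
open Filter

variable {C : Type*} [NormedField C] [IsUltrametricDist C] [CompleteSpace C]
variable {p n : ℕ} [hp : Fact p.Prime] [CharP C p] [IsAlgClosed C]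
variable {L : Law C p n} {h : ℕ}

/-- The law is additive up to degree `Q` and up to `c`. -/
def AddQ (L : Law C p n) : Prop :=
  ∀ x y : Pts L.G, ‖(x + y).v - x.v - y.v‖ ≤ max (max ‖x.v‖ ‖y.v‖ ^ (p ^ n)) L.c

section setting

variable {N : ℕ} {k : Type*} [Field k] [Fintype k] [CharP k p]

/-- Since multiplications by the elements of `k = 𝔽_Q` are homomorphisms of `Γ`, the coefficients of `Γ` of total degree `d` with `2 ≤ d < Q` vanish.

Proof: `IsHom Γ Γ (C a * X)` gives, comparing coefficients, `a ^ (d 0 + d 1) * c_d = a * c_d`, for all `a ∈ k`; take `a` a generator of `kˣ`, which has order `Q - 1`, `a ^ (d 0 + d 1 - 1) = 1` is impossible if `1 ≤ d 0 + d 1 - 1 < Q - 1`, so `c_d = 0`. -/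
theorem coeff_Γ_eq_zero (S : Setting C p n N k) (hω : HOm S) (hk : Fintype.card k = p ^ n)
    (d : Fin 2 →₀ ℕ) (h2 : 2 ≤ d 0 + d 1) (hQ : d 0 + d 1 < p ^ n) :
    MvPowerSeries.coeff d S.Γ.toPowerSeries = 0 := by
  classical
  obtain ⟨g, hg⟩ := IsCyclic.exists_generator (α := kˣ)
  have hord : orderOf g = p ^ n - 1 := by
    rw [orderOf_eq_card_of_forall_mem_zpowers hg, Nat.card_eq_fintype_card, Fintype.card_units, hk]
  set a : k := (g : k) with ha
  have hh := (hω a).map_add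
  have hs0 : ∀ i : Fin 2, PowerSeries.HasSubst (MvPowerSeries.X i : MvPowerSeries (Fin 2) k) :=
    fun i => PowerSeries.HasSubst.X i
  have hsΓ : PowerSeries.HasSubst S.Γ.toPowerSeries :=
    PowerSeries.HasSubst.of_constantCoeff_zero S.Γ.zero_constantCoeff
  have e1 : ∀ i : Fin 2, PowerSeries.subst (MvPowerSeries.X i : MvPowerSeries (Fin 2) k)
      (PowerSeries.C a * PowerSeries.X) = MvPowerSeries.C a * MvPowerSeries.X i := by
    intro i
    rw [PowerSeries.subst_mul (hs0 i), PowerSeries.subst_C, PowerSeries.subst_X (hs0 i)]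
  have e2 : PowerSeries.subst S.Γ.toPowerSeries (PowerSeries.C a * PowerSeries.X) =
      MvPowerSeries.C a * S.Γ.toPowerSeries := by
    rw [PowerSeries.subst_mul hsΓ, PowerSeries.subst_C, PowerSeries.subst_X hsΓ]
  rw [e1, e1, e2] at hh
  have e3 : (![MvPowerSeries.C a * MvPowerSeries.X 0, MvPowerSeries.C a * MvPowerSeries.X 1] :
      Fin 2 → MvPowerSeries (Fin 2) k) = (fun _ : Fin 2 => a) • MvPowerSeries.X := by
    funext s
    fin_cases s <;> simp [MvPowerSeries.smul_eq_C_mul]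
  rw [e3, ← MvPowerSeries.rescale_eq_subst] at hh
  have hh2 := congrArg (MvPowerSeries.coeff d) hh
  rw [MvPowerSeries.coeff_rescale, MvPowerSeries.coeff_C_mul,
    Finsupp.prod_fintype _ _ (by simp), Fin.prod_univ_two, ← pow_add] at hh2
  by_contra hne
  have h3 : a ^ (d 0 + d 1) = a := mul_right_cancel₀ hne hh2
  have h4 : (g : kˣ) ^ (d 0 + d 1 - 1) = 1 := by
    apply Units.ext
    have : (g : k) ^ (d 0 + d 1 - 1) * g = 1 * g := by
      rw [← pow_succ, Nat.sub_add_cancel (by omega), one_mul]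
      exact h3
    simpa using mul_right_cancel₀ (Units.ne_zero g) this
  have h5 := orderOf_dvd_of_pow_eq_one h4
  rw [hord] at h5
  have h6 := Nat.le_of_dvd (by omega) h5
  omega

/-- The general estimate of the nonlinear part of the group law. -/
lemma norm_add_sub_le_of_terms {G : FormalGroup (OC C)} (x y : Pts G) {T : ℝ} (hT0 : 0 ≤ T)
    (hterm : ∀ d : Fin 2 →₀ ℕ, d 0 ≠ 0 → d 1 ≠ 0 →
      ‖((MvPowerSeries.coeff d G.toPowerSeries : OC C) : C)‖ * (‖x.v‖ ^ d 0 * ‖y.v‖ ^ d 1) ≤ T) :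
    ‖(x + y).v - x.v - y.v‖ ≤ T := by
  have h1 := hasSum_Ev (RingHom.id (OC C)) ![x.o, y.o] (hb2 x y) G.toPowerSeries
  have h2 := hasSum_Ev (RingHom.id (OC C)) ![x.o, (0 : Pts G).o] (hb2 x 0) G.toPowerSeries
  have h3 := hasSum_Ev (RingHom.id (OC C)) ![(0 : Pts G).o, y.o] (hb2 0 y) G.toPowerSeries
  have h4 := hasSum_Ev (RingHom.id (OC C)) ![(0 : Pts G).o, (0 : Pts G).o] (hb2 0 0) G.toPowerSeries
  have e2 : Ev (RingHom.id (OC C)) ![x.o, (0 : Pts G).o] G.toPowerSeries = x.o := by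
    rw [← Pts.add_o, Pts.add_zero']
  have e3 : Ev (RingHom.id (OC C)) ![(0 : Pts G).o, y.o] G.toPowerSeries = y.o := by
    rw [← Pts.add_o, Pts.zero_add']
  have e4 : Ev (RingHom.id (OC C)) ![(0 : Pts G).o, (0 : Pts G).o] G.toPowerSeries = 0 := by
    rw [← Pts.add_o, Pts.zero_add']
    rfl
  rw [e2] at h2
  rw [e3] at h3
  rw [e4] at h4
  have h := ((h1.sub h2).sub h3).add h4
  have hb : ‖(((x + y).o - x.o - y.o + 0 : OC C) : C)‖ ≤ T := by
    refine norm_sum_le_of_hasSum h hT0 ?_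
    intro d
    simp only [prod_two, RingHom.id_apply]
    have e : (((MvPowerSeries.coeff d G.toPowerSeries) * (x.o ^ d 0 * y.o ^ d 1) -
        (MvPowerSeries.coeff d G.toPowerSeries) * (x.o ^ d 0 * (0 : Pts G).o ^ d 1) -
        (MvPowerSeries.coeff d G.toPowerSeries) * ((0 : Pts G).o ^ d 0 * y.o ^ d 1) +
        (MvPowerSeries.coeff d G.toPowerSeries) * ((0 : Pts G).o ^ d 0 * (0 : Pts G).o ^ d 1) : OC C)) =
        (MvPowerSeries.coeff d G.toPowerSeries) * ((x.o ^ d 0 - (0 : Pts G).o ^ d 0) * (y.o ^ d 1 - (0 : Pts G).o ^ d 1)) := by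
      ring
    rw [e]
    have h0 : (0 : Pts G).o = (0 : OC C) := rfl
    rw [h0]
    by_cases hd0 : d 0 = 0
    · simp [hd0, hT0]
    by_cases hd1 : d 1 = 0
    · simp [hd1, hT0]
    simp only [zero_pow hd0, zero_pow hd1, sub_zero]
    have e5 : (((MvPowerSeries.coeff d G.toPowerSeries) * (x.o ^ d 0 * y.o ^ d 1) : OC C) : C) =
        ((MvPowerSeries.coeff d G.toPowerSeries : OC C) : C) * (((x.o ^ d 0 : OC C) : C) * ((y.o ^ d 1 : OC C) : C)) := rfl
    rw [e5, norm_mul, norm_mul]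
    have hx1 : ‖((x.o ^ d 0 : OC C) : C)‖ = ‖x.v‖ ^ d 0 := by
      have : ((x.o ^ d 0 : OC C) : C) = x.v ^ d 0 := rfl
      rw [this, norm_pow]
    have hy1 : ‖((y.o ^ d 1 : OC C) : C)‖ = ‖y.v‖ ^ d 1 := by
      have : ((y.o ^ d 1 : OC C) : C) = y.v ^ d 1 := rfl
      rw [this, norm_pow]
    rw [hx1, hy1]
    exact hterm d hd0 hd1
  have e6 : (((x + y).o - x.o - y.o + 0 : OC C) : C) = (x + y).v - x.v - y.v := by
    have : (((x + y).o - x.o - y.o + 0 : OC C) : C) = (x + y).v - x.v - y.v + 0 := rfl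
    rw [this]; ring
  rwa [e6] at hb

/-- The laws of the setting are additive up to degree `Q` and `c`.

Proof: by `hasSum_Ev`, `(x + y).v = ∑ d, a_d x ^ d 0 * y ^ d 1`, where `a_d = φ (coeff d F)`. `a_{(1,0)} = a_{(0,1)} = 1`, and `a_{(j,0)} = a_{(0,j)} = 0` for `j ≥ 2` as `F(X, 0) = X`, `F(0, Y) = Y`.
Other terms have `d 0 + d 1 ≥ 2`: if `d 0 + d 1 < Q`, `‖a_d‖ ≤ c` by `coeff_Γ_eq_zero` and admissibility (`φ` of an element without constant term has norm at most `c`; `constantCoeff (coeff d F) = coeff d Γ`);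
if `d 0 + d 1 ≥ Q` the monomial has norm at most `max ‖x‖ ‖y‖ ^ Q`. -/
theorem addQ_lawOf (S : Setting C p n N k) (hω : HOm S) (hk : Fintype.card k = p ^ n)
    {φ : MvPowerSeries (Fin N) k →+* OC C} (hφ : Adm S φ) : AddQ (lawOf S φ hφ) := by
  intro x y
  have hm0 : 0 ≤ max ‖x.v‖ ‖y.v‖ := le_max_of_le_left (norm_nonneg _)
  have hm1 : max ‖x.v‖ ‖y.v‖ ≤ 1 := max_le x.norm_lt.le y.norm_lt.le
  have hT0 : 0 ≤ max (max ‖x.v‖ ‖y.v‖ ^ (p ^ n)) (lawOf S φ hφ).c :=
    le_max_of_le_right (lawOf S φ hφ).c_nonneg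
  refine norm_add_sub_le_of_terms x y hT0 ?_
  intro d hd0 hd1
  have hxy : ‖x.v‖ ^ d 0 * ‖y.v‖ ^ d 1 ≤ max ‖x.v‖ ‖y.v‖ ^ (d 0 + d 1) := by
    rw [pow_add]
    exact mul_le_mul (pow_le_pow_left₀ (norm_nonneg _) (le_max_left _ _) _)
      (pow_le_pow_left₀ (norm_nonneg _) (le_max_right _ _) _) (by positivity) (by positivity)
  have hxy1 : ‖x.v‖ ^ d 0 * ‖y.v‖ ^ d 1 ≤ 1 := by
    refine mul_le_one₀ (pow_le_one₀ (norm_nonneg _) x.norm_lt.le) (by positivity)
      (pow_le_one₀ (norm_nonneg _) y.norm_lt.le)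
  by_cases hQ : d 0 + d 1 < p ^ n
  · apply le_max_of_le_right
    have hcc : MvPowerSeries.constantCoeff (MvPowerSeries.coeff d S.F.toPowerSeries) = 0 := by
      have h5 := coeff_Γ_eq_zero S hω hk d (by omega) hQ
      rw [← S.hF] at h5
      simpa using h5
    have hc2 := hφ.hc _ hcc
    have hG2 : (MvPowerSeries.coeff d (lawOf S φ hφ).G.toPowerSeries) = φ (MvPowerSeries.coeff d S.F.toPowerSeries) := by
      simp [lawOf]
    rw [hG2]
    calc _ ≤ S.c * 1 := mul_le_mul hc2 hxy1 (by positivity) S.c0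
      _ = (lawOf S φ hφ).c := by simp [lawOf_c]
  · apply le_max_of_le_left
    push Not at hQ
    refine (mul_le_of_le_one_left (by positivity) (norm_OC_le _)).trans (hxy.trans ?_)
    exact pow_le_pow_of_le_one hm0 hm1 hQ

end setting

/-- Additivity of `[p ^ K]` up to second order.

Proof. Let `x₃ = x₁ + x₂` in the field (`x₃.v = x₁.v + x₂.v`), `y = x₁ + x₂` in the group, `‖x₃.v - y.v‖ ≤ max (r ^ Q) c = r ^ Q` by `AddQ`.
With `η = x₃ - y` in the group, `‖η.v‖ ≤ r ^ Q` (`norm_sub_law`), `[p ^ K] x₃ = [p ^ K] x₁ + [p ^ K] x₂ + [p ^ K] η`. So by `norm_add_sub_field_le` (which gives `‖(u + w).v - u.v - w.v‖ ≤ ‖u.v‖ * ‖w.v‖`), and `norm_add_sub_left`,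
`‖b ([p ^ K] x₃ - [p ^ K] x₁ - [p ^ K] x₂)‖ ≤ max (‖b‖ * ‖[p ^ K] x₁‖ * ‖[p ^ K] x₂‖) (‖b [p ^ K] η‖) ≤ max (g ^ 2 / ‖b‖) (gK K (r ^ Q))`. -/
theorem norm_add_defect_le (hadd : AddQ L) {b : C} (hb : b ≠ 0) (K : ℕ) {r : ℝ} (h0 : 0 ≤ r) (h1 : r < 1) (hc : L.c ≤ r ^ (p ^ n))
    (x₁ x₂ x₃ : Pts L.G) (hx₁ : ‖x₁.v‖ ≤ r) (hx₂ : ‖x₂.v‖ ≤ r) (hx₃ : x₃.v = x₁.v + x₂.v) :
    ‖b * (((p ^ K) • x₃).v - ((p ^ K) • x₁).v - ((p ^ K) • x₂).v)‖ ≤
      max (gK L b K r ^ 2 / ‖b‖) (gK L b K (r ^ (p ^ n))) := by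
  have hQ0 : p ^ n ≠ 0 := (pow_pos hp.out.pos _).ne'
  have hrQ : r ^ (p ^ n) < 1 := pow_lt_one₀ h0 h1 hQ0
  set y := x₁ + x₂ with hy
  set η := x₃ - y with hη
  have hηv : ‖η.v‖ ≤ r ^ (p ^ n) := by
    rw [hη, norm_sub_law, hx₃, norm_sub_rev]
    have h2 := hadd x₁ x₂
    have e : y.v - (x₁.v + x₂.v) = y.v - x₁.v - x₂.v := by ring
    rw [e]
    refine h2.trans (max_le ?_ hc)
    exact pow_le_pow_left₀ (le_max_of_le_left (norm_nonneg _)) (max_le hx₁ hx₂) _
  have hx3 : x₃ = x₁ + x₂ + η := by rw [hη, ← hy]; abel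
  set u := (p ^ K) • x₁ with hu
  set w := (p ^ K) • x₂ with hw
  set v := (p ^ K) • η with hv
  have e3 : (p ^ K) • x₃ = (u + w) + v := by
    rw [hx3, nsmul_add, nsmul_add]
  have hbn : 0 < ‖b‖ := norm_pos_iff.mpr hb
  rw [e3]
  have e4 : b * (((u + w) + v).v - u.v - w.v) = b * (((u + w) + v).v - (u + w).v) + b * ((u + w).v - (u.v + w.v)) := by
    ring
  rw [e4]
  refine (IsUltrametricDist.norm_add_le_max _ _).trans (max_le ?_ ?_)
  · apply le_max_of_le_right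
    rw [norm_mul]
    calc ‖b‖ * ‖((u + w) + v).v - (u + w).v‖ ≤ ‖b‖ * ‖v.v‖ :=
          mul_le_mul_of_nonneg_left (norm_add_sub_left _ _) hbn.le
      _ = ‖b * v.v‖ := (norm_mul _ _).symm
      _ ≤ _ := norm_le_gK L b K hrQ η hηv
  · apply le_max_of_le_left
    rw [norm_mul, le_div_iff₀ hbn, sq]
    have h5 := norm_add_sub_field_le u w
    have h6 := norm_le_gK L b K h1 x₁ hx₁
    have h7 := norm_le_gK L b K h1 x₂ hx₂
    rw [norm_mul] at h6 h7
    calc ‖b‖ * ‖(u + w).v - (u.v + w.v)‖ * ‖b‖ ≤ ‖b‖ * (‖u.v‖ * ‖w.v‖) * ‖b‖ := by gcongr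
      _ = (‖b‖ * ‖u.v‖) * (‖b‖ * ‖w.v‖) := by ring
      _ ≤ _ := mul_le_mul h6 h7 (by positivity) ((by positivity : 0 ≤ ‖b‖ * ‖u.v‖).trans h6)


/-- An element fixed by a power map is zero or of norm one. -/
lemma norm_eq_one_of_pow_eq_self {Q : ℕ} (hQ : 2 ≤ Q) {z : C} (hz : z ^ Q = z) (h0 : z ≠ 0) : ‖z‖ = 1 := by
  have h1 : z ^ (Q - 1) = 1 := by
    apply mul_right_cancel₀ h0
    rw [← pow_succ, Nat.sub_add_cancel (by omega), one_mul, hz]
  have h2 := congrArg norm h1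
  rw [norm_pow, norm_one] at h2
  exact (pow_eq_one_iff_of_nonneg (norm_nonneg _) (by omega)).mp h2

lemma norm_le_one_of_pow_eq_self {Q : ℕ} (hQ : 2 ≤ Q) {z : C} (hz : z ^ Q = z) : ‖z‖ ≤ 1 := by
  by_cases h0 : z = 0
  · simp [h0]
  · exact (norm_eq_one_of_pow_eq_self hQ hz h0).le

/-- Binomial fact: for `m` not a power of `p`, there is `λ` in a finite subfield of `C` with `(1 + λ) ^ m - 1 - λ ^ m ≠ 0`. Moreover, `‖(1 + λ) ^ m - 1 - λ ^ m‖ = 1`, `‖λ‖ ≤ 1`, `‖1 + λ‖ ≤ 1`.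

Proof: write `m = p ^ v * u` with `u > 1`, `p ∤ u` (`m ≥ 1`), `u ≥ 2`. In `𝔽_p[T]`, `(1 + T) ^ m = (1 + T ^ (p ^ v)) ^ u` has the coefficient `u ≠ 0` at `T ^ (p ^ v)`, and `0 < p ^ v < m`. So the polynomial `(1 + T) ^ m - 1 - T ^ m` is nonzero, so it has a nonroot in the algebraic closure of `𝔽_p` in `C`
(which is infinite). Nonzero elements algebraic over `𝔽_p` have norm `1` (finite multiplicative order). -/
theorem exists_lambda_of_not_pow {m : ℕ} (hm0 : 1 ≤ m) (hm : ¬ ∃ t, m = p ^ t) :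
    ∃ l : C, ‖l‖ ≤ 1 ∧ ‖1 + l‖ ≤ 1 ∧ ‖(1 + l) ^ m - 1 - l ^ m‖ = 1 := by
  classical
  have hp1 : p ≠ 1 := hp.out.ne_one
  obtain ⟨v, u, hu, hmu⟩ := Nat.exists_eq_pow_mul_and_not_dvd (n := m) (by omega) p hp1
  have hu0 : u ≠ 0 := by
    rintro rfl
    simp at hu
  have hu1 : u ≠ 1 := by
    rintro rfl
    exact hm ⟨v, by simpa using hmu⟩
  have hpv : 0 < p ^ v := pow_pos hp.out.pos _
  have hpvm : p ^ v ≠ m := by
    intro he
    rw [hmu] at he
    have : p ^ v * 1 = p ^ v * u := by simpa using he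
    exact hu1 (Nat.eq_of_mul_eq_mul_left hpv this).symm
  open Polynomial in
  set F : Polynomial C := (1 + X) ^ m - 1 - X ^ m with hFdef
  have hFne : F ≠ 0 := by
    intro hF0
    have h1 : F.coeff (p ^ v) = (u : C) := by
      have h2 : ((1 + Polynomial.X : Polynomial C) ^ m) =
          Polynomial.expand C (p ^ v) ((1 + Polynomial.X) ^ u) := by
        rw [hmu, pow_mul, add_pow_char_pow, one_pow]
        simp [map_pow]
      have h3 : ((1 + Polynomial.X : Polynomial C) ^ m).coeff (p ^ v) = (u : C) := by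
        rw [h2]
        have := Polynomial.coeff_expand_mul (R := C) hpv ((1 + Polynomial.X) ^ u) 1
        rw [one_mul] at this
        rw [this, Polynomial.coeff_one_add_X_pow, Nat.choose_one_right]
      rw [hFdef, Polynomial.coeff_sub, Polynomial.coeff_sub, h3, Polynomial.coeff_one, if_neg hpv.ne',
        Polynomial.coeff_X_pow, if_neg hpvm]
      simp
    rw [hF0, Polynomial.coeff_zero] at h1
    exact hu ((CharP.cast_eq_zero_iff C p u).mp h1.symm)
  have hFdeg : F.natDegree ≤ m := by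
    rw [hFdef]
    compute_degree
  set Q := p ^ (m + 1) with hQdef
  have hQm : m + 1 < Q := Nat.lt_pow_self hp.out.one_lt
  have hQ2 : 2 ≤ Q := by omega
  set G : Polynomial C := Polynomial.X ^ Q - Polynomial.X with hGdef
  have hGsep : G.Separable := galois_poly_separable p Q (dvd_pow_self p (by omega))
  have hGdeg : G.natDegree = Q := FiniteField.X_pow_card_sub_X_natDegree_eq C (by omega)
  have hGne : G ≠ 0 := hGsep.ne_zero
  have hGcard : G.roots.toFinset.card = Q := by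
    rw [Multiset.toFinset_card_of_nodup (Polynomial.nodup_roots hGsep), ← hGdeg]
    exact (IsAlgClosed.splits G).natDegree_eq_card_roots.symm
  have hFcard : F.roots.toFinset.card ≤ m :=
    (Multiset.toFinset_card_le _).trans ((Polynomial.card_roots' F).trans hFdeg)
  obtain ⟨l, hl, hlF⟩ := Finset.exists_mem_notMem_of_card_lt_card
    (s := F.roots.toFinset) (t := G.roots.toFinset) (by omega)
  have hlQ : l ^ Q = l := by
    have h1 := (Polynomial.mem_roots hGne).mp (Multiset.mem_toFinset.mp hl)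
    have h2 : l ^ Q - l = 0 := by simpa [Polynomial.IsRoot, hGdef] using h1
    exact sub_eq_zero.mp h2
  have h1l : (1 + l) ^ Q = 1 + l := by
    rw [hQdef, add_pow_char_pow, one_pow, ← hQdef, hlQ]
  have hz : (1 + l) ^ m - 1 - l ^ m ≠ 0 := by
    intro h0
    apply hlF
    refine Multiset.mem_toFinset.mpr ((Polynomial.mem_roots hFne).mpr ?_)
    simpa [Polynomial.IsRoot, hFdef] using h0
  have hzQ : ((1 + l) ^ m - 1 - l ^ m) ^ Q = (1 + l) ^ m - 1 - l ^ m := by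
    rw [hQdef, sub_pow_char_pow, sub_pow_char_pow, one_pow, ← hQdef, ← pow_mul, ← pow_mul,
      mul_comm m, pow_mul, pow_mul, h1l, hlQ]
  exact ⟨l, norm_le_one_of_pow_eq_self hQ2 hlQ, norm_le_one_of_pow_eq_self hQ2 h1l,
    norm_eq_one_of_pow_eq_self hQ2 hzQ hz⟩

lemma ev1_rescale (a x : OC C) (hx : ‖(x : C)‖ < 1) (hax : ‖((a * x : OC C) : C)‖ < 1)
    (P : PowerSeries (OC C)) :
    ev1 (RingHom.id _) x (PowerSeries.rescale a P) = ev1 (RingHom.id _) (a * x) P := by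
  have h1 := hasSum_ev1 (RingHom.id (OC C)) hx (PowerSeries.rescale a P)
  have h2 := hasSum_ev1 (RingHom.id (OC C)) hax P
  refine h1.unique ?_
  convert h2 using 2 with j
  simp only [RingHom.id_apply, PowerSeries.coeff_rescale, mul_pow]
  ring

/-- The monomials of `[p ^ K]` whose degree is not a power of `p` are of second order.

Proof: For `l` from `exists_lambda_of_not_pow`, let `S(X) = P((1 + l) X) - P(X) - P(l X)` where `P = [p ^ K]`; a power series with `S`'s coefficient at `m` equal to `c_m * ((1 + l) ^ m - 1 - l ^ m)`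
(one can construct it by `PowerSeries.mk` or apply the proof of the Cauchy estimate). By `norm_add_defect_le`, `‖b S(x)‖ ≤ max (g ^ 2 / ‖b‖) (gK K (r ^ Q))` for `‖x‖ ≤ r`, so by the Cauchy estimate `norm_coeff_mul_pow_le_of_eval`,
`‖b c_m‖ r ^ m ≤ max (g ^ 2 / ‖b‖) (gK K (r ^ Q))`. -/
theorem monomial_nonpow_le (hadd : AddQ L) {b : C} (hb : b ≠ 0) (K : ℕ) {r : ℝ} (π : C) (hπ : ‖π‖ = r) (h0 : 0 < r) (h1 : r < 1)
    (hc : L.c ≤ r ^ (p ^ n)) {m : ℕ} (hm : ¬ ∃ t, m = p ^ t) :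
    ‖b * ((PowerSeries.coeff m (mulSeries L.G (p ^ K)) : OC C) : C)‖ * r ^ m ≤
      max (gK L b K r ^ 2 / ‖b‖) (gK L b K (r ^ (p ^ n))) := by
  set T := max (gK L b K r ^ 2 / ‖b‖) (gK L b K (r ^ (p ^ n))) with hT
  have hbn : 0 < ‖b‖ := norm_pos_iff.mpr hb
  have hT0 : 0 ≤ T := le_max_of_le_left (div_nonneg (sq_nonneg _) hbn.le)
  by_cases hm0 : m = 0
  · subst hm0
    have : PowerSeries.coeff 0 (mulSeries L.G (p ^ K)) = 0 := by
      rw [PowerSeries.coeff_zero_eq_constantCoeff_apply, constantCoeff_mulSeries]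
    rw [this]
    simpa using hT0
  obtain ⟨l, hl1, hl2, hl3⟩ := exists_lambda_of_not_pow (C := C) (p := p) (m := m) (by omega) hm
  let l₁ : OC C := ⟨l, hl1⟩
  let l₂ : OC C := ⟨1 + l, hl2⟩
  set P := mulSeries L.G (p ^ K) with hP
  set Sr : PowerSeries (OC C) := PowerSeries.rescale l₂ P - P - PowerSeries.rescale l₁ P with hSr
  have hcoeff : ((PowerSeries.coeff m Sr : OC C) : C) =
      ((PowerSeries.coeff m P : OC C) : C) * ((1 + l) ^ m - 1 - l ^ m) := by
    have h2 : PowerSeries.coeff m Sr = (l₂ ^ m - 1 - l₁ ^ m) * PowerSeries.coeff m P := by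
      simp only [hSr, map_sub, PowerSeries.coeff_rescale]
      ring
    rw [h2]
    have h3 : (((l₂ ^ m - 1 - l₁ ^ m) * PowerSeries.coeff m P : OC C) : C) =
        ((1 + l) ^ m - 1 - l ^ m) * ((PowerSeries.coeff m P : OC C) : C) := rfl
    rw [h3, mul_comm]
  have hev : ∀ x : OC C, ‖(x : C)‖ ≤ r → ‖((ev1 (RingHom.id _) x Sr : OC C) : C)‖ ≤ T / ‖b‖ := by
    intro x hx
    have hxlt : ‖(x : C)‖ < 1 := lt_of_le_of_lt hx h1
    have hn1 : ‖((l₁ * x : OC C) : C)‖ ≤ r := by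
      have : ((l₁ * x : OC C) : C) = l * (x : C) := rfl
      rw [this, norm_mul]
      exact (mul_le_of_le_one_left (norm_nonneg _) hl1).trans hx
    have hn2 : ‖((l₂ * x : OC C) : C)‖ ≤ r := by
      have : ((l₂ * x : OC C) : C) = (1 + l) * (x : C) := rfl
      rw [this, norm_mul]
      exact (mul_le_of_le_one_left (norm_nonneg _) hl2).trans hx
    let x₁ : Pts L.G := Pts.mk ((l₁ * x : OC C) : C) (lt_of_le_of_lt hn1 h1)
    let x₂ : Pts L.G := Pts.mk (x : C) hxlt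
    let x₃ : Pts L.G := Pts.mk ((l₂ * x : OC C) : C) (lt_of_le_of_lt hn2 h1)
    have hx₁ : ‖x₁.v‖ ≤ r := hn1
    have hx₂ : ‖x₂.v‖ ≤ r := hx
    have hx₃ : x₃.v = x₁.v + x₂.v := by
      have e1 : x₃.v = (1 + l) * (x : C) := rfl
      have e2 : x₁.v = l * (x : C) := rfl
      have e3 : x₂.v = (x : C) := rfl
      rw [e1, e2, e3]
      ring
    have hbd := norm_add_defect_le hadd hb K h0.le h1 hc x₁ x₂ x₃ hx₁ hx₂ hx₃
    have e0 : ev1 (RingHom.id _) x Sr =
        ((p ^ K) • x₃).o - ((p ^ K) • x₂).o - ((p ^ K) • x₁).o := by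
      have s1 : ev1 (RingHom.id (OC C)) x (PowerSeries.rescale l₂ P - P - PowerSeries.rescale l₁ P) =
          ev1 (RingHom.id (OC C)) x (PowerSeries.rescale l₂ P) - ev1 (RingHom.id (OC C)) x P -
            ev1 (RingHom.id (OC C)) x (PowerSeries.rescale l₁ P) := by
        have t1 := Ev_sub (RingHom.id (OC C)) (fun _ : Unit => x) (fun _ => hxlt)
          (PowerSeries.rescale l₂ P - P) (PowerSeries.rescale l₁ P)
        have t2 := Ev_sub (RingHom.id (OC C)) (fun _ : Unit => x) (fun _ => hxlt)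
          (PowerSeries.rescale l₂ P) P
        exact t1.trans (congrArg (· - _) t2)
      rw [hSr, s1, ev1_rescale l₂ x hxlt (lt_of_le_of_lt hn2 h1), ev1_rescale l₁ x hxlt (lt_of_le_of_lt hn1 h1)]
      have a1 := ev1_pow_eq L K x₁
      have a2 := ev1_pow_eq L K x₂
      have a3 := ev1_pow_eq L K x₃
      have o1 : x₁.o = l₁ * x := rfl
      have o2 : x₂.o = x := rfl
      have o3 : x₃.o = l₂ * x := rfl
      rw [o1] at a1
      rw [o2] at a2
      rw [o3] at a3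
      rw [a1, a2, a3]
    rw [e0, le_div_iff₀ hbn, mul_comm]
    have e9 : b * (((p ^ K) • x₃).v - ((p ^ K) • x₁).v - ((p ^ K) • x₂).v) =
        b * ((((p ^ K) • x₃).o - ((p ^ K) • x₂).o - ((p ^ K) • x₁).o : OC C) : C) := by
      have : (((p ^ K) • x₃).o - ((p ^ K) • x₂).o - ((p ^ K) • x₁).o : OC C).1 =
          ((p ^ K) • x₃).v - ((p ^ K) • x₂).v - ((p ^ K) • x₁).v := rfl
      show _ = b * (((p ^ K) • x₃).o - ((p ^ K) • x₂).o - ((p ^ K) • x₁).o : OC C).1
      rw [this]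
      ring
    rw [e9, norm_mul] at hbd
    exact hbd
  have hfin := norm_coeff_mul_pow_le_of_eval Sr π hπ h0 h1 (div_nonneg hT0 hbn.le) hev m
  rw [hcoeff, norm_mul, hl3, mul_one, le_div_iff₀ hbn] at hfin
  rw [norm_mul]
  calc ‖b‖ * ‖((PowerSeries.coeff m P : OC C) : C)‖ * r ^ m
      = ‖((PowerSeries.coeff m P : OC C) : C)‖ * r ^ m * ‖b‖ := by ring
    _ ≤ T := hfin

end Vale.Agent.Lib.P217
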