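import Vale.Agent.Lib.P217.SigmaData

set_option linter.unusedSectionVars false
set_option linter.unusedVariables false

/-!
Height `h` laws: basic estimates and torsion.
-/

namespace Vale.Agent.Lib.P217

open scoped Topology
open Filter

variable {C : Type*} [NormedField C] [IsUltrametricDist C] [CompleteSpace C]
variable {p n : ℕ} [hp : Fact p.Prime] [CharP C p] [IsAlgClosed C]

/-- The law `L` has height exactly `h`: `[p](X) = a X ^ (p ^ h) + ...` with `a ≠ 0`. -/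
structure HtLaw (L : Law C p n) (h : ℕ) : Prop where
  low : ∀ j, j < p ^ h → PowerSeries.coeff j (mulSeries L.G p) = 0
  ne : PowerSeries.coeff (p ^ h) (mulSeries L.G p) ≠ 0

/-- The leading coefficient of `[p]`. -/
noncomputable def aL (L : Law C p n) (h : ℕ) : C :=
  ((PowerSeries.coeff (p ^ h) (mulSeries L.G p) : OC C) : C)

variable {L : Law C p n} {h : ℕ}

theorem HtLaw.aL_ne (H : HtLaw L h) : aL L h ≠ 0 := fun h0 => H.ne (Subtype.ext h0)

theorem norm_aL_le (L : Law C p n) (h : ℕ) : ‖aL L h‖ ≤ 1 := norm_OC_le _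

/-- If `h < n` the leading coefficient has norm at most `c`. -/
theorem norm_aL_le_c (L : Law C p n) {h : ℕ} (hh : h < n) : ‖aL L h‖ ≤ L.c := by
  have h1 := L.coeff_p (p ^ h)
  have hne : p ^ h ≠ p ^ n := fun he =>
    absurd (Nat.pow_right_injective hp.out.two_le he) hh.ne
  rw [if_neg hne, sub_zero] at h1
  exact h1

theorem HtLaw.exists_small (H : HtLaw L h) (hh : h < n) : ∃ t : C, t ≠ 0 ∧ ‖t‖ < 1 :=
  ⟨aL L h, H.aL_ne, lt_of_le_of_lt (norm_aL_le_c L hh) L.c_lt_one⟩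

/-- `‖[p] x‖ ≤ ‖x‖ ^ q`. -/
theorem HtLaw.norm_nsmul_le (H : HtLaw L h) (x : Pts L.G) : ‖(p • x).v‖ ≤ ‖x.v‖ ^ (p ^ h) := by
  have h1 := hasSum_nsmul_p L x
  have hnn : (0 : ℝ) ≤ ‖x.v‖ ^ (p ^ h) := by positivity
  refine norm_sum_le_of_hasSum h1 hnn fun j => ?_
  by_cases hj : j < p ^ h
  · rw [H.low j hj, zero_mul]
    simpa using hnn
  · push Not at hj
    have e : ((PowerSeries.coeff j (mulSeries L.G p) * x.o ^ j : OC C) : C)
        = ((PowerSeries.coeff j (mulSeries L.G p) : OC C) : C) * x.v ^ j := by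
      push_cast; rfl
    rw [e, norm_mul, norm_pow]
    exact (mul_le_of_le_one_left (by positivity) (norm_OC_le _)).trans
      (pow_le_pow_of_le_one (norm_nonneg _) x.norm_lt.le hj)

/-- `[p]` contracts: `‖[p] x - [p] y‖ ≤ ‖x - y‖ ^ q`. Proof: apply `norm_nsmul_le` to `x - y` and use `norm_sub_law`. -/
theorem HtLaw.norm_nsmul_sub_le (H : HtLaw L h) (x y : Pts L.G) :
    ‖(p • x).v - (p • y).v‖ ≤ ‖x.v - y.v‖ ^ (p ^ h) := by
  have h1 := H.norm_nsmul_le (x - y)
  rw [norm_sub_law L x y] at h1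
  have h2 : (p • x).v - (p • y).v = (p • x).v - (p • y).v := rfl
  rw [← norm_sub_law L (p • x) (p • y), ← nsmul_sub]
  exact h1

theorem HtLaw.norm_nsmul_pow_le (H : HtLaw L h) (x : Pts L.G) (j : ℕ) :
    ‖((p ^ j) • x).v‖ ≤ ‖x.v‖ ^ (p ^ (h * j)) := by
  induction j with
  | zero => simp
  | succ j ih =>
    rw [nsmul_pow_succ]
    refine (H.norm_nsmul_le _).trans ?_
    have := pow_le_pow_left₀ (norm_nonneg _) ih (p ^ h)
    refine this.trans (le_of_eq ?_)
    rw [← pow_mul, ← pow_add]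
    ring_nf

theorem HtLaw.norm_nsmul_pow_sub_le (H : HtLaw L h) (x y : Pts L.G) (j : ℕ) :
    ‖((p ^ j) • x).v - ((p ^ j) • y).v‖ ≤ ‖x.v - y.v‖ ^ (p ^ (h * j)) := by
  have h1 := H.norm_nsmul_pow_le (x - y) j
  rw [norm_sub_law L x y] at h1
  rw [← norm_sub_law L ((p ^ j) • x) ((p ^ j) • y), ← nsmul_sub]
  exact h1

/-- The small disc estimate: `‖[p] x - a x ^ q‖ ≤ ‖x‖ ^ (q + 1)`. -/
theorem HtLaw.norm_smalldisc_sub_le (H : HtLaw L h) (x : Pts L.G) :
    ‖(p • x).v - aL L h * x.v ^ (p ^ h)‖ ≤ ‖x.v‖ ^ (p ^ h + 1) := by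
  have h1 := hasSum_nsmul_p L x
  set a := PowerSeries.coeff (p ^ h) (mulSeries L.G p) with ha
  have h2 : HasSum (fun j : ℕ => if j = p ^ h then a * x.o ^ (p ^ h) else 0) (a * x.o ^ (p ^ h)) :=
    hasSum_ite_eq (p ^ h) _
  have hnn : (0 : ℝ) ≤ ‖x.v‖ ^ (p ^ h + 1) := by positivity
  have h3 := norm_sum_le_of_hasSum (h1.sub h2) hnn ?_
  · exact h3
  · intro j
    by_cases hj : j = p ^ h
    · subst hj
      simp only [if_true, ← ha, sub_self]
      simpa using hnn
    · simp only [if_neg hj, sub_zero]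
      by_cases hj2 : j < p ^ h
      · rw [H.low j hj2, zero_mul]
        simpa using hnn
      · have hj3 : p ^ h + 1 ≤ j := by omega
        have e : ((PowerSeries.coeff j (mulSeries L.G p) * x.o ^ j : OC C) : C)
            = ((PowerSeries.coeff j (mulSeries L.G p) : OC C) : C) * x.v ^ j := by
          push_cast; rfl
        rw [e, norm_mul, norm_pow]
        exact (mul_le_of_le_one_left (by positivity) (norm_OC_le _)).trans
          (pow_le_pow_of_le_one (norm_nonneg _) x.norm_lt.le hj3)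

/-- The small disc law. -/
theorem HtLaw.norm_nsmul_eq (H : HtLaw L h) (x : Pts L.G) (hx : ‖x.v‖ < ‖aL L h‖) :
    ‖(p • x).v‖ = ‖aL L h‖ * ‖x.v‖ ^ (p ^ h) := by
  have hq : p ^ h ≠ 0 := pow_ne_zero _ hp.out.ne_zero
  have hs := H.norm_smalldisc_sub_le x
  by_cases hx0 : x.v = 0
  · have h1 := H.norm_nsmul_le x
    rw [hx0, norm_zero, zero_pow hq] at h1
    rw [hx0, norm_zero, zero_pow hq, mul_zero]
    exact le_antisymm h1 (norm_nonneg _)
  · have hxpos : 0 < ‖x.v‖ := norm_pos_iff.mpr hx0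
    have e1 : ‖aL L h * x.v ^ (p ^ h)‖ = ‖aL L h‖ * ‖x.v‖ ^ (p ^ h) := by
      rw [norm_mul, norm_pow]
    rw [← e1]
    apply norm_eq_of_sub_lt
    refine lt_of_le_of_lt hs ?_
    rw [e1, pow_succ, mul_comm]
    exact mul_lt_mul_of_pos_right hx (pow_pos hxpos _)

/-- The scaled small disc law: if `b ^ (q - 1) = a`, `‖b [p] x‖ = ‖b x‖ ^ q`. -/
theorem HtLaw.norm_b_nsmul (H : HtLaw L h) (hh1 : 1 ≤ h) {b : C} (hb : b ^ (p ^ h - 1) = aL L h)
    (x : Pts L.G) (hx : ‖x.v‖ < ‖aL L h‖) : ‖b * (p • x).v‖ = ‖b * x.v‖ ^ (p ^ h) := by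
  have hq : 1 ≤ p ^ h := Nat.one_le_pow _ _ hp.out.pos
  have e1 := H.norm_nsmul_eq x hx
  have e2 : ‖aL L h‖ = ‖b‖ ^ (p ^ h - 1) := by
    rw [← hb, norm_pow]
  rw [norm_mul, e1, e2, norm_mul, mul_pow]
  have e3 : ‖b‖ ^ (p ^ h) = ‖b‖ * ‖b‖ ^ (p ^ h - 1) := by
    rw [← pow_succ']
    congr 1
    omega
  rw [e3]
  ring

/-- Generalisation of `rootMultiplicity_eq` to height `h` (same proof, using `HtLaw.norm_smalldisc_sub_le`,
with `p` replaced by `p ^ h`). -/
theorem HtLaw.rootMultiplicity_eq (H : HtLaw L h) (ht : ∃ t : C, t ≠ 0 ∧ ‖t‖ < 1)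
    {f : Polynomial (OC C)} {g : PowerSeries (OC C)} (hf : f.Monic) (hg : IsUnit g)
    (hfac : mulSeries L.G p - PowerSeries.C (0 : Pts L.G).o = (f : PowerSeries (OC C)) * g)
    (w : Pts L.G) (hw : (f.map (OC C).subtype).eval w.v = 0) :
    (f.map (OC C).subtype).rootMultiplicity w.v = p ^ h := by
  set q := p ^ h with hqdef
  have hq0 : q ≠ 0 := pow_ne_zero _ hp.out.ne_zero
  rename' g => u
  rename' hg => hh
  set Q := f.map (OC C).subtype with hQ
  have hQ0 : Q ≠ 0 := (hf.map _).ne_zero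
  set m := Q.rootMultiplicity w.v with hm
  set R := Q /ₘ (Polynomial.X - Polynomial.C w.v) ^ m with hR
  have hQR : (Polynomial.X - Polynomial.C w.v) ^ m * R = Q :=
    Polynomial.pow_mul_divByMonic_rootMultiplicity_eq Q w.v
  have hR0 : R.eval w.v ≠ 0 := Polynomial.eval_divByMonic_pow_rootMultiplicity_ne_zero w.v hQ0
  obtain ⟨t, ht0, ht1⟩ := ht
  have hτ0 : 0 < ‖t‖ := norm_pos_iff.mpr ht0
  have ha0 : aL L h ≠ 0 := H.aL_ne
  have hA : 0 < ‖aL L h‖ := norm_pos_iff.mpr ha0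
  have hK : 0 < ‖R.eval w.v‖ := norm_pos_iff.mpr hR0
  have hpw : p • w = 0 := (nsmul_eq_iff L 0 w hh hfac).mpr hw
  have ht_pow : Tendsto (fun k : ℕ => t ^ k) atTop (𝓝 0) :=
    tendsto_pow_atTop_nhds_zero_of_norm_lt_one ht1
  have hev1 : ∀ᶠ k : ℕ in atTop, ‖R.eval (w.v + t ^ k) - R.eval w.v‖ < ‖R.eval w.v‖ := by
    have hc : Tendsto (fun k : ℕ => R.eval (w.v + t ^ k)) atTop (𝓝 (R.eval (w.v + 0))) :=
      (R.continuous.tendsto _).comp (tendsto_const_nhds.add ht_pow)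
    rw [add_zero] at hc
    have hc2 := tendsto_iff_norm_sub_tendsto_zero.mp hc
    exact hc2.eventually (gt_mem_nhds hK)
  have hev2 : ∀ᶠ k : ℕ in atTop, ‖t‖ ^ k < ‖aL L h‖ := by
    have hc : Tendsto (fun k : ℕ => ‖t‖ ^ k) atTop (𝓝 0) :=
      tendsto_pow_atTop_nhds_zero_of_lt_one hτ0.le ht1
    exact hc.eventually (gt_mem_nhds hA)
  have hmain : ∀ᶠ k : ℕ in atTop, (‖t‖ ^ k) ^ m * ‖R.eval w.v‖ = ‖aL L h‖ * (‖t‖ ^ k) ^ q := by
    filter_upwards [hev1, hev2, eventually_ge_atTop 1] with k hk1 hk2 hk3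
    have hτk : ‖t ^ k‖ = ‖t‖ ^ k := norm_pow _ _
    have hτk1 : ‖t‖ ^ k < 1 := pow_lt_one₀ hτ0.le ht1 (by omega)
    have hτk0 : 0 < ‖t‖ ^ k := pow_pos hτ0 k
    have hx1 : ‖w.v + t ^ k‖ < 1 :=
      lt_of_le_of_lt (IsUltrametricDist.norm_add_le_max _ _)
        (max_lt w.norm_lt (by rw [hτk]; exact hτk1))
    set x : Pts L.G := Pts.mk (w.v + t ^ k) hx1 with hx
    set y : Pts L.G := x - w with hy
    have hyn : ‖y.v‖ = ‖t‖ ^ k := by
      rw [hy, norm_sub_law, hx, Pts.v_mk]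
      simp [hτk]
    have hpx : p • x = p • y := by
      have : x = y + w := by rw [hy]; abel
      rw [this, nsmul_add, hpw, add_zero]
    have hnorm1 : ‖(p • y).v‖ = ‖aL L h‖ * (‖t‖ ^ k) ^ q := by
      have := H.norm_nsmul_eq y (by rw [hyn]; exact hk2)
      rw [this, hyn]
    have hnorm2 : ‖(p • x).v‖ = ‖Q.eval x.v‖ := by
      have h1 := nsmul_o_eq L 0 x hfac
      have h2 := norm_ev1_unit x.o x.norm_o_lt hh
      rw [Pts.zero_o, sub_zero] at h1
      have h4 : (p • x).v = ((f.eval x.o : OC C) : C) * ((ev1 (RingHom.id _) x.o u : OC C) : C) :=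
        congrArg (fun t : OC C => (t : C)) h1
      rw [h4, norm_mul, h2, mul_one, coe_eval_eq]
      rfl
    have hnorm3 : ‖Q.eval x.v‖ = (‖t‖ ^ k) ^ m * ‖R.eval w.v‖ := by
      rw [← hQR, Polynomial.eval_mul, Polynomial.eval_pow, Polynomial.eval_sub, Polynomial.eval_X,
        Polynomial.eval_C, norm_mul, norm_pow, norm_eq_of_sub_lt (u := R.eval x.v) (v := R.eval w.v)
          (by simpa [hx] using hk1)]
      simp [hx, hτk]
    rw [← hnorm3, ← hnorm2, hpx, hnorm1]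
  obtain ⟨k, hk⟩ := eventually_atTop.mp hmain
  have h1 := hk k le_rfl
  have h2 := hk (k + 1) (by omega)
  have hS : 0 < (‖t‖ ^ k) ^ m * ‖R.eval w.v‖ := by positivity
  have h3 : ‖t‖ ^ m = ‖t‖ ^ q := by
    have h4 : ‖t‖ ^ m * ((‖t‖ ^ k) ^ m * ‖R.eval w.v‖) = ‖t‖ ^ q * ((‖t‖ ^ k) ^ m * ‖R.eval w.v‖) := by
      calc ‖t‖ ^ m * ((‖t‖ ^ k) ^ m * ‖R.eval w.v‖)
          = (‖t‖ ^ (k + 1)) ^ m * ‖R.eval w.v‖ := by rw [pow_succ, mul_pow]; ring
        _ = ‖aL L h‖ * (‖t‖ ^ (k + 1)) ^ q := h2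
        _ = ‖t‖ ^ q * (‖aL L h‖ * (‖t‖ ^ k) ^ q) := by rw [pow_succ, mul_pow]; ring
        _ = ‖t‖ ^ q * ((‖t‖ ^ k) ^ m * ‖R.eval w.v‖) := by rw [h1]
    exact mul_right_cancel₀ hS.ne' h4
  exact pow_right_injective₀ hτ0 ht1.ne h3

/-- Generalisation of `card_torsion` (same proof). -/
theorem HtLaw.card_torsion (H : HtLaw L h) (hn : 1 ≤ n) (hhn : h ≤ n) (ht : ∃ t : C, t ≠ 0 ∧ ‖t‖ < 1) :
    Nat.card (nsmulAddMonoidHom (α := Pts L.G) p).ker = p ^ (n - h) := by
  classical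
  have hpn : 0 < p ^ n := Nat.pow_pos hp.out.pos
  obtain ⟨f, u, r', hr', hf, hfd, hfl, hh, hfac⟩ := exists_factor_p L ht (0 : Pts L.G)
  set Q := f.map (OC C).subtype with hQ
  have hQ0 : Q ≠ 0 := (hf.map _).ne_zero
  have hQd : Q.natDegree = p ^ n := by rw [hQ, hf.natDegree_map, hfd]
  have hroot : ∀ w ∈ Q.roots.toFinset, ‖w‖ < 1 := by
    intro w hw
    have h1 : Q.IsRoot w := (Polynomial.mem_roots hQ0).mp (Multiset.mem_toFinset.mp hw)
    exact norm_root_lt hf hr' (by rw [hfd]; exact hfl) h1 (by rw [hfd]; exact hpn)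
  have hmemker : ∀ x : Pts L.G, x ∈ (nsmulAddMonoidHom (α := Pts L.G) p).ker ↔ Q.eval x.v = 0 := by
    intro x
    rw [AddMonoidHom.mem_ker, nsmulAddMonoidHom_apply]
    exact nsmul_eq_iff L 0 x hh hfac
  have hcard : Nat.card (nsmulAddMonoidHom (α := Pts L.G) p).ker = Q.roots.toFinset.card := by
    let e : (nsmulAddMonoidHom (α := Pts L.G) p).ker → {w // w ∈ Q.roots.toFinset} := fun x =>
      ⟨(x : Pts L.G).v, Multiset.mem_toFinset.mpr
        ((Polynomial.mem_roots hQ0).mpr ((hmemker _).mp x.2))⟩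
    have he : Function.Bijective e := by
      constructor
      · intro x y hxy
        apply Subtype.ext
        apply Pts.ext
        exact congrArg (fun u : {w // w ∈ Q.roots.toFinset} => u.1) hxy
      · rintro ⟨w, hw⟩
        refine ⟨⟨Pts.mk w (hroot w hw), (hmemker _).mpr ?_⟩, rfl⟩
        have := (Polynomial.mem_roots hQ0).mp (Multiset.mem_toFinset.mp hw)
        simpa using this
    rw [Nat.card_eq_of_bijective e he, Nat.card_eq_fintype_card, Fintype.card_coe]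
  rw [hcard]
  have hsum : ∑ w ∈ Q.roots.toFinset, Q.roots.count w = Q.roots.card :=
    Multiset.toFinset_sum_count_eq _
  have hcount : ∀ w ∈ Q.roots.toFinset, Q.roots.count w = p ^ h := by
    intro w hw
    rw [Polynomial.count_roots]
    have := H.rootMultiplicity_eq ht hf hh hfac (Pts.mk w (hroot w hw))
      (by
        have := (Polynomial.mem_roots hQ0).mp (Multiset.mem_toFinset.mp hw)
        simpa using this)
    simpa using this
  rw [Finset.sum_congr rfl hcount, Finset.sum_const, IsAlgClosed.card_roots_eq_natDegree, hQd,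
    smul_eq_mul] at hsum
  have h5 : p ^ n = p ^ (n - h) * p ^ h := by
    rw [← pow_add]
    congr 1
    omega
  rw [h5] at hsum
  exact Nat.eq_of_mul_eq_mul_right (Nat.pow_pos hp.out.pos) hsum

/-- Generalisation of `card_torsion_pow` (same proof). -/
theorem HtLaw.card_torsion_pow (H : HtLaw L h) (hn : 1 ≤ n) (hhn : h ≤ n) (ht : ∃ t : C, t ≠ 0 ∧ ‖t‖ < 1)
    (R : ℕ) :
    Finite (nsmulAddMonoidHom (α := Pts L.G) (p ^ R)).ker ∧
      Nat.card (nsmulAddMonoidHom (α := Pts L.G) (p ^ R)).ker = (p ^ (n - h)) ^ R := by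
  have hc1 := H.card_torsion hn hhn ht
  have hp0 : p ^ (n - h) ≠ 0 := pow_ne_zero _ hp.out.ne_zero
  have hfin1 : Finite (nsmulAddMonoidHom (α := Pts L.G) p).ker :=
    Nat.finite_of_card_ne_zero (by rw [hc1]; exact hp0)
  induction R with
  | zero =>
    have hs : Subsingleton (nsmulAddMonoidHom (α := Pts L.G) (p ^ 0)).ker := by
      refine ⟨fun a b => Subtype.ext ?_⟩
      have ha' := a.2
      have hb' := b.2
      rw [AddMonoidHom.mem_ker] at ha' hb'
      simp only [pow_zero, nsmulAddMonoidHom_apply, one_smul] at ha' hb'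
      rw [ha', hb']
    refine ⟨inferInstance, ?_⟩
    rw [pow_zero (p ^ (n - h))]
    exact Nat.card_eq_one_iff_unique.mpr ⟨hs, ⟨⟨0, zero_mem _⟩⟩⟩
  | succ R ih =>
    obtain ⟨hfin, hcard⟩ := ih
    -- the map `[p]` from `ker [p^(R+1)]` to `ker [p^R]`
    let g : (nsmulAddMonoidHom (α := Pts L.G) (p ^ (R + 1))).ker →+
        (nsmulAddMonoidHom (α := Pts L.G) (p ^ R)).ker :=
      AddMonoidHom.mk' (fun x => ⟨p • x.1, by
        have hx := x.2
        rw [AddMonoidHom.mem_ker] at hx ⊢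
        simp only [nsmulAddMonoidHom_apply] at hx ⊢
        rw [← mul_nsmul', ← pow_succ]
        exact hx⟩) (by
        intro x y
        apply Subtype.ext
        simp [nsmul_add])
    have hg : Function.Surjective g := by
      intro y
      obtain ⟨z, hz⟩ := nsmul_p_surjective L hn ht y.1
      have hz2 : z ∈ (nsmulAddMonoidHom (α := Pts L.G) (p ^ (R + 1))).ker := by
        have hy := y.2
        rw [AddMonoidHom.mem_ker] at hy ⊢
        simp only [nsmulAddMonoidHom_apply] at hy ⊢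
        rw [pow_succ, mul_nsmul', hz]
        exact hy
      exact ⟨⟨z, hz2⟩, Subtype.ext hz⟩
    -- the kernel of `g` is the `p`-torsion
    let e : g.ker ≃ (nsmulAddMonoidHom (α := Pts L.G) p).ker :=
      { toFun := fun x => ⟨x.1.1, by
          have hx := x.2
          rw [AddMonoidHom.mem_ker] at hx ⊢
          have := congrArg Subtype.val hx
          exact this⟩
        invFun := fun x => ⟨⟨x.1, by
          have hx := x.2
          rw [AddMonoidHom.mem_ker] at hx ⊢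
          simp only [nsmulAddMonoidHom_apply] at hx ⊢
          rw [pow_succ', mul_nsmul', smul_comm, hx, smul_zero]⟩, by
          rw [AddMonoidHom.mem_ker]
          apply Subtype.ext
          exact x.2⟩
        left_inv := fun x => rfl
        right_inv := fun x => rfl }
    have hker : Finite g.ker := Finite.of_equiv _ e.symm
    let e2 := QuotientAddGroup.quotientKerEquivOfSurjective g hg
    have hquot : Finite (_ ⧸ g.ker) := Finite.of_equiv _ e2.symm.toEquiv
    have hfinal : Finite (nsmulAddMonoidHom (α := Pts L.G) (p ^ (R + 1))).ker :=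
      Finite.of_addSubgroup_quotient g.ker
    refine ⟨hfinal, ?_⟩
    rw [AddSubgroup.card_eq_card_quotient_mul_card_addSubgroup g.ker, Nat.card_congr e2.toEquiv,
      Nat.card_congr e, hcard, hc1, pow_succ]

/-- Generalisation of `exists_preimage_torsion` (same proof; note that the small element `t` exists when `h < n`). -/
theorem HtLaw.exists_preimage_torsion {L L' : Law C p n} (H : HtLaw L h) (H' : HtLaw L' h) (hn : 1 ≤ n)
    (hhn : h < n)
    (f : PowerSeries (OC C)) (hf : IsHom L.G L'.G f)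
    (hu : ‖((PowerSeries.coeff 1 f : OC C) : C)‖ = 1) (R : ℕ) (y : Pts L'.G) (hy : (p ^ R) • y = 0) :
    ∃ x : Pts L.G, (p ^ R) • x = 0 ∧ evHom f hf x = y := by
  have ht := H.exists_small hhn
  obtain ⟨fin1, card1⟩ := H.card_torsion_pow hn hhn.le ht R
  obtain ⟨fin2, card2⟩ := H'.card_torsion_pow hn hhn.le ht R
  let g : (nsmulAddMonoidHom (α := Pts L.G) (p ^ R)).ker → (nsmulAddMonoidHom (α := Pts L'.G) (p ^ R)).ker :=
    fun x => ⟨evHom f hf x.1, by
      have h1 : (p ^ R) • x.1 = 0 := x.2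
      change (p ^ R) • evHom f hf x.1 = 0
      rw [← map_nsmul, h1, map_zero]⟩
  have hg : Function.Injective g := by
    intro x x' hxx
    have h1 : evHom f hf x.1 = evHom f hf x'.1 := congrArg Subtype.val hxx
    have h2 : evHom f hf (x.1 - x'.1) = 0 := by
      rw [map_sub, h1, sub_self]
    have h3 := norm_evHom_eq_of_unit f hf hu (x.1 - x'.1)
    rw [h2] at h3
    have h4 : ‖(x.1 - x'.1).v‖ = 0 := by
      rw [← h3]; simp
    have h5 : x.1 - x'.1 = 0 := Pts.ext (by simpa using h4)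
    exact Subtype.ext (sub_eq_zero.mp h5)
  have hb : Function.Bijective g := by
    refine (Nat.bijective_iff_injective_and_card g).mpr ⟨hg, ?_⟩
    rw [card1, card2]
  obtain ⟨x, hx⟩ := hb.2 ⟨y, hy⟩
  exact ⟨x.1, x.2, congrArg Subtype.val hx⟩

/-- The factorisation of `[p]` with more information: the polynomial `D = (∏_{w ∈ L[p]} (X - w)) ^ q` is monic of degree `Q` and its lower coefficients have norm at most some `r' < 1`.
(From `exists_factor_p`, the polynomial there is `D`.) -/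
theorem HtLaw.exists_torsion_factor' (H : HtLaw L h) (hn : 1 ≤ n) (hhn : h < n) :
    ∃ (s : Finset (Pts L.G)) (U : PowerSeries (OC C)) (r' : ℝ), 0 ≤ r' ∧ r' < 1 ∧ (∀ w : Pts L.G, w ∈ s ↔ p • w = 0) ∧ IsUnit U ∧
      ((∏ w ∈ s, (Polynomial.X - Polynomial.C w.o)) ^ (p ^ h) : Polynomial (OC C)).natDegree = p ^ n ∧
      (∀ j, j < p ^ n → ‖((((∏ w ∈ s, (Polynomial.X - Polynomial.C w.o)) ^ (p ^ h) : Polynomial (OC C)).coeff j : OC C) : C)‖ ≤ r') ∧
      mulSeries L.G p =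
        (((∏ w ∈ s, (Polynomial.X - Polynomial.C w.o)) ^ (p ^ h) : Polynomial (OC C)) : PowerSeries (OC C)) * U := by
  classical
  have ht := H.exists_small hhn
  have hpn : 0 < p ^ n := Nat.pow_pos hp.out.pos
  obtain ⟨f, u, r', hr', hf, hfd, hfl, hh, hfac⟩ := exists_factor_p L ht (0 : Pts L.G)
  set Q := f.map (OC C).subtype with hQ
  have hQ0 : Q ≠ 0 := (hf.map _).ne_zero
  have hroot : ∀ w ∈ Q.roots.toFinset, ‖w‖ < 1 := by
    intro w hw
    have h1 : Q.IsRoot w := (Polynomial.mem_roots hQ0).mp (Multiset.mem_toFinset.mp hw)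
    exact norm_root_lt hf hr' (by rw [hfd]; exact hfl) h1 (by rw [hfd]; exact hpn)
  have hmem : ∀ x : Pts L.G, p • x = 0 ↔ Q.eval x.v = 0 := fun x => nsmul_eq_iff L 0 x hh hfac
  let s : Finset (Pts L.G) := (Q.roots.toFinset.attach).image
    (fun w => Pts.mk w.1 (hroot w.1 w.2))
  have hs : ∀ w : Pts L.G, w ∈ s ↔ p • w = 0 := by
    intro w
    rw [hmem]
    simp only [s, Finset.mem_image, Finset.mem_attach, true_and, Subtype.exists]
    constructor
    · rintro ⟨a, ha, rfl⟩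
      have := (Polynomial.mem_roots hQ0).mp (Multiset.mem_toFinset.mp ha)
      simpa using this
    · intro h0
      refine ⟨w.v, Multiset.mem_toFinset.mpr ((Polynomial.mem_roots hQ0).mpr h0), ?_⟩
      apply Pts.ext
      simp
  have himg : Q.roots.toFinset = s.image (fun w : Pts L.G => w.v) := by
    ext z
    simp only [Finset.mem_image]
    constructor
    · intro hz
      refine ⟨Pts.mk z (hroot z hz), ?_, by simp⟩
      rw [hs, hmem]
      have := (Polynomial.mem_roots hQ0).mp (Multiset.mem_toFinset.mp hz)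
      simpa using this
    · rintro ⟨w, hw, rfl⟩
      rw [hs, hmem] at hw
      exact Multiset.mem_toFinset.mpr ((Polynomial.mem_roots hQ0).mpr hw)
  have hcount : ∀ w ∈ Q.roots.toFinset, Q.roots.count w = p ^ h := by
    intro w hw
    rw [Polynomial.count_roots]
    have := H.rootMultiplicity_eq ht hf hh hfac (Pts.mk w (hroot w hw))
      (by
        have := (Polynomial.mem_roots hQ0).mp (Multiset.mem_toFinset.mp hw)
        simpa using this)
    simpa using this
  have hQprod : Q = (∏ w ∈ s, (Polynomial.X - Polynomial.C w.v)) ^ (p ^ h) := by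
    have h1 : (Q.roots.map fun a => Polynomial.X - Polynomial.C a).prod = Q :=
      Polynomial.prod_multiset_X_sub_C_of_monic_of_roots_card_eq (hf.map _)
        (by rw [IsAlgClosed.card_roots_eq_natDegree])
    rw [← h1, Finset.prod_multiset_map_count, himg,
      Finset.prod_image (fun a _ b _ hab => Pts.ext hab), ← Finset.prod_pow]
    refine Finset.prod_congr rfl fun w hw => ?_
    rw [hcount w.v]
    rw [himg]
    exact Finset.mem_image_of_mem _ hw
  have hf2 : f = (∏ w ∈ s, (Polynomial.X - Polynomial.C w.o)) ^ (p ^ h) := by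
    apply Polynomial.map_injective (OC C).subtype Subtype.val_injective
    rw [← hQ, hQprod, Polynomial.map_pow, Polynomial.map_prod]
    congr 1
    refine Finset.prod_congr rfl fun w _ => ?_
    simp [Polynomial.map_sub]
    rfl
  have e0 : (0 : Pts L.G).o = 0 := Pts.zero_o _
  rw [e0, map_zero, sub_zero] at hfac
  refine ⟨s, u, r', ?_, hr', hs, hh, ?_, ?_, ?_⟩
  · have h0 := hfl 0 hpn
    exact (norm_nonneg _).trans h0
  · rw [← hf2]
    exact hfd
  · rw [← hf2]
    exact hfl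
  · rw [hfac, hf2]

/-- The factorisation of `[p]`: `[p](X) = U(X) * (∏_{w ∈ L[p]} (X - w)) ^ q`, for a unit power series `U`.
From `exists_factor_p` and `HtLaw.rootMultiplicity_eq`: the monic polynomial `f` of that lemma splits over the algebraically
closed field `C`, its roots are exactly the `p`-torsion points, each with multiplicity `q`. -/
theorem HtLaw.exists_torsion_factor (H : HtLaw L h) (hn : 1 ≤ n) (hhn : h < n) :
    ∃ (s : Finset (Pts L.G)) (U : PowerSeries (OC C)), (∀ w : Pts L.G, w ∈ s ↔ p • w = 0) ∧ IsUnit U ∧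
      mulSeries L.G p =
        (((∏ w ∈ s, (Polynomial.X - Polynomial.C w.o)) ^ (p ^ h) : Polynomial (OC C)) : PowerSeries (OC C)) * U := by
  obtain ⟨s, U, r', -, -, hs, hU, -, -, he⟩ := H.exists_torsion_factor' hn hhn
  exact ⟨s, U, hs, hU, he⟩

section sigma

variable {N : ℕ} {k : Type*} [Field k] [Finite k] [CharP k p]

/-- Height data for the law attached to an admissible map. -/
theorem htLaw_lawOf {S : Setting C p n N k} {φ : MvPowerSeries (Fin N) k →+* OC C} (hφ : Adm S φ)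
    (hlow : ∀ j, j < p ^ h → PowerSeries.coeff j (mulSeries S.F p) = 0)
    (ha : φ (PowerSeries.coeff (p ^ h) (mulSeries S.F p)) ≠ 0) : HtLaw (lawOf S φ hφ) h := by
  have hc : ∀ j, PowerSeries.coeff j (mulSeries (lawOf S φ hφ).G p)
      = φ (PowerSeries.coeff j (mulSeries S.F p)) := by
    intro j
    show PowerSeries.coeff j (mulSeries (S.F.map φ) p) = _
    rw [mulSeries_map, PowerSeries.coeff_map]
  constructor
  · intro j hj
    rw [hc, hlow j hj, map_zero]
  · rw [hc]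
    exact ha

/-- Generalisation of `exists_sigmaData` to height `h`. Same proof, replacing `torsion_card_aux`, `exists_preimage_torsion`
by their height `h` versions (in the hypotheses of those, `φ₀ (τ ^ m a) = 0 ↔ φ₀ a = 0`, so the twisted laws have height `h` also).
The statement of `SigmaData` is unchanged. -/
theorem exists_sigmaDataH {S : Setting C p n N k} {φ₀ : MvPowerSeries (Fin N) k →+* OC C} (hφ₀ : Adm S φ₀)
    (τ : MvPowerSeries (Fin N) k ≃ₐ[k] MvPowerSeries (Fin N) k) {K : PowerSeries (MvPowerSeries (Fin N) k)}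
    (hK : IsHom S.F (S.F.map (τ : MvPowerSeries (Fin N) k →+* MvPowerSeries (Fin N) k)) K)
    (hKu : IsUnit (PowerSeries.coeff 1 K))
    (hker : ∀ a, φ₀ (τ a) = 0 ↔ φ₀ a = 0) (hhn : h < n)
    (hlow : ∀ j, j < p ^ h → PowerSeries.coeff j (mulSeries S.F p) = 0)
    (ha : φ₀ (PowerSeries.coeff (p ^ h) (mulSeries S.F p)) ≠ 0) (R : ℕ) :
    Nonempty (SigmaData hφ₀ τ K R) := by
  classical
  set ψ : MvPowerSeries (Fin N) k →+* C := (OC C).subtype.comp φ₀ with hψ
  have hn := S.hn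
  obtain ⟨P, U, hPm, hP0, hU, hPU⟩ := exists_weierstrass_F S R
  have adm0 : Adm S (phiSeq φ₀ τ 0) := adm_phiSeq hφ₀ τ 0
  have adm1 : Adm S (phiSeq φ₀ τ 1) := adm_phiSeq hφ₀ τ 1
  -- the torsion
  have H0 : HtLaw (lawSeq hφ₀ τ 0) h := by
    refine htLaw_lawOf (S := S) adm0 hlow ?_
    exact ha
  have H1 : HtLaw (lawSeq hφ₀ τ 1) h := by
    refine htLaw_lawOf (S := S) adm1 hlow ?_
    intro h0
    exact ha ((hker _).mp h0)
  obtain ⟨fin0, -⟩ := H0.card_torsion_pow hn hhn.le (H0.exists_small hhn) R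
  let Tor := (nsmulAddMonoidHom (α := Pts (lawSeq hφ₀ τ 0).G) (p ^ R)).ker
  have memTor : ∀ x : Pts (lawSeq hφ₀ τ 0).G, (p ^ R) • x = 0 → x ∈ Tor := fun x hx => hx
  let T : Set C := Set.range fun x : Tor => x.1.v
  have hTfin : T.Finite := Set.finite_range _
  have rootT : ∀ x : Pts (lawSeq hφ₀ τ 0).G, (p ^ R) • x = 0 → Polynomial.eval₂ ψ x.v P = 0 :=
    fun x hx => (torsion_iff_root adm0 P U hU hPU x).mp hx
  have hintT : ∀ t ∈ T, ψ.IsIntegralElem t := by
    rintro t ⟨x, rfl⟩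
    exact ⟨P, hPm, rootT x.1 x.2⟩
  obtain ⟨Sr, w, fam, hS, hφS, hTS, hint, hmin⟩ := exists_finite_subring ψ T hTfin hintT
  have hT : ∀ x : Pts (lawSeq hφ₀ τ 0).G, (p ^ R) • x = 0 → x.v ∈ Sr :=
    fun x hx => hTS ⟨⟨x, memTor x hx⟩, rfl⟩
  -- the lift
  let i : MvPowerSeries (Fin N) k →+* Sr := ψ.codRestrict Sr hφS
  have hi : ∀ a, ((i a : Sr) : C) = ψ a := fun a => rfl
  have hint' : i.IsIntegral := by
    intro s
    obtain ⟨Q, hQ, hQs⟩ := hint s
    refine ⟨Q, hQ, ?_⟩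
    apply Subtype.ext
    have := Polynomial.hom_eval₂ Q i Sr.subtype s
    have h2 : (Sr.subtype.comp i) = ψ := rfl
    rw [h2] at this
    exact this.trans hQs
  obtain ⟨σ₀, hσinj, hσ₀⟩ := exists_lift_aux i hint' (ψ.comp (τ : MvPowerSeries (Fin N) k →+* MvPowerSeries (Fin N) k))
    (fun a => by
      have h1 : i a = 0 ↔ φ₀ a = 0 := by
        rw [← Subtype.coe_inj, hi, ← Subtype.coe_inj]
        rfl
      have h2 : (ψ.comp (τ : MvPowerSeries (Fin N) k →+* MvPowerSeries (Fin N) k)) a = 0 ↔ φ₀ (τ a) = 0 := by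
        rw [← Subtype.coe_inj]
        rfl
      rw [h1, h2, hker])
  -- the homomorphism on points
  have hhom : IsHom (lawSeq hφ₀ τ 0).G (lawSeq hφ₀ τ 1).G (PowerSeries.map φ₀ K) := isHom_lawOf adm0 τ hK
  have hu : ‖((PowerSeries.coeff 1 (PowerSeries.map φ₀ K) : OC C) : C)‖ = 1 := by
    rw [PowerSeries.coeff_map]
    obtain ⟨v, hv⟩ := (hKu.map φ₀).exists_right_inv
    apply le_antisymm (norm_OC_le _)
    have h1 : ‖((φ₀ (PowerSeries.coeff 1 K) : OC C) : C)‖ * ‖(v : C)‖ = 1 := by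
      rw [← norm_mul]
      have : ((φ₀ (PowerSeries.coeff 1 K) : OC C) : C) * (v : C) = 1 := congrArg Subtype.val hv
      rw [this, norm_one]
    have h2 : ‖(v : C)‖ ≤ 1 := norm_OC_le v
    have h3 : 0 ≤ ‖((φ₀ (PowerSeries.coeff 1 K) : OC C) : C)‖ := norm_nonneg _
    nlinarith
  let Kt := evHom (L := lawSeq hφ₀ τ 0) (L' := lawSeq hφ₀ τ 1) (PowerSeries.map φ₀ K) hhom
  have hKt : ∀ z : Pts (lawSeq hφ₀ τ 0).G, (Kt z).v = (ev1 φ₀ z.o K : OC C) := by
    intro z
    have h1 : (Kt z).v = (ev1 (RingHom.id _) z.o (PowerSeries.map φ₀ K) : OC C) := rfl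
    have h2 : ev1 (RingHom.id _) z.o (PowerSeries.map φ₀ K) = ev1 φ₀ z.o K :=
      Ev_map φ₀ (RingHom.id _) (fun _ : Unit => z.o) (fun _ => z.norm_o_lt) K
    rw [h1, h2]
  -- the map `θ`
  have key : ∀ x : Tor, ∃ z : Tor, (Kt z.1).v = σ₀ ⟨x.1.v, hT _ x.2⟩ := by
    intro x
    have h1 : Polynomial.eval₂ i (⟨x.1.v, hT _ x.2⟩ : Sr) P = 0 := by
      apply Subtype.ext
      have := Polynomial.hom_eval₂ P i Sr.subtype ⟨x.1.v, hT _ x.2⟩
      have h2 : (Sr.subtype.comp i) = ψ := rfl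
      rw [h2] at this
      exact this.trans (rootT x.1 x.2)
    have h3 : Polynomial.eval₂ ((OC C).subtype.comp (phiSeq φ₀ τ 1)) (σ₀ ⟨x.1.v, hT _ x.2⟩) P = 0 := by
      have := Polynomial.hom_eval₂ P i σ₀ ⟨x.1.v, hT _ x.2⟩
      rw [h1, map_zero] at this
      have h4 : σ₀.comp i = (OC C).subtype.comp (phiSeq φ₀ τ 1) := RingHom.ext hσ₀
      rw [h4] at this
      exact this.symm
    have h5 := norm_lt_of_root adm1 P hPm hP0 _ h3
    let y' : Pts (lawSeq hφ₀ τ 1).G := Pts.mk _ h5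
    have h6 : (p ^ R) • y' = 0 := (torsion_iff_root adm1 P U hU hPU y').mpr h3
    obtain ⟨z, hz, hzy⟩ := H0.exists_preimage_torsion H1 hn hhn (PowerSeries.map φ₀ K) hhom hu R y' h6
    exact ⟨⟨z, memTor z hz⟩, by
      have : Kt z = y' := hzy
      rw [this]
      rfl⟩
  choose θ hθ using key
  have hθinj : Function.Injective θ := by
    intro x x' hxx
    have h1 : σ₀ ⟨x.1.v, hT _ x.2⟩ = σ₀ ⟨x'.1.v, hT _ x'.2⟩ := by
      rw [← hθ x, ← hθ x', hxx]
    have h2 := hσinj h1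
    have h3 : x.1.v = x'.1.v := Subtype.mk.inj h2
    exact Subtype.ext (Pts.ext h3)
  obtain ⟨O, hO, hOit⟩ := exists_iterate_eq_id θ hθinj
  -- `Sr` is closed and contains the values of `K`
  have hφS' : ∀ a, ((φ₀ a : OC C) : C) ∈ Sr := hφS
  have hclosed : IsClosed (Sr : Set C) := isClosed_S φ₀ S.c0 S.c1 hφ₀.hc Sr fam hS hφS'
  have hKmem : ∀ z : Tor, ((ev1 φ₀ z.1.o K : OC C) : C) ∈ Sr := by
    intro z
    have h := hasSum_ev1 φ₀ z.1.norm_o_lt K
    have h' : HasSum (fun j : ℕ => ((φ₀ (PowerSeries.coeff j K) * z.1.o ^ j : OC C) : C)) ((ev1 φ₀ z.1.o K : OC C) : C) :=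
      h.map (OC C).subtype continuous_subtype_val
    refine hclosed.mem_of_tendsto h'.tendsto_sum_nat (Eventually.of_forall fun m => ?_)
    refine Subring.sum_mem _ fun j _ => ?_
    have e : ((φ₀ (PowerSeries.coeff j K) * z.1.o ^ j : OC C) : C) = ((φ₀ (PowerSeries.coeff j K) : OC C) : C) * z.1.v ^ j := rfl
    rw [e]
    exact Sr.mul_mem (hφS' _) (Sr.pow_mem (hT _ z.2) j)
  -- `σ₀` maps `Sr` to `Sr`
  have hσ₀mem : ∀ s : Sr, σ₀ s ∈ Sr := by
    let S' : Subring C := (Sr.comap σ₀).map Sr.subtype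
    have h1 : ∀ a, ψ a ∈ S' := by
      intro a
      refine ⟨i a, ?_, rfl⟩
      change σ₀ (i a) ∈ Sr
      rw [hσ₀]
      exact hφS _
    have h2 : T ⊆ S' := by
      rintro t ⟨x, rfl⟩
      refine ⟨⟨x.1.v, hT _ x.2⟩, ?_, rfl⟩
      change σ₀ _ ∈ Sr
      rw [← hθ x, hKt]
      exact hKmem _
    have h3 := hmin S' h1 h2
    intro s
    obtain ⟨s', hs', e⟩ := h3 s.2
    have e' : s' = s := Subtype.ext e
    rw [← e']
    exact hs'
  let σ : Sr →+* Sr := σ₀.codRestrict Sr hσ₀mem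
  have hσ : ∀ a, σ ⟨((φ₀ a : OC C) : C), hφS' a⟩ = ⟨((φ₀ (τ a) : OC C) : C), hφS' _⟩ := by
    intro a
    apply Subtype.ext
    exact hσ₀ a
  have hKc : PowerSeries.constantCoeff K = 0 := hK.constantCoeff_eq
  -- the iterates
  have hit : ∀ (m : ℕ) (x : Tor), (((σ ^ m) ⟨x.1.v, hT _ x.2⟩ : Sr) : C) = (Kit φ₀ τ K m (θ^[m] x).1.o : OC C) := by
    intro m
    induction m with
    | zero =>
      intro x
      rfl
    | succ m ih =>
      intro x
      set z := θ^[m] x with hz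
      have hy' : ‖((ev1 φ₀ (θ z).1.o K : OC C) : C)‖ < 1 := by
        rw [← hKt]
        exact (Kt (θ z).1).norm_lt
      have hyy : ((ev1 φ₀ (θ z).1.o K : OC C) : C) = σ ⟨(z.1.o : C), hT _ z.2⟩ := by
        rw [← hKt, hθ]
        rfl
      obtain ⟨h1, h2⟩ := sigma_Kit hφ₀ τ K hKc Sr fam hS hφS' σ hσ 0 m z.1.o (ev1 φ₀ (θ z).1.o K)
        (hT _ z.2) z.1.norm_o_lt hy' hyy
      have e1 : (σ ^ (m + 1)) ⟨x.1.v, hT _ x.2⟩ = σ ((σ ^ m) ⟨x.1.v, hT _ x.2⟩) := by
        rw [pow_succ']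
        rfl
      have e2 : (σ ^ m) ⟨x.1.v, hT _ x.2⟩ = ⟨((Kit (phiSeq φ₀ τ 0) τ K m z.1.o : OC C) : C), h1⟩ := by
        apply Subtype.ext
        exact ih x
      rw [e1, e2, ← h2, Function.iterate_succ_apply', ← hz, Kit_succ']
  have hOx : ∀ (m : ℕ), O ∣ m → ∀ (x : Pts (lawSeq hφ₀ τ 0).G) (hx : (p ^ R) • x = 0),
      (((σ ^ m) ⟨x.v, hT x hx⟩ : Sr) : C) = (Kit φ₀ τ K m x.o : OC C) := by
    intro m hm x hx
    have h1 := hit m ⟨x, memTor x hx⟩
    rw [hOit m hm] at h1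
    exact h1
  exact ⟨{ Sr := Sr, w := w, fam := fam, hS := hS, hφS := hφS', hT := hT, σ := σ, hσ := hσ, O := O, hO := hO, hiter := hOx }⟩

end sigma

end Vale.Agent.Lib.P217
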