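import Vale.Agent.Lib.P217.HBasic
import Vale.Agent.Lib.P217.Final

set_option linter.unusedSectionVars false
set_option linter.unusedVariables false

/-!
The lowest degree of `[p]` is a power of `p`.
-/

namespace Vale.Agent.Lib.P217

open scoped Topology
open Filter

variable {C : Type*} [NormedField C] [IsUltrametricDist C] [CompleteSpace C]
variable {p n : ℕ} [hp : Fact p.Prime] [CharP C p] [IsAlgClosed C]

section lowAux

variable {L : Law C p n} {j₀ : ℕ}

/-- The lowest coefficient, in the field. -/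
noncomputable def aLow (L : Law C p n) (j₀ : ℕ) : C :=
  ((PowerSeries.coeff j₀ (mulSeries L.G p) : OC C) : C)

omit [IsAlgClosed C] in
theorem norm_low_sub_le (hlow : ∀ j, j < j₀ → PowerSeries.coeff j (mulSeries L.G p) = 0) (x : Pts L.G) :
    ‖(p • x).v - aLow L j₀ * x.v ^ j₀‖ ≤ ‖x.v‖ ^ (j₀ + 1) := by
  have h1 := hasSum_nsmul_p L x
  set a := PowerSeries.coeff j₀ (mulSeries L.G p) with ha
  have h2 : HasSum (fun j : ℕ => if j = j₀ then a * x.o ^ j₀ else 0) (a * x.o ^ j₀) :=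
    hasSum_ite_eq j₀ _
  have hnn : (0 : ℝ) ≤ ‖x.v‖ ^ (j₀ + 1) := by positivity
  have h3 := norm_sum_le_of_hasSum (h1.sub h2) hnn ?_
  · exact h3
  · intro j
    by_cases hj : j = j₀
    · subst hj
      simp only [if_true, ← ha, sub_self]
      simpa using hnn
    · simp only [if_neg hj, sub_zero]
      by_cases hj2 : j < j₀
      · rw [hlow j hj2, zero_mul]
        simpa using hnn
      · have hj3 : j₀ + 1 ≤ j := by omega
        have e : ((PowerSeries.coeff j (mulSeries L.G p) * x.o ^ j : OC C) : C)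
            = ((PowerSeries.coeff j (mulSeries L.G p) : OC C) : C) * x.v ^ j := by
          push_cast; rfl
        rw [e, norm_mul, norm_pow]
        exact (mul_le_of_le_one_left (by positivity) (norm_OC_le _)).trans
          (pow_le_pow_of_le_one (norm_nonneg _) x.norm_lt.le hj3)

omit [IsAlgClosed C] in
theorem norm_nsmul_eq_low (hlow : ∀ j, j < j₀ → PowerSeries.coeff j (mulSeries L.G p) = 0)
    (hj0 : j₀ ≠ 0) (x : Pts L.G) (hx : ‖x.v‖ < ‖aLow L j₀‖) :
    ‖(p • x).v‖ = ‖aLow L j₀‖ * ‖x.v‖ ^ j₀ := by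
  have hs := norm_low_sub_le hlow x
  by_cases hx0 : x.v = 0
  · rw [hx0, norm_zero, zero_pow hj0, mul_zero]
    rw [hx0, norm_zero, zero_pow (Nat.succ_ne_zero _), zero_pow hj0, mul_zero, sub_zero] at hs
    exact le_antisymm hs (norm_nonneg _)
  · have hxpos : 0 < ‖x.v‖ := norm_pos_iff.mpr hx0
    have e1 : ‖aLow L j₀ * x.v ^ j₀‖ = ‖aLow L j₀‖ * ‖x.v‖ ^ j₀ := by
      rw [norm_mul, norm_pow]
    rw [← e1]
    apply norm_eq_of_sub_lt
    refine lt_of_le_of_lt hs ?_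
    rw [e1, pow_succ, mul_comm]
    exact mul_lt_mul_of_pos_right hx (pow_pos hxpos _)

/-- Exact multiplicity `j₀` of the roots. -/
theorem rootMultiplicity_low (hlow : ∀ j, j < j₀ → PowerSeries.coeff j (mulSeries L.G p) = 0)
    (hne : PowerSeries.coeff j₀ (mulSeries L.G p) ≠ 0) (hj0 : j₀ ≠ 0) (ht : ∃ t : C, t ≠ 0 ∧ ‖t‖ < 1)
    {f : Polynomial (OC C)} {g : PowerSeries (OC C)} (hf : f.Monic) (hg : IsUnit g)
    (hfac : mulSeries L.G p - PowerSeries.C (0 : Pts L.G).o = (f : PowerSeries (OC C)) * g)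
    (w : Pts L.G) (hw : (f.map (OC C).subtype).eval w.v = 0) :
    (f.map (OC C).subtype).rootMultiplicity w.v = j₀ := by
  rename' g => u
  rename' hg => hh
  set Q := f.map (OC C).subtype with hQ
  have hQ0 : Q ≠ 0 := (hf.map _).ne_zero
  set m := Q.rootMultiplicity w.v with hm
  set R := Q /ₘ (Polynomial.X - Polynomial.C w.v) ^ m with hR
  have hQR : (Polynomial.X - Polynomial.C w.v) ^ m * R = Q :=
    Polynomial.pow_mul_divByMonic_rootMultiplicity_eq Q w.v
  have hR0 : R.eval w.v ≠ 0 := Polynomial.eval_divByMonic_pow_rootMultiplicity_ne_zero w.v hQ0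
  obtain ⟨t, ht0, ht1⟩ := ht
  have hτ0 : 0 < ‖t‖ := norm_pos_iff.mpr ht0
  have ha0 : aLow L j₀ ≠ 0 := fun h0 => hne (Subtype.ext h0)
  have hA : 0 < ‖aLow L j₀‖ := norm_pos_iff.mpr ha0
  have hK : 0 < ‖R.eval w.v‖ := norm_pos_iff.mpr hR0
  have hpw : p • w = 0 := (nsmul_eq_iff L 0 w hh hfac).mpr hw
  have ht_pow : Tendsto (fun k : ℕ => t ^ k) atTop (𝓝 0) :=
    tendsto_pow_atTop_nhds_zero_of_norm_lt_one ht1
  have hev1 : ∀ᶠ k : ℕ in atTop, ‖R.eval (w.v + t ^ k) - R.eval w.v‖ < ‖R.eval w.v‖ := by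
    have hc : Tendsto (fun k : ℕ => R.eval (w.v + t ^ k)) atTop (𝓝 (R.eval (w.v + 0))) :=
      (R.continuous.tendsto _).comp (tendsto_const_nhds.add ht_pow)
    rw [add_zero] at hc
    have hc2 := tendsto_iff_norm_sub_tendsto_zero.mp hc
    exact hc2.eventually (gt_mem_nhds hK)
  have hev2 : ∀ᶠ k : ℕ in atTop, ‖t‖ ^ k < ‖aLow L j₀‖ := by
    have hc : Tendsto (fun k : ℕ => ‖t‖ ^ k) atTop (𝓝 0) :=
      tendsto_pow_atTop_nhds_zero_of_lt_one hτ0.le ht1
    exact hc.eventually (gt_mem_nhds hA)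
  have hmain : ∀ᶠ k : ℕ in atTop, (‖t‖ ^ k) ^ m * ‖R.eval w.v‖ = ‖aLow L j₀‖ * (‖t‖ ^ k) ^ j₀ := by
    filter_upwards [hev1, hev2, eventually_ge_atTop 1] with k hk1 hk2 hk3
    have hτk : ‖t ^ k‖ = ‖t‖ ^ k := norm_pow _ _
    have hτk1 : ‖t‖ ^ k < 1 := pow_lt_one₀ hτ0.le ht1 (by omega)
    have hτk0 : 0 < ‖t‖ ^ k := pow_pos hτ0 k
    have hx1 : ‖w.v + t ^ k‖ < 1 :=
      lt_of_le_of_lt (IsUltrametricDist.norm_add_le_max _ _)
        (max_lt w.norm_lt (by rw [hτk]; exact hτk1))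
    set x : Pts L.G := Pts.mk (w.v + t ^ k) hx1 with hx
    set y : Pts L.G := x - w with hy
    have hyn : ‖y.v‖ = ‖t‖ ^ k := by
      rw [hy, norm_sub_law, hx, Pts.v_mk]
      simp [hτk]
    have hpx : p • x = p • y := by
      have : x = y + w := by rw [hy]; abel
      rw [this, nsmul_add, hpw, add_zero]
    have hnorm1 : ‖(p • y).v‖ = ‖aLow L j₀‖ * (‖t‖ ^ k) ^ j₀ := by
      have := norm_nsmul_eq_low hlow hj0 y (by rw [hyn]; exact hk2)
      rw [this, hyn]
    have hnorm2 : ‖(p • x).v‖ = ‖Q.eval x.v‖ := by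
      have h1 := nsmul_o_eq L 0 x hfac
      have h2 := norm_ev1_unit x.o x.norm_o_lt hh
      rw [Pts.zero_o, sub_zero] at h1
      have h4 : (p • x).v = ((f.eval x.o : OC C) : C) * ((ev1 (RingHom.id _) x.o u : OC C) : C) :=
        congrArg (fun t : OC C => (t : C)) h1
      rw [h4, norm_mul, h2, mul_one, coe_eval_eq]
      rfl
    have hnorm3 : ‖Q.eval x.v‖ = (‖t‖ ^ k) ^ m * ‖R.eval w.v‖ := by
      rw [← hQR, Polynomial.eval_mul, Polynomial.eval_pow, Polynomial.eval_sub, Polynomial.eval_X,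
        Polynomial.eval_C, norm_mul, norm_pow, norm_eq_of_sub_lt (u := R.eval x.v) (v := R.eval w.v)
          (by simpa [hx] using hk1)]
      simp [hx, hτk]
    rw [← hnorm3, ← hnorm2, hpx, hnorm1]
  obtain ⟨k, hk⟩ := eventually_atTop.mp hmain
  have h1 := hk k le_rfl
  have h2 := hk (k + 1) (by omega)
  have hS : 0 < (‖t‖ ^ k) ^ m * ‖R.eval w.v‖ := by positivity
  have h3 : ‖t‖ ^ m = ‖t‖ ^ j₀ := by
    have h4 : ‖t‖ ^ m * ((‖t‖ ^ k) ^ m * ‖R.eval w.v‖) = ‖t‖ ^ j₀ * ((‖t‖ ^ k) ^ m * ‖R.eval w.v‖) := by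
      calc ‖t‖ ^ m * ((‖t‖ ^ k) ^ m * ‖R.eval w.v‖)
          = (‖t‖ ^ (k + 1)) ^ m * ‖R.eval w.v‖ := by rw [pow_succ, mul_pow]; ring
        _ = ‖aLow L j₀‖ * (‖t‖ ^ (k + 1)) ^ j₀ := h2
        _ = ‖t‖ ^ j₀ * (‖aLow L j₀‖ * (‖t‖ ^ k) ^ j₀) := by rw [pow_succ, mul_pow]; ring
        _ = ‖t‖ ^ j₀ * ((‖t‖ ^ k) ^ m * ‖R.eval w.v‖) := by rw [h1]
    exact mul_right_cancel₀ hS.ne' h4
  exact pow_right_injective₀ hτ0 ht1.ne h3

end lowAux

/-- Let `L` be a law with `c_j = 0` for `j < j₀`, `c_{j₀} ≠ 0`. Then `j₀` is a power of `p`.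

Proof: as in `HtLaw.rootMultiplicity_eq` (same proof with `p ^ h` replaced by `j₀`, the small disc estimate being `‖[p] x - c_{j₀} x ^ j₀‖ ≤ ‖x‖ ^ (j₀ + 1)`) every root of the polynomial `f` of `exists_factor_p` has multiplicity `j₀`; counting the roots as in `HtLaw.card_torsion` gives `j₀ * card L[p] = p ^ n`. So `j₀ ∣ p ^ n`. (If there is no element `t` with `0 < ‖t‖ < 1` then `c_j`, of norm at most `c < 1`, vanish unless `j = p ^ n`, as the norm of a nonzero element is then `1`, so `j₀ = p ^ n`.) -/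
theorem exists_pow_of_lowest (L : Law C p n) {j₀ : ℕ} (hlow : ∀ j, j < j₀ → PowerSeries.coeff j (mulSeries L.G p) = 0)
    (hne : PowerSeries.coeff j₀ (mulSeries L.G p) ≠ 0) : ∃ s, j₀ = p ^ s := by
  classical
  have hj0 : j₀ ≠ 0 := by
    rintro rfl
    apply hne
    simpa using constantCoeff_mulSeries L.G p
  by_cases ht : ∃ t : C, t ≠ 0 ∧ ‖t‖ < 1
  · have hpn : 0 < p ^ n := Nat.pow_pos hp.out.pos
    obtain ⟨f, u, r', hr', hf, hfd, hfl, hh, hfac⟩ := exists_factor_p L ht (0 : Pts L.G)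
    set Q := f.map (OC C).subtype with hQ
    have hQ0 : Q ≠ 0 := (hf.map _).ne_zero
    have hQd : Q.natDegree = p ^ n := by rw [hQ, hf.natDegree_map, hfd]
    have hroot : ∀ w ∈ Q.roots.toFinset, ‖w‖ < 1 := by
      intro w hw
      have h1 : Q.IsRoot w := (Polynomial.mem_roots hQ0).mp (Multiset.mem_toFinset.mp hw)
      exact norm_root_lt hf hr' (by rw [hfd]; exact hfl) h1 (by rw [hfd]; exact hpn)
    have hsum : ∑ w ∈ Q.roots.toFinset, Q.roots.count w = Q.roots.card :=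
      Multiset.toFinset_sum_count_eq _
    have hcount : ∀ w ∈ Q.roots.toFinset, Q.roots.count w = j₀ := by
      intro w hw
      rw [Polynomial.count_roots]
      have := rootMultiplicity_low hlow hne hj0 ht hf hh hfac (Pts.mk w (hroot w hw))
        (by
          have := (Polynomial.mem_roots hQ0).mp (Multiset.mem_toFinset.mp hw)
          simpa using this)
      simpa using this
    rw [Finset.sum_congr rfl hcount, Finset.sum_const, IsAlgClosed.card_roots_eq_natDegree, hQd,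
      smul_eq_mul] at hsum
    have hdvd : j₀ ∣ p ^ n := ⟨_, by rw [← hsum, mul_comm]⟩
    obtain ⟨s, -, hs⟩ := (Nat.dvd_prime_pow hp.out).mp hdvd
    exact ⟨s, hs⟩
  · refine ⟨n, ?_⟩
    by_contra hj
    have h1 := L.coeff_p j₀
    rw [if_neg hj, sub_zero] at h1
    exact ht ⟨_, fun h0 => hne (Subtype.ext h0), lt_of_le_of_lt h1 L.c_lt_one⟩

variable {N : ℕ} {k : Type} [Field k] [Fintype k] [CharP k p]

/-- Algebraic form: in `A = k⟦Fin N⟧`, if the coefficients `c_j` of `[p]_F`, `j < p ^ h`, lie in the prime `𝔭`, but not all the `c_j`, `j < p ^ (h + 1)`, then `c_{p ^ h} ∉ 𝔭`.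

Proof. Let `j₀` be the least `j` with `c_j ∉ 𝔭`: `p ^ h ≤ j₀ < p ^ (h + 1)`. Embed `A / 𝔭` by `exists_valued_embedding` into a complete valued algebraically closed field `C`; as in the proof of `invariant_main`, we obtain a `Setting` and an admissible `φ₀` with kernel `𝔭`. (The maximal ideal of the quotient is nonzero, as it contains `c_{j₀}`, `constantCoeff c_{j₀} = 0`, since `j₀ ≠ p ^ n`, which holds if `h + 1 ≤ n`.) By `exists_pow_of_lowest` for the law `lawOf S φ₀ hφ₀`, whose `[p]` has coefficients `φ₀ (c_j)`, `j₀` is a power of `p` so `j₀ = p ^ h`. -/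
theorem coeff_pow_not_mem {h : ℕ} (hh : h + 1 ≤ n) (hk : Fintype.card k = p ^ n)
    (Γ : FormalGroup k) [Γ.IsComm] (hΓp : mulSeries Γ p = PowerSeries.X ^ (p ^ n))
    (F : FormalGroup (MvPowerSeries (Fin N) k)) [F.IsComm]
    (hF : F.map MvPowerSeries.constantCoeff = Γ)
    (𝔭 : Ideal (MvPowerSeries (Fin N) k)) [𝔭.IsPrime]
    (hlow : ∀ j, j < p ^ h → PowerSeries.coeff j (mulSeries F p) ∈ 𝔭)
    (hne : ∃ j, j < p ^ (h + 1) ∧ PowerSeries.coeff j (mulSeries F p) ∉ 𝔭) :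
    PowerSeries.coeff (p ^ h) (mulSeries F p) ∉ 𝔭 := by
  classical
  have hex : ∃ j, PowerSeries.coeff j (mulSeries F p) ∉ 𝔭 := by
    obtain ⟨j, -, hj⟩ := hne
    exact ⟨j, hj⟩
  set j₀ := Nat.find hex with hj₀
  have hj₀m : PowerSeries.coeff j₀ (mulSeries F p) ∉ 𝔭 := Nat.find_spec hex
  have hj₀l : ∀ j, j < j₀ → PowerSeries.coeff j (mulSeries F p) ∈ 𝔭 := by
    intro j hj
    by_contra h
    exact Nat.find_min hex hj h
  have hj₀h : j₀ < p ^ (h + 1) := by
    obtain ⟨j, hj, hj'⟩ := hne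
    exact lt_of_le_of_lt (Nat.find_min' hex hj') hj
  have hj₀h' : p ^ h ≤ j₀ := by
    by_contra hc
    push Not at hc
    exact hj₀m (hlow _ hc)
  have hp1 : 1 < p := (Fact.out : p.Prime).one_lt
  have hn : 1 ≤ n := by omega
  have hpne : (𝔭 : Ideal (MvPowerSeries (Fin N) k)) ≠ ⊤ := Ideal.IsPrime.ne_top ‹_›
  have hc0 : MvPowerSeries.constantCoeff (PowerSeries.coeff j₀ (mulSeries F p)) = 0 := by
    have h1 : PowerSeries.map (MvPowerSeries.constantCoeff) (mulSeries F p) = mulSeries Γ p := by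
      rw [← hF, mulSeries_map]
    have h2 : PowerSeries.coeff j₀ (PowerSeries.map (MvPowerSeries.constantCoeff) (mulSeries F p)) =
        MvPowerSeries.constantCoeff (PowerSeries.coeff j₀ (mulSeries F p)) := by
      simp
    rw [← h2, h1, hΓp, PowerSeries.coeff_X_pow, if_neg]
    intro he
    have h3 : p ^ (h + 1) ≤ p ^ n := Nat.pow_le_pow_right hp1.le hh
    omega
  have : Nontrivial (MvPowerSeries (Fin N) k ⧸ 𝔭) := Ideal.Quotient.nontrivial_iff.mpr hpne
  have : IsLocalRing (MvPowerSeries (Fin N) k ⧸ 𝔭) :=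
    IsLocalRing.of_surjective' (Ideal.Quotient.mk 𝔭) Ideal.Quotient.mk_surjective
  have hRm : IsLocalRing.maximalIdeal (MvPowerSeries (Fin N) k ⧸ 𝔭) ≠ ⊥ := by
    intro hbot
    have h1 := (mem_maximalIdeal_quot 𝔭 _).mpr hc0
    rw [hbot, Ideal.mem_bot, Ideal.Quotient.eq_zero_iff_mem] at h1
    exact hj₀m h1
  obtain ⟨C, _, _, _, _, ι, hιinj, hι1, c, hc1, hc⟩ := exists_valued_embedding hRm
  let φ₀ : MvPowerSeries (Fin N) k →+* OC C :=
    RingHom.codRestrict (ι.comp (Ideal.Quotient.mk 𝔭)) (OC C) (fun a => hι1 _)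
  have hφ₀v : ∀ a, ((φ₀ a : OC C) : C) = ι (Ideal.Quotient.mk 𝔭 a) := fun a => rfl
  have hφ₀z : ∀ a, φ₀ a = 0 ↔ a ∈ 𝔭 := by
    intro a
    rw [← Ideal.Quotient.eq_zero_iff_mem, ← map_eq_zero_iff ι hιinj, ← hφ₀v]
    exact ⟨fun h => by rw [h]; rfl, fun h => Subtype.ext h⟩
  let κ : k →+* OC C := φ₀.comp MvPowerSeries.C
  have : CharP C p := charP_of_injective_ringHom ((OC C).subtype.comp κ).injective p
  let S : Setting C p n N k :=
    { hn := hn
      Γ := Γ
      commΓ := inferInstance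
      hΓp := hΓp
      F := F
      commF := inferInstance
      hF := hF
      κ := κ
      c := max c 0
      c0 := le_max_right _ _
      c1 := max_lt hc1 zero_lt_one }
  have hφ₀A : Adm S φ₀ :=
    { hκ := fun r => rfl
      hc := fun a ha => by
        have h1 := hc _ ((mem_maximalIdeal_quot 𝔭 a).mpr ha)
        exact h1.trans (le_max_left _ _) }
  have hcoef : ∀ j, PowerSeries.coeff j (mulSeries (lawOf S φ₀ hφ₀A).G p)
      = φ₀ (PowerSeries.coeff j (mulSeries F p)) := by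
    intro j
    show PowerSeries.coeff j (mulSeries (F.map φ₀) p) = _
    rw [mulSeries_map, PowerSeries.coeff_map]
  obtain ⟨s, hs⟩ := exists_pow_of_lowest (lawOf S φ₀ hφ₀A) (j₀ := j₀)
    (fun j hj => by rw [hcoef]; exact (hφ₀z _).mpr (hj₀l j hj))
    (by rw [hcoef]; exact fun h0 => hj₀m ((hφ₀z _).mp h0))
  have hsh : s = h := by
    have h1 : p ^ h ≤ p ^ s := hs ▸ hj₀h'
    have h2 : p ^ s < p ^ (h + 1) := hs ▸ hj₀h
    have h3 : h ≤ s := (Nat.pow_le_pow_iff_right hp1).mp h1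
    have h4 : s < h + 1 := (Nat.pow_lt_pow_iff_right hp1).mp h2
    omega
  rw [hsh] at hs
  rw [← hs]
  exact hj₀m

end Vale.Agent.Lib.P217
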