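import Vale.Agent.Lib.P217.HRed
import Vale.Agent.Lib.P217.HLowest

set_option linter.unusedSectionVars false
set_option linter.unusedVariables false

/-!
The classification of the invariant primes and radical ideals of `k⟦u_1, …, u_{n-1}⟧`.
-/

namespace Vale.Agent.Lib.P217

open scoped Topology
open Filter

variable {p n : ℕ} [Fact p.Prime] {k : Type} [Field k] [Fintype k] [CharP k p]

theorem heightIdeal_mono {A : Type*} [CommRing A] (F : FormalGroup A) {p : ℕ} (hp : 0 < p) {h h' : ℕ} (hh : h ≤ h') :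
    heightIdeal F p h ≤ heightIdeal F p h' := by
  rw [heightIdeal, Ideal.span_le]
  rintro _ ⟨j, hj, rfl⟩
  exact Ideal.subset_span ⟨j, lt_of_lt_of_le hj (Nat.pow_le_pow_right hp hh), rfl⟩

theorem map_symm_map {k A : Type*} [Field k] [CommRing A] [Algebra k A] (τ : A ≃ₐ[k] A) (I : Ideal A) :
    (I.map (τ.symm : A →+* A)).map (τ : A →+* A) = I := by
  rw [Ideal.map_map]
  have h : (τ : A →+* A).comp (τ.symm : A →+* A) = RingHom.id A := RingHom.ext fun a => by simp
  rw [h, Ideal.map_id]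

theorem map_map_symm {k A : Type*} [Field k] [CommRing A] [Algebra k A] (τ : A ≃ₐ[k] A) (I : Ideal A) :
    (I.map (τ : A →+* A)).map (τ.symm : A →+* A) = I := by
  rw [Ideal.map_map]
  have h : (τ.symm : A →+* A).comp (τ : A →+* A) = RingHom.id A := RingHom.ext fun a => by simp
  rw [h, Ideal.map_id]

theorem isPrime_map_alg {k A : Type*} [Field k] [CommRing A] [Algebra k A] (τ : A ≃ₐ[k] A) (Q : Ideal A) [Q.IsPrime] :
    (Q.map (τ : A →+* A)).IsPrime := by
  refine Ideal.map_isPrime_of_surjective (f := (τ : A →+* A)) τ.surjective ?_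
  intro a ha
  have h0 : τ a = 0 := ha
  rw [(map_eq_zero_iff τ τ.injective).mp h0]
  exact Q.zero_mem

/-- An automorphism preserving `J` permutes the minimal primes of `J`. -/
theorem map_mem_minimalPrimes {k A : Type*} [Field k] [CommRing A] [Algebra k A] (τ : A ≃ₐ[k] A) (J Q : Ideal A)
    (hJ : J.map (τ : A →+* A) = J) (hQ : Q ∈ J.minimalPrimes) : Q.map (τ : A →+* A) ∈ J.minimalPrimes := by
  have hQp : Q.IsPrime := hQ.1.1
  have hJQ : J ≤ Q := hQ.1.2
  have hJs : J.map (τ.symm : A →+* A) = J := by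
    conv_lhs => rw [← hJ]
    exact map_map_symm τ J
  refine ⟨⟨isPrime_map_alg τ Q, ?_⟩, ?_⟩
  · calc J = J.map (τ : A →+* A) := hJ.symm
      _ ≤ Q.map (τ : A →+* A) := Ideal.map_mono hJQ
  · rintro y ⟨hyp, hJy⟩ hyQ
    have h1 : (y.map (τ.symm : A →+* A)).IsPrime := isPrime_map_alg τ.symm y
    have h2 : J ≤ y.map (τ.symm : A →+* A) := by
      calc J = J.map (τ.symm : A →+* A) := hJs.symm
        _ ≤ y.map (τ.symm : A →+* A) := Ideal.map_mono hJy
    have h3 : y.map (τ.symm : A →+* A) ≤ Q := by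
      calc y.map (τ.symm : A →+* A) ≤ (Q.map (τ : A →+* A)).map (τ.symm : A →+* A) := Ideal.map_mono hyQ
        _ = Q := map_map_symm τ Q
    have h4 := hQ.2 ⟨h1, h2⟩ h3
    calc Q.map (τ : A →+* A) ≤ (y.map (τ.symm : A →+* A)).map (τ : A →+* A) := Ideal.map_mono h4
      _ = y := map_symm_map τ y

/-- Classification of the primes, which are invariant under a power of each automorphism.

Proof. Let `h` be the largest integer with `1 ≤ h ≤ n`, `heightIdeal F p h ≤ 𝔭` (`h = 1` qualifies: `heightIdeal F p 1 = span ∅` by `hht`).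
Case `h = n`: by `hht`, `heightIdeal F p n` is generated by all the variables, so it is the maximal ideal (`maximalIdeal_eq_span_X`), so `𝔭` is equal to it.
Case `h < n`: `heightIdeal F p (h + 1)` is not contained in `𝔭`, so there is `j < p ^ (h + 1)` with `c_j ∉ 𝔭`, and `coeff_pow_not_mem` gives `c_{p ^ h} ∉ 𝔭`.
Let `π, ι` from `exists_flag_retraction` (`m = n - 1`, `N = n - h`), `F' = F.map π`, a commutative formal group over `k⟦Fin (n - h)⟧` (`isComm_map`), `F'.map constantCoeff = Γ`, with `[p]_{F'} = map π [p]_F` (`mulSeries_map`). So its coefficients `c'_j = π (c_j)`. For `j < p ^ h`, `c'_j = 0`, as `c_j ∈ heightIdeal F p h = span (X '' {l | l + 1 < h})` (`hht`). The maximal ideal of `k⟦Fin (n - h)⟧` is generated by the `c'_j`, `j < p ^ n`: the variables `X j = π (X l)`, and `X l ∈ heightIdeal F p n` by `hht`; conversely `constantCoeff c_j = 0`, `j < p ^ n`, since `map constantCoeff [p]_F = X ^ (p ^ n)`.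
Let `𝔭' = 𝔭.map π`, prime since `π` is surjective (`hπι`) with kernel `≤ 𝔭`; `π a ∈ 𝔭' ↔ a ∈ 𝔭`.
Invariance: given `g`, take `O, τ, K` from `hinv`; `K` has unit linear coefficient (`isUnit_coeff_one_of_map`, `coeff_one_iterS`), so by `tau_coeff_mem_heightIdeal` and `map_eq_of_map_le`, `τ` preserves `I = heightIdeal F p h = ker π`. By `exists_descent_tau` we get `τ'` on `k⟦Fin (n - h)⟧`, with `τ' (π a) = π (τ a)`. Let `K' = map π K`. `hK.map' π` gives `IsHom (F.map π) ((F.map τ).map π) K'`, and `(F.map τ).map π = F'.map τ'`. `map constantCoeff K' = map constantCoeff K = iterS g O`, and `𝔭'.map τ' = 𝔭'` from `𝔭.map τ = 𝔭`.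
Now `invariant_mainH` gives `c'_{p ^ h} ∈ 𝔭'` (excluded) or `𝔭' = ⊥`; in the latter case `𝔭 ≤ ker π = heightIdeal F p h`, hence equality. -/
theorem classify_primeO (hn : 1 ≤ n) (hk : Fintype.card k = p ^ n)
    (Γ : FormalGroup k) [Γ.IsComm] (hΓp : mulSeries Γ p = PowerSeries.X ^ (p ^ n))
    (hΓF : ∀ d, (MvPowerSeries.coeff d Γ.toPowerSeries) ^ p = MvPowerSeries.coeff d Γ.toPowerSeries)
    (hΓω : ∀ c : k, c ≠ 0 → IsHom Γ Γ (PowerSeries.C c * PowerSeries.X))
    (F : FormalGroup (MvPowerSeries (Fin (n - 1)) k)) [F.IsComm]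
    (hF : F.map MvPowerSeries.constantCoeff = Γ)
    (hht : ∀ h, 1 ≤ h → h ≤ n → heightIdeal F p h =
      Ideal.span ((MvPowerSeries.X : Fin (n - 1) → MvPowerSeries (Fin (n - 1)) k) '' {l | l.val + 1 < h}))
    (𝔭 : Ideal (MvPowerSeries (Fin (n - 1)) k)) [𝔭.IsPrime]
    (hinv : ∀ g : PowerSeries k, IsHom Γ Γ g → IsUnit (PowerSeries.coeff 1 g) →
      ∃ (O : ℕ) (τ : MvPowerSeries (Fin (n - 1)) k ≃ₐ[k] MvPowerSeries (Fin (n - 1)) k)
        (K : PowerSeries (MvPowerSeries (Fin (n - 1)) k)), 0 < O ∧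
        IsHom F (F.map (τ : MvPowerSeries (Fin (n - 1)) k →+* MvPowerSeries (Fin (n - 1)) k)) K ∧
        PowerSeries.map MvPowerSeries.constantCoeff K = iterS g O ∧
        𝔭.map (τ : MvPowerSeries (Fin (n - 1)) k →+* MvPowerSeries (Fin (n - 1)) k) = 𝔭) :
    ∃ h, 1 ≤ h ∧ h ≤ n ∧ 𝔭 = heightIdeal F p h := by
  classical
  have hp1 : 1 < p := (Fact.out : p.Prime).one_lt
  have hp0 : 0 < p := by omega
  -- the constant coefficients
  have hc0 : ∀ j, j < p ^ n → MvPowerSeries.constantCoeff (PowerSeries.coeff j (mulSeries F p)) = 0 := by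
    intro j hj
    have h1 : PowerSeries.map MvPowerSeries.constantCoeff (mulSeries F p) = mulSeries Γ p := by
      rw [← hF, mulSeries_map]
    have h2 : PowerSeries.coeff j (PowerSeries.map MvPowerSeries.constantCoeff (mulSeries F p)) =
        MvPowerSeries.constantCoeff (PowerSeries.coeff j (mulSeries F p)) := by
      simp
    rw [← h2, h1, hΓp, PowerSeries.coeff_X_pow, if_neg hj.ne]
  -- the largest `h`
  have h1 : heightIdeal F p 1 ≤ 𝔭 := by
    rw [hht 1 le_rfl hn]
    have he : ((MvPowerSeries.X : Fin (n - 1) → MvPowerSeries (Fin (n - 1)) k) '' {l | l.val + 1 < 1}) = ∅ := by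
      ext x
      simp
    rw [he, Ideal.span_empty]
    exact bot_le
  obtain ⟨h, hhdef⟩ : ∃ h, h = Nat.findGreatest (fun h => heightIdeal F p h ≤ 𝔭) n := ⟨_, rfl⟩
  have hh𝔭 : heightIdeal F p h ≤ 𝔭 := by
    rw [hhdef]
    exact Nat.findGreatest_spec (P := fun h => heightIdeal F p h ≤ 𝔭) hn h1
  have hh1 : 1 ≤ h := by
    rw [hhdef]
    exact Nat.le_findGreatest hn h1
  have hhn : h ≤ n := by
    rw [hhdef]
    exact Nat.findGreatest_le n
  have hmax : ∀ h', h < h' → h' ≤ n → ¬ heightIdeal F p h' ≤ 𝔭 := by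
    intro h' h2 h3
    rw [hhdef] at h2
    exact Nat.findGreatest_is_greatest h2 h3
  by_cases heq : h = n
  · -- the maximal ideal
    refine ⟨h, hh1, hhn, le_antisymm ?_ hh𝔭⟩
    have hm : heightIdeal F p h = IsLocalRing.maximalIdeal (MvPowerSeries (Fin (n - 1)) k) := by
      rw [hht h hh1 hhn, maximalIdeal_eq_span_X]
      congr 1
      ext x
      constructor
      · rintro ⟨l, -, rfl⟩
        exact ⟨l, rfl⟩
      · rintro ⟨l, rfl⟩
        refine ⟨l, ?_, rfl⟩
        have := l.isLt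
        show l.val + 1 < _
        omega
    rw [hm]
    exact IsLocalRing.le_maximalIdeal (Ideal.IsPrime.ne_top ‹_›)
  have hlt : h < n := lt_of_le_of_ne hhn heq
  have hh2 : ¬ heightIdeal F p (h + 1) ≤ 𝔭 := hmax (h + 1) (Nat.lt_succ_self h) (by omega)
  have hne : ∃ j, j < p ^ (h + 1) ∧ PowerSeries.coeff j (mulSeries F p) ∉ 𝔭 := by
    by_contra hcon
    push Not at hcon
    apply hh2
    rw [heightIdeal, Ideal.span_le]
    rintro _ ⟨j, hj, rfl⟩
    exact hcon j hj
  have hlow : ∀ j, j < p ^ h → PowerSeries.coeff j (mulSeries F p) ∈ 𝔭 := fun j hj =>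
    hh𝔭 (Ideal.subset_span ⟨j, hj, rfl⟩)
  have hnot := coeff_pow_not_mem (h := h) (by omega) hk Γ hΓp F hF 𝔭 hlow hne
  -- the retraction
  obtain ⟨π, ι, hπι, hπker, hπc, hπX⟩ := exists_flag_retraction (k := k) (m := n - 1) (N := n - h) (h := h) (by omega) hh1
  obtain ⟨πr, hπr⟩ : ∃ πr : MvPowerSeries (Fin (n - 1)) k →+* MvPowerSeries (Fin (n - h)) k, πr = (π : MvPowerSeries (Fin (n - 1)) k →+* MvPowerSeries (Fin (n - h)) k) := ⟨_, rfl⟩
  have hπa : ∀ a, πr a = π a := fun a => by rw [hπr]; rfl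
  have hπsurj : Function.Surjective πr := fun b => ⟨ι b, by rw [hπa]; exact hπι b⟩
  have hker : ∀ a, π a = 0 ↔ a ∈ heightIdeal F p h := by
    intro a
    rw [hπker, hht h hh1 hhn]
  have hcoef : ∀ j, PowerSeries.coeff j (mulSeries (F.map πr) p) = π (PowerSeries.coeff j (mulSeries F p)) := by
    intro j
    rw [mulSeries_map, PowerSeries.coeff_map, hπa]
  have : (F.map πr).IsComm := isComm_map F πr
  have hF' : (F.map πr).map MvPowerSeries.constantCoeff = Γ := by
    have hcomp : (MvPowerSeries.constantCoeff).comp πr = MvPowerSeries.constantCoeff :=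
      RingHom.ext fun a => by
        rw [RingHom.comp_apply, hπa, hπc]
    have h2 : (F.map πr).map MvPowerSeries.constantCoeff = F.map ((MvPowerSeries.constantCoeff).comp πr) := by
      ext d
      simp
    rw [h2, hcomp, hF]
  have hI' : IsLocalRing.maximalIdeal (MvPowerSeries (Fin (n - h)) k) =
      Ideal.span {a | ∃ j, j < p ^ n ∧ a = PowerSeries.coeff j (mulSeries (F.map πr) p)} := by
    apply le_antisymm
    · rw [maximalIdeal_eq_span_X, Ideal.span_le]
      rintro _ ⟨j, rfl⟩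
      obtain ⟨l, hl⟩ := hπX j
      rw [SetLike.mem_coe, ← hl, ← hπa]
      have hXl : (MvPowerSeries.X l : MvPowerSeries (Fin (n - 1)) k) ∈ heightIdeal F p n := by
        rw [hht n hn le_rfl]
        refine Ideal.subset_span ⟨l, ?_, rfl⟩
        have := l.isLt
        show l.val + 1 < _
        omega
      have h5 : Ideal.map πr (heightIdeal F p n) ≤
          Ideal.span {a | ∃ j, j < p ^ n ∧ a = PowerSeries.coeff j (mulSeries (F.map πr) p)} := by
        rw [heightIdeal, Ideal.map_span, Ideal.span_le]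
        rintro _ ⟨a, ⟨i, hi, rfl⟩, rfl⟩
        refine Ideal.subset_span ⟨i, hi, ?_⟩
        rw [hcoef, hπa]
      exact h5 (Ideal.mem_map_of_mem πr hXl)
    · rw [Ideal.span_le]
      rintro _ ⟨j, hj, rfl⟩
      rw [SetLike.mem_coe, mem_maximalIdeal_iff, hcoef, hπc]
      exact hc0 j hj
  have hlow' : ∀ j, j < p ^ h → PowerSeries.coeff j (mulSeries (F.map πr) p) = 0 := by
    intro j hj
    rw [hcoef]
    exact (hker _).mpr (Ideal.subset_span ⟨j, hj, rfl⟩)
  have hker𝔭 : RingHom.ker πr ≤ 𝔭 := by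
    intro a ha
    have h0 : πr a = 0 := ha
    rw [hπa] at h0
    exact hh𝔭 ((hker a).mp h0)
  have h𝔭' : (𝔭.map πr).IsPrime := Ideal.map_isPrime_of_surjective hπsurj hker𝔭
  have hmem : ∀ a, π a ∈ 𝔭.map πr ↔ a ∈ 𝔭 := by
    intro a
    constructor
    · intro ha
      obtain ⟨x, hx, hxa⟩ := (Ideal.mem_map_iff_of_surjective πr hπsurj).mp ha
      have h6 : π (a - x) = 0 := by
        rw [map_sub, ← hxa, hπa, sub_self]
      have h7 := hh𝔭 ((hker _).mp h6)
      have h8 : a = (a - x) + x := by ring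
      rw [h8]
      exact 𝔭.add_mem h7 hx
    · intro ha
      rw [← hπa]
      exact Ideal.mem_map_of_mem πr ha
  have hinv' : ∀ g : PowerSeries k, IsHom Γ Γ g → IsUnit (PowerSeries.coeff 1 g) →
      ∃ (O : ℕ) (τ : MvPowerSeries (Fin (n - h)) k ≃ₐ[k] MvPowerSeries (Fin (n - h)) k)
        (K : PowerSeries (MvPowerSeries (Fin (n - h)) k)), 0 < O ∧
        IsHom (F.map πr) ((F.map πr).map (τ : MvPowerSeries (Fin (n - h)) k →+* MvPowerSeries (Fin (n - h)) k)) K ∧
        PowerSeries.map MvPowerSeries.constantCoeff K = iterS g O ∧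
        (𝔭.map πr).map (τ : MvPowerSeries (Fin (n - h)) k →+* MvPowerSeries (Fin (n - h)) k) = 𝔭.map πr := by
    intro g hg hgu
    obtain ⟨O, τ, K, hO, hK, hKg, hτ⟩ := hinv g hg hgu
    have hKu : IsUnit (PowerSeries.coeff 1 K) := isUnit_coeff_one_of_map hKg (coeff_one_iterS hg hgu O)
    have hIτ : (heightIdeal F p h).map (τ : MvPowerSeries (Fin (n - 1)) k →+* MvPowerSeries (Fin (n - 1)) k) ≤ heightIdeal F p h := by
      conv_lhs => rw [heightIdeal]
      rw [Ideal.map_span, Ideal.span_le]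
      rintro _ ⟨a, ⟨j, hj, rfl⟩, rfl⟩
      exact tau_coeff_mem_heightIdeal (τ : MvPowerSeries (Fin (n - 1)) k →+* MvPowerSeries (Fin (n - 1)) k) hK hKu p h j hj
    have hIτ' := map_eq_of_map_le τ _ hIτ
    obtain ⟨τ', hτ'⟩ := exists_descent_tau π ι hπι (heightIdeal F p h) hker τ hIτ'
    refine ⟨O, τ', PowerSeries.map πr K, hO, ?_, ?_, ?_⟩
    · have h3 := hK.map' πr
      have h4 : (F.map (τ : MvPowerSeries (Fin (n - 1)) k →+* MvPowerSeries (Fin (n - 1)) k)).map πr =
          (F.map πr).map (τ' : MvPowerSeries (Fin (n - h)) k →+* MvPowerSeries (Fin (n - h)) k) := by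
        ext d
        simp only [FormalGroup.map_toPowerSeries, MvPowerSeries.coeff_map]
        rw [hπa, hπa]
        exact congrArg _ (hτ' _).symm
      rwa [h4] at h3
    · rw [← hKg]
      ext j
      simp only [PowerSeries.coeff_map]
      rw [hπa, hπc]
    · rw [Ideal.map_map]
      have h9 : (τ' : MvPowerSeries (Fin (n - h)) k →+* MvPowerSeries (Fin (n - h)) k).comp πr =
          πr.comp (τ : MvPowerSeries (Fin (n - 1)) k →+* MvPowerSeries (Fin (n - 1)) k) :=
        RingHom.ext fun a => by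
          simp only [RingHom.comp_apply]
          rw [hπa, hπa]
          exact hτ' a
      rw [h9, ← Ideal.map_map, hτ]
  rcases invariant_mainH (h := h) (N := n - h) (by omega) hh1 hk Γ hΓp hΓF hΓω (F.map πr) hF' hI' hlow' (𝔭.map πr) hinv' with h5 | h5
  · exfalso
    rw [hcoef, hmem] at h5
    exact hnot h5
  · refine ⟨h, hh1, hhn, le_antisymm ?_ hh𝔭⟩
    intro a ha
    have h6 : π a ∈ 𝔭.map πr := (hmem a).mpr ha
    rw [h5, Ideal.mem_bot] at h6
    exact (hker a).mp h6

/-- Classification of the invariant radical ideals.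

Proof. `J ≠ ⊤` is radical, so it is the intersection of its minimal primes (`Ideal.sInf_minimalPrimes`, or similar) which are finitely many (`Ideal.finite_minimalPrimes_of_isNoetherianRing`), and nonempty. Let `O = (card (J.minimalPrimes))!`. For `g`, take `τ, K` from `hinv`; `P ↦ P.map τ` permutes the minimal primes of `J`, so the `O`-th power of `τ` preserves each `P` in `J.minimalPrimes`. By `exists_iter_lift`, get the composite `K'`: `F → F^(τ ^ O)`, lifting `iterS g O`.
So `classify_primeO` shows each `P` is a height ideal. Height ideals are increasing in `h`. So if `P₀` is the height ideal with the smallest `h` among the minimal primes, `P₀ ≤ P` for all `P`, so `P₀ ≤ J ≤ P₀`. -/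
theorem classify_radical (hn : 1 ≤ n) (hk : Fintype.card k = p ^ n)
    (Γ : FormalGroup k) [Γ.IsComm] (hΓp : mulSeries Γ p = PowerSeries.X ^ (p ^ n))
    (hΓF : ∀ d, (MvPowerSeries.coeff d Γ.toPowerSeries) ^ p = MvPowerSeries.coeff d Γ.toPowerSeries)
    (hΓω : ∀ c : k, c ≠ 0 → IsHom Γ Γ (PowerSeries.C c * PowerSeries.X))
    (F : FormalGroup (MvPowerSeries (Fin (n - 1)) k)) [F.IsComm]
    (hF : F.map MvPowerSeries.constantCoeff = Γ)
    (hht : ∀ h, 1 ≤ h → h ≤ n → heightIdeal F p h =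
      Ideal.span ((MvPowerSeries.X : Fin (n - 1) → MvPowerSeries (Fin (n - 1)) k) '' {l | l.val + 1 < h}))
    (J : Ideal (MvPowerSeries (Fin (n - 1)) k)) (hJ : J.IsRadical) (hJ1 : J ≠ ⊤)
    (hinv : ∀ g : PowerSeries k, IsHom Γ Γ g → IsUnit (PowerSeries.coeff 1 g) →
      ∃ (τ : MvPowerSeries (Fin (n - 1)) k ≃ₐ[k] MvPowerSeries (Fin (n - 1)) k)
        (K : PowerSeries (MvPowerSeries (Fin (n - 1)) k)),
        IsHom F (F.map (τ : MvPowerSeries (Fin (n - 1)) k →+* MvPowerSeries (Fin (n - 1)) k)) K ∧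
        PowerSeries.map MvPowerSeries.constantCoeff K = g ∧
        J.map (τ : MvPowerSeries (Fin (n - 1)) k →+* MvPowerSeries (Fin (n - 1)) k) = J) :
    ∃ h, 1 ≤ h ∧ h ≤ n ∧ J = heightIdeal F p h := by
  classical
  have hp0 : 0 < p := (Fact.out : p.Prime).pos
  have hfin : J.minimalPrimes.Finite := Ideal.finite_minimalPrimes_of_isNoetherianRing _ J
  have hall : ∀ P ∈ J.minimalPrimes, ∃ h, 1 ≤ h ∧ h ≤ n ∧ P = heightIdeal F p h := by
    intro P hP
    have hPp : P.IsPrime := hP.1.1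
    refine classify_primeO hn hk Γ hΓp hΓF hΓω F hF hht P ?_
    intro g hg hgu
    obtain ⟨τ, K, hK, hKg, hτ⟩ := hinv g hg hgu
    -- the action on the minimal primes
    let θ : J.minimalPrimes → J.minimalPrimes := fun Q =>
      ⟨Q.1.map (τ : MvPowerSeries (Fin (n - 1)) k →+* MvPowerSeries (Fin (n - 1)) k), map_mem_minimalPrimes τ J Q.1 hτ Q.2⟩
    have hθinj : Function.Injective θ := by
      intro Q Q' hQQ
      have h1 : Q.1.map (τ : MvPowerSeries (Fin (n - 1)) k →+* MvPowerSeries (Fin (n - 1)) k) =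
          Q'.1.map (τ : MvPowerSeries (Fin (n - 1)) k →+* MvPowerSeries (Fin (n - 1)) k) := congrArg Subtype.val hQQ
      apply Subtype.ext
      rw [← map_map_symm τ Q.1, h1, map_map_symm]
    have : Finite J.minimalPrimes := hfin
    obtain ⟨O, hO, hit⟩ := exists_iterate_eq_id θ hθinj
    have hiter : ∀ (m : ℕ) (Q : J.minimalPrimes),
        Q.1.map (((τ ^ m : MvPowerSeries (Fin (n - 1)) k ≃ₐ[k] MvPowerSeries (Fin (n - 1)) k)) : MvPowerSeries (Fin (n - 1)) k →+* MvPowerSeries (Fin (n - 1)) k) = ((θ^[m]) Q).1 := by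
      intro m Q
      induction m with
      | zero =>
        have h0 : ((τ ^ 0 : MvPowerSeries (Fin (n - 1)) k ≃ₐ[k] MvPowerSeries (Fin (n - 1)) k) : MvPowerSeries (Fin (n - 1)) k →+* MvPowerSeries (Fin (n - 1)) k) = RingHom.id _ := RingHom.ext fun a => rfl
        rw [h0, Ideal.map_id]
        rfl
      | succ m ih =>
        rw [Function.iterate_succ_apply']
        show _ = ((θ^[m]) Q).1.map (τ : MvPowerSeries (Fin (n - 1)) k →+* MvPowerSeries (Fin (n - 1)) k)
        rw [← ih, Ideal.map_map]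
        congr 1
        refine RingHom.ext fun a => ?_
        simp only [RingHom.comp_apply]
        rw [pow_succ']
        rfl
    obtain ⟨K', hK', hK'g⟩ := exists_iter_lift τ hK hKg O
    refine ⟨O, τ ^ O, K', hO, hK', hK'g, ?_⟩
    have h2 := hiter O ⟨P, hP⟩
    rw [hit O dvd_rfl] at h2
    exact h2
  -- the smallest height
  have hnon : J.minimalPrimes.Nonempty := by
    obtain ⟨P⟩ := Ideal.nonempty_minimalPrimes hJ1
    exact ⟨P.1, P.2⟩
  have hex : ∃ h, 1 ≤ h ∧ h ≤ n ∧ heightIdeal F p h ∈ J.minimalPrimes := by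
    obtain ⟨P, hP⟩ := hnon
    obtain ⟨h, h1, h2, rfl⟩ := hall P hP
    exact ⟨h, h1, h2, hP⟩
  obtain ⟨h₀, h01, h02, h03, hmin⟩ : ∃ h₀, 1 ≤ h₀ ∧ h₀ ≤ n ∧ heightIdeal F p h₀ ∈ J.minimalPrimes ∧
      ∀ h, 1 ≤ h → h ≤ n → heightIdeal F p h ∈ J.minimalPrimes → h₀ ≤ h := by
    refine ⟨Nat.find hex, (Nat.find_spec hex).1, (Nat.find_spec hex).2.1, (Nat.find_spec hex).2.2, ?_⟩
    intro h h1 h2 h3
    exact Nat.find_min' hex ⟨h1, h2, h3⟩
  refine ⟨h₀, h01, h02, le_antisymm h03.1.2 ?_⟩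
  have h5 : J.radical = J := hJ.radical
  rw [← h5, ← Ideal.sInf_minimalPrimes]
  refine le_sInf fun P hP => ?_
  obtain ⟨h, h1, h2, rfl⟩ := hall P hP
  exact heightIdeal_mono F hp0 (hmin h h1 h2 hP)

end Vale.Agent.Lib.P217
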