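import Mathlib

set_option linter.unusedSectionVars false
set_option linter.unusedVariables false

namespace Vale.Agent.Lib.P217

variable {k : Type*} [Field k] [Finite k] {N : ℕ}

open MvPowerSeries in
/-- The cofactor of `X i` in the decomposition of a series without constant term. -/
noncomputable def cofactorX (a : MvPowerSeries (Fin N) k) (i : Fin N) : MvPowerSeries (Fin N) k := fun e =>
  if ∀ j, j < i → e j = 0 then coeff (e + Finsupp.single i 1) a else 0

open MvPowerSeries in
theorem coeff_X_mul_cofactorX (a : MvPowerSeries (Fin N) k) (i : Fin N) (d : Fin N →₀ ℕ) :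
    coeff d (X i * cofactorX a i) =
      if 1 ≤ d i ∧ ∀ j, j < i → d j = 0 then coeff d a else 0 := by
  classical
  rw [X_def, coeff_monomial_mul, one_mul]
  by_cases h1 : 1 ≤ d i
  · have hle : Finsupp.single i 1 ≤ d := by
      rw [Finsupp.single_le_iff]; exact h1
    rw [if_pos hle]
    have hc : coeff (d - Finsupp.single i 1) (cofactorX a i) =
        if ∀ j, j < i → (d - Finsupp.single i 1 : Fin N →₀ ℕ) j = 0 then coeff (d - Finsupp.single i 1 + Finsupp.single i 1) a else 0 := rfl
    rw [hc, tsub_add_cancel_of_le hle]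
    have hiff : (∀ j, j < i → (d - Finsupp.single i 1 : Fin N →₀ ℕ) j = 0) ↔ (∀ j, j < i → d j = 0) := by
      constructor
      · intro h j hj
        have := h j hj
        rw [Finsupp.tsub_apply, Finsupp.single_eq_of_ne (ne_of_lt hj), Nat.sub_zero] at this
        exact this
      · intro h j hj
        rw [Finsupp.tsub_apply, Finsupp.single_eq_of_ne (ne_of_lt hj), Nat.sub_zero]
        exact h j hj
    simp only [hiff, h1, true_and]
  · have hle : ¬ Finsupp.single i 1 ≤ d := by
      rw [Finsupp.single_le_iff]; exact h1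
    rw [if_neg hle, if_neg (fun h => h1 h.1)]

open MvPowerSeries in
theorem eq_sum_cofactorX (a : MvPowerSeries (Fin N) k) (ha : constantCoeff a = 0) :
    ∑ i, cofactorX a i * X i = a := by
  classical
  ext d
  rw [map_sum]
  simp_rw [mul_comm (cofactorX a _) (X _), coeff_X_mul_cofactorX]
  by_cases hd : d = 0
  · subst hd
    have h0 : coeff (0 : Fin N →₀ ℕ) a = 0 := by
      simpa using ha
    simp [h0]
  · have hne : d.support.Nonempty := Finsupp.support_nonempty_iff.mpr hd
    set i0 := d.support.min' hne with hi0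
    have hmem : i0 ∈ d.support := Finset.min'_mem _ hne
    have hi0pos : 1 ≤ d i0 := Nat.one_le_iff_ne_zero.mpr (Finsupp.mem_support_iff.mp hmem)
    have hlt : ∀ j, j < i0 → d j = 0 := by
      intro j hj
      by_contra hne'
      have := Finset.min'_le d.support j (Finsupp.mem_support_iff.mpr hne')
      exact absurd hj (not_lt.mpr this)
    rw [Finset.sum_eq_single i0]
    · rw [if_pos ⟨hi0pos, hlt⟩]
    · intro i _ hi
      rw [if_neg]
      rintro ⟨h1, h2⟩
      rcases lt_or_gt_of_ne hi with h | h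
      · have := hlt i h
        omega
      · have := h2 i0 h
        omega
    · intro h
      exact absurd (Finset.mem_univ _) h

theorem mem_maximalIdeal_iff (a : MvPowerSeries (Fin N) k) :
    a ∈ IsLocalRing.maximalIdeal (MvPowerSeries (Fin N) k) ↔ MvPowerSeries.constantCoeff a = 0 := by
  rw [IsLocalRing.mem_maximalIdeal, mem_nonunits_iff, MvPowerSeries.isUnit_iff_constantCoeff, isUnit_iff_ne_zero,
    not_not]

/-- The maximal ideal of `k⟦X_1,…,X_N⟧` is the kernel of the constant coefficient and is generated by the variables. -/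
theorem maximalIdeal_eq_span_X :
    IsLocalRing.maximalIdeal (MvPowerSeries (Fin N) k) = Ideal.span (Set.range (MvPowerSeries.X : Fin N → MvPowerSeries (Fin N) k)) := by
  apply le_antisymm
  · intro a ha
    rw [Ideal.mem_span_range_iff_exists_fun]
    exact ⟨_, eq_sum_cofactorX a ((mem_maximalIdeal_iff a).mp ha)⟩
  · rw [Ideal.span_le]
    rintro _ ⟨i, rfl⟩
    exact (mem_maximalIdeal_iff _).mpr (by simp)

/-- Automorphisms preserve the maximal ideal. -/
theorem map_mem_maximalIdeal (g : MvPowerSeries (Fin N) k ≃ₐ[k] MvPowerSeries (Fin N) k)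
    {a : MvPowerSeries (Fin N) k} (ha : a ∈ IsLocalRing.maximalIdeal (MvPowerSeries (Fin N) k)) :
    g a ∈ IsLocalRing.maximalIdeal (MvPowerSeries (Fin N) k) := by
  rw [IsLocalRing.mem_maximalIdeal, mem_nonunits_iff] at ha ⊢
  intro h
  exact ha ((isUnit_map_iff g a).mp h)

/-- Automorphisms preserve powers of the maximal ideal. -/
theorem map_mem_maximalIdeal_pow (g : MvPowerSeries (Fin N) k ≃ₐ[k] MvPowerSeries (Fin N) k) (i : ℕ)
    {a : MvPowerSeries (Fin N) k} (ha : a ∈ (IsLocalRing.maximalIdeal (MvPowerSeries (Fin N) k)) ^ i) :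
    g a ∈ (IsLocalRing.maximalIdeal (MvPowerSeries (Fin N) k)) ^ i := by
  have hle : Ideal.map (g : MvPowerSeries (Fin N) k →+* MvPowerSeries (Fin N) k)
      (IsLocalRing.maximalIdeal (MvPowerSeries (Fin N) k)) ≤ IsLocalRing.maximalIdeal (MvPowerSeries (Fin N) k) := by
    rw [Ideal.map_le_iff_le_comap]
    intro x hx
    exact map_mem_maximalIdeal g hx
  have h1 : g a ∈ Ideal.map (g : MvPowerSeries (Fin N) k →+* MvPowerSeries (Fin N) k)
      ((IsLocalRing.maximalIdeal (MvPowerSeries (Fin N) k)) ^ i) := Ideal.mem_map_of_mem _ ha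
  rw [Ideal.map_pow] at h1
  exact Ideal.pow_right_mono hle i h1

/-- Automorphisms over `k` act trivially modulo the maximal ideal. -/
theorem map_sub_self_mem (g : MvPowerSeries (Fin N) k ≃ₐ[k] MvPowerSeries (Fin N) k) (a : MvPowerSeries (Fin N) k) :
    g a - a ∈ IsLocalRing.maximalIdeal (MvPowerSeries (Fin N) k) := by
  set c := MvPowerSeries.constantCoeff a with hc
  have h1 : a - MvPowerSeries.C c ∈ IsLocalRing.maximalIdeal (MvPowerSeries (Fin N) k) := by
    rw [mem_maximalIdeal_iff]
    simp [hc]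
  have h2 := map_mem_maximalIdeal g h1
  have h3 : g (MvPowerSeries.C c) = MvPowerSeries.C c := g.commutes c
  rw [map_sub, h3] at h2
  have : g a - a = (g a - MvPowerSeries.C c) - (a - MvPowerSeries.C c) := by ring
  rw [this]
  exact Ideal.sub_mem _ h2 h1

/-- The quotient by the square of the maximal ideal is finite. -/
theorem finite_quot_sq :
    Finite (MvPowerSeries (Fin N) k ⧸ (IsLocalRing.maximalIdeal (MvPowerSeries (Fin N) k)) ^ 2) := by
  classical
  have : Finite (k × (Fin N → k)) := inferInstance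
  let π : k × (Fin N → k) → (MvPowerSeries (Fin N) k ⧸ (IsLocalRing.maximalIdeal (MvPowerSeries (Fin N) k)) ^ 2) :=
    fun v => Ideal.Quotient.mk _ (MvPowerSeries.C v.1 + ∑ i, MvPowerSeries.C (v.2 i) * MvPowerSeries.X i)
  refine Finite.of_surjective π ?_
  intro q
  obtain ⟨a, rfl⟩ := Ideal.Quotient.mk_surjective q
  set c := MvPowerSeries.constantCoeff a with hc
  have h1 : a - MvPowerSeries.C c ∈ IsLocalRing.maximalIdeal (MvPowerSeries (Fin N) k) := by
    rw [mem_maximalIdeal_iff]
    simp [hc]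
  have h2 := eq_sum_cofactorX (a - MvPowerSeries.C c) ((mem_maximalIdeal_iff _).mp h1)
  set b := cofactorX (a - MvPowerSeries.C c) with hb
  refine ⟨(c, fun i => MvPowerSeries.constantCoeff (b i)), ?_⟩
  show Ideal.Quotient.mk _ _ = Ideal.Quotient.mk _ _
  rw [Ideal.Quotient.eq]
  have h3 : MvPowerSeries.C c + ∑ i, MvPowerSeries.C (MvPowerSeries.constantCoeff (b i)) * MvPowerSeries.X i - a =
      - ∑ i, (b i - MvPowerSeries.C (MvPowerSeries.constantCoeff (b i))) * MvPowerSeries.X i := by
    simp_rw [sub_mul]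
    rw [Finset.sum_sub_distrib, h2]
    ring
  rw [h3, pow_two]
  refine Ideal.neg_mem_iff _ |>.mpr (Ideal.sum_mem _ fun i _ => Ideal.mul_mem_mul ?_ ?_)
  · rw [mem_maximalIdeal_iff]
    simp
  · rw [mem_maximalIdeal_iff]
    simp

/-- Some positive power of an automorphism acts trivially modulo the square of the maximal ideal. -/
theorem exists_pow_sub_mem_sq (τ : MvPowerSeries (Fin N) k ≃ₐ[k] MvPowerSeries (Fin N) k) :
    ∃ M₀ : ℕ, 0 < M₀ ∧ ∀ (w : ℕ) (a : MvPowerSeries (Fin N) k),
      (τ ^ (M₀ * w)) a - a ∈ (IsLocalRing.maximalIdeal (MvPowerSeries (Fin N) k)) ^ 2 := by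
  classical
  have := finite_quot_sq (k := k) (N := N)
  set I := (IsLocalRing.maximalIdeal (MvPowerSeries (Fin N) k)) ^ 2 with hI
  have hcongr : ∀ (g : MvPowerSeries (Fin N) k ≃ₐ[k] MvPowerSeries (Fin N) k) (x y : MvPowerSeries (Fin N) k),
      x - y ∈ I → g x - g y ∈ I := by
    intro g x y h
    rw [← map_sub]
    exact map_mem_maximalIdeal_pow g 2 h
  -- the induced self map of the quotient
  let f : (MvPowerSeries (Fin N) k ⧸ I) → (MvPowerSeries (Fin N) k ⧸ I) :=
    Quotient.lift (fun a => Ideal.Quotient.mk I (τ a)) (by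
      intro x y hxy
      have hxy' : x - y ∈ I := by
        have := Submodule.quotientRel_def I |>.mp hxy
        exact this
      exact Ideal.Quotient.eq.mpr (hcongr τ x y hxy'))
  have hf : ∀ a, f (Ideal.Quotient.mk I a) = Ideal.Quotient.mk I (τ a) := fun a => rfl
  have hfpow : ∀ (n : ℕ) (a : MvPowerSeries (Fin N) k),
      (f^[n]) (Ideal.Quotient.mk I a) = Ideal.Quotient.mk I ((τ ^ n) a) := by
    intro n
    induction n with
    | zero => intro a; rfl
    | succ n ih =>
      intro a
      rw [Function.iterate_succ_apply', ih, hf, pow_succ', AlgEquiv.mul_apply]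
  have hinj : Function.Injective f := by
    intro x y h
    obtain ⟨x, rfl⟩ := Ideal.Quotient.mk_surjective x
    obtain ⟨y, rfl⟩ := Ideal.Quotient.mk_surjective y
    rw [hf, hf, Ideal.Quotient.eq] at h
    rw [Ideal.Quotient.eq]
    have := hcongr τ.symm _ _ h
    simpa using this
  have hbij : Function.Bijective f := Finite.injective_iff_bijective.mp hinj
  let σ : Equiv.Perm (MvPowerSeries (Fin N) k ⧸ I) := Equiv.ofBijective f hbij
  have hσ : ∀ n x, (σ ^ n) x = (f^[n]) x := by
    intro n x
    rw [Equiv.Perm.iterate_eq_pow σ n |>.symm]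
    rfl
  have hord : 0 < orderOf σ := orderOf_pos σ
  refine ⟨orderOf σ, hord, ?_⟩
  intro w a
  have h1 : (σ ^ (orderOf σ * w)) (Ideal.Quotient.mk I a) = Ideal.Quotient.mk I a := by
    rw [pow_mul, pow_orderOf_eq_one, one_pow]; rfl
  rw [hσ, hfpow] at h1
  exact Ideal.Quotient.eq.mp h1

/-- The filtration step: an automorphism trivial modulo the square of the maximal ideal raises the filtration degree by one. -/
theorem map_sub_self_mem_pow (g : MvPowerSeries (Fin N) k ≃ₐ[k] MvPowerSeries (Fin N) k)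
    (hg : ∀ a : MvPowerSeries (Fin N) k, g a - a ∈ (IsLocalRing.maximalIdeal (MvPowerSeries (Fin N) k)) ^ 2) (i : ℕ)
    (a : MvPowerSeries (Fin N) k) (ha : a ∈ (IsLocalRing.maximalIdeal (MvPowerSeries (Fin N) k)) ^ i) :
    g a - a ∈ (IsLocalRing.maximalIdeal (MvPowerSeries (Fin N) k)) ^ (i + 1) := by
  induction i generalizing a with
  | zero =>
    rw [zero_add, pow_one]
    exact map_sub_self_mem g a
  | succ i ih =>
    rw [pow_succ] at ha
    refine Submodule.mul_induction_on ha ?_ ?_
    · intro x hx y hy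
      have h1 := ih x hx
      have h2 := hg y
      have h3 := map_mem_maximalIdeal g hy
      have : g (x * y) - x * y = (g x - x) * g y + x * (g y - y) := by
        rw [map_mul]; ring
      rw [this]
      refine Ideal.add_mem _ ?_ ?_
      · rw [pow_succ (IsLocalRing.maximalIdeal (MvPowerSeries (Fin N) k)) (i + 1)]
        exact Ideal.mul_mem_mul h1 h3
      · have : i + 1 + 1 = i + 2 := rfl
        rw [this, pow_add]
        exact Ideal.mul_mem_mul hx h2
    · intro x y hx hy
      have : g (x + y) - (x + y) = (g x - x) + (g y - y) := by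
        rw [map_add]; ring
      rw [this]
      exact Ideal.add_mem _ hx hy

/-- Powers of a `k`-automorphism of `A = k⟦X_1,…,X_N⟧` (`k` finite of characteristic `p`) are close to the identity.

Proof.  `m / m²` is a finite set (a quotient of `k^N`), `τ` acts on it so some power `τ₁ = τ ^ M₀`, `M₀ > 0`, acts trivially.
Then `(τ₁ ^ u - 1) A ⊂ m`, and `τ₂ = τ₁ ^ u` also acts trivially on `m / m²`. It follows that `(τ₂ - 1) (m ^ i) ⊂ m ^ (i + 1)` for all `i` (use the product rule on generators;
`m ^ i` is generated by products of the `X_j`, with coefficients in `A`, and `(τ₂ - 1) A ⊂ m`).  So `(τ₂ - 1) ^ q` maps `A` to `m ^ q`.  In characteristic `p`,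
as `τ₂` and `1` commute in `Module.End k A` (a `k`-algebra of characteristic `p`), `(τ₂ - 1) ^ (p ^ v) = τ₂ ^ (p ^ v) - 1`.  So `τ ^ (M₀ * u * p ^ v) - 1` maps `A` to `m ^ (p ^ v)`. -/
theorem tau_pow_close (p : ℕ) [Fact p.Prime] [CharP k p] (τ : MvPowerSeries (Fin N) k ≃ₐ[k] MvPowerSeries (Fin N) k) :
    ∃ M₀ : ℕ, 0 < M₀ ∧ ∀ (m v : ℕ), M₀ * p ^ v ∣ m → ∀ a : MvPowerSeries (Fin N) k,
      (τ ^ m) a - a ∈ (IsLocalRing.maximalIdeal (MvPowerSeries (Fin N) k)) ^ (p ^ v) := by
  obtain ⟨M₀, hM₀, hM⟩ := exists_pow_sub_mem_sq τ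
  refine ⟨M₀, hM₀, ?_⟩
  rintro m v ⟨w, rfl⟩ a
  set g := τ ^ (M₀ * w) with hgdef
  have hg : ∀ a : MvPowerSeries (Fin N) k, g a - a ∈ (IsLocalRing.maximalIdeal (MvPowerSeries (Fin N) k)) ^ 2 :=
    hM w
  have hm : τ ^ (M₀ * p ^ v * w) = g ^ (p ^ v) := by
    rw [hgdef, ← pow_mul]
    congr 1
    ring
  rw [hm]
  let G : Module.End k (MvPowerSeries (Fin N) k) := g.toLinearMap
  have hGpow : ∀ (n : ℕ) (x : MvPowerSeries (Fin N) k), (G ^ n) x = (g ^ n) x := by
    intro n
    induction n with
    | zero => intro x; rfl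
    | succ n ih =>
      intro x
      rw [pow_succ, Module.End.mul_apply, ih, pow_succ, AlgEquiv.mul_apply]
      rfl
  have hδ : ∀ (q : ℕ) (x : MvPowerSeries (Fin N) k), ((G - 1) ^ q) x ∈
      (IsLocalRing.maximalIdeal (MvPowerSeries (Fin N) k)) ^ q := by
    intro q
    induction q with
    | zero => intro x; simp
    | succ q ih =>
      intro x
      rw [pow_succ' (G - 1) q, Module.End.mul_apply]
      exact map_sub_self_mem_pow g hg q _ (ih x)
  have : CharP (Module.End k (MvPowerSeries (Fin N) k)) p :=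
    charP_of_injective_algebraMap (algebraMap k (Module.End k (MvPowerSeries (Fin N) k))).injective p
  have : ExpChar (Module.End k (MvPowerSeries (Fin N) k)) p := ExpChar.prime (Fact.out)
  have hchar : (G - 1) ^ (p ^ v) = G ^ (p ^ v) - 1 := by
    have := sub_pow_expChar_pow_of_commute (R := Module.End k (MvPowerSeries (Fin N) k)) (x := G) (y := 1) p v (Commute.one_right G)
    rw [this, one_pow]
  have := hδ (p ^ v) a
  rw [hchar] at this
  have h2 : (G ^ (p ^ v) - 1) a = (g ^ (p ^ v)) a - a := by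
    rw [LinearMap.sub_apply, hGpow]
    rfl
  rwa [h2] at this

/-- If `‖φ a‖ ≤ c` on the maximal ideal, for a ring map `φ` to a normed ring with `‖φ x‖ ≤ 1` for all `x`, then `‖φ a‖ ≤ c ^ q` on the `q`-th power of the maximal ideal.
(Take `0 ≤ c`.  The set `{a | ‖φ a‖ ≤ c ^ q}` is an additive subgroup in the ultrametric case, stable under multiplication by `A`, so an ideal; induct with `Ideal.pow_succ`, `Submodule.mul_induction_on`.) -/
theorem norm_le_of_mem_pow {B : Type*} [NormedField B] [IsUltrametricDist B] (φ : MvPowerSeries (Fin N) k →+* B)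
    (h1 : ∀ x, ‖φ x‖ ≤ 1) {c : ℝ} (hc0 : 0 ≤ c) (hc : ∀ a, MvPowerSeries.constantCoeff a = 0 → ‖φ a‖ ≤ c) (q : ℕ)
    (a : MvPowerSeries (Fin N) k) (ha : a ∈ (IsLocalRing.maximalIdeal (MvPowerSeries (Fin N) k)) ^ q) :
    ‖φ a‖ ≤ c ^ q := by
  induction q generalizing a with
  | zero => simpa using h1 a
  | succ q ih =>
    rw [pow_succ] at ha
    refine Submodule.mul_induction_on ha ?_ ?_
    · intro x hx y hy
      rw [map_mul, norm_mul, pow_succ]
      exact mul_le_mul (ih x hx) (hc y ((mem_maximalIdeal_iff y).mp hy)) (norm_nonneg _) (pow_nonneg hc0 q)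
    · intro x y hx hy
      rw [map_add]
      exact (IsUltrametricDist.norm_add_le_max _ _).trans (max_le hx hy)

end Vale.Agent.Lib.P217
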