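import Vale.Agent.Lib.P217.HBasic
import Vale.Agent.Lib.P217.TauPow

set_option linter.unusedSectionVars false
set_option linter.unusedVariables false

/-!
The strong closeness lemma: if a homomorphism `f : L → L'` of two laws of the setting moves the torsion points only a little, then the two laws are very close.
-/

namespace Vale.Agent.Lib.P217

open scoped Topology
open Filter

variable {C : Type*} [NormedField C] [IsUltrametricDist C] [CompleteSpace C]
variable {p n N : ℕ} [hp : Fact p.Prime] [CharP C p] [IsAlgClosed C]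
variable {k : Type*} [Field k] [Finite k] [CharP k p]

/-- Membership in closed balls: finite sums. -/
theorem norm_sum_OC_le {ι : Type*} (s : Finset ι) (f : ι → OC C) {r : ℝ} (hr : 0 ≤ r)
    (h : ∀ i ∈ s, ‖((f i : OC C) : C)‖ ≤ r) : ‖((∑ i ∈ s, f i : OC C) : C)‖ ≤ r :=
  (cballIdeal (C := C) r hr).sum_mem (fun i hi => h i hi)

theorem norm_mul_OC_le_left (x y : OC C) {r : ℝ} (h : ‖(x : C)‖ ≤ r) : ‖((x * y : OC C) : C)‖ ≤ r := by
  have e : ((x * y : OC C) : C) = (x : C) * (y : C) := rfl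
  rw [e, norm_mul]
  exact (mul_le_of_le_one_right (norm_nonneg _) (norm_OC_le y)).trans h

theorem norm_mul_OC_le_right (x y : OC C) {r : ℝ} (h : ‖(y : C)‖ ≤ r) : ‖((x * y : OC C) : C)‖ ≤ r := by
  rw [mul_comm]
  exact norm_mul_OC_le_left y x h

theorem norm_add_OC_le (x y : OC C) {r : ℝ} (hx : ‖(x : C)‖ ≤ r) (hy : ‖(y : C)‖ ≤ r) :
    ‖((x + y : OC C) : C)‖ ≤ r := by
  have e : ((x + y : OC C) : C) = (x : C) + (y : C) := rfl
  rw [e]
  exact (IsUltrametricDist.norm_add_le_max _ _).trans (max_le hx hy)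

/-- Products of close polynomials are close. -/
theorem norm_coeff_mul_sub_le (A A' B B' : Polynomial (OC C)) {η : ℝ} (hη : 0 ≤ η)
    (hA : ∀ j, ‖((A'.coeff j - A.coeff j : OC C) : C)‖ ≤ η)
    (hB : ∀ j, ‖((B'.coeff j - B.coeff j : OC C) : C)‖ ≤ η) (j : ℕ) :
    ‖(((A' * B').coeff j - (A * B).coeff j : OC C) : C)‖ ≤ η := by
  have e : (A' * B').coeff j - (A * B).coeff j =
      ∑ x ∈ Finset.HasAntidiagonal.antidiagonal j, (A'.coeff x.1 - A.coeff x.1) * B'.coeff x.2 +
      ∑ x ∈ Finset.HasAntidiagonal.antidiagonal j, A.coeff x.1 * (B'.coeff x.2 - B.coeff x.2) := by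
    rw [Polynomial.coeff_mul, Polynomial.coeff_mul, ← Finset.sum_add_distrib, ← Finset.sum_sub_distrib]
    refine Finset.sum_congr rfl fun x _ => ?_
    ring
  rw [e]
  refine norm_add_OC_le _ _ (norm_sum_OC_le _ _ hη fun x _ => norm_mul_OC_le_left _ _ (hA _))
    (norm_sum_OC_le _ _ hη fun x _ => norm_mul_OC_le_right _ _ (hB _))

/-- An ultrametric estimate for products: the coefficients of `∏ (X - w') ` and `∏ (X - w)` differ by at most `η`, if `‖w' - w‖ ≤ η`, `‖w‖, ‖w'‖ ≤ 1`. -/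
theorem norm_coeff_prod_sub_le {ι : Type*} (s : Finset ι) (w w' : ι → OC C) {η : ℝ} (hη : 0 ≤ η)
    (h : ∀ i ∈ s, ‖((w' i - w i : OC C) : C)‖ ≤ η) (j : ℕ) :
    ‖((Polynomial.coeff (∏ i ∈ s, (Polynomial.X - Polynomial.C (w' i))) j -
      Polynomial.coeff (∏ i ∈ s, (Polynomial.X - Polynomial.C (w i))) j : OC C) : C)‖ ≤ η := by
  classical
  induction s using Finset.induction_on generalizing j with
  | empty =>
    simp only [Finset.prod_empty, sub_self]
    simpa using hη
  | insert a s ha ih =>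
    rw [Finset.prod_insert ha, Finset.prod_insert ha]
    refine norm_coeff_mul_sub_le _ _ _ _ hη (fun i => ?_) (fun i => ih (fun x hx => h x (Finset.mem_insert_of_mem hx)) i) j
    have hwa := h a (Finset.mem_insert_self a s)
    simp only [Polynomial.coeff_sub, Polynomial.coeff_C]
    by_cases hi : i = 0
    · subst hi
      simp only [if_true, sub_sub_sub_cancel_left]
      have e : ((w a - w' a : OC C) : C) = -((w' a - w a : OC C) : C) := by
        push_cast; ring
      rw [e, norm_neg]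
      exact hwa
    · simp only [if_neg hi, sub_zero, sub_self]
      simpa using hη

/-- In characteristic `p`, the coefficients of `A' ^ q` and `A ^ q` differ by at most `η ^ q`, if those of `A'` and `A` differ by at most `η`. -/
theorem norm_coeff_pow_sub_le (A A' : Polynomial (OC C)) {η : ℝ} (hη : 0 ≤ η)
    (h : ∀ j, ‖((A'.coeff j - A.coeff j : OC C) : C)‖ ≤ η) (e j : ℕ) :
    ‖(((A' ^ (p ^ e)).coeff j - (A ^ (p ^ e)).coeff j : OC C) : C)‖ ≤ η ^ (p ^ e) := by
  have : CharP (OC C) p := (RingHom.charP_iff (OC C).subtype (OC C).subtype_injective p).mpr inferInstance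
  have : CharP (Polynomial (OC C)) p := Polynomial.charP
  have : ExpChar (Polynomial (OC C)) p := ExpChar.prime hp.out
  have : ExpChar (OC C) p := ExpChar.prime hp.out
  have e1 : (A' ^ (p ^ e)).coeff j - (A ^ (p ^ e)).coeff j = ((A' - A) ^ (p ^ e)).coeff j := by
    rw [sub_pow_expChar_pow, Polynomial.coeff_sub]
  rw [e1, ← Polynomial.map_iterateFrobenius_expand, Polynomial.coeff_map, Polynomial.coeff_expand (Nat.pow_pos hp.out.pos)]
  split_ifs with hd
  · rw [iterateFrobenius_def]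
    have e2 : (((A' - A).coeff (j / p ^ e) ^ p ^ e : OC C) : C) = (((A' - A).coeff (j / p ^ e) : OC C) : C) ^ p ^ e := rfl
    rw [e2, norm_pow]
    refine pow_le_pow_left₀ (norm_nonneg _) ?_ _
    rw [Polynomial.coeff_sub]
    exact h _
  · rw [map_zero]
    simpa using pow_nonneg hη _

/-- The comparison of Weierstrass factorisations. Let `S' = U' * D'`, `S = U * D` be power series over `OC C` with `D, D'` monic polynomials of degree `d`, `D` having its lower coefficients of norm at most `r' < 1`, `U, U'` with coefficients bounded by `1`. Let `δ` bound the coefficients of `S' - S`, and `ε` those of `D' - D`.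
Then for `j < d` the coefficient of `X ^ j` in `S' - S` is bounded by `max ε (r' * δ)`.

Proof: let `B = U' - U`, `A = D' - D` (degree `< d`); `S' - S = B * D + U' * A`. Let `β = sup_i ‖B_i‖`. The coefficient of `X ^ (d + i)`: `B_i + ∑_{l < d} B_{i + d - l} * D_l + (U' * A)_{d + i}`, so `β ≤ max δ (max ε (r' * β))`; as `r' < 1`: `β ≤ max δ ε`. For `j < d`: `(S' - S)_j = ∑_{l ≤ j} B_{j - l} * D_l + (U' * A)_j`, so its norm is at most `max (r' * β) ε ≤ max ε (r' * δ)`. -/
theorem norm_coeff_low_le (U U' : PowerSeries (OC C)) (D D' : Polynomial (OC C)) {d : ℕ} (hD : D.Monic) (hD' : D'.Monic)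
    (hdD : D.natDegree = d) (hdD' : D'.natDegree = d) {r' δ ε : ℝ} (hr0 : 0 ≤ r') (hr1 : r' < 1) (hδ : 0 ≤ δ) (hε : 0 ≤ ε)
    (hlow : ∀ j, j < d → ‖((D.coeff j : OC C) : C)‖ ≤ r')
    (hA : ∀ j, ‖((D'.coeff j - D.coeff j : OC C) : C)‖ ≤ ε)
    (hS : ∀ j, ‖((PowerSeries.coeff j ((D' : PowerSeries (OC C)) * U' - (D : PowerSeries (OC C)) * U) : OC C) : C)‖ ≤ δ)
    (j : ℕ) (hj : j < d) :
    ‖((PowerSeries.coeff j ((D' : PowerSeries (OC C)) * U' - (D : PowerSeries (OC C)) * U) : OC C) : C)‖ ≤ max ε (r' * δ) := by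
  classical
  set B : PowerSeries (OC C) := U' - U with hB
  set A : PowerSeries (OC C) := (D' : PowerSeries (OC C)) - (D : PowerSeries (OC C)) with hAdef
  have hSeq : (D' : PowerSeries (OC C)) * U' - (D : PowerSeries (OC C)) * U = (D : PowerSeries (OC C)) * B + A * U' := by
    rw [hB, hAdef]; ring
  -- the coefficients of `A * U'`
  have hAU : ∀ m, ‖((PowerSeries.coeff m (A * U') : OC C) : C)‖ ≤ ε := by
    intro m
    rw [PowerSeries.coeff_mul]
    refine norm_sum_OC_le _ _ hε fun x _ => norm_mul_OC_le_left _ _ ?_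
    rw [hAdef, map_sub, Polynomial.coeff_coe, Polynomial.coeff_coe]
    exact hA _
  -- the supremum
  obtain ⟨β, hβ⟩ : ∃ β : ℝ, β = ⨆ i, ‖((PowerSeries.coeff i B : OC C) : C)‖ := ⟨_, rfl⟩
  have hbdd : BddAbove (Set.range fun i => ‖((PowerSeries.coeff i B : OC C) : C)‖) :=
    ⟨1, by rintro _ ⟨i, rfl⟩; exact norm_OC_le _⟩
  have hβi : ∀ i, ‖((PowerSeries.coeff i B : OC C) : C)‖ ≤ β := fun i => by
    rw [hβ]; exact le_ciSup hbdd i
  have hβ0 : 0 ≤ β := (norm_nonneg _).trans (hβi 0)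
  -- the high coefficients
  have hm : 0 ≤ max δ ε := le_max_of_le_left hδ
  have hr'β : 0 ≤ r' * β := mul_nonneg hr0 hβ0
  have hhigh : ∀ i, ‖((PowerSeries.coeff i B : OC C) : C)‖ ≤ max (max δ ε) (r' * β) := by
    intro i
    have hmem : (d, i) ∈ Finset.HasAntidiagonal.antidiagonal (d + i) := by simp
    have hsplit : PowerSeries.coeff i B = PowerSeries.coeff (d + i) ((D' : PowerSeries (OC C)) * U' - (D : PowerSeries (OC C)) * U)
        - PowerSeries.coeff (d + i) (A * U')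
        - ∑ x ∈ (Finset.HasAntidiagonal.antidiagonal (d + i)).erase (d, i), D.coeff x.1 * PowerSeries.coeff x.2 B := by
      rw [hSeq, map_add, PowerSeries.coeff_mul, ← Finset.add_sum_erase _ _ hmem]
      have hcd : PowerSeries.coeff d (D : PowerSeries (OC C)) = 1 := by
        rw [Polynomial.coeff_coe, ← hdD]; exact hD.coeff_natDegree
      simp only [hcd, one_mul, Polynomial.coeff_coe]
      ring
    have hnn : 0 ≤ max (max δ ε) (r' * β) := le_max_of_le_right hr'β
    rw [hsplit, sub_eq_add_neg, sub_eq_add_neg]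
    refine norm_add_OC_le _ _ (norm_add_OC_le _ _ ?_ ?_) ?_
    · exact (hS _).trans ((le_max_left _ _).trans (le_max_left _ _))
    · have e : ((-(PowerSeries.coeff (d + i) (A * U')) : OC C) : C) = -((PowerSeries.coeff (d + i) (A * U') : OC C) : C) := rfl
      rw [e, norm_neg]
      exact (hAU _).trans ((le_max_right _ _).trans (le_max_left _ _))
    · have e : ∀ x : OC C, ((-x : OC C) : C) = -(x : C) := fun x => rfl
      rw [e, norm_neg]
      refine norm_sum_OC_le _ _ hnn fun x hx => ?_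
      have hx1 := Finset.mem_erase.mp hx
      have hx2 : x.1 + x.2 = d + i := by simpa using hx1.2
      by_cases hlt : x.1 < d
      · have e2 : ((D.coeff x.1 * PowerSeries.coeff x.2 B : OC C) : C) = (D.coeff x.1 : C) * (PowerSeries.coeff x.2 B : OC C) := rfl
        rw [e2, norm_mul]
        refine le_trans ?_ (le_max_right _ _)
        exact mul_le_mul (hlow _ hlt) (hβi _) (norm_nonneg _) hr0
      · have hgt : d < x.1 := by
          refine lt_of_le_of_ne (not_lt.mp hlt) ?_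
          intro he
          apply hx1.1
          ext
          · exact he.symm
          · simp only; omega
        rw [Polynomial.coeff_eq_zero_of_natDegree_lt (by rw [hdD]; exact hgt), zero_mul]
        simpa using hnn
  have hβle : β ≤ max δ ε := by
    have h1 : β ≤ max (max δ ε) (r' * β) := hβ.le.trans (ciSup_le hhigh)
    rcases le_max_iff.mp h1 with h2 | h2
    · exact h2
    · have h3 : β = 0 := by nlinarith
      rw [h3]; exact hm
  -- the low coefficients
  have hmx : 0 ≤ max ε (r' * δ) := le_max_of_le_left hε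
  rw [hSeq, map_add]
  refine norm_add_OC_le _ _ ?_ ((hAU _).trans (le_max_left _ _))
  rw [PowerSeries.coeff_mul]
  refine norm_sum_OC_le _ _ hmx fun x hx => ?_
  have hx2 : x.1 + x.2 = j := by simpa using hx
  have e2 : ((PowerSeries.coeff x.1 (D : PowerSeries (OC C)) * PowerSeries.coeff x.2 B : OC C) : C) =
      (D.coeff x.1 : C) * (PowerSeries.coeff x.2 B : OC C) := by
    rw [Polynomial.coeff_coe]; rfl
  rw [e2, norm_mul]
  have h5 : ‖(D.coeff x.1 : C)‖ * ‖((PowerSeries.coeff x.2 B : OC C) : C)‖ ≤ r' * max δ ε :=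
    mul_le_mul (hlow _ (by omega)) ((hβi _).trans hβle) (norm_nonneg _) hr0
  refine h5.trans ?_
  rcases le_total δ ε with h6 | h6
  · rw [max_eq_right h6]
    exact le_max_of_le_left (by nlinarith)
  · rw [max_eq_left h6]
    exact le_max_right _ _

/-- Comparison of the sums of two close laws. -/
theorem norm_add_sub_add_of_close {L L' : Law C p n} {ε : ℝ} (hε : 0 ≤ ε)
    (hc : ∀ d, ‖((MvPowerSeries.coeff d L.G.toPowerSeries : OC C) : C) - (MvPowerSeries.coeff d L'.G.toPowerSeries : OC C)‖ ≤ ε)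
    (x y : Pts L.G) (x' y' : Pts L'.G) (hx : ‖x.v - x'.v‖ ≤ ε) (hy : ‖y.v - y'.v‖ ≤ ε) :
    ‖(x + y).v - (x' + y').v‖ ≤ ε := by
  refine norm_Ev_sub_le _ _ _ _ (hb2 _ _) (hb2 _ _) _ _ hε (fun d => by simpa using hc d) ?_
  intro s
  fin_cases s
  · exact hx
  · exact hy

/-- Comparison of the group operations of two close laws on the same points: sums of multiples. `‖∑ a j • z' j - ∑ a j • z j‖ ≤ ε` when the coefficients of the two laws differ by at most `ε` and `‖z' j - z j‖ ≤ ε`. (Follows from `norm_add_sub_add_le`, and `norm_nsmul_sub_nsmul_le`.) -/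
theorem norm_sum_nsmul_sub_sum_le {L L' : Law C p n} {ε : ℝ} (hε : 0 ≤ ε)
    (hc : ∀ d, ‖((MvPowerSeries.coeff d L.G.toPowerSeries : OC C) : C) - (MvPowerSeries.coeff d L'.G.toPowerSeries : OC C)‖ ≤ ε)
    {M : ℕ} (z : Fin M → Pts L.G) (z' : Fin M → Pts L'.G) (hz : ∀ j, ‖(z j).v - (z' j).v‖ ≤ ε) (a : Fin M → ℕ) :
    ‖(∑ j, a j • z j).v - (∑ j, a j • z' j).v‖ ≤ ε := by
  classical
  have key : ∀ s : Finset (Fin M), ‖(∑ j ∈ s, a j • z j).v - (∑ j ∈ s, a j • z' j).v‖ ≤ ε := by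
    intro s
    induction s using Finset.induction_on with
    | empty => simpa using hε
    | insert i s hi ih =>
      rw [Finset.sum_insert hi, Finset.sum_insert hi]
      exact norm_add_sub_add_of_close hε hc _ _ _ _ (norm_nsmul_sub_nsmul_le hε hc _ _ (hz i) _) ih
  exact key Finset.univ

/-- The `[p]` of two close laws: `‖[p]_{L'} y' - [p]_L y‖ ≤ max ‖y' - y‖ ^ q  δ`, where `δ` bounds the coefficient differences of the series `[p]`: `[p]_{L'} y' - [p]_{L'} y` by contraction (`HtLaw.norm_nsmul_sub_le`) and `[p]_{L'} y - [p]_L y` from `hasSum_nsmul_p`. Iterating, for `‖y' - y‖ ≤ η`, `δ < 1`: `‖[p ^ E]_{L'} y' - [p ^ E]_L y‖ ≤ max (η ^ (q ^ E)) δ`. -/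
theorem norm_nsmul_pow_sub_of_close {h : ℕ} {L L' : Law C p n} (H' : HtLaw L' h) {δ η : ℝ} (hδ0 : 0 ≤ δ) (hδ1 : δ < 1) (hη : 0 ≤ η)
    (hc : ∀ j, ‖((PowerSeries.coeff j (mulSeries L'.G p) : OC C) : C) - (PowerSeries.coeff j (mulSeries L.G p) : OC C)‖ ≤ δ)
    (y : Pts L.G) (y' : Pts L'.G) (hy : ‖y'.v - y.v‖ ≤ η) (E : ℕ) :
    ‖((p ^ E) • y').v - ((p ^ E) • y).v‖ ≤ max (η ^ (p ^ (h * E))) δ := by
  have hq1 : 1 ≤ p ^ h := Nat.one_le_pow _ _ hp.out.pos
  induction E with
  | zero =>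
    simp only [pow_zero, one_smul, mul_zero, pow_one]
    exact le_max_of_le_left hy
  | succ E ih =>
    rw [nsmul_pow_succ, nsmul_pow_succ]
    set u : Pts L.G := (p ^ E) • y with hu
    set u' : Pts L'.G := (p ^ E) • y' with hu'
    have h1 : ‖(p • u').v - (p • (Pts.cast u : Pts L'.G)).v‖ ≤ ‖u'.v - u.v‖ ^ (p ^ h) := by
      have := H'.norm_nsmul_sub_le u' (Pts.cast u : Pts L'.G)
      simpa using this
    have h2 : ‖(p • (Pts.cast u : Pts L'.G)).v - (p • u).v‖ ≤ δ := by
      have hs := (hasSum_nsmul_p L' (Pts.cast u : Pts L'.G)).sub (hasSum_nsmul_p L u)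
      refine norm_sum_le_of_hasSum hs hδ0 (fun j => ?_)
      have e : ((PowerSeries.coeff j (mulSeries L'.G p) * (Pts.cast u : Pts L'.G).o ^ j - PowerSeries.coeff j (mulSeries L.G p) * u.o ^ j : OC C) : C) =
          (((PowerSeries.coeff j (mulSeries L'.G p) : OC C) : C) - (PowerSeries.coeff j (mulSeries L.G p) : OC C)) * ((u.o ^ j : OC C) : C) := by
        have e3 : (Pts.cast u : Pts L'.G).o = u.o := rfl
        rw [e3, ← mul_sub_right_distrib]
        rfl
      rw [e, norm_mul]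
      exact (mul_le_of_le_one_right (norm_nonneg _) (norm_OC_le _)).trans (hc j)
    have e : (p • u').v - (p • u).v = ((p • u').v - (p • (Pts.cast u : Pts L'.G)).v) + ((p • (Pts.cast u : Pts L'.G)).v - (p • u).v) := by ring
    rw [e]
    refine (IsUltrametricDist.norm_add_le_max _ _).trans (max_le (h1.trans ?_) (le_max_of_le_right h2))
    have h3 : ‖u'.v - u.v‖ ^ p ^ h ≤ (max (η ^ (p ^ (h * E))) δ) ^ p ^ h := pow_le_pow_left₀ (norm_nonneg _) ih _
    refine h3.trans ?_
    have e4 : p ^ (h * (E + 1)) = p ^ (h * E) * p ^ h := by rw [← pow_add]; congr 1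
    rcases le_total (η ^ (p ^ (h * E))) δ with h4 | h4
    · rw [max_eq_right h4]
      refine le_max_of_le_right ?_
      calc δ ^ p ^ h ≤ δ ^ 1 := pow_le_pow_of_le_one hδ0 hδ1.le hq1
        _ = δ := pow_one _
    · rw [max_eq_left h4, ← pow_mul, ← e4]
      exact le_max_left _ _

/-- Two admissible maps agree on constants. -/
theorem phi_sub_phi_eq {S : Setting C p n N k} {φ φ' : MvPowerSeries (Fin N) k →+* OC C} (hφ : Adm S φ) (hφ' : Adm S φ')
    (a : MvPowerSeries (Fin N) k) :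
    ((φ' a : OC C) : C) - (φ a : OC C) =
      ((φ' (a - MvPowerSeries.C (MvPowerSeries.constantCoeff a)) : OC C) : C) -
        (φ (a - MvPowerSeries.C (MvPowerSeries.constantCoeff a)) : OC C) := by
  rw [map_sub, map_sub, hφ.hκ, hφ'.hκ]
  push_cast
  ring

/-- The bound for a map on the maximal ideal through the coefficients generating it. -/
theorem norm_phi_sub_le_of_span {S : Setting C p n N k} {φ φ' : MvPowerSeries (Fin N) k →+* OC C} (hφ : Adm S φ) (hφ' : Adm S φ')
    (hI : IsLocalRing.maximalIdeal (MvPowerSeries (Fin N) k) =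
      Ideal.span {a | ∃ j, j < p ^ n ∧ a = PowerSeries.coeff j (mulSeries S.F p)})
    {δ δc : ℝ} (hδc0 : 0 ≤ δc)
    (hδ : ∀ a, ‖((φ' a : OC C) : C) - (φ a : OC C)‖ ≤ δ)
    (hδc : ∀ j, j < p ^ n → ‖((φ' (PowerSeries.coeff j (mulSeries S.F p)) : OC C) : C) - (φ (PowerSeries.coeff j (mulSeries S.F p)) : OC C)‖ ≤ δc)
    (a : MvPowerSeries (Fin N) k) :
    ‖((φ' a : OC C) : C) - (φ a : OC C)‖ ≤ max δc (S.c * δ) := by
  have hnn : 0 ≤ max δc (S.c * δ) := le_max_of_le_left hδc0
  have hδ0 : 0 ≤ δ := (norm_nonneg _).trans (hδ 0)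
  -- the case of the maximal ideal
  have hm : ∀ b ∈ IsLocalRing.maximalIdeal (MvPowerSeries (Fin N) k),
      ‖((φ' b : OC C) : C) - (φ b : OC C)‖ ≤ max δc (S.c * δ) := by
    intro b hb
    rw [hI] at hb
    refine Submodule.span_induction (p := fun b _ => ‖((φ' b : OC C) : C) - (φ b : OC C)‖ ≤ max δc (S.c * δ))
      ?_ ?_ ?_ ?_ hb
    · rintro _ ⟨j, hj, rfl⟩
      exact (hδc j hj).trans (le_max_left _ _)
    · simpa using hnn
    · intro x y _ _ hx hy
      rw [map_add, map_add]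
      have e : (((φ' x + φ' y : OC C)) : C) - ((φ x + φ y : OC C) : C) = (((φ' x : OC C) : C) - (φ x : OC C)) + (((φ' y : OC C) : C) - (φ y : OC C)) := by
        push_cast; ring
      rw [e]
      exact (IsUltrametricDist.norm_add_le_max _ _).trans (max_le hx hy)
    · intro r x hxmem hx
      have hxm : x ∈ IsLocalRing.maximalIdeal (MvPowerSeries (Fin N) k) := by
        rw [hI]; exact hxmem
      have hxc := hφ.hc x ((mem_maximalIdeal_iff x).mp hxm)
      rw [smul_eq_mul, map_mul, map_mul]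
      have e : ((φ' r * φ' x : OC C) : C) - ((φ r * φ x : OC C) : C) =
          ((φ' r : OC C) : C) * (((φ' x : OC C) : C) - (φ x : OC C)) +
            (((φ' r : OC C) : C) - (φ r : OC C)) * ((φ x : OC C) : C) := by
        push_cast; ring
      rw [e]
      refine (IsUltrametricDist.norm_add_le_max _ _).trans (max_le ?_ ?_)
      · rw [norm_mul]
        exact (mul_le_of_le_one_left (norm_nonneg _) (norm_OC_le _)).trans hx
      · rw [norm_mul]
        refine le_max_of_le_right ?_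
        rw [mul_comm]
        exact mul_le_mul hxc (hδ r) (norm_nonneg _) S.c0
  rw [phi_sub_phi_eq hφ hφ']
  apply hm
  rw [mem_maximalIdeal_iff]
  simp

/-- The strong closeness lemma.

Let `φ, φ'` be admissible maps, with the laws `L, L'`, both of height `h` (`1 ≤ h < n`), suppose that the coefficients `c_j`, `j < Q`, of `[p]_F` generate the maximal ideal, and let `f : L → L'` be a homomorphism, with unit linear coefficient. Let `z j` be points of `L` such that all `p`-torsion points of `L` are of the form `p ^ E • ∑ a j • z j`.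
Let `η < 1` bound the displacement of `z j`: `‖f(z j) - z j‖ ≤ η`. Then `‖φ' a - φ a‖ ≤ η ^ (q ^ (E + 1))` for all `a`.

Proof. Let `δ = ⨆ a, ‖φ' a - φ a‖`, `δ ≤ c < 1`, since `φ, φ'` coincide on constants, and `‖φ a‖, ‖φ' a‖ ≤ c` for `a` in the maximal ideal. Coefficients of `L` and `L'`, `[p]_L`, `[p]_L'` (which are the images under `φ`, `φ'` of those of `F`, `[p]_F`) differ by at most `δ`.
Step 1. `δ ≤ δ_c := max_{j < Q} ‖φ' c_j - φ c_j‖` or `δ = 0`: writing `a = C (constantCoeff a) + ∑_j b_j c_j`, get `‖φ' a - φ a‖ ≤ max δ_c (c * δ)`. So `δ ≤ max δ_c (c * δ)`, and `c * δ < δ` if `δ > 0`.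
Step 2. `HtLaw.exists_torsion_factor` gives `[p]_L = D * U`, `[p]_{L'} = D' * U'`, with `D = (∏_{w ∈ L[p]} (X - w)) ^ q`, `D' = (∏_{w' ∈ L'[p]} (X - w')) ^ q`. By `HtLaw.exists_preimage_torsion` and `norm_evHom_eq_of_unit` (injectivity) `f` is a bijection `L[p] → L'[p]`, so `D' = (∏_{w ∈ L[p]} (X - f(w))) ^ q`.
With `η₂ = max_{w ∈ L[p]} ‖f(w) - w‖`, by `norm_coeff_prod_sub_le`, `norm_coeff_pow_sub_le`, `ε := η₂ ^ q` bounds the coefficients of `D' - D`. All roots `w` have norm `< 1`, so there is `r' < 1` with `‖D_j‖ ≤ r'`, `j < Q`. By `norm_coeff_low_le`, `δ_c ≤ max ε (r' * δ)`. So `δ ≤ max ε (r'' * δ)`, with `r'' < 1` and so `δ ≤ ε = η₂ ^ q`, when `δ > 0`.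
Step 3. For `w ∈ L[p]`, `w = p ^ E • ∑ a j • z j`; `f(w) = p ^ E • ∑ a j • f(z j)`. By `norm_sum_nsmul_sub_sum_le` with `ε' = max δ η`, `norm_nsmul_pow_sub_of_close`: `‖f(w) - w‖ ≤ max (max δ η ^ (q ^ E)) δ ≤ max (η ^ (q ^ E)) δ` (as `δ < 1`). So `δ ≤ max (η ^ (q ^ E)) δ ^ q ≤ max (η ^ (q ^ (E + 1))) (δ ^ q)`. If `δ > 0`, `δ ^ q < δ`, so `δ ≤ η ^ (q ^ (E + 1))`. -/
theorem strong_closeness {h : ℕ} {S : Setting C p n N k} {φ φ' : MvPowerSeries (Fin N) k →+* OC C} (hφ : Adm S φ) (hφ' : Adm S φ')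
    (hI : IsLocalRing.maximalIdeal (MvPowerSeries (Fin N) k) =
      Ideal.span {a | ∃ j, j < p ^ n ∧ a = PowerSeries.coeff j (mulSeries S.F p)})
    (hh1 : 1 ≤ h) (hhn : h < n)
    (H : HtLaw (lawOf S φ hφ) h) (H' : HtLaw (lawOf S φ' hφ') h)
    (f : PowerSeries (OC C)) (hf : IsHom (lawOf S φ hφ).G (lawOf S φ' hφ').G f)
    (hu : ‖((PowerSeries.coeff 1 f : OC C) : C)‖ = 1)
    {M : ℕ} (z : Fin M → Pts (lawOf S φ hφ).G) (E : ℕ)
    (hz : ∀ w : Pts (lawOf S φ hφ).G, p • w = 0 → ∃ a : Fin M → ℕ, w = (p ^ E) • ∑ j, a j • z j)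
    {η : ℝ} (hη0 : 0 ≤ η) (hη1 : η < 1) (hη : ∀ j, ‖(evHom f hf (z j)).v - (z j).v‖ ≤ η)
    (a : MvPowerSeries (Fin N) k) :
    ‖((φ' a : OC C) : C) - (φ a : OC C)‖ ≤ η ^ (p ^ (h * (E + 1))) := by
  classical
  have hc0 := S.c0
  have hc1 := S.c1
  have hp2 : 2 ≤ p := hp.out.two_le
  -- the supremum
  have hbddc : ∀ a, ‖((φ' a : OC C) : C) - (φ a : OC C)‖ ≤ S.c := by
    intro a
    rw [phi_sub_phi_eq hφ hφ', sub_eq_add_neg]
    have hc : MvPowerSeries.constantCoeff (a - MvPowerSeries.C (MvPowerSeries.constantCoeff a)) = 0 := by simp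
    refine (IsUltrametricDist.norm_add_le_max _ _).trans (max_le (hφ'.hc _ hc) ?_)
    rw [norm_neg]
    exact hφ.hc _ hc
  obtain ⟨δ, hδdef⟩ : ∃ δ : ℝ, δ = ⨆ a, ‖((φ' a : OC C) : C) - (φ a : OC C)‖ := ⟨_, rfl⟩
  have hbdd : BddAbove (Set.range fun a => ‖((φ' a : OC C) : C) - (φ a : OC C)‖) :=
    ⟨S.c, by rintro _ ⟨i, rfl⟩; exact hbddc i⟩
  have hδi : ∀ a, ‖((φ' a : OC C) : C) - (φ a : OC C)‖ ≤ δ := fun a => by
    rw [hδdef]; exact le_ciSup hbdd a
  have hδ0 : 0 ≤ δ := (norm_nonneg _).trans (hδi 0)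
  have hδc : δ ≤ S.c := by rw [hδdef]; exact ciSup_le hbddc
  have hδ1 : δ < 1 := lt_of_le_of_lt hδc hc1
  -- the coefficients of the series `[p]`
  have hcoefL : ∀ j, PowerSeries.coeff j (mulSeries (lawOf S φ hφ).G p) = φ (PowerSeries.coeff j (mulSeries S.F p)) := by
    intro j
    show PowerSeries.coeff j (mulSeries (S.F.map φ) p) = _
    rw [mulSeries_map, PowerSeries.coeff_map]
  have hcoefL' : ∀ j, PowerSeries.coeff j (mulSeries (lawOf S φ' hφ').G p) = φ' (PowerSeries.coeff j (mulSeries S.F p)) := by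
    intro j
    show PowerSeries.coeff j (mulSeries (S.F.map φ') p) = _
    rw [mulSeries_map, PowerSeries.coeff_map]
  have hcp : ∀ j, ‖((PowerSeries.coeff j (mulSeries (lawOf S φ' hφ').G p) : OC C) : C) -
      (PowerSeries.coeff j (mulSeries (lawOf S φ hφ).G p) : OC C)‖ ≤ δ := by
    intro j
    rw [hcoefL, hcoefL']
    exact hδi _
  -- Step 3: the displacement of the torsion points
  obtain ⟨η₂, hη₂⟩ : ∃ η₂ : ℝ, η₂ = max (η ^ (p ^ (h * E))) δ := ⟨_, rfl⟩
  have hη₂0 : 0 ≤ η₂ := by rw [hη₂]; exact le_max_of_le_right hδ0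
  have hdisp : ∀ w : Pts (lawOf S φ hφ).G, p • w = 0 → ‖(evHom f hf w).v - w.v‖ ≤ η₂ := by
    intro w hw
    obtain ⟨b, rfl⟩ := hz w hw
    have e : evHom f hf ((p ^ E) • ∑ j, b j • z j) = (p ^ E) • ∑ j, b j • evHom f hf (z j) := by
      rw [map_nsmul, map_sum]
      simp only [map_nsmul]
    rw [e]
    have hm0 : 0 ≤ max δ η := le_max_of_le_left hδ0
    have h1 : ‖(∑ j, b j • evHom f hf (z j)).v - (∑ j, b j • z j).v‖ ≤ max δ η :=
      norm_sum_nsmul_sub_sum_le hm0
        (coeff_lawOf_close hφ' hφ hm0 (fun a => (hδi a).trans (le_max_left _ _))) _ _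
        (fun j => (hη j).trans (le_max_right _ _)) b
    have h2 := norm_nsmul_pow_sub_of_close H' hδ0 hδ1 hm0 hcp _ _ h1 E
    refine h2.trans ?_
    rw [hη₂]
    refine max_le ?_ (le_max_right _ _)
    rcases le_total δ η with h3 | h3
    · rw [max_eq_right h3]
      exact le_max_left _ _
    · rw [max_eq_left h3]
      refine le_max_of_le_right ?_
      calc δ ^ p ^ (h * E) ≤ δ ^ 1 := pow_le_pow_of_le_one hδ0 hδ1.le (Nat.one_le_pow _ _ hp.out.pos)
        _ = δ := pow_one _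
  -- Step 2: the factorisations
  obtain ⟨s, U, r', hr'0, hr'1, hs, hU, hdeg, hlow, hfac⟩ := H.exists_torsion_factor' S.hn hhn
  obtain ⟨s', U', r'', hr''0, hr''1, hs', hU', hdeg', hlow', hfac'⟩ := H'.exists_torsion_factor' S.hn hhn
  have hprod : (∏ w ∈ s', (Polynomial.X - Polynomial.C w.o) : Polynomial (OC C)) =
      ∏ w ∈ s, (Polynomial.X - Polynomial.C (evHom f hf w).o) := by
    symm
    refine Finset.prod_bij (fun w _ => evHom f hf w) ?_ ?_ ?_ (fun _ _ => rfl)
    · intro w hw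
      rw [hs'] at *
      rw [← map_nsmul, (hs w).mp hw, map_zero]
    · intro x _ y _ hxy
      have h0 : evHom f hf (x - y) = 0 := by rw [map_sub, hxy, sub_self]
      have h1 := norm_evHom_eq_of_unit f hf hu (x - y)
      rw [h0] at h1
      have h2 : (x - y).v = 0 := by
        have h3 : ‖(0 : Pts (lawOf S φ' hφ').G).v‖ = 0 := by simp
        rw [h3] at h1
        exact norm_eq_zero.mp h1.symm
      have h3 : x - y = 0 := Pts.ext (by simpa using h2)
      exact sub_eq_zero.mp h3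
    · intro y hy
      have hy1 : (p ^ 1) • y = 0 := by rw [pow_one]; exact (hs' y).mp hy
      obtain ⟨x, hx1, hx2⟩ := H.exists_preimage_torsion H' S.hn hhn f hf hu 1 y hy1
      refine ⟨x, (hs x).mpr (by rwa [pow_one] at hx1), hx2⟩
  obtain ⟨ε, hεdef⟩ : ∃ ε : ℝ, ε = η₂ ^ (p ^ h) := ⟨_, rfl⟩
  have hε0 : 0 ≤ ε := by rw [hεdef]; positivity
  have hA0 : ∀ j, ‖(((∏ w ∈ s, (Polynomial.X - Polynomial.C (evHom f hf w).o) : Polynomial (OC C)).coeff j -
      (∏ w ∈ s, (Polynomial.X - Polynomial.C w.o) : Polynomial (OC C)).coeff j : OC C) : C)‖ ≤ η₂ := fun j =>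
    norm_coeff_prod_sub_le s (fun w => w.o) (fun w => (evHom f hf w).o) hη₂0 (fun w hw => hdisp w ((hs w).mp hw)) j
  have hA : ∀ j, ‖((((∏ w ∈ s', (Polynomial.X - Polynomial.C w.o)) ^ (p ^ h) : Polynomial (OC C)).coeff j -
      ((∏ w ∈ s, (Polynomial.X - Polynomial.C w.o)) ^ (p ^ h) : Polynomial (OC C)).coeff j : OC C) : C)‖ ≤ ε := by
    intro j
    rw [hprod, hεdef]
    exact norm_coeff_pow_sub_le _ _ hη₂0 hA0 h j
  have hmonic : ∀ t : Finset (Pts (lawOf S φ hφ).G), ((∏ w ∈ t, (Polynomial.X - Polynomial.C w.o)) ^ (p ^ h) : Polynomial (OC C)).Monic :=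
    fun t => (Polynomial.monic_prod_of_monic _ _ fun w _ => Polynomial.monic_X_sub_C _).pow _
  have hmonic' : ∀ t : Finset (Pts (lawOf S φ' hφ').G), ((∏ w ∈ t, (Polynomial.X - Polynomial.C w.o)) ^ (p ^ h) : Polynomial (OC C)).Monic :=
    fun t => (Polynomial.monic_prod_of_monic _ _ fun w _ => Polynomial.monic_X_sub_C _).pow _
  have hSj : ∀ j, ‖((PowerSeries.coeff j
      ((((∏ w ∈ s', (Polynomial.X - Polynomial.C w.o)) ^ (p ^ h) : Polynomial (OC C)) : PowerSeries (OC C)) * U' -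
        (((∏ w ∈ s, (Polynomial.X - Polynomial.C w.o)) ^ (p ^ h) : Polynomial (OC C)) : PowerSeries (OC C)) * U) : OC C) : C)‖ ≤ δ := by
    intro j
    rw [← hfac, ← hfac', map_sub]
    exact hcp j
  have hlowc : ∀ j, j < p ^ n → ‖((φ' (PowerSeries.coeff j (mulSeries S.F p)) : OC C) : C) - (φ (PowerSeries.coeff j (mulSeries S.F p)) : OC C)‖ ≤ max ε (r' * δ) := by
    intro j hj
    have h1 := norm_coeff_low_le U U' _ _ (hmonic s) (hmonic' s') hdeg hdeg' hr'0 hr'1 hδ0 hε0 hlow hA hSj j hj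
    rw [← hfac, ← hfac', map_sub, hcoefL, hcoefL'] at h1
    exact h1
  -- Step 1
  have hall : ∀ a, ‖((φ' a : OC C) : C) - (φ a : OC C)‖ ≤ max (max ε (r' * δ)) (S.c * δ) :=
    norm_phi_sub_le_of_span hφ hφ' hI (le_max_of_le_left hε0) hδi hlowc
  have hδle : δ ≤ max (max ε (r' * δ)) (S.c * δ) := hδdef.le.trans (ciSup_le hall)
  -- the conclusion
  have hq2 : p ^ h ≠ 1 := by
    have : 1 < p ^ h := Nat.one_lt_pow (by omega) hp.out.one_lt
    omega
  have hfinal : δ ≤ η ^ (p ^ (h * (E + 1))) := by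
    rcases eq_or_lt_of_le hδ0 with h0 | hpos
    · rw [← h0]; positivity
    · have hδε : δ ≤ ε := by
        rcases le_max_iff.mp hδle with h1 | h1
        · rcases le_max_iff.mp h1 with h2 | h2
          · exact h2
          · exfalso; nlinarith
        · exfalso; nlinarith
      rw [hεdef, hη₂] at hδε
      rcases le_total (η ^ (p ^ (h * E))) δ with h3 | h3
      · rw [max_eq_right h3] at hδε
        exfalso
        have h4 : δ ^ p ^ h < δ ^ 1 := pow_lt_pow_right_of_lt_one₀ hpos hδ1 (by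
          have : 1 < p ^ h := Nat.one_lt_pow (by omega) hp.out.one_lt
          exact this)
        rw [pow_one] at h4
        linarith
      · rw [max_eq_left h3, ← pow_mul, ← pow_add] at hδε
        have e4 : h * E + h = h * (E + 1) := by ring
        rwa [e4] at hδε
  exact (hδi a).trans hfinal

end Vale.Agent.Lib.P217
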