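import Vale.Agent.Lib.P217.HBasic

set_option linter.unusedSectionVars false
set_option linter.unusedVariables false

/-!
Gauss norms of power series over the closed unit ball, and the Cauchy estimate.
-/

namespace Vale.Agent.Lib.P217

open scoped Topology
open Filter

variable {C : Type*} [NormedField C] [IsUltrametricDist C] [CompleteSpace C]

/-- The Gauss norm of a power series at radius `r`. -/
noncomputable def gn (P : PowerSeries (OC C)) (r : ℝ) : ℝ :=
  ⨆ m : ℕ, ‖((PowerSeries.coeff m P : OC C) : C)‖ * r ^ m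

theorem bddAbove_gn (P : PowerSeries (OC C)) {r : ℝ} (h0 : 0 ≤ r) (h1 : r ≤ 1) :
    BddAbove (Set.range fun m : ℕ => ‖((PowerSeries.coeff m P : OC C) : C)‖ * r ^ m) := by
  refine ⟨1, ?_⟩
  rintro _ ⟨m, rfl⟩
  exact mul_le_one₀ (norm_OC_le _) (pow_nonneg h0 m) (pow_le_one₀ h0 h1)

theorem le_gn (P : PowerSeries (OC C)) {r : ℝ} (h0 : 0 ≤ r) (h1 : r ≤ 1) (m : ℕ) :
    ‖((PowerSeries.coeff m P : OC C) : C)‖ * r ^ m ≤ gn P r :=
  le_ciSup (bddAbove_gn P h0 h1) m

theorem gn_le (P : PowerSeries (OC C)) {r T : ℝ}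
    (hT : ∀ m, ‖((PowerSeries.coeff m P : OC C) : C)‖ * r ^ m ≤ T) : gn P r ≤ T :=
  ciSup_le hT

theorem gn_nonneg (P : PowerSeries (OC C)) {r : ℝ} (h0 : 0 ≤ r) (h1 : r ≤ 1) : 0 ≤ gn P r := by
  exact le_trans (by positivity) (le_gn P h0 h1 0)

/-- The value of a series at a point of norm at most `r` is bounded by the Gauss norm. -/
theorem norm_ev1_le_gn (P : PowerSeries (OC C)) {r : ℝ} (h1 : r < 1) (x : OC C) (hx : ‖(x : C)‖ ≤ r) :
    ‖((ev1 (RingHom.id _) x P : OC C) : C)‖ ≤ gn P r := by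
  have h0' : 0 ≤ r := le_trans (norm_nonneg _) hx
  have h := hasSum_ev1 (RingHom.id (OC C)) (x := x) (lt_of_le_of_lt hx h1) P
  refine norm_sum_le_of_hasSum h (gn_nonneg P h0' h1.le) fun m => ?_
  refine le_trans ?_ (le_gn P h0' h1.le m)
  push_cast
  rw [norm_mul, norm_pow]
  exact mul_le_mul_of_nonneg_left (pow_le_pow_left₀ (norm_nonneg _) hx m) (norm_nonneg _)

/-- The Gauss norm is attained, when `P ≠ 0` and `0 < r < 1`. -/
theorem exists_gn_attained {P : PowerSeries (OC C)} (hP : P ≠ 0) {r : ℝ} (h0 : 0 < r) (h1 : r < 1) :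
    ∃ m, ‖((PowerSeries.coeff m P : OC C) : C)‖ * r ^ m = gn P r := by
  classical
  have hf : ∀ m, ‖((PowerSeries.coeff m P : OC C) : C)‖ * r ^ m ≤ r ^ m := fun m =>
    mul_le_of_le_one_left (pow_nonneg h0.le m) (norm_OC_le _)
  obtain ⟨m₀, hm₀⟩ : ∃ m₀, PowerSeries.coeff m₀ P ≠ 0 := by
    by_contra hcon
    push Not at hcon
    exact hP (PowerSeries.ext (by simpa using hcon))
  set f : ℕ → ℝ := fun m => ‖((PowerSeries.coeff m P : OC C) : C)‖ * r ^ m with hfdef
  have hm₀' : 0 < f m₀ := by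
    have : ((PowerSeries.coeff m₀ P : OC C) : C) ≠ 0 := fun h => hm₀ (Subtype.ext h)
    exact mul_pos (norm_pos_iff.mpr this) (pow_pos h0 m₀)
  have hlim : Tendsto (fun m : ℕ => r ^ m) atTop (𝓝 0) := tendsto_pow_atTop_nhds_zero_of_lt_one h0.le h1
  obtain ⟨N, hN⟩ := (Filter.eventually_atTop.mp (hlim.eventually (gt_mem_nhds hm₀')))
  obtain ⟨m₁, hm₁, hmax⟩ := Finset.exists_max_image (Finset.range (N + m₀ + 1)) f
    ⟨m₀, Finset.mem_range.mpr (by omega)⟩
  refine ⟨m₁, le_antisymm (le_gn P h0.le h1.le m₁) (gn_le P fun m => ?_)⟩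
  by_cases hm : m < N + m₀ + 1
  · exact hmax m (Finset.mem_range.mpr hm)
  · have h2 : f m < f m₀ := lt_of_le_of_lt (hf m) (hN m (by omega))
    exact (h2.le).trans (hmax m₀ (Finset.mem_range.mpr (by omega)))

theorem gn_pos {P : PowerSeries (OC C)} (hP : P ≠ 0) {r : ℝ} (h0 : 0 < r) (h1 : r < 1) : 0 < gn P r := by
  obtain ⟨m, hm⟩ := exists_gn_attained hP h0 h1
  obtain ⟨m₀, hm₀⟩ : ∃ m₀, PowerSeries.coeff m₀ P ≠ 0 := by
    by_contra hcon
    push Not at hcon
    exact hP (PowerSeries.ext (by simpa using hcon))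
  have : ((PowerSeries.coeff m₀ P : OC C) : C) ≠ 0 := fun h => hm₀ (Subtype.ext h)
  exact lt_of_lt_of_le (mul_pos (norm_pos_iff.mpr this) (pow_pos h0 m₀)) (le_gn P h0.le h1.le m₀)

/-- A strict form of monotonicity: for series without constant term, `gn P r ≤ (r / r') * gn P r'`. -/
theorem gn_le_of_lt {P : PowerSeries (OC C)} (hP : PowerSeries.constantCoeff P = 0) {r r' : ℝ} (h0 : 0 ≤ r)
    (hr : r ≤ r') (h1 : r' < 1) (hr' : 0 < r') : gn P r ≤ (r / r') * gn P r' := by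
  refine gn_le P fun m => ?_
  rcases Nat.eq_zero_or_pos m with rfl | hm
  · have : (PowerSeries.coeff 0 P : OC C) = 0 := by simpa using hP
    rw [this]
    simp only [ZeroMemClass.coe_zero, norm_zero, zero_mul]
    exact mul_nonneg (div_nonneg h0 hr'.le) (gn_nonneg P hr'.le h1.le)
  · have hq0 : 0 ≤ r / r' := div_nonneg h0 hr'.le
    have hq1 : r / r' ≤ 1 := (div_le_one hr').mpr hr
    have h2 : r ^ m ≤ (r / r') * r' ^ m := by
      have h3 : r ^ m = (r / r') ^ m * r' ^ m := by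
        rw [← mul_pow, div_mul_cancel₀ _ hr'.ne']
      rw [h3]
      exact mul_le_mul_of_nonneg_right (pow_le_of_le_one hq0 hq1 hm.ne') (pow_nonneg hr'.le m)
    calc ‖((PowerSeries.coeff m P : OC C) : C)‖ * r ^ m
        ≤ ‖((PowerSeries.coeff m P : OC C) : C)‖ * ((r / r') * r' ^ m) :=
          mul_le_mul_of_nonneg_left h2 (norm_nonneg _)
      _ = (r / r') * (‖((PowerSeries.coeff m P : OC C) : C)‖ * r' ^ m) := by ring
      _ ≤ (r / r') * gn P r' := mul_le_mul_of_nonneg_left (le_gn P hr'.le h1.le m) hq0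

/-- Beyond any threshold below the Gauss norm, only finitely many monomials: there is `g' < gn P r` which bounds all
the monomials of index outside a given finite set `s`, if none of those attains the Gauss norm. -/
theorem exists_lt_gn_of_not_attained {P : PowerSeries (OC C)} (hP : P ≠ 0) {r : ℝ} (h0 : 0 < r) (h1 : r < 1)
    (A : Set ℕ) (hA : ∀ m ∈ A, ‖((PowerSeries.coeff m P : OC C) : C)‖ * r ^ m < gn P r) :
    ∃ g' : ℝ, g' < gn P r ∧ ∀ m ∈ A, ‖((PowerSeries.coeff m P : OC C) : C)‖ * r ^ m ≤ g' := by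
  classical
  have hpos := gn_pos hP h0 h1
  set f : ℕ → ℝ := fun m => ‖((PowerSeries.coeff m P : OC C) : C)‖ * r ^ m with hfdef
  have hf : ∀ m, f m ≤ r ^ m := fun m =>
    mul_le_of_le_one_left (pow_nonneg h0.le m) (norm_OC_le _)
  have hlim : Tendsto (fun m : ℕ => r ^ m) atTop (𝓝 0) := tendsto_pow_atTop_nhds_zero_of_lt_one h0.le h1
  obtain ⟨N, hN⟩ := (Filter.eventually_atTop.mp (hlim.eventually (gt_mem_nhds (half_pos hpos))))
  set S : Finset ℕ := (Finset.range N).filter (fun m => m ∈ A) with hS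
  have hlt : ∀ a ∈ S.image f ∪ {gn P r / 2}, a < gn P r := by
    intro a ha
    rcases Finset.mem_union.mp ha with ha | ha
    · obtain ⟨m, hm, rfl⟩ := Finset.mem_image.mp ha
      exact hA m (Finset.mem_filter.mp hm).2
    · rw [Finset.mem_singleton.mp ha]
      exact half_lt_self hpos
  have hne : (S.image f ∪ {gn P r / 2}).Nonempty := ⟨gn P r / 2, by simp⟩
  refine ⟨(S.image f ∪ {gn P r / 2}).max' hne, hlt _ (Finset.max'_mem _ hne), fun m hm => ?_⟩
  by_cases hmN : m < N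
  · exact Finset.le_max' _ _ (Finset.mem_union_left _ (Finset.mem_image_of_mem f
      (Finset.mem_filter.mpr ⟨Finset.mem_range.mpr hmN, hm⟩)))
  · have h2 : f m ≤ gn P r / 2 := (hf m).trans (hN m (by omega)).le
    exact h2.trans (Finset.le_max' _ _ (Finset.mem_union_right _ (by simp)))

/-- The limit of a summable series all of whose terms except one are small. -/
theorem norm_hasSum_sub_single_le {g : ℕ → C} {S : C} (hg : HasSum g S) (m : ℕ) {B : ℝ} (hB : 0 ≤ B)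
    (hsmall : ∀ m', m' ≠ m → ‖g m'‖ ≤ B) : ‖S - g m‖ ≤ B := by
  classical
  have h1 : HasSum (fun m' => if m' = m then g m else 0) (g m) := hasSum_ite_eq m (g m)
  have h2 := hg.sub h1
  rw [← h2.tsum_eq]
  refine IsUltrametricDist.norm_tsum_le_of_forall_le_of_nonneg hB fun m' => ?_
  by_cases h : m' = m
  · subst h; simpa using hB
  · simpa [h] using hsmall m' h

/-- Arbitrarily large naturals have norm one in `C`. -/
theorem exists_large_unit_nat (N : ℕ) : ∃ M : ℕ, N ≤ M ∧ ‖(M : C)‖ = 1 := by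
  by_cases h : ∃ q : ℕ, q.Prime ∧ ‖(q : C)‖ < 1
  · obtain ⟨q, hq, hq1⟩ := h
    have hps : N + 1 < q ^ (N + 1) := Nat.lt_pow_self hq.two_le
    refine ⟨q ^ (N + 1) - 1, by omega, ?_⟩
    have h2 : ((q ^ (N + 1) - 1 : ℕ) : C) = (q : C) ^ (N + 1) - 1 := by
      rw [Nat.cast_sub (by omega)]; simp
    rw [h2]
    have h3 : ‖(q : C) ^ (N + 1)‖ < 1 := by
      rw [norm_pow]; exact pow_lt_one₀ (norm_nonneg _) hq1 (by omega)
    have h4 : ‖(q : C) ^ (N + 1)‖ ≠ ‖(1 : C)‖ := by rw [norm_one]; exact h3.ne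
    have h5 : ‖(q : C) ^ (N + 1)‖ ≠ ‖(-1 : C)‖ := by rwa [norm_neg]
    rw [sub_eq_add_neg, IsUltrametricDist.norm_add_eq_max_of_norm_ne_norm h5, norm_neg, norm_one]
    exact max_eq_right h3.le
  · push Not at h
    have hall : ∀ n : ℕ, n ≠ 0 → ‖(n : C)‖ = 1 := by
      intro n
      induction n using Nat.recOnMul with
      | zero => intro h0; exact absurd rfl h0
      | one => intro _; simp
      | prime q hq =>
        intro _
        exact le_antisymm (IsUltrametricDist.norm_natCast_le_one C q) (h q hq)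
      | mul a b ha hb =>
        intro hab
        have ha0 : a ≠ 0 := fun h0 => hab (by simp [h0])
        have hb0 : b ≠ 0 := fun h0 => hab (by simp [h0])
        rw [Nat.cast_mul, norm_mul, ha ha0, hb hb0, one_mul]
    exact ⟨N + 1, by omega, hall _ (by omega)⟩

variable {p : ℕ} [hp : Fact p.Prime] [CharP C p] [IsAlgClosed C]

theorem cauchy_aux (P : PowerSeries (OC C)) {r : ℝ} (π : C) (hπ : ‖π‖ = r) (h0 : 0 < r) (h1 : r < 1)
    {T : ℝ} (hT0 : 0 ≤ T) (hT : ∀ x : OC C, ‖(x : C)‖ ≤ r → ‖((ev1 (RingHom.id _) x P : OC C) : C)‖ ≤ T) (m : ℕ) :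
    ‖((PowerSeries.coeff m P : OC C) : C)‖ * r ^ m ≤ T := by
  classical
  by_contra hcon
  push Not at hcon
  set cm : C := ((PowerSeries.coeff m P : OC C) : C) with hcm
  have hcmpos : 0 < ‖cm‖ := by
    by_contra h
    have : ‖cm‖ = 0 := le_antisymm (not_lt.mp h) (norm_nonneg _)
    rw [this, zero_mul] at hcon
    exact absurd hcon (not_lt.mpr hT0)
  -- choose `s`
  have hlim : Tendsto (fun n : ℕ => r ^ n) atTop (𝓝 0) := tendsto_pow_atTop_nhds_zero_of_lt_one h0.le h1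
  obtain ⟨N₁, hN₁⟩ := (Filter.eventually_atTop.mp (hlim.eventually (gt_mem_nhds hcmpos)))
  obtain ⟨M, hMge, hMn⟩ := exists_large_unit_nat (C := C) (N₁ + m + 1)
  have hMm : m < M := by omega
  have hM0 : M ≠ 0 := by omega
  have hMN : N₁ ≤ M := by omega
  have hNZ : NeZero ((M : ℕ) : C) := ⟨fun h => by rw [h, norm_zero] at hMn; exact zero_ne_one hMn⟩
  obtain ⟨ζ, hζ⟩ := HasEnoughRootsOfUnity.exists_primitiveRoot C M
  have hζM : ζ ^ M = 1 := hζ.pow_eq_one
  have hζn : ‖ζ‖ = 1 := by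
    have h2 : ‖ζ‖ ^ M = 1 := by rw [← norm_pow, hζM, norm_one]
    exact (pow_eq_one_iff_of_nonneg (norm_nonneg _) hM0).mp h2
  have hζ0 : ζ ≠ 0 := by
    intro h; rw [h, norm_zero] at hζn; exact zero_ne_one hζn
  -- the points
  have hpt : ∀ j : ℕ, ‖ζ ^ j * π‖ ≤ 1 := fun j => by
    rw [norm_mul, norm_pow, hζn, one_pow, one_mul, hπ]; exact h1.le
  let x : ℕ → OC C := fun j => ⟨ζ ^ j * π, hpt j⟩
  have hxr : ∀ j, ‖((x j : OC C) : C)‖ = r := fun j => by
    change ‖ζ ^ j * π‖ = r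
    rw [norm_mul, norm_pow, hζn, one_pow, one_mul, hπ]
  -- each evaluation as a sum in `C`
  let c : ℕ → C := fun m' => ((PowerSeries.coeff m' P : OC C) : C)
  have hsum : ∀ j : ℕ, HasSum (fun m' : ℕ => c m' * (ζ ^ j * π) ^ m')
      ((ev1 (RingHom.id _) (x j) P : OC C) : C) := fun j => by
    have h2 := (hasSum_ev1 (RingHom.id (OC C)) (x := x j) (by rw [hxr]; exact h1) P).map (OC C).subtype
      continuous_subtype_val
    simpa [Function.comp_def, x, c] using h2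
  -- Fourier kernel
  let G : ℕ → C := fun m' => ∑ j ∈ Finset.range M, (ζ ^ m' * ζ⁻¹ ^ m) ^ j
  have hsum2 : HasSum (fun m' : ℕ => c m' * π ^ m' * G m')
      (∑ j ∈ Finset.range M, (ζ⁻¹ ^ m) ^ j * ((ev1 (RingHom.id _) (x j) P : OC C) : C)) := by
    have h2 := hasSum_sum (s := Finset.range M) (fun j _ => (hsum j).mul_left ((ζ⁻¹ ^ m) ^ j))
    have h3 : (fun m' : ℕ => c m' * π ^ m' * G m') =
        fun m' : ℕ => ∑ j ∈ Finset.range M, (ζ⁻¹ ^ m) ^ j * (c m' * (ζ ^ j * π) ^ m') := by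
      funext m'
      simp only [G, Finset.mul_sum]
      refine Finset.sum_congr rfl fun j _ => ?_
      rw [mul_pow, mul_pow, ← pow_mul, ← pow_mul, ← pow_mul, mul_comm j m']
      ring
    rw [h3]
    exact h2
  set S : C := ∑ j ∈ Finset.range M, (ζ⁻¹ ^ m) ^ j * ((ev1 (RingHom.id _) (x j) P : OC C) : C) with hS
  have hSle : ‖S‖ ≤ T := by
    refine IsUltrametricDist.norm_sum_le_of_forall_le_of_nonneg hT0 fun j _ => ?_
    rw [norm_mul, norm_pow, norm_pow, norm_inv, hζn, inv_one, one_pow, one_pow, one_mul]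
    exact hT (x j) (hxr j).le
  -- values of the kernel
  have hGm : G m = M := by
    have : ζ ^ m * ζ⁻¹ ^ m = 1 := by rw [← mul_pow, mul_inv_cancel₀ hζ0, one_pow]
    simp only [G, this, one_pow, Finset.sum_const, Finset.card_range, nsmul_eq_mul, mul_one]
  have hGz : ∀ m', ¬ (m' ≡ m [MOD M]) → G m' = 0 := by
    intro m' hm'
    have hne : ζ ^ m' * ζ⁻¹ ^ m ≠ 1 := by
      intro he
      apply hm'
      have h2 : ζ ^ m' = ζ ^ m := by
        have h3 : ζ⁻¹ ^ m * ζ ^ m = 1 := by rw [← mul_pow, inv_mul_cancel₀ hζ0, one_pow]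
        calc ζ ^ m' = ζ ^ m' * (ζ⁻¹ ^ m * ζ ^ m) := by rw [h3, mul_one]
          _ = (ζ ^ m' * ζ⁻¹ ^ m) * ζ ^ m := by ring
          _ = ζ ^ m := by rw [he, one_mul]
      rw [pow_eq_pow_mod m' hζM, pow_eq_pow_mod m hζM] at h2
      exact hζ.pow_inj (Nat.mod_lt _ (by omega)) (Nat.mod_lt _ (by omega)) h2
    have hgeom := mul_neg_geom_sum (ζ ^ m' * ζ⁻¹ ^ m) M
    have h3 : (ζ ^ m' * ζ⁻¹ ^ m) ^ M = 1 := by
      rw [mul_pow, ← pow_mul, ← pow_mul, mul_comm m' M, mul_comm m M, pow_mul, pow_mul, inv_pow, hζM]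
      simp
    have h4 : (1 - ζ ^ m' * ζ⁻¹ ^ m) * G m' = 0 := by
      have : (1 - ζ ^ m' * ζ⁻¹ ^ m) * G m' = 1 - (ζ ^ m' * ζ⁻¹ ^ m) ^ M := hgeom
      rw [this, h3, sub_self]
    exact (mul_eq_zero.mp h4).resolve_left (sub_ne_zero.mpr (Ne.symm hne))
  have hGle : ∀ m', ‖G m'‖ ≤ 1 := by
    intro m'
    refine IsUltrametricDist.norm_sum_le_of_forall_le_of_nonneg zero_le_one fun j _ => ?_
    rw [norm_pow, norm_mul, norm_pow, norm_pow, norm_inv, hζn, inv_one, one_pow, one_pow, mul_one, one_pow]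
  -- the tail is small
  set B : ℝ := r ^ (m + M) with hBdef
  have hB0 : 0 ≤ B := pow_nonneg h0.le _
  have hBlt : B < ‖cm‖ * r ^ m := by
    rw [hBdef, pow_add, mul_comm]
    exact mul_lt_mul_of_pos_right (hN₁ M hMN) (pow_pos h0 m)
  have htail : ∀ m', m' ≠ m → ‖c m' * π ^ m' * G m'‖ ≤ B := by
    intro m' hne
    by_cases hmod : m' ≡ m [MOD M]
    · have hge : m + M ≤ m' := by
        rcases lt_or_gt_of_ne hne with hlt | hgt
        · exfalso
          have h2 := (Nat.modEq_iff_dvd' hlt.le).mp hmod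
          have h3 : M ≤ m - m' := Nat.le_of_dvd (by omega) h2
          omega
        · have h2 := (Nat.modEq_iff_dvd' hgt.le).mp hmod.symm
          have h3 : M ≤ m' - m := Nat.le_of_dvd (by omega) h2
          omega
      rw [norm_mul, norm_mul, norm_pow, hπ]
      calc ‖c m'‖ * r ^ m' * ‖G m'‖ ≤ 1 * r ^ m' * 1 := by
            gcongr
            · exact norm_OC_le _
            · exact hGle m'
        _ = r ^ m' := by ring
        _ ≤ B := pow_le_pow_of_le_one h0.le h1.le hge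
    · rw [hGz m' hmod]; simpa using hB0
  have hfinal := norm_hasSum_sub_single_le hsum2 m hB0 htail
  -- conclude
  have hmain : ‖c m * π ^ m * G m‖ = ‖cm‖ * r ^ m := by
    rw [hGm, norm_mul, norm_mul, norm_pow, hπ, hMn, mul_one]
  have hle : ‖c m * π ^ m * G m‖ ≤ max ‖S‖ B := by
    have h2 : c m * π ^ m * G m = S - (S - c m * π ^ m * G m) := by ring
    rw [h2, sub_eq_add_neg]
    refine (IsUltrametricDist.norm_add_le_max _ _).trans ?_
    rw [norm_neg]
    exact max_le_max le_rfl hfinal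
  rw [hmain] at hle
  have : max ‖S‖ B < ‖cm‖ * r ^ m := max_lt (lt_of_le_of_lt hSle hcon) hBlt
  exact absurd hle (not_le.mpr this)

/-- The Cauchy estimate over an algebraically closed field of characteristic `p`: if `‖P(x)‖ ≤ T` for all `‖x‖ ≤ r = ‖π‖`, `0 < r < 1`,
then every monomial of `P` has norm at most `T` at radius `r`.

Proof. Let `M = p ^ s - 1` with `s` so large that `r ^ M ≤ T'`, hmm: precisely, given `m`, suppose `‖c_m‖ r ^ m > T`. Choose `s`
with `M = p ^ s - 1` so large that `r ^ M * ... < ‖c_m‖ r ^ m`, i.e. `r ^ M < ‖c_m‖`. Let `ζ` be a primitive `M`-th root of unity in `C`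
(it exists as `C` is algebraically closed and `p ∤ M`), `‖ζ‖ = 1`. For `x = π`, consider
`∑_{j < M} ζ ^ (-j m) P(ζ ^ j π) = M * ∑_{m' ≡ m mod M} c_{m'} π ^ m'`. `‖M‖ = 1`, the left side has norm at most `T`,
and in the right side, the terms with `m' ≠ m` have norm at most `r ^ (m + M)` or `m' < m`, hmm; if `m' < m`, `m' ≡ m mod M` then `M ≤ m`: take `M > m`,
so that `m' ≥ m + M`, with norm at most `r ^ m r ^ M < ‖c_m‖ r ^ m`. Hence `‖c_m‖ r ^ m ≤ T`. -/
theorem norm_coeff_mul_pow_le_of_eval (P : PowerSeries (OC C)) {r : ℝ} (π : C) (hπ : ‖π‖ = r) (h0 : 0 < r) (h1 : r < 1)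
    {T : ℝ} (hT0 : 0 ≤ T) (hT : ∀ x : OC C, ‖(x : C)‖ ≤ r → ‖((ev1 (RingHom.id _) x P : OC C) : C)‖ ≤ T) (m : ℕ) :
    ‖((PowerSeries.coeff m P : OC C) : C)‖ * r ^ m ≤ T := by
  exact cauchy_aux P π hπ h0 h1 hT0 hT m

theorem gn_le_of_eval (P : PowerSeries (OC C)) {r : ℝ} (π : C) (hπ : ‖π‖ = r) (h0 : 0 < r) (h1 : r < 1)
    {T : ℝ} (hT0 : 0 ≤ T) (hT : ∀ x : OC C, ‖(x : C)‖ ≤ r → ‖((ev1 (RingHom.id _) x P : OC C) : C)‖ ≤ T) :
    gn P r ≤ T :=
  gn_le P (norm_coeff_mul_pow_le_of_eval P π hπ h0 h1 hT0 hT)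

end Vale.Agent.Lib.P217
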