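import Vale.Agent.Lib.P217.HMain
import Vale.Agent.Lib.P217.Final

set_option linter.unusedSectionVars false
set_option linter.unusedVariables false

/-!
Iterates of automorphisms and the theorem on invariant primes in one stratum.
-/

namespace Vale.Agent.Lib.P217

open scoped Topology
open Filter

/-- The iterates of a series under composition. -/
noncomputable def iterS {R : Type*} [CommRing R] (g : PowerSeries R) : ℕ → PowerSeries R
  | 0 => PowerSeries.X
  | m + 1 => PowerSeries.subst (iterS g m) g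

section

variable {R : Type*} [CommRing R]

theorem isHom_iterS {F : FormalGroup R} {g : PowerSeries R} (hg : IsHom F F g) (m : ℕ) : IsHom F F (iterS g m) := by
  induction m with
  | zero => exact isHom_X F
  | succ m ih => exact ih.comp hg

theorem coeff_one_iterS {F : FormalGroup R} {g : PowerSeries R} (hg : IsHom F F g) (hu : IsUnit (PowerSeries.coeff 1 g)) (m : ℕ) :
    IsUnit (PowerSeries.coeff 1 (iterS g m)) := by
  induction m with
  | zero =>
    have h1 : PowerSeries.coeff 1 (iterS g 0) = 1 := by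
      simp [iterS]
    rw [h1]
    exact isUnit_one
  | succ m ih =>
    have h1 : PowerSeries.coeff 1 (iterS g (m + 1)) =
        PowerSeries.coeff 1 g * PowerSeries.coeff 1 (iterS g m) :=
      coeff_one_subst (isHom_iterS hg m).constantCoeff_eq
    rw [h1]
    exact hu.mul ih

end

section

variable {C : Type*} [NormedField C] [IsUltrametricDist C] [CompleteSpace C]
variable {p n N : ℕ} [hp : Fact p.Prime] [CharP C p] [IsAlgClosed C]
variable {k : Type*} [Field k] [Fintype k] [CharP k p]

theorem homEnd_iterS (S : Setting C p n N k) {g : PowerSeries k} (hg : IsHom S.Γ S.Γ g) (m : ℕ) :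
    homEnd S (isHom_iterS hg m) = homEnd S hg ^ m := by
  induction m with
  | zero =>
    rw [pow_zero]
    ext x
    rw [homEnd_v]
    have e : iterS g 0 = PowerSeries.X := rfl
    rw [e, ev1_X]
    rfl
  | succ m ih =>
    have h1 : homEnd S (isHom_iterS hg (m + 1)) = homEnd S hg * homEnd S (isHom_iterS hg m) :=
      homEnd_comp S (isHom_iterS hg m) hg
    rw [h1, ih, pow_succ']

end

section

variable {N : ℕ} {k : Type*} [Field k]

/-- A `k`-automorphism preserves the constant coefficient. -/
theorem constantCoeff_alg_field (τ : MvPowerSeries (Fin N) k ≃ₐ[k] MvPowerSeries (Fin N) k) (a : MvPowerSeries (Fin N) k) :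
    MvPowerSeries.constantCoeff (τ a) = MvPowerSeries.constantCoeff a := by
  have hC : ∀ r : k, τ (MvPowerSeries.C r) = MvPowerSeries.C r := fun r => τ.commutes r
  have h1 : MvPowerSeries.constantCoeff (a - MvPowerSeries.C (MvPowerSeries.constantCoeff a)) = 0 := by
    simp
  have h2 : ¬ IsUnit (a - MvPowerSeries.C (MvPowerSeries.constantCoeff a)) := by
    rw [MvPowerSeries.isUnit_iff_constantCoeff, h1]
    simp
  have h3 : ¬ IsUnit (τ (a - MvPowerSeries.C (MvPowerSeries.constantCoeff a))) := fun hu =>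
    h2 ((MulEquiv.isUnit_map τ.toMulEquiv).mp hu)
  rw [MvPowerSeries.isUnit_iff_constantCoeff, map_sub, hC, map_sub] at h3
  by_contra hne
  apply h3
  simp only [MvPowerSeries.constantCoeff_C]
  exact (sub_ne_zero.mpr hne).isUnit

/-- The composite lift: `K_m : F → F^(τ ^ m)`, reducing to the `m`-th iterate of `g`: `K_0 = X`, `K_{m + 1} = (K.map (τ ^ m)) ∘ K_m`. Uses `IsHom.map'`, `IsHom.comp`, and `constantCoeff_alg` (`τ` preserves the constant coefficient). -/
theorem exists_iter_lift {F : FormalGroup (MvPowerSeries (Fin N) k)}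
    (τ : MvPowerSeries (Fin N) k ≃ₐ[k] MvPowerSeries (Fin N) k) {K : PowerSeries (MvPowerSeries (Fin N) k)} {g : PowerSeries k}
    (hK : IsHom F (F.map (τ : MvPowerSeries (Fin N) k →+* MvPowerSeries (Fin N) k)) K)
    (hKg : PowerSeries.map MvPowerSeries.constantCoeff K = g) (m : ℕ) :
    ∃ K' : PowerSeries (MvPowerSeries (Fin N) k),
      IsHom F (F.map (((τ ^ m : MvPowerSeries (Fin N) k ≃ₐ[k] MvPowerSeries (Fin N) k)) : MvPowerSeries (Fin N) k →+* MvPowerSeries (Fin N) k)) K' ∧
      PowerSeries.map MvPowerSeries.constantCoeff K' = iterS g m := by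
  have hmap : ∀ (G : FormalGroup (MvPowerSeries (Fin N) k))
      (u v : MvPowerSeries (Fin N) k →+* MvPowerSeries (Fin N) k),
      (G.map u).map v = G.map (v.comp u) := by
    intro G u v
    apply FormalGroup.ext
    simp only [FormalGroup.map_toPowerSeries]
    ext d
    simp
  have hmapid : ∀ G : FormalGroup (MvPowerSeries (Fin N) k), G.map (RingHom.id _) = G := by
    intro G
    apply FormalGroup.ext
    simp only [FormalGroup.map_toPowerSeries]
    ext d
    simp [MvPowerSeries.coeff_map]
  induction m with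
  | zero =>
    refine ⟨PowerSeries.X, ?_, ?_⟩
    · have e : (((τ ^ 0 : MvPowerSeries (Fin N) k ≃ₐ[k] MvPowerSeries (Fin N) k)) : MvPowerSeries (Fin N) k →+* MvPowerSeries (Fin N) k) = RingHom.id _ := by
        ext1 a
        simp
      rw [e, hmapid]
      exact isHom_X F
    · simp [iterS]
  | succ m ih =>
    obtain ⟨K', hK', hK'g⟩ := ih
    set T : MvPowerSeries (Fin N) k →+* MvPowerSeries (Fin N) k :=
      ((τ ^ m : MvPowerSeries (Fin N) k ≃ₐ[k] MvPowerSeries (Fin N) k) : MvPowerSeries (Fin N) k →+* MvPowerSeries (Fin N) k) with hT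
    have h1 := hK.map' T
    rw [hmap] at h1
    have e : T.comp (τ : MvPowerSeries (Fin N) k →+* MvPowerSeries (Fin N) k) =
        ((τ ^ (m + 1) : MvPowerSeries (Fin N) k ≃ₐ[k] MvPowerSeries (Fin N) k) : MvPowerSeries (Fin N) k →+* MvPowerSeries (Fin N) k) := by
      ext1 a
      simp [hT, pow_succ]
    rw [e] at h1
    refine ⟨PowerSeries.subst K' (PowerSeries.map T K), hK'.comp h1, ?_⟩
    have hs : PowerSeries.HasSubst K' :=
      PowerSeries.HasSubst.of_constantCoeff_zero' hK'.constantCoeff_eq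
    have h2 : PowerSeries.map MvPowerSeries.constantCoeff (PowerSeries.subst K' (PowerSeries.map T K)) =
        PowerSeries.subst (PowerSeries.map MvPowerSeries.constantCoeff K')
          (PowerSeries.map MvPowerSeries.constantCoeff (PowerSeries.map T K)) :=
      PowerSeries.map_subst hs _
    rw [h2, hK'g]
    have e2 : PowerSeries.map MvPowerSeries.constantCoeff (PowerSeries.map T K) = g := by
      rw [← hKg]
      ext j
      simp only [PowerSeries.coeff_map]
      exact constantCoeff_alg_field _ _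
    rw [e2]
    rfl

end

/-- The theorem on invariant primes in one stratum.

Proof: as `invariant_main` in Final.lean, with `injective_mainH` in place of `injective_main`; `N = 0` is trivial (`𝔭 = ⊥` in a field). `HInvO S φ₀` holds with `g' = iterS g O`, using `homEnd_iterS`, `coeff_one_iterS`, `mem_iff_of_map_eq`. `Adm` requires `hc : c < 1` from `exists_valued_embedding`, which needs that the maximal ideal of `A / 𝔭` is nonzero: it contains the image of `c_q`, `constantCoeff c_q = 0`, as `q < Q`. `hlow` is given. -/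
theorem invariant_mainH {p n N h : ℕ} [Fact p.Prime] (hN : N + h = n) (hh1 : 1 ≤ h) {k : Type} [Field k] [Fintype k] [CharP k p]
    (hk : Fintype.card k = p ^ n)
    (Γ : FormalGroup k) [Γ.IsComm] (hΓp : mulSeries Γ p = PowerSeries.X ^ (p ^ n))
    (hΓF : ∀ d, (MvPowerSeries.coeff d Γ.toPowerSeries) ^ p = MvPowerSeries.coeff d Γ.toPowerSeries)
    (hΓω : ∀ c : k, c ≠ 0 → IsHom Γ Γ (PowerSeries.C c * PowerSeries.X))
    (F : FormalGroup (MvPowerSeries (Fin N) k)) [F.IsComm]
    (hF : F.map MvPowerSeries.constantCoeff = Γ)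
    (hI : IsLocalRing.maximalIdeal (MvPowerSeries (Fin N) k) =
      Ideal.span {a | ∃ j, j < p ^ n ∧ a = PowerSeries.coeff j (mulSeries F p)})
    (hlow : ∀ j, j < p ^ h → PowerSeries.coeff j (mulSeries F p) = 0)
    (𝔭 : Ideal (MvPowerSeries (Fin N) k)) [𝔭.IsPrime]
    (hinv : ∀ g : PowerSeries k, IsHom Γ Γ g → IsUnit (PowerSeries.coeff 1 g) →
      ∃ (O : ℕ) (τ : MvPowerSeries (Fin N) k ≃ₐ[k] MvPowerSeries (Fin N) k)
        (K : PowerSeries (MvPowerSeries (Fin N) k)), 0 < O ∧
        IsHom F (F.map (τ : MvPowerSeries (Fin N) k →+* MvPowerSeries (Fin N) k)) K ∧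
        PowerSeries.map MvPowerSeries.constantCoeff K = iterS g O ∧
        𝔭.map (τ : MvPowerSeries (Fin N) k →+* MvPowerSeries (Fin N) k) = 𝔭) :
    PowerSeries.coeff (p ^ h) (mulSeries F p) ∈ 𝔭 ∨ 𝔭 = ⊥ := by
  classical
  by_cases hcp : PowerSeries.coeff (p ^ h) (mulSeries F p) ∈ 𝔭
  · exact Or.inl hcp
  right
  have hpne : (𝔭 : Ideal (MvPowerSeries (Fin N) k)) ≠ ⊤ := Ideal.IsPrime.ne_top ‹_›
  have hp1 : 1 < p := (Fact.out : p.Prime).one_lt
  rcases Nat.eq_zero_or_pos N with rfl | hN0
  · -- a field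
    rw [eq_bot_iff]
    intro a ha
    rw [Ideal.mem_bot]
    by_contra ha0
    apply hpne
    refine Ideal.eq_top_of_isUnit_mem _ ha ?_
    rw [MvPowerSeries.isUnit_iff_constantCoeff]
    refine IsUnit.mk0 _ fun hc => ha0 ?_
    ext d
    have hd : d = 0 := Subsingleton.elim _ _
    subst hd
    simpa using hc
  have hhn : h < n := by omega
  -- the constant coefficient of `c_q` is zero
  have hcp0 : MvPowerSeries.constantCoeff (PowerSeries.coeff (p ^ h) (mulSeries F p)) = 0 := by
    have h1 : PowerSeries.map (MvPowerSeries.constantCoeff) (mulSeries F p) = mulSeries Γ p := by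
      rw [← hF, mulSeries_map]
    have h2 : PowerSeries.coeff (p ^ h) (PowerSeries.map (MvPowerSeries.constantCoeff) (mulSeries F p)) =
        MvPowerSeries.constantCoeff (PowerSeries.coeff (p ^ h) (mulSeries F p)) := by
      simp
    rw [← h2, h1, hΓp, PowerSeries.coeff_X_pow, if_neg]
    intro he
    have h3 : p ^ h < p ^ n := Nat.pow_lt_pow_right hp1 hhn
    omega
  -- the quotient ring
  have : Nontrivial (MvPowerSeries (Fin N) k ⧸ 𝔭) := Ideal.Quotient.nontrivial_iff.mpr hpne
  have : IsLocalRing (MvPowerSeries (Fin N) k ⧸ 𝔭) :=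
    IsLocalRing.of_surjective' (Ideal.Quotient.mk 𝔭) Ideal.Quotient.mk_surjective
  have hRm : IsLocalRing.maximalIdeal (MvPowerSeries (Fin N) k ⧸ 𝔭) ≠ ⊥ := by
    intro hbot
    have h1 := (mem_maximalIdeal_quot 𝔭 _).mpr hcp0
    rw [hbot, Ideal.mem_bot, Ideal.Quotient.eq_zero_iff_mem] at h1
    exact hcp h1
  obtain ⟨C, _, _, _, _, ι, hιinj, hι1, c, hc1, hc⟩ := exists_valued_embedding hRm
  -- the map to the closed unit ball
  let φ₀ : MvPowerSeries (Fin N) k →+* OC C :=
    RingHom.codRestrict (ι.comp (Ideal.Quotient.mk 𝔭)) (OC C) (fun a => hι1 _)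
  have hφ₀v : ∀ a, ((φ₀ a : OC C) : C) = ι (Ideal.Quotient.mk 𝔭 a) := fun a => rfl
  have hφ₀z : ∀ a, φ₀ a = 0 ↔ a ∈ 𝔭 := by
    intro a
    rw [← Ideal.Quotient.eq_zero_iff_mem, ← map_eq_zero_iff ι hιinj, ← hφ₀v]
    exact ⟨fun h => by rw [h]; rfl, fun h => Subtype.ext h⟩
  let κ : k →+* OC C := φ₀.comp MvPowerSeries.C
  have : CharP C p := charP_of_injective_ringHom ((OC C).subtype.comp κ).injective p
  let S : Setting C p n N k :=
    { hn := by omega
      Γ := Γ
      commΓ := inferInstance
      hΓp := hΓp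
      F := F
      commF := inferInstance
      hF := hF
      κ := κ
      c := max c 0
      c0 := le_max_right _ _
      c1 := max_lt hc1 zero_lt_one }
  have hφ₀A : Adm S φ₀ :=
    { hκ := fun r => rfl
      hc := fun a ha => by
        have h1 := hc _ ((mem_maximalIdeal_quot 𝔭 a).mpr ha)
        exact h1.trans (le_max_left _ _) }
  have hω : HOm S := by
    intro a
    by_cases ha : a = 0
    · subst ha
      simpa using isHom_zero Γ
    · exact hΓω a ha
  have hinj := injective_mainH S hω hΓF hk hh1 hN hφ₀A hN0 hI hlow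
    (fun h => hcp ((hφ₀z _).mp h))
    (fun g hg hgu => by
      obtain ⟨O, τ, K, hO, hK, hKg, hτ⟩ := hinv g hg hgu
      refine ⟨O, iterS g O, isHom_iterS hg O, τ, K, hO, homEnd_iterS S hg O,
        coeff_one_iterS hg hgu O, hK, hKg, fun a => ?_⟩
      rw [hφ₀z, hφ₀z]
      exact mem_iff_of_map_eq τ 𝔭 hτ a)
  rw [eq_bot_iff]
  intro a ha
  rw [Ideal.mem_bot]
  apply hinj
  rw [map_zero]
  exact (hφ₀z a).mpr ha

end Vale.Agent.Lib.P217
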