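import Vale.Agent.Lib.P217.Window
import Vale.Agent.Lib.P217.HBasic
import Vale.Agent.Lib.P217.Choice

set_option linter.unusedSectionVars false
set_option linter.unusedVariables false

/-!
A window basis of the lattice for the norm of the base group.
-/

namespace Vale.Agent.Lib.P217

open scoped Topology
open Filter

namespace HLatAux

/-- The increasing transformation turning the exponent `p ^ e` into `p`. -/
noncomputable def psi (e : ℕ) (t : ℝ) : ℝ :=
  if t ≤ 0 then 0 else Real.exp (-(-Real.log t) ^ ((e : ℝ)⁻¹))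

lemma psi_zero (e : ℕ) : psi e 0 = 0 := by simp [psi]

lemma psi_of_pos (e : ℕ) {t : ℝ} (ht : 0 < t) :
    psi e t = Real.exp (-(-Real.log t) ^ ((e : ℝ)⁻¹)) := by
  simp [psi, not_le.mpr ht]

lemma neg_log_pos {t : ℝ} (h0 : 0 < t) (h1 : t < 1) : 0 < -Real.log t := by
  have := Real.log_neg h0 h1
  linarith

lemma psi_pos (e : ℕ) {t : ℝ} (h0 : 0 < t) : 0 < psi e t := by
  rw [psi_of_pos e h0]
  exact Real.exp_pos _

lemma psi_lt_one {e : ℕ} (he : 1 ≤ e) {t : ℝ} (h1 : t < 1) : psi e t < 1 := by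
  by_cases h0 : t ≤ 0
  · simp [psi, h0]
  · rw [psi_of_pos e (not_le.mp h0)]
    rw [Real.exp_lt_one_iff] 
    have hL := neg_log_pos (not_le.mp h0) h1
    have := Real.rpow_pos_of_pos hL ((e : ℝ)⁻¹)
    linarith

lemma psi_nonneg (e : ℕ) (t : ℝ) : 0 ≤ psi e t := by
  by_cases h0 : t ≤ 0
  · simp [psi, h0]
  · exact (psi_pos e (not_le.mp h0)).le

lemma psi_lt {e : ℕ} (he : 1 ≤ e) {s t : ℝ} (hs : 0 ≤ s) (hst : s < t) (ht : t < 1) :
    psi e s < psi e t := by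
  have ht0 : 0 < t := lt_of_le_of_lt hs hst
  rcases hs.eq_or_lt with h | hs0
  · rw [← h, psi_zero]
    exact psi_pos e ht0
  · rw [psi_of_pos e hs0, psi_of_pos e ht0, Real.exp_lt_exp]
    have hlog : Real.log s < Real.log t := Real.log_lt_log hs0 hst
    have hLt := neg_log_pos ht0 ht
    have hexp : (0 : ℝ) < (e : ℝ)⁻¹ := by
      have : (0 : ℝ) < e := by exact_mod_cast he
      positivity
    have := Real.rpow_lt_rpow hLt.le (show -Real.log t < -Real.log s by linarith) hexp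
    linarith

lemma psi_le_iff {e : ℕ} (he : 1 ≤ e) {s t : ℝ} (hs : 0 ≤ s) (hs1 : s < 1) (ht : 0 ≤ t) (ht1 : t < 1) :
    psi e s ≤ psi e t ↔ s ≤ t := by
  constructor
  · intro h
    by_contra hcon
    exact absurd h (not_le.mpr (psi_lt he ht (not_le.mp hcon) hs1))
  · intro h
    rcases h.eq_or_lt with h | h
    · rw [h]
    · exact (psi_lt he hs h ht1).le

lemma psi_lt_iff {e : ℕ} (he : 1 ≤ e) {s t : ℝ} (hs : 0 ≤ s) (hs1 : s < 1) (ht : 0 ≤ t) (ht1 : t < 1) :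
    psi e s < psi e t ↔ s < t := by
  rw [← not_le, ← not_le, psi_le_iff he ht ht1 hs hs1]

lemma psi_pow {e : ℕ} (he : 1 ≤ e) {p : ℕ} (hp : p ≠ 0) {t : ℝ} (h0 : 0 ≤ t) (h1 : t < 1) :
    psi e (t ^ (p ^ e)) = psi e t ^ p := by
  rcases h0.eq_or_lt with h | h0
  · rw [← h, zero_pow (pow_ne_zero e hp), psi_zero, zero_pow hp]
  · have hpow : 0 < t ^ (p ^ e) := pow_pos h0 _
    rw [psi_of_pos e hpow, psi_of_pos e h0, Real.log_pow]
    have hL := neg_log_pos h0 h1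
    have hp' : (0 : ℝ) ≤ p := Nat.cast_nonneg p
    have he' : e ≠ 0 := by omega
    have e1 : -(((p ^ e : ℕ) : ℝ) * Real.log t) = ((p : ℝ) ^ e) * (-Real.log t) := by
      push_cast
      ring
    rw [e1, Real.mul_rpow (pow_nonneg hp' e) hL.le, Real.pow_rpow_inv_natCast hp' he', ← Real.exp_nat_mul]
    ring_nf

lemma psi_surj {e : ℕ} (he : 1 ≤ e) {s : ℝ} (h0 : 0 < s) (h1 : s < 1) :
    ∃ t : ℝ, 0 < t ∧ t < 1 ∧ psi e t = s := by
  have hL := neg_log_pos h0 h1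
  have he' : e ≠ 0 := by omega
  refine ⟨Real.exp (-(-Real.log s) ^ e), Real.exp_pos _, ?_, ?_⟩
  · rw [Real.exp_lt_one_iff]
    have := pow_pos hL e
    linarith
  · rw [psi_of_pos e (Real.exp_pos _), Real.log_exp, neg_neg, Real.pow_rpow_inv_natCast hL.le he', neg_neg,
      Real.exp_log h0]

end HLatAux

/-- The window family for a norm with `n (p • x) = n x ^ Q`, `Q = p ^ e`, `e ≥ 1`.

One way: apply `exists_window_family` to the transformed norm `n' x = exp (- (- log (n x)) ^ (1 / e))` (and `n' x = 0` if `n x = 0`), which is an increasing function of `n x`, and satisfies `n' (p • x) = n' x ^ p`: the window `n₁' ^ p < n' x ≤ n₁'` is then `n₁ ^ Q < n x ≤ n₁`, with `n₁` defined by `n' = n₁'`. -/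
theorem exists_window_familyQ {T : Type*} [AddCommGroup T] (p : ℕ) [Fact p.Prime] (N e : ℕ) (he : 1 ≤ e)
    (n : T → ℝ) (hn0 : ∀ x, 0 ≤ n x) (hnzero : n 0 = 0)
    (hnneg : ∀ x, n (-x) = n x)
    (hnadd : ∀ x y, n (x + y) ≤ max (n x) (n y))
    (hnp : ∀ x, n (p • x) = n x ^ (p ^ e))
    (κ : ℝ) (hκ : κ < 1) (hκn : ∀ x, n x ≤ κ)
    (r : ℝ) (hr : 0 < r) (hrn : ∀ x, (∀ y, x ≠ p • y) → r ≤ n x)
    (hinj : ∀ x : T, p • x = 0 → x = 0)
    (hcard : Nat.card (T ⧸ (nsmulAddMonoidHom (α := T) p).range) = p ^ N)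
    (hfin : ∀ m : ℕ, Finite (T ⧸ (nsmulAddMonoidHom (α := T) (p ^ m)).range)) :
    ∃ (n₁ : ℝ) (x : Fin N → T), 0 < n₁ ∧ n₁ < 1 ∧
      (∀ i, n₁ ^ (p ^ e) < n (x i) ∧ n (x i) ≤ n₁) ∧
      (∀ a : Fin N → ℕ, (∃ i, ¬ p ∣ a i) → ∃ i, ¬ p ∣ a i ∧
        n (∑ j, a j • x j) = n (x i) ∧ ∀ j, ¬ p ∣ a j → n (x j) ≤ n (x i)) ∧
      (∀ y : T, n y ≤ n₁ → ∃ (a : Fin N → ℕ) (z : T), n z ≤ n₁ ∧ y = ∑ j, a j • x j + p • z) := by
  classical
  have hp : p.Prime := Fact.out
  have hlt : ∀ x, n x < 1 := fun x => lt_of_le_of_lt (hκn x) hκ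
  have hκ0 : 0 ≤ κ := by simpa [hnzero] using hκn 0
  set n' : T → ℝ := fun x => HLatAux.psi e (n x) with hn'
  have hr2 : 0 < min r (1 / 2) := lt_min hr (by norm_num)
  have hr21 : min r (1 / 2) < 1 := lt_of_le_of_lt (min_le_right _ _) (by norm_num)
  obtain ⟨n₁', x, h0', h1', hwin', horth', hspan'⟩ := exists_window_family p N n'
    (fun x => HLatAux.psi_nonneg e _)
    (by simp [hn', hnzero, HLatAux.psi_zero])
    (fun x => by simp only [hn', hnneg])
    (fun x y => by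
      simp only [hn']
      rcases le_total (n x) (n y) with h | h
      · rw [max_eq_right ((HLatAux.psi_le_iff he (hn0 x) (hlt x) (hn0 y) (hlt y)).mpr h)]
        exact (HLatAux.psi_le_iff he (hn0 _) (hlt _) (hn0 y) (hlt y)).mpr
          ((hnadd x y).trans (max_le h le_rfl))
      · rw [max_eq_left ((HLatAux.psi_le_iff he (hn0 y) (hlt y) (hn0 x) (hlt x)).mpr h)]
        exact (HLatAux.psi_le_iff he (hn0 _) (hlt _) (hn0 x) (hlt x)).mpr
          ((hnadd x y).trans (max_le le_rfl h)))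
    (fun x => by
      simp only [hn']
      rw [hnp, HLatAux.psi_pow he hp.ne_zero (hn0 x) (hlt x)])
    (HLatAux.psi e κ) (HLatAux.psi_lt_one he hκ)
    (fun x => (HLatAux.psi_le_iff he (hn0 x) (hlt x) hκ0 hκ).mpr (hκn x))
    (HLatAux.psi e (min r (1 / 2))) (HLatAux.psi_pos e hr2)
    (fun x hx => (HLatAux.psi_le_iff he hr2.le hr21 (hn0 x) (hlt x)).mpr
      ((min_le_left _ _).trans (hrn x hx)))
    hinj hcard hfin
  obtain ⟨n₁, hn₁0, hn₁1, hn₁⟩ := HLatAux.psi_surj he h0' h1'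
  refine ⟨n₁, x, hn₁0, hn₁1, ?_, ?_, ?_⟩
  · intro i
    obtain ⟨h1, h2⟩ := hwin' i
    simp only [hn'] at h1 h2
    rw [← hn₁] at h1 h2
    rw [← HLatAux.psi_pow he hp.ne_zero hn₁0.le hn₁1] at h1
    constructor
    · exact (HLatAux.psi_lt_iff he (pow_nonneg hn₁0.le _) (pow_lt_one₀ hn₁0.le hn₁1 (pow_ne_zero _ hp.ne_zero))
        (hn0 _) (hlt _)).mp h1
    · exact (HLatAux.psi_le_iff he (hn0 _) (hlt _) hn₁0.le hn₁1).mp h2
  · intro a ha
    obtain ⟨i, hi, h1, h2⟩ := horth' a ha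
    refine ⟨i, hi, ?_, ?_⟩
    · simp only [hn'] at h1
      apply le_antisymm
      · exact (HLatAux.psi_le_iff he (hn0 _) (hlt _) (hn0 _) (hlt _)).mp h1.le
      · exact (HLatAux.psi_le_iff he (hn0 _) (hlt _) (hn0 _) (hlt _)).mp h1.ge
    · intro j hj
      exact (HLatAux.psi_le_iff he (hn0 _) (hlt _) (hn0 _) (hlt _)).mp (h2 j hj)
  · intro y hy
    have hy' : n' y ≤ n₁' := by
      simp only [hn']
      rw [← hn₁]
      exact (HLatAux.psi_le_iff he (hn0 _) (hlt _) hn₁0.le hn₁1).mpr hy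
    obtain ⟨a, z, hz, e1⟩ := hspan' y hy'
    refine ⟨a, z, ?_, e1⟩
    simp only [hn'] at hz
    rw [← hn₁] at hz
    exact (HLatAux.psi_le_iff he (hn0 _) (hlt _) hn₁0.le hn₁1).mp hz

variable {C : Type*} [NormedField C] [IsUltrametricDist C] [CompleteSpace C]
variable {p n N : ℕ} [hp : Fact p.Prime] [CharP C p] [IsAlgClosed C]

/-- A window basis of the lattice `T = Lat hb hc`, for the norm of the base group.

Proof: apply `exists_window_familyQ` to `T`, with `n x = ‖x.v‖`, `hnp` from `IsBase.nsmul_v`, `κ = c` (`norm_le_of_mem_Lat`), `r` from `exists_norm_ge_Lat`, `hcard` from `card_Lat_quot_p`, `hfin` from `card_Lat_quot_le`. The orthogonality `horth` from the family's, as in the proof of `exists_good_data`. Choose `f` with `c ^ (Q ^ f) ≤ n₁`, so that `p ^ f • y` has norm at most `n₁`, for `y ∈ T`; iterating the spanning property yields `hspan`, as in the proof of `exists_good_data`. -/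
theorem exists_lattice_basis {L₀ L : Law C p n} (hb : IsBase L₀) (hc : Close L₀ L) (hn : 1 ≤ n) (ht : ∃ t : C, t ≠ 0 ∧ ‖t‖ < 1)
    (hN : Nat.card (nsmulAddMonoidHom (α := Pts L.G) p).ker = p ^ N) :
    ∃ (t : ℝ) (f : ℕ) (x : Fin N → Pts L₀.G), 0 < t ∧ t < 1 ∧ (∀ i, x i ∈ Lat hb hc) ∧
      (∀ i, t ^ (p ^ n) < ‖(x i).v‖ ∧ ‖(x i).v‖ ≤ t) ∧
      (∀ (j : Fin N) (a : Fin N → ℕ), (∀ i, a i < p) → (∃ i, a i ≠ 0) → (∀ i, a i ≠ 0 → ‖(x i).v‖ = ‖(x j).v‖) →
        ‖(∑ i, a i • x i).v‖ = ‖(x j).v‖) ∧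
      (∀ R : ℕ, ∀ y ∈ Lat hb hc, ∃ (a' : Fin N → ℕ), ∃ z ∈ Lat hb hc, (p ^ f) • y = ∑ j, a' j • x j + (p ^ R) • z) := by
  classical
  have hp2 : 2 ≤ p := hp.out.two_le
  have hnp : ∀ x : Lat hb hc, ‖((p • x : Lat hb hc) : Pts L₀.G).v‖ = ‖((x : Pts L₀.G)).v‖ ^ (p ^ n) := by
    intro x
    have h1 : ((p • x : Lat hb hc) : Pts L₀.G) = p • (x : Pts L₀.G) := by simp
    rw [h1, hb.nsmul_v, norm_pow]
  obtain ⟨r₀, hr₀, hr₀'⟩ := exists_norm_ge_Lat hb hc N hN
  have hcardT := card_Lat_quot_p hb hc hn ht N hN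
  let nT : Lat hb hc → ℝ := fun β => ‖(β : Pts L₀.G).v‖
  have hnT : ∀ β, nT β = ‖(β : Pts L₀.G).v‖ := fun β => rfl
  have hκn : ∀ x, nT x ≤ L.c := fun x => norm_le_of_mem_Lat hb hc x.2
  obtain ⟨n₁, x, hn₁0, hn₁1, hwin, horth, hspan⟩ := exists_window_familyQ (T := Lat hb hc) p N n hn nT
    (fun x => norm_nonneg _)
    (by simp [hnT])
    (fun x => by
      rw [hnT, hnT]
      have h1 : ((-x : Lat hb hc) : Pts L₀.G) = -(x : Pts L₀.G) := by simp
      rw [h1, norm_neg_law])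
    (fun x y => by
      rw [hnT, hnT, hnT]
      have h1 : ((x + y : Lat hb hc) : Pts L₀.G) = (x : Pts L₀.G) + (y : Pts L₀.G) := by simp
      rw [h1]
      exact norm_add_le _ _ _)
    hnp L.c L.c_lt_one hκn r₀ hr₀
    (fun x hx => hr₀' x.1 x.2 (fun y hy h => hx ⟨y, hy⟩ (Subtype.ext h)))
    (fun x hx => by
      apply Subtype.ext
      apply nsmul_p_injective hb
      have h1 := congrArg Subtype.val hx
      simpa using h1)
    hcardT
    (fun m => (card_Lat_quot_le hb hc N hN m).1)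
  -- iterated norm
  have hiter : ∀ (m : ℕ) (y : Lat hb hc), nT ((p ^ m) • y) = nT y ^ ((p ^ n) ^ m) := by
    intro m y
    induction m with
    | zero => simp
    | succ m ih =>
      rw [pow_succ', mul_smul]
      have := hnp ((p ^ m) • y)
      rw [hnT, this, ← hnT, ih, ← pow_mul, pow_succ' (p ^ n) m, mul_comm]
  -- choice of `f`
  have hQ1 : 1 < p ^ n := Nat.one_lt_pow (by omega) (by omega)
  obtain ⟨f, hf⟩ : ∃ f : ℕ, L.c ^ ((p ^ n) ^ f) ≤ n₁ := by
    have h1 : Tendsto (fun j : ℕ => L.c ^ j) atTop (𝓝 0) :=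
      tendsto_pow_atTop_nhds_zero_of_lt_one L.c_nonneg L.c_lt_one
    have h2 : Tendsto (fun j : ℕ => (p ^ n) ^ j) atTop atTop :=
      tendsto_pow_atTop_atTop_of_one_lt hQ1
    obtain ⟨f, hf⟩ := ((h1.comp h2).eventually (gt_mem_nhds hn₁0)).exists
    exact ⟨f, hf.le⟩
  -- iterated spanning
  have hspanR : ∀ (R : ℕ) (y : Lat hb hc), nT y ≤ n₁ → ∃ (a' : Fin N → ℕ) (z : Lat hb hc),
      nT z ≤ n₁ ∧ y = ∑ j, a' j • x j + (p ^ R) • z := by
    intro R
    induction R with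
    | zero =>
      intro y hy
      exact ⟨0, y, hy, by simp⟩
    | succ R ih =>
      intro y hy
      obtain ⟨a₁, z₁, hz₁, e₁⟩ := ih y hy
      obtain ⟨a₂, z₂, hz₂, e₂⟩ := hspan z₁ hz₁
      refine ⟨fun j => a₁ j + p ^ R * a₂ j, z₂, hz₂, ?_⟩
      rw [e₁, e₂, smul_add, Finset.smul_sum, pow_succ, mul_smul]
      simp only [add_smul, mul_smul, Finset.sum_add_distrib]
      abel
  refine ⟨n₁, f, fun i => (x i : Pts L₀.G), hn₁0, hn₁1, fun i => (x i).2, fun i => hwin i, ?_, ?_⟩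
  · intro j a' ha'p hne heq
    obtain ⟨i, hi⟩ := hne
    have hdvd : ∀ i, a' i ≠ 0 → ¬ p ∣ a' i := fun i h hd => h (Nat.eq_zero_of_dvd_of_lt hd (ha'p i))
    obtain ⟨i₀, hi₀, hn_eq, -⟩ := horth a' ⟨i, hdvd i hi⟩
    have hi₀' : a' i₀ ≠ 0 := by
      intro h
      apply hi₀
      rw [h]
      exact dvd_zero p
    have hν : ‖((x i₀ : Lat hb hc) : Pts L₀.G).v‖ = ‖((x j : Lat hb hc) : Pts L₀.G).v‖ := heq i₀ hi₀'
    have h1 : ((∑ j, a' j • x j : Lat hb hc) : Pts L₀.G) = ∑ i, a' i • ((x i : Lat hb hc) : Pts L₀.G) := by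
      simp
    rw [hnT, h1, hnT, hν] at hn_eq
    exact hn_eq
  · intro R y hy
    have h1 : nT ((p ^ f) • (⟨y, hy⟩ : Lat hb hc)) ≤ n₁ := by
      rw [hiter]
      exact (pow_le_pow_left₀ (norm_nonneg _) (hκn _) _).trans hf
    obtain ⟨a', z, hz, e⟩ := hspanR R _ h1
    refine ⟨a', z.1, z.2, ?_⟩
    have h2 := congrArg (Lat hb hc).subtype e
    simpa using h2

/-- Independence passes to the field sum and to roots: if `‖(∑ i, a i • x i).v‖ = t` then, with `X i = rti M (x i)`, `‖∑ i, (a i : C) * (X i).v‖ = t ^ (1 / Q ^ M)`, which we express by saying that the `Q ^ M`-th power of the left side is `t`: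
`(∑ i, (a i : C) * (X i).v) ^ (Q ^ M) = ∑ i, (a i : C) * (x i).v` (char `p`, `(a i : C) ^ p = a i`) and `‖∑ i, (a i : C) * (x i).v - (∑ i, a i • x i).v‖ ≤ δ ^ 2` if `‖x i‖ ≤ δ` when `a i ≠ 0`, (`norm_sum_nsmul_sub_le`). -/
theorem norm_sum_rti_pow {L₀ : Law C p n} {J : Type*} [Fintype J] (x : J → Pts L₀.G) (a : J → ℕ) (M : ℕ) {t : ℝ} (ht0 : 0 < t) (ht1 : t < 1)
    (hx : ∀ i, a i ≠ 0 → ‖(x i).v‖ ≤ t) (hs : ‖(∑ i, a i • x i).v‖ = t) :
    ‖∑ i, (a i : C) * (rti M (x i)).v‖ ^ (p ^ (n * M)) = t := by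
  classical
  have hp0 : p ≠ 0 := hp.out.ne_zero
  -- the combination in the field
  set X : J → C := fun i => (rti M (x i)).v with hX
  have hpow : (∑ i, (a i : C) * X i) ^ (p ^ (n * M)) = ∑ i, (a i : C) * (x i).v := by
    rw [sum_pow_char_pow]
    refine Finset.sum_congr rfl fun i _ => ?_
    rw [mul_pow, rti_pow_v]
    congr 1
    have : ∀ k : ℕ, ((a i : C)) ^ (p ^ k) = (a i : C) := by
      intro k
      induction k with
      | zero => simp
      | succ k ih =>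
        rw [pow_succ, pow_mul, ih]
        have h := map_natCast (frobenius C p) (a i)
        rwa [frobenius_def] at h
    exact this _
  -- group combination vs field combination
  let Z : J → Pts L₀.G := fun i => if a i = 0 then 0 else x i
  have hZ : ∀ i, ‖(Z i).v‖ ≤ t := by
    intro i
    by_cases h : a i = 0
    · simp [Z, h, ht0.le]
    · simp only [Z, if_neg h]
      exact hx i h
  have hdiff := norm_sum_nsmul_sub_le L₀ Finset.univ Z a hZ
  have e1 : (∑ i, a i • Z i) = ∑ i, a i • x i := by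
    refine Finset.sum_congr rfl fun i _ => ?_
    by_cases h : a i = 0
    · simp [h]
    · simp only [Z, if_neg h]
  have e2 : (∑ i, (a i : C) * (Z i).v) = ∑ i, (a i : C) * (x i).v := by
    refine Finset.sum_congr rfl fun i _ => ?_
    by_cases h : a i = 0
    · simp [h]
    · simp only [Z, if_neg h]
  rw [e1, e2] at hdiff
  have hlt : t ^ 2 < t := by nlinarith
  have hdiff' := lt_of_le_of_lt hdiff hlt
  rw [← norm_pow, hpow]
  set u := (∑ i, a i • x i).v with hu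
  set w := ∑ i, (a i : C) * (x i).v with hw
  apply le_antisymm
  · have e : w = u + (w - u) := by ring
    rw [e]
    refine (IsUltrametricDist.norm_add_le_max _ _).trans (max_le hs.le ?_)
    rw [norm_sub_rev]
    exact hdiff'.le
  · by_contra hcon
    push Not at hcon
    have e : u = w + (u - w) := by ring
    have h1 : ‖u‖ ≤ max ‖w‖ ‖u - w‖ := by
      conv_lhs => rw [e]
      exact IsUltrametricDist.norm_add_le_max _ _
    rw [hs] at h1
    exact absurd h1 (not_le.mpr (max_lt hcon hdiff'))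

end Vale.Agent.Lib.P217
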