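import Vale.Agent.Lib.P217.HMu
import Vale.Agent.Lib.P217.HAdd

set_option linter.unusedSectionVars false
set_option linter.unusedVariables false

/-!
The choice of levels `M`, `K₀`.
-/

namespace Vale.Agent.Lib.P217

open scoped Topology
open Filter

variable {C : Type*} [NormedField C] [IsUltrametricDist C] [CompleteSpace C]
variable {p n N : ℕ} [hp : Fact p.Prime] [CharP C p] [IsAlgClosed C]
variable {L₀ L : Law C p n} {h : ℕ}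

/-- The data of the levels `M`, `K₀` for a family `x i` of points of the base group, with `X i = rti M (x i)` regarded as a point of `L`. -/
structure LevelData (L₀ L : Law C p n) (h : ℕ) (b : C) (x : Fin N → Pts L₀.G) (M K₀ Z : ℕ) : Prop where
  hM : M ≤ K₀
  hX0 : ∀ i, (rti M (x i)).v ≠ 0
  hwin : ∀ i j, ‖(rti M (x j)).v‖ ^ (p ^ n) < ‖(rti M (x i)).v‖
  hc : ∀ i, L.c < ‖(rti M (x i)).v‖ ^ (p ^ Z * p ^ n)
  hsm : ∀ i, ∀ K, K₀ ≤ K → ∀ y : Pts L.G, ‖y.v‖ ^ (p ^ n) ≤ ‖(rti M (x i)).v‖ → ‖((p ^ K) • y).v‖ < ‖aL L h‖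
  htiny : ∀ i, ∀ K, K₀ ≤ K → L.c ^ (p ^ (h * K)) ≤ gK L b K ‖(rti M (x i)).v‖ ^ 2
  hb1 : ‖b‖ < 1

/-- The existence of levels.

Proof. Let `t`, the window: `t ^ Q < ‖x i‖ ≤ t < 1`. Let `t' < 1` be the real `Q`-th root of `t`, and `k₀` such that `max t' c ^ (q ^ k₀) < ‖a‖` (`‖a‖ > 0`, `max t' c < 1`).
Then for all `M`, all `k ≥ k₀`, for `‖y‖ ^ Q ≤ ‖rti M (x i)‖` we have `‖y‖ ^ (Q ^ M) ≤ t'` [as `(‖y‖ ^ (Q ^ M)) ^ Q = (‖y‖ ^ Q) ^ (Q ^ M) ≤ ‖x i‖ ≤ t`], so by `HtLaw.norm_nsmul_le_of_norm_pow_le`, `‖[p ^ (k + M)] y‖ ≤ max t' c ^ (q ^ k) ≤ max t' c ^ (q ^ k₀) < ‖a‖`: this is `hsm`, with `K₀ = k₀ + M`, any `M`.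
Choice of `M`, large. `hc`: if `‖rti M (x i)‖ ^ (p ^ (Z + n)) ≤ c`, then `‖x i‖ = ‖rti M (x i)‖ ^ (p ^ (n * M)) ≤ c ^ (p ^ (n * M - Z - n))`, which is `< t ^ Q < ‖x i‖` for `M` large. (Note `‖rti M x‖ ^ (p ^ (n * M)) = ‖x‖` is `norm_rti_pow`.)
`hwin`: raise to the power `p ^ (n * M)`; `‖x j‖ ^ Q ≤ t ^ Q < ‖x i‖`.
`htiny`: from `le_gK_of_top`, `gK (k₀ + M) ‖rti M (x i)‖ ≥ ‖b‖ * ‖rti M (x i)‖ ^ (Q ^ (k₀ + M)) = ‖b‖ * ‖x i‖ ^ (Q ^ k₀) ≥ ‖b‖ * (t ^ Q) ^ (Q ^ k₀)`, and for `M` large, `c ^ (q ^ (k₀ + M)) ≤ (‖b‖ * (t ^ Q) ^ (Q ^ k₀)) ^ 2` since `c < 1`, `k₀` being fixed. For `K ≥ K₀`: by `HtLaw.gK_succ` (hypothesis given by `hsm`) and induction, both sides are raised to the power `q` at each step. -/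
theorem exists_levelData (H : HtLaw L h) (hh1 : 1 ≤ h) (hhn : h < n) (hn : 1 ≤ n) (hb : IsBase L₀) (hc : Close L₀ L)
    {b : C} (hb0 : b ≠ 0) (hbp : b ^ (p ^ h - 1) = aL L h) (x : Fin N → Pts L₀.G) {t : ℝ} (ht0 : 0 < t) (ht1 : t < 1)
    (hwin : ∀ i, t ^ (p ^ n) < ‖(x i).v‖ ∧ ‖(x i).v‖ ≤ t) (Z : ℕ) :
    ∃ M K₀, LevelData L₀ L h b x M K₀ Z := by
  have hp2 : 2 ≤ p := hp.out.two_le
  have hQ0 : p ^ n ≠ 0 := (pow_pos hp.out.pos _).ne'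
  have hq2 : 2 ≤ p ^ h := by
    calc 2 ≤ p := hp2
      _ = p ^ 1 := (pow_one p).symm
      _ ≤ p ^ h := Nat.pow_le_pow_right hp.out.pos hh1
  have hapos : 0 < ‖aL L h‖ := norm_pos_iff.mpr H.aL_ne
  have hbpos : 0 < ‖b‖ := norm_pos_iff.mpr hb0
  have hb1 : ‖b‖ < 1 := by
    have h1 : ‖b‖ ^ (p ^ h - 1) < 1 := by
      rw [← norm_pow, hbp]
      exact lt_of_le_of_lt (norm_aL_le_c L hhn) L.c_lt_one
    by_contra hge
    push Not at hge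
    exact absurd (one_le_pow₀ (n := p ^ h - 1) hge) (not_le.mpr h1)
  obtain ⟨t', ht'0, ht'1, ht'Q⟩ : ∃ t' : ℝ, 0 < t' ∧ t' < 1 ∧ t' ^ (p ^ n) = t := by
    refine ⟨t ^ (((p ^ n : ℕ) : ℝ)⁻¹), Real.rpow_pos_of_pos ht0 _, ?_, Real.rpow_inv_natCast_pow ht0.le hQ0⟩
    exact Real.rpow_lt_one ht0.le ht1 (by positivity)
  set u := max t' L.c with hu
  have hu1 : u < 1 := max_lt ht'1 L.c_lt_one
  have hu0 : 0 ≤ u := le_max_of_le_left ht'0.le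
  obtain ⟨k₀, hk₀⟩ := exists_pow_lt_of_lt_one hapos hu1
  have hpow_ge : ∀ k : ℕ, k ≤ p ^ (h * k) := by
    intro k
    calc k ≤ h * k := Nat.le_mul_of_pos_left k hh1
      _ ≤ p ^ (h * k) := (Nat.lt_pow_self hp.out.one_lt).le
  have hsm : ∀ (M : ℕ) (i : Fin N) (K : ℕ), k₀ + M ≤ K → ∀ y : Pts L.G,
      ‖y.v‖ ^ (p ^ n) ≤ ‖(rti M (x i)).v‖ → ‖((p ^ K) • y).v‖ < ‖aL L h‖ := by
    intro M i K hK y hy
    have h1 : ‖y.v‖ ^ (p ^ (n * M)) ≤ t' := by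
      have h2 : (‖y.v‖ ^ (p ^ (n * M))) ^ (p ^ n) ≤ t' ^ (p ^ n) := by
        rw [ht'Q, ← pow_mul, mul_comm, pow_mul]
        calc (‖y.v‖ ^ (p ^ n)) ^ (p ^ (n * M)) ≤ ‖(rti M (x i)).v‖ ^ (p ^ (n * M)) :=
              pow_le_pow_left₀ (by positivity) hy _
          _ = ‖(x i).v‖ := norm_rti_pow hb M (x i)
          _ ≤ t := (hwin i).2
      exact (pow_le_pow_iff_left₀ (by positivity) ht'0.le hQ0).mp h2
    obtain ⟨k, rfl⟩ : ∃ k, K = k + M := ⟨K - M, by omega⟩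
    have h3 := H.norm_nsmul_le_of_norm_pow_le hh1 hb hc k M y h1
    refine lt_of_le_of_lt h3 (lt_of_le_of_lt ?_ hk₀)
    have hkk : k₀ ≤ p ^ (h * k) := by
      have := hpow_ge k
      omega
    exact pow_le_pow_of_le_one hu0 hu1.le hkk
  have htQ : 0 < t ^ (p ^ n) := pow_pos ht0 _
  obtain ⟨e₁, he₁⟩ := exists_pow_lt_of_lt_one htQ L.c_lt_one
  set A := ‖b‖ * (t ^ (p ^ n)) ^ (p ^ (n * k₀)) with hA
  have hApos : 0 < A := mul_pos hbpos (pow_pos htQ _)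
  obtain ⟨e₂, he₂⟩ := exists_pow_lt_of_lt_one (pow_pos hApos 2) L.c_lt_one
  have hc0 := L.c_nonneg
  have hc1 := L.c_lt_one
  set M := Z + n + e₁ + e₂ with hMdef
  have hrn : ∀ i, ‖(rti M (x i)).v‖ ^ (p ^ (n * M)) = ‖(x i).v‖ := fun i => norm_rti_pow hb M (x i)
  have hxpos : ∀ i, 0 < ‖(x i).v‖ := fun i => lt_trans htQ (hwin i).1
  have hr0 : ∀ i, 0 < ‖(rti M (x i)).v‖ := by
    intro i
    have hM0 : p ^ (n * M) ≠ 0 := (pow_pos hp.out.pos _).ne'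
    by_contra hr
    have hr2 : ‖(rti M (x i)).v‖ = 0 := le_antisymm (not_lt.mp hr) (norm_nonneg _)
    have h1 := hrn i
    rw [hr2, zero_pow hM0] at h1
    exact absurd h1.symm (hxpos i).ne'
  have hrlt : ∀ i, ‖(rti M (x i)).v‖ < 1 := fun i => (rti M (x i)).norm_lt
  have hsm' : ∀ (i : Fin N) (K : ℕ), k₀ + M ≤ K → ∀ y : Pts L.G,
      ‖y.v‖ ≤ ‖(rti M (x i)).v‖ → ‖((p ^ K) • y).v‖ < ‖aL L h‖ := by
    intro i K hK y hy
    refine hsm M i K hK y (le_trans ?_ hy)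
    calc ‖y.v‖ ^ (p ^ n) ≤ ‖y.v‖ ^ 1 := pow_le_pow_of_le_one (norm_nonneg _) y.norm_lt.le (Nat.one_le_iff_ne_zero.mpr hQ0)
      _ = ‖y.v‖ := pow_one _
  refine ⟨M, k₀ + M, ⟨by omega, fun i => norm_pos_iff.mp (hr0 i), ?_, ?_, fun i K hK y hy => hsm M i K hK y hy, ?_, hb1⟩⟩
  · -- hwin
    intro i j
    have hM0 : p ^ (n * M) ≠ 0 := (pow_pos hp.out.pos _).ne'
    refine lt_of_pow_lt_pow_left₀ (p ^ (n * M)) (norm_nonneg _) ?_
    rw [hrn i, ← pow_mul, mul_comm, pow_mul, hrn j]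
    exact lt_of_le_of_lt (pow_le_pow_left₀ (norm_nonneg _) (hwin j).2 _) (hwin i).1
  · -- hc
    intro i
    by_contra hcon
    push Not at hcon
    have hexp : n * M = Z + n + (n * M - Z - n) := by
      have : Z + n ≤ n * M := by
        calc Z + n ≤ M := by omega
          _ ≤ n * M := Nat.le_mul_of_pos_left M hn
      omega
    set e := n * M - Z - n with he
    have hee : e₁ ≤ e := by
      have : M ≤ n * M := Nat.le_mul_of_pos_left M hn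
      omega
    have h1 : ‖(x i).v‖ = (‖(rti M (x i)).v‖ ^ (p ^ Z * p ^ n)) ^ (p ^ e) := by
      rw [← hrn i, ← pow_mul, hexp, pow_add, pow_add]
    have h2 : ‖(x i).v‖ ≤ L.c ^ (p ^ e) := by
      rw [h1]
      exact pow_le_pow_left₀ (by positivity) hcon _
    have h3 : L.c ^ (p ^ e) ≤ L.c ^ e₁ :=
      pow_le_pow_of_le_one hc0 hc1.le (hee.trans (Nat.lt_pow_self hp.out.one_lt).le)
    exact absurd (lt_trans (hwin i).1 (lt_of_le_of_lt (h2.trans h3) he₁ |>.trans_le le_rfl)) (by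
      intro hlt
      exact lt_irrefl _ (lt_trans (lt_of_le_of_lt (h2.trans h3) he₁) (hwin i).1))
  · -- htiny
    intro i K hK
    induction K, hK using Nat.le_induction with
    | base =>
      have h1 : A ≤ gK L b (k₀ + M) ‖(rti M (x i)).v‖ := by
        refine le_trans ?_ (le_gK_of_top L b (k₀ + M) (norm_nonneg _) (hrlt i).le)
        rw [hA]
        refine mul_le_mul_of_nonneg_left ?_ (norm_nonneg _)
        have e1 : ‖(rti M (x i)).v‖ ^ (p ^ (n * (k₀ + M))) = ‖(x i).v‖ ^ (p ^ (n * k₀)) := by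
          rw [← hrn i, ← pow_mul, ← pow_add]
          congr 2
          ring
        rw [e1]
        exact pow_le_pow_left₀ htQ.le (hwin i).1.le _
      have h2 : L.c ^ (p ^ (h * (k₀ + M))) ≤ L.c ^ e₂ := by
        refine pow_le_pow_of_le_one hc0 hc1.le ?_
        have := hpow_ge (k₀ + M)
        omega
      exact (h2.trans he₂.le).trans (pow_le_pow_left₀ hApos.le h1 2)
    | succ K hK ih =>
      have hg := H.gK_succ hh1 hbp K (rti M (x i)).v rfl (hr0 i) (hrlt i) (fun y hy => hsm' i K hK y hy)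
      have e1 : L.c ^ (p ^ (h * (K + 1))) = (L.c ^ (p ^ (h * K))) ^ (p ^ h) := by
        rw [← pow_mul, ← pow_add]
        congr 2
      have e2 : (gK L b K ‖(rti M (x i)).v‖ ^ (p ^ h)) ^ 2 = (gK L b K ‖(rti M (x i)).v‖ ^ 2) ^ (p ^ h) := by
        rw [← pow_mul, ← pow_mul, mul_comm]
      rw [hg, e1, e2]
      exact pow_le_pow_left₀ (pow_nonneg hc0 _) ih _

variable {b : C} {x : Fin N → Pts L₀.G} {M K₀ Z : ℕ}

/-- The radius `‖rti M (x i)‖` is less than one and positive. -/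
theorem LevelData.r_pos (D : LevelData L₀ L h b x M K₀ Z) (i : Fin N) : 0 < ‖(rti M (x i)).v‖ :=
  norm_pos_iff.mpr (D.hX0 i)

/-- The form of `hsm` for points in the disc of radius `‖rti M (x i)‖`. -/
theorem LevelData.hsm' (D : LevelData L₀ L h b x M K₀ Z) (i : Fin N) (K : ℕ) (hK : K₀ ≤ K) (y : Pts L.G)
    (hy : ‖y.v‖ ≤ ‖(rti M (x i)).v‖) : ‖((p ^ K) • y).v‖ < ‖aL L h‖ := by
  refine D.hsm i K hK y (le_trans ?_ hy)
  have hQ0 : p ^ n ≠ 0 := (pow_pos hp.out.pos _).ne'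
  calc ‖y.v‖ ^ (p ^ n) ≤ ‖y.v‖ ^ 1 :=
        pow_le_pow_of_le_one (norm_nonneg _) y.norm_lt.le (Nat.one_le_iff_ne_zero.mpr hQ0)
    _ = ‖y.v‖ := pow_one _

/-- Scaling from `K₀` to `K`. (`HtLaw.gK_succ`, with `hsm` for `y` of norm at most `‖rti M (x i)‖`.) -/
theorem LevelData.gK_eq (D : LevelData L₀ L h b x M K₀ Z) (H : HtLaw L h) (hh1 : 1 ≤ h) (hbp : b ^ (p ^ h - 1) = aL L h) (i : Fin N) (K : ℕ) (hK : K₀ ≤ K) :
    gK L b K ‖(rti M (x i)).v‖ = gK L b K₀ ‖(rti M (x i)).v‖ ^ ((p ^ h) ^ (K - K₀)) := by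
  induction K, hK using Nat.le_induction with
  | base => simp
  | succ K hK ih =>
    have hg := H.gK_succ hh1 hbp K (rti M (x i)).v rfl (D.r_pos i) (rti M (x i)).norm_lt
      (fun y hy => D.hsm' i K hK y hy)
    rw [hg, ih, ← pow_mul, ← pow_succ]
    congr 2
    omega

/-- `gK ≤ ‖b‖ * ‖a‖`, from `hsm` and `gK_le_of_eval`. -/
theorem LevelData.gK_le (D : LevelData L₀ L h b x M K₀ Z) (i : Fin N) (K : ℕ) (hK : K₀ ≤ K) :
    gK L b K ‖(rti M (x i)).v‖ ≤ ‖b‖ * ‖aL L h‖ := by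
  refine gK_le_of_eval L b K (rti M (x i)).v rfl (D.r_pos i) (rti M (x i)).norm_lt (by positivity) ?_
  intro y hy
  rw [norm_mul]
  exact mul_le_mul_of_nonneg_left (D.hsm' i K hK y hy).le (norm_nonneg _)

/-- The window for `gK`: `(gK K r_i) ^ q ≤ gK K r_j`; from `HtLaw.gK_homog`: `(gK K r_i) ^ q = gK K (r_i ^ Q) ≤ gK K r_j`. -/
theorem LevelData.gK_window (D : LevelData L₀ L h b x M K₀ Z) (H : HtLaw L h) (hh1 : 1 ≤ h) (hhn : h < n) (hbp : b ^ (p ^ h - 1) = aL L h)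
    (i j : Fin N) (K : ℕ) (hK : K₀ ≤ K) :
    gK L b K ‖(rti M (x i)).v‖ ^ (p ^ h) ≤ gK L b K ‖(rti M (x j)).v‖ := by
  have hr0 := D.r_pos i
  have hr1 := (rti M (x i)).norm_lt
  have hc : L.c < ‖(rti M (x i)).v‖ ^ (p ^ n) := by
    refine lt_of_lt_of_le (D.hc i) (pow_le_pow_of_le_one hr0.le hr1.le ?_)
    exact Nat.le_mul_of_pos_left _ (pow_pos hp.out.pos _)
  rw [← H.gK_homog hh1 hhn hbp K (rti M (x i)).v rfl hr0 hr1 hc (fun y hy => D.hsm' i K hK y hy)]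
  exact gK_mono L b K (by positivity) (D.hwin j i).le (rti M (x j)).norm_lt.le

/-- `mu` and the Gauss norm. If `‖Y‖ ≤ ‖x i‖`, `k + M ≥ K₀`, then `‖b * mu (p ^ k • Y)‖ ≤ gK (k + M) (r i)`.

Proof: `HtLaw.norm_mu_nsmul_sub_le`: `‖mu (p ^ k • Y) - [p ^ (k + M)] (rti M Y)‖ ≤ c ^ (q ^ (k + M)) ≤ (gK (k + M) (r i)) ^ 2` (by `htiny`) and `‖b‖ * G ^ 2 ≤ G`, as `‖b‖ * G ≤ 1`; `norm_le_gK`; `‖rti M Y‖ ≤ ‖rti M (x i)‖` since the `p ^ (n * M)` powers are `‖Y‖ ≤ ‖x i‖`. -/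
theorem LevelData.norm_b_mu_le (D : LevelData L₀ L h b x M K₀ Z) (H : HtLaw L h) (hh1 : 1 ≤ h) (hb' : IsBase L₀) (hc : Close L₀ L)
    (i : Fin N) (k : ℕ) (hk : K₀ ≤ k + M) (Y : Pts L₀.G) (hY : ‖Y.v‖ ≤ ‖(x i).v‖) :
    ‖b * (mu L₀ L ((p ^ k) • Y)).v‖ ≤ gK L b (k + M) ‖(rti M (x i)).v‖ := by
  set G := gK L b (k + M) ‖(rti M (x i)).v‖ with hG
  have hr0 := D.r_pos i
  have hr1 := (rti M (x i)).norm_lt
  have hG0 : 0 ≤ G := mul_nonneg (norm_nonneg _) (gn_nonneg _ hr0.le hr1.le)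
  have h1 := H.norm_mu_nsmul_sub_le hh1 hb' hc M k Y
  have hrY : ‖(Pts.cast (rti M Y) : Pts L.G).v‖ ≤ ‖(rti M (x i)).v‖ := by
    have hM0 : p ^ (n * M) ≠ 0 := (pow_pos hp.out.pos _).ne'
    rw [Pts.v_cast]
    refine (pow_le_pow_iff_left₀ (norm_nonneg _) hr0.le hM0).mp ?_
    rw [norm_rti_pow hb' M Y, norm_rti_pow hb' M (x i)]
    exact hY
  have h2 := norm_le_gK L b (k + M) hr1 (Pts.cast (rti M Y) : Pts L.G) hrY
  have h3 := D.htiny i (k + M) hk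
  have h4 := D.gK_le i (k + M) hk
  have hb1 := D.hb1
  have ha1 := norm_aL_le L h
  have e0 : b * (mu L₀ L ((p ^ k) • Y)).v =
      b * ((mu L₀ L ((p ^ k) • Y)).v - ((p ^ (k + M)) • (Pts.cast (rti M Y) : Pts L.G)).v) +
      b * ((p ^ (k + M)) • (Pts.cast (rti M Y) : Pts L.G)).v := by ring
  rw [e0]
  refine (IsUltrametricDist.norm_add_le_max _ _).trans (max_le ?_ h2)
  rw [norm_mul]
  have hbn := norm_nonneg b
  have hbG : ‖b‖ * G ≤ 1 := by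
    have : ‖b‖ * (‖b‖ * ‖aL L h‖) ≤ 1 := by
      have h5 : ‖b‖ * ‖aL L h‖ ≤ 1 := mul_le_one₀ hb1.le (norm_nonneg _) ha1
      exact mul_le_one₀ hb1.le (by positivity) h5
    exact (mul_le_mul_of_nonneg_left h4 hbn).trans this
  calc ‖b‖ * ‖(mu L₀ L ((p ^ k) • Y)).v - ((p ^ (k + M)) • (Pts.cast (rti M Y) : Pts L.G)).v‖
      ≤ ‖b‖ * L.c ^ (p ^ (h * (k + M))) := mul_le_mul_of_nonneg_left h1 hbn
    _ ≤ ‖b‖ * G ^ 2 := mul_le_mul_of_nonneg_left h3 hbn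
    _ = (‖b‖ * G) * G := by ring
    _ ≤ 1 * G := mul_le_mul_of_nonneg_right hbG hG0
    _ = G := one_mul _

/-- The vanishing at the points `X i` for the lattice points `x i`. -/
theorem LevelData.hvan (D : LevelData L₀ L h b x M K₀ Z) (H : HtLaw L h) (hh1 : 1 ≤ h) (hhn : h < n) (hn : 1 ≤ n) (hb0 : b ≠ 0) (hb' : IsBase L₀) (hc : Close L₀ L)
    (hxT : ∀ i, x i ∈ Lat hb' hc) (i : Fin N) (K : ℕ) (hK : K₀ ≤ K) :
    ‖b * ((p ^ K) • (Pts.cast (rti M (x i)) : Pts L.G)).v‖ < gK L b K ‖(rti M (x i)).v‖ := by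
  set G := gK L b K ‖(rti M (x i)).v‖ with hG
  have hr0 := D.r_pos i
  have hr1 := (rti M (x i)).norm_lt
  have hG0 : 0 < G := gK_pos hn (H.exists_small hhn) L hb0 K hr0 hr1
  have hMK : M ≤ K := D.hM.trans hK
  obtain ⟨k, rfl⟩ : ∃ k, K = k + M := ⟨K - M, by omega⟩
  have h1 := H.norm_nsmul_rti_le_of_mem_Lat hh1 hb' hc (hxT i) M k
  have h3 := D.htiny i (k + M) hK
  have h4 := D.gK_le i (k + M) hK
  have hb1 := D.hb1
  have ha1 := norm_aL_le L h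
  have hbn : 0 < ‖b‖ := norm_pos_iff.mpr hb0
  have hbG : ‖b‖ * G < 1 := by
    have h5 : ‖b‖ * ‖aL L h‖ ≤ 1 := mul_le_one₀ hb1.le (norm_nonneg _) ha1
    calc ‖b‖ * G ≤ ‖b‖ * (‖b‖ * ‖aL L h‖) := mul_le_mul_of_nonneg_left h4 hbn.le
      _ ≤ ‖b‖ * 1 := mul_le_mul_of_nonneg_left h5 hbn.le
      _ < 1 := by simpa using hb1
  rw [norm_mul]
  calc ‖b‖ * ‖((p ^ (k + M)) • (Pts.cast (rti M (x i)) : Pts L.G)).v‖
      ≤ ‖b‖ * L.c ^ (p ^ (h * (k + M))) := mul_le_mul_of_nonneg_left h1 hbn.le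
    _ ≤ ‖b‖ * G ^ 2 := mul_le_mul_of_nonneg_left h3 hbn.le
    _ = (‖b‖ * G) * G := by ring
    _ < 1 * G := mul_lt_mul_of_pos_right hbG hG0
    _ = G := one_mul _

end Vale.Agent.Lib.P217
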