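import Vale.Agent.Lib.P217.HRel2
import Vale.Agent.Lib.P217.HLat
import Vale.Agent.Lib.P217.HAAT

set_option linter.unusedSectionVars false
set_option linter.unusedVariables false

/-!
The main theorem in height `h`.
-/

namespace Vale.Agent.Lib.P217

open scoped Topology
open Filter

variable {C : Type*} [NormedField C] [IsUltrametricDist C] [CompleteSpace C]
variable {p n N : ℕ} [hp : Fact p.Prime] [CharP C p] [IsAlgClosed C]
variable {k : Type*} [Field k] [Fintype k] [CharP k p]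

/-- The digits: `d` at the place `z`. -/
def dseq (d : k) (z : ℕ) : ℕ → k := fun i => by classical exact if i = z then d else 0

/-- The endomorphism `[d] ∘ Φ ^ z`. -/
noncomputable def gEnd (S : Setting C p n N k) (hω : HOm S) (hF : HFr S) (d : k) (z : ℕ) :
    AddMonoid.End (Pts (baseLaw S).G) := gammaEnd S hω hF (z + 1) (dseq d z)

theorem gEnd_v (S : Setting C p n N k) (hω : HOm S) (hF : HFr S) (d : k) (z : ℕ) (x : Pts (baseLaw S).G) :
    (gEnd S hω hF d z x).v = (S.κ d : C) * x.v ^ (p ^ z) := by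
  have hzero : ∀ y : Pts (baseLaw S).G, cEnd S hω 0 y = 0 := by
    intro y
    apply Pts.ext
    rw [cEnd_v]
    simp
  have hphi : ∀ (i : ℕ) (y : Pts (baseLaw S).G), (((phiEnd S hF) ^ i) y).v = y.v ^ (p ^ i) := by
    intro i y
    induction i with
    | zero => simp
    | succ i ih =>
      rw [pow_succ', end_mul_apply, phiEnd_v, ih, ← pow_mul, pow_succ]
  have h1 : gEnd S hω hF d z x = cEnd S hω d (((phiEnd S hF) ^ z) x) := by
    change gammaEnd S hω hF (z + 1) (dseq d z) x = _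
    rw [gammaEnd_apply, Finset.sum_range_succ, Finset.sum_eq_zero, zero_add]
    · simp [dseq]
    · intro i hi
      have hne : i ≠ z := (Finset.mem_range.mp hi).ne
      simp only [dseq, if_neg hne]
      exact hzero _
  rw [h1, cEnd_v, hphi]

theorem norm_gEnd_le (S : Setting C p n N k) (hω : HOm S) (hF : HFr S) (d : k) (z : ℕ) (x : Pts (baseLaw S).G) :
    ‖(gEnd S hω hF d z x).v‖ ≤ ‖x.v‖ := norm_gammaEnd_le S hω hF _ _ x

/-- The root of `[d] Φ ^ z x`. By injectivity of the `Q ^ M` power map: `(κ d) ^ (Q ^ M) = κ d` as `d ^ Q = d`. `rti_pow_v` gives `(rti M y).v ^ (p ^ (n * M)) = y.v`. -/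
theorem rti_gEnd_v (S : Setting C p n N k) (hω : HOm S) (hF : HFr S) (hk : Fintype.card k = p ^ n) (d : k) (z M : ℕ) (x : Pts (baseLaw S).G) :
    (rti M (gEnd S hω hF d z x)).v = (S.κ d : C) * (rti M x).v ^ (p ^ z) := by
  have hinj : ∀ u w : C, u ^ (p ^ (n * M)) = w ^ (p ^ (n * M)) → u = w := by
    intro u w huw
    have h2 : (u - w) ^ (p ^ (n * M)) = 0 := by
      rw [sub_pow_char_pow, huw, sub_self]
    exact sub_eq_zero.mp (pow_eq_zero_iff (Nat.pow_pos hp.out.pos).ne' |>.mp h2)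
  have h1 : (S.κ d) ^ (p ^ (n * M)) = S.κ d := by
    rw [← map_pow, pow_mul, ← hk, FiniteField.pow_card_pow]
  have h3 : ((S.κ d : OC C) : C) ^ (p ^ (n * M)) = (S.κ d : C) := by
    have h2 := congrArg (Subtype.val) h1
    simpa using h2
  have h4 : ((rti M x).v ^ (p ^ z)) ^ (p ^ (n * M)) = x.v ^ (p ^ z) := by
    rw [← pow_mul, mul_comm, pow_mul, rti_pow_v]
  apply hinj
  rw [rti_pow_v, gEnd_v, mul_pow, h3, h4]

/-- A common multiple of the prime-to-`p` parts. -/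
theorem exists_U {I : Type*} [Fintype I] (o : I → ℕ) (ho : ∀ i, 0 < o i) :
    ∃ U T₁ : ℕ, ¬ p ∣ U ∧ ∀ i, ∀ T, T₁ ≤ T → o i ∣ U * p ^ T := by
  classical
  have hex : ∀ i, ∃ e u : ℕ, ¬ p ∣ u ∧ o i = p ^ e * u := fun i =>
    Nat.exists_eq_pow_mul_and_not_dvd (ho i).ne' p hp.out.ne_one
  choose e u hu hou using hex
  refine ⟨∏ i, u i, ∑ i, e i, ?_, ?_⟩
  · intro hdvd
    obtain ⟨i, _, hi⟩ := (Prime.dvd_finsetProd_iff hp.out.prime u).mp hdvd
    exact hu i hi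
  · intro i T hT
    rw [hou i, mul_comm]
    refine Nat.mul_dvd_mul (Finset.dvd_prod_of_mem u (Finset.mem_univ i)) (pow_dvd_pow p ?_)
    exact (Finset.single_le_sum (fun _ _ => Nat.zero_le _) (Finset.mem_univ i)).trans hT

/-- The form of the iterates of `g' = (1 + p ^ 2 γ) ^ O` on the root `rti R x`.
Let `O * m = U * p ^ T`, `T = e' + R - 2`: by `exists_end_binom`, there is `ζ` (an endomorphism bounded by the norm) with `(1 + p ^ 2 γ) ^ (U * p ^ T) x = x + p ^ (T + 2) • (U • γ x + p • ζ x)`, for all `x`; at `x = rti R w`, and using that `γ`, `ζ` are additive, `p ^ R • rti R w = w` (`nsmul_pow_rti`), this is the formula. -/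
theorem homEnd_pow_rti (S : Setting C p n N k) (γ : AddMonoid.End (Pts (baseLaw S).G)) (hγ : ∀ x : Pts (baseLaw S).G, ‖(γ x).v‖ ≤ ‖x.v‖)
    (U T R e' : ℕ) (hT : T + 2 = e' + R) :
    ∃ ζ : AddMonoid.End (Pts (baseLaw S).G), (∀ x : Pts (baseLaw S).G, ‖(ζ x).v‖ ≤ ‖x.v‖) ∧ ∀ w : Pts (baseLaw S).G,
      ((1 + (p ^ (1 + 1) : ℕ) • γ) ^ (U * p ^ T) : AddMonoid.End (Pts (baseLaw S).G)) (rti R w) =
        rti R w + (p ^ e') • (U • γ w + (p ^ 1) • ζ w) := by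
  have hb := baseLaw_isBase S
  obtain ⟨ζ, hζ, hform⟩ := exists_end_binom (fun x : Pts (baseLaw S).G => ‖x.v‖)
    (fun x y => norm_add_le _ x y) (fun x => norm_neg_law _ x) (fun x => by simp) p γ hγ 1 U T
  refine ⟨ζ, hζ, fun w => ?_⟩
  rw [hform]
  congr 1
  have hw : γ w = (p ^ R) • γ (rti R w) := by rw [← map_nsmul, nsmul_pow_rti hb]
  have hw' : ζ w = (p ^ R) • ζ (rti R w) := by rw [← map_nsmul, nsmul_pow_rti hb]
  have h1 : U • γ w + p ^ 1 • ζ w = (p ^ R) • (U • γ (rti R w) + p ^ 1 • ζ (rti R w)) := by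
    rw [smul_add, hw, hw', smul_comm U (p ^ R), smul_comm (p ^ 1) (p ^ R)]
  rw [h1, show T + 1 + 1 = e' + R by omega, pow_add, mul_nsmul]
  exact smul_comm _ _ _

/-- The hypothesis of invariance for the height `h` theorem, allowing a power `O` of each automorphism. -/
def HInvO (S : Setting C p n N k) (φ₀ : MvPowerSeries (Fin N) k →+* OC C) : Prop :=
  ∀ (g : PowerSeries k) (hg : IsHom S.Γ S.Γ g), IsUnit (PowerSeries.coeff 1 g) →
    ∃ (O : ℕ) (g' : PowerSeries k) (hg' : IsHom S.Γ S.Γ g')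
      (τ : MvPowerSeries (Fin N) k ≃ₐ[k] MvPowerSeries (Fin N) k) (K : PowerSeries (MvPowerSeries (Fin N) k)),
      0 < O ∧ homEnd S hg' = homEnd S hg ^ O ∧ IsUnit (PowerSeries.coeff 1 g') ∧
      IsHom S.F (S.F.map (τ : MvPowerSeries (Fin N) k →+* MvPowerSeries (Fin N) k)) K ∧
      PowerSeries.map MvPowerSeries.constantCoeff K = g' ∧ ∀ a, φ₀ (τ a) = 0 ↔ φ₀ a = 0

/-- The unit linear coefficient lifts. -/
theorem isUnit_coeff_one_of_map {K : PowerSeries (MvPowerSeries (Fin N) k)} {g : PowerSeries k}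
    (hKg : PowerSeries.map MvPowerSeries.constantCoeff K = g) (hgu : IsUnit (PowerSeries.coeff 1 g)) :
    IsUnit (PowerSeries.coeff 1 K) := by
  rw [MvPowerSeries.isUnit_iff_constantCoeff]
  have h1 : PowerSeries.coeff 1 (PowerSeries.map MvPowerSeries.constantCoeff K) =
      MvPowerSeries.constantCoeff (PowerSeries.coeff 1 K) := by
    simp
  rw [← h1, hKg]
  exact hgu

/-- The family of the data of the automorphisms `1 + p ^ 2 [d] Φ ^ z`. -/
structure PairData (S : Setting C p n N k) (hω : HOm S) (hF : HFr S) {φ₀ : MvPowerSeries (Fin N) k →+* OC C} (hφ₀ : Adm S φ₀)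
    (R : ℕ) (d : k) (z : ℕ) where
  O : ℕ
  g' : PowerSeries k
  hg' : IsHom S.Γ S.Γ g'
  τ : MvPowerSeries (Fin N) k ≃ₐ[k] MvPowerSeries (Fin N) k
  K : PowerSeries (MvPowerSeries (Fin N) k)
  hO : 0 < O
  hend : homEnd S hg' = (1 + (p ^ (1 + 1) : ℕ) • gEnd S hω hF d z) ^ O
  hK : IsHom S.F (S.F.map (τ : MvPowerSeries (Fin N) k →+* MvPowerSeries (Fin N) k)) K
  hKg : PowerSeries.map MvPowerSeries.constantCoeff K = g'
  hKu : IsUnit (PowerSeries.coeff 1 K)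
  hker : ∀ a, φ₀ (τ a) = 0 ↔ φ₀ a = 0
  SD : SigmaData hφ₀ τ K R

theorem exists_pairData (S : Setting C p n N k) (hω : HOm S) (hF : HFr S) {h : ℕ} (hhn : h < n) {φ₀ : MvPowerSeries (Fin N) k →+* OC C} (hφ₀ : Adm S φ₀)
    (hlow : ∀ j, j < p ^ h → PowerSeries.coeff j (mulSeries S.F p) = 0)
    (ha : φ₀ (PowerSeries.coeff (p ^ h) (mulSeries S.F p)) ≠ 0)
    (hinv : HInvO S φ₀) (R : ℕ) (d : k) (z : ℕ) : Nonempty (PairData S hω hF hφ₀ R d z) := by
  obtain ⟨g, hg, hgu, hgEnd⟩ := exists_digit_series S hω hF (z + 1) 1 (dseq d z)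
  obtain ⟨O, g', hg', τ, K, hO, hend, hgu', hK, hKg, hker⟩ := hinv g hg hgu
  have hKu := isUnit_coeff_one_of_map hKg hgu'
  obtain ⟨SD⟩ := exists_sigmaDataH hφ₀ τ hK hKu hker hhn hlow ha R
  exact ⟨⟨O, g', hg', τ, K, hO, by rw [hend, hgEnd]; rfl, hK, hKg, hKu, hker, SD⟩⟩

/-- Injectivity of evaluation at the torsion points. -/
theorem eval_injectiveH (S : Setting C p n N k) (hω : HOm S) (hF : HFr S) (hk : Fintype.card k = p ^ n) {h : ℕ} (hh1 : 1 ≤ h) (hhn : h < n)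
    {φ₀ : MvPowerSeries (Fin N) k →+* OC C} (hφ₀ : Adm S φ₀)
    (hI : IsLocalRing.maximalIdeal (MvPowerSeries (Fin N) k) =
      Ideal.span {a | ∃ j, j < p ^ n ∧ a = PowerSeries.coeff j (mulSeries S.F p)})
    (hlow : ∀ j, j < p ^ h → PowerSeries.coeff j (mulSeries S.F p) = 0)
    (ha : φ₀ (PowerSeries.coeff (p ^ h) (mulSeries S.F p)) ≠ 0) (hinv : HInvO S φ₀)
    (x : Fin N → Pts (baseLaw S).G) (hxT : ∀ i, x i ∈ Lat (baseLaw_isBase S) (close_lawOf S hφ₀))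
    {t : ℝ} (ht0 : 0 < t) (ht1 : t < 1) (hwin : ∀ i, t ^ (p ^ n) < ‖(x i).v‖ ∧ ‖(x i).v‖ ≤ t)
    (horth : ∀ (j : Fin N) (a : Fin N → ℕ), (∀ i, a i < p) → (∃ i, a i ≠ 0) → (∀ i, a i ≠ 0 → ‖(x i).v‖ = ‖(x j).v‖) →
        ‖(∑ i, a i • x i).v‖ = ‖(x j).v‖)
    {f : ℕ} (hspan : ∀ R : ℕ, ∀ y ∈ Lat (baseLaw_isBase S) (close_lawOf S hφ₀), ∃ (a' : Fin N → ℕ), ∃ z ∈ Lat (baseLaw_isBase S) (close_lawOf S hφ₀),
        (p ^ f) • y = ∑ j, a' j • x j + (p ^ R) • z)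
    {b : C} (hb0 : b ≠ 0) (hbp : b ^ (p ^ h - 1) = aL (lawOf S φ₀ hφ₀) h)
    (a : MvPowerSeries (Fin N) k)
    (ha0 : Ev S.κ (fun i => (mu (baseLaw S) (lawOf S φ₀ hφ₀) (rti (f + 2) (x i))).o) a = 0) : a = 0 := by
  classical
  have hb' := baseLaw_isBase S
  have hc' := close_lawOf S hφ₀
  have hn : 1 ≤ n := S.hn
  have H : HtLaw (lawOf S φ₀ hφ₀) h := htLaw_lawOf hφ₀ hlow ha
  have ht := H.exists_small hhn
  have hadd : AddQ (lawOf S φ₀ hφ₀) := addQ_lawOf S hω hk hφ₀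
  obtain ⟨M, K₀, D⟩ := exists_levelData H hh1 hhn hn hb' hc' hb0 hbp x ht0 ht1 hwin N
  have hpair : ∀ (d : k) (z : ℕ), Nonempty (PairData S hω hF hφ₀ (f + 2) d z) :=
    fun d z => exists_pairData S hω hF hhn hφ₀ hlow ha hinv (f + 2) d z
  let PD : ∀ (d : k) (z : ℕ), PairData S hω hF hφ₀ (f + 2) d z := fun d z => (hpair d z).some
  obtain ⟨U, T₁, hU, hUT⟩ := exists_U (p := p) (I := k × Fin (N + 1))
    (fun q => (PD q.1 q.2).O * (PD q.1 q.2).SD.O)
    (fun q => Nat.mul_pos (PD q.1 q.2).hO (PD q.1 q.2).SD.hO)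
  have hba : ‖aL (lawOf S φ₀ hφ₀) h‖ < 1 := lt_of_le_of_lt (norm_aL_le_c _ hhn) (lawOf S φ₀ hφ₀).c_lt_one
  have hq2 : 2 ≤ p ^ h := by
    calc 2 ≤ p := hp.out.two_le
      _ = p ^ 1 := (pow_one p).symm
      _ ≤ p ^ h := Nat.pow_le_pow_right hp.out.pos hh1
  have hb1 : ‖b‖ ≤ 1 := by
    by_contra hlt
    push Not at hlt
    have h1 : 1 < ‖b‖ ^ (p ^ h - 1) := one_lt_pow₀ hlt (by omega)
    rw [← norm_pow, hbp] at h1
    exact absurd (norm_aL_le (lawOf S φ₀ hφ₀) h) (not_le.mpr h1)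
  have hw0 : ∀ i, 0 < gK (lawOf S φ₀ hφ₀) b K₀ ‖(rti M (x i)).v‖ := fun i =>
    gK_pos hn ht _ hb0 _ (D.r_pos i) (rti M (x i)).norm_lt
  have hw1 : ∀ i, gK (lawOf S φ₀ hφ₀) b K₀ ‖(rti M (x i)).v‖ < 1 := fun i =>
    lt_of_le_of_lt (D.gK_le i K₀ le_rfl) (by
      have h1 : 0 ≤ ‖aL (lawOf S φ₀ hφ₀) h‖ := norm_nonneg _
      nlinarith [norm_nonneg b])
  refine Ev_injective_of_descent p S.κ (fun i => (mu (baseLaw S) (lawOf S φ₀ hφ₀) (rti (f + 2) (x i))).o)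
    (fun i => (mu (baseLaw S) (lawOf S φ₀ hφ₀) (rti (f + 2) (x i))).norm_lt)
    (fun i => gK (lawOf S φ₀ hφ₀) b K₀ ‖(rti M (x i)).v‖) hw0 hw1 ?_ a ha0
  intro e j htop a' ha'
  set pt := frobPoint p (fun i => (mu (baseLaw S) (lawOf S φ₀ hφ₀) (rti (f + 2) (x i))).o) e with hpt
  set v : Fin N → C := fun i => ((Ev S.κ pt (MvPowerSeries.pderiv k i a') : OC C) : C) with hv
  set ψ : Fin N → C := fun i => ((ev1 (RingHom.id _) (mu (baseLaw S) (lawOf S φ₀ hφ₀) (rti (f + 2) (x i))).o (f1 (lawOf S φ₀ hφ₀).G) : OC C) : C) with hψ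
  have hV : ∀ i, ‖v i‖ ≤ ∑ i', ‖v i'‖ := fun i =>
    Finset.single_le_sum (f := fun i' => ‖v i'‖) (fun _ _ => norm_nonneg _) (Finset.mem_univ i)
  have hV0 : 0 ≤ ∑ i', ‖v i'‖ := Finset.sum_nonneg fun _ _ => norm_nonneg _
  have hxpos : ∀ i, 0 < ‖(x i).v‖ := fun i => lt_trans (pow_pos ht0 _) (hwin i).1
  have hkey := aat (L := lawOf S φ₀ hφ₀) hn H hh1 hhn hadd hbp hk S.κ (fun i => (Pts.cast (rti M (x i)) : Pts (lawOf S φ₀ hφ₀).G))
    (fun i => D.hX0 i) N (by simp) (fun i j => D.hwin i j) (fun i => D.hc i)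
    ?_ K₀ (fun i K hK y hy => D.hsm i K hK y hy) (fun i K hK => D.hvan H hh1 hhn hn hb0 hb' hc' hxT i K hK) e j htop
    (fun i => v i * (ψ i * (U : C) / b) ^ (p ^ e i)) (CstRel p h b e (∑ i', ‖v i'‖)) (M + T₁ + K₀) ?_ j rfl rfl
  · -- conclusion
    have hψ0 : ψ j ≠ 0 := by
      intro h0
      have h1 := norm_f1_sub_one (mu (baseLaw S) (lawOf S φ₀ hφ₀) (rti (f + 2) (x j)))
      have h2 := (mu (baseLaw S) (lawOf S φ₀ hφ₀) (rti (f + 2) (x j))).norm_lt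
      simp only [hψ] at h0
      rw [h0, zero_sub, norm_neg, norm_one] at h1
      linarith
    have hU0 : (U : C) ≠ 0 := by
      intro h0
      have h1 := norm_natCast_of_not_dvd (C := C) hU
      rw [h0, norm_zero] at h1
      exact zero_ne_one h1
    have hne : ψ j * (U : C) / b ≠ 0 := div_ne_zero (mul_ne_zero hψ0 hU0) hb0
    have h1 : v j = 0 := (mul_eq_zero.mp hkey).resolve_right (pow_ne_zero _ hne)
    exact Subtype.ext h1
  · -- independence
    intro j' a'' h1 h2 h3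
    have hnorm : ∀ i, ‖(x i).v‖ = ‖(rti M (x i)).v‖ ^ (p ^ (n * M)) := fun i => (norm_rti_pow hb' M (x i)).symm
    have h3' : ∀ i, a'' i ≠ 0 → ‖(x i).v‖ = ‖(x j').v‖ := fun i hi => by
      rw [hnorm, hnorm]
      congr 1
      exact h3 i hi
    have h4 := horth j' a'' h1 h2 h3'
    have h5 := norm_sum_rti_pow x a'' M (hxpos j') (lt_of_le_of_lt (hwin j').2 ht1)
      (fun i hi => (h3' i hi).le) h4
    have h6 : ‖(rti M (x j')).v‖ ^ (p ^ (n * M)) = ‖(x j').v‖ := norm_rti_pow hb' M (x j')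
    have hpos : p ^ (n * M) ≠ 0 := (pow_pos hp.out.pos _).ne'
    exact (pow_left_inj₀ (norm_nonneg _) (norm_nonneg _) hpos).mp (h5.trans h6.symm)
  · -- the relation
    intro z hz1 hzN d₀ hd₀ K hKK
    obtain ⟨e', rfl⟩ : ∃ e', K = e' + M := ⟨K - M, by omega⟩
    set T := e' + f with hT
    have hzlt : z < N + 1 := by omega
    set P := PD d₀ z with hP
    have hdvd : P.O * P.SD.O ∣ U * p ^ T := hUT (d₀, ⟨z, hzlt⟩) T (by omega)
    obtain ⟨m, hm⟩ : P.O ∣ U * p ^ T := dvd_trans (dvd_mul_right _ _) hdvd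
    have hSD : P.SD.O ∣ m := by
      rw [hm] at hdvd
      exact (Nat.mul_dvd_mul_iff_left P.hO).mp hdvd
    obtain ⟨ζ, hζ1, hζ2⟩ := homEnd_pow_rti S (gEnd S hω hF d₀ z) (norm_gEnd_le S hω hF d₀ z) U T (f + 2) e' (by omega)
    have hgm : ∀ i, ((homEnd S P.hg') ^ m) (rti (f + 2) (x i)) =
        rti (f + 2) (x i) + (p ^ e') • (U • (gEnd S hω hF d₀ z (x i)) + (p ^ 1) • ζ (x i)) := by
      intro i
      rw [P.hend, ← pow_mul, ← hm]
      exact hζ2 (x i)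
    exact rel_of_pair hφ₀ hI hh1 hhn hlow ha P.τ P.hK P.hKg P.hg' P.hKu P.hker x hxT (hspan (f + 2)) P.SD m hSD hb0 hbp D
      (fun i => gEnd S hω hF d₀ z (x i)) (fun i => ζ (x i)) e' U hgm (fun i => norm_gEnd_le S hω hF d₀ z (x i)) (fun i => hζ1 (x i))
      (by omega) (S.κ d₀) z (fun i => rti_gEnd_v S hω hF hk d₀ z M (x i)) e a' ha' j htop hV0 hV

/-- The main theorem in height `h` in the valued setting: an admissible map `φ₀` with `φ₀ (c_q) ≠ 0`, `c_j = 0` for `j < q`, whose kernel is invariant under (powers of) the automorphisms, is injective. -/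
theorem injective_mainH (S : Setting C p n N k) (hω : HOm S) (hF : HFr S) (hk : Fintype.card k = p ^ n) {h : ℕ} (hh1 : 1 ≤ h) (hN : N + h = n)
    {φ₀ : MvPowerSeries (Fin N) k →+* OC C} (hφ₀ : Adm S φ₀) (hN0 : 1 ≤ N)
    (hI : IsLocalRing.maximalIdeal (MvPowerSeries (Fin N) k) =
      Ideal.span {a | ∃ j, j < p ^ n ∧ a = PowerSeries.coeff j (mulSeries S.F p)})
    (hlow : ∀ j, j < p ^ h → PowerSeries.coeff j (mulSeries S.F p) = 0)
    (ha : φ₀ (PowerSeries.coeff (p ^ h) (mulSeries S.F p)) ≠ 0) (hinv : HInvO S φ₀) :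
    Function.Injective φ₀ := by
  classical
  have hhn : h < n := by omega
  have hp2 := hp.out.two_le
  have hn1 : 1 ≤ n := S.hn
  have hb' := baseLaw_isBase S
  have hc' := close_lawOf S hφ₀
  have H : HtLaw (lawOf S φ₀ hφ₀) h := htLaw_lawOf hφ₀ hlow ha
  have ht := H.exists_small hhn
  have hq2 : 2 ≤ p ^ h := by
    calc 2 ≤ p := hp.out.two_le
      _ = p ^ 1 := (pow_one p).symm
      _ ≤ p ^ h := Nat.pow_le_pow_right hp.out.pos hh1
  obtain ⟨b, hbp⟩ := IsAlgClosed.exists_pow_nat_eq (aL (lawOf S φ₀ hφ₀) h) (show 0 < p ^ h - 1 by omega)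
  have hbne : b ≠ 0 := by
    rintro rfl
    apply H.aL_ne
    rw [← hbp, zero_pow]
    omega
  have hcard : Nat.card (nsmulAddMonoidHom (α := Pts (lawOf S φ₀ hφ₀).G) p).ker = p ^ N := by
    have h1 := H.card_torsion hn1 hhn.le ht
    have e : n - h = N := by omega
    rwa [e] at h1
  obtain ⟨t, f, x, ht0, ht1, hxT, hwin, horth, hspan⟩ := exists_lattice_basis hb' hc' hn1 ht hcard
  have hinj := eval_injectiveH S hω hF hk hh1 hhn hφ₀ hI hlow ha hinv x hxT ht0 ht1 hwin horth hspan hbne hbp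
  -- a ring containing the torsion points
  obtain ⟨g, hg, hgu, -⟩ := exists_digit_series S hω hF 0 1 (fun _ => 0)
  obtain ⟨O, g', hg', τ, K, hO, -, hgu', hK, hKg, hker⟩ := hinv g hg hgu
  have hKu := isUnit_coeff_one_of_map hKg hgu'
  obtain ⟨SD⟩ := exists_sigmaDataH hφ₀ τ hK hKu hker hhn hlow ha (f + 2)
  set z : Fin N → Pts (lawOf S φ₀ hφ₀).G := fun i => mu (baseLaw S) (lawOf S φ₀ hφ₀) (rti (f + 2) (x i)) with hz
  have hzt : ∀ i, (p ^ (f + 2)) • z i = 0 := fun i => by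
    simp only [hz]
    rw [← mu_nsmul hb' hc', nsmul_pow_rti hb']
    exact hxT i
  have hzS : ∀ i, (z i).v ∈ SD.Sr := fun i => SD.hT (z i) (hzt i)
  have hcl := isClosed_S φ₀ S.c0 S.c1 hφ₀.hc SD.Sr SD.fam SD.hS SD.hφS
  have hT := torsion_mem_ideal hφ₀ hn1 ht SD.Sr hcl SD.hφS x hxT (show f + 1 ≤ f + 2 by omega) (hspan (f + 2)) hzS
  have hImem := mem_ideal_of_torsion hφ₀ hI SD.Sr SD.hφS _ hT
  obtain ⟨ev, hev, hevint⟩ := integral_over_Ev φ₀ S.c0 S.c1 hφ₀.hc S.κ (fun r => (hφ₀.hκ r).symm) SD.Sr SD.fam SD.hS SD.hφS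
    (fun i => (z i).o) hzS (fun i => (z i).norm_lt) hImem
  have hevinj : Function.Injective ev := by
    rw [injective_iff_map_eq_zero]
    intro a ha0
    apply hinj a
    apply Subtype.ext
    have := hev a
    rw [ha0] at this
    exact this.symm
  let φS : MvPowerSeries (Fin N) k →+* SD.Sr := RingHom.codRestrict ((OC C).subtype.comp φ₀) SD.Sr SD.hφS
  have hφSint : φS.IsIntegral := isIntegral_of_hS φ₀ SD.Sr SD.hφS SD.fam SD.hS φS (fun a => rfl)
  have hfinal := injective_of_integral_of_integral φS ev hevinj hevint hφSint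
  intro a a' haa
  apply hfinal
  apply Subtype.ext
  exact congrArg (fun t : OC C => (t : C)) haa

end Vale.Agent.Lib.P217
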