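import Vale.Agent.Lib.P217.Moore

set_option linter.unusedSectionVars false
set_option linter.unusedVariables false

/-!
Moore matrices with unit determinant: the bounds in both directions.
-/

namespace Vale.Agent.Lib.P217

section Moore

variable {C : Type*} [NormedField C] [IsUltrametricDist C] (p : ℕ) [Fact p.Prime] [CharP C p]


omit [Fact p.Prime] [CharP C p] in
private theorem norm_sum_le_aux {ι : Type*} (s : Finset ι) (f : ι → C) {δ : ℝ} (hδ : 0 ≤ δ)
    (h : ∀ i ∈ s, ‖f i‖ ≤ δ) : ‖∑ i ∈ s, f i‖ ≤ δ :=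
  IsUltrametricDist.norm_sum_le_of_forall_le_of_nonneg hδ h

/-- Induction on the finite index set, as in `moore_aux`. -/
theorem moore_bound_aux {J : Type*} [DecidableEq J] (s : Finset J) :
    ∀ ρ v : J → C, (∀ i ∈ s, ‖ρ i‖ ≤ 1) →
      (∀ a : J → ℕ, (∀ i ∈ s, a i < p) → (∃ i ∈ s, a i ≠ 0) →
        ‖∑ i ∈ s, (a i : C) * ρ i‖ = 1) →
      ∀ {δ : ℝ}, 0 ≤ δ → (∀ t : ℕ, t < s.card → ‖∑ i ∈ s, v i * ρ i ^ (p ^ t)‖ ≤ δ) →
      ∀ i ∈ s, ‖v i‖ ≤ δ := by
  induction s using Finset.induction_on with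
  | empty => intro _ _ _ _ _ _ _ i hi; simp at hi
  | insert i0 s hi0 IH =>
    intro ρ v hρ hind δ hδ hlim
    have hp : 1 ≤ p := (Fact.out : p.Prime).one_lt.le
    have hp1 : 1 < p := (Fact.out : p.Prime).one_lt
    -- the norm of the new element
    have hnorm0 : ‖ρ i0‖ = 1 := by
      have := hind (fun i => if i = i0 then 1 else 0)
        (fun i _ => by by_cases h : i = i0 <;> simp only [h, if_true, if_false] <;> omega)
        ⟨i0, Finset.mem_insert_self _ _, by simp⟩
      rw [Finset.sum_insert hi0] at this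
      have h0 : ∑ i ∈ s, (((if i = i0 then 1 else 0 : ℕ)) : C) * ρ i = 0 := by
        refine Finset.sum_eq_zero fun i hi => ?_
        have : i ≠ i0 := fun h => hi0 (h ▸ hi)
        simp [this]
      rw [h0] at this
      simpa using this
    have hρ0 : ‖ρ i0‖ ≤ 1 := hnorm0.le
    -- the new family
    let ρ' : J → C := fun i => ρ i ^ p - ρ i * ρ i0 ^ (p - 1)
    have h1 : ∀ i ∈ s, ‖ρ' i‖ ≤ 1 := by
      intro i hi
      have hi1 : ‖ρ i‖ ≤ 1 := hρ i (Finset.mem_insert_of_mem hi)
      simp only [ρ']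
      rw [sub_eq_add_neg]
      refine (IsUltrametricDist.norm_add_le_max _ _).trans (max_le ?_ ?_)
      · rw [norm_pow]; exact pow_le_one₀ (norm_nonneg _) hi1
      · rw [norm_neg, norm_mul, norm_pow, hnorm0, one_pow, mul_one]; exact hi1
    have h2 : ∀ a : J → ℕ, (∀ i ∈ s, a i < p) → (∃ i ∈ s, a i ≠ 0) →
        ‖∑ i ∈ s, (a i : C) * ρ' i‖ = 1 := by
      intro a ha hne
      set Y : C := ∑ i ∈ s, (a i : C) * ρ i with hY
      have e : ∑ i ∈ s, (a i : C) * ρ' i = Y ^ p - Y * ρ i0 ^ (p - 1) := by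
        rw [hY, sum_pow_char, Finset.sum_mul, ← Finset.sum_sub_distrib]
        refine Finset.sum_congr rfl fun i _ => ?_
        rw [mul_pow, natCast_pow_char]
        simp only [ρ']
        ring
      rw [e]
      refine norm_frob p Y (ρ i0) hnorm0 fun c => ?_
      have := hind (Function.update a i0 ((-c).val)) (fun i hi => ?_) ?_
      · rw [Finset.sum_insert hi0, Function.update_self] at this
        have h3 : ∑ i ∈ s, ((Function.update a i0 ((-c).val) i : ℕ) : C) * ρ i = Y := by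
          refine Finset.sum_congr rfl fun i hi => ?_
          have : i ≠ i0 := fun h => hi0 (h ▸ hi)
          rw [Function.update_of_ne this]
        rw [h3] at this
        have h4 : (((-c).val : ℕ) : C) = - ZMod.castHom (dvd_refl p) C c := by
          rw [ZMod.natCast_val, ← map_neg]; rfl
        rw [h4] at this
        rw [← this]
        congr 1
        ring
      · rcases Finset.mem_insert.1 hi with h | h
        · subst h
          rw [Function.update_self]
          exact ZMod.val_lt _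
        · have : i ≠ i0 := fun h' => hi0 (h' ▸ h)
          rw [Function.update_of_ne this]
          exact ha i h
      · obtain ⟨i, hi, hai⟩ := hne
        refine ⟨i, Finset.mem_insert_of_mem hi, ?_⟩
        have : i ≠ i0 := fun h' => hi0 (h' ▸ hi)
        rw [Function.update_of_ne this]
        exact hai
    have hcard : (insert i0 s).card = s.card + 1 := Finset.card_insert_of_notMem hi0
    -- the smaller sums
    have h3 : ∀ t : ℕ, t < s.card → ‖∑ i ∈ s, v i * ρ' i ^ (p ^ t)‖ ≤ δ := by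
      set S : ℕ → C := fun t => ∑ i ∈ insert i0 s, v i * ρ i ^ (p ^ t) with hS
      have e : ∀ t, ∑ i ∈ s, v i * ρ' i ^ (p ^ t) =
          S (t + 1) - ρ i0 ^ (p ^ t * (p - 1)) * S t := by
        intro t
        simp only [hS, ρ']
        rw [Finset.sum_insert hi0, Finset.sum_insert hi0, mul_add, Finset.mul_sum]
        have e1 : p ^ (t + 1) = p ^ t * (p - 1) + p ^ t := by
          calc p ^ (t + 1) = p ^ t * ((p - 1) + 1) := by rw [Nat.sub_add_cancel hp, pow_succ]
            _ = _ := by ring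
        have e2 : ρ i0 ^ (p ^ t * (p - 1)) * (v i0 * ρ i0 ^ p ^ t) = v i0 * ρ i0 ^ p ^ (t + 1) := by
          rw [e1, pow_add]; ring
        rw [e2]
        have e3 : ∀ i ∈ s, v i * (ρ i ^ p - ρ i * ρ i0 ^ (p - 1)) ^ p ^ t =
            v i * ρ i ^ p ^ (t + 1) - ρ i0 ^ (p ^ t * (p - 1)) * (v i * ρ i ^ p ^ t) := by
          intro i _
          rw [sub_pow_char_pow, mul_pow, ← pow_mul, ← pow_mul, ← pow_succ', mul_comm (p - 1) (p ^ t)]
          ring
        rw [Finset.sum_congr rfl e3, Finset.sum_sub_distrib]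
        ring
      intro t ht
      rw [e t, sub_eq_add_neg]
      refine (IsUltrametricDist.norm_add_le_max _ _).trans (max_le ?_ ?_)
      · exact hlim (t + 1) (by omega)
      · rw [norm_neg, norm_mul, norm_pow, hnorm0, one_pow, one_mul]
        exact hlim t (by omega)
    have hs := IH ρ' v h1 h2 hδ h3
    -- the new coefficient
    have hv0 : ‖v i0‖ ≤ δ := by
      have h0 := hlim 0 (by omega)
      rw [Finset.sum_insert hi0] at h0
      have e : v i0 * ρ i0 ^ p ^ 0 = (v i0 * ρ i0 ^ p ^ 0 + ∑ i ∈ s, v i * ρ i ^ p ^ 0)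
          + (- ∑ i ∈ s, v i * ρ i ^ p ^ 0) := by ring
      have hn : ‖v i0 * ρ i0 ^ p ^ 0‖ = ‖v i0‖ := by
        rw [norm_mul, norm_pow, hnorm0, one_pow, mul_one]
      rw [← hn, e]
      refine (IsUltrametricDist.norm_add_le_max _ _).trans (max_le h0 ?_)
      rw [norm_neg]
      refine IsUltrametricDist.norm_sum_le_of_forall_le_of_nonneg hδ fun i hi => ?_
      rw [norm_mul, norm_pow, pow_zero, pow_one]
      have hi1 : ‖ρ i‖ ≤ 1 := hρ i (Finset.mem_insert_of_mem hi)
      exact (mul_le_of_le_one_right (norm_nonneg _) hi1).trans (hs i hi)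
    intro i hi
    rcases Finset.mem_insert.1 hi with h | h
    · rw [h]; exact hv0
    · exact hs i h

/-- The Moore bound. Let `ρ i`, `i ∈ J`, be elements of norm `≤ 1` all of whose nonzero `𝔽_p`-combinations have norm `1`.
Then for all vectors `v`, the norm of each `v i` is at most the maximum over `t < card J` of `‖∑ i, v i * ρ i ^ (p ^ t)‖`.

Proof by induction on `J` (as a finset `s`), as in `moore_aux`: with `a = ρ i₀`, put `ρ' i = ρ i ^ p - a ^ (p - 1) * ρ i`, for `i ≠ i₀`;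
`S' t := ∑_{i ≠ i₀} v i * ρ' i ^ (p ^ t) = S (t + 1) - a ^ (p ^ t * (p - 1)) * S t` where `S t = ∑ i, v i * ρ i ^ (p ^ t)`;
`norm_frob` shows that the family `ρ'` satisfies the hypothesis. By induction `‖v i‖ ≤ δ` for `i ≠ i₀` and then from `S 0` we get `‖v i₀‖ ≤ δ`. -/
theorem moore_bound {J : Type*} [Fintype J] (ρ v : J → C) (hρ : ∀ i, ‖ρ i‖ ≤ 1)
    (hind : ∀ a : J → ℕ, (∀ i, a i < p) → (∃ i, a i ≠ 0) → ‖∑ i, (a i : C) * ρ i‖ = 1)
    {δ : ℝ} (hδ : 0 ≤ δ) (hS : ∀ t : ℕ, t < Fintype.card J → ‖∑ i, v i * ρ i ^ (p ^ t)‖ ≤ δ) :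
    ∀ i, ‖v i‖ ≤ δ := by
  classical
  intro i
  refine moore_bound_aux p Finset.univ ρ v (fun i _ => hρ i) (fun a ha hne => ?_) hδ
    (fun t ht => hS t ?_) i (Finset.mem_univ i)
  · obtain ⟨j, _, hj⟩ := hne
    exact hind a (fun i => ha i (Finset.mem_univ i)) ⟨j, hj⟩
  · simpa using ht

/-- The transposed bound: if the additive polynomial `Y ↦ ∑_{t < card J} w t * Y ^ (p ^ t)` is small at all the `ρ i` then the coefficients `w t` are small.

Proof. The Moore matrix `M = (ρ i ^ (p ^ t))`, is invertible by `moore_bound`, which also shows that the entries of its inverse have norm at most `1`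
(a row of the inverse is a vector `v` with `v M` a unit vector). -/
theorem moore_bound_transpose {J : Type*} [Fintype J] (ρ : J → C) (hρ : ∀ i, ‖ρ i‖ ≤ 1)
    (hind : ∀ a : J → ℕ, (∀ i, a i < p) → (∃ i, a i ≠ 0) → ‖∑ i, (a i : C) * ρ i‖ = 1)
    (w : Fin (Fintype.card J) → C) {δ : ℝ} (hδ : 0 ≤ δ)
    (hS : ∀ i, ‖∑ t : Fin (Fintype.card J), w t * ρ i ^ (p ^ (t : ℕ))‖ ≤ δ) :
    ∀ t, ‖w t‖ ≤ δ := by
  classical
  let e : J ≃ Fin (Fintype.card J) := Fintype.equivFin J
  -- the square Moore matrix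
  let M : Matrix J J C := fun i j => ρ i ^ (p ^ ((e j : Fin (Fintype.card J)) : ℕ))
  have hbound : ∀ (v : J → C) {η : ℝ}, 0 ≤ η → (∀ j, ‖Matrix.vecMul v M j‖ ≤ η) → ∀ i, ‖v i‖ ≤ η := by
    intro v η hη hv
    refine moore_bound p ρ v hρ hind hη fun t ht => ?_
    have := hv (e.symm ⟨t, ht⟩)
    simpa [Matrix.vecMul, dotProduct, M] using this
  have hinj : Function.Injective (Matrix.vecMul · M) := by
    intro v₁ v₂ h
    funext i
    have h0 : ∀ j, ‖Matrix.vecMul (v₁ - v₂) M j‖ ≤ 0 := by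
      intro j
      have h' : Matrix.vecMul v₁ M = Matrix.vecMul v₂ M := h
      rw [Matrix.sub_vecMul, h', sub_self]
      simp
    have := hbound (v₁ - v₂) le_rfl h0 i
    have h2 : ‖(v₁ - v₂) i‖ = 0 := le_antisymm this (norm_nonneg _)
    have h3 : (v₁ - v₂) i = 0 := norm_eq_zero.1 h2
    simpa [sub_eq_zero] using h3
  have hunit : IsUnit M := Matrix.vecMul_injective_iff_isUnit.1 hinj
  have hdet : IsUnit M.det := (Matrix.isUnit_iff_isUnit_det M).1 hunit
  have hNM : M⁻¹ * M = 1 := Matrix.nonsing_inv_mul M hdet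
  have hNnorm : ∀ i k, ‖M⁻¹ i k‖ ≤ 1 := by
    intro i k
    refine hbound (M⁻¹ i) zero_le_one (fun j => ?_) k
    have h1 : Matrix.vecMul (M⁻¹ i) M j = (M⁻¹ * M) i j := by
      rw [Matrix.mul_apply]
      simp [Matrix.vecMul, dotProduct]
    rw [h1, hNM, Matrix.one_apply]
    split_ifs <;> simp
  -- the vector of values
  let w' : J → C := fun j => w (e j)
  let y : J → C := Matrix.mulVec M w'
  have hy : ∀ i, ‖y i‖ ≤ δ := by
    intro i
    have h1 : y i = ∑ t : Fin (Fintype.card J), w t * ρ i ^ (p ^ (t : ℕ)) := by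
      simp only [y, w', M, Matrix.mulVec, dotProduct]
      rw [← Equiv.sum_comp e]
      exact Finset.sum_congr rfl fun j _ => mul_comm _ _
    rw [h1]
    exact hS i
  have hw' : w' = Matrix.mulVec M⁻¹ y := by
    simp only [y]
    rw [Matrix.mulVec_mulVec, hNM, Matrix.one_mulVec]
  intro t
  have h2 : w t = w' (e.symm t) := by simp [w']
  rw [h2, hw']
  simp only [Matrix.mulVec, dotProduct]
  refine IsUltrametricDist.norm_sum_le_of_forall_le_of_nonneg hδ fun k _ => ?_
  rw [norm_mul]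
  exact (mul_le_of_le_one_left (norm_nonneg _) (hNnorm _ _)).trans (hy k)

/-- The independence hypothesis is preserved by `p`-power maps. -/
theorem ind_pow {J : Type*} [Fintype J] (ρ : J → C)
    (hind : ∀ a : J → ℕ, (∀ i, a i < p) → (∃ i, a i ≠ 0) → ‖∑ i, (a i : C) * ρ i‖ = 1) (s : ℕ)
    (a : J → ℕ) (h1 : ∀ i, a i < p) (h2 : ∃ i, a i ≠ 0) : ‖∑ i, (a i : C) * ρ i ^ (p ^ s)‖ = 1 := by
  have h0 := hind a h1 h2
  have e : ∑ i, (a i : C) * ρ i ^ (p ^ s) = (∑ i, (a i : C) * ρ i) ^ (p ^ s) := by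
    rw [sum_pow_char_pow]
    refine Finset.sum_congr rfl fun i _ => ?_
    rw [mul_pow]
    congr 1
    rw [← iterateFrobenius_def, map_natCast]
  rw [e, norm_pow, h0, one_pow]

end Moore

end Vale.Agent.Lib.P217
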