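import Vale.Agent.Lib.P217.HScale
import Vale.Agent.Lib.P217.EndSeries
import Vale.Agent.Lib.P217.Lattice

set_option linter.unusedSectionVars false
set_option linter.unusedVariables false

/-!
Comparison of `mu ((p ^ k) • Y)` with the series `[p ^ (k + M)]` at the `p ^ M`-th division point of `Y` (for the base group).
-/

namespace Vale.Agent.Lib.P217

open scoped Topology
open Filter

variable {C : Type*} [NormedField C] [IsUltrametricDist C] [CompleteSpace C]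
variable {p n : ℕ} [hp : Fact p.Prime] [CharP C p] [IsAlgClosed C]
variable {L₀ L : Law C p n} {h : ℕ}

/-- `nuSeq` with the improved exponent: `‖nuSeq (j + 1) - nuSeq j‖ ≤ c ^ (q ^ j)`, as in `norm_nuSeq_step`, using `HtLaw.norm_nsmul_pow_sub_le`. -/
theorem HtLaw.norm_nuSeq_step (H : HtLaw L h) (β : Pts L₀.G) (j : ℕ) :
    ‖(nuSeq L₀ L β (j + 1)).v - (nuSeq L₀ L β j).v‖ ≤ L.c ^ (p ^ (h * j)) := by
  have e : nuSeq L₀ L β (j + 1) = (p ^ j) • (p • (Pts.cast (rti (j + 1) β) : Pts L.G)) := by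
    simp only [nuSeq]
    rw [pow_succ, mul_nsmul']
  rw [e, nuSeq]
  refine (H.norm_nsmul_pow_sub_le _ _ j).trans ?_
  refine pow_le_pow_left₀ (norm_nonneg _) ?_ _
  have h2 := norm_nsmul_p_sub_pow_le L (Pts.cast (rti (j + 1) β) : Pts L.G)
  rw [Pts.v_cast, nsmul_rti_succ] at h2
  exact h2

/-- `‖mu β - nuSeq β M‖ ≤ c ^ (q ^ M)`. -/
theorem HtLaw.norm_mu_sub_nuSeq_le (H : HtLaw L h) (hh1 : 1 ≤ h) (β : Pts L₀.G) (M : ℕ) :
    ‖(mu L₀ L β).v - (nuSeq L₀ L β M).v‖ ≤ L.c ^ (p ^ (h * M)) := by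
  have hanti : ∀ {a b : ℕ}, a ≤ b → L.c ^ (p ^ (h * b)) ≤ L.c ^ (p ^ (h * a)) := fun hab =>
    pow_le_pow_of_le_one L.c_nonneg L.c_lt_one.le
      (Nat.pow_le_pow_right hp.out.pos (Nat.mul_le_mul_left h hab))
  have hdiff : ∀ i, ‖(nuSeq L₀ L β (M + i)).v - (nuSeq L₀ L β M).v‖ ≤ L.c ^ (p ^ (h * M)) := by
    intro i
    induction i with
    | zero => simpa using pow_nonneg L.c_nonneg _
    | succ i ih =>
      have e : (nuSeq L₀ L β (M + (i + 1))).v - (nuSeq L₀ L β M).v =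
          ((nuSeq L₀ L β (M + i + 1)).v - (nuSeq L₀ L β (M + i)).v) +
            ((nuSeq L₀ L β (M + i)).v - (nuSeq L₀ L β M).v) := by
        rw [← add_assoc]; ring
      rw [e]
      refine (IsUltrametricDist.norm_add_le_max _ _).trans (max_le ?_ ih)
      exact (H.norm_nuSeq_step β (M + i)).trans (hanti (Nat.le_add_right _ _))
  have hlim : Tendsto (fun i : ℕ => (nuSeq L₀ L β (i + M)).v) atTop (𝓝 (mu L₀ L β).v) :=
    (tendsto_add_atTop_iff_nat (f := fun i : ℕ => (nuSeq L₀ L β i).v) M).mpr (tendsto_nuSeq L β)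
  refine le_of_tendsto (hlim.sub_const _).norm (Eventually.of_forall fun i => ?_)
  rw [add_comm i M]
  exact hdiff i

/-- Comparison of `mu` with `[p ^ K]`. -/
theorem HtLaw.norm_mu_nsmul_sub_le (H : HtLaw L h) (hh1 : 1 ≤ h) (hb : IsBase L₀) (hc : Close L₀ L) (M k : ℕ) (Y : Pts L₀.G) :
    ‖(mu L₀ L ((p ^ k) • Y)).v - ((p ^ (k + M)) • (Pts.cast (rti M Y) : Pts L.G)).v‖ ≤ L.c ^ (p ^ (h * (k + M))) := by
  have h2 := H.norm_mu_sub_nuSeq_le hh1 ((p ^ k) • Y) (M + k)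
  have e : rti (M + k) ((p ^ k) • Y) = rti M Y := by
    have e1 : rti (M + k) ((p ^ k) • Y) = rti M (rti k ((p ^ k) • Y)) :=
      Function.iterate_add_apply rt M k _
    rw [e1, rti_nsmul_pow hb]
  have e2 : nuSeq L₀ L ((p ^ k) • Y) (M + k) = (p ^ (k + M)) • (Pts.cast (rti M Y) : Pts L.G) := by
    simp only [nuSeq]
    rw [e, add_comm M k]
  rw [e2, add_comm M k] at h2
  exact h2

/-- Lattice points: `‖[p ^ K] (cast (rti M x))‖ ≤ c ^ (q ^ K)` for `x` in the lattice, `M ≤ K`. -/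
theorem HtLaw.norm_nsmul_rti_le_of_mem_Lat (H : HtLaw L h) (hh1 : 1 ≤ h) (hb : IsBase L₀) (hc : Close L₀ L) {x : Pts L₀.G} (hx : x ∈ Lat hb hc) (M k : ℕ) :
    ‖((p ^ (k + M)) • (Pts.cast (rti M x) : Pts L.G)).v‖ ≤ L.c ^ (p ^ (h * (k + M))) := by
  have h2 := H.norm_mu_nsmul_sub_le hh1 hb hc M k x
  rw [mu_nsmul hb hc, (mem_Lat hb hc).mp hx, smul_zero, Pts.zero_v, zero_sub, norm_neg] at h2
  exact h2

/-- Smallness: `‖(p ^ k) • mu Y‖ ≤ max ‖Y‖ c ^ (q ^ k)`. -/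
theorem HtLaw.norm_mu_nsmul_le (H : HtLaw L h) (hb : IsBase L₀) (hc : Close L₀ L) (k : ℕ) (Y : Pts L₀.G) :
    ‖(mu L₀ L ((p ^ k) • Y)).v‖ ≤ max ‖Y.v‖ L.c ^ (p ^ (h * k)) := by
  rw [mu_nsmul hb hc]
  exact (H.norm_nsmul_pow_le _ k).trans (pow_le_pow_left₀ (norm_nonneg _) (norm_mu_le L Y) _)

/-- A bound on `[p ^ (k + M)]` near the unit circle: if `x` is a point of norm `ρ`, with `ρ ^ (Q ^ M) ≤ t`, then `‖[p ^ (k + M)] x‖ ≤ max t c ^ (q ^ k)`.

Proof: let `Y = (p ^ M) • x` in the base group, of norm `ρ ^ (Q ^ M)`, `x = rti M Y`. Then by the two lemmas above, `‖[p ^ (k + M)] x‖ ≤ max (max ‖Y‖ c ^ (q ^ k)) (c ^ (q ^ (k + M)))`. -/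
theorem HtLaw.norm_nsmul_le_of_norm_pow_le (H : HtLaw L h) (hh1 : 1 ≤ h) (hb : IsBase L₀) (hc : Close L₀ L) (k M : ℕ) {t : ℝ} (x : Pts L.G)
    (hx : ‖x.v‖ ^ (p ^ (n * M)) ≤ t) : ‖((p ^ (k + M)) • x).v‖ ≤ max t L.c ^ (p ^ (h * k)) := by
  set Y : Pts L₀.G := (p ^ M) • (Pts.cast x : Pts L₀.G) with hY
  have hrt : rti M Y = (Pts.cast x : Pts L₀.G) := rti_nsmul_pow hb M _
  have hcast : (Pts.cast (rti M Y) : Pts L.G) = x := by
    rw [hrt]; rfl
  have hYn : ‖Y.v‖ ≤ t := by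
    have h2 := norm_rti_pow hb M Y
    rw [hrt, Pts.v_cast] at h2
    rw [← h2]; exact hx
  have h2 := H.norm_mu_nsmul_sub_le hh1 hb hc M k Y
  rw [hcast] at h2
  have h3 := H.norm_mu_nsmul_le hb hc k Y
  have hmax : max ‖Y.v‖ L.c ≤ max t L.c := max_le_max hYn le_rfl
  have h4 : max ‖Y.v‖ L.c ^ (p ^ (h * k)) ≤ max t L.c ^ (p ^ (h * k)) :=
    pow_le_pow_left₀ (le_max_of_le_left (norm_nonneg _)) hmax _
  have h5 : L.c ^ (p ^ (h * (k + M))) ≤ max t L.c ^ (p ^ (h * k)) := by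
    calc L.c ^ (p ^ (h * (k + M))) ≤ L.c ^ (p ^ (h * k)) :=
          pow_le_pow_of_le_one L.c_nonneg L.c_lt_one.le
            (Nat.pow_le_pow_right hp.out.pos (Nat.mul_le_mul_left h (Nat.le_add_right _ _)))
      _ ≤ max t L.c ^ (p ^ (h * k)) := pow_le_pow_left₀ L.c_nonneg (le_max_right _ _) _
  have e : ((p ^ (k + M)) • x).v = (mu L₀ L ((p ^ k) • Y)).v -
      ((mu L₀ L ((p ^ k) • Y)).v - ((p ^ (k + M)) • x).v) := by ring
  rw [e, sub_eq_add_neg]
  refine (IsUltrametricDist.norm_add_le_max _ _).trans ?_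
  rw [norm_neg]
  exact max_le (h3.trans h4) (h2.trans h5)

/-- The series `[p ^ K]` is `X ^ (Q ^ K)` up to elements of norm at most `c`. -/
theorem norm_coeff_top_sub_one_le (L : Law C p n) (K : ℕ) :
    ‖((PowerSeries.coeff (p ^ (n * K)) (mulSeries L.G (p ^ K)) : OC C) : C) - 1‖ ≤ L.c := by
  set I := cballIdeal (C := C) L.c L.c_nonneg with hI
  let q : OC C →+* OC C ⧸ I := Ideal.Quotient.mk I
  have h1 : mulSeries (L.G.map q) p = PowerSeries.X ^ (p ^ n) := by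
    rw [mulSeries_map]
    ext j
    rw [PowerSeries.coeff_map, PowerSeries.coeff_X_pow]
    have h2 := L.coeff_p j
    by_cases hj : j = p ^ n
    · rw [if_pos hj]
      rw [if_pos hj] at h2
      rw [← map_one q]
      exact Ideal.Quotient.eq.mpr (by simpa [hI, mem_cballIdeal] using h2)
    · rw [if_neg hj]
      rw [if_neg hj, sub_zero] at h2
      exact Ideal.Quotient.eq_zero_iff_mem.mpr (by simpa [hI, mem_cballIdeal] using h2)
  have h2 : ∀ K : ℕ, mulSeries (L.G.map q) (p ^ K) = PowerSeries.X ^ (p ^ (n * K)) := by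
    intro K
    induction K with
    | zero => simpa using mulSeries_one (L.G.map q)
    | succ K ih =>
      have hs : PowerSeries.HasSubst (PowerSeries.X ^ (p ^ n) : PowerSeries (OC C ⧸ I)) :=
        PowerSeries.HasSubst.X_pow (pow_ne_zero _ hp.out.ne_zero)
      rw [pow_succ, mulSeries_mul, ih, h1, PowerSeries.subst_pow hs, PowerSeries.subst_X hs, ← pow_mul,
        ← pow_add]
      congr 2
      ring
  have h3 := congrArg (PowerSeries.coeff (p ^ (n * K))) (h2 K)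
  rw [mulSeries_map, PowerSeries.coeff_map, PowerSeries.coeff_X_pow_self, ← map_one q] at h3
  have h4 : (PowerSeries.coeff (p ^ (n * K)) (mulSeries L.G (p ^ K)) - 1 : OC C) ∈ I :=
    Ideal.Quotient.eq.mp h3
  simpa [hI, mem_cballIdeal] using h4

/-- The lower bound for `gK` near the unit circle: the coefficient of `X ^ (Q ^ K)` in `[p ^ K]` has norm `1`, hence `‖b‖ * r ^ (Q ^ K) ≤ gK K r`. The coefficient: `[p ^ K] ≡ X ^ (Q ^ K)` modulo the ideal of elements of norm at most `c`, from `L.coeff_p`, by induction on `K`. -/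
theorem le_gK_of_top (L : Law C p n) (b : C) (K : ℕ) {r : ℝ} (h0 : 0 ≤ r) (h1 : r ≤ 1) :
    ‖b‖ * r ^ (p ^ (n * K)) ≤ gK L b K r := by
  have h2 := norm_coeff_top_sub_one_le L K
  have hc1 := L.c_lt_one
  set u : C := ((PowerSeries.coeff (p ^ (n * K)) (mulSeries L.G (p ^ K)) : OC C) : C) with hu
  have hu1 : ‖u‖ = 1 := by
    apply le_antisymm (norm_OC_le _)
    by_contra hlt
    push Not at hlt
    have e : (1 : C) = u + -(u - 1) := by ring
    have h3 : ‖(1 : C)‖ ≤ max ‖u‖ ‖-(u - 1)‖ := by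
      conv_lhs => rw [e]
      exact IsUltrametricDist.norm_add_le_max _ _
    rw [norm_one, norm_neg] at h3
    exact absurd h3 (not_le.mpr (max_lt hlt (lt_of_le_of_lt h2 hc1)))
  have h4 := monomial_le_gK L b K (p ^ (n * K)) h0 h1
  rwa [norm_mul, ← hu, hu1, mul_one] at h4

end Vale.Agent.Lib.P217
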