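import Vale.Agent.Lib.P217.HIter

set_option linter.unusedSectionVars false
set_option linter.unusedVariables false

/-!
Reduction to a quotient by the first coordinates: `k⟦u_1, …, u_m⟧ / (u_1, …, u_{h-1}) = k⟦u_h, …, u_m⟧`; invariance of the height ideals.
-/

namespace Vale.Agent.Lib.P217

open scoped Topology
open Filter

section retraction

variable {k : Type*} [Field k]

open MvPowerSeries in
/-- The cofactor of `X i` in the decomposition of a series without constant term (over any field). -/
noncomputable def cofactorF {M : ℕ} (a : MvPowerSeries (Fin M) k) (i : Fin M) : MvPowerSeries (Fin M) k := fun e =>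
  if ∀ j, j < i → e j = 0 then coeff (e + Finsupp.single i 1) a else 0

open MvPowerSeries in
theorem coeff_X_mul_cofactorF {M : ℕ} (a : MvPowerSeries (Fin M) k) (i : Fin M) (d : Fin M →₀ ℕ) :
    coeff d (X i * cofactorF a i) =
      if 1 ≤ d i ∧ ∀ j, j < i → d j = 0 then coeff d a else 0 := by
  classical
  rw [X_def, coeff_monomial_mul, one_mul]
  by_cases h1 : 1 ≤ d i
  · have hle : Finsupp.single i 1 ≤ d := by
      rw [Finsupp.single_le_iff]; exact h1
    rw [if_pos hle]
    have hc : coeff (d - Finsupp.single i 1) (cofactorF a i) =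
        if ∀ j, j < i → (d - Finsupp.single i 1 : Fin M →₀ ℕ) j = 0 then coeff (d - Finsupp.single i 1 + Finsupp.single i 1) a else 0 := rfl
    rw [hc, tsub_add_cancel_of_le hle]
    have hiff : (∀ j, j < i → (d - Finsupp.single i 1 : Fin M →₀ ℕ) j = 0) ↔ (∀ j, j < i → d j = 0) := by
      constructor
      · intro h j hj
        have := h j hj
        rw [Finsupp.tsub_apply, Finsupp.single_eq_of_ne (ne_of_lt hj), Nat.sub_zero] at this
        exact this
      · intro h j hj
        rw [Finsupp.tsub_apply, Finsupp.single_eq_of_ne (ne_of_lt hj), Nat.sub_zero]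
        exact h j hj
    simp only [hiff, h1, true_and]
  · have hle : ¬ Finsupp.single i 1 ≤ d := by
      rw [Finsupp.single_le_iff]; exact h1
    rw [if_neg hle, if_neg (fun h => h1 h.1)]

open MvPowerSeries in
theorem eq_sum_cofactorF {M : ℕ} (a : MvPowerSeries (Fin M) k) (ha : constantCoeff a = 0) :
    ∑ i, cofactorF a i * X i = a := by
  classical
  ext d
  rw [map_sum]
  simp_rw [mul_comm (cofactorF a _) (X _), coeff_X_mul_cofactorF]
  by_cases hd : d = 0
  · subst hd
    have h0 : coeff (0 : Fin M →₀ ℕ) a = 0 := by
      simpa using ha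
    simp [h0]
  · have hne : d.support.Nonempty := Finsupp.support_nonempty_iff.mpr hd
    set i0 := d.support.min' hne with hi0
    have hmem : i0 ∈ d.support := Finset.min'_mem _ hne
    have hi0pos : 1 ≤ d i0 := Nat.one_le_iff_ne_zero.mpr (Finsupp.mem_support_iff.mp hmem)
    have hlt : ∀ j, j < i0 → d j = 0 := by
      intro j hj
      by_contra hne'
      have := Finset.min'_le d.support j (Finsupp.mem_support_iff.mpr hne')
      exact absurd hj (not_lt.mpr this)
    rw [Finset.sum_eq_single i0]
    · rw [if_pos ⟨hi0pos, hlt⟩]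
    · intro i _ hi
      rw [if_neg]
      rintro ⟨h1, h2⟩
      rcases lt_or_gt_of_ne hi with h | h
      · have := hlt i h
        omega
      · have := h2 i0 h
        omega
    · simp

/-- The retraction onto the power series in the last coordinates. Here `N + h = m + 1`, and the ideal is generated by the variables of index `l` with `l + 1 < h`.

Use `MvPowerSeries.substAlgHom`: `π` sends `X l` to `0` if `l + 1 < h` and to `X (l + 1 - h)` otherwise. `ι` sends `X j` to `X (j + h - 1)`. Or define both on coefficients.
A series killed by `π` has no monomials involving only the `X l`, `l + 1 ≥ h`; so it lies in the ideal generated by the others (explicit cofactors, as `cofactorX` in TauPow.lean). -/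
theorem exists_flag_retraction {m N h : ℕ} (hN : N + h = m + 1) (hh1 : 1 ≤ h) :
    ∃ (π : MvPowerSeries (Fin m) k →ₐ[k] MvPowerSeries (Fin N) k) (ι : MvPowerSeries (Fin N) k →ₐ[k] MvPowerSeries (Fin m) k),
      (∀ b, π (ι b) = b) ∧
      (∀ a, π a = 0 ↔ a ∈ Ideal.span ((MvPowerSeries.X : Fin m → MvPowerSeries (Fin m) k) '' {l | l.val + 1 < h})) ∧
      (∀ a, MvPowerSeries.constantCoeff (π a) = MvPowerSeries.constantCoeff a) ∧
      (∀ j : Fin N, ∃ l : Fin m, π (MvPowerSeries.X l) = MvPowerSeries.X j) := by
  classical
  have hlt : ∀ j : Fin N, j.val + (h - 1) < m := fun j => by have := j.isLt; omega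
  let e : Fin N ↪ Fin m := ⟨fun j => ⟨j.val + (h - 1), hlt j⟩, by
    intro a b hab
    have := congrArg Fin.val hab
    apply Fin.ext
    simpa using this⟩
  have hrange : ∀ l : Fin m, l ∈ Set.range e ↔ ¬ (l.val + 1 < h) := by
    intro l
    constructor
    · rintro ⟨j, rfl⟩
      change ¬ (j.val + (h - 1) + 1 < h)
      omega
    · intro hl
      refine ⟨⟨l.val - (h - 1), by have := l.isLt; omega⟩, ?_⟩
      apply Fin.ext
      change l.val - (h - 1) + (h - 1) = l.val
      omega
  refine ⟨MvPowerSeries.killCompl e, MvPowerSeries.rename e, fun b => MvPowerSeries.killCompl_rename_app b, ?_, ?_, ?_⟩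
  · intro a
    constructor
    · intro ha
      -- the coefficients at monomials in the range of `embDomain e` vanish
      have hcoef : ∀ u : Fin m →₀ ℕ, (∀ l : Fin m, l.val + 1 < h → u l = 0) → MvPowerSeries.coeff u a = 0 := by
        intro u hu
        have hu' : u ∈ Set.range (Finsupp.embDomain e) := by
          rw [Finsupp.mem_range_embDomain_iff]
          intro l hl
          have hl' : u l ≠ 0 := Finsupp.mem_support_iff.mp hl
          rw [hrange]
          intro hlt'
          exact hl' (hu l hlt')
        obtain ⟨x, rfl⟩ := hu'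
        have := congrArg (MvPowerSeries.coeff x) ha
        rw [MvPowerSeries.coeff_killCompl] at this
        simpa using this
      have hcc : MvPowerSeries.constantCoeff a = 0 := by
        have := hcoef 0 (fun _ _ => rfl)
        simpa using this
      rw [← eq_sum_cofactorF a hcc]
      refine Ideal.sum_mem _ fun i _ => ?_
      by_cases hi : i.val + 1 < h
      · exact Ideal.mul_mem_left _ _ (Ideal.subset_span ⟨i, hi, rfl⟩)
      · have h0 : cofactorF a i = 0 := by
          ext u
          have e1 : MvPowerSeries.coeff u (cofactorF a i) =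
              if ∀ j, j < i → u j = 0 then MvPowerSeries.coeff (u + Finsupp.single i 1) a else 0 := rfl
          rw [e1]
          split_ifs with hu
          · rw [hcoef]
            · simp
            · intro l hl
              have hli : l < i := by
                apply Fin.lt_def.mpr
                omega
              rw [Finsupp.add_apply, hu l hli, Finsupp.single_eq_of_ne (ne_of_lt hli)]
              rfl
          · simp
        rw [h0, zero_mul]
        exact Ideal.zero_mem _
    · intro ha
      have hle : Ideal.span ((MvPowerSeries.X : Fin m → MvPowerSeries (Fin m) k) '' {l | l.val + 1 < h}) ≤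
          RingHom.ker (MvPowerSeries.killCompl (R := k) e) := by
        rw [Ideal.span_le]
        rintro _ ⟨l, hl, rfl⟩
        have hl' : l ∉ Set.range e := fun hr => (hrange l).1 hr hl
        exact MvPowerSeries.killCompl_X_eq_zero hl'
      exact hle ha
  · intro a
    have := MvPowerSeries.coeff_killCompl (e := e) a (0 : Fin N →₀ ℕ)
    simpa using this
  · intro j
    exact ⟨e j, MvPowerSeries.killCompl_X j⟩

/-- Descent of an automorphism to the quotient. -/
theorem exists_descent_tau {A B : Type*} [CommRing A] [CommRing B] [Algebra k A] [Algebra k B] (π : A →ₐ[k] B) (ι : B →ₐ[k] A) (hπι : ∀ b, π (ι b) = b)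
    (I : Ideal A) (hI : ∀ a, π a = 0 ↔ a ∈ I) (τ : A ≃ₐ[k] A) (hτ : I.map (τ : A →+* A) = I) :
    ∃ τ' : B ≃ₐ[k] B, ∀ a, τ' (π a) = π (τ a) := by
  have hmem : ∀ a, π a = π (ι (π a)) := fun a => (hπι _).symm
  have h1 : ∀ x, x ∈ I → τ x ∈ I := by
    intro x hx
    rw [← hτ]
    exact Ideal.mem_map_of_mem _ hx
  have h2 : ∀ x, x ∈ I → τ.symm x ∈ I := by
    intro x hx
    rw [← hτ] at hx
    have hsurj : Function.Surjective (τ : A →+* A) := τ.surjective
    obtain ⟨y, hy, rfl⟩ := (Ideal.mem_map_iff_of_surjective _ hsurj).mp hx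
    have : τ.symm ((τ : A →+* A) y) = y := τ.symm_apply_apply y
    rw [this]
    exact hy
  have hker : ∀ a, a - ι (π a) ∈ I := fun a => by
    rw [← hI, map_sub, hπι, sub_self]
  let f : B →ₐ[k] B := π.comp (τ.toAlgHom.comp ι)
  let g : B →ₐ[k] B := π.comp (τ.symm.toAlgHom.comp ι)
  have hf : ∀ a, f (π a) = π (τ a) := by
    intro a
    have h3 := h1 _ (hker a)
    have h4 := (hI _).2 h3
    rw [map_sub, map_sub, sub_eq_zero] at h4
    exact h4.symm
  have hg : ∀ a, g (π a) = π (τ.symm a) := by
    intro a
    have h3 := h2 _ (hker a)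
    have h4 := (hI _).2 h3
    rw [map_sub, map_sub, sub_eq_zero] at h4
    exact h4.symm
  have hfg : f.comp g = AlgHom.id k B := by
    ext1 b
    change f (g b) = b
    have : g b = π (τ.symm (ι b)) := rfl
    rw [this, hf, τ.apply_symm_apply, hπι]
  have hgf : g.comp f = AlgHom.id k B := by
    ext1 b
    change g (f b) = b
    have : f b = π (τ (ι b)) := rfl
    rw [this, hg, τ.symm_apply_apply, hπι]
  exact ⟨AlgEquiv.ofAlgHom f g hfg hgf, fun a => hf a⟩

end retraction

section height

variable {A : Type*} [CommRing A]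

/-- A homomorphism commutes with the multiplications: `f ∘ [m]_F = [m]_G ∘ f`. -/
theorem isHom_subst_mulSeries {F G : FormalGroup A} {f : PowerSeries A} (hf : IsHom F G f) (m : ℕ) :
    PowerSeries.subst (mulSeries F m) f = PowerSeries.subst f (mulSeries G m) := by
  have hfs : PowerSeries.HasSubst f := PowerSeries.HasSubst.of_constantCoeff_zero' hf.constantCoeff_eq
  induction m with
  | zero =>
    have h0 : mulSeries F 0 = 0 := rfl
    have h1 : mulSeries G 0 = 0 := rfl
    rw [h0, h1]
    have hs0 : PowerSeries.HasSubst (0 : PowerSeries A) :=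
      PowerSeries.HasSubst.of_constantCoeff_zero' (by simp)
    ext j
    rw [PowerSeries.coeff_subst' hs0]
    have : (PowerSeries.subst f (0 : PowerSeries A)) = 0 := by
      rw [← PowerSeries.coe_substAlgHom hfs]
      exact map_zero _
    rw [this, map_zero]
    rw [finsum_eq_zero_of_forall_eq_zero]
    intro d
    by_cases hd : d = 0
    · subst hd
      have hc : PowerSeries.coeff 0 f = 0 := by
        simpa using hf.constantCoeff_eq
      rw [hc, zero_smul]
    · simp [zero_pow hd]
  | succ m ih =>
    have hmF : PowerSeries.HasSubst (mulSeries F m) :=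
      PowerSeries.HasSubst.of_constantCoeff_zero' (constantCoeff_mulSeries F m)
    have hX : PowerSeries.HasSubst (PowerSeries.X : PowerSeries A) :=
      PowerSeries.HasSubst.of_constantCoeff_zero' PowerSeries.constantCoeff_X
    have e1 : mulSeries F (m + 1) = MvPowerSeries.subst ![mulSeries F m, (PowerSeries.X : PowerSeries A)] F.toPowerSeries := rfl
    have e2 : mulSeries G (m + 1) = MvPowerSeries.subst ![mulSeries G m, (PowerSeries.X : PowerSeries A)] G.toPowerSeries := rfl
    have h1 := hf.subst_add hmF hX
    have h2 : PowerSeries.subst (PowerSeries.X : PowerSeries A) f = f := by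
      have hXfun : (fun _ : Unit => (PowerSeries.X : PowerSeries A)) = (MvPowerSeries.X : Unit → MvPowerSeries Unit A) := by
        funext s
        rfl
      rw [PowerSeries.subst, hXfun, MvPowerSeries.subst_self]
      rfl
    rw [e1, e2, ← h1, ih, h2]
    rw [subst_subst_pair G (constantCoeff_mulSeries G m) PowerSeries.constantCoeff_X hfs]
    congr 2
    rw [PowerSeries.subst_X hfs]

/-- A coefficient of a composite, at the first possibly nonzero index. -/
lemma coeff_subst_of_low {B : Type*} [CommRing B] (P K : PowerSeries B) (hK : PowerSeries.constantCoeff K = 0) (j : ℕ)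
    (hP : ∀ i, i < j → PowerSeries.coeff i P = 0) :
    PowerSeries.coeff j (PowerSeries.subst K P) = PowerSeries.coeff j P * (PowerSeries.coeff 1 K) ^ j := by
  have hs : PowerSeries.HasSubst K := PowerSeries.HasSubst.of_constantCoeff_zero' hK
  obtain ⟨L, hL⟩ := PowerSeries.X_dvd_iff.mpr hK
  have hpow : ∀ d, K ^ d = PowerSeries.X ^ d * L ^ d := fun d => by rw [hL, mul_pow]
  have hlow : ∀ d, j < d → PowerSeries.coeff j (K ^ d) = 0 := by
    intro d hd
    rw [hpow, PowerSeries.coeff_X_pow_mul', if_neg (by omega)]
  have hL1 : PowerSeries.coeff 1 K = PowerSeries.constantCoeff L := by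
    rw [hL, show (1 : ℕ) = 0 + 1 from rfl, PowerSeries.coeff_succ_X_mul]
    simp
  rw [PowerSeries.coeff_subst' hs]
  rw [finsum_eq_single _ j]
  · rw [smul_eq_mul, hpow, PowerSeries.coeff_X_pow_mul', if_pos le_rfl, Nat.sub_self, hL1]
    congr 1
    simp
  · intro d hd
    rcases lt_or_gt_of_ne hd with h | h
    · rw [hP d h, zero_smul]
    · rw [hlow d h, smul_zero]

/-- If `K : F → F^τ` is a homomorphism, with unit linear coefficient, and `τ : A → A`, then `τ (c_j) ∈ heightIdeal F p h` for `j < p ^ h`.

Proof. Work in the ring `A / I`, with `I` the height ideal. Let `P = map mk (map τ [p]_F)`, which is the reduction of `[p]_{F^τ}`, `K' = map mk K`. By `isHom_subst_mulSeries`, `P ∘ K' = K' ∘ (map mk [p]_F)`, and the series `map mk [p]_F` has no coefficients below `p ^ h` so it is `X ^ (p ^ h)` times a series; so the composite has no coefficients below `p ^ h`. If `P` has a nonzero coefficient at an index `< p ^ h`, let `j₁` be the least such index: the coefficient at `j₁` of `P ∘ K'` is `P_{j₁} * K'_1 ^ j₁`, (`K'` has no constant term), with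 `K'_1` a unit: nonzero. A contradiction. -/
theorem tau_coeff_mem_heightIdeal {F : FormalGroup A} (τ : A →+* A) {K : PowerSeries A} (hK : IsHom F (F.map τ) K)
    (hKu : IsUnit (PowerSeries.coeff 1 K)) (p h j : ℕ) (hj : j < p ^ h) :
    τ (PowerSeries.coeff j (mulSeries F p)) ∈ heightIdeal F p h := by
  set I := heightIdeal F p h with hI
  let mk : A →+* A ⧸ I := Ideal.Quotient.mk I
  have hKs : PowerSeries.HasSubst K := PowerSeries.HasSubst.of_constantCoeff_zero' hK.constantCoeff_eq
  have hps : PowerSeries.HasSubst (mulSeries F p) :=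
    PowerSeries.HasSubst.of_constantCoeff_zero' (constantCoeff_mulSeries F p)
  set K' := PowerSeries.map mk K with hK'
  set Q := PowerSeries.map mk (mulSeries F p) with hQ
  set P := PowerSeries.map mk (PowerSeries.map τ (mulSeries F p)) with hP
  have hK'0 : PowerSeries.constantCoeff K' = 0 := by
    have h0 : PowerSeries.coeff 0 K = 0 := by simpa using hK.constantCoeff_eq
    have : PowerSeries.coeff 0 K' = 0 := by
      rw [hK', PowerSeries.coeff_map, h0, map_zero]
    simpa using this
  have hQ0 : PowerSeries.constantCoeff Q = 0 := by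
    have h0 : PowerSeries.coeff 0 (mulSeries F p) = 0 := by simpa using constantCoeff_mulSeries F p
    have : PowerSeries.coeff 0 Q = 0 := by
      rw [hQ, PowerSeries.coeff_map, h0, map_zero]
    simpa using this
  have hrel : PowerSeries.subst Q K' = PowerSeries.subst K' P := by
    have h1 := isHom_subst_mulSeries hK p
    rw [mulSeries_map] at h1
    have h2 := congrArg (PowerSeries.map mk) h1
    have h3 := PowerSeries.map_subst (h := mk) hps K
    have h4 := PowerSeries.map_subst (h := mk) hKs (PowerSeries.map τ (mulSeries F p))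
    exact h3.symm.trans (h2.trans h4)
  -- low coefficients of `Q`
  have hQlow : ∀ i, i < p ^ h → PowerSeries.coeff i Q = 0 := by
    intro i hi
    rw [hQ, PowerSeries.coeff_map]
    exact Ideal.Quotient.eq_zero_iff_mem.mpr (Ideal.subset_span ⟨i, hi, rfl⟩)
  have hQdvd : (PowerSeries.X : PowerSeries (A ⧸ I)) ^ (p ^ h) ∣ Q := by
    rw [PowerSeries.X_pow_dvd_iff]
    exact hQlow
  have hLHS : ∀ i, i < p ^ h → PowerSeries.coeff i (PowerSeries.subst Q K') = 0 := by
    intro i hi
    have hQs : PowerSeries.HasSubst Q := PowerSeries.HasSubst.of_constantCoeff_zero' hQ0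
    rw [PowerSeries.coeff_subst' hQs]
    refine finsum_eq_zero_of_forall_eq_zero fun d => ?_
    by_cases hd : d = 0
    · subst hd
      have : PowerSeries.coeff 0 K' = 0 := by simpa using hK'0
      rw [this, zero_smul]
    · have hdvd : (PowerSeries.X : PowerSeries (A ⧸ I)) ^ (p ^ h) ∣ Q ^ d := hQdvd.trans (dvd_pow_self Q hd)
      have := (PowerSeries.X_pow_dvd_iff.mp hdvd) i hi
      rw [this, smul_zero]
  have hu : IsUnit (PowerSeries.coeff 1 K') := by
    rw [hK', PowerSeries.coeff_map]
    exact hKu.map mk
  have hPlow : ∀ i, i < p ^ h → PowerSeries.coeff i P = 0 := by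
    intro i
    induction i using Nat.strong_induction_on with
    | _ i ih =>
      intro hi
      have h1 := coeff_subst_of_low P K' hK'0 i (fun l hl => ih l hl (hl.trans hi))
      rw [← hrel, hLHS i hi] at h1
      exact ((hu.pow i).mul_left_eq_zero).mp h1.symm
  have h3 := hPlow j hj
  rw [hP, PowerSeries.coeff_map, PowerSeries.coeff_map] at h3
  exact Ideal.Quotient.eq_zero_iff_mem.mp h3

/-- An automorphism with `τ I ≤ I`, of a noetherian ring, satisfies `τ I = I`. -/
theorem map_eq_of_map_le {k : Type*} [Field k] [Algebra k A] [IsNoetherianRing A] (τ : A ≃ₐ[k] A) (I : Ideal A) (h : I.map (τ : A →+* A) ≤ I) :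
    I.map (τ : A →+* A) = I := by
  refine le_antisymm h ?_
  -- the increasing chain of the preimages of `I` under the powers of `τ`
  have hτI : ∀ x, x ∈ I → τ x ∈ I := fun x hx => h (Ideal.mem_map_of_mem _ hx)
  let J : ℕ → Ideal A := fun m => I.comap (((τ ^ m : A ≃ₐ[k] A) : A →+* A))
  have hmem : ∀ m x, x ∈ J m ↔ (τ ^ m) x ∈ I := fun m x => Iff.rfl
  have hmono : Monotone J := by
    refine monotone_nat_of_le_succ fun m x hx => ?_
    rw [hmem] at hx ⊢
    rw [pow_succ', AlgEquiv.mul_apply]
    exact hτI _ hx
  obtain ⟨m, hm⟩ := monotone_stabilizes_iff_noetherian.mpr (inferInstance : IsNoetherian A A) ⟨J, hmono⟩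
  have hm' : J m = J (m + 1) := hm (m + 1) (Nat.le_succ m)
  intro x hx
  -- `y = τ⁻¹ x` lies in `I`
  set y := τ.symm x with hy
  have hτy : τ y = x := τ.apply_symm_apply x
  have hyI : y ∈ I := by
    set w := (τ ^ (m + 1)).symm x with hw
    have hw1 : (τ ^ (m + 1)) w = x := (τ ^ (m + 1)).apply_symm_apply x
    have h1 : w ∈ J (m + 1) := by
      rw [hmem, hw1]
      exact hx
    rw [← hm', hmem] at h1
    have h2 : (τ ^ m) w = y := by
      rw [hy, ← hw1, pow_succ', AlgEquiv.mul_apply, τ.symm_apply_apply]
    rwa [h2] at h1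
  rw [← hτy]
  exact Ideal.mem_map_of_mem _ hyI

end height

end Vale.Agent.Lib.P217
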