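import Vale.Agent.Lib.P217.Ev

set_option linter.unusedSectionVars false
set_option linter.unusedVariables false

namespace Vale.Agent.Lib.P217

open scoped Topology MvPowerSeries.WithPiTopology
open Filter

set_option linter.style.haveILetI false

variable {C : Type*} [NormedField C] [IsUltrametricDist C] [CompleteSpace C]
variable {k : Type*} [Field k] [Finite k] {σ₀ : Type*} [Finite σ₀]

section SigmaAux

variable {σ' : Type*}

/-- All the coefficients of degree less than `d` vanish. -/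
def OrdGE (d : ℕ) (g : MvPowerSeries σ' k) : Prop :=
  ∀ n : σ' →₀ ℕ, n.degree < d → MvPowerSeries.coeff n g = 0

omit [Finite k] in
/-- A series without constant term is a combination of the variables. -/
theorem exists_X_decomp [Fintype σ'] (g : MvPowerSeries σ' k)
    (h0 : MvPowerSeries.constantCoeff g = 0) :
    ∃ g' : σ' → MvPowerSeries σ' k, g = ∑ i, MvPowerSeries.X i * g' i ∧
      ∀ d, OrdGE (d + 1) g → ∀ i, OrdGE d (g' i) := by
  classical
  have hsel : ∀ n : σ' →₀ ℕ, ∃ o : Option σ', n ≠ 0 → ∃ i, o = some i ∧ n i ≠ 0 := by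
    intro n
    by_cases hn : n = 0
    · exact ⟨none, fun h => absurd hn h⟩
    · obtain ⟨i, hi⟩ := Finsupp.support_nonempty_iff.2 hn
      exact ⟨some i, fun _ => ⟨i, rfl, Finsupp.mem_support_iff.1 hi⟩⟩
  choose sel hsel' using hsel
  let g' : σ' → MvPowerSeries σ' k := fun i m =>
    if sel (m + Finsupp.single i 1) = some i then MvPowerSeries.coeff (m + Finsupp.single i 1) g
    else 0
  have hg' : ∀ i m, MvPowerSeries.coeff m (g' i) =
      if sel (m + Finsupp.single i 1) = some i then MvPowerSeries.coeff (m + Finsupp.single i 1) g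
      else 0 := fun i m => rfl
  refine ⟨g', ?_, ?_⟩
  · ext n
    rw [map_sum]
    have hterm : ∀ i, MvPowerSeries.coeff n (MvPowerSeries.X i * g' i) =
        if sel n = some i ∧ n i ≠ 0 then MvPowerSeries.coeff n g else 0 := by
      intro i
      have hX : (MvPowerSeries.X i : MvPowerSeries σ' k) =
          MvPowerSeries.monomial (Finsupp.single i 1) 1 := rfl
      rw [hX, MvPowerSeries.coeff_monomial_mul]
      by_cases hi : n i = 0
      · have : ¬ Finsupp.single i 1 ≤ n := by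
          intro h
          have := h i
          simp [hi] at this
        simp [this, hi]
      · have hle : Finsupp.single i 1 ≤ n := by
          intro j
          by_cases hj : i = j
          · subst hj
            simp only [Finsupp.single_eq_same]
            omega
          · simp [hj]
        rw [if_pos hle, hg', tsub_add_cancel_of_le hle, one_mul]
        simp [hi]
    simp only [hterm]
    by_cases hn : n = 0
    · subst hn
      have : MvPowerSeries.coeff (0 : σ' →₀ ℕ) g = 0 := by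
        rw [MvPowerSeries.coeff_zero_eq_constantCoeff_apply, h0]
      simp [this]
    · obtain ⟨i, hi1, hi2⟩ := hsel' n hn
      rw [Finset.sum_eq_single i]
      · rw [if_pos ⟨hi1, hi2⟩]
      · intro j _ hj
        rw [if_neg]
        rintro ⟨h1, -⟩
        rw [hi1] at h1
        exact hj (Option.some.inj h1).symm
      · intro h
        exact absurd (Finset.mem_univ i) h
  · intro d hd i m hm
    rw [hg']
    split_ifs
    · apply hd
      rw [map_add, Finsupp.degree_single]
      omega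
    · rfl

omit [Finite k] in
/-- Norm of the image of a series of high order. -/
theorem norm_theta_le [Finite σ'] (θ : MvPowerSeries σ' k →+* OC C) {q : ℝ} (hq0 : 0 ≤ q)
    (hθX : ∀ i, ‖((θ (MvPowerSeries.X i) : OC C) : C)‖ ≤ q) :
    ∀ (d : ℕ) (g : MvPowerSeries σ' k), OrdGE d g → ‖((θ g : OC C) : C)‖ ≤ q ^ d := by
  cases nonempty_fintype σ'
  intro d
  induction d with
  | zero =>
      intro g _
      simpa using norm_OC_le (θ g)
  | succ d ih =>
      intro g hg
      have h0 : MvPowerSeries.constantCoeff g = 0 := by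
        rw [← MvPowerSeries.coeff_zero_eq_constantCoeff_apply]
        apply hg
        simp
      obtain ⟨g', hgg, hord⟩ := exists_X_decomp g h0
      have h1 : ((θ g : OC C) : C) =
          ∑ i, ((θ (MvPowerSeries.X i) : OC C) : C) * ((θ (g' i) : OC C) : C) := by
        conv_lhs => rw [hgg]
        rw [map_sum]
        simp
      rw [h1]
      refine IsUltrametricDist.norm_sum_le_of_forall_le_of_nonneg (by positivity) fun i _ => ?_
      rw [norm_mul, pow_succ']
      exact mul_le_mul (hθX i) (ih _ (hord d hg i)) (norm_nonneg _) hq0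

variable [TopologicalSpace k] [DiscreteTopology k]

/-- The map `r ↦ ∑ θ (r f) * fam f` is continuous for the product topology. -/
theorem continuous_Psi [Finite σ'] (θ : MvPowerSeries σ' k →+* OC C) {q : ℝ} (hq0 : 0 ≤ q)
    (hq1 : q < 1) (hθX : ∀ i, ‖((θ (MvPowerSeries.X i) : OC C) : C)‖ ≤ q) {w : ℕ}
    (fam : Fin w → C) :
    Continuous fun r : Fin w → MvPowerSeries σ' k => ∑ f, ((θ (r f) : OC C) : C) * fam f := by
  rw [Metric.continuous_iff']
  intro r ε hε
  set M : ℝ := ∑ f, ‖fam f‖ + 1 with hM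
  have hM0 : 0 < M := by positivity
  have hMf : ∀ f, ‖fam f‖ ≤ M := fun f => by
    have := Finset.single_le_sum (f := fun f => ‖fam f‖) (fun i _ => norm_nonneg _)
      (Finset.mem_univ f)
    linarith
  have hlim : Tendsto (fun d : ℕ => q ^ d * M) atTop (𝓝 (0 * M)) :=
    (tendsto_pow_atTop_nhds_zero_of_lt_one hq0 hq1).mul_const M
  rw [zero_mul] at hlim
  obtain ⟨d, hd⟩ := (hlim.eventually (gt_mem_nhds hε)).exists
  have hev : ∀ᶠ r' in 𝓝 r, ∀ f, ∀ n ∈ {n : σ' →₀ ℕ | n.degree ≤ d},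
      MvPowerSeries.coeff n (r' f) = MvPowerSeries.coeff n (r f) := by
    rw [eventually_all]
    intro f
    rw [Filter.eventually_all_finite (Finsupp.finite_of_degree_le d)]
    intro n _
    have hc : Continuous fun r' : Fin w → MvPowerSeries σ' k => MvPowerSeries.coeff n (r' f) :=
      (MvPowerSeries.WithPiTopology.continuous_coeff k n).comp (continuous_apply f)
    exact ((isOpen_discrete {MvPowerSeries.coeff n (r f)}).preimage hc).mem_nhds rfl
  filter_upwards [hev] with r' hr'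
  rw [dist_eq_norm, ← Finset.sum_sub_distrib]
  refine lt_of_le_of_lt ?_ hd
  refine IsUltrametricDist.norm_sum_le_of_forall_le_of_nonneg (by positivity) fun f _ => ?_
  have hord : OrdGE d (r' f - r f) := by
    intro n hn
    rw [map_sub, hr' f n (by simpa using hn.le), sub_self]
  have h1 : ((θ (r' f) : OC C) : C) * fam f - ((θ (r f) : OC C) : C) * fam f =
      ((θ (r' f - r f) : OC C) : C) * fam f := by
    rw [map_sub]
    push_cast
    ring
  rw [h1, norm_mul]
  exact mul_le_mul (norm_theta_le θ hq0 hθX d _ hord) (hMf f) (norm_nonneg _) (by positivity)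

theorem compactSpace_mvPowerSeries : CompactSpace (MvPowerSeries σ' k) := by
  haveI : CompactSpace k := Finite.compactSpace
  exact inferInstanceAs (CompactSpace ((σ' →₀ ℕ) → k))

/-- Small elements of the range are values at series of high order. -/
theorem exists_delta [Finite σ'] (θ : MvPowerSeries σ' k →+* OC C) {q : ℝ} (hq0 : 0 ≤ q)
    (hq1 : q < 1) (hθX : ∀ i, ‖((θ (MvPowerSeries.X i) : OC C) : C)‖ ≤ q) {w : ℕ}
    (fam : Fin w → C) (d : ℕ) :
    ∃ δ : ℝ, 0 < δ ∧ ∀ r₁ : Fin w → MvPowerSeries σ' k,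
      ‖∑ f, ((θ (r₁ f) : OC C) : C) * fam f‖ < δ →
        ∃ r : Fin w → MvPowerSeries σ' k, (∀ f, OrdGE d (r f)) ∧
          ∑ f, ((θ (r f) : OC C) : C) * fam f = ∑ f, ((θ (r₁ f) : OC C) : C) * fam f := by
  classical
  haveI : CompactSpace (MvPowerSeries σ' k) := compactSpace_mvPowerSeries
  set Ψ : (Fin w → MvPowerSeries σ' k) → C := fun r => ∑ f, ((θ (r f) : OC C) : C) * fam f with hΨ
  have hcont : Continuous Ψ := continuous_Psi θ hq0 hq1 hθX fam
  let D := {n : σ' →₀ ℕ // n.degree ≤ d}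
  haveI : Finite D := (Finsupp.finite_of_degree_le d).to_subtype
  let T := Fin w → D → k
  haveI : Finite T := inferInstance
  let Tr : (Fin w → MvPowerSeries σ' k) → T := fun r f n => MvPowerSeries.coeff n.1 (r f)
  have hTr : Continuous Tr := by
    refine continuous_pi fun f => continuous_pi fun n => ?_
    exact (MvPowerSeries.WithPiTopology.continuous_coeff k n.1).comp (continuous_apply f)
  letI : TopologicalSpace T := Pi.topologicalSpace
  have hK : ∀ t : T, IsClosed (Ψ '' (Tr ⁻¹' {t})) := by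
    intro t
    have h1 : IsClosed (Tr ⁻¹' {t}) := by
      haveI : DiscreteTopology T := inferInstance
      exact (isClosed_discrete {t}).preimage hTr
    exact (h1.isCompact.image hcont).isClosed
  have hδt : ∀ t : T, ∃ δ : ℝ, 0 < δ ∧
      ((0 : C) ∈ Ψ '' (Tr ⁻¹' {t}) ∨ ∀ y ∈ Ψ '' (Tr ⁻¹' {t}), δ ≤ ‖y‖) := by
    intro t
    by_cases h0 : (0 : C) ∈ Ψ '' (Tr ⁻¹' {t})
    · exact ⟨1, one_pos, Or.inl h0⟩
    · obtain ⟨δ, hδ, hsub⟩ := Metric.isOpen_iff.1 (hK t).isOpen_compl 0 h0
      refine ⟨δ, hδ, Or.inr fun y hy => ?_⟩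
      by_contra hlt
      push Not at hlt
      exact hsub (by simpa [Metric.mem_ball, dist_zero_right] using hlt) hy
  choose δt hδt0 hδt1 using hδt
  haveI : Nonempty T := ⟨fun _ _ => 0⟩
  obtain ⟨t₀, ht₀⟩ := Finite.exists_min δt
  refine ⟨δt t₀, hδt0 t₀, fun r₁ hr₁ => ?_⟩
  rcases hδt1 (Tr r₁) with ⟨r₀, hr₀, hr₀0⟩ | h
  · have hr₀' : Tr r₀ = Tr r₁ := hr₀
    refine ⟨fun f => r₁ f - r₀ f, fun f n hn => ?_, ?_⟩
    · have := congrFun (congrFun hr₀' f) ⟨n, by omega⟩
      rw [map_sub, sub_eq_zero]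
      exact this.symm
    · have h1 : Ψ (fun f => r₁ f - r₀ f) = Ψ r₁ - Ψ r₀ := by
        simp only [hΨ, ← Finset.sum_sub_distrib]
        refine Finset.sum_congr rfl fun f _ => ?_
        rw [map_sub]
        push_cast
        ring
      have h2 : Ψ (fun f => r₁ f - r₀ f) = Ψ r₁ := by
        rw [h1, hr₀0, sub_zero]
      exact h2
  · have h1 := h (Ψ r₁) ⟨r₁, rfl, rfl⟩
    have h2 := ht₀ (Tr r₁)
    exact absurd hr₁ (not_lt.2 (h2.trans h1))

end SigmaAux

section EvMem

variable {N : ℕ}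

/-- Evaluations at points of a closed subring lie in the subring. -/
theorem Ev_mem_of_isClosed (κ : k →+* OC C) (S : Subring C) (hS : IsClosed (S : Set C))
    (hκ : ∀ r, ((κ r : OC C) : C) ∈ S) (x : Fin N → OC C) (hxS : ∀ i, (x i : C) ∈ S)
    (hx : ∀ i, ‖(x i : C)‖ < 1) (a : MvPowerSeries (Fin N) k) :
    ((Ev κ x a : OC C) : C) ∈ S := by
  have h1 := (hasSum_Ev κ x hx a).map (OC C).subtype continuous_subtype_val
  refine hS.mem_of_tendsto h1 (Eventually.of_forall fun F => ?_)
  refine Subring.sum_mem _ fun d _ => ?_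
  simp only [Function.comp, Finsupp.prod, map_mul, map_prod, map_pow]
  exact S.mul_mem (hκ _) (Subring.prod_mem _ fun i _ => Subring.pow_mem _ (hxS i) _)

end EvMem

/-- Setting: `A = k⟦u⟧`, `k` finite, `φ : A → OC C` with `‖φ a‖ ≤ c < 1` on series without constant term, `S ⊂ C` a subring
which is a finite `φ(A)`-module, generated by `fam`.  Then `S` is closed in `C`. -/
theorem isClosed_S (φ : MvPowerSeries σ₀ k →+* OC C) {c : ℝ} (hc0 : 0 ≤ c) (hc1 : c < 1)
    (hc : ∀ a, MvPowerSeries.constantCoeff a = 0 → ‖((φ a : OC C) : C)‖ ≤ c)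
    (S : Subring C) {w : ℕ} (fam : Fin w → S)
    (hS : ∀ s : S, ∃ r : Fin w → MvPowerSeries σ₀ k, (s : C) = ∑ f, ((φ (r f) : OC C) : C) * (fam f : C))
    (hφS : ∀ a, ((φ a : OC C) : C) ∈ S) : IsClosed (S : Set C) := by
  classical
  letI : TopologicalSpace k := ⊥
  haveI : DiscreteTopology k := ⟨rfl⟩
  have hXφ : ∀ i, ‖((φ (MvPowerSeries.X i) : OC C) : C)‖ ≤ c := fun i =>
    hc _ (MvPowerSeries.constantCoeff_X i)
  haveI : CompactSpace (MvPowerSeries σ₀ k) := compactSpace_mvPowerSeries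
  set famC : Fin w → C := fun f => (fam f : C) with hfamC
  have hcont := continuous_Psi φ hc0 hc1 hXφ famC
  have hrange : (S : Set C) =
      Set.range fun r : Fin w → MvPowerSeries σ₀ k => ∑ f, ((φ (r f) : OC C) : C) * famC f := by
    ext s
    constructor
    · intro hs
      obtain ⟨r, hr⟩ := hS ⟨s, hs⟩
      exact ⟨r, hr.symm⟩
    · rintro ⟨r, rfl⟩
      exact Subring.sum_mem _ fun f _ => S.mul_mem (hφS _) (fam f).2
  rw [hrange]
  exact (isCompact_range hcont).isClosed

/-- In the same setting let `σ : S → S` be a ring map covering `τ : A → A`, `τ` preserving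
the series without constant term.  Then `σ` is continuous at `0` for the norm. -/
theorem sigma_cont (φ : MvPowerSeries σ₀ k →+* OC C) {c : ℝ} (hc0 : 0 ≤ c) (hc1 : c < 1)
    (hc : ∀ a, MvPowerSeries.constantCoeff a = 0 → ‖((φ a : OC C) : C)‖ ≤ c)
    (S : Subring C) {w : ℕ} (fam : Fin w → S)
    (hS : ∀ s : S, ∃ r : Fin w → MvPowerSeries σ₀ k, (s : C) = ∑ f, ((φ (r f) : OC C) : C) * (fam f : C))
    (hφS : ∀ a, ((φ a : OC C) : C) ∈ S)
    (τ : MvPowerSeries σ₀ k →+* MvPowerSeries σ₀ k)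
    (hτ0 : ∀ a, MvPowerSeries.constantCoeff a = 0 → MvPowerSeries.constantCoeff (τ a) = 0)
    (σ : S →+* S) (hσ : ∀ a, σ ⟨((φ a : OC C) : C), hφS a⟩ = ⟨((φ (τ a) : OC C) : C), hφS _⟩) :
    ∀ ε : ℝ, 0 < ε → ∃ δ : ℝ, 0 < δ ∧ ∀ s : S, ‖(s : C)‖ < δ → ‖((σ s : S) : C)‖ < ε := by
  classical
  letI : TopologicalSpace k := ⊥
  haveI : DiscreteTopology k := ⟨rfl⟩
  have hXφ : ∀ i, ‖((φ (MvPowerSeries.X i) : OC C) : C)‖ ≤ c := fun i =>
    hc _ (MvPowerSeries.constantCoeff_X i)
  have hXτ : ∀ i, ‖(((φ.comp τ) (MvPowerSeries.X i) : OC C) : C)‖ ≤ c := fun i =>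
    hc _ (hτ0 _ (MvPowerSeries.constantCoeff_X i))
  haveI : CompactSpace (MvPowerSeries σ₀ k) := compactSpace_mvPowerSeries
  set famC : Fin w → C := fun f => (fam f : C) with hfamC
  intro ε hε
  set M : ℝ := ∑ f, ‖((σ (fam f) : S) : C)‖ + 1 with hM
  have hM0 : 0 < M := by positivity
  have hMf : ∀ f, ‖((σ (fam f) : S) : C)‖ ≤ M := fun f => by
    have := Finset.single_le_sum (f := fun f => ‖((σ (fam f) : S) : C)‖)
      (fun i _ => norm_nonneg _) (Finset.mem_univ f)
    linarith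
  have hlim : Tendsto (fun d : ℕ => c ^ d * M) atTop (𝓝 (0 * M)) :=
    (tendsto_pow_atTop_nhds_zero_of_lt_one hc0 hc1).mul_const M
  rw [zero_mul] at hlim
  obtain ⟨d, hd⟩ := (hlim.eventually (gt_mem_nhds hε)).exists
  obtain ⟨δ, hδ, hδ2⟩ := exists_delta φ hc0 hc1 hXφ famC d
  refine ⟨δ, hδ, fun s hs => ?_⟩
  obtain ⟨r₁, hr₁⟩ := hS s
  obtain ⟨r, hr, hrr⟩ := hδ2 r₁ (by rw [← show (s : C) = _ from hr₁]; exact hs)
  have hs2 : s = ∑ f, (⟨((φ (r f) : OC C) : C), hφS _⟩ : S) * fam f := by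
    apply Subtype.ext
    rw [hr₁, ← show _ = ∑ f, ((φ (r₁ f) : OC C) : C) * famC f from hrr]
    simp [hfamC]
  have h2 : ((σ s : S) : C) = ∑ f, (((φ.comp τ) (r f) : OC C) : C) * ((σ (fam f) : S) : C) := by
    rw [hs2, map_sum]
    simp only [map_mul, hσ]
    simp
  rw [h2]
  refine lt_of_le_of_lt ?_ hd
  refine IsUltrametricDist.norm_sum_le_of_forall_le_of_nonneg (by positivity) fun f _ => ?_
  rw [norm_mul]
  exact mul_le_mul (norm_theta_le (φ.comp τ) hc0 hXτ d _ (hr f)) (hMf f) (norm_nonneg _)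
    (by positivity)

/-- Evaluation with coefficients in `A`: `σ` commutes with evaluation. -/
theorem sigma_Ev' (φ : MvPowerSeries σ₀ k →+* OC C) {c : ℝ} (hc0 : 0 ≤ c) (hc1 : c < 1)
    (hc : ∀ a, MvPowerSeries.constantCoeff a = 0 → ‖((φ a : OC C) : C)‖ ≤ c)
    (S : Subring C) {w : ℕ} (fam : Fin w → S)
    (hS : ∀ s : S, ∃ r : Fin w → MvPowerSeries σ₀ k, (s : C) = ∑ f, ((φ (r f) : OC C) : C) * (fam f : C))
    (hφS : ∀ a, ((φ a : OC C) : C) ∈ S)
    (τ : MvPowerSeries σ₀ k →+* MvPowerSeries σ₀ k)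
    (hτ0 : ∀ a, MvPowerSeries.constantCoeff a = 0 → MvPowerSeries.constantCoeff (τ a) = 0)
    (hτC : ∀ r, τ (MvPowerSeries.C r) = MvPowerSeries.C r)
    (σ : S →+* S) (hσ : ∀ a, σ ⟨((φ a : OC C) : C), hφS a⟩ = ⟨((φ (τ a) : OC C) : C), hφS _⟩)
    {N : Type*} [Finite N] (f : MvPowerSeries N (MvPowerSeries σ₀ k)) (x y : N → OC C) (hxS : ∀ i, (x i : C) ∈ S)
    (hx : ∀ i, ‖(x i : C)‖ < 1) (hy : ∀ i, ‖(y i : C)‖ < 1)
    (hxy : ∀ i, (y i : C) = σ ⟨x i, hxS i⟩) :
    ∃ h : ((Ev φ x f : OC C) : C) ∈ S, ((Ev (φ.comp τ) y f : OC C) : C) = σ ⟨_, h⟩ := by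
  classical
  have hclosed := isClosed_S φ hc0 hc1 hc S fam hS hφS
  have hσcont := sigma_cont φ hc0 hc1 hc S fam hS hφS τ hτ0 σ hσ
  have hmem : ((Ev φ x f : OC C) : C) ∈ S := by
    have h1 := (hasSum_Ev φ x hx f).map (OC C).subtype continuous_subtype_val
    refine hclosed.mem_of_tendsto h1 (Eventually.of_forall fun F => ?_)
    refine Subring.sum_mem _ fun d _ => ?_
    simp only [Function.comp, Finsupp.prod, map_mul, map_prod, map_pow]
    exact S.mul_mem (hφS _) (Subring.prod_mem _ fun i _ => Subring.pow_mem _ (hxS i) _)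
  refine ⟨hmem, ?_⟩
  -- the terms
  let txS : (N →₀ ℕ) → S := fun d =>
    (⟨((φ (MvPowerSeries.coeff d f) : OC C) : C), hφS _⟩ : S) *
      ∏ i ∈ d.support, (⟨x i, hxS i⟩ : S) ^ d i
  have htx : ∀ d, ((txS d : S) : C) =
      ((φ (MvPowerSeries.coeff d f) * d.prod fun i e => x i ^ e : OC C) : C) := by
    intro d
    simp [txS, Finsupp.prod]
  have hty : ∀ d, ((σ (txS d) : S) : C) =
      (((φ.comp τ) (MvPowerSeries.coeff d f) * d.prod fun i e => y i ^ e : OC C) : C) := by
    intro d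
    simp only [txS, map_mul, map_prod, map_pow, hσ]
    simp [Finsupp.prod, ← hxy]
  have h1 := (hasSum_Ev φ x hx f).map (OC C).subtype continuous_subtype_val
  have h2 := (hasSum_Ev (φ.comp τ) y hy f).map (OC C).subtype continuous_subtype_val
  have h1' : Tendsto (fun F : Finset (N →₀ ℕ) => ∑ d ∈ F, ((txS d : S) : C)) atTop
      (𝓝 ((Ev φ x f : OC C) : C)) := by
    refine Tendsto.congr ?_ h1
    intro F
    refine Finset.sum_congr rfl fun d _ => ?_
    rw [htx]
    rfl
  have h2' : Tendsto (fun F : Finset (N →₀ ℕ) => ∑ d ∈ F, ((σ (txS d) : S) : C)) atTop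
      (𝓝 ((Ev (φ.comp τ) y f : OC C) : C)) := by
    refine Tendsto.congr ?_ h2
    intro F
    refine Finset.sum_congr rfl fun d _ => ?_
    rw [hty]
    rfl
  have h3 : Tendsto (fun F : Finset (N →₀ ℕ) => ∑ d ∈ F, ((σ (txS d) : S) : C)) atTop
      (𝓝 ((σ ⟨_, hmem⟩ : S) : C)) := by
    rw [Metric.tendsto_nhds]
    intro ε hε
    obtain ⟨δ, hδ, hδ2⟩ := hσcont ε hε
    have := (Metric.tendsto_nhds.1 h1') δ hδ
    filter_upwards [this] with F hF
    rw [dist_eq_norm] at hF ⊢
    have h4 : ∑ d ∈ F, ((σ (txS d) : S) : C) - ((σ ⟨_, hmem⟩ : S) : C) =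
        ((σ (∑ d ∈ F, txS d - ⟨_, hmem⟩) : S) : C) := by
      simp [map_sub, map_sum]
    rw [h4]
    refine hδ2 _ ?_
    simpa using hF
  exact tendsto_nhds_unique h2' h3

/-- The same for power series over `k`: a corollary of `sigma_Ev'` by `Ev_map`. -/
theorem sigma_Ev (φ : MvPowerSeries σ₀ k →+* OC C) {c : ℝ} (hc0 : 0 ≤ c) (hc1 : c < 1)
    (hc : ∀ a, MvPowerSeries.constantCoeff a = 0 → ‖((φ a : OC C) : C)‖ ≤ c)
    (κ : k →+* OC C) (hκ : ∀ r, κ r = φ (MvPowerSeries.C r))
    (S : Subring C) {w : ℕ} (fam : Fin w → S)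
    (hS : ∀ s : S, ∃ r : Fin w → MvPowerSeries σ₀ k, (s : C) = ∑ f, ((φ (r f) : OC C) : C) * (fam f : C))
    (hφS : ∀ a, ((φ a : OC C) : C) ∈ S)
    (τ : MvPowerSeries σ₀ k →+* MvPowerSeries σ₀ k)
    (hτ0 : ∀ a, MvPowerSeries.constantCoeff a = 0 → MvPowerSeries.constantCoeff (τ a) = 0)
    (hτC : ∀ r, τ (MvPowerSeries.C r) = MvPowerSeries.C r)
    (σ : S →+* S) (hσ : ∀ a, σ ⟨((φ a : OC C) : C), hφS a⟩ = ⟨((φ (τ a) : OC C) : C), hφS _⟩)
    {N : ℕ} (a : MvPowerSeries (Fin N) k) (x y : Fin N → OC C) (hxS : ∀ i, (x i : C) ∈ S)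
    (hx : ∀ i, ‖(x i : C)‖ < 1) (hy : ∀ i, ‖(y i : C)‖ < 1)
    (hxy : ∀ i, (y i : C) = σ ⟨x i, hxS i⟩) :
    ∃ h : ((Ev κ x a : OC C) : C) ∈ S, ((Ev κ y a : OC C) : C) = σ ⟨_, h⟩ := by
  have e1 : φ.comp (MvPowerSeries.C (σ := σ₀) (R := k)) = κ := by
    ext r
    rw [hκ]
    rfl
  have e2 : (φ.comp τ).comp (MvPowerSeries.C (σ := σ₀) (R := k)) = κ := by
    ext r
    rw [hκ]
    simp [hτC]
  have e3 : Ev φ x (MvPowerSeries.map (MvPowerSeries.C (σ := σ₀) (R := k)) a) = Ev κ x a := by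
    rw [Ev_map _ _ _ hx, e1]
  have e4 : Ev (φ.comp τ) y (MvPowerSeries.map (MvPowerSeries.C (σ := σ₀) (R := k)) a) = Ev κ y a := by
    rw [Ev_map _ _ _ hy, e2]
  obtain ⟨h, h2⟩ := sigma_Ev' φ hc0 hc1 hc S fam hS hφS τ hτ0 hτC σ hσ
    (MvPowerSeries.map (MvPowerSeries.C (σ := σ₀) (R := k)) a) x y hxS hx hy hxy
  have hmem : ((Ev κ x a : OC C) : C) ∈ S := by
    rw [← e3]
    exact h
  refine ⟨hmem, ?_⟩
  rw [← e4, h2]
  congr 2
  exact Subtype.ext (congrArg (fun t : OC C => (t : C)) e3)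

/-- In the same setting: let `x i ∈ S` be points of the open ball such that the image of every series without constant term lies in the ideal of `S`
generated by the `x i`.  Then `S` is integral over the image of evaluation at `x`.

Proof. `S / (x) S` is generated over `k` by `fam` since `φ(A) = κ(k) + φ(m_A)` so `S = ∑ κ(k) fam f + (x) S`.
Iterating, `S = ∑_f O_{≤ d}(x) fam f + (x)^{d+1} S`.  The set `W = ∑_f Ev(O) fam f` is compact (`O` is compact for the product topology)
so closed, and every `s ∈ S` is a limit of elements of `W`.  So `S = W` and `S` is a finite module over `O` via evaluation. -/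
theorem integral_over_Ev (φ : MvPowerSeries σ₀ k →+* OC C) {c : ℝ} (hc0 : 0 ≤ c) (hc1 : c < 1)
    (hc : ∀ a, MvPowerSeries.constantCoeff a = 0 → ‖((φ a : OC C) : C)‖ ≤ c)
    (κ : k →+* OC C) (hκ : ∀ r, κ r = φ (MvPowerSeries.C r))
    (S : Subring C) {w : ℕ} (fam : Fin w → S)
    (hS : ∀ s : S, ∃ r : Fin w → MvPowerSeries σ₀ k, (s : C) = ∑ f, ((φ (r f) : OC C) : C) * (fam f : C))
    (hφS : ∀ a, ((φ a : OC C) : C) ∈ S)
    {N : ℕ} (x : Fin N → OC C) (hxS : ∀ i, (x i : C) ∈ S) (hx : ∀ i, ‖(x i : C)‖ < 1)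
    (hI : ∀ a, MvPowerSeries.constantCoeff a = 0 →
      (⟨_, hφS a⟩ : S) ∈ Ideal.span (Set.range fun i => (⟨x i, hxS i⟩ : S))) :
    ∃ ev : MvPowerSeries (Fin N) k →+* S, (∀ a, ((ev a : S) : C) = (Ev κ x a : OC C)) ∧ ev.IsIntegral := by
  classical
  letI : TopologicalSpace k := ⊥
  haveI : DiscreteTopology k := ⟨rfl⟩
  have hXφ : ∀ i, ‖((φ (MvPowerSeries.X i) : OC C) : C)‖ ≤ c := fun i =>
    hc _ (MvPowerSeries.constantCoeff_X i)
  haveI : CompactSpace (MvPowerSeries σ₀ k) := compactSpace_mvPowerSeries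
  haveI : CompactSpace (MvPowerSeries (Fin N) k) := compactSpace_mvPowerSeries
  set famC : Fin w → C := fun f => (fam f : C) with hfamC
  have hcont := continuous_Psi φ hc0 hc1 hXφ famC
  have hrange : (S : Set C) =
      Set.range fun r : Fin w → MvPowerSeries σ₀ k => ∑ f, ((φ (r f) : OC C) : C) * famC f := by
    ext s
    constructor
    · intro hs
      obtain ⟨r, hr⟩ := hS ⟨s, hs⟩
      exact ⟨r, hr.symm⟩
    · rintro ⟨r, rfl⟩
      exact Subring.sum_mem _ fun f _ => S.mul_mem (hφS _) (fam f).2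
  have hcompact : IsCompact (S : Set C) := by
    rw [hrange]
    exact isCompact_range hcont
  have hclosed : IsClosed (S : Set C) := hcompact.isClosed
  have hκS : ∀ r, ((κ r : OC C) : C) ∈ S := fun r => by
    rw [hκ]
    exact hφS _
  have hmem := Ev_mem_of_isClosed κ S hclosed hκS x hxS hx
  -- the evaluation map
  let θ := EvHom κ x hx
  let ev : MvPowerSeries (Fin N) k →+* S :=
    ((OC C).subtype.comp θ).codRestrict S fun a => by
      simp only [RingHom.comp_apply, θ, EvHom_apply]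
      exact hmem a
  have hev : ∀ a, ((ev a : S) : C) = (Ev κ x a : OC C) := fun a => by
    simp [ev, θ, EvHom_apply]
  refine ⟨ev, hev, ?_⟩
  -- bounds
  obtain ⟨q, hq0, hq1, hqx⟩ : ∃ q : ℝ, 0 ≤ q ∧ q < 1 ∧ ∀ i, ‖(x i : C)‖ ≤ q := by
    by_cases hN : Nonempty (Fin N)
    · obtain ⟨i₀, hi₀⟩ := Finite.exists_max fun i => ‖(x i : C)‖
      exact ⟨_, norm_nonneg _, hx i₀, hi₀⟩
    · exact ⟨0, le_rfl, one_pos, fun i => (hN ⟨i⟩).elim⟩
  have hθX : ∀ i, ‖((θ (MvPowerSeries.X i) : OC C) : C)‖ ≤ q := fun i => by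
    simp only [θ, EvHom_apply, Ev_X]
    exact hqx i
  obtain ⟨B, hB⟩ := hcompact.isBounded.exists_norm_le
  have hB0 : 0 ≤ B := by
    have := hB 0 S.zero_mem
    simpa using (norm_nonneg (0 : C)).trans this
  have hW := continuous_Psi θ hq0 hq1 hθX famC
  have hWclosed : IsClosed (Set.range fun r : Fin w → MvPowerSeries (Fin N) k =>
      ∑ f, ((θ (r f) : OC C) : C) * famC f) := (isCompact_range hW).isClosed
  -- one step
  have hstep : ∀ s : S, ∃ (c' : Fin w → k) (t : Fin N → S),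
      (s : C) = ∑ f, ((κ (c' f) : OC C) : C) * famC f + ∑ i, (x i : C) * (t i : C) := by
    intro s
    obtain ⟨r, hr⟩ := hS s
    let c' : Fin w → k := fun f => MvPowerSeries.constantCoeff (r f)
    let r' : Fin w → MvPowerSeries σ₀ k := fun f => r f - MvPowerSeries.C (c' f)
    have hr'0 : ∀ f, MvPowerSeries.constantCoeff (r' f) = 0 := fun f => by
      simp [r', c']
    have hex : ∀ f, ∃ u : Fin N → S, ((φ (r' f) : OC C) : C) = ∑ i, (u i : C) * (x i : C) := by
      intro f
      obtain ⟨u, hu⟩ := (Ideal.mem_span_range_iff_exists_fun).1 (hI _ (hr'0 f))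
      refine ⟨u, ?_⟩
      have := congrArg (fun z : S => (z : C)) hu
      simpa using this.symm
    choose u hu using hex
    refine ⟨c', fun i => ∑ f, u f i * fam f, ?_⟩
    have h1 : ∀ f, ((φ (r f) : OC C) : C) =
        ((κ (c' f) : OC C) : C) + ((φ (r' f) : OC C) : C) := fun f => by
      have : r f = MvPowerSeries.C (c' f) + r' f := by simp [r']
      conv_lhs => rw [this]
      rw [map_add, hκ]
      simp
    rw [hr]
    simp only [h1, add_mul, Finset.sum_add_distrib, hu]
    congr 1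
    have hthis : ∀ i, (x i : C) * ((∑ f, u f i * fam f : S) : C) =
        ∑ f, ((u f i : C) * (x i : C)) * famC f := by
      intro i
      rw [AddSubmonoidClass.coe_finsetSum, Finset.mul_sum]
      refine Finset.sum_congr rfl fun f _ => ?_
      simp only [hfamC, MulMemClass.coe_mul]
      ring
    simp only [hthis, Finset.sum_mul]
    rw [Finset.sum_comm]
  -- iteration
  have hiter : ∀ (d : ℕ) (s : S), ∃ b : Fin w → MvPowerSeries (Fin N) k,
      ‖(s : C) - ∑ f, ((θ (b f) : OC C) : C) * famC f‖ ≤ q ^ d * B := by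
    intro d
    induction d with
    | zero =>
        intro s
        refine ⟨0, ?_⟩
        simpa using hB s s.2
    | succ d ih =>
        intro s
        obtain ⟨c', t, hs⟩ := hstep s
        choose b hb using fun i => ih (t i)
        refine ⟨fun f => MvPowerSeries.C (c' f) + ∑ i, MvPowerSeries.X i * b i f, ?_⟩
        have hθC : ∀ r, θ (MvPowerSeries.C r) = κ r := fun r => by
          simp only [θ, EvHom_apply, Ev_C]
        have hθXi : ∀ i, θ (MvPowerSeries.X i) = x i := fun i => by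
          simp only [θ, EvHom_apply, Ev_X]
        have h1 : (s : C) - ∑ f, ((θ (MvPowerSeries.C (c' f) + ∑ i, MvPowerSeries.X i * b i f) :
            OC C) : C) * famC f =
            ∑ i, (x i : C) * ((t i : C) - ∑ f, ((θ (b i f) : OC C) : C) * famC f) := by
          rw [hs]
          simp only [map_add, map_sum, map_mul, hθC, hθXi]
          push_cast
          simp only [add_mul, Finset.sum_add_distrib, mul_sub, Finset.sum_sub_distrib,
            Finset.sum_mul, Finset.mul_sum]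
          rw [Finset.sum_comm (s := Finset.univ) (t := Finset.univ)]
          simp only [mul_assoc]
          ring
        rw [h1]
        refine IsUltrametricDist.norm_sum_le_of_forall_le_of_nonneg (by positivity) fun i _ => ?_
        rw [norm_mul, pow_succ', mul_assoc]
        exact mul_le_mul (hqx i) (hb i) (norm_nonneg _) hq0
  -- surjectivity on the generators
  have hsurj : ∀ s : S, ∃ b : Fin w → MvPowerSeries (Fin N) k,
      (s : C) = ∑ f, ((θ (b f) : OC C) : C) * famC f := by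
    intro s
    have hcl : (s : C) ∈ closure (Set.range fun r : Fin w → MvPowerSeries (Fin N) k =>
        ∑ f, ((θ (r f) : OC C) : C) * famC f) := by
      rw [Metric.mem_closure_iff]
      intro ε hε
      have hlim : Tendsto (fun d : ℕ => q ^ d * B) atTop (𝓝 (0 * B)) :=
        (tendsto_pow_atTop_nhds_zero_of_lt_one hq0 hq1).mul_const B
      rw [zero_mul] at hlim
      obtain ⟨d, hd⟩ := (hlim.eventually (gt_mem_nhds hε)).exists
      obtain ⟨b, hb⟩ := hiter d s
      refine ⟨_, ⟨b, rfl⟩, ?_⟩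
      rw [dist_eq_norm]
      exact lt_of_le_of_lt hb hd
    rw [hWclosed.closure_eq] at hcl
    obtain ⟨b, hb⟩ := hcl
    exact ⟨b, hb.symm⟩
  -- finiteness
  have hfin : ev.Finite := by
    letI := ev.toAlgebra
    show Module.Finite (MvPowerSeries (Fin N) k) S
    have hspan : Submodule.span (MvPowerSeries (Fin N) k) (Set.range fam) = ⊤ := by
      rw [eq_top_iff]
      intro s _
      obtain ⟨b, hb⟩ := hsurj s
      have hs : s = ∑ f, b f • fam f := by
        apply Subtype.ext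
        rw [hb]
        simp only [AddSubmonoidClass.coe_finsetSum, Algebra.smul_def]
        refine Finset.sum_congr rfl fun f _ => ?_
        have : algebraMap (MvPowerSeries (Fin N) k) S (b f) = ev (b f) := rfl
        rw [this]
        simp [ev, hfamC]
      rw [hs]
      exact Submodule.sum_mem _ fun f _ =>
        Submodule.smul_mem _ _ (Submodule.subset_span ⟨f, rfl⟩)
    exact ⟨by rw [← hspan]; exact Submodule.fg_span (Set.finite_range fam)⟩
  exact hfin.to_isIntegral

end Vale.Agent.Lib.P217
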