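import Mathlib

set_option linter.unusedSectionVars false
set_option linter.unusedVariables false

namespace Vale.Agent.Lib.P217

open PowerSeries

variable {A : Type*} [CommRing A] {I : Ideal A}

/-- Weierstrass preparation at an ideal for which the ring is complete. -/
theorem exists_weierstrass_at [IsAdicComplete I A] (hI : I ≠ ⊤) (g : PowerSeries A) (d : ℕ)
    (hd : IsUnit (PowerSeries.coeff d g)) (hlow : ∀ j < d, PowerSeries.coeff j g ∈ I) :
    ∃ (f : Polynomial A) (h : PowerSeries A), f.Monic ∧ f.natDegree = d ∧
      (∀ j < d, f.coeff j ∈ I) ∧ IsUnit h ∧ g = (f : PowerSeries A) * h := by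
  have hne : Nontrivial (A ⧸ I) := Ideal.Quotient.nontrivial_iff.mpr hI
  have hnA : Nontrivial A := by
    rcases subsingleton_or_nontrivial A with h | h
    · exact absurd (Subsingleton.elim _ _) hI
    · exact h
  have hdmap : (PowerSeries.coeff d (g.map (Ideal.Quotient.mk I))) ≠ 0 := by
    rw [PowerSeries.coeff_map]
    exact (hd.map (Ideal.Quotient.mk I)).ne_zero
  have hord : (g.map (Ideal.Quotient.mk I)).order = d := by
    rw [PowerSeries.order_eq_nat]
    refine ⟨hdmap, fun j hj => ?_⟩
    rw [PowerSeries.coeff_map, Ideal.Quotient.eq_zero_iff_mem]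
    exact hlow j hj
  have hordn : (g.map (Ideal.Quotient.mk I)).order.toNat = d := by
    rw [hord]; rfl
  have hdiv : g.IsWeierstrassDivisorAt I := by
    rw [PowerSeries.IsWeierstrassDivisorAt, hordn]; exact hd
  have H := hdiv.isWeierstrassDivisionAt_div_mod (f := (X ^ d : PowerSeries A))
  set q := hdiv.div (X ^ d : PowerSeries A)
  set r := hdiv.mod (X ^ d : PowerSeries A)
  have hdeg : r.degree < d := by
    have := H.degree_lt
    rwa [hordn] at this
  have hr0 : Polynomial.coeff r d = 0 := Polynomial.coeff_eq_zero_of_degree_lt hdeg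
  have heq : (X ^ d : PowerSeries A) = g * q + r := H.eq_mul_add
  -- `q` is a unit
  have hq : IsUnit q := by
    rw [PowerSeries.isUnit_iff_constantCoeff]
    have h1 := congrArg (fun s => Ideal.Quotient.mk I (PowerSeries.coeff d s)) heq
    simp only [PowerSeries.coeff_X_pow_self, map_add, map_one, Polynomial.coeff_coe, hr0,
      add_zero] at h1
    rw [PowerSeries.coeff_mul, map_sum] at h1
    have h2 : ∑ x ∈ Finset.HasAntidiagonal.antidiagonal d,
        (Ideal.Quotient.mk I) ((PowerSeries.coeff x.1) g * (PowerSeries.coeff x.2) q) =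
        (Ideal.Quotient.mk I) ((PowerSeries.coeff d) g * (PowerSeries.coeff 0) q) := by
      rw [Finset.sum_eq_single (d, 0)]
      · intro b hb hne'
        have hb1 : b.1 < d := by
          have h3 := Finset.HasAntidiagonal.mem_antidiagonal.mp hb
          by_contra h4
          push Not at h4
          apply hne'
          ext
          · simp; omega
          · simp; omega
        rw [Ideal.Quotient.eq_zero_iff_mem]
        exact I.mul_mem_right _ (hlow _ hb1)
      · intro h5
        exact absurd (Finset.HasAntidiagonal.mem_antidiagonal.mpr (by simp)) h5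
    rw [h2] at h1
    have h3 : 1 - (PowerSeries.coeff d) g * (PowerSeries.coeff 0) q ∈ I := by
      rw [← Ideal.Quotient.eq_zero_iff_mem, map_sub, map_one, ← h1, sub_self]
    have h4 : I ≤ (⊥ : Ideal A).jacobson := IsAdicComplete.le_jacobson_bot I
    have h5 : IsUnit ((PowerSeries.coeff d) g * (PowerSeries.coeff 0) q) := by
      have h6 := h4 h3
      rw [Ideal.mem_jacobson_bot] at h6
      have := h6 (-1)
      simpa using this
    have h7 := isUnit_of_mul_isUnit_right h5
    simpa using h7
  obtain ⟨u, hu⟩ := hq
  refine ⟨Polynomial.X ^ d - r, ((u⁻¹ : (PowerSeries A)ˣ) : PowerSeries A), ?_, ?_, ?_, Units.isUnit _, ?_⟩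
  · exact Polynomial.monic_X_pow_sub hdeg
  · exact Polynomial.natDegree_eq_of_degree_eq_some (by
      rw [Polynomial.degree_sub_eq_left_of_degree_lt (by rwa [Polynomial.degree_X_pow]),
        Polynomial.degree_X_pow])
  · intro j hj
    have h1 := H.coeff_f_sub_r_mem (i := j) (by rwa [hordn])
    rw [map_sub, PowerSeries.coeff_X_pow, if_neg hj.ne, zero_sub, neg_mem_iff,
      Polynomial.coeff_coe] at h1
    rw [Polynomial.coeff_sub, Polynomial.coeff_X_pow, if_neg hj.ne, zero_sub, neg_mem_iff]
    exact h1
  · have h1 : ((Polynomial.X ^ d - r : Polynomial A) : PowerSeries A) = g * q := by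
      rw [Polynomial.coe_sub, Polynomial.coe_pow, Polynomial.coe_X, heq]
      ring
    rw [h1, mul_assoc, ← hu, Units.mul_inv, mul_one]

end Vale.Agent.Lib.P217
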