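import Vale.Agent.Lib.P217.Mu
import Vale.Agent.Lib.P217.Weier

set_option linter.unusedSectionVars false
set_option linter.unusedVariables false

namespace Vale.Agent.Lib.P217

open scoped Topology
open Filter

variable {C : Type*} [NormedField C] [IsUltrametricDist C] [CompleteSpace C]
variable {p n : ℕ} [hp : Fact p.Prime] [CharP C p] [IsAlgClosed C]

/-- The small disc law. With `a = coeff p [p]_L`, one has `‖[p]x - a x^p‖ ≤ ‖x‖^(2p)`. (All exponents of `[p]` are
divisible by `p`, and the coefficients of exponents `< p` vanish.) -/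
theorem norm_smalldisc_sub_le (L : Law C p n) (x : Pts L.G) :
    ‖(p • x).v - ((PowerSeries.coeff p (mulSeries L.G p) : OC C) : C) * x.v ^ p‖ ≤ ‖x.v‖ ^ (2 * p) := by
  have h1 := hasSum_nsmul_p L x
  set a := PowerSeries.coeff p (mulSeries L.G p) with ha
  have h2 : HasSum (fun j : ℕ => if j = p then a * x.o ^ p else 0) (a * x.o ^ p) :=
    hasSum_ite_eq p _
  have hnn : (0 : ℝ) ≤ ‖x.v‖ ^ (2 * p) := by positivity
  have h3 := norm_sum_le_of_hasSum (h1.sub h2) hnn ?_
  · exact h3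
  · intro j
    by_cases hj : j = p
    · subst hj
      simp only [if_true, ← ha, sub_self]
      simpa using hnn
    · simp only [if_neg hj, sub_zero]
      by_cases hd : p ∣ j
      · obtain ⟨i, rfl⟩ := hd
        rcases i with _ | _ | i
        · have h0 : PowerSeries.coeff (p * 0) (mulSeries L.G p) = 0 := by
            simpa using constantCoeff_mulSeries L.G p
          rw [h0]
          simpa using hnn
        · simp at hj
        · have e : ((PowerSeries.coeff (p * (i + 1 + 1)) (mulSeries L.G p) * x.o ^ (p * (i + 1 + 1)) : OC C) : C)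
              = ((PowerSeries.coeff (p * (i + 1 + 1)) (mulSeries L.G p) : OC C) : C) * x.v ^ (p * (i + 1 + 1)) := by
            push_cast; rfl
          rw [e, norm_mul, norm_pow]
          have h4 : ‖x.v‖ ^ (p * (i + 1 + 1)) ≤ ‖x.v‖ ^ (2 * p) :=
            pow_le_pow_of_le_one (norm_nonneg _) x.norm_lt.le (by nlinarith)
          exact (mul_le_of_le_one_left (by positivity) (norm_OC_le _)).trans h4
      · rw [L.dvd_p j hd]
        simpa using hnn

section adic

variable {C : Type*} [NormedField C] [IsUltrametricDist C] [CompleteSpace C]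

omit [CompleteSpace C] in
lemma mem_span_pow_iff (π : OC C) (hπ0 : (π : C) ≠ 0) (k : ℕ) (x : OC C) :
    x ∈ (Ideal.span {π}) ^ k ↔ ‖(x : C)‖ ≤ ‖(π : C)‖ ^ k := by
  rw [Ideal.span_singleton_pow, Ideal.mem_span_singleton']
  constructor
  · rintro ⟨a, rfl⟩
    have e : ((a * π ^ k : OC C) : C) = (a : C) * (π : C) ^ k := by push_cast; rfl
    rw [e, norm_mul, norm_pow]
    exact mul_le_of_le_one_left (by positivity) (norm_OC_le a)
  · intro h
    have hpos : 0 < ‖(π : C)‖ ^ k := pow_pos (norm_pos_iff.mpr hπ0) k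
    have hq : ‖(x : C) / (π : C) ^ k‖ ≤ 1 := by
      rw [norm_div, norm_pow]
      exact div_le_one_of_le₀ h hpos.le
    refine ⟨⟨(x : C) / (π : C) ^ k, hq⟩, ?_⟩
    apply Subtype.ext
    have e : (((⟨(x : C) / (π : C) ^ k, hq⟩ : OC C) * π ^ k : OC C) : C)
        = (x : C) / (π : C) ^ k * (π : C) ^ k := by push_cast; rfl
    rw [e]
    field_simp

lemma isAdic_span (π : OC C) (hπ0 : (π : C) ≠ 0) (hπ1 : ‖(π : C)‖ < 1) :
    IsAdic (Ideal.span {π}) := by
  rw [isAdic_iff]
  constructor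
  · intro k
    rw [isOpen_iff_mem_nhds]
    intro x hx
    have hpos : 0 < ‖(π : C)‖ ^ k := pow_pos (norm_pos_iff.mpr hπ0) k
    rw [Metric.mem_nhds_iff]
    refine ⟨_, hpos, fun y hy => ?_⟩
    have hx' : ‖(x : C)‖ ≤ ‖(π : C)‖ ^ k := (mem_span_pow_iff π hπ0 k x).mp hx
    refine (mem_span_pow_iff π hπ0 k y).mpr ?_
    have hy' : ‖(y : C) - (x : C)‖ < ‖(π : C)‖ ^ k := by
      simpa [Subtype.dist_eq, dist_eq_norm] using hy
    have e : (y : C) = ((y : C) - (x : C)) + (x : C) := by ring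
    rw [e]
    exact (IsUltrametricDist.norm_add_le_max _ _).trans (max_le hy'.le hx')
  · intro s hs
    rw [Metric.mem_nhds_iff] at hs
    obtain ⟨ε, hε, hsub⟩ := hs
    have h1 : Tendsto (fun j : ℕ => ‖(π : C)‖ ^ j) atTop (𝓝 0) :=
      tendsto_pow_atTop_nhds_zero_of_lt_one (norm_nonneg _) hπ1
    obtain ⟨k, hk⟩ := (h1.eventually (gt_mem_nhds hε)).exists
    refine ⟨k, fun y hy => hsub ?_⟩
    have hy' := (mem_span_pow_iff π hπ0 k y).mp hy
    simpa [Subtype.dist_eq, dist_eq_norm] using lt_of_le_of_lt hy' hk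

lemma isAdicComplete_span (π : OC C) (hπ0 : (π : C) ≠ 0) (hπ1 : ‖(π : C)‖ < 1) :
    IsAdicComplete (Ideal.span {π}) (OC C) :=
  (isAdic_span π hπ0 hπ1).isAdicComplete_iff.mpr ⟨inferInstance, inferInstance⟩

end adic

section factor

omit [CompleteSpace C] [CharP C p] in
lemma exists_pi (ht : ∃ t : C, t ≠ 0 ∧ ‖t‖ < 1) {r : ℝ} (hr : r < 1) :
    ∃ π : OC C, (π : C) ≠ 0 ∧ r ≤ ‖(π : C)‖ ∧ ‖(π : C)‖ < 1 := by
  obtain ⟨t, ht0, ht1⟩ := ht
  have htpos : 0 < ‖t‖ := norm_pos_iff.mpr ht0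
  set r' := max r ‖t‖ with hr'
  have hr'1 : r' < 1 := max_lt hr ht1
  have hr'0 : 0 < r' := lt_of_lt_of_le htpos (le_max_right _ _)
  have h1 : Tendsto (fun j : ℕ => r' ^ j) atTop (𝓝 0) :=
    tendsto_pow_atTop_nhds_zero_of_lt_one hr'0.le hr'1
  obtain ⟨m, hm, hm1⟩ := ((h1.eventually (gt_mem_nhds htpos)).and (eventually_ge_atTop 1)).exists
  obtain ⟨s, hs⟩ := IsAlgClosed.exists_pow_nat_eq t (n := m) hm1
  have hns : ‖s‖ ^ m = ‖t‖ := by rw [← norm_pow, hs]
  have hs1 : ‖s‖ < 1 := by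
    by_contra h
    push Not at h
    have := one_le_pow₀ h (n := m)
    rw [hns] at this
    linarith
  have hrs : r' ≤ ‖s‖ := by
    by_contra h
    push Not at h
    have := pow_le_pow_left₀ (norm_nonneg s) h.le m
    rw [hns] at this
    linarith
  refine ⟨⟨s, hs1.le⟩, ?_, (le_max_left _ _).trans hrs, hs1⟩
  intro h0
  have : s = 0 := h0
  subst this
  simp at hrs
  linarith

omit [CompleteSpace C] in
lemma isUnit_of_norm_eq_one {C : Type*} [NormedField C] [IsUltrametricDist C] (x : OC C)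
    (hx : ‖(x : C)‖ = 1) : IsUnit x := by
  have hne : (x : C) ≠ 0 := by
    intro h
    rw [h] at hx
    simp at hx
  have hinv : ‖(x : C)⁻¹‖ ≤ 1 := by
    rw [norm_inv, hx]
    simp
  refine IsUnit.of_mul_eq_one ⟨(x : C)⁻¹, hinv⟩ ?_
  apply Subtype.ext
  change (x : C) * (x : C)⁻¹ = 1
  exact mul_inv_cancel₀ hne

omit [CharP C p] in
lemma exists_factor (ht : ∃ t : C, t ≠ 0 ∧ ‖t‖ < 1) (g : PowerSeries (OC C)) (d : ℕ)
    (hd1 : ‖((PowerSeries.coeff d g : OC C) : C)‖ = 1) {r : ℝ} (hr : r < 1)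
    (hlow : ∀ j < d, ‖((PowerSeries.coeff j g : OC C) : C)‖ ≤ r) :
    ∃ (f : Polynomial (OC C)) (h : PowerSeries (OC C)) (r' : ℝ), r' < 1 ∧ f.Monic ∧
      f.natDegree = d ∧ (∀ j < d, ‖((f.coeff j : OC C) : C)‖ ≤ r') ∧ IsUnit h ∧
      g = (f : PowerSeries (OC C)) * h := by
  obtain ⟨π, hπ0, hrπ, hπ1⟩ := exists_pi ht hr
  have hmem : ∀ x : OC C, x ∈ Ideal.span {π} ↔ ‖(x : C)‖ ≤ ‖(π : C)‖ := by
    intro x
    have := mem_span_pow_iff π hπ0 1 x
    simpa using this
  have := isAdicComplete_span π hπ0 hπ1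
  have hI : Ideal.span {π} ≠ ⊤ := by
    intro h
    have h1 : (1 : OC C) ∈ Ideal.span {π} := by rw [h]; trivial
    have h2 := (hmem 1).mp h1
    have h3 : ‖((1 : OC C) : C)‖ = 1 := by simp
    rw [h3] at h2
    linarith
  obtain ⟨f, h, hf, hfd, hfl, hh, hg⟩ := exists_weierstrass_at hI g d (isUnit_of_norm_eq_one _ hd1)
    (fun j hj => (hmem _).mpr ((hlow j hj).trans hrπ))
  exact ⟨f, h, ‖(π : C)‖, hπ1, hf, hfd, fun j hj => (hmem _).mp (hfl j hj), hh, hg⟩

omit [IsAlgClosed C] [CharP C p] in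
lemma ev1_mul (x : OC C) (hx : ‖(x : C)‖ < 1) (f g : PowerSeries (OC C)) :
    ev1 (RingHom.id _) x (f * g) = ev1 (RingHom.id _) x f * ev1 (RingHom.id _) x g :=
  Ev_mul _ _ (fun _ => hx) f g

omit [IsAlgClosed C] [CharP C p] in
lemma ev1_sub (x : OC C) (hx : ‖(x : C)‖ < 1) (f g : PowerSeries (OC C)) :
    ev1 (RingHom.id _) x (f - g) = ev1 (RingHom.id _) x f - ev1 (RingHom.id _) x g :=
  Ev_sub _ _ (fun _ => hx) f g

omit [IsAlgClosed C] [CharP C p] in
lemma ev1_coe_poly (x : OC C) (hx : ‖(x : C)‖ < 1) (f : Polynomial (OC C)) :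
    ev1 (RingHom.id _) x (f : PowerSeries (OC C)) = f.eval x := by
  have h := hasSum_ev1 (RingHom.id (OC C)) hx (f : PowerSeries (OC C))
  have h2 : HasSum (fun j : ℕ => (RingHom.id (OC C)) (PowerSeries.coeff j (f : PowerSeries (OC C))) * x ^ j)
      (∑ j ∈ Finset.range (f.natDegree + 1), (RingHom.id (OC C)) (PowerSeries.coeff j (f : PowerSeries (OC C))) * x ^ j) := by
    apply hasSum_sum_of_ne_finset_zero
    intro j hj
    have hj' : f.natDegree < j := by
      simp only [Finset.mem_range, not_lt] at hj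
      omega
    rw [Polynomial.coeff_coe, Polynomial.coeff_eq_zero_of_natDegree_lt hj']
    simp
  rw [h.unique h2, Polynomial.eval_eq_sum_range]
  refine Finset.sum_congr rfl fun j _ => ?_
  rw [Polynomial.coeff_coe]
  rfl

omit [IsAlgClosed C] [CharP C p] in
lemma norm_ev1_unit (x : OC C) (hx : ‖(x : C)‖ < 1) {h : PowerSeries (OC C)} (hh : IsUnit h) :
    ‖((ev1 (RingHom.id _) x h : OC C) : C)‖ = 1 := by
  have h1 : IsUnit (ev1 (RingHom.id (OC C)) x h) := by
    have := hh.map (EvHom (RingHom.id (OC C)) (fun _ : Unit => x) (fun _ => hx))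
    rwa [EvHom_apply] at this
  obtain ⟨u, hu⟩ := h1
  have h2 : ‖((u : OC C) : C)‖ * ‖(((u⁻¹ : (OC C)ˣ) : OC C) : C)‖ = 1 := by
    rw [← norm_mul]
    have : ((u : OC C) : C) * (((u⁻¹ : (OC C)ˣ) : OC C) : C) = (((u * u⁻¹ : (OC C)ˣ) : OC C) : C) := by
      push_cast; rfl
    rw [this]
    simp
  have h3 := norm_OC_le (u : OC C)
  have h4 := norm_OC_le ((u⁻¹ : (OC C)ˣ) : OC C)
  rw [← hu]
  nlinarith [norm_nonneg ((u : OC C) : C), norm_nonneg (((u⁻¹ : (OC C)ˣ) : OC C) : C)]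

omit [CompleteSpace C] [IsAlgClosed C] [CharP C p] in
lemma norm_root_lt {f : Polynomial (OC C)} (hf : f.Monic) {r' : ℝ} (hr' : r' < 1)
    (hlow : ∀ j < f.natDegree, ‖((f.coeff j : OC C) : C)‖ ≤ r') {z : C}
    (hz : (f.map (OC C).subtype).eval z = 0) (hd : 0 < f.natDegree) : ‖z‖ < 1 := by
  by_contra h
  push Not at h
  set r'' := max r' 0
  have hr''1 : r'' < 1 := max_lt hr' one_pos
  have hr''0 : 0 ≤ r'' := le_max_right _ _
  have hzd : 0 < ‖z‖ ^ f.natDegree := pow_pos (lt_of_lt_of_le one_pos h) _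
  have h1 : (f.map (OC C).subtype).eval z =
      z ^ f.natDegree + ∑ j ∈ Finset.range f.natDegree, ((f.coeff j : OC C) : C) * z ^ j := by
    rw [Polynomial.eval_map, Polynomial.eval₂_eq_sum_range, Finset.sum_range_succ, add_comm]
    congr 1
    rw [hf.coeff_natDegree]
    simp
  rw [h1] at hz
  have h2 : z ^ f.natDegree = - ∑ j ∈ Finset.range f.natDegree, ((f.coeff j : OC C) : C) * z ^ j :=
    eq_neg_of_add_eq_zero_left hz
  have h3 : ‖z ^ f.natDegree‖ ≤ r'' * ‖z‖ ^ f.natDegree := by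
    rw [h2, norm_neg]
    refine IsUltrametricDist.norm_sum_le_of_forall_le_of_nonneg (by positivity) fun j hj => ?_
    rw [norm_mul, norm_pow]
    have hj' : j < f.natDegree := Finset.mem_range.mp hj
    have h4 : ‖z‖ ^ j ≤ ‖z‖ ^ f.natDegree := pow_le_pow_right₀ h hj'.le
    exact mul_le_mul ((hlow j hj').trans (le_max_left _ _)) h4 (by positivity) hr''0
  rw [norm_pow] at h3
  nlinarith

end factor

section factorP

omit [CompleteSpace C] [IsAlgClosed C] [CharP C p] in
lemma coe_eval_eq (f : Polynomial (OC C)) (x : OC C) :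
    ((f.eval x : OC C) : C) = (f.map (OC C).subtype).eval (x : C) := by
  rw [Polynomial.eval_map]
  exact (Polynomial.eval₂_at_apply (OC C).subtype x).symm

omit [CharP C p] [IsAlgClosed C] in
lemma norm_eq_of_sub_lt {C : Type*} [NormedField C] [IsUltrametricDist C] {u v : C}
    (h : ‖u - v‖ < ‖v‖) : ‖u‖ = ‖v‖ := by
  apply le_antisymm
  · have e : u = (u - v) + v := by ring
    rw [e]
    exact (IsUltrametricDist.norm_add_le_max _ _).trans (max_le h.le le_rfl)
  · have e : v = u - (u - v) := by ring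
    have h2 : ‖v‖ ≤ max ‖u‖ ‖u - v‖ := by
      have h3 := IsUltrametricDist.norm_add_le_max u (-(u - v))
      rw [norm_neg] at h3
      have e2 : u + -(u - v) = v := by ring
      rwa [e2] at h3
    rcases le_max_iff.mp h2 with h3 | h3
    · exact h3
    · exact absurd h3 (not_le.mpr h)

/-- Weierstrass factorization of `[p] - z`. -/
lemma exists_factor_p (L : Law C p n) (ht : ∃ t : C, t ≠ 0 ∧ ‖t‖ < 1) (z : Pts L.G) :
    ∃ (f : Polynomial (OC C)) (h : PowerSeries (OC C)) (r' : ℝ), r' < 1 ∧ f.Monic ∧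
      f.natDegree = p ^ n ∧ (∀ j < p ^ n, ‖((f.coeff j : OC C) : C)‖ ≤ r') ∧ IsUnit h ∧
      mulSeries L.G p - PowerSeries.C z.o = (f : PowerSeries (OC C)) * h := by
  have hpn : 0 < p ^ n := Nat.pow_pos hp.out.pos
  have hcoeff : ∀ j, 0 < j → PowerSeries.coeff j (mulSeries L.G p - PowerSeries.C z.o)
      = PowerSeries.coeff j (mulSeries L.G p) := by
    intro j hj
    simp [PowerSeries.coeff_C, hj.ne']
  refine exists_factor ht _ (p ^ n) ?_ (r := max L.c ‖z.v‖) (max_lt L.c_lt_one z.norm_lt) ?_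
  · rw [hcoeff _ hpn]
    have h1 := L.coeff_p (p ^ n)
    simp only [if_true] at h1
    have h2 : ‖((PowerSeries.coeff (p ^ n) (mulSeries L.G p) : OC C) : C) - 1‖ < ‖(1 : C)‖ := by
      simpa using lt_of_le_of_lt h1 L.c_lt_one
    simpa using norm_eq_of_sub_lt h2
  · intro j hj
    rcases Nat.eq_zero_or_pos j with rfl | hj0
    · have h0 : PowerSeries.coeff 0 (mulSeries L.G p) = 0 := by
        simpa using constantCoeff_mulSeries L.G p
      have e : PowerSeries.coeff 0 (mulSeries L.G p - PowerSeries.C z.o) = - z.o := by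
        rw [map_sub, h0]
        simp
      rw [e]
      have : ((-z.o : OC C) : C) = - z.v := rfl
      rw [this, norm_neg]
      exact le_max_right _ _
    · rw [hcoeff _ hj0]
      have h1 := L.coeff_p j
      rw [if_neg hj.ne, sub_zero] at h1
      exact h1.trans (le_max_left _ _)

omit [IsAlgClosed C] in
/-- Values of a factorization. -/
lemma nsmul_o_eq (L : Law C p n) (z x : Pts L.G) {f : Polynomial (OC C)} {h : PowerSeries (OC C)}
    (hfac : mulSeries L.G p - PowerSeries.C z.o = (f : PowerSeries (OC C)) * h) :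
    (p • x).o - z.o = f.eval x.o * ev1 (RingHom.id _) x.o h := by
  have h1 := congrArg (ev1 (RingHom.id (OC C)) x.o) hfac
  rw [ev1_sub _ x.norm_o_lt, ev1_mul _ x.norm_o_lt, ev1_coe_poly _ x.norm_o_lt, ev1_mulSeries,
    ev1_C] at h1
  simpa using h1

omit [IsAlgClosed C] in
lemma nsmul_eq_iff (L : Law C p n) (z x : Pts L.G) {f : Polynomial (OC C)} {h : PowerSeries (OC C)}
    (hh : IsUnit h)
    (hfac : mulSeries L.G p - PowerSeries.C z.o = (f : PowerSeries (OC C)) * h) :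
    p • x = z ↔ (f.map (OC C).subtype).eval x.v = 0 := by
  have h1 := nsmul_o_eq L z x hfac
  have h2 := norm_ev1_unit x.o x.norm_o_lt hh
  have h3 : ‖(p • x).v - z.v‖ = ‖(f.map (OC C).subtype).eval x.v‖ := by
    have h4 : (p • x).v - z.v = ((f.eval x.o : OC C) : C) * ((ev1 (RingHom.id _) x.o h : OC C) : C) :=
      congrArg (fun t : OC C => (t : C)) h1
    rw [h4, norm_mul, h2, mul_one, coe_eval_eq]
    rfl
  constructor
  · intro h5
    rw [← norm_eq_zero, ← h3, h5, sub_self, norm_zero]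
  · intro h5
    rw [h5, norm_zero, norm_eq_zero, sub_eq_zero] at h3
    exact Pts.ext h3

end factorP

/-- Multiplication by `p` is surjective on the points of a law.

Proof: `[p](X) - C z` has unit coefficient at `p ^ n`, and lower coefficients in the ideal `(π)` for
`‖π‖ ≥ max L.c ‖z‖`, `‖π‖ < 1` (`π` exists from `ht` and algebraic closedness; `OC C` is `(π)`-adically complete
by `IsAdic.isAdicComplete_iff`, the ideal powers `(π)^j` being closed balls).
Apply `exists_weierstrass_at` to write it as a monic polynomial times a unit series; a root in `C` of the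
polynomial (it exists since `C` is algebraically closed) has norm `< 1` and gives the preimage, the unit
series having norm one on the ball. -/
theorem nsmul_p_surjective (L : Law C p n) (hn : 1 ≤ n) (ht : ∃ t : C, t ≠ 0 ∧ ‖t‖ < 1) (z : Pts L.G) :
    ∃ x : Pts L.G, p • x = z := by
  have hpn : 0 < p ^ n := Nat.pow_pos hp.out.pos
  obtain ⟨f, h, r', hr', hf, hfd, hfl, hh, hfac⟩ := exists_factor_p L ht z
  have hdeg : (f.map (OC C).subtype).degree ≠ 0 := by
    rw [hf.degree_map, Polynomial.degree_eq_natDegree hf.ne_zero, hfd]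
    exact_mod_cast hpn.ne'
  obtain ⟨w, hw⟩ := IsAlgClosed.exists_root _ hdeg
  have hw1 : ‖w‖ < 1 := norm_root_lt hf hr' (by rw [hfd]; exact hfl) hw (by rw [hfd]; exact hpn)
  refine ⟨Pts.mk w hw1, (nsmul_eq_iff L z _ hh hfac).mpr ?_⟩
  simpa using hw

section torsion

/-- Exact multiplicity. -/
lemma rootMultiplicity_eq (L : Law C p n) (ht : ∃ t : C, t ≠ 0 ∧ ‖t‖ < 1)
    (ha : PowerSeries.coeff p (mulSeries L.G p) ≠ 0)
    {f : Polynomial (OC C)} {h : PowerSeries (OC C)} (hf : f.Monic) (hh : IsUnit h)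
    (hfac : mulSeries L.G p - PowerSeries.C (0 : Pts L.G).o = (f : PowerSeries (OC C)) * h)
    (w : Pts L.G) (hw : (f.map (OC C).subtype).eval w.v = 0) :
    (f.map (OC C).subtype).rootMultiplicity w.v = p := by
  set Q := f.map (OC C).subtype with hQ
  have hQ0 : Q ≠ 0 := (hf.map _).ne_zero
  set m := Q.rootMultiplicity w.v with hm
  set R := Q /ₘ (Polynomial.X - Polynomial.C w.v) ^ m with hR
  have hQR : (Polynomial.X - Polynomial.C w.v) ^ m * R = Q :=
    Polynomial.pow_mul_divByMonic_rootMultiplicity_eq Q w.v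
  have hR0 : R.eval w.v ≠ 0 := Polynomial.eval_divByMonic_pow_rootMultiplicity_ne_zero w.v hQ0
  obtain ⟨t, ht0, ht1⟩ := ht
  have hτ0 : 0 < ‖t‖ := norm_pos_iff.mpr ht0
  set a : OC C := PowerSeries.coeff p (mulSeries L.G p) with hadef
  have ha0 : (a : C) ≠ 0 := fun h0 => ha (Subtype.ext h0)
  have hA : 0 < ‖(a : C)‖ := norm_pos_iff.mpr ha0
  have hK : 0 < ‖R.eval w.v‖ := norm_pos_iff.mpr hR0
  have hpw : p • w = 0 := (nsmul_eq_iff L 0 w hh hfac).mpr hw
  -- the sequence `t ^ k` tends to zero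
  have ht_pow : Tendsto (fun k : ℕ => t ^ k) atTop (𝓝 0) :=
    tendsto_pow_atTop_nhds_zero_of_norm_lt_one ht1
  have hev1 : ∀ᶠ k : ℕ in atTop, ‖R.eval (w.v + t ^ k) - R.eval w.v‖ < ‖R.eval w.v‖ := by
    have hc : Tendsto (fun k : ℕ => R.eval (w.v + t ^ k)) atTop (𝓝 (R.eval (w.v + 0))) :=
      (R.continuous.tendsto _).comp (tendsto_const_nhds.add ht_pow)
    rw [add_zero] at hc
    have hc2 := tendsto_iff_norm_sub_tendsto_zero.mp hc
    exact hc2.eventually (gt_mem_nhds hK)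
  have hev2 : ∀ᶠ k : ℕ in atTop, (‖t‖ ^ k) ^ p < ‖(a : C)‖ := by
    have hc : Tendsto (fun k : ℕ => (‖t‖ ^ k) ^ p) atTop (𝓝 (0 ^ p)) :=
      (tendsto_pow_atTop_nhds_zero_of_lt_one hτ0.le ht1).pow p
    rw [zero_pow hp.out.ne_zero] at hc
    exact hc.eventually (gt_mem_nhds hA)
  have hmain : ∀ᶠ k : ℕ in atTop, (‖t‖ ^ k) ^ m * ‖R.eval w.v‖ = ‖(a : C)‖ * (‖t‖ ^ k) ^ p := by
    filter_upwards [hev1, hev2, eventually_ge_atTop 1] with k hk1 hk2 hk3
    have hτk : ‖t ^ k‖ = ‖t‖ ^ k := norm_pow _ _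
    have hτk1 : ‖t‖ ^ k < 1 := pow_lt_one₀ hτ0.le ht1 (by omega)
    have hτk0 : 0 < ‖t‖ ^ k := pow_pos hτ0 k
    have hx1 : ‖w.v + t ^ k‖ < 1 :=
      lt_of_le_of_lt (IsUltrametricDist.norm_add_le_max _ _)
        (max_lt w.norm_lt (by rw [hτk]; exact hτk1))
    set x : Pts L.G := Pts.mk (w.v + t ^ k) hx1 with hx
    set y : Pts L.G := x - w with hy
    have hyn : ‖y.v‖ = ‖t‖ ^ k := by
      rw [hy, norm_sub_law, hx, Pts.v_mk]
      simp [hτk]
    have hpx : p • x = p • y := by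
      have : x = y + w := by rw [hy]; abel
      rw [this, nsmul_add, hpw, add_zero]
    -- the small disc law
    have hs := norm_smalldisc_sub_le L y
    have hnorm1 : ‖(p • y).v‖ = ‖(a : C)‖ * (‖t‖ ^ k) ^ p := by
      have e1 : ‖(a : C) * y.v ^ p‖ = ‖(a : C)‖ * (‖t‖ ^ k) ^ p := by
        rw [norm_mul, norm_pow, hyn]
      rw [← e1]
      apply norm_eq_of_sub_lt
      refine lt_of_le_of_lt hs ?_
      rw [e1, hyn, two_mul, pow_add]
      exact mul_lt_mul_of_pos_right hk2 (pow_pos hτk0 p)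
    have hnorm2 : ‖(p • x).v‖ = ‖Q.eval x.v‖ := by
      have h1 := nsmul_o_eq L 0 x hfac
      have h2 := norm_ev1_unit x.o x.norm_o_lt hh
      rw [Pts.zero_o, sub_zero] at h1
      have h4 : (p • x).v = ((f.eval x.o : OC C) : C) * ((ev1 (RingHom.id _) x.o h : OC C) : C) :=
        congrArg (fun t : OC C => (t : C)) h1
      rw [h4, norm_mul, h2, mul_one, coe_eval_eq]
      rfl
    have hnorm3 : ‖Q.eval x.v‖ = (‖t‖ ^ k) ^ m * ‖R.eval w.v‖ := by
      rw [← hQR, Polynomial.eval_mul, Polynomial.eval_pow, Polynomial.eval_sub, Polynomial.eval_X,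
        Polynomial.eval_C, norm_mul, norm_pow, norm_eq_of_sub_lt (u := R.eval x.v) (v := R.eval w.v)
          (by simpa [hx] using hk1)]
      simp [hx, hτk]
    rw [← hnorm3, ← hnorm2, hpx, hnorm1]
  obtain ⟨k, hk⟩ := eventually_atTop.mp hmain
  have h1 := hk k le_rfl
  have h2 := hk (k + 1) (by omega)
  have hS : 0 < (‖t‖ ^ k) ^ m * ‖R.eval w.v‖ := by positivity
  have h3 : ‖t‖ ^ m = ‖t‖ ^ p := by
    have h4 : ‖t‖ ^ m * ((‖t‖ ^ k) ^ m * ‖R.eval w.v‖) = ‖t‖ ^ p * ((‖t‖ ^ k) ^ m * ‖R.eval w.v‖) := by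
      calc ‖t‖ ^ m * ((‖t‖ ^ k) ^ m * ‖R.eval w.v‖)
          = (‖t‖ ^ (k + 1)) ^ m * ‖R.eval w.v‖ := by rw [pow_succ, mul_pow]; ring
        _ = ‖(a : C)‖ * (‖t‖ ^ (k + 1)) ^ p := h2
        _ = ‖t‖ ^ p * (‖(a : C)‖ * (‖t‖ ^ k) ^ p) := by rw [pow_succ, mul_pow]; ring
        _ = ‖t‖ ^ p * ((‖t‖ ^ k) ^ m * ‖R.eval w.v‖) := by rw [h1]
    exact mul_right_cancel₀ hS.ne' h4
  exact pow_right_injective₀ hτ0 ht1.ne h3

end torsion

/-- The number of `p`-torsion points when the coefficient of `X ^ p` in `[p]` is not zero.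

Proof: Weierstrass preparation for `[p](X) = P(X) U(X)` over `OC C`, `P` monic of degree `p ^ n`; the torsion
points are the roots of `P` in `C`. Each has multiplicity exactly `p`: for `x` near the root `z`, with
`y = x - z` in the group, `‖x - z‖ = ‖y‖` by `norm_sub_law` and
`‖P(x)‖ = ‖p • x‖ = ‖p • y‖ = ‖a‖ ‖y‖ ^ p` by `norm_smalldisc_sub_le`, while `‖P(x)‖ = ‖x - z‖ ^ m * const`
for the multiplicity `m`; compare two values of `x` with different `‖x - z‖` (use `ht`). Hence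
`p ^ n = p * #torsion`. -/
theorem card_torsion (L : Law C p n) (hn : 1 ≤ n) (ht : ∃ t : C, t ≠ 0 ∧ ‖t‖ < 1)
    (ha : PowerSeries.coeff p (mulSeries L.G p) ≠ 0) :
    Nat.card (nsmulAddMonoidHom (α := Pts L.G) p).ker = p ^ (n - 1) := by
  classical
  have hpn : 0 < p ^ n := Nat.pow_pos hp.out.pos
  obtain ⟨f, h, r', hr', hf, hfd, hfl, hh, hfac⟩ := exists_factor_p L ht (0 : Pts L.G)
  set Q := f.map (OC C).subtype with hQ
  have hQ0 : Q ≠ 0 := (hf.map _).ne_zero
  have hQd : Q.natDegree = p ^ n := by rw [hQ, hf.natDegree_map, hfd]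
  have hroot : ∀ w ∈ Q.roots.toFinset, ‖w‖ < 1 := by
    intro w hw
    have h1 : Q.IsRoot w := (Polynomial.mem_roots hQ0).mp (Multiset.mem_toFinset.mp hw)
    exact norm_root_lt hf hr' (by rw [hfd]; exact hfl) h1 (by rw [hfd]; exact hpn)
  have hmemker : ∀ x : Pts L.G, x ∈ (nsmulAddMonoidHom (α := Pts L.G) p).ker ↔ Q.eval x.v = 0 := by
    intro x
    rw [AddMonoidHom.mem_ker, nsmulAddMonoidHom_apply]
    exact nsmul_eq_iff L 0 x hh hfac
  have hcard : Nat.card (nsmulAddMonoidHom (α := Pts L.G) p).ker = Q.roots.toFinset.card := by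
    let e : (nsmulAddMonoidHom (α := Pts L.G) p).ker → {w // w ∈ Q.roots.toFinset} := fun x =>
      ⟨(x : Pts L.G).v, Multiset.mem_toFinset.mpr
        ((Polynomial.mem_roots hQ0).mpr ((hmemker _).mp x.2))⟩
    have he : Function.Bijective e := by
      constructor
      · intro x y hxy
        apply Subtype.ext
        apply Pts.ext
        exact congrArg (fun u : {w // w ∈ Q.roots.toFinset} => u.1) hxy
      · rintro ⟨w, hw⟩
        refine ⟨⟨Pts.mk w (hroot w hw), (hmemker _).mpr ?_⟩, rfl⟩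
        have := (Polynomial.mem_roots hQ0).mp (Multiset.mem_toFinset.mp hw)
        simpa using this
    rw [Nat.card_eq_of_bijective e he, Nat.card_eq_fintype_card, Fintype.card_coe]
  rw [hcard]
  have hsum : ∑ w ∈ Q.roots.toFinset, Q.roots.count w = Q.roots.card :=
    Multiset.toFinset_sum_count_eq _
  have hcount : ∀ w ∈ Q.roots.toFinset, Q.roots.count w = p := by
    intro w hw
    rw [Polynomial.count_roots]
    have := rootMultiplicity_eq L ht ha hf hh hfac (Pts.mk w (hroot w hw))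
      (by
        have := (Polynomial.mem_roots hQ0).mp (Multiset.mem_toFinset.mp hw)
        simpa using this)
    simpa using this
  rw [Finset.sum_congr rfl hcount, Finset.sum_const, IsAlgClosed.card_roots_eq_natDegree, hQd,
    smul_eq_mul] at hsum
  have h5 : p ^ n = p ^ (n - 1) * p := by
    rw [← pow_succ]
    congr 1
    omega
  rw [h5] at hsum
  exact Nat.eq_of_mul_eq_mul_right hp.out.pos hsum

end Vale.Agent.Lib.P217
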