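import Vale.Agent.Lib.P217.Setup
import Vale.Agent.Lib.P217.Weier
import Vale.Agent.Lib.P217.Tors

set_option linter.unusedSectionVars false
set_option linter.unusedVariables false

namespace Vale.Agent.Lib.P217

section adic

variable {k : Type*} [Field k] {N : ℕ}

lemma mem_maxIdeal_iff' (a : MvPowerSeries (Fin N) k) :
    a ∈ IsLocalRing.maximalIdeal (MvPowerSeries (Fin N) k) ↔ MvPowerSeries.constantCoeff a = 0 := by
  rw [IsLocalRing.mem_maximalIdeal, mem_nonunits_iff, MvPowerSeries.isUnit_iff_constantCoeff,
    isUnit_iff_ne_zero, not_not]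

open MvPowerSeries in
lemma coeff_X_mul_eq (i : Fin N) (b : MvPowerSeries (Fin N) k) (d : Fin N →₀ ℕ) :
    coeff d (X i * b) = if d i ≠ 0 then coeff (d - Finsupp.single i 1) b else 0 := by
  classical
  rw [X_def, coeff_monomial_mul]
  by_cases h : d i = 0
  · have h1 : ¬ Finsupp.single i 1 ≤ d := by
      intro hle
      have := hle i
      simp [h] at this
    simp [h, h1]
  · have h1 : Finsupp.single i 1 ≤ d := by
      intro j
      by_cases hj : j = i
      · subst hj
        simp
        omega
      · simp [Ne.symm hj]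
    simp [h, h1]

/-- A power series from its coefficient function. -/
def mkS {σ : Type*} (f : (σ →₀ ℕ) → k) : MvPowerSeries σ k := f

lemma coeff_mkS {σ : Type*} (f : (σ →₀ ℕ) → k) (d : σ →₀ ℕ) :
    MvPowerSeries.coeff d (mkS f) = f d := rfl

open MvPowerSeries in
/-- Split a series in the maximal ideal along the first nonzero index. -/
lemma exists_split (a : MvPowerSeries (Fin N) k) (ha : constantCoeff a = 0) :
    ∃ b : Fin N → MvPowerSeries (Fin N) k, a = ∑ i, X i * b i ∧
      ∀ i (e : Fin N →₀ ℕ), coeff e (b i) = if ∀ j < i, e j = 0 then coeff (e + Finsupp.single i 1) a else 0 := by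
  classical
  refine ⟨fun i => mkS fun e => if ∀ j < i, e j = 0 then coeff (e + Finsupp.single i 1) a else 0, ?_, ?_⟩
  · ext d
    rw [map_sum]
    simp_rw [coeff_X_mul_eq]
    by_cases hd : d = 0
    · subst hd
      simp [ha]
    · have hne : d.support.Nonempty := by
        rwa [Finsupp.support_nonempty_iff]
      set i₀ := d.support.min' hne with hi₀
      have hi₀m : d i₀ ≠ 0 := by
        have := Finset.min'_mem d.support hne
        simpa using this
      have hmin : ∀ j, j < i₀ → d j = 0 := by
        intro j hj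
        by_contra h
        have : i₀ ≤ j := Finset.min'_le d.support j (by simpa using h)
        omega
      rw [Finset.sum_eq_single i₀]
      · rw [if_pos hi₀m]
        rw [coeff_mkS, if_pos]
        · rw [tsub_add_cancel_of_le]
          intro j
          by_cases hj : j = i₀
          · subst hj
            simp
            omega
          · simp [Finsupp.single_apply, Ne.symm hj]
        · intro j hj
          have hne' : j ≠ i₀ := by omega
          simp [Finsupp.single_apply, Ne.symm hne', hmin j hj]
      · intro i _ hi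
        by_cases hdi : d i = 0
        · simp [hdi]
        · rw [if_pos hdi]
          rw [coeff_mkS, if_neg]
          intro hall
          have hlt : i₀ < i := by
            have : i₀ ≤ i := Finset.min'_le d.support i (by simpa using hdi)
            omega
          have := hall i₀ hlt
          have hne' : i₀ ≠ i := by omega
          simp [Finsupp.single_apply, Ne.symm hne'] at this
          exact hi₀m this
      · intro h
        exact absurd (Finset.mem_univ _) h
  · intro i e
    rfl

open MvPowerSeries in
lemma mem_maxIdeal_pow_iff (q : ℕ) (a : MvPowerSeries (Fin N) k) :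
    a ∈ (IsLocalRing.maximalIdeal (MvPowerSeries (Fin N) k)) ^ q ↔
      ∀ d : Fin N →₀ ℕ, d.degree < q → coeff d a = 0 := by
  classical
  induction q generalizing a with
  | zero => simp
  | succ q ih =>
    constructor
    · intro h
      rw [pow_succ] at h
      refine Submodule.mul_induction_on h ?_ ?_
      · intro x hx y hy d hd
        have hy' : constantCoeff y = 0 := (mem_maxIdeal_iff' y).mp hy
        have hx' := (ih x).mp hx
        rw [coeff_mul]
        refine Finset.sum_eq_zero ?_
        rintro ⟨u, v⟩ huv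
        have huv' : u + v = d := by simpa using huv
        by_cases hv : v = 0
        · subst hv
          have : coeff (0 : Fin N →₀ ℕ) y = 0 := by simpa using hy'
          simp [this]
        · have hdv : 1 ≤ v.degree := by
            have : v.degree ≠ 0 := by
              intro h0
              exact hv ((Finsupp.degree_eq_zero_iff v).mp h0)
            omega
          have hdeg : u.degree + v.degree = d.degree := by
            rw [← huv', map_add]
          have : u.degree < q := by omega
          simp [hx' u this]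
      · intro x y hx hy d hd
        rw [map_add, hx d hd, hy d hd, add_zero]
    · intro h
      have h0 : constantCoeff a = 0 := by
        have := h 0 (by simp)
        simpa using this
      obtain ⟨b, hb, hb'⟩ := exists_split a h0
      rw [hb, pow_succ']
      refine Ideal.sum_mem _ ?_
      intro i _
      refine Ideal.mul_mem_mul ?_ ?_
      · rw [mem_maxIdeal_iff']
        simp
      · rw [ih]
        intro e he
        rw [hb']
        split_ifs with hc
        · apply h
          rw [map_add]
          simp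
          omega
        · rfl

/-- The power series ring over a field is complete for its maximal ideal. -/
instance isAdicComplete_maxIdeal :
    IsAdicComplete (IsLocalRing.maximalIdeal (MvPowerSeries (Fin N) k)) (MvPowerSeries (Fin N) k) := by
  classical
  have hs : ∀ (q : ℕ) (x : MvPowerSeries (Fin N) k),
      x ∈ ((IsLocalRing.maximalIdeal (MvPowerSeries (Fin N) k)) ^ q •
        (⊤ : Submodule (MvPowerSeries (Fin N) k) (MvPowerSeries (Fin N) k))) ↔
      ∀ d : Fin N →₀ ℕ, d.degree < q → MvPowerSeries.coeff d x = 0 := by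
    intro q x
    rw [smul_eq_mul, Ideal.mul_top, mem_maxIdeal_pow_iff]
  refine { haus' := ?_, prec' := ?_ }
  · intro x hx
    ext d
    have h1 := hx (d.degree + 1)
    rw [SModEq.zero, hs] at h1
    simpa using h1 d (by omega)
  · intro f hf
    refine ⟨mkS fun d => MvPowerSeries.coeff d (f (d.degree + 1)), ?_⟩
    intro n
    rw [SModEq.sub_mem, hs]
    intro d hd
    rw [map_sub, sub_eq_zero, coeff_mkS]
    have h1 := hf (m := d.degree + 1) (n := n) (by omega)
    rw [SModEq.sub_mem, hs] at h1
    have h2 := h1 d (by omega)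
    rw [map_sub, sub_eq_zero] at h2
    exact h2.symm

end adic

open scoped Topology
open Filter

variable {C : Type*} [NormedField C] [IsUltrametricDist C] [CompleteSpace C]
variable {p n N : ℕ} [hp : Fact p.Prime] [CharP C p] [IsAlgClosed C]
variable {k : Type*} [Field k] [Finite k] [CharP k p]

/-- The point `X` in one variable. -/
noncomputable def ptU {R : Type*} [CommRing R] (F : FormalGroup R) : F.Point Unit :=
  ⟨PowerSeries.X, PowerSeries.HasSubst.X'⟩

lemma mulSeries_eq_point {R : Type*} [CommRing R] (F : FormalGroup R) (m : ℕ) :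
    mulSeries F m = (m • ptU F).val := by
  have h := subst_mulSeries F m (ptU F)
  rw [← h]
  exact (PowerSeries.X_subst _).symm

/-- `[a b] = [a] ∘ [b]`. -/
lemma mulSeries_mul {R : Type*} [CommRing R] (F : FormalGroup R) (a b : ℕ) :
    mulSeries F (a * b) = PowerSeries.subst (mulSeries F b) (mulSeries F a) := by
  have h := subst_mulSeries F a (b • ptU F)
  rw [← mulSeries_eq_point] at h
  rw [h, mulSeries_eq_point F (a * b), mul_nsmul']

lemma mulSeries_one {R : Type*} [CommRing R] (F : FormalGroup R) :
    mulSeries F 1 = PowerSeries.X := by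
  have h := F.zero_add (PowerSeries.HasSubst.X' (R := R))
  have e : mulSeries F 1 = MvPowerSeries.subst ![(mulSeries F 0), (PowerSeries.X : PowerSeries R)]
      F.toPowerSeries := rfl
  rw [e]
  simpa [mulSeries] using h

/-- `[p^R]_Γ = X ^ (p^(n R))`.  By induction with `[a b] = [a] ∘ [b]`. -/
theorem mulSeries_pow_Γ {Γ : FormalGroup k} [Γ.IsComm] (hΓp : mulSeries Γ p = PowerSeries.X ^ (p ^ n)) (R : ℕ) :
    mulSeries Γ (p ^ R) = PowerSeries.X ^ (p ^ (n * R)) := by
  induction R with
  | zero => simpa using mulSeries_one Γ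
  | succ R ih =>
    have hs : PowerSeries.HasSubst (PowerSeries.X ^ (p ^ n) : PowerSeries k) :=
      PowerSeries.HasSubst.X_pow (pow_ne_zero _ hp.out.ne_zero)
    rw [pow_succ, mulSeries_mul, ih, hΓp, PowerSeries.subst_pow hs, PowerSeries.subst_X hs, ← pow_mul,
      ← pow_add]
    congr 2
    ring

/-- Weierstrass preparation for `[p^R]_F` over `A`: a monic polynomial with lower coefficients in the maximal ideal, times a unit.
Use `exists_weierstrass_at` with `I = maximalIdeal`, `IsAdicComplete` from `MvPowerSeries` (search Mathlib for `IsAdicComplete` and `MvPowerSeries`; with `maximalIdeal_eq_span_X`).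
The coefficient of `[p^R]_F` at `p^(n R)` is a unit, lower ones are in the maximal ideal, by `mulSeries_map`, `S.hF` and `mulSeries_pow_Γ`. -/
theorem exists_weierstrass_F (S : Setting C p n N k) (R : ℕ) :
    ∃ (P : Polynomial (MvPowerSeries (Fin N) k)) (U : PowerSeries (MvPowerSeries (Fin N) k)),
      P.Monic ∧ (∀ j, j < P.natDegree → MvPowerSeries.constantCoeff (P.coeff j) = 0) ∧ IsUnit U ∧
      mulSeries S.F (p ^ R) = (P : PowerSeries (MvPowerSeries (Fin N) k)) * U := by
  have h0 : ∀ j, MvPowerSeries.constantCoeff (PowerSeries.coeff j (mulSeries S.F (p ^ R))) =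
      if j = p ^ (n * R) then (1 : k) else 0 := by
    intro j
    have h1 := congrArg (PowerSeries.coeff j) (mulSeries_map MvPowerSeries.constantCoeff S.F (p ^ R))
    rw [S.hF, mulSeries_pow_Γ S.hΓp, PowerSeries.coeff_X_pow, PowerSeries.coeff_map] at h1
    exact h1.symm
  have hI : IsLocalRing.maximalIdeal (MvPowerSeries (Fin N) k) ≠ ⊤ :=
    (IsLocalRing.maximalIdeal.isMaximal _).ne_top
  have hd : IsUnit (PowerSeries.coeff (p ^ (n * R)) (mulSeries S.F (p ^ R))) := by
    rw [MvPowerSeries.isUnit_iff_constantCoeff, h0, if_pos rfl]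
    exact isUnit_one
  have hlow : ∀ j < p ^ (n * R), PowerSeries.coeff j (mulSeries S.F (p ^ R)) ∈
      IsLocalRing.maximalIdeal (MvPowerSeries (Fin N) k) := by
    intro j hj
    rw [mem_maxIdeal_iff', h0, if_neg hj.ne]
  obtain ⟨f, h, hf, hfd, hfl, hu, he⟩ := exists_weierstrass_at hI _ _ hd hlow
  refine ⟨f, h, hf, ?_, hu, he⟩
  intro j hj
  rw [hfd] at hj
  exact (mem_maxIdeal_iff' _).mp (hfl j hj)

/-- Roots of `P^φ` for a monic `P` with lower coefficients in the maximal ideal lie in the open ball. -/
theorem norm_lt_of_root {S : Setting C p n N k} {φ} (hφ : Adm S φ) (P : Polynomial (MvPowerSeries (Fin N) k))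
    (hP : P.Monic) (hP0 : ∀ j, j < P.natDegree → MvPowerSeries.constantCoeff (P.coeff j) = 0)
    (x : C) (hx : Polynomial.eval₂ ((OC C).subtype.comp φ) x P = 0) : ‖x‖ < 1 := by
  by_contra hcon
  push Not at hcon
  rw [Polynomial.eval₂_eq_sum_range, Finset.sum_range_succ, hP.coeff_natDegree] at hx
  simp only [RingHom.comp_apply, map_one, one_mul] at hx
  have hx' : x ^ P.natDegree = - ∑ i ∈ Finset.range P.natDegree,
      (OC C).subtype (φ (P.coeff i)) * x ^ i := by
    linear_combination hx
  set d := P.natDegree with hd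
  rcases Nat.eq_zero_or_pos d with h0 | hpos
  · rw [h0] at hx'
    simp at hx'
  · obtain ⟨e, he⟩ : ∃ e, d = e + 1 := ⟨d - 1, by omega⟩
    have hpos' : 0 < ‖x‖ := by linarith
    have hbound : ‖x ^ d‖ ≤ S.c * ‖x‖ ^ e := by
      rw [hx', norm_neg]
      refine IsUltrametricDist.norm_sum_le_of_forall_le_of_nonneg
        (mul_nonneg S.c0 (by positivity)) ?_
      intro i hi
      have hi' : i < d := Finset.mem_range.mp hi
      rw [norm_mul, norm_pow]
      refine mul_le_mul (hφ.hc _ (hP0 i hi')) ?_ (by positivity) S.c0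
      exact pow_le_pow_right₀ hcon (by omega)
    rw [norm_pow, he, pow_succ] at hbound
    have h5 : 0 < ‖x‖ ^ e := by positivity
    have h6 : ‖x‖ ≤ S.c := by
      have : ‖x‖ ^ e * ‖x‖ ≤ ‖x‖ ^ e * S.c := by linarith
      exact le_of_mul_le_mul_left this h5
    have := S.c1
    linarith

lemma ev1_coe_polynomial {B : Type*} [CommRing B] (φ : B →+* OC C) {x : OC C} (hx : ‖(x : C)‖ < 1)
    (P : Polynomial B) :
    ev1 φ x (P : PowerSeries B) = Polynomial.eval₂ φ x P := by
  have hb : ∀ _ : Unit, ‖(x : C)‖ < 1 := fun _ => hx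
  induction P using Polynomial.induction_on with
  | C a =>
    rw [Polynomial.coe_C, ev1_C, Polynomial.eval₂_C]
  | add p q hp hq =>
    rw [Polynomial.coe_add, Polynomial.eval₂_add, ← hp, ← hq]
    exact Ev_add φ (fun _ : Unit => x) hb _ _
  | monomial m a h =>
    have e : (Polynomial.C a * Polynomial.X ^ (m + 1) : Polynomial B) =
        Polynomial.C a * Polynomial.X ^ m * Polynomial.X := by ring
    rw [e, Polynomial.coe_mul, Polynomial.coe_X, Polynomial.eval₂_mul, Polynomial.eval₂_X, ← h]
    refine (Ev_mul φ (fun _ : Unit => x) hb _ _).trans ?_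
    rw [show Ev φ (fun _ : Unit => x) PowerSeries.X = x from ev1_X φ x]
    rfl

/-- Torsion points are the roots of `P^φ`: as `U` is a unit, its value at a point is a unit in `OC C`. -/
theorem torsion_iff_root {S : Setting C p n N k} {φ} (hφ : Adm S φ) {R : ℕ} (P : Polynomial (MvPowerSeries (Fin N) k))
    (U : PowerSeries (MvPowerSeries (Fin N) k)) (hU : IsUnit U)
    (h : mulSeries S.F (p ^ R) = (P : PowerSeries (MvPowerSeries (Fin N) k)) * U) (x : Pts (lawOf S φ hφ).G) :
    (p ^ R) • x = 0 ↔ Polynomial.eval₂ ((OC C).subtype.comp φ) x.v P = 0 := by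
  have hb : ∀ _ : Unit, ‖(x.o : C)‖ < 1 := fun _ => x.norm_lt
  have h1 : ((p ^ R) • x).o = ev1 φ x.o (mulSeries S.F (p ^ R)) := by
    have h2 := ev1_mulSeries (G := (lawOf S φ hφ).G) x (p ^ R)
    rw [← h2]
    have h3 : mulSeries (lawOf S φ hφ).G (p ^ R) = PowerSeries.map φ (mulSeries S.F (p ^ R)) :=
      mulSeries_map φ S.F (p ^ R)
    rw [h3]
    exact Ev_map φ (RingHom.id (OC C)) (fun _ : Unit => x.o) hb _
  have h4 : ev1 φ x.o (mulSeries S.F (p ^ R)) = Polynomial.eval₂ φ x.o P * ev1 φ x.o U := by
    rw [h, ← ev1_coe_polynomial φ (x := x.o) x.norm_lt P]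
    exact Ev_mul φ (fun _ : Unit => x.o) hb _ _
  have h5 : IsUnit (ev1 φ x.o U) := by
    have := hU.map (EvHom φ (fun _ : Unit => x.o) hb)
    rwa [EvHom_apply] at this
  have h6 : Polynomial.eval₂ ((OC C).subtype.comp φ) x.v P =
      ((Polynomial.eval₂ φ x.o P : OC C) : C) := by
    have := Polynomial.hom_eval₂ P φ (OC C).subtype x.o
    exact this.symm
  rw [h6]
  constructor
  · intro hz
    have h7 : ((p ^ R) • x).o = 0 := by rw [hz]; rfl
    rw [h1, h4] at h7
    have h8 := (h5.mul_left_eq_zero).mp h7
    rw [h8]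
    rfl
  · intro hz
    apply Pts.ext
    have h8 : Polynomial.eval₂ φ x.o P = 0 := Subtype.ext hz
    have h9 : ((p ^ R) • x).o = 0 := by rw [h1, h4, h8, zero_mul]
    exact congrArg (fun t : OC C => (t : C)) h9

/-- Number of `p^R`-torsion points. By induction on `R`, with `nsmul_p_surjective` and `card_torsion`. -/
theorem card_torsion_pow (L : Law C p n) (hn : 1 ≤ n) (ht : ∃ t : C, t ≠ 0 ∧ ‖t‖ < 1)
    (ha : PowerSeries.coeff p (mulSeries L.G p) ≠ 0) (R : ℕ) :
    Finite (nsmulAddMonoidHom (α := Pts L.G) (p ^ R)).ker ∧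
      Nat.card (nsmulAddMonoidHom (α := Pts L.G) (p ^ R)).ker = (p ^ (n - 1)) ^ R := by
  have hc1 := card_torsion L hn ht ha
  have hp0 : p ^ (n - 1) ≠ 0 := pow_ne_zero _ hp.out.ne_zero
  have hfin1 : Finite (nsmulAddMonoidHom (α := Pts L.G) p).ker :=
    Nat.finite_of_card_ne_zero (by rw [hc1]; exact hp0)
  induction R with
  | zero =>
    have hs : Subsingleton (nsmulAddMonoidHom (α := Pts L.G) (p ^ 0)).ker := by
      refine ⟨fun a b => Subtype.ext ?_⟩
      have ha' := a.2
      have hb' := b.2
      rw [AddMonoidHom.mem_ker] at ha' hb'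
      simp only [pow_zero, nsmulAddMonoidHom_apply, one_smul] at ha' hb'
      rw [ha', hb']
    refine ⟨inferInstance, ?_⟩
    rw [pow_zero (p ^ (n - 1))]
    exact Nat.card_eq_one_iff_unique.mpr ⟨hs, ⟨⟨0, zero_mem _⟩⟩⟩
  | succ R ih =>
    obtain ⟨hfin, hcard⟩ := ih
    -- the map `[p]` from `ker [p^(R+1)]` to `ker [p^R]`
    let g : (nsmulAddMonoidHom (α := Pts L.G) (p ^ (R + 1))).ker →+
        (nsmulAddMonoidHom (α := Pts L.G) (p ^ R)).ker :=
      AddMonoidHom.mk' (fun x => ⟨p • x.1, by
        have hx := x.2
        rw [AddMonoidHom.mem_ker] at hx ⊢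
        simp only [nsmulAddMonoidHom_apply] at hx ⊢
        rw [← mul_nsmul', ← pow_succ]
        exact hx⟩) (by
        intro x y
        apply Subtype.ext
        simp [nsmul_add])
    have hg : Function.Surjective g := by
      intro y
      obtain ⟨z, hz⟩ := nsmul_p_surjective L hn ht y.1
      have hz2 : z ∈ (nsmulAddMonoidHom (α := Pts L.G) (p ^ (R + 1))).ker := by
        have hy := y.2
        rw [AddMonoidHom.mem_ker] at hy ⊢
        simp only [nsmulAddMonoidHom_apply] at hy ⊢
        rw [pow_succ, mul_nsmul', hz]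
        exact hy
      exact ⟨⟨z, hz2⟩, Subtype.ext hz⟩
    -- the kernel of `g` is the `p`-torsion
    let e : g.ker ≃ (nsmulAddMonoidHom (α := Pts L.G) p).ker :=
      { toFun := fun x => ⟨x.1.1, by
          have hx := x.2
          rw [AddMonoidHom.mem_ker] at hx ⊢
          have := congrArg Subtype.val hx
          exact this⟩
        invFun := fun x => ⟨⟨x.1, by
          have hx := x.2
          rw [AddMonoidHom.mem_ker] at hx ⊢
          simp only [nsmulAddMonoidHom_apply] at hx ⊢
          rw [pow_succ', mul_nsmul', smul_comm, hx, smul_zero]⟩, by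
          rw [AddMonoidHom.mem_ker]
          apply Subtype.ext
          exact x.2⟩
        left_inv := fun x => rfl
        right_inv := fun x => rfl }
    have hker : Finite g.ker := Finite.of_equiv _ e.symm
    let e2 := QuotientAddGroup.quotientKerEquivOfSurjective g hg
    have hquot : Finite (_ ⧸ g.ker) := Finite.of_equiv _ e2.symm.toEquiv
    have hfinal : Finite (nsmulAddMonoidHom (α := Pts L.G) (p ^ (R + 1))).ker :=
      Finite.of_addSubgroup_quotient g.ker
    refine ⟨hfinal, ?_⟩
    rw [AddSubgroup.card_eq_card_quotient_mul_card_addSubgroup g.ker, Nat.card_congr e2.toEquiv,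
      Nat.card_congr e, hcard, hc1, pow_succ]

/-- A homomorphism of laws with a unit linear coefficient is injective: for `x ≠ 0`, `‖K x‖ = ‖x‖`. -/
theorem norm_evHom_eq_of_unit {L L' : Law C p n} (f : PowerSeries (OC C)) (h : IsHom L.G L'.G f)
    (hu : ‖((PowerSeries.coeff 1 f : OC C) : C)‖ = 1) (x : Pts L.G) :
    ‖(evHom f h x).v‖ = ‖x.v‖ := by
  have hval : (evHom f h x).v = ((ev1 (RingHom.id _) x.o f : OC C) : C) := rfl
  by_cases hx0 : x.v = 0
  · have h1 := norm_ev1_le f h.constantCoeff_eq x
    rw [hval]
    rw [hx0, norm_zero] at h1 ⊢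
    exact le_antisymm h1 (norm_nonneg _)
  · have hxpos : 0 < ‖x.v‖ := norm_pos_iff.mpr hx0
    have hlt : ‖x.v‖ ^ 2 < ‖x.v‖ := by
      have := x.norm_lt
      nlinarith
    have h1 := hasSum_ev1 (RingHom.id (OC C)) x.norm_o_lt f
    set a := PowerSeries.coeff 1 f with ha
    have h2 : HasSum (fun j : ℕ => if j = 1 then a * x.o ^ 1 else 0) (a * x.o ^ 1) :=
      hasSum_ite_eq 1 _
    have hnn : (0 : ℝ) ≤ ‖x.v‖ ^ 2 := by positivity
    have h3 := norm_sum_le_of_hasSum (h1.sub h2) hnn ?_
    · have e1 : (evHom f h x).v = ((ev1 (RingHom.id _) x.o f - a * x.o ^ 1 : OC C) : C) +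
          (a : C) * x.v := by
        rw [hval]
        have : ((ev1 (RingHom.id _) x.o f - a * x.o ^ 1 : OC C) : C) =
            ((ev1 (RingHom.id _) x.o f : OC C) : C) - (a : C) * x.v := by
          have e3 : ((a * x.o ^ 1 : OC C) : C) = (a : C) * x.v := by
            simp only [pow_one]
            rfl
          rw [← e3]
          rfl
        rw [this]
        ring
      have e2 : ‖(a : C) * x.v‖ = ‖x.v‖ := by rw [norm_mul, hu, one_mul]
      rw [e1]
      have hne : ‖((ev1 (RingHom.id _) x.o f - a * x.o ^ 1 : OC C) : C)‖ ≠ ‖(a : C) * x.v‖ := by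
        rw [e2]
        exact (lt_of_le_of_lt h3 hlt).ne
      rw [IsUltrametricDist.norm_add_eq_max_of_norm_ne_norm hne, e2]
      exact max_eq_right (h3.trans hlt.le)
    · intro j
      by_cases hj : j = 1
      · subst hj
        simp only [if_true, RingHom.id_apply, ← ha, sub_self]
        simpa using hnn
      · simp only [if_neg hj, sub_zero, RingHom.id_apply]
        rcases j with _ | _ | j
        · have h0 : PowerSeries.coeff 0 f = 0 := by simpa using h.constantCoeff_eq
          rw [h0]
          simpa using hnn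
        · simp at hj
        · have e : ((PowerSeries.coeff (j + 1 + 1) f * x.o ^ (j + 1 + 1) : OC C) : C)
              = ((PowerSeries.coeff (j + 1 + 1) f : OC C) : C) * x.v ^ (j + 1 + 1) := by
            push_cast; rfl
          rw [e, norm_mul, norm_pow]
          have h4 : ‖x.v‖ ^ (j + 1 + 1) ≤ ‖x.v‖ ^ 2 :=
            pow_le_pow_of_le_one (norm_nonneg _) x.norm_lt.le (by omega)
          exact (mul_le_of_le_one_left (by positivity) (norm_OC_le _)).trans h4

end Vale.Agent.Lib.P217
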