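import Vale.Agent.Lib.P217.Iter
import Vale.Agent.Lib.P217.WeierA
import Vale.Agent.Lib.P217.SigmaLemma

set_option linter.unusedSectionVars false
set_option linter.unusedVariables false

namespace Vale.Agent.Lib.P217

open scoped Topology
open Filter

variable {C : Type*} [NormedField C] [IsUltrametricDist C] [CompleteSpace C]
variable {p n N : ℕ} [hp : Fact p.Prime] [CharP C p] [IsAlgClosed C]
variable {k : Type*} [Field k] [Finite k] [CharP k p]

/-- The ring `S = φ(A)[torsion]` with the ring map `σ` covering `τ`, such that `σ^m` acts on torsion points as the iterate of `K`, for `m` divisible by `O`. -/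
structure SigmaData {S : Setting C p n N k} {φ₀ : MvPowerSeries (Fin N) k →+* OC C} (hφ₀ : Adm S φ₀)
    (τ : MvPowerSeries (Fin N) k ≃ₐ[k] MvPowerSeries (Fin N) k) (K : PowerSeries (MvPowerSeries (Fin N) k)) (R : ℕ) where
  /-- the ring -/
  Sr : Subring C
  /-- number of generators -/
  w : ℕ
  /-- module generators over `φ(A)` -/
  fam : Fin w → Sr
  hS : ∀ s : Sr, ∃ r : Fin w → MvPowerSeries (Fin N) k, (s : C) = ∑ f, ((φ₀ (r f) : OC C) : C) * (fam f : C)
  hφS : ∀ a, ((φ₀ a : OC C) : C) ∈ Sr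
  hT : ∀ x : Pts (lawSeq hφ₀ τ 0).G, (p ^ R) • x = 0 → x.v ∈ Sr
  /-- the ring map covering `τ` -/
  σ : Sr →+* Sr
  hσ : ∀ a, σ ⟨((φ₀ a : OC C) : C), hφS a⟩ = ⟨((φ₀ (τ a) : OC C) : C), hφS _⟩
  /-- a period -/
  O : ℕ
  hO : 0 < O
  hiter : ∀ (m : ℕ), O ∣ m → ∀ (x : Pts (lawSeq hφ₀ τ 0).G) (hx : (p ^ R) • x = 0),
    (((σ ^ m) ⟨x.v, hT x hx⟩ : Sr) : C) = (Kit φ₀ τ K m x.o : OC C)

section abstract

/-- Extension of ring maps along integral extensions into an algebraically closed field. -/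
theorem exists_lift_aux {A S M : Type*} [CommRing A] [CommRing S] [IsDomain S] [Field M] [IsAlgClosed M]
    (i : A →+* S) (hint : i.IsIntegral) (β : A →+* M) (hker : ∀ a, i a = 0 ↔ β a = 0) :
    ∃ σ₀ : S →+* M, Function.Injective σ₀ ∧ ∀ a, σ₀ (i a) = β a := by
  let I := RingHom.ker i
  have : I.IsPrime := RingHom.ker_isPrime i
  let R := A ⧸ I
  let i' : R →+* S := Ideal.Quotient.lift I i (fun a ha => ha)
  let β' : R →+* M := Ideal.Quotient.lift I β (fun a ha => (hker a).1 ha)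
  have hi' : Function.Injective i' := by
    rw [injective_iff_map_eq_zero]
    intro x
    obtain ⟨a, rfl⟩ := Ideal.Quotient.mk_surjective x
    intro h
    have h1 : i a = 0 := h
    exact Ideal.Quotient.eq_zero_iff_mem.mpr h1
  have hβ' : Function.Injective β' := by
    rw [injective_iff_map_eq_zero]
    intro x
    obtain ⟨a, rfl⟩ := Ideal.Quotient.mk_surjective x
    intro h
    have h1 : β a = 0 := h
    exact Ideal.Quotient.eq_zero_iff_mem.mpr ((hker a).2 h1)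
  let _ : Algebra R S := i'.toAlgebra
  let _ : Algebra R M := β'.toAlgebra
  have : FaithfulSMul R S := (faithfulSMul_iff_algebraMap_injective R S).mpr hi'
  have : FaithfulSMul R M := (faithfulSMul_iff_algebraMap_injective R M).mpr hβ'
  have : IsDomain R := inferInstance
  have : Algebra.IsIntegral R S := ⟨fun s => by
    obtain ⟨P, hP, hPs⟩ := hint s
    refine ⟨P.map (Ideal.Quotient.mk I), hP.map _, ?_⟩
    rw [Polynomial.eval₂_map]
    exact hPs⟩
  have : Algebra.IsAlgebraic R S := inferInstance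
  let f : S →ₐ[R] M := IsAlgClosed.lift
  refine ⟨f.toRingHom, ?_, ?_⟩
  · rw [injective_iff_map_eq_zero]
    intro s hs
    have hk : RingHom.ker f.toRingHom = ⊥ := by
      apply Ideal.eq_bot_of_comap_eq_bot (R := R)
      rw [eq_bot_iff]
      intro x hx
      have h1 : f.toRingHom (algebraMap R S x) = 0 := hx
      have h2 : algebraMap R M x = 0 := by
        rw [← f.commutes]; exact h1
      have := hβ' (h2.trans (map_zero β').symm)
      simpa using this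
    have : s ∈ RingHom.ker f.toRingHom := hs
    rw [hk] at this
    simpa using this
  · intro a
    exact f.commutes (Ideal.Quotient.mk I a)

/-- The subring generated over the image of `ψ` by finitely many integral elements is a finite module. -/
theorem exists_finite_subring {A D : Type*} [CommRing A] [Field D] (ψ : A →+* D) (T : Set D) (hT : T.Finite)
    (hint : ∀ t ∈ T, ψ.IsIntegralElem t) :
    ∃ (Sr : Subring D) (w : ℕ) (fam : Fin w → Sr),
      (∀ s : Sr, ∃ r : Fin w → A, (s : D) = ∑ f, ψ (r f) * (fam f : D)) ∧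
      (∀ a, ψ a ∈ Sr) ∧ T ⊆ Sr ∧
      (∀ s : Sr, ψ.IsIntegralElem s) ∧
      (∀ S' : Subring D, (∀ a, ψ a ∈ S') → T ⊆ S' → Sr ≤ S') := by
  let _ : Algebra A D := ψ.toAlgebra
  let Sa := Algebra.adjoin A T
  have hfg : (Subalgebra.toSubmodule Sa).FG := fg_adjoin_of_finite hT (fun t ht => hint t ht)
  obtain ⟨w, g, hg⟩ := Submodule.fg_iff_exists_fin_generating_family.mp hfg
  have hgm : ∀ f, g f ∈ Sa := fun f => by
    have : g f ∈ Subalgebra.toSubmodule Sa := hg ▸ Submodule.subset_span ⟨f, rfl⟩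
    exact this
  refine ⟨Sa.toSubring, w, fun f => ⟨g f, hgm f⟩, ?_, ?_, ?_, ?_, ?_⟩
  · intro s
    have h1 : (s : D) ∈ Submodule.span A (Set.range g) := by
      rw [hg]; exact s.2
    obtain ⟨r, hr⟩ := (Submodule.mem_span_range_iff_exists_fun A).mp h1
    refine ⟨r, ?_⟩
    rw [← hr]
    refine Finset.sum_congr rfl fun f _ => ?_
    rw [Algebra.smul_def]
    rfl
  · intro a
    exact Sa.algebraMap_mem a
  · exact Algebra.subset_adjoin
  · intro s
    have h1 : (s : D) ∈ integralClosure A D :=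
      (Algebra.adjoin_le (fun t ht => hint t ht) : Sa ≤ integralClosure A D) s.2
    exact h1
  · intro S' h1 h2
    let Sb : Subalgebra A D := { S' with algebraMap_mem' := h1 }
    have h3 : Sa ≤ Sb := Algebra.adjoin_le h2
    intro x hx
    exact h3 hx

lemma exists_iterate_eq_id {X : Type*} [Finite X] (θ : X → X) (h : Function.Injective θ) :
    ∃ O : ℕ, 0 < O ∧ ∀ m, O ∣ m → θ^[m] = id := by
  have hb : Function.Bijective θ := Finite.injective_iff_bijective.mp h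
  let e : Equiv.Perm X := Equiv.ofBijective θ hb
  have := Fintype.ofFinite X
  refine ⟨orderOf e, orderOf_pos e, ?_⟩
  rintro m ⟨q, rfl⟩
  have h1 : θ = e := rfl
  rw [h1, Equiv.Perm.iterate_eq_pow, pow_mul, pow_orderOf_eq_one, one_pow]
  rfl

end abstract

section kit

lemma constantCoeff_tau (τ : MvPowerSeries (Fin N) k ≃ₐ[k] MvPowerSeries (Fin N) k) (a : MvPowerSeries (Fin N) k)
    (ha : MvPowerSeries.constantCoeff a = 0) : MvPowerSeries.constantCoeff (τ a) = 0 := by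
  by_contra h
  have h1 : IsUnit (τ a) := MvPowerSeries.isUnit_iff_constantCoeff.mpr (isUnit_iff_ne_zero.mpr h)
  have h2 : IsUnit a := by
    have := h1.map (τ.symm : MvPowerSeries (Fin N) k →+* MvPowerSeries (Fin N) k)
    simpa using this
  have h3 := MvPowerSeries.isUnit_iff_constantCoeff.mp h2
  rw [ha] at h3
  exact not_isUnit_zero h3

lemma tau_C (τ : MvPowerSeries (Fin N) k ≃ₐ[k] MvPowerSeries (Fin N) k) (r : k) :
    τ (MvPowerSeries.C r) = MvPowerSeries.C r := by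
  have := τ.commutes r
  simpa [MvPowerSeries.algebraMap_apply] using this

lemma phiSeq_phiSeq (φ₀ : MvPowerSeries (Fin N) k →+* OC C) (τ : MvPowerSeries (Fin N) k ≃ₐ[k] MvPowerSeries (Fin N) k)
    (a m : ℕ) : phiSeq (phiSeq φ₀ τ a) τ m = phiSeq φ₀ τ (a + m) := by
  induction m with
  | zero => rfl
  | succ m ih =>
    have : a + (m + 1) = (a + m) + 1 := rfl
    rw [this]
    simp only [phiSeq]
    rw [ih]

lemma Kit_succ' (φ : MvPowerSeries (Fin N) k →+* OC C) (τ : MvPowerSeries (Fin N) k ≃ₐ[k] MvPowerSeries (Fin N) k)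
    (K : PowerSeries (MvPowerSeries (Fin N) k)) (m : ℕ) (x : OC C) :
    Kit φ τ K (m + 1) x = Kit (phiSeq φ τ 1) τ K m (ev1 φ x K) := by
  induction m with
  | zero => rfl
  | succ m ih =>
    rw [Kit, ih, Kit, phiSeq_phiSeq, add_comm 1 m]

lemma phiSeq_eq_comp (φ₀ : MvPowerSeries (Fin N) k →+* OC C) (τ : MvPowerSeries (Fin N) k ≃ₐ[k] MvPowerSeries (Fin N) k)
    (b : ℕ) : phiSeq φ₀ τ b = φ₀.comp ((τ ^ b : MvPowerSeries (Fin N) k ≃ₐ[k] MvPowerSeries (Fin N) k) : MvPowerSeries (Fin N) k →+* MvPowerSeries (Fin N) k) := by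
  apply RingHom.ext
  intro a
  rw [phiSeq_apply]
  rfl

lemma phiSeq_succ_eq_comp (φ₀ : MvPowerSeries (Fin N) k →+* OC C) (τ : MvPowerSeries (Fin N) k ≃ₐ[k] MvPowerSeries (Fin N) k)
    (b : ℕ) : phiSeq φ₀ τ (b + 1) = (φ₀.comp (τ : MvPowerSeries (Fin N) k →+* MvPowerSeries (Fin N) k)).comp
      ((τ ^ b : MvPowerSeries (Fin N) k ≃ₐ[k] MvPowerSeries (Fin N) k) : MvPowerSeries (Fin N) k →+* MvPowerSeries (Fin N) k) := by
  apply RingHom.ext
  intro a
  rw [phiSeq_apply, pow_succ']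
  rfl

/-- One step: `σ` commutes with evaluation of `K` through the twisted maps. -/
theorem sigma_ev1_step {S : Setting C p n N k} {φ₀ : MvPowerSeries (Fin N) k →+* OC C} (hφ₀ : Adm S φ₀)
    (τ : MvPowerSeries (Fin N) k ≃ₐ[k] MvPowerSeries (Fin N) k) (K : PowerSeries (MvPowerSeries (Fin N) k))
    (Sr : Subring C) {w : ℕ} (fam : Fin w → Sr)
    (hS : ∀ s : Sr, ∃ r : Fin w → MvPowerSeries (Fin N) k, (s : C) = ∑ f, ((φ₀ (r f) : OC C) : C) * (fam f : C))
    (hφS : ∀ a, ((φ₀ a : OC C) : C) ∈ Sr) (σ : Sr →+* Sr)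
    (hσ : ∀ a, σ ⟨((φ₀ a : OC C) : C), hφS a⟩ = ⟨((φ₀ (τ a) : OC C) : C), hφS _⟩)
    (b : ℕ) (y y' : OC C) (hyS : (y : C) ∈ Sr) (hy : ‖(y : C)‖ < 1) (hy' : ‖(y' : C)‖ < 1)
    (hyy : (y' : C) = σ ⟨y, hyS⟩) :
    ∃ h : ((ev1 (phiSeq φ₀ τ b) y K : OC C) : C) ∈ Sr,
      ((ev1 (phiSeq φ₀ τ (b + 1)) y' K : OC C) : C) = σ ⟨_, h⟩ := by
  have h1 := sigma_Ev' φ₀ S.c0 S.c1 hφ₀.hc Sr fam hS hφS (τ : MvPowerSeries (Fin N) k →+* MvPowerSeries (Fin N) k)
    (constantCoeff_tau τ) (tau_C τ) σ hσ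
    (PowerSeries.map ((τ ^ b : MvPowerSeries (Fin N) k ≃ₐ[k] MvPowerSeries (Fin N) k) : MvPowerSeries (Fin N) k →+* MvPowerSeries (Fin N) k) K :
      MvPowerSeries Unit (MvPowerSeries (Fin N) k))
    (fun _ : Unit => y) (fun _ : Unit => y') (fun _ => hyS) (fun _ => hy) (fun _ => hy') (fun _ => hyy)
  have e1 : Ev φ₀ (fun _ : Unit => y) (PowerSeries.map ((τ ^ b : MvPowerSeries (Fin N) k ≃ₐ[k] MvPowerSeries (Fin N) k) : MvPowerSeries (Fin N) k →+* MvPowerSeries (Fin N) k) K :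
      MvPowerSeries Unit (MvPowerSeries (Fin N) k)) = ev1 (phiSeq φ₀ τ b) y K := by
    rw [phiSeq_eq_comp]
    exact Ev_map _ φ₀ (fun _ : Unit => y) (fun _ => hy) K
  have e2 : Ev (φ₀.comp (τ : MvPowerSeries (Fin N) k →+* MvPowerSeries (Fin N) k)) (fun _ : Unit => y') (PowerSeries.map ((τ ^ b : MvPowerSeries (Fin N) k ≃ₐ[k] MvPowerSeries (Fin N) k) : MvPowerSeries (Fin N) k →+* MvPowerSeries (Fin N) k) K :
      MvPowerSeries Unit (MvPowerSeries (Fin N) k)) = ev1 (phiSeq φ₀ τ (b + 1)) y' K := by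
    rw [phiSeq_succ_eq_comp]
    exact Ev_map _ _ (fun _ : Unit => y') (fun _ => hy') K
  rw [e1, e2] at h1
  exact h1

/-- `σ` commutes with the iterates of `K`. -/
theorem sigma_Kit {S : Setting C p n N k} {φ₀ : MvPowerSeries (Fin N) k →+* OC C} (hφ₀ : Adm S φ₀)
    (τ : MvPowerSeries (Fin N) k ≃ₐ[k] MvPowerSeries (Fin N) k) (K : PowerSeries (MvPowerSeries (Fin N) k))
    (hK : PowerSeries.constantCoeff K = 0)
    (Sr : Subring C) {w : ℕ} (fam : Fin w → Sr)
    (hS : ∀ s : Sr, ∃ r : Fin w → MvPowerSeries (Fin N) k, (s : C) = ∑ f, ((φ₀ (r f) : OC C) : C) * (fam f : C))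
    (hφS : ∀ a, ((φ₀ a : OC C) : C) ∈ Sr) (σ : Sr →+* Sr)
    (hσ : ∀ a, σ ⟨((φ₀ a : OC C) : C), hφS a⟩ = ⟨((φ₀ (τ a) : OC C) : C), hφS _⟩)
    (a m : ℕ) (y y' : OC C) (hyS : (y : C) ∈ Sr) (hy : ‖(y : C)‖ < 1) (hy' : ‖(y' : C)‖ < 1)
    (hyy : (y' : C) = σ ⟨y, hyS⟩) :
    ∃ h : ((Kit (phiSeq φ₀ τ a) τ K m y : OC C) : C) ∈ Sr,
      ((Kit (phiSeq φ₀ τ (a + 1)) τ K m y' : OC C) : C) = σ ⟨_, h⟩ := by
  induction m with
  | zero => exact ⟨hyS, hyy⟩
  | succ m ih =>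
    obtain ⟨h1, h2⟩ := ih
    have n1 := norm_Kit_le (phiSeq φ₀ τ a) τ K hK m y hy
    have n2 := norm_Kit_le (phiSeq φ₀ τ (a + 1)) τ K hK m y' hy'
    have h3 := sigma_ev1_step hφ₀ τ K Sr fam hS hφS σ hσ (a + m)
      (Kit (phiSeq φ₀ τ a) τ K m y) (Kit (phiSeq φ₀ τ (a + 1)) τ K m y') h1
      (lt_of_le_of_lt n1 hy) (lt_of_le_of_lt n2 hy') h2
    have e1 : Kit (phiSeq φ₀ τ a) τ K (m + 1) y = ev1 (phiSeq φ₀ τ (a + m)) (Kit (phiSeq φ₀ τ a) τ K m y) K := by
      rw [Kit, phiSeq_phiSeq]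
    have e2 : Kit (phiSeq φ₀ τ (a + 1)) τ K (m + 1) y' = ev1 (phiSeq φ₀ τ (a + m + 1)) (Kit (phiSeq φ₀ τ (a + 1)) τ K m y') K := by
      rw [Kit, phiSeq_phiSeq]
      congr 2
      omega
    rw [e1, e2]
    exact h3

end kit

section torsion

variable (L L' : Law C p n)

/-- Finiteness and cardinal of the torsion, including the trivially normed case. -/
theorem torsion_card_aux (hn : 1 ≤ n) (L : Law C p n) (ha : PowerSeries.coeff p (mulSeries L.G p) ≠ 0) (R : ℕ) :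
    Finite (nsmulAddMonoidHom (α := Pts L.G) (p ^ R)).ker ∧
      Nat.card (nsmulAddMonoidHom (α := Pts L.G) (p ^ R)).ker =
        (open Classical in if (∃ t : C, t ≠ 0 ∧ ‖t‖ < 1) then (p ^ (n - 1)) ^ R else 1) := by
  by_cases ht : ∃ t : C, t ≠ 0 ∧ ‖t‖ < 1
  · rw [if_pos ht]
    exact card_torsion_pow L hn ht ha R
  · rw [if_neg ht]
    have h0 : ∀ x : Pts L.G, x = 0 := by
      intro x
      apply Pts.ext
      by_contra h
      exact ht ⟨x.v, by simpa using h, x.norm_lt⟩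
    have : Subsingleton (Pts L.G) := ⟨fun x y => by rw [h0 x, h0 y]⟩
    have h1 : Subsingleton (nsmulAddMonoidHom (α := Pts L.G) (p ^ R)).ker := inferInstance
    exact ⟨inferInstance, by simp⟩

/-- A homomorphism with unit linear coefficient is a bijection on torsion, when both sides have the expected size. -/
theorem exists_preimage_torsion {L L' : Law C p n} (hn : 1 ≤ n)
    (ha : PowerSeries.coeff p (mulSeries L.G p) ≠ 0) (ha' : PowerSeries.coeff p (mulSeries L'.G p) ≠ 0)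
    (f : PowerSeries (OC C)) (h : IsHom L.G L'.G f)
    (hu : ‖((PowerSeries.coeff 1 f : OC C) : C)‖ = 1) (R : ℕ) (y : Pts L'.G) (hy : (p ^ R) • y = 0) :
    ∃ x : Pts L.G, (p ^ R) • x = 0 ∧ evHom f h x = y := by
  obtain ⟨fin1, card1⟩ := torsion_card_aux hn L ha R
  obtain ⟨fin2, card2⟩ := torsion_card_aux hn L' ha' R
  let g : (nsmulAddMonoidHom (α := Pts L.G) (p ^ R)).ker → (nsmulAddMonoidHom (α := Pts L'.G) (p ^ R)).ker :=
    fun x => ⟨evHom f h x.1, by
      have h1 : (p ^ R) • x.1 = 0 := x.2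
      change (p ^ R) • evHom f h x.1 = 0
      rw [← map_nsmul, h1, map_zero]⟩
  have hg : Function.Injective g := by
    intro x x' hxx
    have h1 : evHom f h x.1 = evHom f h x'.1 := congrArg Subtype.val hxx
    have h2 : evHom f h (x.1 - x'.1) = 0 := by
      rw [map_sub, h1, sub_self]
    have h3 := norm_evHom_eq_of_unit f h hu (x.1 - x'.1)
    rw [h2] at h3
    have h4 : ‖(x.1 - x'.1).v‖ = 0 := by
      rw [← h3]; simp
    have h5 : x.1 - x'.1 = 0 := Pts.ext (by simpa using h4)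
    exact Subtype.ext (sub_eq_zero.mp h5)
  have hb : Function.Bijective g := by
    refine (Nat.bijective_iff_injective_and_card g).mpr ⟨hg, ?_⟩
    rw [card1, card2]
  obtain ⟨x, hx⟩ := hb.2 ⟨y, hy⟩
  exact ⟨x.1, x.2, congrArg Subtype.val hx⟩

end torsion

/-- Construction of `SigmaData`.

Let `P, U` be the Weierstrass factors of `[p^R]_F` (`exists_weierstrass_F`).  Write `φ_m = phiSeq φ₀ τ m`. Let `B` be the image of `φ₀` in `C`, and `Sr = B[torsion of F^φ₀]` (`Algebra.adjoin`).  Torsion points are roots of the monic polynomial `P^φ₀` (`torsion_iff_root`), and there are finitely many, so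
`Sr` is a finite `B`-module; this gives `fam`, `hS`.  Since `τ` preserves the kernel of `φ₀` (hypothesis `hker`), `φ₀ ∘ τ` factors through `B`; as `C` is algebraically closed and `Sr` is algebraic over `B`, there is a ring map `σ₀ : Sr → C` extending it (`IsAlgClosed.lift`, with the twisted algebra structure).  It is injective by `Ideal.eq_bot_of_comap_eq_bot`.
Now if `x` is a torsion point for `φ₀`, `σ₀ x` is a root of `P^φ₁`, so a torsion point for `φ₁` (`norm_lt_of_root`, `torsion_iff_root`).  On the other hand `K̃ = evaluation of K.map φ₀` is an injective homomorphism from the torsion of `F^φ₀` to the torsion of `F^φ₁` (`norm_evHom_eq_of_unit`), hence bijective, since they have the same number of elements by `card_torsion_pow`, whose hypothesis holds because `φ_m (c_p) ≠ 0`.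
So `σ₀ x = K̃ (θ x)`, where `θ` is an injective self map of the finite set of torsion points; hence `θ ^ O = id` for some `O > 0`.
By `isClosed_S`, `Sr` is closed in `C`, so contains `K̃ (θ x)`, and so `σ₀` maps `Sr` into `Sr`: this gives `σ`.
Let `Kit' a m` be defined by `Kit' a 0 x = x`, `Kit' a (m+1) x = ev1 φ_(a+m) (Kit' a m x) K`.  Then `Kit' a (m+1) x = Kit' (a+1) m (ev1 φ_a x K)`, and by `sigma_Ev'`, applied to the series `K.map (τ^(a+m))` (with `Ev_map`), `σ (Kit' a m y) = Kit' (a+1) m (σ y)`, if `‖y‖ < 1`, `‖σ y‖ < 1`, `y ∈ Sr`.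
So by induction on `m`, for a torsion point `x`,  `σ^m x = Kit' 0 m (θ^m x)`:
`σ^(m+1) x = σ (Kit' 0 m (θ^m x)) = Kit' 1 m (σ (θ^m x)) = Kit' 1 m (ev1 φ₀ (θ^(m+1) x) K) = Kit' 0 (m+1) (θ^(m+1) x)`.
For `O ∣ m` one gets `hiter`. -/
theorem exists_sigmaData {S : Setting C p n N k} {φ₀ : MvPowerSeries (Fin N) k →+* OC C} (hφ₀ : Adm S φ₀)
    (τ : MvPowerSeries (Fin N) k ≃ₐ[k] MvPowerSeries (Fin N) k) {K : PowerSeries (MvPowerSeries (Fin N) k)}
    (hK : IsHom S.F (S.F.map (τ : MvPowerSeries (Fin N) k →+* MvPowerSeries (Fin N) k)) K)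
    (hKu : IsUnit (PowerSeries.coeff 1 K))
    (hker : ∀ a, φ₀ (τ a) = 0 ↔ φ₀ a = 0)
    (ha : φ₀ (PowerSeries.coeff p (mulSeries S.F p)) ≠ 0) (R : ℕ) :
    Nonempty (SigmaData hφ₀ τ K R) := by
  classical
  set ψ : MvPowerSeries (Fin N) k →+* C := (OC C).subtype.comp φ₀ with hψ
  have hn := S.hn
  obtain ⟨P, U, hPm, hP0, hU, hPU⟩ := exists_weierstrass_F S R
  have adm0 : Adm S (phiSeq φ₀ τ 0) := adm_phiSeq hφ₀ τ 0
  have adm1 : Adm S (phiSeq φ₀ τ 1) := adm_phiSeq hφ₀ τ 1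
  -- the torsion
  have ha0 : PowerSeries.coeff p (mulSeries (lawSeq hφ₀ τ 0).G p) ≠ 0 := by
    have := coeff_p_lawOf (S := S) adm0
    rw [lawSeq, this]
    exact ha
  have ha1 : PowerSeries.coeff p (mulSeries (lawSeq hφ₀ τ 1).G p) ≠ 0 := by
    have := coeff_p_lawOf (S := S) adm1
    rw [lawSeq, this]
    intro h
    exact ha ((hker _).mp h)
  obtain ⟨fin0, -⟩ := torsion_card_aux hn (lawSeq hφ₀ τ 0) ha0 R
  let Tor := (nsmulAddMonoidHom (α := Pts (lawSeq hφ₀ τ 0).G) (p ^ R)).ker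
  have memTor : ∀ x : Pts (lawSeq hφ₀ τ 0).G, (p ^ R) • x = 0 → x ∈ Tor := fun x hx => hx
  let T : Set C := Set.range fun x : Tor => x.1.v
  have hTfin : T.Finite := Set.finite_range _
  have rootT : ∀ x : Pts (lawSeq hφ₀ τ 0).G, (p ^ R) • x = 0 → Polynomial.eval₂ ψ x.v P = 0 :=
    fun x hx => (torsion_iff_root adm0 P U hU hPU x).mp hx
  have hintT : ∀ t ∈ T, ψ.IsIntegralElem t := by
    rintro t ⟨x, rfl⟩
    exact ⟨P, hPm, rootT x.1 x.2⟩
  obtain ⟨Sr, w, fam, hS, hφS, hTS, hint, hmin⟩ := exists_finite_subring ψ T hTfin hintT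
  have hT : ∀ x : Pts (lawSeq hφ₀ τ 0).G, (p ^ R) • x = 0 → x.v ∈ Sr :=
    fun x hx => hTS ⟨⟨x, memTor x hx⟩, rfl⟩
  -- the lift
  let i : MvPowerSeries (Fin N) k →+* Sr := ψ.codRestrict Sr hφS
  have hi : ∀ a, ((i a : Sr) : C) = ψ a := fun a => rfl
  have hint' : i.IsIntegral := by
    intro s
    obtain ⟨Q, hQ, hQs⟩ := hint s
    refine ⟨Q, hQ, ?_⟩
    apply Subtype.ext
    have := Polynomial.hom_eval₂ Q i Sr.subtype s
    have h2 : (Sr.subtype.comp i) = ψ := rfl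
    rw [h2] at this
    exact this.trans hQs
  obtain ⟨σ₀, hσinj, hσ₀⟩ := exists_lift_aux i hint' (ψ.comp (τ : MvPowerSeries (Fin N) k →+* MvPowerSeries (Fin N) k))
    (fun a => by
      have h1 : i a = 0 ↔ φ₀ a = 0 := by
        rw [← Subtype.coe_inj, hi, ← Subtype.coe_inj]
        rfl
      have h2 : (ψ.comp (τ : MvPowerSeries (Fin N) k →+* MvPowerSeries (Fin N) k)) a = 0 ↔ φ₀ (τ a) = 0 := by
        rw [← Subtype.coe_inj]
        rfl
      rw [h1, h2, hker])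
  -- the homomorphism on points
  have hhom : IsHom (lawSeq hφ₀ τ 0).G (lawSeq hφ₀ τ 1).G (PowerSeries.map φ₀ K) := isHom_lawOf adm0 τ hK
  have hu : ‖((PowerSeries.coeff 1 (PowerSeries.map φ₀ K) : OC C) : C)‖ = 1 := by
    rw [PowerSeries.coeff_map]
    obtain ⟨v, hv⟩ := (hKu.map φ₀).exists_right_inv
    apply le_antisymm (norm_OC_le _)
    have h1 : ‖((φ₀ (PowerSeries.coeff 1 K) : OC C) : C)‖ * ‖(v : C)‖ = 1 := by
      rw [← norm_mul]
      have : ((φ₀ (PowerSeries.coeff 1 K) : OC C) : C) * (v : C) = 1 := congrArg Subtype.val hv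
      rw [this, norm_one]
    have h2 : ‖(v : C)‖ ≤ 1 := norm_OC_le v
    have h3 : 0 ≤ ‖((φ₀ (PowerSeries.coeff 1 K) : OC C) : C)‖ := norm_nonneg _
    nlinarith
  let Kt := evHom (L := lawSeq hφ₀ τ 0) (L' := lawSeq hφ₀ τ 1) (PowerSeries.map φ₀ K) hhom
  have hKt : ∀ z : Pts (lawSeq hφ₀ τ 0).G, (Kt z).v = (ev1 φ₀ z.o K : OC C) := by
    intro z
    have h1 : (Kt z).v = (ev1 (RingHom.id _) z.o (PowerSeries.map φ₀ K) : OC C) := rfl
    have h2 : ev1 (RingHom.id _) z.o (PowerSeries.map φ₀ K) = ev1 φ₀ z.o K :=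
      Ev_map φ₀ (RingHom.id _) (fun _ : Unit => z.o) (fun _ => z.norm_o_lt) K
    rw [h1, h2]
  -- the map `θ`
  have key : ∀ x : Tor, ∃ z : Tor, (Kt z.1).v = σ₀ ⟨x.1.v, hT _ x.2⟩ := by
    intro x
    have h1 : Polynomial.eval₂ i (⟨x.1.v, hT _ x.2⟩ : Sr) P = 0 := by
      apply Subtype.ext
      have := Polynomial.hom_eval₂ P i Sr.subtype ⟨x.1.v, hT _ x.2⟩
      have h2 : (Sr.subtype.comp i) = ψ := rfl
      rw [h2] at this
      exact this.trans (rootT x.1 x.2)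
    have h3 : Polynomial.eval₂ ((OC C).subtype.comp (phiSeq φ₀ τ 1)) (σ₀ ⟨x.1.v, hT _ x.2⟩) P = 0 := by
      have := Polynomial.hom_eval₂ P i σ₀ ⟨x.1.v, hT _ x.2⟩
      rw [h1, map_zero] at this
      have h4 : σ₀.comp i = (OC C).subtype.comp (phiSeq φ₀ τ 1) := RingHom.ext hσ₀
      rw [h4] at this
      exact this.symm
    have h5 := norm_lt_of_root adm1 P hPm hP0 _ h3
    let y' : Pts (lawSeq hφ₀ τ 1).G := Pts.mk _ h5
    have h6 : (p ^ R) • y' = 0 := (torsion_iff_root adm1 P U hU hPU y').mpr h3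
    obtain ⟨z, hz, hzy⟩ := exists_preimage_torsion hn ha0 ha1 (PowerSeries.map φ₀ K) hhom hu R y' h6
    exact ⟨⟨z, memTor z hz⟩, by
      have : Kt z = y' := hzy
      rw [this]
      rfl⟩
  choose θ hθ using key
  have hθinj : Function.Injective θ := by
    intro x x' hxx
    have h1 : σ₀ ⟨x.1.v, hT _ x.2⟩ = σ₀ ⟨x'.1.v, hT _ x'.2⟩ := by
      rw [← hθ x, ← hθ x', hxx]
    have h2 := hσinj h1
    have h3 : x.1.v = x'.1.v := Subtype.mk.inj h2
    exact Subtype.ext (Pts.ext h3)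
  obtain ⟨O, hO, hOit⟩ := exists_iterate_eq_id θ hθinj
  -- `Sr` is closed and contains the values of `K`
  have hφS' : ∀ a, ((φ₀ a : OC C) : C) ∈ Sr := hφS
  have hclosed : IsClosed (Sr : Set C) := isClosed_S φ₀ S.c0 S.c1 hφ₀.hc Sr fam hS hφS'
  have hKmem : ∀ z : Tor, ((ev1 φ₀ z.1.o K : OC C) : C) ∈ Sr := by
    intro z
    have h := hasSum_ev1 φ₀ z.1.norm_o_lt K
    have h' : HasSum (fun j : ℕ => ((φ₀ (PowerSeries.coeff j K) * z.1.o ^ j : OC C) : C)) ((ev1 φ₀ z.1.o K : OC C) : C) :=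
      h.map (OC C).subtype continuous_subtype_val
    refine hclosed.mem_of_tendsto h'.tendsto_sum_nat (Eventually.of_forall fun m => ?_)
    refine Subring.sum_mem _ fun j _ => ?_
    have e : ((φ₀ (PowerSeries.coeff j K) * z.1.o ^ j : OC C) : C) = ((φ₀ (PowerSeries.coeff j K) : OC C) : C) * z.1.v ^ j := rfl
    rw [e]
    exact Sr.mul_mem (hφS' _) (Sr.pow_mem (hT _ z.2) j)
  -- `σ₀` maps `Sr` to `Sr`
  have hσ₀mem : ∀ s : Sr, σ₀ s ∈ Sr := by
    let S' : Subring C := (Sr.comap σ₀).map Sr.subtype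
    have h1 : ∀ a, ψ a ∈ S' := by
      intro a
      refine ⟨i a, ?_, rfl⟩
      change σ₀ (i a) ∈ Sr
      rw [hσ₀]
      exact hφS _
    have h2 : T ⊆ S' := by
      rintro t ⟨x, rfl⟩
      refine ⟨⟨x.1.v, hT _ x.2⟩, ?_, rfl⟩
      change σ₀ _ ∈ Sr
      rw [← hθ x, hKt]
      exact hKmem _
    have h3 := hmin S' h1 h2
    intro s
    obtain ⟨s', hs', e⟩ := h3 s.2
    have e' : s' = s := Subtype.ext e
    rw [← e']
    exact hs'
  let σ : Sr →+* Sr := σ₀.codRestrict Sr hσ₀mem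
  have hσ : ∀ a, σ ⟨((φ₀ a : OC C) : C), hφS' a⟩ = ⟨((φ₀ (τ a) : OC C) : C), hφS' _⟩ := by
    intro a
    apply Subtype.ext
    exact hσ₀ a
  have hKc : PowerSeries.constantCoeff K = 0 := hK.constantCoeff_eq
  -- the iterates
  have hit : ∀ (m : ℕ) (x : Tor), (((σ ^ m) ⟨x.1.v, hT _ x.2⟩ : Sr) : C) = (Kit φ₀ τ K m (θ^[m] x).1.o : OC C) := by
    intro m
    induction m with
    | zero =>
      intro x
      rfl
    | succ m ih =>
      intro x
      set z := θ^[m] x with hz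
      have hy' : ‖((ev1 φ₀ (θ z).1.o K : OC C) : C)‖ < 1 := by
        rw [← hKt]
        exact (Kt (θ z).1).norm_lt
      have hyy : ((ev1 φ₀ (θ z).1.o K : OC C) : C) = σ ⟨(z.1.o : C), hT _ z.2⟩ := by
        rw [← hKt, hθ]
        rfl
      obtain ⟨h1, h2⟩ := sigma_Kit hφ₀ τ K hKc Sr fam hS hφS' σ hσ 0 m z.1.o (ev1 φ₀ (θ z).1.o K)
        (hT _ z.2) z.1.norm_o_lt hy' hyy
      have e1 : (σ ^ (m + 1)) ⟨x.1.v, hT _ x.2⟩ = σ ((σ ^ m) ⟨x.1.v, hT _ x.2⟩) := by
        rw [pow_succ']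
        rfl
      have e2 : (σ ^ m) ⟨x.1.v, hT _ x.2⟩ = ⟨((Kit (phiSeq φ₀ τ 0) τ K m z.1.o : OC C) : C), h1⟩ := by
        apply Subtype.ext
        exact ih x
      rw [e1, e2, ← h2, Function.iterate_succ_apply', ← hz, Kit_succ']
  have hOx : ∀ (m : ℕ), O ∣ m → ∀ (x : Pts (lawSeq hφ₀ τ 0).G) (hx : (p ^ R) • x = 0),
      (((σ ^ m) ⟨x.v, hT x hx⟩ : Sr) : C) = (Kit φ₀ τ K m x.o : OC C) := by
    intro m hm x hx
    have h1 := hit m ⟨x, memTor x hx⟩
    rw [hOit m hm] at h1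
    exact h1
  exact ⟨{ Sr := Sr, w := w, fam := fam, hS := hS, hφS := hφS', hT := hT, σ := σ, hσ := hσ, O := O, hO := hO, hiter := hOx }⟩

end Vale.Agent.Lib.P217
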