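import Vale.Agent.Lib.P217.WeierA
import Vale.Agent.Lib.P217.GroupExp

set_option linter.unusedSectionVars false
set_option linter.unusedVariables false

namespace Vale.Agent.Lib.P217

open scoped Topology
open Filter

variable {C : Type*} [NormedField C] [IsUltrametricDist C] [CompleteSpace C]
variable {p n N : ℕ} [hp : Fact p.Prime] [CharP C p] [IsAlgClosed C]
variable {k : Type*} [Field k] [Finite k] [CharP k p]

/-- Evaluation of a series with coefficients mapping to a closed subring, at a point of the ball in the subring, lies in the subring (limit of partial sums). -/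
theorem Ev_mem_of_closed {B σ₀ : Type*} [CommRing B] [Finite σ₀] (φ : B →+* OC C) (Sr : Subring C)
    (hcl : IsClosed (Sr : Set C)) (hφS : ∀ a, ((φ a : OC C) : C) ∈ Sr) (x : σ₀ → OC C) (hx : ∀ i, (x i : C) ∈ Sr) (hx1 : ∀ i, ‖(x i : C)‖ < 1)
    (f : MvPowerSeries σ₀ B) : ((Ev φ x f : OC C) : C) ∈ Sr := by
  have h := (hasSum_Ev φ x hx1 f).map (OC C).subtype continuous_subtype_val
  refine hcl.mem_of_tendsto h (Eventually.of_forall fun s => ?_)
  refine Sr.sum_mem ?_
  intro d _
  have hm : φ (MvPowerSeries.coeff d f) * (d.prod fun s e => x s ^ e) ∈ Sr.comap (OC C).subtype := by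
    refine Subring.mul_mem _ (hφS _) ?_
    rw [Finsupp.prod]
    refine Subring.prod_mem _ ?_
    intro i _
    exact Subring.pow_mem _ (hx i) _
  exact hm

section law

variable {R : Type*} [CommRing R]

open MvPowerSeries in
lemma coeff_subst_X_zero (G : MvPowerSeries (Fin 2) R) (j : ℕ) :
    PowerSeries.coeff j (subst ![(PowerSeries.X : MvPowerSeries Unit R), 0] G : PowerSeries R) = coeff (Finsupp.single 0 j) G := by
  classical
  have hs : HasSubst ![(PowerSeries.X : MvPowerSeries Unit R), 0] :=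
    hasSubst_pair PowerSeries.constantCoeff_X (by simp)
  rw [PowerSeries.coeff, coeff_subst hs, finsum_eq_single _ (Finsupp.single 0 j)]
  · simp [PowerSeries.coeff_X_pow]
  · intro d hd
    by_cases hd₁ : d 1 = 0
    · by_cases hd₀ : d 0 = 0
      · have hd0 : d = 0 := by
          ext s
          fin_cases s
          · exact hd₀
          · exact hd₁
        subst hd0
        have hj : j ≠ 0 := by
          rintro rfl
          simp at hd
        simp [MvPowerSeries.coeff_one, hj]
      have hne : d 0 ≠ j := by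
        rintro rfl
        apply hd
        ext s
        fin_cases s
        · simp
        · simpa using hd₁
      simp [hd₁, PowerSeries.coeff_X_pow]
      intro h
      exact absurd h.symm hne
    simp [hd₁]

open MvPowerSeries in
/-- `F(X,Y) = X + Y H(X,Y)`. -/
lemma exists_law_factor (F : FormalGroup R) :
    ∃ H : MvPowerSeries (Fin 2) R, F.toPowerSeries = X 0 + X 1 * H := by
  classical
  have hdvd : (X 1 : MvPowerSeries (Fin 2) R) ∣ F.toPowerSeries - X 0 := by
    rw [X_dvd_iff]
    intro m hm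
    have hm' : m = Finsupp.single 0 (m 0) := by
      ext s
      fin_cases s
      · simp
      · simpa using hm
    have h1 := coeff_subst_X_zero F.toPowerSeries (m 0)
    have h2 := F.Xzero_eq_X
    rw [← hm'] at h1
    have h3 : (subst ![(PowerSeries.X : MvPowerSeries Unit R), 0] F.toPowerSeries : PowerSeries R) =
        PowerSeries.X := h2
    rw [h3, PowerSeries.coeff_X] at h1
    rw [map_sub, ← h1]
    rw [coeff_X]
    by_cases h : m 0 = 1
    · rw [if_pos h, if_pos, sub_self]
      rw [hm', h]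
    · rw [if_neg h, if_neg, sub_zero]
      intro he
      apply h
      rw [he]
      simp
  obtain ⟨H, hH⟩ := hdvd
  exact ⟨H, by rw [← hH]; ring⟩

end law

/-- Points in an ideal of a closed subring containing the coefficients of the group law, are stable under the group law.
Since `F(X,Y) - X` is divisible by `Y`: `F(X,Y) = X + Y H(X,Y)` (`MvPowerSeries.X_dvd_iff`; `F(X,0) = X`). So `x + y = x + y H(x,y)`, with `H(x,y) ∈ Sr` by `Ev_mem_of_closed`. -/
theorem add_mem_ideal {S : Setting C p n N k} {φ} (hφ : Adm S φ) (Sr : Subring C) (hcl : IsClosed (Sr : Set C))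
    (hφS : ∀ a, ((φ a : OC C) : C) ∈ Sr) (I : Ideal Sr) (x y : Pts (lawOf S φ hφ).G)
    (hx : ∃ h : x.v ∈ Sr, (⟨x.v, h⟩ : Sr) ∈ I) (hy : ∃ h : y.v ∈ Sr, (⟨y.v, h⟩ : Sr) ∈ I) :
    ∃ h : (x + y).v ∈ Sr, (⟨(x + y).v, h⟩ : Sr) ∈ I := by
  obtain ⟨hxS, hxI⟩ := hx
  obtain ⟨hyS, hyI⟩ := hy
  obtain ⟨H, hH⟩ := exists_law_factor S.F
  have hb : ∀ s : Fin 2, ‖((![x.o, y.o] s : OC C) : C)‖ < 1 := hb2 x y
  have hval : (x + y).v = x.v + y.v * ((Ev φ ![x.o, y.o] H : OC C) : C) := by
    have h1 : (x + y).o = Ev φ ![x.o, y.o] S.F.toPowerSeries := by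
      rw [Pts.add_o]
      exact Ev_map φ (RingHom.id (OC C)) ![x.o, y.o] hb S.F.toPowerSeries
    have h2 : Ev φ ![x.o, y.o] S.F.toPowerSeries = x.o + y.o * Ev φ ![x.o, y.o] H := by
      rw [hH, Ev_add φ _ hb, Ev_mul φ _ hb, Ev_X, Ev_X]
      rfl
    have h3 := congrArg (fun t : OC C => (t : C)) (h1.trans h2)
    exact h3
  have hHS : ((Ev φ ![x.o, y.o] H : OC C) : C) ∈ Sr := by
    refine Ev_mem_of_closed φ Sr hcl hφS _ ?_ hb H
    intro s
    fin_cases s
    · exact hxS
    · exact hyS
  have hmem : (x + y).v ∈ Sr := by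
    rw [hval]
    exact Sr.add_mem hxS (Sr.mul_mem hyS hHS)
  refine ⟨hmem, ?_⟩
  have he : (⟨(x + y).v, hmem⟩ : Sr) = ⟨x.v, hxS⟩ + ⟨y.v, hyS⟩ * ⟨_, hHS⟩ :=
    Subtype.ext hval
  rw [he]
  exact I.add_mem hxI (I.mul_mem_right _ hyI)

/-- Integer multiples and sums of points in the ideal: a consequence of `add_mem_ideal`. -/
theorem sum_nsmul_mem_ideal {S : Setting C p n N k} {φ} (hφ : Adm S φ) (Sr : Subring C) (hcl : IsClosed (Sr : Set C))
    (hφS : ∀ a, ((φ a : OC C) : C) ∈ Sr) (I : Ideal Sr) {J : Type*} (s : Finset J) (a' : J → ℕ) (x : J → Pts (lawOf S φ hφ).G)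
    (hx : ∀ i ∈ s, ∃ h : (x i).v ∈ Sr, (⟨(x i).v, h⟩ : Sr) ∈ I) :
    ∃ h : (∑ i ∈ s, a' i • x i).v ∈ Sr, (⟨(∑ i ∈ s, a' i • x i).v, h⟩ : Sr) ∈ I := by
  classical
  have hzero : ∃ h : (0 : Pts (lawOf S φ hφ).G).v ∈ Sr, (⟨(0 : Pts (lawOf S φ hφ).G).v, h⟩ : Sr) ∈ I := by
    have h0 : (0 : Pts (lawOf S φ hφ).G).v = 0 := rfl
    refine ⟨by rw [h0]; exact Sr.zero_mem, ?_⟩
    have : (⟨(0 : Pts (lawOf S φ hφ).G).v, by rw [h0]; exact Sr.zero_mem⟩ : Sr) = 0 := Subtype.ext h0
    rw [this]
    exact I.zero_mem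
  have hsmul : ∀ (m : ℕ) (z : Pts (lawOf S φ hφ).G), (∃ h : z.v ∈ Sr, (⟨z.v, h⟩ : Sr) ∈ I) →
      ∃ h : (m • z).v ∈ Sr, (⟨(m • z).v, h⟩ : Sr) ∈ I := by
    intro m z hz
    induction m with
    | zero => simpa using hzero
    | succ m ih =>
      rw [succ_nsmul]
      exact add_mem_ideal hφ Sr hcl hφS I _ _ ih hz
  induction s using Finset.induction_on with
  | empty => simpa using hzero
  | insert i s his ih =>
    rw [Finset.sum_insert his]
    refine add_mem_ideal hφ Sr hcl hφS I _ _ (hsmul _ _ (hx i (Finset.mem_insert_self _ _))) ?_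
    exact ih (fun j hj => hx j (Finset.mem_insert_of_mem hj))

/-- A monic polynomial over a subring all of whose roots in `C` lie in an ideal `I` of the subring has its lower
coefficients in `I`. -/
lemma coeff_mem_of_roots_mem (Sr : Subring C) (I : Ideal Sr) (d : ℕ) (Q : Polynomial Sr) (hQ : Q.Monic)
    (hd : Q.natDegree = d)
    (hroot : ∀ z : C, Polynomial.eval₂ Sr.subtype z Q = 0 → ∃ h : z ∈ Sr, (⟨z, h⟩ : Sr) ∈ I) :
    ∀ j < d, Q.coeff j ∈ I := by
  induction d generalizing Q with
  | zero => intro j hj; omega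
  | succ d ih =>
    intro j hj
    have hdeg : (Q.map Sr.subtype).degree ≠ 0 := by
      rw [Polynomial.degree_map_eq_of_injective Sr.subtype_injective,
        Polynomial.degree_eq_natDegree hQ.ne_zero, hd]
      exact_mod_cast Nat.succ_ne_zero d
    obtain ⟨z, hz⟩ := IsAlgClosed.exists_root (Q.map Sr.subtype) hdeg
    have hz' : Polynomial.eval₂ Sr.subtype z Q = 0 := by
      rw [Polynomial.IsRoot.def, Polynomial.eval_map] at hz
      exact hz
    obtain ⟨hzS, hzI⟩ := hroot z hz'
    set w : Sr := ⟨z, hzS⟩ with hw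
    have hrootQ : Q.IsRoot w := by
      rw [Polynomial.IsRoot.def]
      apply Sr.subtype_injective
      have e := Polynomial.hom_eval₂ Q (RingHom.id Sr) Sr.subtype w
      rw [map_zero, ← Polynomial.eval₂_id, e, RingHom.comp_id]
      exact hz'
    have hfac := Polynomial.mul_divByMonic_eq_iff_isRoot.mpr hrootQ
    set Q' := Q /ₘ (Polynomial.X - Polynomial.C w) with hQ'
    have hmX : (Polynomial.X - Polynomial.C w : Polynomial Sr).Monic := Polynomial.monic_X_sub_C w
    have hQ'm : Q'.Monic := by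
      refine Polynomial.Monic.of_mul_monic_left hmX ?_
      rw [hfac]
      exact hQ
    have hQ'd : Q'.natDegree = d := by
      have h1 := hmX.natDegree_mul hQ'm
      rw [hfac, hd, Polynomial.natDegree_X_sub_C] at h1
      omega
    have hQ'r : ∀ z' : C, Polynomial.eval₂ Sr.subtype z' Q' = 0 →
        ∃ h : z' ∈ Sr, (⟨z', h⟩ : Sr) ∈ I := by
      intro z' hz0
      apply hroot
      rw [← hfac, Polynomial.eval₂_mul, hz0, mul_zero]
    have hIH := ih Q' hQ'm hQ'd hQ'r
    rw [← hfac]
    rcases j with _ | i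
    · rw [sub_mul, Polynomial.coeff_sub, Polynomial.coeff_X_mul_zero, Polynomial.coeff_C_mul, zero_sub]
      exact I.neg_mem (I.mul_mem_right _ hzI)
    · rw [sub_mul, Polynomial.coeff_sub, Polynomial.coeff_X_mul, Polynomial.coeff_C_mul]
      exact I.sub_mem (hIH i (by omega)) (I.mul_mem_right _ hzI)

/-- If all `p`-torsion points lie in the ideal `I` of a subring `Sr` containing the image of `φ`, and if the maximal ideal of `A` is generated by the lower coefficients of `[p]_F`, then `φ` maps the maximal ideal into `I`.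

Proof. Let `[p]_F = P U` be the Weierstrass factorization (`exists_weierstrass_F` with `R = 1`).  Then `P^φ` (monic, coefficients in `Sr`) splits in `C`; its roots are torsion points (`norm_lt_of_root`, `torsion_iff_root`), so in `I`.
So `P^φ = ∏ (X - w_l)` in `Sr[X]`, which is `X^deg` modulo `I`: all lower coefficients lie in `I`. `deg P = p ^ n` (compare coefficients after reduction mod the maximal ideal; by `mulSeries_pow_Γ`).  Comparing coefficients in `[p]_F = P U` we get `φ (coeff j [p]_F) ∈ I` for `j < p ^ n`.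
The conclusion follows from `hI`, as the preimage of `I` in `A` is an ideal. -/
theorem mem_ideal_of_torsion {S : Setting C p n N k} {φ} (hφ : Adm S φ)
    (hI : IsLocalRing.maximalIdeal (MvPowerSeries (Fin N) k) =
      Ideal.span {a | ∃ j, j < p ^ n ∧ a = PowerSeries.coeff j (mulSeries S.F p)})
    (Sr : Subring C) (hφS : ∀ a, ((φ a : OC C) : C) ∈ Sr) (I : Ideal Sr)
    (hT : ∀ x : Pts (lawOf S φ hφ).G, p • x = 0 → ∃ h : x.v ∈ Sr, (⟨x.v, h⟩ : Sr) ∈ I)
    (a : MvPowerSeries (Fin N) k) (ha : MvPowerSeries.constantCoeff a = 0) : (⟨_, hφS a⟩ : Sr) ∈ I := by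
  classical
  let φS : MvPowerSeries (Fin N) k →+* Sr := ((OC C).subtype.comp φ).codRestrict Sr hφS
  have hφSv : ∀ b, ((φS b : Sr) : C) = ((φ b : OC C) : C) := fun b => rfl
  obtain ⟨P, U, hP, hP0, hU, hPU⟩ := exists_weierstrass_F S 1
  rw [pow_one] at hPU
  -- the degree of `P`
  have hdeg : P.natDegree = p ^ n := by
    have h1 := congrArg (PowerSeries.map MvPowerSeries.constantCoeff) hPU
    rw [Setting.map_mulSeries, map_mul] at h1
    have h2 : PowerSeries.map MvPowerSeries.constantCoeff (P : PowerSeries (MvPowerSeries (Fin N) k)) =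
        (PowerSeries.X ^ P.natDegree : PowerSeries k) := by
      ext j
      rw [PowerSeries.coeff_map, Polynomial.coeff_coe, PowerSeries.coeff_X_pow]
      by_cases hj : j = P.natDegree
      · rw [if_pos hj, hj, hP.coeff_natDegree, map_one]
      · rw [if_neg hj]
        rcases lt_or_gt_of_ne hj with h3 | h3
        · exact hP0 j h3
        · rw [Polynomial.coeff_eq_zero_of_natDegree_lt h3, map_zero]
    rw [h2] at h1
    have h3 := congrArg (PowerSeries.coeff P.natDegree) h1
    rw [PowerSeries.coeff_X_pow, PowerSeries.coeff_X_pow_mul', if_pos le_rfl, Nat.sub_self] at h3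
    have h4 : IsUnit (PowerSeries.map (MvPowerSeries.constantCoeff (σ := Fin N) (R := k)) U) :=
      hU.map _
    rw [PowerSeries.isUnit_iff_constantCoeff, ← PowerSeries.coeff_zero_eq_constantCoeff_apply] at h4
    by_contra hne
    rw [if_neg hne] at h3
    rw [← h3] at h4
    exact not_isUnit_zero h4
  -- roots
  have hroots : ∀ z : C, Polynomial.eval₂ Sr.subtype z (P.map φS) = 0 →
      ∃ h : z ∈ Sr, (⟨z, h⟩ : Sr) ∈ I := by
    intro z hz
    have hz' : Polynomial.eval₂ ((OC C).subtype.comp φ) z P = 0 := by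
      rw [Polynomial.eval₂_map] at hz
      exact hz
    have hnz := norm_lt_of_root hφ P hP hP0 z hz'
    have hx := (torsion_iff_root hφ (R := 1) P U hU (by rw [pow_one]; exact hPU)
      (Pts.mk z hnz)).mpr hz'
    rw [pow_one] at hx
    exact hT _ hx
  have hcoef := coeff_mem_of_roots_mem Sr I (p ^ n) (P.map φS) (hP.map φS)
    (by rw [hP.natDegree_map, hdeg]) hroots
  have hgen : ∀ j, j < p ^ n → φS (PowerSeries.coeff j (mulSeries S.F p)) ∈ I := by
    intro j hj
    rw [hPU, PowerSeries.coeff_mul, map_sum]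
    refine I.sum_mem ?_
    rintro ⟨u, v⟩ huv
    have huv' : u + v = j := by simpa using huv
    rw [map_mul, Polynomial.coeff_coe]
    refine I.mul_mem_right _ ?_
    have := hcoef u (by omega)
    rwa [Polynomial.coeff_map] at this
  have hle : IsLocalRing.maximalIdeal (MvPowerSeries (Fin N) k) ≤ I.comap φS := by
    rw [hI, Ideal.span_le]
    rintro b ⟨j, hj, rfl⟩
    exact hgen j hj
  exact hle ((mem_maxIdeal_iff' a).mpr ha)

end Vale.Agent.Lib.P217
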