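import Vale.Agent.Lib.P217.Choice
import Vale.Agent.Lib.P217.Asymp
import Vale.Agent.Lib.P217.Core
import Vale.Agent.Lib.P217.Binom
import Vale.Agent.Lib.P217.SigmaData
import Vale.Agent.Lib.P217.TorsIdeal
import Vale.Agent.Lib.P217.Dim

set_option linter.unusedSectionVars false
set_option linter.unusedVariables false

namespace Vale.Agent.Lib.P217

open scoped Topology
open Filter

variable {C : Type*} [NormedField C] [IsUltrametricDist C] [CompleteSpace C]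
variable {p n N : ℕ} [hp : Fact p.Prime] [CharP C p] [IsAlgClosed C]
variable {k : Type*} [Field k] [Fintype k] [CharP k p]

/-- The formula for the `m`-th power of `σ` on the image of `φ`. -/
theorem sigma_pow_apply {S : Setting C p n N k} {φ₀ : MvPowerSeries (Fin N) k →+* OC C} {hφ₀ : Adm S φ₀}
    {τ : MvPowerSeries (Fin N) k ≃ₐ[k] MvPowerSeries (Fin N) k} {K : PowerSeries (MvPowerSeries (Fin N) k)} {R : ℕ}
    (SD : SigmaData hφ₀ τ K R) (m : ℕ) (a : MvPowerSeries (Fin N) k) :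
    (SD.σ ^ m) ⟨((φ₀ a : OC C) : C), SD.hφS a⟩ = ⟨((φ₀ ((τ ^ m) a) : OC C) : C), SD.hφS _⟩ := by
  induction m generalizing a with
  | zero => rfl
  | succ m ih =>
    rw [pow_succ, RingHom.mul_def, RingHom.comp_apply, SD.hσ, ih, pow_succ, AlgEquiv.mul_apply]

theorem alg_C' (τ : MvPowerSeries (Fin N) k ≃ₐ[k] MvPowerSeries (Fin N) k) (r : k) :
    τ (MvPowerSeries.C r) = MvPowerSeries.C r := τ.commutes r

/-- A `k`-automorphism preserves the constant coefficient. -/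
theorem constantCoeff_alg (τ : MvPowerSeries (Fin N) k ≃ₐ[k] MvPowerSeries (Fin N) k) (a : MvPowerSeries (Fin N) k) :
    MvPowerSeries.constantCoeff (τ a) = MvPowerSeries.constantCoeff a := by
  -- `a - C (cc a)` is a nonunit, so its image is
  have h1 : MvPowerSeries.constantCoeff (a - MvPowerSeries.C (MvPowerSeries.constantCoeff a)) = 0 := by
    simp
  have h2 : ¬ IsUnit (a - MvPowerSeries.C (MvPowerSeries.constantCoeff a)) := by
    rw [MvPowerSeries.isUnit_iff_constantCoeff, h1]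
    simp
  have h3 : ¬ IsUnit (τ (a - MvPowerSeries.C (MvPowerSeries.constantCoeff a))) := fun hu =>
    h2 ((MulEquiv.isUnit_map τ.toMulEquiv).mp hu)
  rw [MvPowerSeries.isUnit_iff_constantCoeff, map_sub, alg_C', map_sub] at h3
  simp only [MvPowerSeries.constantCoeff_C] at h3
  by_contra hne
  exact h3 (IsUnit.mk0 _ (sub_ne_zero.mpr hne))

theorem alg_C (τ : MvPowerSeries (Fin N) k ≃ₐ[k] MvPowerSeries (Fin N) k) (r : k) :
    τ (MvPowerSeries.C r) = MvPowerSeries.C r := alg_C' τ r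

/-- Integrality over the image of `φ`. -/
theorem isIntegral_of_hS (φ : MvPowerSeries (Fin N) k →+* OC C) (Sr : Subring C) (hφS : ∀ a, ((φ a : OC C) : C) ∈ Sr)
    {w : ℕ} (fam : Fin w → Sr)
    (hS : ∀ s : Sr, ∃ r : Fin w → MvPowerSeries (Fin N) k, (s : C) = ∑ f, ((φ (r f) : OC C) : C) * (fam f : C))
    (φS : MvPowerSeries (Fin N) k →+* Sr) (hφSc : ∀ a, ((φS a : Sr) : C) = (φ a : OC C)) : φS.IsIntegral := by
  classical
  let _ : Algebra (MvPowerSeries (Fin N) k) Sr := φS.toAlgebra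
  have hfin : Module.Finite (MvPowerSeries (Fin N) k) Sr := by
    refine ⟨⟨Finset.univ.image fam, ?_⟩⟩
    rw [eq_top_iff]
    rintro s -
    obtain ⟨r, hr⟩ := hS s
    have hs : s = ∑ f, r f • fam f := by
      apply Subtype.ext
      rw [hr]
      simp only [AddSubmonoidClass.coe_finsetSum]
      refine Finset.sum_congr rfl fun f _ => ?_
      rw [Algebra.smul_def]
      simp only [Subring.coe_mul]
      congr 1
      exact (hφSc (r f)).symm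
    rw [hs]
    refine Submodule.sum_mem _ fun f _ => Submodule.smul_mem _ _ (Submodule.subset_span ?_)
    simp
  have : Algebra.IsIntegral (MvPowerSeries (Fin N) k) Sr := Algebra.IsIntegral.of_finite _ _
  exact fun x => this.isIntegral x


/-- The asymptotic formula for the iterates of `K`. -/
theorem Kit_asymp {S : Setting C p n N k} {φ₀ : MvPowerSeries (Fin N) k →+* OC C} (hφ₀ : Adm S φ₀)
    (τ : MvPowerSeries (Fin N) k ≃ₐ[k] MvPowerSeries (Fin N) k)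
    {K : PowerSeries (MvPowerSeries (Fin N) k)} {g : PowerSeries k}
    (hK : IsHom S.F (S.F.map (τ : MvPowerSeries (Fin N) k →+* MvPowerSeries (Fin N) k)) K)
    (hKg : PowerSeries.map MvPowerSeries.constantCoeff K = g) (hg : IsHom S.Γ S.Γ g)
    (γ : AddMonoid.End (Pts (baseLaw S).G)) {s : ℕ} (hgEnd : homEnd S hg = 1 + (p ^ (s + 1) : ℕ) • γ)
    (hγ : ∀ x : Pts (baseLaw S).G, ‖(γ x).v‖ ≤ ‖x.v‖) {u m₀ h r R : ℕ} (hu : ¬ p ∣ u) (hRr : R + r = m₀ + h + s + 1)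
    (hclose : ∀ (j : ℕ) (a : MvPowerSeries (Fin N) k),
      ‖((φ₀ ((τ ^ (u * p ^ (m₀ + h + j))) a) : OC C) : C) - (φ₀ a : OC C)‖ ≤ (S.c ^ (p ^ h)) ^ (p ^ j))
    {b : C} (hb0 : ((PowerSeries.coeff p (mulSeries (lawOf S φ₀ hφ₀).G p) : OC C) : C) ≠ 0)
    (hbp : b ^ (p - 1) = ((PowerSeries.coeff p (mulSeries (lawOf S φ₀ hφ₀).G p) : OC C) : C))
    (hr : (S.c ^ (p ^ r)) ^ p < ‖((PowerSeries.coeff p (mulSeries (lawOf S φ₀ hφ₀).G p) : OC C) : C)‖)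
    (x : Pts (baseLaw S).G) (hx : ‖x.v‖ ≤ S.c) (hZ0 : ((p ^ r) • mu (baseLaw S) (lawOf S φ₀ hφ₀) (γ x)).v ≠ 0)
    (hs : S.c ^ (p ^ s) < ‖((p ^ r) • mu (baseLaw S) (lawOf S φ₀ hφ₀) (γ x)).v‖)
    (hAϖ : S.c ^ (p ^ h) < ‖b * (u • ((p ^ r) • mu (baseLaw S) (lawOf S φ₀ hφ₀) (γ x))).v‖)
    (α : Pts (baseLaw S).G) (hα : (p ^ R) • α = x) :
    Tendsto (fun j : ℕ =>
      (((Kit φ₀ τ K (u * p ^ (m₀ + h + j)) (mu (baseLaw S) (lawOf S φ₀ hφ₀) α).o : OC C) : C) - (mu (baseLaw S) (lawOf S φ₀ hφ₀) α).v) /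
        (((ev1 (RingHom.id _) (mu (baseLaw S) (lawOf S φ₀ hφ₀) α).o (f1 (lawOf S φ₀ hφ₀).G) : OC C) : C) / b *
          (b * (u • ((p ^ r) • mu (baseLaw S) (lawOf S φ₀ hφ₀) (γ x))).v) ^ (p ^ j)))
      atTop (𝓝 1) := by
  -- the binomial formula
  have hnm0 : ∀ x : Pts (baseLaw S).G, ‖(0 : Pts (baseLaw S).G).v‖ ≤ ‖x.v‖ := fun x => by simp
  have hbin : ∀ j : ℕ, ∃ ζ : AddMonoid.End (Pts (baseLaw S).G), (∀ x, ‖(ζ x).v‖ ≤ ‖x.v‖) ∧ ∀ x,
      ((1 + (p ^ (s + 1) : ℕ) • γ) ^ (u * p ^ (m₀ + h + j)) : AddMonoid.End (Pts (baseLaw S).G)) x =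
        x + (p ^ (m₀ + h + j + s + 1)) • (u • γ x + (p ^ s) • ζ x) := fun j =>
    exists_end_binom (fun x : Pts (baseLaw S).G => ‖x.v‖) (norm_add_le _) (norm_neg_law _) hnm0 p γ hγ s u (m₀ + h + j)
  choose ζ hζ1 hζ2 using hbin
  have hA0 : 0 ≤ S.c ^ (p ^ h) := pow_nonneg S.c0 _
  have hA1 : S.c ^ (p ^ h) < 1 := pow_lt_one₀ S.c0 S.c1 (pow_pos hp.out.pos _).ne'
  have hmain := asymp_main (baseLaw_isBase S) (close_lawOf S hφ₀)
    (fun j => lawSeq hφ₀ τ (u * p ^ (m₀ + h + j))) (fun j => close_lawOf S _) (fun j => le_rfl)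
    hA0 hA1 ?_ ?_ b hb0 hbp (γ x) ((hγ x).trans hx) (fun j => ζ j x) (fun j => (hζ1 j x).trans hx) r s u hu hZ0 hr hs hAϖ α
  · refine hmain.congr (fun j => ?_)
    have h1 := Kit_mu hφ₀ τ hK hKg hg (u * p ^ (m₀ + h + j)) α
    have hc' : Close (baseLaw S) (lawSeq hφ₀ τ (u * p ^ (m₀ + h + j))) := close_lawOf S _
    have h2 : ((homEnd S hg) ^ (u * p ^ (m₀ + h + j))) α = α + (p ^ j) • (p ^ r) • (u • γ x + (p ^ s) • ζ j x) := by
      rw [hgEnd, hζ2 j α, ← hα]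
      congr 1
      have e : p ^ (m₀ + h + j + s + 1) = p ^ j * (p ^ r * p ^ R) := by
        rw [← pow_add, ← pow_add]
        congr 1
        omega
      rw [e, mul_nsmul', mul_nsmul']
      simp only [map_nsmul, nsmul_add]
      congr 3
      · rw [smul_comm]
      · rw [smul_comm]
    rw [h2, mu_add (baseLaw_isBase S) hc'] at h1
    congr 2
    exact h1.symm
  · intro j d
    exact coeff_lawOf_close _ _ (pow_nonneg hA0 _) (fun a => by
      rw [phiSeq_apply]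
      exact hclose j a) d
  · intro j
    have h1 : PowerSeries.coeff p (mulSeries (lawSeq hφ₀ τ (u * p ^ (m₀ + h + j))).G p) = _ := coeff_p_lawOf _
    have h2 : PowerSeries.coeff p (mulSeries (lawOf S φ₀ hφ₀).G p) = _ := coeff_p_lawOf _
    rw [h1, h2, phiSeq_apply]
    exact hclose j _


/-- The vanishing of `a` propagates along the iterates of `K` at torsion points. -/
theorem hay_of_sigma {S : Setting C p n N k} {φ₀ : MvPowerSeries (Fin N) k →+* OC C} {hφ₀ : Adm S φ₀}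
    {τ : MvPowerSeries (Fin N) k ≃ₐ[k] MvPowerSeries (Fin N) k} {K : PowerSeries (MvPowerSeries (Fin N) k)} {R : ℕ}
    (hK0 : PowerSeries.constantCoeff K = 0)
    (SD : SigmaData hφ₀ τ K R) {m : ℕ} (hm : SD.O ∣ m) (z : Fin N → Pts (lawSeq hφ₀ τ 0).G) (hz : ∀ i, (p ^ R) • z i = 0)
    (e : Fin N → ℕ) (a : MvPowerSeries (Fin N) k)
    (ha : Ev S.κ (frobPoint p (fun i => (z i).o) e) a = 0) :
    Ev S.κ (frobPoint p (fun i => Kit φ₀ τ K m (z i).o) e) a = 0 := by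
  have hpos : ∀ i, p ^ e i ≠ 0 := fun i => (pow_pos hp.out.pos _).ne'
  have hkit : ∀ i, ‖((Kit φ₀ τ K m (z i).o : OC C) : C)‖ < 1 := fun i =>
    lt_of_le_of_lt (norm_Kit_le φ₀ τ K hK0 m _ (z i).norm_lt) (z i).norm_lt
  obtain ⟨h, h2⟩ := sigma_Ev φ₀ S.c0 S.c1 hφ₀.hc S.κ (fun r => (hφ₀.hκ r).symm) SD.Sr SD.fam SD.hS SD.hφS
    (((τ ^ m : MvPowerSeries (Fin N) k ≃ₐ[k] MvPowerSeries (Fin N) k)) : MvPowerSeries (Fin N) k →+* MvPowerSeries (Fin N) k)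
    (fun a ha => by
      change MvPowerSeries.constantCoeff ((τ ^ m) a) = 0
      rw [constantCoeff_alg, ha])
    (fun r => alg_C (τ ^ m) r)
    (SD.σ ^ m) (fun a => sigma_pow_apply SD m a) a
    (frobPoint p (fun i => (z i).o) e) (frobPoint p (fun i => Kit φ₀ τ K m (z i).o) e)
    (fun i => by
      have := SD.hT (z i) (hz i)
      exact Subring.pow_mem _ this _)
    (fun i => by
      have : ‖((z i).o ^ (p ^ e i) : C)‖ < 1 := by
        rw [norm_pow]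
        exact pow_lt_one₀ (norm_nonneg _) (z i).norm_lt (hpos i)
      exact this)
    (fun i => by
      have : ‖(((Kit φ₀ τ K m (z i).o : OC C) : C) ^ (p ^ e i) : C)‖ < 1 := by
        rw [norm_pow]
        exact pow_lt_one₀ (norm_nonneg _) (hkit i) (hpos i)
      exact this)
    (fun i => by
      have h1 := SD.hiter m hm (z i) (hz i)
      have h3 : (⟨((frobPoint p (fun i => (z i).o) e i : OC C) : C), by
          have := SD.hT (z i) (hz i)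
          exact Subring.pow_mem _ this _⟩ : SD.Sr) = (⟨(z i).v, SD.hT (z i) (hz i)⟩ : SD.Sr) ^ (p ^ e i) := rfl
      rw [h3, map_pow]
      change ((Kit φ₀ τ K m (z i).o : OC C) : C) ^ (p ^ e i) = _
      rw [← h1]
      rfl)
  have h4 : ((Ev S.κ (frobPoint p (fun i => Kit φ₀ τ K m (z i).o) e) a : OC C) : C) = 0 := by
    rw [h2]
    have h5 : (⟨((Ev S.κ (frobPoint p (fun i => (z i).o) e) a : OC C) : C), h⟩ : SD.Sr) = 0 := by
      apply Subtype.ext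
      exact congrArg (fun t : OC C => (t : C)) ha
    rw [h5, map_zero]
    rfl
  exact Subtype.ext h4


/-- Ties in the window. -/
theorem window_ties {W : Fin N → ℝ} {n₁ : ℝ} (hn0 : 0 < n₁) (hn1 : n₁ < 1)
    (h : ∀ i, n₁ ^ p < W i ∧ W i ≤ n₁) (e : Fin N → ℕ) (i j : Fin N)
    (hij : W i ^ (p ^ e i) = W j ^ (p ^ e j)) : e i = e j ∧ W i = W j := by
  have hW0 : ∀ i, 0 < W i := fun i => lt_trans (pow_pos hn0 p) (h i).1
  have hp0 : p ≠ 0 := hp.out.ne_zero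
  have key : ∀ a b : Fin N, e a < e b → W a ^ (p ^ e a) = W b ^ (p ^ e b) → False := by
    intro a b hlt heq
    obtain ⟨d, hd⟩ := Nat.exists_eq_add_of_lt hlt
    have e1 : p ^ e b = p ^ (d + 1) * p ^ e a := by
      rw [hd, ← pow_add]
      congr 1
      omega
    rw [e1, mul_comm, pow_mul] at heq
    have e2 : W a = W b ^ (p ^ (d + 1)) := by
      have hb0 := (hW0 b).le
      have := (pow_left_inj₀ (hW0 a).le (pow_nonneg hb0 _) (pow_pos hp.out.pos (e a)).ne').mp (by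
        rw [heq, ← pow_mul, ← pow_mul, mul_comm])
      exact this
    have hle : W b ^ (p ^ (d + 1)) ≤ W b ^ p := by
      apply pow_le_pow_of_le_one (hW0 b).le (lt_of_le_of_lt (h b).2 hn1).le
      calc p = p ^ 1 := (pow_one p).symm
        _ ≤ p ^ (d + 1) := Nat.pow_le_pow_right hp.out.pos (by omega)
    have hle2 : W b ^ p ≤ n₁ ^ p := pow_le_pow_left₀ (hW0 b).le (h b).2 p
    have := (h a).1
    linarith
  have hee : e i = e j := by
    rcases lt_trichotomy (e i) (e j) with hlt | heq | hgt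
    · exact (key i j hlt hij).elim
    · exact heq
    · exact (key j i hgt hij.symm).elim
  refine ⟨hee, ?_⟩
  rw [hee] at hij
  exact (pow_left_inj₀ (hW0 i).le (hW0 j).le (pow_pos hp.out.pos (e j)).ne').mp hij


/-- Independence is preserved by the scalar `b`, the multiple `u`. -/
theorem ind_transfer (L : Law C p n) {b : C} (hb0 : b ≠ 0) {u : ℕ} (hu : ¬ p ∣ u) (Z : Fin N → Pts L.G)
    (hZ0 : ∀ i, (Z i).v ≠ 0) (j : Fin N)
    (hind : ∀ (a' : Fin N → ℕ), (∀ i, a' i < p) → (∃ i, a' i ≠ 0) →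
        (∀ i, a' i ≠ 0 → ‖(Z i).v‖ = ‖(Z j).v‖) → ‖∑ i, (a' i : C) * (Z i).v‖ = ‖(Z j).v‖)
    (a' : Fin N → ℕ) (h1 : ∀ i, a' i < p) (h2 : ∃ i, a' i ≠ 0)
    (h3 : ∀ i, a' i ≠ 0 → ‖b * (u • Z i).v‖ = ‖b * (u • Z j).v‖) :
    ‖∑ i, (a' i : C) * (b * (u • Z i).v)‖ = ‖b * (u • Z j).v‖ := by
  have hn : ∀ i, ‖b * (u • Z i).v‖ = ‖b‖ * ‖(Z i).v‖ := fun i => by
    rw [norm_mul, norm_nsmul_of_not_dvd L _ hu]
  have hb' : 0 < ‖b‖ := norm_pos_iff.mpr hb0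
  have h3' : ∀ i, a' i ≠ 0 → ‖(Z i).v‖ = ‖(Z j).v‖ := fun i hi => by
    have := h3 i hi
    rw [hn, hn] at this
    exact mul_left_cancel₀ hb'.ne' this
  set δ := ‖(Z j).v‖ with hδ
  have hδ0 : 0 < δ := norm_pos_iff.mpr (hZ0 j)
  have hδ1 : δ < 1 := (Z j).norm_lt
  have hsum := hind a' h1 h2 h3'
  -- the main term
  set E : Fin N → C := fun i => (u • Z i).v - (u : C) * (Z i).v with hE
  have hE' : ∀ i, ‖(a' i : C) * E i‖ ≤ δ ^ 2 := by
    intro i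
    by_cases hi : a' i = 0
    · simp [hi]
      positivity
    · rw [norm_mul]
      have h4 : ‖(a' i : C)‖ ≤ 1 := IsUltrametricDist.norm_natCast_le_one C (a' i)
      have h5 : ‖E i‖ ≤ δ ^ 2 := by
        have := norm_nsmul_sub_mul_le L (Z i) u
        rwa [h3' i hi] at this
      calc ‖(a' i : C)‖ * ‖E i‖ ≤ 1 * δ ^ 2 := by gcongr
        _ = δ ^ 2 := one_mul _
  have hEs : ‖∑ i, (a' i : C) * E i‖ ≤ δ ^ 2 :=
    IsUltrametricDist.norm_sum_le_of_forall_le_of_nonneg (by positivity) (fun i _ => hE' i)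
  have hdec : ∑ i, (a' i : C) * (b * (u • Z i).v) =
      b * ((u : C) * ∑ i, (a' i : C) * (Z i).v + ∑ i, (a' i : C) * E i) := by
    rw [Finset.mul_sum, ← Finset.sum_add_distrib, Finset.mul_sum]
    refine Finset.sum_congr rfl fun i _ => ?_
    simp only [hE]
    ring
  rw [hdec, norm_mul, hn]
  congr 1
  have hm : ‖(u : C) * ∑ i, (a' i : C) * (Z i).v‖ = δ := by
    rw [norm_mul, norm_natCast_of_not_dvd hu, hsum, one_mul]
  have hlt : ‖∑ i, (a' i : C) * E i‖ < ‖(u : C) * ∑ i, (a' i : C) * (Z i).v‖ := by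
    rw [hm]
    refine lt_of_le_of_lt hEs ?_
    nlinarith
  rw [IsUltrametricDist.norm_add_eq_max_of_norm_ne_norm hlt.ne', max_eq_left hlt.le, hm]


/-- The evaluation at the torsion points `z i` is injective on `k⟦X_1,…,X_N⟧`. -/
theorem eval_injective {S : Setting C p n N k} {φ₀ : MvPowerSeries (Fin N) k →+* OC C} (hφ₀ : Adm S φ₀)
    (τ : MvPowerSeries (Fin N) k ≃ₐ[k] MvPowerSeries (Fin N) k)
    {K : PowerSeries (MvPowerSeries (Fin N) k)} {g : PowerSeries k}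
    (hK : IsHom S.F (S.F.map (τ : MvPowerSeries (Fin N) k →+* MvPowerSeries (Fin N) k)) K)
    (hKg : PowerSeries.map MvPowerSeries.constantCoeff K = g) (hg : IsHom S.Γ S.Γ g)
    (γ : AddMonoid.End (Pts (baseLaw S).G)) {s : ℕ} (hgEnd : homEnd S hg = 1 + (p ^ (s + 1) : ℕ) • γ)
    (hγ : ∀ x : Pts (baseLaw S).G, ‖(γ x).v‖ ≤ ‖x.v‖) {u m₀ h r R : ℕ} (hu : ¬ p ∣ u) (hRr : R + r = m₀ + h + s + 1)
    (hclose : ∀ (j : ℕ) (a : MvPowerSeries (Fin N) k),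
      ‖((φ₀ ((τ ^ (u * p ^ (m₀ + h + j))) a) : OC C) : C) - (φ₀ a : OC C)‖ ≤ (S.c ^ (p ^ h)) ^ (p ^ j))
    {b : C} (hb0 : ((PowerSeries.coeff p (mulSeries (lawOf S φ₀ hφ₀).G p) : OC C) : C) ≠ 0)
    (hbp : b ^ (p - 1) = ((PowerSeries.coeff p (mulSeries (lawOf S φ₀ hφ₀).G p) : OC C) : C))
    (hr : (S.c ^ (p ^ r)) ^ p < ‖((PowerSeries.coeff p (mulSeries (lawOf S φ₀ hφ₀).G p) : OC C) : C)‖)
    (x : Fin N → Pts (baseLaw S).G) (hxT : ∀ i, x i ∈ Lat (baseLaw_isBase S) (close_lawOf S hφ₀))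
    (hx : ∀ i, ‖(x i).v‖ ≤ S.c) {n₁ : ℝ} (hn0 : 0 < n₁) (hn1 : n₁ < 1)
    (hwin : ∀ i, n₁ ^ p < ‖b‖ * ‖((p ^ r) • mu (baseLaw S) (lawOf S φ₀ hφ₀) (γ (x i))).v‖ ∧
      ‖b‖ * ‖((p ^ r) • mu (baseLaw S) (lawOf S φ₀ hφ₀) (γ (x i))).v‖ ≤ n₁)
    (hind : ∀ (j : Fin N) (a' : Fin N → ℕ), (∀ i, a' i < p) → (∃ i, a' i ≠ 0) →
        (∀ i, a' i ≠ 0 → ‖((p ^ r) • mu (baseLaw S) (lawOf S φ₀ hφ₀) (γ (x i))).v‖ =
          ‖((p ^ r) • mu (baseLaw S) (lawOf S φ₀ hφ₀) (γ (x j))).v‖) →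
        ‖∑ i, (a' i : C) * ((p ^ r) • mu (baseLaw S) (lawOf S φ₀ hφ₀) (γ (x i))).v‖ =
          ‖((p ^ r) • mu (baseLaw S) (lawOf S φ₀ hφ₀) (γ (x j))).v‖)
    (hs : ∀ i, S.c ^ (p ^ s) < ‖((p ^ r) • mu (baseLaw S) (lawOf S φ₀ hφ₀) (γ (x i))).v‖)
    (hA : ∀ i, S.c ^ (p ^ h) < ‖b‖ * ‖((p ^ r) • mu (baseLaw S) (lawOf S φ₀ hφ₀) (γ (x i))).v‖)
    (SD : SigmaData hφ₀ τ K R) (w' : ℕ) (hO : ∀ j, SD.O ∣ u * p ^ (m₀ + h + (j + w')))
    (a : MvPowerSeries (Fin N) k)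
    (ha : Ev S.κ (fun i => (mu (baseLaw S) (lawOf S φ₀ hφ₀) (rti R (x i))).o) a = 0) : a = 0 := by
  have hK0 : PowerSeries.constantCoeff K = 0 := hK.constantCoeff_eq
  set Z : Fin N → Pts (lawOf S φ₀ hφ₀).G := fun i => (p ^ r) • mu (baseLaw S) (lawOf S φ₀ hφ₀) (γ (x i)) with hZ
  set z : Fin N → Pts (lawOf S φ₀ hφ₀).G := fun i => mu (baseLaw S) (lawOf S φ₀ hφ₀) (rti R (x i)) with hz
  have hbne : b ≠ 0 := by
    rintro rfl
    apply hb0
    rw [← hbp, zero_pow]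
    have := hp.out.two_le
    omega
  have hb' : 0 < ‖b‖ := norm_pos_iff.mpr hbne
  have hZ0 : ∀ i, (Z i).v ≠ 0 := by
    intro i hi
    have h1 := (hwin i).1
    have h2 : ‖(Z i).v‖ = 0 := by rw [hi, norm_zero]
    simp only [hZ] at h2
    rw [h2, mul_zero] at h1
    exact absurd h1 (not_lt.mpr (pow_pos hn0 p).le)
  set ϖ : Fin N → C := fun i => b * (u • Z i).v with hϖ
  have hϖn : ∀ i, ‖ϖ i‖ = ‖b‖ * ‖(Z i).v‖ := fun i => by
    simp only [hϖ]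
    rw [norm_mul, norm_nsmul_of_not_dvd _ _ hu]
  have hϖ0 : ∀ i, ϖ i ≠ 0 := fun i => by
    rw [← norm_pos_iff, hϖn]
    exact mul_pos hb' (norm_pos_iff.mpr (hZ0 i))
  have hϖ1 : ∀ i, ‖ϖ i‖ < 1 := fun i => by
    rw [hϖn]
    exact lt_of_le_of_lt (hwin i).2 hn1
  -- torsion
  have hzt : ∀ i, (p ^ R) • z i = 0 := fun i => by
    simp only [hz]
    rw [← mu_nsmul (baseLaw_isBase S) (close_lawOf S hφ₀), nsmul_pow_rti (baseLaw_isBase S)]
    exact hxT i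
  set ψ : Fin N → C := fun i => ((ev1 (RingHom.id _) (z i).o (f1 (lawOf S φ₀ hφ₀).G) : OC C) : C) with hψ
  have hψ0 : ∀ i, ψ i ≠ 0 := by
    intro i hi
    have h1 := norm_f1_sub_one (z i)
    have h2 := (z i).norm_lt
    simp only [hψ] at hi
    rw [hi, zero_sub, norm_neg, norm_one] at h1
    linarith
  have hasym : ∀ i, Tendsto (fun j : ℕ =>
      (((Kit φ₀ τ K (u * p ^ (m₀ + h + j)) (z i).o : OC C) : C) - (z i).v) / (ψ i / b * ϖ i ^ (p ^ j))) atTop (𝓝 1) := by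
    intro i
    refine Kit_asymp hφ₀ τ hK hKg hg γ hgEnd hγ hu hRr hclose hb0 hbp hr (x i) (hx i) (hZ0 i) (hs i) ?_ _ (nsmul_pow_rti (baseLaw_isBase S) R (x i))
    have := hA i
    change _ < ‖ϖ i‖
    rw [hϖn]
    exact this
  have hκ' : ∀ i, ψ i / b ≠ 0 := fun i => div_ne_zero (hψ0 i) hbne
  refine Ev_injective_of_descent p S.κ (fun i => (z i).o) (fun i => (z i).norm_lt) (fun i => ‖ϖ i‖)
    (fun i => norm_pos_iff.mpr (hϖ0 i)) hϖ1 ?_ a ha
  intro e j htop a' ha'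
  refine core_step S.κ (fun i => (z i).o) (fun i => (z i).norm_lt) ϖ (fun i => ψ i / b) hκ' hϖ0 hϖ1 w'
    (fun t i => Kit φ₀ τ K (u * p ^ (m₀ + h + (t + w'))) (z i).o)
    (fun t i => lt_of_le_of_lt (norm_Kit_le φ₀ τ K hK0 _ _ (z i).norm_lt) (z i).norm_lt)
    (fun t i => (((Kit φ₀ τ K (u * p ^ (m₀ + h + (t + w'))) (z i).o : OC C) : C) - (z i).v) / (ψ i / b * ϖ i ^ (p ^ (t + w'))) - 1)
    ?_ ?_ e a' ha' ?_ j htop ?_ ?_
  · intro i
    have h1 := ((hasym i).comp (tendsto_add_atTop_nat w')).sub_const 1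
    simpa using h1
  · intro t i
    have hD : ψ i / b * ϖ i ^ (p ^ (t + w')) ≠ 0 := mul_ne_zero (hκ' i) (pow_ne_zero _ (hϖ0 i))
    simp only [add_sub_cancel]
    rw [mul_div_cancel₀ _ hD]
    rfl
  · intro t
    exact hay_of_sigma hK0 SD (hO t) z hzt e a' ha'
  · intro i hi
    have hwin' : ∀ i, n₁ ^ p < ‖ϖ i‖ ∧ ‖ϖ i‖ ≤ n₁ := fun i => by
      rw [hϖn]
      exact hwin i
    exact window_ties hn0 hn1 hwin' e i j hi
  · intro b' h1 h2 h3
    exact ind_transfer (lawOf S φ₀ hφ₀) hbne hu Z hZ0 j (hind j) b' h1 h2 h3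


/-- The `p`-torsion points are group combinations of the points `z i`, hence lie in the ideal generated by them. -/
theorem torsion_mem_ideal {S : Setting C p n N k} {φ₀ : MvPowerSeries (Fin N) k →+* OC C} (hφ₀ : Adm S φ₀)
    (hn1 : 1 ≤ n) (ht : ∃ t : C, t ≠ 0 ∧ ‖t‖ < 1)
    (Sr : Subring C) (hcl : IsClosed (Sr : Set C)) (hφS : ∀ a, ((φ₀ a : OC C) : C) ∈ Sr)
    (x : Fin N → Pts (baseLaw S).G) (hxT : ∀ i, x i ∈ Lat (baseLaw_isBase S) (close_lawOf S hφ₀))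
    {f R : ℕ} (hfR : f + 1 ≤ R)
    (hspan : ∀ y ∈ Lat (baseLaw_isBase S) (close_lawOf S hφ₀), ∃ (a' : Fin N → ℕ), ∃ z ∈ Lat (baseLaw_isBase S) (close_lawOf S hφ₀),
        (p ^ f) • y = ∑ j, a' j • x j + (p ^ R) • z)
    (hzS : ∀ i, (mu (baseLaw S) (lawOf S φ₀ hφ₀) (rti R (x i))).v ∈ Sr)
    (w : Pts (lawOf S φ₀ hφ₀).G) (hw : p • w = 0) :
    ∃ h : w.v ∈ Sr, (⟨w.v, h⟩ : Sr) ∈ Ideal.span (Set.range fun i => (⟨(mu (baseLaw S) (lawOf S φ₀ hφ₀) (rti R (x i))).v, hzS i⟩ : Sr)) := by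
  have hb := baseLaw_isBase S
  have hc := close_lawOf S hφ₀
  obtain ⟨β, rfl⟩ := mu_surjective (L₀ := baseLaw S) (L := lawOf S φ₀ hφ₀) hn1 ht w
  have hy : p • β ∈ Lat hb hc := by
    rw [mem_Lat, mu_nsmul hb hc]
    exact hw
  obtain ⟨a', z', hz', he⟩ := hspan _ hy
  obtain ⟨q, hq⟩ := Nat.exists_eq_add_of_le hfR
  have hxα : ∀ j, x j = (p ^ R) • rti R (x j) := fun j => (nsmul_pow_rti hb R (x j)).symm
  have e1 : (p ^ (f + 1)) • β = (p ^ (f + 1)) • ((p ^ q) • (∑ j, a' j • rti R (x j) + z')) := by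
    have e2 : (p ^ (f + 1)) • β = (p ^ f) • (p • β) := by
      rw [pow_succ, mul_nsmul, smul_comm]
    rw [e2, he, ← mul_nsmul', ← pow_add, ← hq, nsmul_add, Finset.smul_sum]
    congr 1
    refine Finset.sum_congr rfl fun j _ => ?_
    rw [smul_comm, ← hxα]
  have e3 : β = (p ^ q) • (∑ j, a' j • rti R (x j) + z') := by
    have := congrArg (rti (f + 1)) e1
    rwa [rti_nsmul_pow hb, rti_nsmul_pow hb] at this
  have e4 : mu (baseLaw S) (lawOf S φ₀ hφ₀) β = (p ^ q) • ∑ j, a' j • mu (baseLaw S) (lawOf S φ₀ hφ₀) (rti R (x j)) := by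
    have hz0 : mu (baseLaw S) (lawOf S φ₀ hφ₀) z' = 0 := hz'
    rw [e3, mu_nsmul hb hc, mu_add hb hc, hz0, add_zero]
    congr 1
    have := map_sum (muHom hb hc) (fun j => a' j • rti R (x j)) Finset.univ
    simp only [muHom_apply, map_nsmul] at this
    simpa only [mu_nsmul hb hc] using this
  rw [e4]
  set I := Ideal.span (Set.range fun i => (⟨(mu (baseLaw S) (lawOf S φ₀ hφ₀) (rti R (x i))).v, hzS i⟩ : Sr)) with hI
  have h1 := sum_nsmul_mem_ideal hφ₀ Sr hcl hφS I Finset.univ a' (fun j => mu (baseLaw S) (lawOf S φ₀ hφ₀) (rti R (x j)))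
    (fun i _ => ⟨hzS i, Ideal.subset_span ⟨i, rfl⟩⟩)
  have h2 := sum_nsmul_mem_ideal hφ₀ Sr hcl hφS I (Finset.univ : Finset Unit) (fun _ => p ^ q) (fun _ => ∑ j, a' j • mu (baseLaw S) (lawOf S φ₀ hφ₀) (rti R (x j)))
    (fun _ _ => h1)
  simpa using h2


omit [IsUltrametricDist C] [CompleteSpace C] [IsAlgClosed C] in
/-- Doubly exponential decay below a finite family of positive numbers. -/
theorem exists_pow_lt_family {c : ℝ} (h0 : 0 ≤ c) (h1 : c < 1) (v : Fin N → ℝ) (hv : ∀ i, 0 < v i) :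
    ∃ s₀ : ℕ, ∀ s, s₀ ≤ s → ∀ i, c ^ (p ^ s) < v i := by
  have hlim : Tendsto (fun j : ℕ => c ^ (p ^ j)) atTop (𝓝 0) := by
    have h2 : Tendsto (fun j : ℕ => c ^ j) atTop (𝓝 0) := tendsto_pow_atTop_nhds_zero_of_lt_one h0 h1
    have h3 : Tendsto (fun j : ℕ => p ^ j) atTop atTop := tendsto_pow_atTop_atTop_of_one_lt hp.out.one_lt
    exact h2.comp h3
  have h2 : ∀ᶠ s in atTop, ∀ i, c ^ (p ^ s) < v i :=
    eventually_all.mpr (fun i => hlim.eventually (gt_mem_nhds (hv i)))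
  obtain ⟨s₀, hs₀⟩ := eventually_atTop.mp h2
  exact ⟨s₀, hs₀⟩

/-- The main theorem in the valued setting: an admissible map `φ₀` with `φ₀ (c_p) ≠ 0`, whose kernel is invariant, is injective. -/
theorem injective_main (S : Setting C p n N k) (hω : HOm S) (hF : HFr S) (hk : Fintype.card k = p ^ n) (hN : N + 1 = n)
    (hn2 : 2 ≤ n) {φ₀ : MvPowerSeries (Fin N) k →+* OC C} (hφ₀ : Adm S φ₀)
    (hI : IsLocalRing.maximalIdeal (MvPowerSeries (Fin N) k) =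
      Ideal.span {a | ∃ j, j < p ^ n ∧ a = PowerSeries.coeff j (mulSeries S.F p)})
    (ha : φ₀ (PowerSeries.coeff p (mulSeries S.F p)) ≠ 0)
    (hinv : ∀ g : PowerSeries k, IsHom S.Γ S.Γ g → IsUnit (PowerSeries.coeff 1 g) →
      ∃ (τ : MvPowerSeries (Fin N) k ≃ₐ[k] MvPowerSeries (Fin N) k) (K : PowerSeries (MvPowerSeries (Fin N) k)),
        IsHom S.F (S.F.map (τ : MvPowerSeries (Fin N) k →+* MvPowerSeries (Fin N) k)) K ∧
        PowerSeries.map MvPowerSeries.constantCoeff K = g ∧ ∀ a, φ₀ (τ a) = 0 ↔ φ₀ a = 0) :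
    Function.Injective φ₀ := by
  have hp2 := hp.out.two_le
  have hn1 : 1 ≤ n := by omega
  have hb' := baseLaw_isBase S
  have hc' := close_lawOf S hφ₀
  have ha' : PowerSeries.coeff p (mulSeries (lawOf S φ₀ hφ₀).G p) ≠ 0 := by
    rw [coeff_p_lawOf hφ₀]
    exact ha
  have hb0 : ((PowerSeries.coeff p (mulSeries (lawOf S φ₀ hφ₀).G p) : OC C) : C) ≠ 0 := fun h => ha' (Subtype.ext h)
  obtain ⟨b, hbp⟩ := IsAlgClosed.exists_pow_nat_eq ((PowerSeries.coeff p (mulSeries (lawOf S φ₀ hφ₀).G p) : OC C) : C)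
    (show 0 < p - 1 by omega)
  have hbne : b ≠ 0 := by
    rintro rfl
    apply hb0
    rw [← hbp, zero_pow]
    omega
  have hbpos : 0 < ‖b‖ := norm_pos_iff.mpr hbne
  -- the good data
  obtain ⟨s₀, d, hgood⟩ := exists_good_gamma S hω hF hk hN hn2 hφ₀ ha'
  obtain ⟨r, f, n₁, x, hr, hn0, hn1', hxT, hwin, hind, hspan⟩ := exists_good_data S hω hF hk hN hn2 hφ₀ ha' hbp s₀ d hgood
  set γ := gammaEnd S hω hF s₀ d with hγdef
  have hγ : ∀ x : Pts (baseLaw S).G, ‖(γ x).v‖ ≤ ‖x.v‖ := norm_gammaEnd_le S hω hF s₀ d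
  have hx : ∀ i, ‖(x i).v‖ ≤ S.c := fun i => norm_le_of_mem_Lat hb' hc' (hxT i)
  have hZpos : ∀ i, 0 < ‖((p ^ r) • mu (baseLaw S) (lawOf S φ₀ hφ₀) (γ (x i))).v‖ := by
    intro i
    have h1 := (hwin i).1
    have h2 : 0 < ‖b‖ * ‖((p ^ r) • mu (baseLaw S) (lawOf S φ₀ hφ₀) (γ (x i))).v‖ := lt_trans (pow_pos hn0 p) h1
    exact (pos_iff_pos_of_mul_pos h2).mp hbpos
  obtain ⟨s₁, hs₁⟩ := exists_pow_lt_family (p := p) S.c0 S.c1 _ hZpos
  have hs : ∀ i, S.c ^ (p ^ s₁) < ‖((p ^ r) • mu (baseLaw S) (lawOf S φ₀ hφ₀) (γ (x i))).v‖ := hs₁ s₁ le_rfl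
  -- the series
  obtain ⟨g, hg, hgu, hgEnd⟩ := exists_digit_series S hω hF s₀ s₁ d
  obtain ⟨τ, K, hK, hKg, hker⟩ := hinv g hg hgu
  have hK0 : PowerSeries.constantCoeff K = 0 := hK.constantCoeff_eq
  have hKu : IsUnit (PowerSeries.coeff 1 K) := by
    rw [MvPowerSeries.isUnit_iff_constantCoeff]
    have h1 : PowerSeries.coeff 1 (PowerSeries.map MvPowerSeries.constantCoeff K) =
        MvPowerSeries.constantCoeff (PowerSeries.coeff 1 K) := by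
      simp
    rw [← h1, hKg]
    exact hgu
  obtain ⟨M₀, hM₀, hclose0⟩ := tau_pow_close p τ
  obtain ⟨m₀, u₀, hu₀, hM₀e⟩ := Nat.exists_eq_pow_mul_and_not_dvd hM₀.ne' p hp.out.ne_one
  -- the choice of `h`, `R`
  obtain ⟨h₀, hh₀⟩ := exists_pow_lt_family (p := p) S.c0 S.c1
    (fun i => ‖b‖ * ‖((p ^ r) • mu (baseLaw S) (lawOf S φ₀ hφ₀) (γ (x i))).v‖) (fun i => mul_pos hbpos (hZpos i))
  set h := max h₀ (r + f + 1) with hhdef
  have hA : ∀ i, S.c ^ (p ^ h) < ‖b‖ * ‖((p ^ r) • mu (baseLaw S) (lawOf S φ₀ hφ₀) (γ (x i))).v‖ := hh₀ h (le_max_left _ _)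
  have hh2 : r + f + 1 ≤ h := le_max_right _ _
  obtain ⟨R, hR⟩ : ∃ R, R + r = m₀ + h + s₁ + 1 := ⟨m₀ + h + s₁ + 1 - r, by omega⟩
  have hfR : f + 1 ≤ R := by omega
  obtain ⟨SD⟩ := exists_sigmaData hφ₀ τ hK hKu hker ha R
  obtain ⟨w', O', hO', hOe⟩ := Nat.exists_eq_pow_mul_and_not_dvd SD.hO.ne' p hp.out.ne_one
  set u := u₀ * O' with hudef
  have hu : ¬ p ∣ u := fun hdvd => (hp.out.dvd_mul.mp hdvd).elim hu₀ hO'
  have hclose : ∀ (j : ℕ) (a : MvPowerSeries (Fin N) k),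
      ‖((φ₀ ((τ ^ (u * p ^ (m₀ + h + j))) a) : OC C) : C) - (φ₀ a : OC C)‖ ≤ (S.c ^ (p ^ h)) ^ (p ^ j) := by
    intro j a
    have hdvd : M₀ * p ^ (h + j) ∣ u * p ^ (m₀ + h + j) := by
      rw [hM₀e, hudef]
      refine ⟨O', ?_⟩
      have e : p ^ (m₀ + h + j) = p ^ m₀ * p ^ (h + j) := by
        rw [← pow_add]
        congr 1
        omega
      rw [e]
      ring
    have h1 := hclose0 _ _ hdvd a
    have h2 := norm_le_of_mem_pow ((OC C).subtype.comp φ₀) (fun x => norm_OC_le (φ₀ x)) S.c0 hφ₀.hc _ _ h1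
    have h3 : (S.c ^ (p ^ h)) ^ (p ^ j) = S.c ^ (p ^ (h + j)) := by
      rw [← pow_mul, pow_add]
    rw [h3]
    simpa using h2
  have hO : ∀ j, SD.O ∣ u * p ^ (m₀ + h + (j + w')) := by
    intro j
    rw [hOe, hudef]
    refine ⟨u₀ * p ^ (m₀ + h + j), ?_⟩
    have e : p ^ (m₀ + h + (j + w')) = p ^ w' * p ^ (m₀ + h + j) := by
      rw [← pow_add]
      congr 1
      omega
    rw [e]
    ring
  -- injectivity of evaluation
  have hinj := eval_injective hφ₀ τ hK hKg hg γ hgEnd hγ hu hR hclose hb0 hbp hr x hxT hx hn0 hn1' hwin hind hs hA SD w' hO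
  -- the ideal
  set z : Fin N → Pts (lawOf S φ₀ hφ₀).G := fun i => mu (baseLaw S) (lawOf S φ₀ hφ₀) (rti R (x i)) with hz
  have hzt : ∀ i, (p ^ R) • z i = 0 := fun i => by
    simp only [hz]
    rw [← mu_nsmul hb' hc', nsmul_pow_rti hb']
    exact hxT i
  have hzS : ∀ i, (z i).v ∈ SD.Sr := fun i => SD.hT (z i) (hzt i)
  have hcl := isClosed_S φ₀ S.c0 S.c1 hφ₀.hc SD.Sr SD.fam SD.hS SD.hφS
  have ht : ∃ t : C, t ≠ 0 ∧ ‖t‖ < 1 := by
    refine ⟨((PowerSeries.coeff p (mulSeries (lawOf S φ₀ hφ₀).G p) : OC C) : C), hb0, ?_⟩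
    have h1 := (lawOf S φ₀ hφ₀).coeff_p p
    have hne : p ≠ p ^ n := by
      intro he
      have h2 : p ^ 1 < p ^ n := Nat.pow_lt_pow_right hp.out.one_lt (by omega)
      rw [pow_one] at h2
      omega
    rw [if_neg hne, sub_zero] at h1
    exact lt_of_le_of_lt h1 S.c1
  have hT := torsion_mem_ideal hφ₀ hn1 ht SD.Sr hcl SD.hφS x hxT hfR (hspan R) hzS
  have hImem := mem_ideal_of_torsion hφ₀ hI SD.Sr SD.hφS _ hT
  obtain ⟨ev, hev, hevint⟩ := integral_over_Ev φ₀ S.c0 S.c1 hφ₀.hc S.κ (fun r => (hφ₀.hκ r).symm) SD.Sr SD.fam SD.hS SD.hφS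
    (fun i => (z i).o) hzS (fun i => (z i).norm_lt) hImem
  have hevinj : Function.Injective ev := by
    rw [injective_iff_map_eq_zero]
    intro a ha0
    apply hinj a
    apply Subtype.ext
    have := hev a
    rw [ha0] at this
    exact this.symm
  let φS : MvPowerSeries (Fin N) k →+* SD.Sr := RingHom.codRestrict ((OC C).subtype.comp φ₀) SD.Sr SD.hφS
  have hφSint : φS.IsIntegral := isIntegral_of_hS φ₀ SD.Sr SD.hφS SD.fam SD.hS φS (fun a => rfl)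
  have hfinal := injective_of_integral_of_integral φS ev hevinj hevint hφSint
  intro a a' haa
  apply hfinal
  apply Subtype.ext
  exact congrArg (fun t : OC C => (t : C)) haa

end Vale.Agent.Lib.P217
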