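import Vale.Agent.Lib.P217.HClose
import Vale.Agent.Lib.P217.Main

set_option linter.unusedSectionVars false
set_option linter.unusedVariables false

/-!
The relation: the first order terms of the vanishing of `a` along the orbit of torsion points.
-/

namespace Vale.Agent.Lib.P217

open scoped Topology
open Filter

variable {C : Type*} [NormedField C] [IsUltrametricDist C] [CompleteSpace C]
variable {p n N : ℕ} [hp : Fact p.Prime] [CharP C p] [IsAlgClosed C]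
variable {k : Type*} [Field k] [Fintype k] [CharP k p]

/-- The increment formula. Let `L, L'` be laws close to the base law `L₀` and to each other (`δ`). Let `z' = mu' (α + p ^ k • (U • y + p ^ s • ζ))`, `z = mu α`, `w = mu (p ^ k • y)`, and `Ω` bound `‖w‖` and `‖mu (p ^ k • ζ)‖`, `s ≥ 1`. Then `z' - z = ψ * U * w` up to `max δ (Ω ^ 2)`, with `ψ = f1 (z)`, and `‖z' - z‖ ≤ max δ Ω`.

Proof. `mu'` is additive: `z' = x' + y'` (in `L'`), `x' = mu' α`, `y' = mu' (p ^ k • (U • y + p ^ s • ζ))`. By `norm_mu_sub_mu_le`, `‖x' - z‖ ≤ δ`, `‖y' - I‖ ≤ δ`, where `I = mu (...) = U • w + p ^ s • w₂` (`mu_add`, `mu_nsmul`) with `w₂ = mu (p ^ k • ζ)`. By `norm_add_expand`, `‖z' - x' - f1'(x') * y'‖ ≤ ‖y'‖ ^ 2`, by `norm_f1_sub_f1`, `‖f1'(x') - ψ‖ ≤ δ`.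
`‖p ^ s • w₂‖ ≤ ‖w₂‖ ^ (p ^ s) ≤ Ω ^ 2` if `Ω ≤ 1` (`norm_nsmul_pow_le`), `‖U • w - U * w‖ ≤ Ω ^ 2` (`norm_nsmul_sub_mul_le`). Note `‖I‖ ≤ Ω`, `‖ψ‖ ≤ 1`. -/
theorem increment_formula {L₀ L L' : Law C p n} (hb : IsBase L₀) (hc : Close L₀ L) (hc' : Close L₀ L') {δ : ℝ} (hδ0 : 0 ≤ δ)
    (hδ : ∀ d, ‖((MvPowerSeries.coeff d L.G.toPowerSeries : OC C) : C) - (MvPowerSeries.coeff d L'.G.toPowerSeries : OC C)‖ ≤ δ)
    (α y ζ : Pts L₀.G) (e s U : ℕ) (hs : 1 ≤ s) {Ω : ℝ} (hΩ0 : 0 ≤ Ω)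
    (hy : ‖(mu L₀ L ((p ^ e) • y)).v‖ ≤ Ω) (hζ : ‖(mu L₀ L ((p ^ e) • ζ)).v‖ ≤ Ω) :
    ‖(mu L₀ L' (α + (p ^ e) • (U • y + (p ^ s) • ζ))).v - (mu L₀ L α).v -
        ((ev1 (RingHom.id _) (mu L₀ L α).o (f1 L.G) : OC C) : C) * ((U : C) * (mu L₀ L ((p ^ e) • y)).v)‖ ≤ max δ (Ω ^ 2) ∧
    ‖(mu L₀ L' (α + (p ^ e) • (U • y + (p ^ s) • ζ))).v - (mu L₀ L α).v‖ ≤ max δ Ω := by
  set w := mu L₀ L ((p ^ e) • y) with hw
  set w₂ := mu L₀ L ((p ^ e) • ζ) with hw₂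
  set z := mu L₀ L α with hz
  set x' := mu L₀ L' α with hx'
  set I₀ := (p ^ e) • (U • y + (p ^ s) • ζ) with hI₀
  set y' := mu L₀ L' I₀ with hy'
  set I := mu L₀ L I₀ with hI
  set ψ : C := ((ev1 (RingHom.id _) z.o (f1 L.G) : OC C) : C) with hψ
  set ψ' : C := ((ev1 (RingHom.id _) x'.o (f1 L'.G) : OC C) : C) with hψ'
  have e1 : mu L₀ L' (α + I₀) = x' + y' := mu_add hb hc' _ _
  have e2 : I = U • w + (p ^ s) • w₂ := by
    have h : I₀ = U • ((p ^ e) • y) + (p ^ s) • ((p ^ e) • ζ) := by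
      rw [hI₀, nsmul_add, smul_comm (p ^ e) U, smul_comm (p ^ e) (p ^ s)]
    rw [hI, h, mu_add hb hc, mu_nsmul hb hc U, mu_nsmul hb hc (p ^ s)]
  rw [e1]
  set Ω' := max ‖w.v‖ ‖w₂.v‖ with hΩ'
  have hΩ'1 : Ω' < 1 := max_lt w.norm_lt w₂.norm_lt
  have hΩ'le : Ω' ≤ Ω := max_le hy hζ
  have hΩ'0 : 0 ≤ Ω' := le_max_of_le_left (norm_nonneg _)
  have hw1 : ‖w.v‖ ≤ Ω' := le_max_left _ _
  have hw2 : ‖w₂.v‖ ≤ Ω' := le_max_right _ _
  have hp2 : 2 ≤ p := hp.out.two_le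
  have hps : 2 ≤ p ^ s := by
    calc 2 ≤ p := hp2
      _ = p ^ 1 := (pow_one p).symm
      _ ≤ p ^ s := Nat.pow_le_pow_right hp.out.pos hs
  have b1 : ‖((p ^ s) • w₂).v‖ ≤ Ω' ^ 2 := by
    refine (norm_nsmul_pow_le L w₂ s).trans ?_
    calc ‖w₂.v‖ ^ (p ^ s) ≤ Ω' ^ (p ^ s) := pow_le_pow_left₀ (norm_nonneg _) hw2 _
      _ ≤ Ω' ^ 2 := pow_le_pow_of_le_one hΩ'0 hΩ'1.le hps
  have b2 : ‖(U • w).v - (U : C) * w.v‖ ≤ Ω' ^ 2 :=
    (norm_nsmul_sub_mul_le L w U).trans (pow_le_pow_left₀ (norm_nonneg _) hw1 2)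
  have b3 : ‖I.v - (U : C) * w.v‖ ≤ Ω' ^ 2 := by
    rw [e2]
    have e3 : (U • w + (p ^ s) • w₂).v - (U : C) * w.v =
        ((U • w + (p ^ s) • w₂).v - (U • w).v) + ((U • w).v - (U : C) * w.v) := by ring
    rw [e3]
    exact (IsUltrametricDist.norm_add_le_max _ _).trans
      (max_le ((norm_add_sub_left _ _).trans b1) b2)
  have hΩ'2 : Ω' ^ 2 ≤ Ω' := by
    rw [pow_two]
    exact mul_le_of_le_one_left hΩ'0 hΩ'1.le
  have b3' : ‖I.v‖ ≤ Ω' := by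
    rw [e2]
    refine (norm_add_le _ _ _).trans (max_le ((norm_nsmul_le L w U).trans hw1) (b1.trans hΩ'2))
  have b4 : ‖y'.v - I.v‖ ≤ δ := by
    rw [norm_sub_rev]
    exact norm_mu_sub_mu_le hδ0 hδ I₀
  have b5 : ‖x'.v - z.v‖ ≤ δ := by
    rw [norm_sub_rev]
    exact norm_mu_sub_mu_le hδ0 hδ α
  have b6 : ‖y'.v‖ ≤ max δ Ω' := by
    have e3 : y'.v = (y'.v - I.v) + I.v := by ring
    rw [e3]
    exact (IsUltrametricDist.norm_add_le_max _ _).trans (max_le_max b4 b3')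
  have b7 : ‖y'.v - (U : C) * w.v‖ ≤ max δ (Ω' ^ 2) := by
    have e3 : y'.v - (U : C) * w.v = (y'.v - I.v) + (I.v - (U : C) * w.v) := by ring
    rw [e3]
    exact (IsUltrametricDist.norm_add_le_max _ _).trans (max_le_max b4 b3)
  have b8 := norm_add_expand x' y'
  have b9 : ‖ψ' - ψ‖ ≤ δ := by
    rw [norm_sub_rev]
    refine norm_f1_sub_f1 z x' hδ0 hδ ?_
    rw [norm_sub_rev]
    exact b5
  have hψ1 : ‖ψ‖ ≤ 1 := norm_OC_le _
  have hψ'1 : ‖ψ'‖ ≤ 1 := norm_OC_le _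
  have hy1 : ‖y'.v‖ ≤ 1 := y'.norm_lt.le
  have b10 : ‖y'.v‖ ^ 2 ≤ ‖y'.v‖ := by
    rw [pow_two]
    exact mul_le_of_le_one_left (norm_nonneg _) hy1
  have b11 : ‖y'.v‖ ^ 2 ≤ max δ (Ω' ^ 2) := by
    rcases le_total δ Ω' with h | h
    · rw [max_eq_right h] at b6
      exact le_max_of_le_right (pow_le_pow_left₀ (norm_nonneg _) b6 2)
    · rw [max_eq_left h] at b6
      exact le_max_of_le_left (b10.trans b6)
  have hmono1 : max δ (Ω' ^ 2) ≤ max δ (Ω ^ 2) :=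
    max_le_max le_rfl (pow_le_pow_left₀ hΩ'0 hΩ'le 2)
  have hmono2 : max δ Ω' ≤ max δ Ω := max_le_max le_rfl hΩ'le
  constructor
  · have e3 : (x' + y').v - z.v - ψ * ((U : C) * w.v) =
        ((x' + y').v - x'.v - ψ' * y'.v) + ((x'.v - z.v) + ((ψ' - ψ) * y'.v + ψ * (y'.v - (U : C) * w.v))) := by
      ring
    rw [e3]
    refine le_trans ?_ hmono1
    refine (IsUltrametricDist.norm_add_le_max _ _).trans (max_le (b8.trans b11) ?_)
    refine (IsUltrametricDist.norm_add_le_max _ _).trans (max_le (b5.trans (le_max_left _ _)) ?_)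
    refine (IsUltrametricDist.norm_add_le_max _ _).trans (max_le ?_ ?_)
    · rw [norm_mul]
      exact le_max_of_le_left ((mul_le_of_le_one_right (norm_nonneg _) hy1).trans b9)
    · rw [norm_mul]
      exact (mul_le_of_le_one_left (norm_nonneg _) hψ1).trans b7
  · have e3 : (x' + y').v - z.v =
        ((x' + y').v - x'.v - ψ' * y'.v) + ((x'.v - z.v) + ψ' * y'.v) := by
      ring
    rw [e3]
    refine le_trans ?_ hmono2
    refine (IsUltrametricDist.norm_add_le_max _ _).trans (max_le (b8.trans (b10.trans b6)) ?_)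
    refine (IsUltrametricDist.norm_add_le_max _ _).trans (max_le (b5.trans (le_max_left _ _)) ?_)
    rw [norm_mul]
    exact (mul_le_of_le_one_left (norm_nonneg _) hψ'1).trans b6

/-- A unit of the closed unit ball has norm one. -/
lemma norm_eq_one_of_isUnit_OC {u : OC C} (hu : IsUnit u) : ‖(u : C)‖ = 1 := by
  obtain ⟨v, hv⟩ := hu.exists_right_inv
  have h1 : ‖(u : C)‖ * ‖(v : C)‖ = 1 := by
    rw [← norm_mul]
    have : ((u : C) * (v : C)) = ((u * v : OC C) : C) := rfl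
    rw [this, hv]
    simp
  have h2 : ‖(u : C)‖ ≤ 1 := norm_OC_le u
  have h3 : ‖(v : C)‖ ≤ 1 := norm_OC_le v
  apply le_antisymm h2
  by_contra h
  push Not at h
  have h4 : ‖(u : C)‖ * ‖(v : C)‖ < 1 :=
    lt_of_le_of_lt (mul_le_of_le_one_right (norm_nonneg _) h3) h
  linarith

/-- The iterate `Kit` is the evaluation of a homomorphism of laws, with unit linear coefficient.
(Induction on `m`, using `isHom_lawOf` for `phiSeq φ₀ τ m`, `IsHom.comp`, `ev1_subst`; the linear coefficient of `K` is a unit: `φ` of it has norm `1`.) -/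
theorem exists_Kit_hom {S : Setting C p n N k} {φ₀ : MvPowerSeries (Fin N) k →+* OC C} (hφ₀ : Adm S φ₀)
    (τ : MvPowerSeries (Fin N) k ≃ₐ[k] MvPowerSeries (Fin N) k) {K : PowerSeries (MvPowerSeries (Fin N) k)}
    (hK : IsHom S.F (S.F.map (τ : MvPowerSeries (Fin N) k →+* MvPowerSeries (Fin N) k)) K)
    (hKu : IsUnit (PowerSeries.coeff 1 K)) (m : ℕ) :
    ∃ (f : PowerSeries (OC C)) (hf : IsHom (lawSeq hφ₀ τ 0).G (lawSeq hφ₀ τ m).G f),
      ‖((PowerSeries.coeff 1 f : OC C) : C)‖ = 1 ∧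
      ∀ x : Pts (lawSeq hφ₀ τ 0).G, (evHom f hf x).o = Kit φ₀ τ K m x.o := by
  induction m with
  | zero =>
    refine ⟨PowerSeries.X, isHom_X _, by simp, fun x => ?_⟩
    exact ev1_X _ _
  | succ m ih =>
    obtain ⟨f, hf, hu, hev⟩ := ih
    have hK' : IsHom (lawSeq hφ₀ τ m).G (lawSeq hφ₀ τ (m + 1)).G (PowerSeries.map (phiSeq φ₀ τ m) K) :=
      isHom_lawOf (adm_phiSeq hφ₀ τ m) τ hK
    refine ⟨PowerSeries.subst f (PowerSeries.map (phiSeq φ₀ τ m) K), hf.comp hK', ?_, fun x => ?_⟩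
    · rw [coeff_one_subst hf.constantCoeff_eq, PowerSeries.coeff_map]
      have e : ((phiSeq φ₀ τ m (PowerSeries.coeff 1 K) * PowerSeries.coeff 1 f : OC C) : C) =
          ((phiSeq φ₀ τ m (PowerSeries.coeff 1 K) : OC C) : C) * ((PowerSeries.coeff 1 f : OC C) : C) := rfl
      rw [e, norm_mul, hu, mul_one]
      exact norm_eq_one_of_isUnit_OC (hKu.map _)
    · have hfs : PowerSeries.HasSubst f := PowerSeries.HasSubst.of_constantCoeff_zero' hf.constantCoeff_eq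
      have h1 : (evHom (PowerSeries.subst f (PowerSeries.map (phiSeq φ₀ τ m) K)) (hf.comp hK') x).o =
          ev1 (RingHom.id _) x.o (PowerSeries.subst f (PowerSeries.map (phiSeq φ₀ τ m) K)) := rfl
      rw [h1, ev1_subst (RingHom.id (OC C)) hfs x.norm_o_lt]
      have h2 : ev1 (RingHom.id (OC C)) x.o f = Kit φ₀ τ K m x.o := hev x
      rw [h2]
      show _ = ev1 (phiSeq φ₀ τ m) (Kit φ₀ τ K m x.o) K
      have hlt : ‖((Kit φ₀ τ K m x.o : OC C) : C)‖ < 1 := by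
        rw [← h2]
        exact lt_of_le_of_lt (norm_ev1_le f hf.constantCoeff_eq x) x.norm_lt
      have h4 := Ev_map (phiSeq φ₀ τ m) (RingHom.id (OC C)) (fun _ : Unit => Kit φ₀ τ K m x.o) (fun _ => hlt) K
      rw [RingHom.id_comp] at h4
      exact h4

/-- The torsion points are multiples of sums of multiples of the points `z`. (Contained in the proof of `torsion_mem_ideal`.) -/
theorem torsion_eq_comb {L₀ L : Law C p n} (hb : IsBase L₀) (hc : Close L₀ L) (hn1 : 1 ≤ n) (ht : ∃ t : C, t ≠ 0 ∧ ‖t‖ < 1)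
    (x : Fin N → Pts L₀.G) (hxT : ∀ i, x i ∈ Lat hb hc)
    {f R : ℕ} (hfR : f + 1 ≤ R)
    (hspan : ∀ y ∈ Lat hb hc, ∃ (a' : Fin N → ℕ), ∃ z ∈ Lat hb hc, (p ^ f) • y = ∑ j, a' j • x j + (p ^ R) • z)
    (w : Pts L.G) (hw : p • w = 0) :
    ∃ a : Fin N → ℕ, w = (p ^ (R - (f + 1))) • ∑ j, a j • mu L₀ L (rti R (x j)) := by
  obtain ⟨β, rfl⟩ := mu_surjective (L₀ := L₀) (L := L) hn1 ht w
  have hy : p • β ∈ Lat hb hc := by
    rw [mem_Lat, mu_nsmul hb hc]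
    exact hw
  obtain ⟨a', z', hz', he⟩ := hspan _ hy
  obtain ⟨q, hq⟩ := Nat.exists_eq_add_of_le hfR
  have hxα : ∀ j, x j = (p ^ R) • rti R (x j) := fun j => (nsmul_pow_rti hb R (x j)).symm
  have e1 : (p ^ (f + 1)) • β = (p ^ (f + 1)) • ((p ^ q) • (∑ j, a' j • rti R (x j) + z')) := by
    have e2 : (p ^ (f + 1)) • β = (p ^ f) • (p • β) := by
      rw [pow_succ, mul_nsmul, smul_comm]
    rw [e2, he, ← mul_nsmul', ← pow_add, ← hq, nsmul_add, Finset.smul_sum]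
    congr 1
    refine Finset.sum_congr rfl fun j _ => ?_
    rw [smul_comm, ← hxα]
  have e3 : β = (p ^ q) • (∑ j, a' j • rti R (x j) + z') := by
    have := congrArg (rti (f + 1)) e1
    rwa [rti_nsmul_pow hb, rti_nsmul_pow hb] at this
  have e4 : mu L₀ L β = (p ^ q) • ∑ j, a' j • mu L₀ L (rti R (x j)) := by
    have hz0 : mu L₀ L z' = 0 := hz'
    rw [e3, mu_nsmul hb hc, mu_add hb hc, hz0, add_zero]
    congr 1
    have := map_sum (muHom hb hc) (fun j => a' j • rti R (x j)) Finset.univ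
    simp only [muHom_apply, map_nsmul] at this
    simpa only [mu_nsmul hb hc] using this
  refine ⟨a', ?_⟩
  have hq' : R - (f + 1) = q := by omega
  rw [hq']
  exact e4

/-- If the leading coefficient does not vanish, then there is at least one coordinate. -/
lemma nonempty_fin_of_ha {h : ℕ} {S : Setting C p n N k} {φ₀ : MvPowerSeries (Fin N) k →+* OC C}
    (hhn : h < n) (ha : φ₀ (PowerSeries.coeff (p ^ h) (mulSeries S.F p)) ≠ 0) : Nonempty (Fin N) := by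
  by_contra hne
  rw [not_nonempty_iff] at hne
  apply ha
  have h0 : PowerSeries.coeff (p ^ h) (mulSeries S.F p) = 0 := by
    ext d
    have hd : d = 0 := Subsingleton.elim _ _
    subst hd
    have h1 := congrArg (PowerSeries.coeff (p ^ h)) (Setting.map_mulSeries S)
    rw [PowerSeries.coeff_map, PowerSeries.coeff_X_pow] at h1
    have hne2 : p ^ h ≠ p ^ n := fun he =>
      absurd (Nat.pow_right_injective hp.out.two_le he) hhn.ne
    rw [if_neg hne2] at h1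
    simpa using h1
  rw [h0, map_zero]

/-- The kernel condition iterates. -/
lemma ker_pow {φ₀ : MvPowerSeries (Fin N) k →+* OC C}
    (τ : MvPowerSeries (Fin N) k ≃ₐ[k] MvPowerSeries (Fin N) k) (hker : ∀ a, φ₀ (τ a) = 0 ↔ φ₀ a = 0)
    (m : ℕ) (a : MvPowerSeries (Fin N) k) : φ₀ ((τ ^ m) a) = 0 ↔ φ₀ a = 0 := by
  induction m generalizing a with
  | zero => rfl
  | succ m ih =>
    rw [pow_succ, AlgEquiv.mul_apply, ih, hker]

/-- Two admissible maps differ by at most `c`, if they are related by `τ ^ m`. -/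
lemma norm_phi_pow_sub_le {S : Setting C p n N k} {φ₀ : MvPowerSeries (Fin N) k →+* OC C} (hφ₀ : Adm S φ₀)
    (τ : MvPowerSeries (Fin N) k ≃ₐ[k] MvPowerSeries (Fin N) k) (m : ℕ) (a : MvPowerSeries (Fin N) k) :
    ‖((φ₀ ((τ ^ m) a) : OC C) : C) - (φ₀ a : OC C)‖ ≤ S.c := by
  set r := MvPowerSeries.constantCoeff a with hr
  set a₀ := a - MvPowerSeries.C r with ha₀
  have h0 : MvPowerSeries.constantCoeff a₀ = 0 := by
    simp [ha₀, hr]
  have h1 : MvPowerSeries.constantCoeff ((τ ^ m) a₀) = 0 := by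
    rw [constantCoeff_alg, h0]
  have e1 : a = a₀ + MvPowerSeries.C r := by
    rw [ha₀]; ring
  have e2 : (τ ^ m) a = (τ ^ m) a₀ + MvPowerSeries.C r := by
    rw [e1, map_add, alg_C]
  have e3 : ((φ₀ ((τ ^ m) a) : OC C) : C) - (φ₀ a : OC C) =
      ((φ₀ ((τ ^ m) a₀) : OC C) : C) - (φ₀ a₀ : OC C) := by
    conv_lhs => rw [e2, e1, map_add, map_add]
    push_cast
    ring
  rw [e3, sub_eq_add_neg]
  refine (IsUltrametricDist.norm_add_le_max _ _).trans (max_le (hφ₀.hc _ h1) ?_)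
  rw [norm_neg]
  exact hφ₀.hc _ h0

/-- The closeness of the twisted laws, from the increment: with the hypotheses of `relation_pair`, for all `a`, `‖φ₀ (τ ^ m a) - φ₀ a‖ ≤ Ωm ^ (q ^ (R - f))`.

Proof. Let `δ = ⨆ a, ‖φ₀ (τ ^ m a) - φ₀ a‖ ≤ c`, `L' = lawSeq m`. The laws differ by at most `δ` (`coeff_lawOf_close`). By `Kit_mu`, and the hypothesis `hgm`, `Kit m (z i) = mu' (α i + Inc i)`, so by `increment_formula`, the displacement of `z i` is at most `max δ (Ω i) ≤ max δ Ωm =: η`.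
If `η = 1`, hmm: `η < 1` as `δ ≤ c < 1`, `Ωm < 1`. By `strong_closeness`, with `E = R - (f + 1)` (`torsion_eq_comb`), and `exists_Kit_hom`, `δ ≤ η ^ (q ^ (R - f))`. If `Ωm < δ` then `δ ≤ δ ^ (q ^ (R - f)) < δ`, as `0 < δ < 1`, a contradiction. So `η = Ωm`, and `δ ≤ Ωm ^ (q ^ (R - f))`. -/
theorem close_of_increment {h : ℕ} {S : Setting C p n N k} {φ₀ : MvPowerSeries (Fin N) k →+* OC C} (hφ₀ : Adm S φ₀)
    (hI : IsLocalRing.maximalIdeal (MvPowerSeries (Fin N) k) =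
      Ideal.span {a | ∃ j, j < p ^ n ∧ a = PowerSeries.coeff j (mulSeries S.F p)})
    (hh1 : 1 ≤ h) (hhn : h < n) (hlow : ∀ j, j < p ^ h → PowerSeries.coeff j (mulSeries S.F p) = 0)
    (ha : φ₀ (PowerSeries.coeff (p ^ h) (mulSeries S.F p)) ≠ 0)
    (τ : MvPowerSeries (Fin N) k ≃ₐ[k] MvPowerSeries (Fin N) k)
    {K : PowerSeries (MvPowerSeries (Fin N) k)} {g : PowerSeries k}
    (hK : IsHom S.F (S.F.map (τ : MvPowerSeries (Fin N) k →+* MvPowerSeries (Fin N) k)) K)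
    (hKg : PowerSeries.map MvPowerSeries.constantCoeff K = g) (hg : IsHom S.Γ S.Γ g)
    (hKu : IsUnit (PowerSeries.coeff 1 K)) (hker : ∀ a, φ₀ (τ a) = 0 ↔ φ₀ a = 0)
    (x : Fin N → Pts (baseLaw S).G) (hxT : ∀ i, x i ∈ Lat (baseLaw_isBase S) (close_lawOf S hφ₀))
    {f R : ℕ} (hfR : f + 1 ≤ R)
    (hspan : ∀ y ∈ Lat (baseLaw_isBase S) (close_lawOf S hφ₀), ∃ (a' : Fin N → ℕ), ∃ z ∈ Lat (baseLaw_isBase S) (close_lawOf S hφ₀),
      (p ^ f) • y = ∑ j, a' j • x j + (p ^ R) • z)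
    (m : ℕ) (y ζ : Fin N → Pts (baseLaw S).G) (e s U : ℕ) (hs : 1 ≤ s)
    (hgm : ∀ i, ((homEnd S hg) ^ m) (rti R (x i)) = rti R (x i) + (p ^ e) • (U • y i + (p ^ s) • ζ i))
    (Ω : Fin N → ℝ) {Ωm : ℝ} (hΩ0 : ∀ i, 0 ≤ Ω i) (hΩm : ∀ i, Ω i ≤ Ωm) (hΩ1 : Ωm < 1)
    (hy : ∀ i, ‖(mu (baseLaw S) (lawOf S φ₀ hφ₀) ((p ^ e) • y i)).v‖ ≤ Ω i)
    (hζ : ∀ i, ‖(mu (baseLaw S) (lawOf S φ₀ hφ₀) ((p ^ e) • ζ i)).v‖ ≤ Ω i)
    (a : MvPowerSeries (Fin N) k) :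
    ‖((φ₀ ((τ ^ m) a) : OC C) : C) - (φ₀ a : OC C)‖ ≤ Ωm ^ (p ^ (h * (R - f))) := by
  obtain ⟨i₀⟩ := nonempty_fin_of_ha (S := S) (φ₀ := φ₀) hhn ha
  have hΩm0 : 0 ≤ Ωm := (hΩ0 i₀).trans (hΩm i₀)
  have hb := baseLaw_isBase S
  have hc := close_lawOf S hφ₀
  have hφ'adm : Adm S (phiSeq φ₀ τ m) := adm_phiSeq hφ₀ τ m
  have hc' : Close (baseLaw S) (lawSeq hφ₀ τ m) := close_lawOf S _
  let D : MvPowerSeries (Fin N) k → ℝ := fun a => ‖((φ₀ ((τ ^ m) a) : OC C) : C) - (φ₀ a : OC C)‖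
  have hDle : ∀ a, D a ≤ S.c := fun a => norm_phi_pow_sub_le hφ₀ τ m a
  set δ : ℝ := ⨆ a, D a with hδdef
  have hbdd : BddAbove (Set.range D) := ⟨S.c, by rintro _ ⟨a, rfl⟩; exact hDle a⟩
  have hleδ : ∀ a, D a ≤ δ := fun a => le_ciSup hbdd a
  have hδ0 : 0 ≤ δ := (norm_nonneg _).trans (hleδ 0)
  have hδc : δ ≤ S.c := ciSup_le hDle
  have hδ1 : δ < 1 := lt_of_le_of_lt hδc S.c1
  have hδ' : ∀ d, ‖((MvPowerSeries.coeff d (lawOf S φ₀ hφ₀).G.toPowerSeries : OC C) : C) -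
      (MvPowerSeries.coeff d (lawSeq hφ₀ τ m).G.toPowerSeries : OC C)‖ ≤ δ := by
    refine coeff_lawOf_close hφ₀ hφ'adm hδ0 (fun b => ?_)
    rw [phiSeq_apply, norm_sub_rev]
    exact hleδ b
  have H : HtLaw (lawOf S φ₀ hφ₀) h := htLaw_lawOf hφ₀ hlow ha
  have H' : HtLaw (lawOf S (phiSeq φ₀ τ m) hφ'adm) h := by
    refine htLaw_lawOf hφ'adm hlow ?_
    rw [phiSeq_apply]
    exact fun h0 => ha ((ker_pow τ hker m _).1 h0)
  obtain ⟨F, hF, hFu, hFev⟩ := exists_Kit_hom hφ₀ τ hK hKu m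
  have ht := H.exists_small hhn
  set z : Fin N → Pts (lawOf S φ₀ hφ₀).G := fun i => mu (baseLaw S) (lawOf S φ₀ hφ₀) (rti R (x i)) with hzdef
  have hz : ∀ w : Pts (lawOf S φ₀ hφ₀).G, p • w = 0 → ∃ a : Fin N → ℕ, w = (p ^ (R - (f + 1))) • ∑ j, a j • z j :=
    fun w hw => torsion_eq_comb hb hc S.hn ht x hxT hfR hspan w hw
  have hη : ∀ j, ‖(evHom F hF (z j)).v - (z j).v‖ ≤ max δ Ωm := by
    intro j
    have h1 := Kit_mu hφ₀ τ hK hKg hg m (rti R (x j))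
    have h2 := hFev (z j)
    have h3 := (increment_formula hb hc hc' hδ0 hδ' (rti R (x j)) (y j) (ζ j) e s U hs (hΩ0 j) (hy j) (hζ j)).2
    rw [← hgm j] at h3
    have h4 : (evHom F hF (z j)).v = (mu (baseLaw S) (lawSeq hφ₀ τ m) ((homEnd S hg ^ m) (rti R (x j)))).v := by
      rw [← h1]
      exact congrArg (fun t : OC C => (t : C)) h2
    rw [h4]
    exact h3.trans (max_le_max le_rfl (hΩm j))
  have hstrong := strong_closeness hφ₀ hφ'adm hI hh1 hhn H H' F hF hFu z (R - (f + 1)) hz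
    (le_max_of_le_left hδ0) (max_lt hδ1 hΩ1) hη
  have hE : R - (f + 1) + 1 = R - f := by omega
  rw [hE] at hstrong
  set Q := p ^ (h * (R - f)) with hQ
  have hQ2 : 2 ≤ Q := by
    have h5 : 1 ≤ h * (R - f) := Nat.one_le_iff_ne_zero.mpr (Nat.mul_ne_zero (by omega) (by omega))
    calc 2 ≤ p := hp.out.two_le
      _ = p ^ 1 := (pow_one p).symm
      _ ≤ Q := Nat.pow_le_pow_right hp.out.pos h5
  have hδle : δ ≤ (max δ Ωm) ^ Q := by
    refine ciSup_le fun b => ?_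
    have h6 := hstrong b
    rw [phiSeq_apply] at h6
    exact h6
  have hfin : max δ Ωm = Ωm := by
    apply max_eq_right
    by_contra hlt
    push Not at hlt
    rw [max_eq_left hlt.le] at hδle
    have hδpos : 0 < δ := lt_of_le_of_lt hΩm0 hlt
    have h7 : δ ^ Q < δ := by
      calc δ ^ Q ≤ δ ^ 2 := pow_le_pow_of_le_one hδ0 hδ1.le hQ2
        _ < δ := by
          rw [pow_two]
          exact mul_lt_of_lt_one_left hδpos hδ1
    linarith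
  rw [hfin] at hδle
  exact (hleδ a).trans hδle

/-- The relation for one pair `(τ, K)`.

Let `z i = mu (rti R (x i))`, `m` a multiple of the period `SD.O`, `hgm` the form of `g ^ m` on `rti R (x i)`, and let `a` vanish at the point `frobPoint z e`. With `v i = Ev (frobPoint z e) (∂_i a)`, `ψ i = f1 (z i)`, `w i = mu (p ^ e' • y i)`:
`‖∑ i, v i * (ψ i * U * w i) ^ (p ^ e i)‖ ≤ max (V * B) B`, if `‖v i‖ ≤ V`, and `B` bounds `(max δ (Ω i ^ 2)) ^ (p ^ e i)` and `((max δ (Ω i)) ^ 2) ^ (p ^ e i)`, where `δ = Ωm ^ (q ^ (R - f))`.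

Proof. By `hay_of_sigma`, `a` vanishes at `frobPoint (Kit m z) e`. `Δ i = (Kit m (z i)) ^ (p ^ e i) - z i ^ (p ^ e i) = h i ^ (p ^ e i)`, with `h i = Kit m (z i) - z i`, (characteristic `p`) and `norm_Ev_taylor_le` with `D` such that `D ^ 2 ≤ B`, gives `‖∑ i, v i * Δ i‖ ≤ B`, hmm: take `D = max_i ‖h i‖ ^ (p ^ e i)`: by `increment_formula`, with `close_of_increment`, `‖h i‖ ≤ max δ (Ω i)`. By `increment_formula` `‖h i - ψ i * U * w i‖ ≤ max δ (Ω i ^ 2)`, so `‖Δ i - (ψ i * U * w i) ^ (p ^ e i)‖ ≤ (max δ (Ω i ^ 2)) ^ (p ^ e i)`, in char `p`. -/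
theorem relation_pair {h : ℕ} {S : Setting C p n N k} {φ₀ : MvPowerSeries (Fin N) k →+* OC C} (hφ₀ : Adm S φ₀)
    (hI : IsLocalRing.maximalIdeal (MvPowerSeries (Fin N) k) =
      Ideal.span {a | ∃ j, j < p ^ n ∧ a = PowerSeries.coeff j (mulSeries S.F p)})
    (hh1 : 1 ≤ h) (hhn : h < n) (hlow : ∀ j, j < p ^ h → PowerSeries.coeff j (mulSeries S.F p) = 0)
    (ha : φ₀ (PowerSeries.coeff (p ^ h) (mulSeries S.F p)) ≠ 0)
    (τ : MvPowerSeries (Fin N) k ≃ₐ[k] MvPowerSeries (Fin N) k)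
    {K : PowerSeries (MvPowerSeries (Fin N) k)} {g : PowerSeries k}
    (hK : IsHom S.F (S.F.map (τ : MvPowerSeries (Fin N) k →+* MvPowerSeries (Fin N) k)) K)
    (hKg : PowerSeries.map MvPowerSeries.constantCoeff K = g) (hg : IsHom S.Γ S.Γ g)
    (hKu : IsUnit (PowerSeries.coeff 1 K)) (hker : ∀ a, φ₀ (τ a) = 0 ↔ φ₀ a = 0)
    (x : Fin N → Pts (baseLaw S).G) (hxT : ∀ i, x i ∈ Lat (baseLaw_isBase S) (close_lawOf S hφ₀))
    {f R : ℕ} (hfR : f + 1 ≤ R)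
    (hspan : ∀ y ∈ Lat (baseLaw_isBase S) (close_lawOf S hφ₀), ∃ (a' : Fin N → ℕ), ∃ z ∈ Lat (baseLaw_isBase S) (close_lawOf S hφ₀),
      (p ^ f) • y = ∑ j, a' j • x j + (p ^ R) • z)
    (SD : SigmaData hφ₀ τ K R) (m : ℕ) (hm : SD.O ∣ m)
    (y ζ : Fin N → Pts (baseLaw S).G) (e' s U : ℕ) (hs : 1 ≤ s)
    (hgm : ∀ i, ((homEnd S hg) ^ m) (rti R (x i)) = rti R (x i) + (p ^ e') • (U • y i + (p ^ s) • ζ i))
    (Ω : Fin N → ℝ) {Ωm : ℝ} (hΩ0 : ∀ i, 0 ≤ Ω i) (hΩm : ∀ i, Ω i ≤ Ωm) (hΩ1 : Ωm < 1)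
    (hy : ∀ i, ‖(mu (baseLaw S) (lawOf S φ₀ hφ₀) ((p ^ e') • y i)).v‖ ≤ Ω i)
    (hζ : ∀ i, ‖(mu (baseLaw S) (lawOf S φ₀ hφ₀) ((p ^ e') • ζ i)).v‖ ≤ Ω i)
    (e : Fin N → ℕ) (a : MvPowerSeries (Fin N) k)
    (ha0 : Ev S.κ (frobPoint p (fun i => (mu (baseLaw S) (lawOf S φ₀ hφ₀) (rti R (x i))).o) e) a = 0)
    {V B : ℝ} (hV0 : 0 ≤ V) (hB0 : 0 ≤ B)
    (hV : ∀ i, ‖((Ev S.κ (frobPoint p (fun i => (mu (baseLaw S) (lawOf S φ₀ hφ₀) (rti R (x i))).o) e)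
      (MvPowerSeries.pderiv k i a) : OC C) : C)‖ ≤ V)
    (hB1 : ∀ i, (max (Ωm ^ (p ^ (h * (R - f)))) (Ω i ^ 2)) ^ (p ^ e i) ≤ B)
    (hB2 : ∀ i, ((max (Ωm ^ (p ^ (h * (R - f)))) (Ω i)) ^ 2) ^ (p ^ e i) ≤ B) :
    ‖∑ i, ((Ev S.κ (frobPoint p (fun i => (mu (baseLaw S) (lawOf S φ₀ hφ₀) (rti R (x i))).o) e)
        (MvPowerSeries.pderiv k i a) : OC C) : C) *
      (((ev1 (RingHom.id _) (mu (baseLaw S) (lawOf S φ₀ hφ₀) (rti R (x i))).o (f1 (lawOf S φ₀ hφ₀).G) : OC C) : C) * ((U : C) *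
        (mu (baseLaw S) (lawOf S φ₀ hφ₀) ((p ^ e') • y i)).v)) ^ (p ^ e i)‖ ≤ max (V * B) B := by
  obtain ⟨i₀⟩ := nonempty_fin_of_ha (S := S) (φ₀ := φ₀) hhn ha
  have hΩm0 : 0 ≤ Ωm := (hΩ0 i₀).trans (hΩm i₀)
  have hb := baseLaw_isBase S
  have hc := close_lawOf S hφ₀
  have hφ'adm : Adm S (phiSeq φ₀ τ m) := adm_phiSeq hφ₀ τ m
  have hc' : Close (baseLaw S) (lawSeq hφ₀ τ m) := close_lawOf S _
  set δ : ℝ := Ωm ^ (p ^ (h * (R - f))) with hδdef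
  have hδ0 : 0 ≤ δ := pow_nonneg hΩm0 _
  have hclose : ∀ a, ‖((φ₀ ((τ ^ m) a) : OC C) : C) - (φ₀ a : OC C)‖ ≤ δ :=
    close_of_increment hφ₀ hI hh1 hhn hlow ha τ hK hKg hg hKu hker x hxT hfR hspan m y ζ e' s U hs hgm Ω hΩ0 hΩm hΩ1 hy hζ
  have hδ' : ∀ d, ‖((MvPowerSeries.coeff d (lawOf S φ₀ hφ₀).G.toPowerSeries : OC C) : C) -
      (MvPowerSeries.coeff d (lawSeq hφ₀ τ m).G.toPowerSeries : OC C)‖ ≤ δ := by
    refine coeff_lawOf_close hφ₀ hφ'adm hδ0 (fun b => ?_)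
    rw [phiSeq_apply, norm_sub_rev]
    exact hclose b
  set z : Fin N → Pts (lawOf S φ₀ hφ₀).G := fun i => mu (baseLaw S) (lawOf S φ₀ hφ₀) (rti R (x i)) with hzdef
  have hzT : ∀ i, (p ^ R) • z i = 0 := fun i => by
    simp only [hzdef]
    rw [← mu_nsmul hb hc, nsmul_pow_rti hb]
    exact hxT i
  have hzero := hay_of_sigma (hφ₀ := hφ₀) hK.constantCoeff_eq SD hm z hzT e a ha0
  set X : Fin N → OC C := frobPoint p (fun i => (z i).o) e with hX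
  set X' : Fin N → OC C := frobPoint p (fun i => Kit φ₀ τ K m (z i).o) e with hX'
  set Δ : Fin N → OC C := X' - X with hΔ
  have hpos : ∀ i, p ^ e i ≠ 0 := fun i => (pow_pos hp.out.pos _).ne'
  have hXlt : ∀ i, ‖(X i : C)‖ < 1 := fun i => by
    have e1 : ((X i : OC C) : C) = (z i).v ^ (p ^ e i) := rfl
    rw [e1, norm_pow]
    exact pow_lt_one₀ (norm_nonneg _) (z i).norm_lt (hpos i)
  have hK0 : PowerSeries.constantCoeff K = 0 := hK.constantCoeff_eq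
  have hKitlt : ∀ i, ‖((Kit φ₀ τ K m (z i).o : OC C) : C)‖ < 1 := fun i =>
    lt_of_le_of_lt (norm_Kit_le φ₀ τ K hK0 m _ (z i).norm_lt) (z i).norm_lt
  have hX'lt : ∀ i, ‖(X' i : C)‖ < 1 := fun i => by
    have e1 : ((X' i : OC C) : C) = ((Kit φ₀ τ K m (z i).o : OC C) : C) ^ (p ^ e i) := rfl
    rw [e1, norm_pow]
    exact pow_lt_one₀ (norm_nonneg _) (hKitlt i) (hpos i)
  have hΔlt : ∀ i, ‖(Δ i : C)‖ < 1 := fun i => by
    have e1 : ((Δ i : OC C) : C) = (X' i : C) - (X i : C) := rfl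
    rw [e1, sub_eq_add_neg]
    refine lt_of_le_of_lt (IsUltrametricDist.norm_add_le_max _ _) (max_lt (hX'lt i) ?_)
    rw [norm_neg]
    exact hXlt i
  -- the displacement
  set w : Fin N → C := fun i => (mu (baseLaw S) (lawOf S φ₀ hφ₀) ((p ^ e') • y i)).v with hw
  set ψ : Fin N → C := fun i => ((ev1 (RingHom.id _) (mu (baseLaw S) (lawOf S φ₀ hφ₀) (rti R (x i))).o (f1 (lawOf S φ₀ hφ₀).G) : OC C) : C) with hψ
  set d : Fin N → C := fun i => ((Kit φ₀ τ K m (z i).o : OC C) : C) - (z i).v with hd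
  have hinc : ∀ i, ‖d i - ψ i * ((U : C) * w i)‖ ≤ max δ (Ω i ^ 2) ∧ ‖d i‖ ≤ max δ (Ω i) := by
    intro i
    have h1 := Kit_mu hφ₀ τ hK hKg hg m (rti R (x i))
    have h3 := increment_formula hb hc hc' hδ0 hδ' (rti R (x i)) (y i) (ζ i) e' s U hs (hΩ0 i) (hy i) (hζ i)
    rw [← hgm i, ← h1] at h3
    exact h3
  -- `Δ` in terms of `d`
  have hΔd : ∀ i, ((Δ i : OC C) : C) = d i ^ (p ^ e i) := fun i => by
    have e1 : ((Δ i : OC C) : C) = ((Kit φ₀ τ K m (z i).o : OC C) : C) ^ (p ^ e i) - (z i).v ^ (p ^ e i) := rfl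
    rw [e1, hd]
    exact (sub_pow_char_pow _ _ _).symm
  have hsqrt : ∀ i, ‖(Δ i : C)‖ ≤ Real.sqrt B := by
    intro i
    apply Real.le_sqrt_of_sq_le
    rw [hΔd, norm_pow, ← pow_mul, mul_comm, pow_mul]
    refine le_trans ?_ (hB2 i)
    refine pow_le_pow_left₀ (by positivity) ?_ _
    exact pow_le_pow_left₀ (norm_nonneg _) (hinc i).2 2
  have htay := norm_Ev_taylor_le S.κ X Δ hXlt hΔlt a (Real.sqrt_nonneg B) hsqrt
  rw [Real.sq_sqrt hB0] at htay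
  have hsum : X + Δ = X' := by
    rw [hΔ]; abel
  rw [hsum] at htay
  have hz1 : Ev S.κ X' a = 0 := hzero
  have hz2 : Ev S.κ X a = 0 := ha0
  rw [hz1, hz2] at htay
  have hE : ‖∑ i, ((Ev S.κ X (MvPowerSeries.pderiv k i a) : OC C) : C) * (Δ i : C)‖ ≤ B := by
    have e1 : (((0 : OC C) : C) - ((0 : OC C) : C) -
        ∑ i, ((Ev S.κ X (MvPowerSeries.pderiv k i a) : OC C) : C) * (Δ i : C)) =
        -∑ i, ((Ev S.κ X (MvPowerSeries.pderiv k i a) : OC C) : C) * (Δ i : C) := by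
      push_cast
      ring
    rw [e1, norm_neg] at htay
    exact htay
  -- comparison
  have hcmp : ∀ i, ‖(Δ i : C) - (ψ i * ((U : C) * w i)) ^ (p ^ e i)‖ ≤ B := by
    intro i
    rw [hΔd, ← sub_pow_char_pow, norm_pow]
    exact (pow_le_pow_left₀ (norm_nonneg _) (hinc i).1 _).trans (hB1 i)
  have hmax : 0 ≤ max (V * B) B := le_max_of_le_right hB0
  have e5 : ∑ i, ((Ev S.κ X (MvPowerSeries.pderiv k i a) : OC C) : C) * (ψ i * ((U : C) * w i)) ^ (p ^ e i) =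
      ∑ i, ((Ev S.κ X (MvPowerSeries.pderiv k i a) : OC C) : C) * (Δ i : C) -
      ∑ i, ((Ev S.κ X (MvPowerSeries.pderiv k i a) : OC C) : C) * ((Δ i : C) - (ψ i * ((U : C) * w i)) ^ (p ^ e i)) := by
    rw [← Finset.sum_sub_distrib]
    refine Finset.sum_congr rfl fun i _ => ?_
    ring
  show ‖∑ i, ((Ev S.κ X (MvPowerSeries.pderiv k i a) : OC C) : C) * (ψ i * ((U : C) * w i)) ^ (p ^ e i)‖ ≤ max (V * B) B
  rw [e5, sub_eq_add_neg]
  refine (IsUltrametricDist.norm_add_le_max _ _).trans (max_le (hE.trans (le_max_right _ _)) ?_)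
  rw [norm_neg]
  refine IsUltrametricDist.norm_sum_le_of_forall_le_of_nonneg hmax (fun i _ => ?_)
  rw [norm_mul]
  exact le_max_of_le_left (mul_le_mul (hV i) (hcmp i) (norm_nonneg _) hV0)

end Vale.Agent.Lib.P217
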