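import Vale.Agent.Lib.P217.HRel
import Vale.Agent.Lib.P217.HLevel

set_option linter.unusedSectionVars false
set_option linter.unusedVariables false

/-!
The relation in the form needed by the analysis theorem.
-/

namespace Vale.Agent.Lib.P217

open scoped Topology
open Filter

variable {C : Type*} [NormedField C] [IsUltrametricDist C] [CompleteSpace C]
variable {p n N : ℕ} [hp : Fact p.Prime] [CharP C p] [IsAlgClosed C]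
variable {k : Type*} [Field k] [Fintype k] [CharP k p]

/-- The constant in the relation. -/
noncomputable def CstRel (p h : ℕ) {N : ℕ} (b : C) (e : Fin N → ℕ) (V : ℝ) : ℝ :=
  max V 1 * (‖b‖⁻¹) ^ (((p ^ h) ^ 2 + 2) * p ^ (∑ i, e i))

/-- The bounds `hB1`, `hB2` of `relation_pair`, in real numbers. -/
theorem rel_numeric {ι : Type*} [Fintype ι] [Nonempty ι] (G : ι → ℝ) {β : ℝ} (hβ0 : 0 < β) (hβ1 : β < 1) {q P : ℕ} (hq : 2 ≤ q)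
    (pe : ι → ℕ) (hpe : ∀ i, pe i ≤ P) (hG0 : ∀ i, 0 ≤ G i) (hG1 : ∀ i, G i ≤ β)
    (hwin : ∀ i j, G i ^ q ≤ G j) {Θ : ℝ} (hΘ : ∀ i, G i ^ pe i ≤ Θ)
    {Ωm : ℝ} (i₀ : ι) (hi₀ : Ωm = G i₀ / β) (i : ι) :
    (max (Ωm ^ (q ^ 2)) ((G i / β) ^ 2)) ^ pe i ≤ Θ ^ 2 * (β⁻¹) ^ ((q ^ 2 + 2) * P) ∧
    ((max (Ωm ^ (q ^ 2)) (G i / β)) ^ 2) ^ pe i ≤ Θ ^ 2 * (β⁻¹) ^ ((q ^ 2 + 2) * P) := by
  have hβi : 1 ≤ β⁻¹ := (one_le_inv₀ hβ0).mpr hβ1.le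
  have hβi0 : 0 ≤ β⁻¹ := by positivity
  have hGle1 : G i ≤ 1 := (hG1 i).trans hβ1.le
  have hGi₀0 := hG0 i₀
  have hG0i := hG0 i
  -- powers of the constant
  have hpow : ∀ m : ℕ, m ≤ (q ^ 2 + 2) * P → (β⁻¹) ^ m ≤ (β⁻¹) ^ ((q ^ 2 + 2) * P) := fun m hm =>
    pow_le_pow_right₀ hβi hm
  have hΘ0 : 0 ≤ G i ^ pe i := pow_nonneg hG0i _
  have hΘ2 : (G i ^ pe i) ^ 2 ≤ Θ ^ 2 := pow_le_pow_left₀ hΘ0 (hΘ i) 2
  -- the term `δ`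
  have hδ : Ωm ^ (q ^ 2) ≤ G i ^ 2 * (β⁻¹) ^ (q ^ 2) := by
    rw [hi₀, div_eq_mul_inv, mul_pow]
    refine mul_le_mul_of_nonneg_right ?_ (pow_nonneg hβi0 _)
    calc G i₀ ^ (q ^ 2) = (G i₀ ^ q) ^ q := by rw [← pow_mul, pow_two]
      _ ≤ G i ^ q := pow_le_pow_left₀ (pow_nonneg hGi₀0 _) (hwin i₀ i) _
      _ ≤ G i ^ 2 := pow_le_pow_of_le_one hG0i hGle1 hq
  have hδ0 : 0 ≤ Ωm ^ (q ^ 2) := by
    rw [hi₀]; positivity
  have hΩm1 : Ωm ≤ 1 := by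
    rw [hi₀]; exact (div_le_one hβ0).mpr (hG1 i₀)
  have hΩm0 : 0 ≤ Ωm := by rw [hi₀]; positivity
  have hδ1 : Ωm ^ (q ^ 2) ≤ 1 := pow_le_one₀ hΩm0 hΩm1
  have hA : 0 ≤ Θ ^ 2 := by positivity
  have hb1 : (Ωm ^ (q ^ 2)) ^ pe i ≤ Θ ^ 2 * (β⁻¹) ^ ((q ^ 2 + 2) * P) := by
    calc (Ωm ^ (q ^ 2)) ^ pe i ≤ (G i ^ 2 * (β⁻¹) ^ (q ^ 2)) ^ pe i := pow_le_pow_left₀ hδ0 hδ _
      _ = (G i ^ pe i) ^ 2 * (β⁻¹) ^ (q ^ 2 * pe i) := by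
        rw [mul_pow, ← pow_mul, ← pow_mul, ← pow_mul, mul_comm 2 (pe i)]
      _ ≤ Θ ^ 2 * (β⁻¹) ^ ((q ^ 2 + 2) * P) := by
        refine mul_le_mul hΘ2 (hpow _ ?_) (pow_nonneg hβi0 _) hA
        exact Nat.mul_le_mul (Nat.le_add_right _ _) (hpe i)
  have hb2 : ((G i / β) ^ 2) ^ pe i ≤ Θ ^ 2 * (β⁻¹) ^ ((q ^ 2 + 2) * P) := by
    calc ((G i / β) ^ 2) ^ pe i = (G i ^ pe i) ^ 2 * (β⁻¹) ^ (2 * pe i) := by
          rw [div_eq_mul_inv, mul_pow, mul_pow, ← pow_mul, ← pow_mul, ← pow_mul, mul_comm 2 (pe i)]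
      _ ≤ Θ ^ 2 * (β⁻¹) ^ ((q ^ 2 + 2) * P) := by
        refine mul_le_mul hΘ2 (hpow _ ?_) (pow_nonneg hβi0 _) hA
        exact Nat.mul_le_mul (Nat.le_add_left _ _) (hpe i)
  constructor
  · rcases le_total (Ωm ^ (q ^ 2)) ((G i / β) ^ 2) with h | h
    · rw [max_eq_right h]; exact hb2
    · rw [max_eq_left h]; exact hb1
  · rcases le_total (Ωm ^ (q ^ 2)) (G i / β) with h | h
    · rw [max_eq_right h]; exact hb2
    · rw [max_eq_left h]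
      refine le_trans ?_ hb1
      refine pow_le_pow_left₀ (by positivity) ?_ _
      exact pow_le_of_le_one hδ0 hδ1 (by norm_num)

/-- The relation, in the form required by `aat`.

Proof. Let `K = e' + M`, `G i = gK L b K (r i)`, `r i = ‖rti M (x i)‖`, `Ω i = G i / ‖b‖`; `Ωm = max_i Ω i`. `‖b‖ ≤ 1`, `Ω i ≤ ‖a‖ < 1` by `LevelData.gK_le`. `hy`, `hζ` of `relation_pair` are given by `LevelData.norm_b_mu_le` at `Y = y i, ζ i`. Let `w i = mu (p ^ e' • y i)`, `ψ i = f1 (z i)`, with `‖ψ i‖ ≤ 1`.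
Let `Θ = G j ^ (p ^ e j) = (w j ^ (p ^ e j)) ^ (q ^ (K - K₀))`, with `w j = gK K₀ (r j)` (by `LevelData.gK_eq`). From `htop` and `LevelData.gK_eq`: `G i ^ (p ^ e i) ≤ Θ` for all `i`.
Let `δ = Ωm ^ (q ^ 2)`, (note `R - f = 2`, so `h * (R - f) = 2 * h`), `Ωm = Ω i*`. By `LevelData.gK_window`, `G i* ^ q ≤ G i`, so `G i* ^ (q ^ 2) ≤ G i ^ q ≤ G i ^ 2`, so `δ ^ (p ^ e i) ≤ (G i ^ (p ^ e i)) ^ 2 * (‖b‖⁻¹) ^ (q ^ 2 * p ^ e i) ≤ Θ ^ 2 * Cb`, where `Cb = (‖b‖⁻¹) ^ ((q ^ 2 + 2) * p ^ (∑ i, e i))` is the constant in `CstRel`, (`‖b‖⁻¹ ≥ 1`, `e i ≤ ∑ e`).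
Similarly `(Ω i ^ 2) ^ (p ^ e i) = (G i ^ (p ^ e i)) ^ 2 * (‖b‖⁻¹) ^ (2 * p ^ e i) ≤ Θ ^ 2 * Cb`. So `hB1`, `hB2` of `relation_pair` hold with `B = Θ ^ 2 * Cb` (`(max δ (Ω i)) ^ 2 = max (δ ^ 2) (Ω i ^ 2)`, `δ ^ 2 ≤ δ`). Conclusion of `relation_pair`: `‖∑ i, v i * (ψ i * (U * w i)) ^ (p ^ e i)‖ ≤ max (V * B) B ≤ max V 1 * B`.
The point `P i = [p ^ K] (d * X i ^ (p ^ z))`, equals `[p ^ K]` at the point `rti M (y i)`, by `hyv` (`ev1_mulSeries`), so by `HtLaw.norm_mu_nsmul_sub_le`, `‖w i - P i‖ ≤ c ^ (q ^ K) ≤ G i ^ 2` (`htiny`). So in characteristic `p`, `‖(ψ i * (U * w i)) ^ (p ^ e i) - (ψ i * (U * P i)) ^ (p ^ e i)‖ ≤ (G i ^ 2) ^ (p ^ e i) ≤ Θ ^ 2`. Finally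
`v i * (ψ i * U / b) ^ (p ^ e i) * (b * P i) ^ (p ^ e i) = v i * (ψ i * (U * P i)) ^ (p ^ e i)`. So the result. -/
theorem rel_of_pair {h : ℕ} {S : Setting C p n N k} {φ₀ : MvPowerSeries (Fin N) k →+* OC C} (hφ₀ : Adm S φ₀)
    (hI : IsLocalRing.maximalIdeal (MvPowerSeries (Fin N) k) =
      Ideal.span {a | ∃ j, j < p ^ n ∧ a = PowerSeries.coeff j (mulSeries S.F p)})
    (hh1 : 1 ≤ h) (hhn : h < n) (hlow : ∀ j, j < p ^ h → PowerSeries.coeff j (mulSeries S.F p) = 0)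
    (ha : φ₀ (PowerSeries.coeff (p ^ h) (mulSeries S.F p)) ≠ 0)
    (τ : MvPowerSeries (Fin N) k ≃ₐ[k] MvPowerSeries (Fin N) k)
    {K : PowerSeries (MvPowerSeries (Fin N) k)} {g : PowerSeries k}
    (hK : IsHom S.F (S.F.map (τ : MvPowerSeries (Fin N) k →+* MvPowerSeries (Fin N) k)) K)
    (hKg : PowerSeries.map MvPowerSeries.constantCoeff K = g) (hg : IsHom S.Γ S.Γ g)
    (hKu : IsUnit (PowerSeries.coeff 1 K)) (hker : ∀ a, φ₀ (τ a) = 0 ↔ φ₀ a = 0)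
    (x : Fin N → Pts (baseLaw S).G) (hxT : ∀ i, x i ∈ Lat (baseLaw_isBase S) (close_lawOf S hφ₀))
    {f : ℕ}
    (hspan : ∀ y ∈ Lat (baseLaw_isBase S) (close_lawOf S hφ₀), ∃ (a' : Fin N → ℕ), ∃ z ∈ Lat (baseLaw_isBase S) (close_lawOf S hφ₀),
      (p ^ f) • y = ∑ j, a' j • x j + (p ^ (f + 2)) • z)
    (SD : SigmaData hφ₀ τ K (f + 2)) (m : ℕ) (hm : SD.O ∣ m)
    {b : C} (hb0 : b ≠ 0) (hbp : b ^ (p ^ h - 1) = aL (lawOf S φ₀ hφ₀) h)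
    {M K₀ Z : ℕ} (D : LevelData (baseLaw S) (lawOf S φ₀ hφ₀) h b x M K₀ Z)
    (y ζ : Fin N → Pts (baseLaw S).G) (e' U : ℕ) 
    (hgm : ∀ i, ((homEnd S hg) ^ m) (rti (f + 2) (x i)) = rti (f + 2) (x i) + (p ^ e') • (U • y i + (p ^ 1) • ζ i))
    (hy : ∀ i, ‖(y i).v‖ ≤ ‖(x i).v‖) (hζ : ∀ i, ‖(ζ i).v‖ ≤ ‖(x i).v‖) (hKe : K₀ ≤ e' + M)
    (d : OC C) (z : ℕ) (hyv : ∀ i, (rti M (y i)).v = (d : C) * (rti M (x i)).v ^ (p ^ z))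
    (e : Fin N → ℕ) (a : MvPowerSeries (Fin N) k)
    (ha0 : Ev S.κ (frobPoint p (fun i => (mu (baseLaw S) (lawOf S φ₀ hφ₀) (rti (f + 2) (x i))).o) e) a = 0)
    (j : Fin N)
    (htop : ∀ i, gK (lawOf S φ₀ hφ₀) b K₀ ‖(rti M (x i)).v‖ ^ (p ^ e i) ≤ gK (lawOf S φ₀ hφ₀) b K₀ ‖(rti M (x j)).v‖ ^ (p ^ e j))
    {V : ℝ} (hV0 : 0 ≤ V)
    (hV : ∀ i, ‖((Ev S.κ (frobPoint p (fun i => (mu (baseLaw S) (lawOf S φ₀ hφ₀) (rti (f + 2) (x i))).o) e)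
      (MvPowerSeries.pderiv k i a) : OC C) : C)‖ ≤ V) :
    ‖∑ i, (((Ev S.κ (frobPoint p (fun i => (mu (baseLaw S) (lawOf S φ₀ hφ₀) (rti (f + 2) (x i))).o) e)
        (MvPowerSeries.pderiv k i a) : OC C) : C) *
      (((ev1 (RingHom.id _) (mu (baseLaw S) (lawOf S φ₀ hφ₀) (rti (f + 2) (x i))).o (f1 (lawOf S φ₀ hφ₀).G) : OC C) : C) * (U : C) / b) ^ (p ^ e i)) *
      (b * ((ev1 (RingHom.id _) (d * (rti M (x i)).o ^ (p ^ z)) (mulSeries (lawOf S φ₀ hφ₀).G (p ^ (e' + M))) : OC C) : C)) ^ (p ^ e i)‖ ≤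
      CstRel p h b e V * (gK (lawOf S φ₀ hφ₀) b K₀ ‖(rti M (x j)).v‖ ^ (p ^ e j)) ^ (2 * (p ^ h) ^ (e' + M - K₀)) := by
  classical
  set L := lawOf S φ₀ hφ₀ with hL
  have H : HtLaw L h := htLaw_lawOf hφ₀ hlow ha
  have hb' : IsBase (baseLaw S) := baseLaw_isBase S
  have hc' : Close (baseLaw S) L := close_lawOf S hφ₀
  have : Nonempty (Fin N) := ⟨j⟩
  have hq : 2 ≤ p ^ h := hp.out.two_le.trans (Nat.le_self_pow (by omega) p)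
  have hq1 : p ^ h - 1 ≠ 0 := by omega
  have hβ0 : 0 < ‖b‖ := norm_pos_iff.mpr hb0
  have ha1 : ‖aL L h‖ < 1 := lt_of_le_of_lt (norm_aL_le_c L hhn) L.c_lt_one
  have hβ1 : ‖b‖ < 1 := by
    have h2 : ‖b‖ ^ (p ^ h - 1) < 1 := by rw [← norm_pow, hbp]; exact ha1
    by_contra h3
    push Not at h3
    exact absurd h2 (not_lt.mpr (one_le_pow₀ h3))
  set K' := e' + M with hK'
  set r : Fin N → ℝ := fun i => ‖(rti M (x i)).v‖ with hr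
  set G : Fin N → ℝ := fun i => gK L b K' (r i) with hG
  have hr0 : ∀ i, 0 < r i := fun i => D.r_pos i
  have hr1 : ∀ i, r i < 1 := fun i => (rti M (x i)).norm_lt
  have hG0 : ∀ i, 0 ≤ G i := fun i =>
    mul_nonneg (norm_nonneg _) (gn_nonneg _ (hr0 i).le (hr1 i).le)
  have hGa : ∀ i, G i ≤ ‖b‖ * ‖aL L h‖ := fun i => D.gK_le i K' hKe
  have hGβ : ∀ i, G i ≤ ‖b‖ := fun i =>
    (hGa i).trans (mul_le_of_le_one_right hβ0.le ha1.le)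
  have hGeq : ∀ i, G i = gK L b K₀ (r i) ^ ((p ^ h) ^ (K' - K₀)) := fun i =>
    D.gK_eq H hh1 hbp i K' hKe
  have hwinG : ∀ i i', G i ^ (p ^ h) ≤ G i' := fun i i' => D.gK_window H hh1 hhn hbp i i' K' hKe
  -- `Θ`
  set Θ : ℝ := G j ^ (p ^ e j) with hΘdef
  have hΘ0 : 0 ≤ Θ := pow_nonneg (hG0 j) _
  have hG0' : ∀ i, 0 ≤ gK L b K₀ (r i) := fun i =>
    mul_nonneg (norm_nonneg _) (gn_nonneg _ (hr0 i).le (hr1 i).le)
  have hΘle : ∀ i, G i ^ (p ^ e i) ≤ Θ := by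
    intro i
    rw [hΘdef, hGeq i, hGeq j, pow_right_comm, pow_right_comm (gK L b K₀ (r j))]
    exact pow_le_pow_left₀ (pow_nonneg (hG0' i) _) (htop i) _
  -- `Ωm`
  set Ω : Fin N → ℝ := fun i => G i / ‖b‖ with hΩ
  obtain ⟨i₀, hi₀⟩ := Finite.exists_max Ω
  set Ωm := Ω i₀ with hΩm
  have hΩ0 : ∀ i, 0 ≤ Ω i := fun i => div_nonneg (hG0 i) hβ0.le
  have hΩ1 : Ωm < 1 := by
    rw [hΩm, hΩ]
    refine (div_lt_one hβ0).mpr (lt_of_le_of_lt (hGa i₀) ?_)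
    exact mul_lt_of_lt_one_right hβ0 ha1
  have hyΩ : ∀ Y : Fin N → Pts (baseLaw S).G, (∀ i, ‖(Y i).v‖ ≤ ‖(x i).v‖) →
      ∀ i, ‖(mu (baseLaw S) L ((p ^ e') • Y i)).v‖ ≤ Ω i := by
    intro Y hY i
    have h2 := D.norm_b_mu_le H hh1 hb' hc' i e' hKe (Y i) (hY i)
    rw [norm_mul, mul_comm] at h2
    exact (le_div_iff₀ hβ0).mpr h2
  -- the bound `B`
  set Cb : ℝ := (‖b‖⁻¹) ^ (((p ^ h) ^ 2 + 2) * p ^ (∑ i, e i)) with hCb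
  set B : ℝ := Θ ^ 2 * Cb with hB
  have hCb1 : 1 ≤ Cb := one_le_pow₀ ((one_le_inv₀ hβ0).mpr hβ1.le)
  have hB0 : 0 ≤ B := by positivity
  have hpe : ∀ i, p ^ e i ≤ p ^ (∑ i, e i) := fun i =>
    Nat.pow_le_pow_right hp.out.pos (Finset.single_le_sum (f := e) (fun _ _ => Nat.zero_le _) (Finset.mem_univ i))
  have hnum := rel_numeric G hβ0 hβ1 hq (fun i => p ^ e i) hpe hG0 hGβ hwinG hΘle i₀ (Ωm := Ωm) rfl
  have hexp : p ^ (h * (f + 2 - f)) = (p ^ h) ^ 2 := by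
    rw [show f + 2 - f = 2 by omega, pow_mul]
  have hpair := relation_pair hφ₀ hI hh1 hhn hlow ha τ hK hKg hg hKu hker x hxT (f := f) (R := f + 2) (by omega) hspan SD m hm y ζ e' 1 U le_rfl
    hgm Ω hΩ0 (fun i => hi₀ i) hΩ1 (hyΩ y hy) (hyΩ ζ hζ) e a ha0 hV0 hB0 hV
    (fun i => by rw [hexp]; exact (hnum i).1) (fun i => by rw [hexp]; exact (hnum i).2)
  -- the comparison
  set v : Fin N → C := fun i => ((Ev S.κ (frobPoint p (fun i => (mu (baseLaw S) L (rti (f + 2) (x i))).o) e)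
      (MvPowerSeries.pderiv k i a) : OC C) : C) with hv
  set ψ : Fin N → C := fun i => ((ev1 (RingHom.id _) (mu (baseLaw S) L (rti (f + 2) (x i))).o (f1 L.G) : OC C) : C) with hψ
  have hψ1 : ∀ i, ‖ψ i‖ ≤ 1 := fun i => norm_OC_le _
  have hU1 : ‖(U : C)‖ ≤ 1 := by
    have : (U : C) = (((U : OC C)) : C) := by simp
    rw [this]
    exact norm_OC_le _
  set w : Fin N → C := fun i => (mu (baseLaw S) L ((p ^ e') • y i)).v with hw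
  set P : Fin N → C := fun i => ((ev1 (RingHom.id _) (d * (rti M (x i)).o ^ (p ^ z)) (mulSeries L.G (p ^ K')) : OC C) : C) with hP
  have hPw : ∀ i, ‖w i - P i‖ ≤ G i ^ 2 := by
    intro i
    have h1 := H.norm_mu_nsmul_sub_le hh1 hb' hc' M e' (y i)
    have h2 : (Pts.cast (rti M (y i)) : Pts L.G).o = d * (rti M (x i)).o ^ (p ^ z) := by
      apply Subtype.ext
      exact hyv i
    have h3 := ev1_mulSeries (Pts.cast (rti M (y i)) : Pts L.G) (p ^ K')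
    rw [h2] at h3
    have h4 : P i = ((p ^ K') • (Pts.cast (rti M (y i)) : Pts L.G)).v := by
      rw [hP]
      exact congrArg (fun u : OC C => (u : C)) h3
    rw [h4]
    exact h1.trans (D.htiny i K' hKe)
  have hterm : ∀ i, ‖v i * (ψ i * ((U : C) * w i)) ^ (p ^ e i) - v i * (ψ i * ((U : C) * P i)) ^ (p ^ e i)‖ ≤ V * Θ ^ 2 := by
    intro i
    rw [← mul_sub, ← sub_pow_char_pow, norm_mul, norm_pow]
    refine mul_le_mul (hV i) ?_ (pow_nonneg (norm_nonneg _) _) hV0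
    have h2 : ‖ψ i * ((U : C) * w i) - ψ i * ((U : C) * P i)‖ ≤ G i ^ 2 := by
      have e3 : ψ i * ((U : C) * w i) - ψ i * ((U : C) * P i) = ψ i * ((U : C) * (w i - P i)) := by ring
      rw [e3, norm_mul, norm_mul]
      refine le_trans ?_ (hPw i)
      have h5 := norm_nonneg (w i - P i)
      calc ‖ψ i‖ * (‖(U : C)‖ * ‖w i - P i‖) ≤ 1 * (1 * ‖w i - P i‖) := by gcongr; exact hψ1 i
        _ = ‖w i - P i‖ := by ring
    calc ‖ψ i * ((U : C) * w i) - ψ i * ((U : C) * P i)‖ ^ (p ^ e i) ≤ (G i ^ 2) ^ (p ^ e i) :=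
          pow_le_pow_left₀ (norm_nonneg _) h2 _
      _ = (G i ^ (p ^ e i)) ^ 2 := by rw [← pow_mul, ← pow_mul, mul_comm]
      _ ≤ Θ ^ 2 := pow_le_pow_left₀ (pow_nonneg (hG0 i) _) (hΘle i) 2
  have hsum : ‖∑ i, v i * (ψ i * ((U : C) * P i)) ^ (p ^ e i)‖ ≤ max V 1 * B := by
    have hθ2 : 0 ≤ Θ ^ 2 := by positivity
    have hthr : 0 ≤ max V 1 * B := mul_nonneg (le_max_of_le_right zero_le_one) hB0
    have h1 : ‖∑ i, v i * (ψ i * ((U : C) * w i)) ^ (p ^ e i)‖ ≤ max V 1 * B := by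
      refine hpair.trans (max_le ?_ ?_)
      · exact mul_le_mul_of_nonneg_right (le_max_left _ _) hB0
      · exact le_mul_of_one_le_left hB0 (le_max_right _ _)
    have h2 : ‖∑ i, (v i * (ψ i * ((U : C) * w i)) ^ (p ^ e i) - v i * (ψ i * ((U : C) * P i)) ^ (p ^ e i))‖ ≤ max V 1 * B := by
      refine IsUltrametricDist.norm_sum_le_of_forall_le_of_nonneg hthr ?_
      intro i _
      refine (hterm i).trans ?_
      refine mul_le_mul (le_max_left _ _) ?_ hθ2 (le_max_of_le_right zero_le_one)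
      exact le_mul_of_one_le_right hθ2 hCb1
    have e4 : ∑ i, v i * (ψ i * ((U : C) * P i)) ^ (p ^ e i) = ∑ i, v i * (ψ i * ((U : C) * w i)) ^ (p ^ e i) -
        ∑ i, (v i * (ψ i * ((U : C) * w i)) ^ (p ^ e i) - v i * (ψ i * ((U : C) * P i)) ^ (p ^ e i)) := by
      rw [Finset.sum_sub_distrib]; ring
    rw [e4, sub_eq_add_neg]
    refine (IsUltrametricDist.norm_add_le_max _ _).trans (max_le h1 ?_)
    rw [norm_neg]
    exact h2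
  -- rewrite the statement
  have e5 : ∀ i, (v i * (ψ i * (U : C) / b) ^ (p ^ e i)) * (b * P i) ^ (p ^ e i) = v i * (ψ i * ((U : C) * P i)) ^ (p ^ e i) := by
    intro i
    rw [mul_assoc, ← mul_pow]
    congr 2
    field_simp
  have e6 : (gK L b K₀ (r j) ^ (p ^ e j)) ^ (2 * (p ^ h) ^ (K' - K₀)) = Θ ^ 2 := by
    have e8 : (gK L b K₀ (r j) ^ ((p ^ h) ^ (K' - K₀))) ^ (p ^ e j) = (gK L b K₀ (r j) ^ (p ^ e j)) ^ ((p ^ h) ^ (K' - K₀)) :=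
      pow_right_comm _ _ _
    rw [hΘdef, hGeq j, e8]
    exact pow_mul' _ _ _
  have e7 : CstRel p h b e V * Θ ^ 2 = max V 1 * B := by
    rw [CstRel, hB, ← hCb]
    ring
  change ‖∑ i, (v i * (ψ i * (U : C) / b) ^ (p ^ e i)) * (b * P i) ^ (p ^ e i)‖ ≤ CstRel p h b e V * (gK L b K₀ (r j) ^ (p ^ e j)) ^ (2 * (p ^ h) ^ (K' - K₀))
  rw [e6, e7, Finset.sum_congr rfl (fun i _ => e5 i)]
  exact hsum

end Vale.Agent.Lib.P217
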