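import Vale.Agent.Lib.P217.HGauss

set_option linter.unusedSectionVars false
set_option linter.unusedVariables false

/-!
The scaled Gauss norms of `[p ^ K]`: scaling in `K`, homogeneity in the radius.
-/

namespace Vale.Agent.Lib.P217

open scoped Topology
open Filter

variable {C : Type*} [NormedField C] [IsUltrametricDist C] [CompleteSpace C]
variable {p n : ℕ} [hp : Fact p.Prime] [CharP C p] [IsAlgClosed C]
variable {L : Law C p n} {h : ℕ}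

/-- The scaled Gauss norm of `[p ^ K]_L` at the radius `r`. -/
noncomputable def gK (L : Law C p n) (b : C) (K : ℕ) (r : ℝ) : ℝ := ‖b‖ * gn (mulSeries L.G (p ^ K)) r

/-- The value of the series `[p ^ K]` at `x`. -/
theorem ev1_pow_eq (L : Law C p n) (K : ℕ) (x : Pts L.G) :
    ev1 (RingHom.id _) x.o (mulSeries L.G (p ^ K)) = ((p ^ K) • x).o := ev1_mulSeries x (p ^ K)

theorem mulSeries_pow_ne_zero (hn : 1 ≤ n) (ht : ∃ t : C, t ≠ 0 ∧ ‖t‖ < 1) (L : Law C p n) (K : ℕ) :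
    mulSeries L.G (p ^ K) ≠ 0 := by
  -- `[p]` is surjective on the points (`nsmul_p_surjective`), and there is a nonzero point
  intro h0
  obtain ⟨t, ht0, ht1⟩ := ht
  have hsurj : ∀ (K : ℕ) (z : Pts L.G), ∃ x : Pts L.G, (p ^ K) • x = z := by
    intro K
    induction K with
    | zero => intro z; exact ⟨z, by simp⟩
    | succ K ih =>
      intro z
      obtain ⟨y, hy⟩ := nsmul_p_surjective L hn ⟨t, ht0, ht1⟩ z
      obtain ⟨x, hx⟩ := ih y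
      refine ⟨x, ?_⟩
      rw [nsmul_pow_succ, hx, hy]
  obtain ⟨x, hx⟩ := hsurj K (Pts.mk t ht1)
  have h1 := ev1_pow_eq L K x
  rw [h0, hx] at h1
  have h2 : ev1 (RingHom.id _) x.o (0 : PowerSeries (OC C)) = 0 :=
    Ev_zero _ _ (fun _ => x.norm_lt)
  rw [h2] at h1
  have h3 : (0 : C) = t := congrArg (fun u : OC C => (u : C)) h1
  exact ht0 h3.symm

theorem constantCoeff_mulSeries_pow (L : Law C p n) (K : ℕ) :
    PowerSeries.constantCoeff (mulSeries L.G (p ^ K)) = 0 := constantCoeff_mulSeries _ _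

/-- The lowest degree of `[p ^ K]` is at least `q ^ K`. -/
theorem HtLaw.coeff_pow_eq_zero (H : HtLaw L h) (K j : ℕ) (hj : j < p ^ (h * K)) :
    PowerSeries.coeff j (mulSeries L.G (p ^ K)) = 0 := by
  have hdvd : ∀ K : ℕ, (PowerSeries.X : PowerSeries (OC C)) ^ (p ^ (h * K)) ∣ mulSeries L.G (p ^ K) := by
    intro K
    induction K with
    | zero => simp [mulSeries_one]
    | succ K ih =>
      have hs : PowerSeries.HasSubst (mulSeries L.G p) :=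
        PowerSeries.HasSubst.of_constantCoeff_zero' (constantCoeff_mulSeries _ _)
      obtain ⟨f₁, hf₁⟩ := ih
      obtain ⟨g₁, hg₁⟩ : (PowerSeries.X : PowerSeries (OC C)) ^ (p ^ h) ∣ mulSeries L.G p :=
        PowerSeries.X_pow_dvd_iff.mpr H.low
      have e : mulSeries L.G (p ^ (K + 1)) = PowerSeries.subst (mulSeries L.G p) (mulSeries L.G (p ^ K)) := by
        rw [pow_succ, mulSeries_mul]
      rw [e, hf₁, PowerSeries.subst_mul hs, PowerSeries.subst_pow hs, PowerSeries.subst_X hs, hg₁, mul_pow, ← pow_mul]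
      have e2 : p ^ h * p ^ (h * K) = p ^ (h * (K + 1)) := by
        rw [← pow_add]; congr 1; ring
      rw [e2, mul_assoc]
      exact dvd_mul_right _ _
  exact (PowerSeries.X_pow_dvd_iff.mp (hdvd K)) j hj

theorem gK_pos (hn : 1 ≤ n) (ht : ∃ t : C, t ≠ 0 ∧ ‖t‖ < 1) (L : Law C p n) {b : C} (hb : b ≠ 0) (K : ℕ) {r : ℝ}
    (h0 : 0 < r) (h1 : r < 1) : 0 < gK L b K r :=
  mul_pos (norm_pos_iff.mpr hb) (gn_pos (mulSeries_pow_ne_zero hn ht L K) h0 h1)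

/-- `‖b [p ^ K] x‖ ≤ gK` -/
theorem norm_le_gK (L : Law C p n) (b : C) (K : ℕ) {r : ℝ} (h1 : r < 1) (x : Pts L.G) (hx : ‖x.v‖ ≤ r) :
    ‖b * ((p ^ K) • x).v‖ ≤ gK L b K r := by
  rw [norm_mul, gK]
  refine mul_le_mul_of_nonneg_left ?_ (norm_nonneg _)
  have h2 := norm_ev1_le_gn (mulSeries L.G (p ^ K)) h1 x.o hx
  rwa [ev1_pow_eq] at h2

/-- The monomial bound. -/
theorem monomial_le_gK (L : Law C p n) (b : C) (K m : ℕ) {r : ℝ} (h0 : 0 ≤ r) (h1 : r ≤ 1) :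
    ‖b * ((PowerSeries.coeff m (mulSeries L.G (p ^ K)) : OC C) : C)‖ * r ^ m ≤ gK L b K r := by
  rw [norm_mul, gK, mul_assoc]
  exact mul_le_mul_of_nonneg_left (le_gn _ h0 h1 m) (norm_nonneg _)

/-- The Cauchy estimate for `gK`: if `‖b [p ^ K] x‖ ≤ T` on the disc of radius `r = ‖π‖` then `gK ≤ T`. -/
theorem gK_le_of_eval (L : Law C p n) (b : C) (K : ℕ) {r : ℝ} (π : C) (hπ : ‖π‖ = r) (h0 : 0 < r) (h1 : r < 1) {T : ℝ}
    (hT0 : 0 ≤ T) (hT : ∀ x : Pts L.G, ‖x.v‖ ≤ r → ‖b * ((p ^ K) • x).v‖ ≤ T) : gK L b K r ≤ T := by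
  by_cases hb : b = 0
  · simpa [gK, hb] using hT0
  have hb0 : 0 < ‖b‖ := norm_pos_iff.mpr hb
  rw [gK]
  have h2 : gn (mulSeries L.G (p ^ K)) r ≤ T / ‖b‖ := by
    refine gn_le_of_eval _ π hπ h0 h1 (div_nonneg hT0 hb0.le) ?_
    intro x hx
    have hxlt : ‖(x : C)‖ < 1 := lt_of_le_of_lt hx h1
    have h3 := hT (Pts.mk (x : C) hxlt) (by simpa using hx)
    have h4 := ev1_pow_eq L K (Pts.mk (x : C) hxlt : Pts L.G)
    have h5 : (Pts.mk (x : C) hxlt : Pts L.G).o = x := rfl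
    rw [h5] at h4
    rw [h4, le_div_iff₀ hb0, mul_comm]
    rw [norm_mul] at h3
    exact h3
  calc ‖b‖ * gn (mulSeries L.G (p ^ K)) r ≤ ‖b‖ * (T / ‖b‖) := mul_le_mul_of_nonneg_left h2 hb0.le
    _ = T := by field_simp

theorem gK_mono (L : Law C p n) (b : C) (K : ℕ) {r r' : ℝ} (h0 : 0 ≤ r) (hr : r ≤ r') (h1 : r' ≤ 1) :
    gK L b K r ≤ gK L b K r' := by
  refine mul_le_mul_of_nonneg_left ?_ (norm_nonneg _)
  refine gn_le _ fun m => ?_
  have h2 := le_gn (mulSeries L.G (p ^ K)) (h0.trans hr) h1 m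
  refine le_trans ?_ h2
  exact mul_le_mul_of_nonneg_left (pow_le_pow_left₀ h0 hr m) (norm_nonneg _)

/-- Strict monotonicity of `gK`: there is a coefficient attaining the norm at `r`, its index is `≥ 1`. -/
theorem gK_lt (hn : 1 ≤ n) (ht : ∃ t : C, t ≠ 0 ∧ ‖t‖ < 1) (L : Law C p n) {b : C} (hb : b ≠ 0) (K : ℕ) {r r' : ℝ}
    (h0 : 0 ≤ r) (hr : r < r') (h1 : r' < 1) : gK L b K r < gK L b K r' := by
  have hr' : 0 < r' := lt_of_le_of_lt h0 hr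
  have hP := mulSeries_pow_ne_zero hn ht L K
  have hg := gn_pos hP hr' h1
  have h2 := gn_le_of_lt (constantCoeff_mulSeries_pow L K) h0 hr.le h1 hr'
  have h3 : r / r' < 1 := (div_lt_one hr').mpr hr
  have h4 : (r / r') * gn (mulSeries L.G (p ^ K)) r' < gn (mulSeries L.G (p ^ K)) r' := by
    nlinarith
  exact mul_lt_mul_of_pos_left (lt_of_le_of_lt h2 h4) (norm_pos_iff.mpr hb)

/-- Scaling in `K`. If `‖[p ^ K] x‖ < ‖a‖` on the disc of radius `r = ‖π‖`, then `gK (K + 1) r = (gK K r) ^ q`.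

Proof. Pointwise, `‖b [p ^ (K + 1)] x‖ = ‖b [p] ([p ^ K] x)‖ = ‖b [p ^ K] x‖ ^ q` by `HtLaw.norm_b_nsmul`. So `gK (K + 1) r ≤ (gK K r) ^ q` by `gK_le_of_eval`.
Conversely, if `T = gK (K + 1) r`, `T' ≥ 0` with `T' ^ q = T`, we have `‖b [p ^ K] x‖ ≤ T'` pointwise so `gK K r ≤ T'` by `gK_le_of_eval`. -/
theorem HtLaw.gK_succ (H : HtLaw L h) (hh1 : 1 ≤ h) {b : C} (hb : b ^ (p ^ h - 1) = aL L h) (K : ℕ) {r : ℝ} (π : C) (hπ : ‖π‖ = r)
    (h0 : 0 < r) (h1 : r < 1) (hsm : ∀ x : Pts L.G, ‖x.v‖ ≤ r → ‖((p ^ K) • x).v‖ < ‖aL L h‖) :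
    gK L b (K + 1) r = gK L b K r ^ (p ^ h) := by
  have hq0 : p ^ h ≠ 0 := pow_ne_zero _ hp.out.ne_zero
  have hpt : ∀ x : Pts L.G, ‖x.v‖ ≤ r → ‖b * ((p ^ (K + 1)) • x).v‖ = ‖b * ((p ^ K) • x).v‖ ^ (p ^ h) := by
    intro x hx
    rw [nsmul_pow_succ]
    exact H.norm_b_nsmul hh1 hb _ (hsm x hx)
  have hnn0 : 0 ≤ gK L b K r := mul_nonneg (norm_nonneg _) (gn_nonneg _ h0.le h1.le)
  have hnn1 : 0 ≤ gK L b (K + 1) r := mul_nonneg (norm_nonneg _) (gn_nonneg _ h0.le h1.le)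
  apply le_antisymm
  · refine gK_le_of_eval L b (K + 1) π hπ h0 h1 (pow_nonneg hnn0 _) ?_
    intro x hx
    rw [hpt x hx]
    exact pow_le_pow_left₀ (norm_nonneg _) (norm_le_gK L b K h1 x hx) _
  · set T := gK L b (K + 1) r with hTdef
    set T' : ℝ := T ^ (((p ^ h : ℕ) : ℝ)⁻¹) with hT'
    have hT'0 : 0 ≤ T' := Real.rpow_nonneg hnn1 _
    have hT'q : T' ^ (p ^ h) = T := Real.rpow_inv_natCast_pow hnn1 hq0
    have h2 : gK L b K r ≤ T' := by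
      refine gK_le_of_eval L b K π hπ h0 h1 hT'0 ?_
      intro x hx
      have h3 := norm_le_gK L b (K + 1) h1 x hx
      rw [hpt x hx, ← hTdef, ← hT'q] at h3
      exact (pow_le_pow_iff_left₀ (norm_nonneg _) hT'0 hq0).mp h3
    calc gK L b K r ^ (p ^ h) ≤ T' ^ (p ^ h) := pow_le_pow_left₀ hnn0 h2 _
      _ = T := hT'q

/-- Comparison of `X ^ Q` with `[p] X`: `gK K (r ^ Q) = gK (K + 1) r` if `c < r ^ Q`.

Proof. For `‖x‖ ≤ r`, with `x' = x ^ Q` (as a point), `‖[p] x - x'‖ ≤ c` (`norm_nsmul_p_sub_pow_le`); so `[p ^ (K + 1)] x = [p ^ K] x' + [p ^ K] η` with `‖η‖ ≤ c`.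
So `‖b ([p ^ (K + 1)] x - [p ^ K] x')‖ ≤ ‖b [p ^ K] η‖ ≤ gK K c`. Moreover `gK K c < gK K (r ^ Q)` (`gK_lt`). All the points of radius at most `r ^ Q` are of the form `x ^ Q` with `‖x‖ ≤ r`.
So from `gK_le_of_eval`: `gK (K + 1) r ≤ max (gK K (r ^ Q)) (gK K c) = gK K (r ^ Q)` and `gK K (r ^ Q) ≤ max (gK (K + 1) r) (gK K c)` whence `gK K (r ^ Q) ≤ gK (K + 1) r`. -/
theorem gK_pow_Q (hn : 1 ≤ n) (ht : ∃ t : C, t ≠ 0 ∧ ‖t‖ < 1) (L : Law C p n) {b : C} (hb0 : b ≠ 0) (K : ℕ) {r : ℝ} (π : C) (hπ : ‖π‖ = r)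
    (h0 : 0 < r) (h1 : r < 1) (hc : L.c < r ^ (p ^ n)) :
    gK L b K (r ^ (p ^ n)) = gK L b (K + 1) r := by
  have hQ0 : p ^ n ≠ 0 := pow_ne_zero _ hp.out.ne_zero
  have hrQ1 : r ^ (p ^ n) < 1 := pow_lt_one₀ h0.le h1 hQ0
  have hrQ0 : 0 < r ^ (p ^ n) := pow_pos h0 _
  have hc1 : L.c < 1 := L.c_lt_one
  have hcl : gK L b K L.c < gK L b K (r ^ (p ^ n)) := gK_lt hn ht L hb0 K L.c_nonneg hc hrQ1
  -- the decomposition
  have key : ∀ x : Pts L.G, ‖x.v‖ ≤ r → ∀ x' : Pts L.G, x'.v = x.v ^ (p ^ n) →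
      ‖b * ((p ^ (K + 1)) • x).v - b * ((p ^ K) • x').v‖ ≤ gK L b K L.c := by
    intro x hx x' hx'
    set η : Pts L.G := p • x - x' with hη
    have hηn : ‖η.v‖ ≤ L.c := by
      rw [hη, norm_sub_law, hx']
      exact norm_nsmul_p_sub_pow_le L x
    have e : (p ^ (K + 1)) • x = (p ^ K) • x' + (p ^ K) • η := by
      rw [← nsmul_add, hη, add_sub_cancel, nsmul_pow_succ, ← mul_nsmul', ← mul_nsmul', mul_comm]
    have h2 := norm_le_gK L b K hc1 η hηn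
    refine le_trans ?_ h2
    rw [e, ← mul_sub, norm_mul, norm_mul]
    exact mul_le_mul_of_nonneg_left (norm_add_sub_left _ _) (norm_nonneg _)
  have hc0 : 0 ≤ gK L b K L.c := mul_nonneg (norm_nonneg _) (gn_nonneg _ L.c_nonneg hc1.le)
  have hg0 : 0 ≤ gK L b K (r ^ (p ^ n)) := hc0.trans hcl.le
  have hg1 : 0 ≤ gK L b (K + 1) r := mul_nonneg (norm_nonneg _) (gn_nonneg _ h0.le h1.le)
  have hpowpt : ∀ x : Pts L.G, ‖x.v‖ ≤ r → ∃ x' : Pts L.G, x'.v = x.v ^ (p ^ n) ∧ ‖x'.v‖ ≤ r ^ (p ^ n) := by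
    intro x hx
    have hn1 : ‖x.v ^ (p ^ n)‖ ≤ r ^ (p ^ n) := by
      rw [norm_pow]; exact pow_le_pow_left₀ (norm_nonneg _) hx _
    exact ⟨Pts.mk (x.v ^ (p ^ n)) (lt_of_le_of_lt hn1 hrQ1), by simp, by simpa using hn1⟩
  apply le_antisymm
  · -- `gK K (r ^ Q) ≤ max (gK (K + 1) r) (gK K c)`
    have hπQ : ‖π ^ (p ^ n)‖ = r ^ (p ^ n) := by rw [norm_pow, hπ]
    have h2 : gK L b K (r ^ (p ^ n)) ≤ max (gK L b (K + 1) r) (gK L b K L.c) := by
      refine gK_le_of_eval L b K (π ^ (p ^ n)) hπQ hrQ0 hrQ1 (le_max_of_le_left hg1) ?_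
      intro y hy
      obtain ⟨z, hz⟩ := IsAlgClosed.exists_pow_nat_eq y.v (Nat.pos_of_ne_zero hQ0)
      have hzn : ‖z‖ ^ (p ^ n) ≤ r ^ (p ^ n) := by
        rw [← norm_pow, hz]; exact hy
      have hzr : ‖z‖ ≤ r := (pow_le_pow_iff_left₀ (norm_nonneg _) h0.le hQ0).mp hzn
      have hz1 : ‖z‖ < 1 := lt_of_le_of_lt hzr h1
      have h3 := key (Pts.mk z hz1) (by simpa using hzr) y (by simpa using hz.symm)
      have h4 := norm_le_gK L b (K + 1) h1 (Pts.mk z hz1) (by simpa using hzr)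
      have e : b * ((p ^ K) • y).v = b * ((p ^ (K + 1)) • (Pts.mk z hz1 : Pts L.G)).v -
          (b * ((p ^ (K + 1)) • (Pts.mk z hz1 : Pts L.G)).v - b * ((p ^ K) • y).v) := by ring
      rw [e, sub_eq_add_neg]
      refine (IsUltrametricDist.norm_add_le_max _ _).trans ?_
      rw [norm_neg]
      exact max_le_max h4 h3
    rcases le_max_iff.mp h2 with h3 | h3
    · exact h3
    · exact absurd hcl (not_lt.mpr h3)
  · refine gK_le_of_eval L b (K + 1) π hπ h0 h1 hg0 ?_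
    intro x hx
    obtain ⟨x', hx', hx'n⟩ := hpowpt x hx
    have h3 := key x hx x' hx'
    have h4 := norm_le_gK L b K hrQ1 x' hx'n
    have e : b * ((p ^ (K + 1)) • x).v = (b * ((p ^ (K + 1)) • x).v - b * ((p ^ K) • x').v) +
        b * ((p ^ K) • x').v := by ring
    rw [e]
    refine (IsUltrametricDist.norm_add_le_max _ _).trans ?_
    exact max_le (h3.trans hcl.le) h4

/-- Homogeneity. -/
theorem HtLaw.gK_homog (H : HtLaw L h) (hh1 : 1 ≤ h) (hhn : h < n) {b : C} (hb : b ^ (p ^ h - 1) = aL L h) (K : ℕ) {r : ℝ} (π : C) (hπ : ‖π‖ = r)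
    (h0 : 0 < r) (h1 : r < 1) (hc : L.c < r ^ (p ^ n))
    (hsm : ∀ x : Pts L.G, ‖x.v‖ ≤ r → ‖((p ^ K) • x).v‖ < ‖aL L h‖) :
    gK L b K (r ^ (p ^ n)) = gK L b K r ^ (p ^ h) := by
  have hn : 1 ≤ n := by omega
  have ht := H.exists_small hhn
  have hb0 : b ≠ 0 := by
    rintro rfl
    have hq : p ^ h - 1 ≠ 0 := by
      have : 2 ≤ p ^ h := (hp.out.two_le.trans (Nat.le_self_pow (by omega) p))
      omega
    rw [zero_pow hq] at hb
    exact H.aL_ne hb.symm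
  rw [gK_pow_Q hn ht L hb0 K π hπ h0 h1 hc, H.gK_succ hh1 hb K π hπ h0 h1 hsm]

end Vale.Agent.Lib.P217
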