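import Vale.Agent.Lib.P217.HAdd
import Vale.Agent.Lib.P217.HMoore

set_option linter.unusedSectionVars false
set_option linter.unusedVariables false

/-!
The vertices of the Newton polygon of `[p ^ K]` at a radius where `[p ^ K]` nearly vanishes at `l` independent points.
-/

namespace Vale.Agent.Lib.P217

open scoped Topology
open Filter

variable {C : Type*} [NormedField C] [IsUltrametricDist C] [CompleteSpace C]
variable {p n : ℕ} [hp : Fact p.Prime] [CharP C p] [IsAlgClosed C]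
variable {L : Law C p n} {h : ℕ}

/-- Extraction of finitely many terms from an ultrametric sum. -/
theorem norm_hasSum_sub_finset_le {f : ℕ → C} {T : C} (hf : HasSum f T) (S : Finset ℕ) {B : ℝ} (hB : 0 ≤ B)
    (hsmall : ∀ m, m ∉ S → ‖f m‖ ≤ B) : ‖T - ∑ m ∈ S, f m‖ ≤ B := by
  classical
  have h1 : HasSum (fun m => if m ∈ S then f m else 0) (∑ m ∈ S, f m) := by
    have h0 : HasSum (fun m => if m ∈ S then f m else 0) (∑ m ∈ S, if m ∈ S then f m else 0) :=
      hasSum_sum_of_ne_finset_zero (fun m hm => if_neg hm)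
    have h3 : ∑ m ∈ S, (if m ∈ S then f m else 0) = ∑ m ∈ S, f m :=
      Finset.sum_congr rfl (fun m hm => if_pos hm)
    rwa [h3] at h0
  have h2 := hf.sub h1
  rw [← h2.tsum_eq]
  refine IsUltrametricDist.norm_tsum_le_of_forall_le_of_nonneg hB fun m => ?_
  by_cases h : m ∈ S
  · simp [h, hB]
  · simpa [h] using hsmall m h

/-- Independence passes to a subfamily given by an embedding. -/
theorem ind_embedding {J J' : Type*} [Fintype J] [Fintype J'] (e : J' ↪ J) (x : J → C) {r : ℝ}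
    (hind : ∀ a : J → ℕ, (∀ i, a i < p) → (∃ i, a i ≠ 0) → ‖∑ i, (a i : C) * x i‖ = r)
    (a : J' → ℕ) (h1 : ∀ i, a i < p) (h2 : ∃ i, a i ≠ 0) : ‖∑ i, (a i : C) * x (e i)‖ = r := by
  classical
  let a' : J → ℕ := Function.extend e a 0
  have ha' : ∀ i, a' (e i) = a i := fun i => e.injective.extend_apply a 0 i
  have ha'' : ∀ j, j ∉ Set.range e → a' j = 0 := fun j hj => by
    simp only [a']
    rw [Function.extend_apply' _ _ _ (fun h => hj h)]
    rfl
  have h3 : ∑ i, (a i : C) * x (e i) = ∑ j, (a' j : C) * x j := by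
    refine Fintype.sum_of_injective e e.injective _ _ (fun j hj => ?_) (fun i => ?_)
    · rw [ha'' j hj]; simp
    · rw [ha']
  rw [h3]
  refine hind a' (fun j => ?_) ?_
  · by_cases hj : j ∈ Set.range e
    · obtain ⟨i, rfl⟩ := hj
      rw [ha']; exact h1 i
    · rw [ha'' j hj]; exact hp.out.pos
  · obtain ⟨i, hi⟩ := h2
    exact ⟨e i, by rw [ha']; exact hi⟩

/-- The vertex lemma.

Let `P = [p ^ K]`, `g = gK L b K r₀`, with `X i`, `i ∈ J`, points of norm `r₀` with `‖b P(X i)‖ < g`, all of whose nontrivial `𝔽_p`-combinations have norm `r₀`. Suppose `g < ‖b‖` (so the second order term `g ^ 2 / ‖b‖` is `< g`),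
and `c ≤ r₀ ^ Q`, and `gK K (r₀ ^ Q) < g` (this last is automatic by `gK_lt`). Then there are two indices `t₀`, `t₁` with `t₁ ≥ t₀ + card J`, such that the monomials of degrees `p ^ t₀`, `p ^ t₁` both attain `g` at radius `r₀`.

Proof. By `monomial_nonpow_le`, the monomials with degree not a power of `p` have norm at most `max (g ^ 2 / ‖b‖) (gK K (r₀ ^ Q)) < g` at radius `r₀`. As the Gauss norm is attained (`exists_gn_attained`), the set `A` of `t` with `‖b c_{p ^ t}‖ r₀ ^ (p ^ t) = g` is nonempty (and finite, since the monomials at radius `r₀` tend to `0`).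
Let `t₀ = min A`, `t₁ = max A`. If `J` is empty we are done, with `t₀ = t₁`. Otherwise suppose `t₁ - t₀ < card J` and let `l = t₁ - t₀ + 1 ≤ card J`. Choose a subfamily `J'` of `l` indices of `J`. Let `π = X i₀`, for some index `i₀ ∈ J`; `ρ i = X i / π`; `ρ' i = ρ i ^ (p ^ t₀)`, `w s = b c_{p ^ (t₀ + s)} π ^ (p ^ (t₀ + s)) / G` for `s < l`, where `G = b c_{p ^ t₀} π ^ (p ^ t₀)`, has norm `g`.
For `i ∈ J'`, `b P(X i) = ∑_{s < l} b c_{p ^ (t₀ + s)} X i ^ (p ^ (t₀ + s)) + Rest i`, where by `exists_lt_gn_of_not_attained` applied to the set of indices which are not of the form `p ^ (t₀ + s)`, `s < l`, `‖Rest i‖ ≤ g' < g`.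
So `∑_{s < l} w s * ρ' i ^ (p ^ s) = (b P(X i) - Rest i) / G`, of norm at most `δ = max (max_i ‖b P(X i)‖) g' / g < 1`. The family `ρ'` on `J'` is independent (`ind_pow`), the bound `moore_bound_transpose` gives `‖w s‖ ≤ δ < 1` for all `s`; but `w 0 = 1`: contradiction. -/
theorem vertex_lemma {J : Type*} [Fintype J] (hn : 1 ≤ n) (ht : ∃ t : C, t ≠ 0 ∧ ‖t‖ < 1) (hadd : AddQ L) {b : C} (hb : b ≠ 0) (K : ℕ) {r₀ : ℝ} (π : C) (hπ : ‖π‖ = r₀) (h0 : 0 < r₀) (h1 : r₀ < 1)
    (hc : L.c ≤ r₀ ^ (p ^ n)) (hg : gK L b K r₀ < ‖b‖)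
    (X : J → Pts L.G) (hX : ∀ i, ‖(X i).v‖ = r₀) (hvan : ∀ i, ‖b * ((p ^ K) • X i).v‖ < gK L b K r₀)
    (hind : ∀ a : J → ℕ, (∀ i, a i < p) → (∃ i, a i ≠ 0) → ‖∑ i, (a i : C) * (X i).v‖ = r₀) :
    ∃ t₀ t₁ : ℕ, t₀ + Fintype.card J ≤ t₁ ∧
      ‖b * ((PowerSeries.coeff (p ^ t₀) (mulSeries L.G (p ^ K)) : OC C) : C)‖ * r₀ ^ (p ^ t₀) = gK L b K r₀ ∧
      ‖b * ((PowerSeries.coeff (p ^ t₁) (mulSeries L.G (p ^ K)) : OC C) : C)‖ * r₀ ^ (p ^ t₁) = gK L b K r₀ := by
  classical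
  set P := mulSeries L.G (p ^ K) with hPdef
  have hP : P ≠ 0 := mulSeries_pow_ne_zero hn ht L K
  set g := gK L b K r₀ with hgdef
  have hgpos : 0 < g := gK_pos hn ht L hb K h0 h1
  have hbpos : 0 < ‖b‖ := norm_pos_iff.mpr hb
  let c : ℕ → C := fun m => ((PowerSeries.coeff m P : OC C) : C)
  let f : ℕ → ℝ := fun m => ‖b * c m‖ * r₀ ^ m
  have hfle : ∀ m, f m ≤ g := fun m => monomial_le_gK L b K m h0.le h1.le
  have hp2 : 2 ≤ p := hp.out.two_le
  have hQ2 : 2 ≤ p ^ n := le_trans hp2 (Nat.le_self_pow (by omega) p)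
  have hrQ : r₀ ^ (p ^ n) < r₀ := by
    calc r₀ ^ (p ^ n) < r₀ ^ 1 := pow_lt_pow_right_of_lt_one₀ h0 h1 (by omega)
      _ = r₀ := pow_one _
  have hnp : ∀ m, (¬ ∃ t, m = p ^ t) → f m < g := by
    intro m hm
    refine lt_of_le_of_lt (monomial_nonpow_le hadd hb K π hπ h0 h1 hc hm) (max_lt ?_ ?_)
    · rw [div_lt_iff₀ hbpos]
      nlinarith
    · exact gK_lt hn ht L hb K (pow_nonneg h0.le _) hrQ h1
  have hfg : ∀ m, f m = ‖b‖ * (‖c m‖ * r₀ ^ m) := fun m => by
    simp only [f, norm_mul, mul_assoc]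
  obtain ⟨m₀, hm₀⟩ := exists_gn_attained hP h0 h1
  have hfm₀ : f m₀ = g := by
    rw [hfg, hgdef, gK]
    congr 1
  obtain ⟨τ, hτ'⟩ : ∃ t, m₀ = p ^ t := by
    by_contra h
    exact absurd hfm₀ (hnp m₀ h).ne
  let A : ℕ → Prop := fun t => f (p ^ t) = g
  have hτ : A τ := by
    change f (p ^ τ) = g
    rw [← hτ']; exact hfm₀
  obtain ⟨T, hT⟩ : ∃ T, ∀ t, T ≤ t → f (p ^ t) < g := by
    have hlim : Tendsto (fun m : ℕ => r₀ ^ m) atTop (𝓝 0) :=
      tendsto_pow_atTop_nhds_zero_of_lt_one h0.le h1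
    obtain ⟨N, hN⟩ := Filter.eventually_atTop.mp (hlim.eventually (gt_mem_nhds (div_pos hgpos hbpos)))
    refine ⟨N, fun t ht' => ?_⟩
    have h2 : N ≤ p ^ t := ht'.trans (Nat.lt_pow_self hp2).le
    have h3 := hN _ h2
    rw [lt_div_iff₀ hbpos] at h3
    rw [hfg]
    have h4 : ‖c (p ^ t)‖ ≤ 1 := norm_OC_le _
    calc ‖b‖ * (‖c (p ^ t)‖ * r₀ ^ p ^ t) ≤ ‖b‖ * (1 * r₀ ^ p ^ t) := by gcongr
      _ = r₀ ^ p ^ t * ‖b‖ := by ring
      _ < g := h3
  have hτT : τ ≤ T := by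
    by_contra hcon
    exact absurd hτ (hT τ (by omega)).ne
  let t₀ := Nat.find (⟨τ, hτ⟩ : ∃ t, A t)
  let t₁ := Nat.findGreatest A T
  have ht₀ : A t₀ := Nat.find_spec (⟨τ, hτ⟩ : ∃ t, A t)
  have ht₁ : A t₁ := Nat.findGreatest_spec hτT hτ
  have hmin : ∀ t, A t → t₀ ≤ t := fun t ht' => Nat.find_min' _ ht'
  have hmax : ∀ t, A t → t ≤ t₁ := by
    intro t ht'
    by_contra hcon
    push Not at hcon
    by_cases htT : t ≤ T
    · exact Nat.findGreatest_is_greatest hcon htT ht'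
    · exact absurd ht' (hT t (by omega)).ne
  have h01 : t₀ ≤ t₁ := hmin _ ht₁
  by_cases hconcl : t₀ + Fintype.card J ≤ t₁
  · exact ⟨t₀, t₁, hconcl, ht₀, ht₁⟩
  exfalso
  push Not at hconcl
  set l : ℕ := t₁ - t₀ + 1 with hldef
  have hl : l ≤ Fintype.card J := by omega
  have hl1 : 0 < l := by omega
  obtain ⟨e⟩ : Nonempty (Fin l ↪ J) :=
    Function.Embedding.nonempty_of_card_le (by simpa using hl)
  let i₀ : J := e ⟨0, hl1⟩
  let π' : C := (X i₀).v
  have hπ'n : ‖π'‖ = r₀ := hX i₀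
  have hπ'0 : π' ≠ 0 := by
    intro h
    rw [h, norm_zero] at hπ'n
    exact h0.ne hπ'n
  let G : C := b * c (p ^ t₀) * π' ^ (p ^ t₀)
  have hGn : ‖G‖ = g := by
    simp only [G]
    rw [norm_mul, norm_pow, hπ'n]
    exact ht₀
  have hG0 : G ≠ 0 := by
    intro h
    rw [h, norm_zero] at hGn
    exact hgpos.ne hGn
  let ρ : Fin l → C := fun i => (X (e i)).v / π'
  have hρn : ∀ i, ‖ρ i‖ = 1 := fun i => by
    simp only [ρ]
    rw [norm_div, hX, hπ'n, div_self h0.ne']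
  have hindρ : ∀ a : Fin l → ℕ, (∀ i, a i < p) → (∃ i, a i ≠ 0) → ‖∑ i, (a i : C) * ρ i‖ = 1 := by
    intro a h1' h2'
    have h3 := ind_embedding (p := p) e (fun j => (X j).v) hind a h1' h2'
    have h4 : ∑ i, (a i : C) * ρ i = (∑ i, (a i : C) * (X (e i)).v) / π' := by
      rw [Finset.sum_div]
      refine Finset.sum_congr rfl fun i _ => ?_
      simp only [ρ]
      ring
    rw [h4, norm_div, h3, hπ'n, div_self h0.ne']
  let ρ' : Fin l → C := fun i => ρ i ^ (p ^ t₀)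
  have hρ'n : ∀ i, ‖ρ' i‖ ≤ 1 := fun i => by
    simp only [ρ']
    rw [norm_pow, hρn, one_pow]
  have hindρ' := ind_pow p ρ hindρ t₀
  -- the finite set of exponents
  let S : Finset ℕ := (Finset.range l).image (fun s => p ^ (t₀ + s))
  have hinj : Function.Injective (fun s : ℕ => p ^ (t₀ + s)) := fun a b hab => by
    have := Nat.pow_right_injective hp2 hab
    omega
  have hAS : ∀ m, m ∉ S → f m < g := by
    intro m hm
    by_cases hpow : ∃ t, m = p ^ t
    · obtain ⟨t, rfl⟩ := hpow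
      refine lt_of_le_of_ne (hfle _) (fun he => hm ?_)
      have h3 := hmin t he
      have h4 := hmax t he
      refine Finset.mem_image.mpr ⟨t - t₀, Finset.mem_range.mpr (by omega), ?_⟩
      congr 1
      omega
    · exact hnp m hpow
  obtain ⟨g'', hg''lt, hg''⟩ := exists_lt_gn_of_not_attained hP h0 h1 {m | m ∉ S} (by
    intro m hm
    have h3 := hAS m hm
    rw [hfg, hgdef, gK] at h3
    exact lt_of_mul_lt_mul_left h3 hbpos.le)
  set g' : ℝ := ‖b‖ * g'' with hg'def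
  have hg'lt : g' < g := by
    rw [hg'def, hgdef, gK]
    exact mul_lt_mul_of_pos_left hg''lt hbpos
  have hfS : ∀ m, m ∉ S → f m ≤ g' := by
    intro m hm
    rw [hfg, hg'def]
    exact mul_le_mul_of_nonneg_left (hg'' m hm) hbpos.le
  have hg'0 : 0 ≤ g' := by
    by_cases hSm : ∃ m, m ∉ S
    · obtain ⟨m, hm⟩ := hSm
      refine le_trans ?_ (hfS m hm)
      exact mul_nonneg (norm_nonneg _) (pow_nonneg h0.le _)
    · exfalso
      push Not at hSm
      exact absurd (hSm (S.sup id + 1)) (fun hmem => by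
        have := Finset.le_sup (f := id) hmem
        simp only [id] at this
        omega)
  -- the values
  let V : Fin l → C := fun i => b * ((p ^ K) • X (e i)).v
  obtain ⟨i₁, -, hi₁⟩ := Finset.exists_max_image (Finset.univ : Finset (Fin l)) (fun i => ‖V i‖)
    ⟨⟨0, hl1⟩, Finset.mem_univ _⟩
  set δ : ℝ := max ‖V i₁‖ g' / g with hδdef
  have hmaxlt : max ‖V i₁‖ g' < g := max_lt (hvan _) hg'lt
  have hδ1 : δ < 1 := (div_lt_one hgpos).mpr hmaxlt
  have hδ0 : 0 ≤ δ := div_nonneg (le_max_of_le_right hg'0) hgpos.le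
  have hsumV : ∀ i : Fin l, HasSum (fun m => b * c m * (X (e i)).v ^ m) (V i) := by
    intro i
    have h3 := (hasSum_ev1 (RingHom.id (OC C)) (x := (X (e i)).o) (X (e i)).norm_o_lt P).map
      (OC C).subtype continuous_subtype_val
    rw [hPdef, ev1_pow_eq] at h3
    have h4 := h3.mul_left b
    have h5 : (fun m => b * c m * (X (e i)).v ^ m) = fun m => b *
        ((OC C).subtype ∘ fun j => (RingHom.id (OC C)) (PowerSeries.coeff j (mulSeries L.G (p ^ K))) *
          (X (e i)).o ^ j) m := by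
      funext m
      simp only [Function.comp, RingHom.id_apply, Subring.subtype_apply]
      rw [mul_assoc]
      rfl
    rw [h5]
    exact h4
  let w : Fin (Fintype.card (Fin l)) → C := fun s =>
    b * c (p ^ (t₀ + (s : ℕ))) * π' ^ (p ^ (t₀ + (s : ℕ))) / G
  have hbound : ∀ i, ‖∑ t : Fin (Fintype.card (Fin l)), w t * ρ' i ^ (p ^ (t : ℕ))‖ ≤ δ := by
    intro i
    have h3 : ∑ t : Fin (Fintype.card (Fin l)), w t * ρ' i ^ (p ^ (t : ℕ)) =
        (∑ m ∈ S, b * c m * (X (e i)).v ^ m) / G := by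
      rw [Finset.sum_image (fun a _ b _ hab => hinj hab), Finset.sum_div]
      have h5 : ∑ t : Fin (Fintype.card (Fin l)), w t * ρ' i ^ (p ^ (t : ℕ)) =
          ∑ s ∈ Finset.range (Fintype.card (Fin l)),
            b * c (p ^ (t₀ + s)) * π' ^ (p ^ (t₀ + s)) / G * ρ' i ^ (p ^ s) :=
        Fin.sum_univ_eq_sum_range (fun s : ℕ => b * c (p ^ (t₀ + s)) * π' ^ (p ^ (t₀ + s)) / G *
          ρ' i ^ (p ^ s)) (Fintype.card (Fin l))
      rw [h5, Fintype.card_fin]
      refine Finset.sum_congr rfl fun s _ => ?_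
      simp only [ρ', ρ]
      rw [← pow_mul, ← pow_add, div_pow]
      field_simp
    rw [h3, norm_div, hGn, hδdef]
    refine div_le_div_of_nonneg_right ?_ hgpos.le
    have h4 := norm_hasSum_sub_finset_le (hsumV i) S hg'0 (fun m hm => by
      have h5 : ‖b * c m * (X (e i)).v ^ m‖ = f m := by
        simp only [f]
        rw [norm_mul _ (_ ^ m), norm_pow, hX]
      rw [h5]
      exact hfS m hm)
    have h6 : (∑ m ∈ S, b * c m * (X (e i)).v ^ m) = V i + -(V i - ∑ m ∈ S, b * c m * (X (e i)).v ^ m) := by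
      ring
    rw [h6]
    refine (IsUltrametricDist.norm_add_le_max _ _).trans ?_
    rw [norm_neg]
    exact max_le_max (hi₁ i (Finset.mem_univ _)) h4
  have hw := moore_bound_transpose p ρ' hρ'n hindρ' w hδ0 hbound ⟨0, by simpa using hl1⟩
  have hw1 : w ⟨0, by simpa using hl1⟩ = 1 := by
    simp only [w, add_zero]
    exact div_self hG0
  rw [hw1, norm_one] at hw
  exact absurd hw (not_le.mpr hδ1)

end Vale.Agent.Lib.P217
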