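import Vale.Agent.Lib.P217.Setup

set_option linter.unusedSectionVars false
set_option linter.unusedVariables false

namespace Vale.Agent.Lib.P217

open scoped Topology
open Filter

variable {C : Type*} [NormedField C] [IsUltrametricDist C] [CompleteSpace C]
variable {p n N : ℕ} [hp : Fact p.Prime] [CharP C p] [IsAlgClosed C]
variable {k : Type*} [Field k] [Finite k] [CharP k p]

/-- The twisted maps `φ ∘ τ ^ m`, by recursion, so that `phiSeq φ₀ τ 0` is `φ₀` and `phiSeq φ₀ τ (m + 1)` is `(phiSeq φ₀ τ m).comp τ` by definition. -/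
noncomputable def phiSeq (φ₀ : MvPowerSeries (Fin N) k →+* OC C) (τ : MvPowerSeries (Fin N) k ≃ₐ[k] MvPowerSeries (Fin N) k) :
    ℕ → (MvPowerSeries (Fin N) k →+* OC C)
  | 0 => φ₀
  | m + 1 => (phiSeq φ₀ τ m).comp (τ : MvPowerSeries (Fin N) k →+* MvPowerSeries (Fin N) k)

theorem phiSeq_apply (φ₀ : MvPowerSeries (Fin N) k →+* OC C) (τ : MvPowerSeries (Fin N) k ≃ₐ[k] MvPowerSeries (Fin N) k)
    (m : ℕ) (a : MvPowerSeries (Fin N) k) : phiSeq φ₀ τ m a = φ₀ ((τ ^ m) a) := by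
  induction m generalizing a with
  | zero => rfl
  | succ m ih =>
    rw [pow_succ, AlgEquiv.mul_apply, ← ih]
    rfl

theorem adm_phiSeq {S : Setting C p n N k} {φ₀} (hφ₀ : Adm S φ₀) (τ : MvPowerSeries (Fin N) k ≃ₐ[k] MvPowerSeries (Fin N) k)
    (m : ℕ) : Adm S (phiSeq φ₀ τ m) := by
  induction m with
  | zero => exact hφ₀
  | succ m ih => exact ih.comp τ

/-- The laws `F^(φ ∘ τ ^ m)`. -/
noncomputable def lawSeq {S : Setting C p n N k} {φ₀} (hφ₀ : Adm S φ₀) (τ : MvPowerSeries (Fin N) k ≃ₐ[k] MvPowerSeries (Fin N) k)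
    (m : ℕ) : Law C p n := lawOf S _ (adm_phiSeq hφ₀ τ m)

/-- Iterates of the lift `K` of `g`. -/
noncomputable def Kit (φ₀ : MvPowerSeries (Fin N) k →+* OC C) (τ : MvPowerSeries (Fin N) k ≃ₐ[k] MvPowerSeries (Fin N) k)
    (K : PowerSeries (MvPowerSeries (Fin N) k)) : ℕ → OC C → OC C
  | 0, x => x
  | m + 1, x => ev1 (phiSeq φ₀ τ m) (Kit φ₀ τ K m x) K

/-- The formula for the iterate: `K_(m) (μ_0 β) = μ_m (g^m β)`.  By induction from `evPt_mu`, with `isHom_lawOf`, `coeff_K_close`, and `Ev_map`. -/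
theorem Kit_mu {S : Setting C p n N k} {φ₀} (hφ₀ : Adm S φ₀) (τ : MvPowerSeries (Fin N) k ≃ₐ[k] MvPowerSeries (Fin N) k)
    {K : PowerSeries (MvPowerSeries (Fin N) k)} {g : PowerSeries k}
    (hK : IsHom S.F (S.F.map (τ : MvPowerSeries (Fin N) k →+* MvPowerSeries (Fin N) k)) K)
    (hKg : PowerSeries.map MvPowerSeries.constantCoeff K = g) (hg : IsHom S.Γ S.Γ g) (m : ℕ) (β : Pts (baseLaw S).G) :
    ((Kit φ₀ τ K m (mu (baseLaw S) (lawSeq hφ₀ τ 0) β).o : OC C) : C) =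
      (mu (baseLaw S) (lawSeq hφ₀ τ m) ((homEnd S hg ^ m) β)).v := by
  induction m with
  | zero =>
    rw [pow_zero]
    rfl
  | succ m ih =>
    set β' := (homEnd S hg ^ m) β with hβ'
    have hK' := isHom_lawOf (adm_phiSeq hφ₀ τ m) τ hK
    have h1 := evPt_mu (baseLaw_isBase S) (L := lawSeq hφ₀ τ m) (L' := lawSeq hφ₀ τ (m + 1))
      (PowerSeries.map (phiSeq φ₀ τ m) K) hK' (PowerSeries.map S.κ g) (isHom_baseLaw S hg) S.c0 S.c1
      (coeff_K_close (adm_phiSeq hφ₀ τ m) hKg) β'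
    have h2 : (homEnd S hg ^ (m + 1)) β = evPt (PowerSeries.map S.κ g) (isHom_baseLaw S hg).constantCoeff_eq β' := by
      rw [pow_succ']
      rfl
    rw [h2, ← h1, evPt_v]
    set y := mu (baseLaw S) (lawSeq hφ₀ τ m) β' with hy
    have h3 : Kit φ₀ τ K m (mu (baseLaw S) (lawSeq hφ₀ τ 0) β).o = y.o := Subtype.ext ih
    show ((ev1 (phiSeq φ₀ τ m) (Kit φ₀ τ K m (mu (baseLaw S) (lawSeq hφ₀ τ 0) β).o) K : OC C) : C) = _
    rw [h3]
    have h4 := Ev_map (phiSeq φ₀ τ m) (RingHom.id (OC C)) (fun _ : Unit => y.o) (fun _ => y.norm_lt) K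
    rw [RingHom.id_comp] at h4
    exact congrArg (fun t : OC C => (t : C)) h4.symm

/-- Kit decreases norms. -/
theorem norm_Kit_le (φ₀ : MvPowerSeries (Fin N) k →+* OC C) (τ : MvPowerSeries (Fin N) k ≃ₐ[k] MvPowerSeries (Fin N) k)
    (K : PowerSeries (MvPowerSeries (Fin N) k)) (hK : PowerSeries.constantCoeff K = 0) (m : ℕ) (x : OC C) (hx : ‖(x : C)‖ < 1) :
    ‖((Kit φ₀ τ K m x : OC C) : C)‖ ≤ ‖(x : C)‖ := by
  induction m with
  | zero => exact le_rfl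
  | succ m ih =>
    show ‖((ev1 (phiSeq φ₀ τ m) (Kit φ₀ τ K m x) K : OC C) : C)‖ ≤ _
    exact norm_Ev_le_of_zero _ _ (fun _ => lt_of_le_of_lt ih hx) K hK (norm_nonneg _) (fun _ => ih)

end Vale.Agent.Lib.P217
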