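import Vale.Agent.Lib.P217.FG2

set_option linter.unusedSectionVars false
set_option linter.unusedVariables false

namespace Vale.Agent.Lib.P217

open scoped Topology
open Filter

variable {C : Type*} [NormedField C] [IsUltrametricDist C] [CompleteSpace C]

section limits

variable {G : FormalGroup (OC C)}

lemma exists_lim_pts (s : ℕ → Pts G) (hc : Tendsto (fun m => (s (m + 1)).v - (s m).v) atTop (𝓝 0))
    {r : ℝ} (hr : r < 1) (hb : ∀ m, ‖(s m).v‖ ≤ r) :
    ∃ l : Pts G, Tendsto (fun m => (s m).v) atTop (𝓝 l.v) ∧ ‖l.v‖ ≤ r := by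
  have hcs : CauchySeq (fun m => (s m).v) :=
    NonarchimedeanAddGroup.cauchySeq_of_tendsto_sub_nhds_zero hc
  obtain ⟨a, ha⟩ := cauchySeq_tendsto_of_complete hcs
  have hnorm : ‖a‖ ≤ r := le_of_tendsto ha.norm (Eventually.of_forall hb)
  refine ⟨Pts.mk a (lt_of_le_of_lt hnorm hr), ?_, ?_⟩
  · simpa using ha
  · simpa using hnorm

lemma tendsto_add_right (x : Pts G) {s : ℕ → Pts G} {l : Pts G}
    (h : Tendsto (fun m => (s m).v) atTop (𝓝 l.v)) :
    Tendsto (fun m => (x + s m).v) atTop (𝓝 (x + l).v) := by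
  rw [tendsto_iff_norm_sub_tendsto_zero] at h ⊢
  refine squeeze_zero (fun _ => norm_nonneg _) (fun m => ?_) h
  exact norm_add_sub_add_le _ _ _ _ (norm_nonneg _) (by simp) le_rfl

lemma tendsto_add_add {s s' : ℕ → Pts G} {l l' : Pts G}
    (h : Tendsto (fun m => (s m).v) atTop (𝓝 l.v))
    (h' : Tendsto (fun m => (s' m).v) atTop (𝓝 l'.v)) :
    Tendsto (fun m => (s m + s' m).v) atTop (𝓝 (l + l').v) := by
  rw [tendsto_iff_norm_sub_tendsto_zero] at h h' ⊢
  have h2 := h.max h'
  rw [max_self] at h2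
  refine squeeze_zero (fun _ => norm_nonneg _) (fun m => ?_) h2
  exact norm_add_sub_add_le _ _ _ _ (le_max_of_le_left (norm_nonneg _)) (le_max_left _ _)
    (le_max_right _ _)

lemma norm_add_sub_left (x y : Pts G) : ‖(x + y).v - x.v‖ ≤ ‖y.v‖ := by
  have := norm_add_sub_add_le x y x 0 (norm_nonneg y.v) (by simp) (by simp)
  rwa [add_zero] at this

end limits

variable (C) (p n : ℕ)

/-- A commutative formal group over `OC C`, congruent modulo a constant `c < 1` to a group with
`[p](X) = X ^ (p ^ n)`, with the series `[p]` a series in `X ^ p`. -/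
structure Law where
  /-- the formal group -/
  G : FormalGroup (OC C)
  /-- commutativity -/
  comm : G.IsComm
  /-- the closeness constant -/
  c : ℝ
  c_nonneg : 0 ≤ c
  c_lt_one : c < 1
  coeff_p : ∀ j, ‖((PowerSeries.coeff j (mulSeries G p) : OC C) : C) - (if j = p ^ n then 1 else 0)‖ ≤ c
  dvd_p : ∀ j, ¬ p ∣ j → PowerSeries.coeff j (mulSeries G p) = 0

variable {C p n}

instance (L : Law C p n) : L.G.IsComm := L.comm

section pmul

variable (L : Law C p n) [hp : Fact p.Prime] [CharP C p]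

lemma norm_pow_sub_pow_le (x y : OC C) (i : ℕ) :
    ‖(((x ^ i - y ^ i : OC C)) : C)‖ ≤ ‖((x - y : OC C) : C)‖ := by
  obtain ⟨w, hw⟩ := sub_dvd_pow_sub_pow x y i
  rw [hw]
  have : (((x - y) * w : OC C) : C) = ((x - y : OC C) : C) * (w : C) := rfl
  rw [this, norm_mul]
  exact mul_le_of_le_one_right (norm_nonneg _) (norm_OC_le w)

lemma hasSum_nsmul_p (x : Pts L.G) :
    HasSum (fun j : ℕ => PowerSeries.coeff j (mulSeries L.G p) * x.o ^ j) (p • x).o := by
  have := hasSum_ev1 (RingHom.id (OC C)) x.norm_o_lt (mulSeries L.G p)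
  rwa [ev1_mulSeries] at this

/-- `[p]` is `p`-contracting. -/
lemma norm_nsmul_p_sub_le (x y : Pts L.G) : ‖(p • x).v - (p • y).v‖ ≤ ‖x.v - y.v‖ ^ p := by
  have h := (hasSum_nsmul_p L x).sub (hasSum_nsmul_p L y)
  have h2 := norm_sum_le_of_hasSum h (pow_nonneg (norm_nonneg (x.v - y.v)) p) ?_
  · exact h2
  · intro j
    have hp0 : p ≠ 0 := hp.out.ne_zero
    by_cases hj : p ∣ j
    · obtain ⟨i, rfl⟩ := hj
      rw [pow_mul, pow_mul, ← mul_sub]
      have h3 : ‖(((PowerSeries.coeff (p * i) (mulSeries L.G p) *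
          ((x.o ^ p) ^ i - (y.o ^ p) ^ i) : OC C)) : C)‖ ≤ ‖(((x.o ^ p) ^ i - (y.o ^ p) ^ i : OC C) : C)‖ := by
        have : ((PowerSeries.coeff (p * i) (mulSeries L.G p) *
          ((x.o ^ p) ^ i - (y.o ^ p) ^ i) : OC C) : C) = ((PowerSeries.coeff (p * i) (mulSeries L.G p) : OC C) : C) * (((x.o ^ p) ^ i - (y.o ^ p) ^ i : OC C) : C) := rfl
        rw [this, norm_mul]
        exact mul_le_of_le_one_left (norm_nonneg _) (norm_OC_le _)
      refine h3.trans ((norm_pow_sub_pow_le _ _ _).trans ?_)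
      have h4 : ((x.o ^ p - y.o ^ p : OC C) : C) = (x.v - y.v) ^ p := by
        have : ((x.o ^ p - y.o ^ p : OC C) : C) = x.v ^ p - y.v ^ p := rfl
        rw [this, sub_pow_char]
      rw [h4, norm_pow]
    · rw [L.dvd_p j hj]
      simp only [zero_mul, sub_self]
      have : (((0 : OC C)) : C) = 0 := rfl
      rw [this, norm_zero]
      positivity

lemma nsmul_pow_succ (x : Pts L.G) (j : ℕ) : (p ^ (j + 1)) • x = p • ((p ^ j) • x) := by
  rw [pow_succ', mul_nsmul']

lemma norm_nsmul_pow_sub_le (x y : Pts L.G) (j : ℕ) :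
    ‖((p ^ j) • x).v - ((p ^ j) • y).v‖ ≤ ‖x.v - y.v‖ ^ (p ^ j) := by
  induction j with
  | zero => simp
  | succ j ih =>
    rw [nsmul_pow_succ, nsmul_pow_succ]
    refine (norm_nsmul_p_sub_le L _ _).trans ?_
    have := pow_le_pow_left₀ (norm_nonneg _) ih p
    refine this.trans (le_of_eq ?_)
    rw [← pow_mul, pow_succ]

lemma norm_nsmul_pow_le (x : Pts L.G) (j : ℕ) : ‖((p ^ j) • x).v‖ ≤ ‖x.v‖ ^ (p ^ j) := by
  have := norm_nsmul_pow_sub_le L x 0 j
  simpa using this

lemma norm_nsmul_le (x : Pts L.G) (m : ℕ) : ‖(m • x).v‖ ≤ ‖x.v‖ := by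
  induction m with
  | zero => simp
  | succ m ih =>
    rw [succ_nsmul]
    exact (norm_add_le _ _ _).trans (max_le ih le_rfl)

lemma tendsto_nsmul_pow (x : Pts L.G) : Tendsto (fun j => ((p ^ j) • x).v) atTop (𝓝 0) := by
  have hp2 : 2 ≤ p := hp.out.two_le
  rw [tendsto_zero_iff_norm_tendsto_zero]
  refine squeeze_zero (fun _ => norm_nonneg _) (fun j => norm_nsmul_pow_le L x j) ?_
  have h1 : Tendsto (fun j : ℕ => ‖x.v‖ ^ j) atTop (𝓝 0) :=
    tendsto_pow_atTop_nhds_zero_of_lt_one (norm_nonneg _) x.norm_lt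
  have h2 : Tendsto (fun j : ℕ => p ^ j) atTop atTop :=
    tendsto_pow_atTop_atTop_of_one_lt hp.out.one_lt
  exact h1.comp h2

/-- The negative of a point, as a limit. -/
lemma exists_neg (x : Pts L.G) : ∃ y : Pts L.G, y + x = 0 := by
  have hp1 : 1 ≤ p := hp.out.one_lt.le
  let s : ℕ → Pts L.G := fun m => (p ^ m - 1) • x
  have h1 : ∀ m, s m + x = (p ^ m) • x := by
    intro m
    simp only [s]
    rw [← succ_nsmul]
    congr 1
    have := Nat.one_le_pow m p hp1
    omega
  have hcs : Tendsto (fun m => (s (m + 1)).v - (s m).v) atTop (𝓝 0) := by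
    rw [tendsto_zero_iff_norm_tendsto_zero]
    have hx := tendsto_nsmul_pow L x
    rw [tendsto_zero_iff_norm_tendsto_zero] at hx
    refine squeeze_zero (fun _ => norm_nonneg _) (fun m => ?_) hx
    have h2 : s (m + 1) = s m + (p - 1) • ((p ^ m) • x) := by
      simp only [s]
      rw [← mul_nsmul', ← add_nsmul]
      congr 1
      have h3 : p ^ (m + 1) = p * p ^ m := pow_succ' p m
      have h4 := Nat.one_le_pow m p hp1
      have h5 : (p - 1) * p ^ m = p * p ^ m - p ^ m := by
        rw [Nat.sub_mul, one_mul]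
      rw [h5, h3]
      have h6 : p ^ m ≤ p * p ^ m := Nat.le_mul_of_pos_left _ hp1
      omega
    rw [h2]
    exact (norm_add_sub_left _ _).trans (norm_nsmul_le L _ _)
  obtain ⟨y, hy, -⟩ := exists_lim_pts s hcs (r := ‖x.v‖) x.norm_lt (fun m => norm_nsmul_le L x _)
  refine ⟨y, ?_⟩
  have h7 : Tendsto (fun m => (s m + x).v) atTop (𝓝 (y + x).v) := by
    have := tendsto_add_right x hy
    simp only [add_comm x] at this
    exact this
  simp only [h1] at h7
  have h8 := tendsto_nhds_unique h7 (tendsto_nsmul_pow L x)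
  exact Pts.ext (by simpa using h8)

noncomputable instance instNegLaw : Neg (Pts L.G) := ⟨fun x => (exists_neg L x).choose⟩

lemma neg_add_law (x : Pts L.G) : -x + x = 0 := (exists_neg L x).choose_spec

/-- The group structure on the points of a law. -/
noncomputable instance instGroupLaw : AddCommGroup (Pts L.G) :=
  { (inferInstance : AddCommMonoid (Pts L.G)), instNegLaw L with
    zsmul := zsmulRec
    neg_add_cancel := neg_add_law L }

end pmul

end Vale.Agent.Lib.P217
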