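import Vale.Agent.Lib.P217.Law

set_option linter.unusedSectionVars false
set_option linter.unusedVariables false

namespace Vale.Agent.Lib.P217

open scoped Topology
open Filter

variable {C : Type*} [NormedField C] [IsUltrametricDist C] [CompleteSpace C]
variable {p n : ℕ} [hp : Fact p.Prime] [CharP C p]

section basics

variable (L : Law C p n)

/-- `[p]` is close to the `p^n`-power map. -/
lemma norm_nsmul_p_sub_pow_le (x : Pts L.G) : ‖(p • x).v - x.v ^ (p ^ n)‖ ≤ L.c := by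
  have h1 := hasSum_nsmul_p L x
  have h2 : HasSum (fun j : ℕ => if j = p ^ n then x.o ^ (p ^ n) else 0) (x.o ^ (p ^ n)) :=
    hasSum_ite_eq (p ^ n) (x.o ^ (p ^ n))
  have h3 := norm_sum_le_of_hasSum (h1.sub h2) L.c_nonneg ?_
  · exact h3
  · intro j
    have hx : ‖((x.o ^ j : OC C) : C)‖ ≤ 1 := norm_OC_le _
    by_cases hj : j = p ^ n
    · subst hj
      have h4 := L.coeff_p (p ^ n)
      simp only [if_true] at h4 ⊢
      have e : ((PowerSeries.coeff (p ^ n) (mulSeries L.G p) * x.o ^ (p ^ n) - x.o ^ (p ^ n) : OC C) : C)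
          = (((PowerSeries.coeff (p ^ n) (mulSeries L.G p) : OC C) : C) - 1) * ((x.o ^ (p ^ n) : OC C) : C) := by
        push_cast; ring
      rw [e, norm_mul]
      exact (mul_le_of_le_one_right (norm_nonneg _) hx).trans h4
    · have h4 := L.coeff_p j
      simp only [if_neg hj, sub_zero] at h4 ⊢
      have e : ((PowerSeries.coeff j (mulSeries L.G p) * x.o ^ j : OC C) : C)
          = ((PowerSeries.coeff j (mulSeries L.G p) : OC C) : C) * ((x.o ^ j : OC C) : C) := by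
        push_cast; ring
      rw [e, norm_mul]
      exact (mul_le_of_le_one_right (norm_nonneg _) hx).trans h4

end basics

/-- Norm of a difference in the group. -/
lemma norm_sub_law (L : Law C p n) (x y : Pts L.G) : ‖(x - y).v‖ = ‖x.v - y.v‖ := by
  apply le_antisymm
  · have h := norm_add_sub_add_le x (-y) y (-y) (norm_nonneg (x.v - y.v)) le_rfl (by simp)
    have e1 : y + -y = 0 := add_neg_cancel y
    rw [e1, ← sub_eq_add_neg] at h
    simpa using h
  · have h := norm_add_sub_add_le (x - y) y 0 y (norm_nonneg ((x - y).v)) (by simp) (by simp)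
    rw [sub_add_cancel, zero_add] at h
    exact h

lemma norm_neg_law (L : Law C p n) (x : Pts L.G) : ‖(-x).v‖ = ‖x.v‖ := by
  have := norm_sub_law L 0 x
  simpa using this

/-- Equal norm for a sum when the norms are different. -/
lemma norm_add_eq_max (L : Law C p n) (x y : Pts L.G) (h : ‖y.v‖ < ‖x.v‖) :
    ‖(x + y).v‖ = ‖x.v‖ := by
  have h1 : ‖(x + y).v‖ ≤ ‖x.v‖ := (norm_add_le _ _ _).trans (max_le le_rfl h.le)
  apply le_antisymm h1
  by_contra h2
  push Not at h2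
  have h3 : x = (x + y) - y := by abel
  have h4 := norm_sub_law L (x + y) y
  rw [← h3] at h4
  have h5 : ‖(x + y).v - y.v‖ ≤ max ‖(x + y).v‖ ‖y.v‖ := by
    rw [sub_eq_add_neg]
    simpa using IsUltrametricDist.norm_add_le_max (x + y).v (-y.v)
  rw [← h4] at h5
  exact absurd h5 (not_le.mpr (max_lt h2 h))

section root

variable [IsAlgClosed C]

/-- `p^n`-th root in the unit ball. -/
noncomputable def qroot (n : ℕ) (p : ℕ) [hp : Fact p.Prime] (x : C) : C :=
  (IsAlgClosed.exists_pow_nat_eq x (Nat.pow_pos (n := n) hp.out.pos)).choose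

lemma qroot_pow (x : C) : qroot n p x ^ (p ^ n) = x :=
  (IsAlgClosed.exists_pow_nat_eq x (Nat.pow_pos (n := n) hp.out.pos)).choose_spec

lemma norm_qroot (x : C) : ‖qroot n p x‖ ^ (p ^ n) = ‖x‖ := by
  rw [← norm_pow, qroot_pow]

lemma norm_qroot_lt {x : C} (hx : ‖x‖ < 1) : ‖qroot n p x‖ < 1 := by
  by_contra h
  push Not at h
  have := one_le_pow₀ h (n := p ^ n)
  rw [norm_qroot] at this
  linarith

end root

/-- The base law: `[p](X) = X^(p^n)` exactly. -/
structure IsBase (L₀ : Law C p n) : Prop where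
  c_eq : L₀.c = 0

variable {L₀ : Law C p n}

lemma IsBase.nsmul_v (h : IsBase L₀) (x : Pts L₀.G) : (p • x).v = x.v ^ (p ^ n) := by
  have := norm_nsmul_p_sub_pow_le L₀ x
  rw [h.c_eq, norm_le_zero_iff, sub_eq_zero] at this
  exact this

section rt

variable [IsAlgClosed C]

/-- The inverse of multiplication by `p` on the base group. -/
noncomputable def rt (x : Pts L₀.G) : Pts L₀.G := Pts.mk (qroot n p x.v) (norm_qroot_lt x.norm_lt)

lemma rt_v (x : Pts L₀.G) : (rt x).v = qroot n p x.v := rfl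

lemma nsmul_rt (h : IsBase L₀) (x : Pts L₀.G) : p • rt x = x := by
  apply Pts.ext
  rw [h.nsmul_v, rt_v, qroot_pow]

lemma nsmul_p_injective (h : IsBase L₀) : Function.Injective (fun x : Pts L₀.G => p • x) := by
  intro x y hxy
  apply Pts.ext
  have h1 : x.v ^ (p ^ n) = y.v ^ (p ^ n) := by
    rw [← h.nsmul_v, ← h.nsmul_v]
    exact congrArg Pts.v hxy
  have h2 : (x.v - y.v) ^ (p ^ n) = 0 := by
    rw [sub_pow_char_pow, h1, sub_self]
  have := pow_eq_zero_iff (n := p ^ n) (Nat.pow_pos hp.out.pos).ne' |>.mp h2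
  exact sub_eq_zero.mp this

lemma rt_nsmul (h : IsBase L₀) (x : Pts L₀.G) : rt (p • x) = x :=
  nsmul_p_injective h (nsmul_rt h _)

/-- `rt` iterated. -/
noncomputable def rti (j : ℕ) (x : Pts L₀.G) : Pts L₀.G := rt^[j] x

lemma rti_zero (x : Pts L₀.G) : rti 0 x = x := rfl

lemma rti_succ (j : ℕ) (x : Pts L₀.G) : rti (j + 1) x = rt (rti j x) :=
  Function.iterate_succ_apply' rt j x

lemma rt_add (h : IsBase L₀) (x y : Pts L₀.G) : rt (x + y) = rt x + rt y := by
  apply nsmul_p_injective h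
  simp only [nsmul_rt h, nsmul_add]

lemma rti_add (h : IsBase L₀) (j : ℕ) (x y : Pts L₀.G) : rti j (x + y) = rti j x + rti j y := by
  induction j with
  | zero => rfl
  | succ j ih => rw [rti_succ, rti_succ, rti_succ, ih, rt_add h]

lemma nsmul_rti_succ (j : ℕ) (x : Pts L₀.G) :
    (rti (j + 1) x).v ^ (p ^ n) = (rti j x).v := by
  rw [rti_succ, rt_v, qroot_pow]

end rt

section mu

variable [IsAlgClosed C]

/-- The approximating sequence of the quasi-logarithm. -/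
noncomputable def nuSeq (L₀ L : Law C p n) (β : Pts L₀.G) (j : ℕ) : Pts L.G :=
  (p ^ j) • (Pts.cast (rti j β) : Pts L.G)

lemma nuSeq_zero (L₀ L : Law C p n) (β : Pts L₀.G) : nuSeq L₀ L β 0 = Pts.cast β := by
  simp [nuSeq, rti_zero]

lemma norm_nuSeq_step (L : Law C p n) (β : Pts L₀.G) (j : ℕ) :
    ‖(nuSeq L₀ L β (j + 1)).v - (nuSeq L₀ L β j).v‖ ≤ L.c ^ (p ^ j) := by
  have e : nuSeq L₀ L β (j + 1) = (p ^ j) • (p • (Pts.cast (rti (j + 1) β) : Pts L.G)) := by
    simp only [nuSeq]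
    rw [pow_succ, mul_nsmul']
  rw [e, nuSeq]
  refine (norm_nsmul_pow_sub_le L _ _ j).trans ?_
  refine pow_le_pow_left₀ (norm_nonneg _) ?_ _
  have h := norm_nsmul_p_sub_pow_le L (Pts.cast (rti (j + 1) β) : Pts L.G)
  rw [Pts.v_cast, nsmul_rti_succ] at h
  exact h

lemma c_pow_le (L : Law C p n) (j : ℕ) : L.c ^ (p ^ j) ≤ L.c := by
  have h1 : 1 ≤ p ^ j := Nat.one_le_pow _ _ hp.out.pos
  calc L.c ^ (p ^ j) ≤ L.c ^ 1 := pow_le_pow_of_le_one L.c_nonneg L.c_lt_one.le h1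
    _ = L.c := pow_one _

lemma tendsto_c_pow (L : Law C p n) : Tendsto (fun j : ℕ => L.c ^ (p ^ j)) atTop (𝓝 0) := by
  have h1 : Tendsto (fun j : ℕ => L.c ^ j) atTop (𝓝 0) :=
    tendsto_pow_atTop_nhds_zero_of_lt_one L.c_nonneg L.c_lt_one
  have h2 : Tendsto (fun j : ℕ => p ^ j) atTop atTop :=
    tendsto_pow_atTop_atTop_of_one_lt hp.out.one_lt
  exact h1.comp h2

lemma norm_nuSeq_sub_le (L : Law C p n) (β : Pts L₀.G) (j : ℕ) :
    ‖(nuSeq L₀ L β j).v - β.v‖ ≤ L.c := by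
  induction j with
  | zero =>
    rw [nuSeq_zero, Pts.v_cast, sub_self, norm_zero]
    exact L.c_nonneg
  | succ j ih =>
    have e : (nuSeq L₀ L β (j + 1)).v - β.v =
        ((nuSeq L₀ L β (j + 1)).v - (nuSeq L₀ L β j).v) + ((nuSeq L₀ L β j).v - β.v) := by ring
    rw [e]
    refine (IsUltrametricDist.norm_add_le_max _ _).trans (max_le ?_ ih)
    exact (norm_nuSeq_step L β j).trans (c_pow_le L j)

lemma norm_nuSeq_le (L : Law C p n) (β : Pts L₀.G) (j : ℕ) :
    ‖(nuSeq L₀ L β j).v‖ ≤ max ‖β.v‖ L.c := by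
  have e : (nuSeq L₀ L β j).v = ((nuSeq L₀ L β j).v - β.v) + β.v := by ring
  rw [e, max_comm]
  refine (IsUltrametricDist.norm_add_le_max _ _).trans ?_
  exact max_le_max (norm_nuSeq_sub_le L β j) le_rfl

lemma tendsto_nuSeq_step (L : Law C p n) (β : Pts L₀.G) :
    Tendsto (fun j => (nuSeq L₀ L β (j + 1)).v - (nuSeq L₀ L β j).v) atTop (𝓝 0) := by
  rw [tendsto_zero_iff_norm_tendsto_zero]
  exact squeeze_zero (fun _ => norm_nonneg _) (norm_nuSeq_step L β) (tendsto_c_pow L)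

lemma max_norm_c_lt (L : Law C p n) (β : Pts L₀.G) : max ‖β.v‖ L.c < 1 :=
  max_lt β.norm_lt L.c_lt_one

/-- The quasi-logarithm `μ_L : (ball, law L₀) → (ball, law L)`. -/
noncomputable def mu (L₀ L : Law C p n) (β : Pts L₀.G) : Pts L.G :=
  (exists_lim_pts (nuSeq L₀ L β) (tendsto_nuSeq_step L β) (max_norm_c_lt L β)
    (norm_nuSeq_le L β)).choose

lemma tendsto_nuSeq (L : Law C p n) (β : Pts L₀.G) :
    Tendsto (fun j => (nuSeq L₀ L β j).v) atTop (𝓝 (mu L₀ L β).v) :=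
  (exists_lim_pts (nuSeq L₀ L β) (tendsto_nuSeq_step L β) (max_norm_c_lt L β)
    (norm_nuSeq_le L β)).choose_spec.1

lemma norm_mu_le (L : Law C p n) (β : Pts L₀.G) : ‖(mu L₀ L β).v‖ ≤ max ‖β.v‖ L.c :=
  (exists_lim_pts (nuSeq L₀ L β) (tendsto_nuSeq_step L β) (max_norm_c_lt L β)
    (norm_nuSeq_le L β)).choose_spec.2

lemma norm_mu_sub_le (L : Law C p n) (β : Pts L₀.G) : ‖(mu L₀ L β).v - β.v‖ ≤ L.c :=
  le_of_tendsto ((tendsto_nuSeq L β).sub_const β.v).norm
    (Eventually.of_forall (norm_nuSeq_sub_le L β))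

/-- Two sequences whose difference tends to zero have the same limit. -/
lemma limit_eq_of_sub_tendsto {a b : ℕ → C} {x y : C} (ha : Tendsto a atTop (𝓝 x))
    (hb : Tendsto b atTop (𝓝 y)) (hab : Tendsto (fun j => a j - b j) atTop (𝓝 0)) : x = y := by
  have := tendsto_nhds_unique (ha.sub hb) hab
  exact sub_eq_zero.mp this

/-- `L` is congruent to `L₀` modulo `L.c`. -/
def Close (L₀ L : Law C p n) : Prop :=
  ∀ d, ‖((MvPowerSeries.coeff d L.G.toPowerSeries : OC C) : C) -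
    (MvPowerSeries.coeff d L₀.G.toPowerSeries : OC C)‖ ≤ L.c

lemma norm_add_cast_sub {L : Law C p n} (hc : Close L₀ L) (x y : Pts L₀.G) :
    ‖((Pts.cast x + Pts.cast y : Pts L.G)).v - (x + y).v‖ ≤ L.c := by
  refine norm_Ev_sub_le _ _ _ _ (hb2 _ _) (hb2 x y) _ _ L.c_nonneg (fun d => by simpa using hc d) ?_
  intro s
  have h0 : 0 ≤ L.c := L.c_nonneg
  fin_cases s
  · change ‖x.v - x.v‖ ≤ L.c
    simpa using h0
  · change ‖y.v - y.v‖ ≤ L.c
    simpa using h0

lemma mu_add (hb : IsBase L₀) {L : Law C p n} (hc : Close L₀ L) (x y : Pts L₀.G) :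
    mu L₀ L (x + y) = mu L₀ L x + mu L₀ L y := by
  apply Pts.ext
  refine limit_eq_of_sub_tendsto (tendsto_nuSeq L (x + y))
    (tendsto_add_add (tendsto_nuSeq L x) (tendsto_nuSeq L y)) ?_
  rw [tendsto_zero_iff_norm_tendsto_zero]
  refine squeeze_zero (fun _ => norm_nonneg _) (fun j => ?_) (tendsto_c_pow L)
  simp only [nuSeq]
  rw [← nsmul_add, rti_add hb]
  refine (norm_nsmul_pow_sub_le L _ _ j).trans (pow_le_pow_left₀ (norm_nonneg _) ?_ _)
  rw [norm_sub_rev]
  exact norm_add_cast_sub hc _ _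

/-- The quasi-logarithm as a group homomorphism. -/
noncomputable def muHom (hb : IsBase L₀) {L : Law C p n} (hc : Close L₀ L) :
    Pts L₀.G →+ Pts L.G :=
  AddMonoidHom.mk' (mu L₀ L) (mu_add hb hc)

@[simp] lemma muHom_apply (hb : IsBase L₀) {L : Law C p n} (hc : Close L₀ L) (x : Pts L₀.G) :
    muHom hb hc x = mu L₀ L x := rfl

lemma nsmul_pow_rti (hb : IsBase L₀) (j : ℕ) (x : Pts L₀.G) : (p ^ j) • rti j x = x := by
  induction j with
  | zero => simp [rti_zero]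
  | succ j ih =>
    rw [rti_succ, pow_succ, mul_nsmul', nsmul_rt hb, ih]

lemma rti_nsmul_pow (hb : IsBase L₀) (j : ℕ) (x : Pts L₀.G) : rti j ((p ^ j) • x) = x := by
  induction j generalizing x with
  | zero => simp [rti_zero]
  | succ j ih =>
    rw [rti_succ, pow_succ, mul_nsmul', ih, rt_nsmul hb]

lemma mu_nsmul (hb : IsBase L₀) {L : Law C p n} (hc : Close L₀ L) (m : ℕ) (x : Pts L₀.G) :
    mu L₀ L (m • x) = m • mu L₀ L x :=
  map_nsmul (muHom hb hc) m x

/-- Bound for `μ` via roots. -/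
lemma norm_mu_le_root (hb : IsBase L₀) {L : Law C p n} (hc : Close L₀ L) (i : ℕ) (x : Pts L₀.G) :
    ‖(mu L₀ L x).v‖ ≤ max ‖(rti i x).v‖ L.c ^ (p ^ i) := by
  have e : mu L₀ L x = (p ^ i) • mu L₀ L (rti i x) := by
    rw [← mu_nsmul hb hc, nsmul_pow_rti hb]
  rw [e]
  refine (norm_nsmul_pow_le L _ i).trans (pow_le_pow_left₀ (norm_nonneg _) (norm_mu_le L _) _)

lemma norm_rti_pow (hb : IsBase L₀) (i : ℕ) (x : Pts L₀.G) :
    ‖(rti i x).v‖ ^ (p ^ (n * i)) = ‖x.v‖ := by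
  induction i with
  | zero => simp [rti_zero]
  | succ i ih =>
    rw [rti_succ, rt_v, Nat.mul_succ, pow_add, mul_comm (p ^ (n * i)), pow_mul, norm_qroot, ih]

/-- Continuity of `μ` at zero. -/
lemma mu_small (hb : IsBase L₀) {L : Law C p n} (hc : Close L₀ L) {ε : ℝ} (hε : 0 < ε) :
    ∃ δ : ℝ, 0 < δ ∧ ∀ x : Pts L₀.G, ‖x.v‖ < δ → ‖(mu L₀ L x).v‖ < ε := by
  set κ : ℝ := (1 + L.c) / 2 with hκ
  have hκ0 : 0 < κ := by have := L.c_nonneg; positivity
  have hκ1 : κ < 1 := by have := L.c_lt_one; rw [hκ]; linarith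
  have hcκ : L.c ≤ κ := by have := L.c_lt_one; rw [hκ]; linarith
  have h1 : Tendsto (fun j : ℕ => κ ^ j) atTop (𝓝 0) :=
    tendsto_pow_atTop_nhds_zero_of_lt_one hκ0.le hκ1
  have h2 : Tendsto (fun j : ℕ => p ^ j) atTop atTop :=
    tendsto_pow_atTop_atTop_of_one_lt hp.out.one_lt
  obtain ⟨i, hi⟩ := ((h1.comp h2).eventually (gt_mem_nhds hε)).exists
  refine ⟨κ ^ (p ^ (n * i)), by positivity, fun x hx => ?_⟩
  refine lt_of_le_of_lt (norm_mu_le_root hb hc i x) (lt_of_le_of_lt ?_ hi)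
  refine pow_le_pow_left₀ (le_max_of_le_right L.c_nonneg) (max_le ?_ hcκ) _
  by_contra h
  push Not at h
  rw [← norm_rti_pow hb i x] at hx
  exact absurd hx (not_lt.mpr (pow_le_pow_left₀ hκ0.le h.le _))

/-- Comparison of the multiples for two laws. -/
lemma norm_nsmul_sub_nsmul_le {L L' : Law C p n} {ε : ℝ} (hε : 0 ≤ ε)
    (hc : ∀ d, ‖((MvPowerSeries.coeff d L.G.toPowerSeries : OC C) : C) -
      (MvPowerSeries.coeff d L'.G.toPowerSeries : OC C)‖ ≤ ε)
    (x : Pts L.G) (x' : Pts L'.G) (hx : ‖x.v - x'.v‖ ≤ ε) (m : ℕ) :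
    ‖(m • x).v - (m • x').v‖ ≤ ε := by
  induction m with
  | zero => simpa using hε
  | succ m ih =>
    rw [succ_nsmul, succ_nsmul]
    refine norm_Ev_sub_le _ _ _ _ (hb2 _ _) (hb2 _ _) _ _ hε (fun d => by simpa using hc d) ?_
    intro s
    fin_cases s
    · exact ih
    · exact hx

/-- `μ` depends continuously on the law. -/
lemma norm_mu_sub_mu_le {L L' : Law C p n} {ε : ℝ} (hε : 0 ≤ ε)
    (hc : ∀ d, ‖((MvPowerSeries.coeff d L.G.toPowerSeries : OC C) : C) -
      (MvPowerSeries.coeff d L'.G.toPowerSeries : OC C)‖ ≤ ε) (β : Pts L₀.G) :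
    ‖(mu L₀ L β).v - (mu L₀ L' β).v‖ ≤ ε := by
  refine le_of_tendsto ((tendsto_nuSeq L β).sub (tendsto_nuSeq L' β)).norm
    (Eventually.of_forall fun j => ?_)
  exact norm_nsmul_sub_nsmul_le hε hc _ _ (by simpa using hε) _

end mu

section compat

lemma coeff_unit {R : Type*} [CommRing R] (f : PowerSeries R) (d : Unit →₀ ℕ) :
    MvPowerSeries.coeff d f = PowerSeries.coeff (d ()) f := by
  have : d = Finsupp.single () (d ()) := Finsupp.unique_single d
  conv_lhs => rw [this]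
  rfl

variable [IsAlgClosed C]

/-- Evaluation of a homomorphism as a group homomorphism of points. -/
noncomputable def evHom {L L' : Law C p n} (f : PowerSeries (OC C)) (h : IsHom L.G L'.G f) :
    Pts L.G →+ Pts L'.G :=
  AddMonoidHom.mk' (evPt f h.constantCoeff_eq) (evPt_add h)

@[simp] lemma evHom_apply {L L' : Law C p n} (f : PowerSeries (OC C)) (h : IsHom L.G L'.G f)
    (x : Pts L.G) : evHom f h x = evPt f h.constantCoeff_eq x := rfl

lemma norm_evPt_sub_le {G G' : FormalGroup (OC C)} (f : PowerSeries (OC C))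
    (hf : PowerSeries.constantCoeff f = 0) (x y : Pts G) :
    ‖(evPt f hf x : Pts G').v - (evPt f hf y : Pts G').v‖ ≤ ‖x.v - y.v‖ :=
  norm_Ev_sub_le _ _ _ _ (fun _ => x.norm_lt) (fun _ => y.norm_lt) _ _ (norm_nonneg _)
    (fun d => by simp) (fun _ => le_rfl)

lemma evPt_rt (hb : IsBase L₀) (g : PowerSeries (OC C)) (hg : IsHom L₀.G L₀.G g) (x : Pts L₀.G) :
    (evPt g hg.constantCoeff_eq (rt x) : Pts L₀.G) = rt (evPt g hg.constantCoeff_eq x : Pts L₀.G) := by
  apply nsmul_p_injective hb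
  change p • evHom g hg (rt x) = p • rt (evHom g hg x)
  rw [← map_nsmul, nsmul_rt hb, nsmul_rt hb]

lemma evPt_rti (hb : IsBase L₀) (g : PowerSeries (OC C)) (hg : IsHom L₀.G L₀.G g) (j : ℕ)
    (x : Pts L₀.G) :
    (evPt g hg.constantCoeff_eq (rti j x) : Pts L₀.G) = rti j (evPt g hg.constantCoeff_eq x : Pts L₀.G) := by
  induction j with
  | zero => rfl
  | succ j ih => rw [rti_succ, rti_succ, evPt_rt hb g hg, ih]

/-- The fundamental compatibility `K ∘ μ_L = μ_L' ∘ g`. -/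
theorem evPt_mu (hb : IsBase L₀) {L L' : Law C p n} (K : PowerSeries (OC C)) (hK : IsHom L.G L'.G K)
    (g : PowerSeries (OC C)) (hg : IsHom L₀.G L₀.G g) {c : ℝ} (hc0 : 0 ≤ c) (hc1 : c < 1)
    (hcK : ∀ j, ‖((PowerSeries.coeff j K : OC C) : C) - (PowerSeries.coeff j g : OC C)‖ ≤ c)
    (β : Pts L₀.G) :
    evPt K hK.constantCoeff_eq (mu L₀ L β) = mu L₀ L' (evPt g hg.constantCoeff_eq β) := by
  apply Pts.ext
  have h1 : Tendsto (fun j => (evPt K hK.constantCoeff_eq (nuSeq L₀ L β j) : Pts L'.G).v) atTop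
      (𝓝 (evPt K hK.constantCoeff_eq (mu L₀ L β) : Pts L'.G).v) := by
    rw [tendsto_iff_norm_sub_tendsto_zero]
    have h := tendsto_nuSeq L β
    rw [tendsto_iff_norm_sub_tendsto_zero] at h
    exact squeeze_zero (fun _ => norm_nonneg _) (fun j => norm_evPt_sub_le K _ _ _) h
  refine limit_eq_of_sub_tendsto h1 (tendsto_nuSeq L' _) ?_
  have h3 : Tendsto (fun j : ℕ => c ^ (p ^ j)) atTop (𝓝 0) := by
    have h1 : Tendsto (fun j : ℕ => c ^ j) atTop (𝓝 0) :=
      tendsto_pow_atTop_nhds_zero_of_lt_one hc0 hc1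
    have h2 : Tendsto (fun j : ℕ => p ^ j) atTop atTop :=
      tendsto_pow_atTop_atTop_of_one_lt hp.out.one_lt
    exact h1.comp h2
  rw [tendsto_zero_iff_norm_tendsto_zero]
  refine squeeze_zero (fun _ => norm_nonneg _) (fun j => ?_) h3
  have e : (evPt K hK.constantCoeff_eq (nuSeq L₀ L β j) : Pts L'.G) =
      (p ^ j) • (evPt K hK.constantCoeff_eq (Pts.cast (rti j β) : Pts L.G) : Pts L'.G) := by
    change evHom K hK ((p ^ j) • (Pts.cast (rti j β) : Pts L.G)) = _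
    rw [map_nsmul]
    rfl
  rw [e, nuSeq, ← evPt_rti hb g hg]
  refine (norm_nsmul_pow_sub_le L' _ _ j).trans (pow_le_pow_left₀ (norm_nonneg _) ?_ _)
  refine norm_Ev_sub_le _ _ _ _ (fun _ => Pts.norm_lt _) (fun _ => Pts.norm_lt _) _ _ hc0 ?_ ?_
  · intro d
    have := hcK (d ())
    simpa [coeff_unit] using this
  · intro s
    change ‖(rti j β).v - (rti j β).v‖ ≤ c
    simpa using hc0

end compat

end Vale.Agent.Lib.P217
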