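import Mathlib

/-!
Closed unit ball of a complete ultrametric normed field, evaluation of power series on it.
-/

namespace Vale.Agent.Lib.P217

open scoped Topology
open Filter

variable (C : Type*) [NormedField C] [IsUltrametricDist C]

/-- The closed unit ball, as a subring. -/
def OC : Subring C where
  carrier := {x | ‖x‖ ≤ 1}
  mul_mem' := by
    intro a b ha hb
    change ‖a‖ ≤ 1 at ha
    change ‖b‖ ≤ 1 at hb
    change ‖a * b‖ ≤ 1
    rw [norm_mul]
    exact mul_le_one₀ ha (norm_nonneg _) hb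
  one_mem' := by
    change ‖(1 : C)‖ ≤ 1
    simp
  add_mem' := by
    intro a b ha hb
    change ‖a‖ ≤ 1 at ha
    change ‖b‖ ≤ 1 at hb
    change ‖a + b‖ ≤ 1
    exact (IsUltrametricDist.norm_add_le_max a b).trans (max_le ha hb)
  zero_mem' := by
    change ‖(0 : C)‖ ≤ 1
    simp
  neg_mem' := by
    intro a ha
    change ‖a‖ ≤ 1 at ha
    change ‖-a‖ ≤ 1
    simpa using ha

variable {C}

@[simp] lemma mem_OC {x : C} : x ∈ OC C ↔ ‖x‖ ≤ 1 := Iff.rfl

lemma norm_OC_le (x : OC C) : ‖(x : C)‖ ≤ 1 := x.2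

instance instCompleteOC [CompleteSpace C] : CompleteSpace (OC C) := by
  have : IsClosed ((OC C : Subring C) : Set C) := by
    have : ((OC C : Subring C) : Set C) = Metric.closedBall (0 : C) 1 := by
      ext x
      simp [Metric.mem_closedBall, dist_zero_right]
    rw [this]; exact Metric.isClosed_closedBall
  exact this.completeSpace_coe

/-- The ball of radius `r` as an ideal of `OC C`. -/
def ballIdeal (r : ℝ) (hr : 0 < r) : Ideal (OC C) where
  carrier := {x | ‖(x : C)‖ < r}
  add_mem' := by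
    intro a b ha hb
    change ‖(a : C)‖ < r at ha
    change ‖(b : C)‖ < r at hb
    change ‖((a : C) + (b : C))‖ < r
    exact lt_of_le_of_lt (IsUltrametricDist.norm_add_le_max (a : C) (b : C)) (max_lt ha hb)
  zero_mem' := by
    change ‖(0 : C)‖ < r
    simpa using hr
  smul_mem' := by
    intro c a ha
    change ‖(a : C)‖ < r at ha
    change ‖((c : C) * (a : C))‖ < r
    rw [norm_mul]
    exact lt_of_le_of_lt (mul_le_of_le_one_left (norm_nonneg _) (norm_OC_le c)) ha

/-- The closed ball of radius `r ≥ 0` as an ideal of `OC C`. -/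
def cballIdeal (r : ℝ) (hr : 0 ≤ r) : Ideal (OC C) where
  carrier := {x | ‖(x : C)‖ ≤ r}
  add_mem' := by
    intro a b ha hb
    change ‖(a : C)‖ ≤ r at ha
    change ‖(b : C)‖ ≤ r at hb
    change ‖((a : C) + (b : C))‖ ≤ r
    exact le_trans (IsUltrametricDist.norm_add_le_max (a : C) (b : C)) (max_le ha hb)
  zero_mem' := by
    change ‖(0 : C)‖ ≤ r
    simpa using hr
  smul_mem' := by
    intro c a ha
    change ‖(a : C)‖ ≤ r at ha
    change ‖((c : C) * (a : C))‖ ≤ r
    rw [norm_mul]
    exact le_trans (mul_le_of_le_one_left (norm_nonneg _) (norm_OC_le c)) ha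

lemma mem_cballIdeal {r : ℝ} {hr : 0 ≤ r} {x : OC C} :
    x ∈ cballIdeal r hr ↔ ‖(x : C)‖ ≤ r := Iff.rfl

instance instLinearOC : IsLinearTopology (OC C) (OC C) := by
  have h : (𝓝 (0 : OC C)).HasBasis (fun r : ℝ => 0 < r) (fun r => {x : OC C | ‖(x : C)‖ < r}) := by
    have := (Metric.nhds_basis_ball (x := (0 : OC C)))
    refine this.to_hasBasis ?_ ?_
    · intro r hr
      refine ⟨r, hr, ?_⟩
      intro x hx
      simpa [Metric.mem_ball, dist_zero_right] using hx
    · intro r hr
      refine ⟨r, hr, ?_⟩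
      intro x hx
      simpa [Metric.mem_ball, dist_zero_right] using hx
  exact IsLinearTopology.mk_of_hasBasis' (R := OC C) (M := OC C) (S := Ideal (OC C))
    (ι := {r : ℝ // 0 < r}) (p := fun _ => True) (s := fun r => ballIdeal r.1 r.2)
    (by
      refine h.to_hasBasis ?_ ?_
      · intro r hr
        exact ⟨⟨r, hr⟩, trivial, fun x hx => hx⟩
      · intro r _
        exact ⟨r.1, r.2, fun x hx => hx⟩)
    (fun s r m hm => s.smul_mem r hm)

end Vale.Agent.Lib.P217
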