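import Vale.Agent.Lib.P217.CharPSeries
import Vale.Agent.Lib.P217.Mu
import Vale.Agent.Lib.P217.TauPow

set_option linter.unusedSectionVars false
set_option linter.unusedVariables false

namespace Vale.Agent.Lib.P217

open scoped Topology
open Filter

variable {C : Type*} [NormedField C] [IsUltrametricDist C] [CompleteSpace C]
variable {p n N : ℕ} [hp : Fact p.Prime] [CharP C p]
variable {k : Type*} [Field k] [Finite k] [CharP k p]

variable (C p n N k) in
/-- The standing data: the formal groups and the constant `c`. -/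
structure Setting where
  hn : 1 ≤ n
  Γ : FormalGroup k
  commΓ : Γ.IsComm
  hΓp : mulSeries Γ p = PowerSeries.X ^ (p ^ n)
  F : FormalGroup (MvPowerSeries (Fin N) k)
  commF : F.IsComm
  hF : F.map MvPowerSeries.constantCoeff = Γ
  κ : k →+* OC C
  c : ℝ
  c0 : 0 ≤ c
  c1 : c < 1

instance (S : Setting C p n N k) : S.Γ.IsComm := S.commΓ
instance (S : Setting C p n N k) : S.F.IsComm := S.commF

theorem isComm_map {R R' : Type*} [CommRing R] [CommRing R'] (G : FormalGroup R) [G.IsComm] (h : R →+* R') :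
    (G.map h).IsComm := by
  refine ⟨?_⟩
  have hc : G.toPowerSeries = MvPowerSeries.subst ![(MvPowerSeries.X 1 : MvPowerSeries (Fin 2) R),
      MvPowerSeries.X 0] G.toPowerSeries := FormalGroup.IsComm.comm
  have hs : MvPowerSeries.HasSubst ![(MvPowerSeries.X 1 : MvPowerSeries (Fin 2) R),
      MvPowerSeries.X 0] := MvPowerSeries.HasSubst.X_X
  have h1 := congrArg (MvPowerSeries.map h) hc
  rw [MvPowerSeries.map_subst hs] at h1
  simp only [FormalGroup.map_toPowerSeries]
  refine h1.trans ?_
  congr 1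
  funext s
  fin_cases s <;> simp

lemma Setting.charP (p : ℕ) [Fact p.Prime] {k : Type*} [Field k] [CharP k p] (N : ℕ) :
    CharP (MvPowerSeries (Fin N) k) p :=
  charP_of_injective_ringHom (f := (MvPowerSeries.C (σ := Fin N) (R := k)))
    (MvPowerSeries.C_injective) p

lemma Setting.map_mulSeries (S : Setting C p n N k) :
    PowerSeries.map MvPowerSeries.constantCoeff (mulSeries S.F p) = PowerSeries.X ^ (p ^ n) := by
  rw [← mulSeries_map, S.hF, S.hΓp]

/-- Admissible maps: `k`-linear and bounded by `c` on the maximal ideal. -/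
structure Adm (S : Setting C p n N k) (φ : MvPowerSeries (Fin N) k →+* OC C) : Prop where
  hκ : ∀ r, φ (MvPowerSeries.C r) = S.κ r
  hc : ∀ a, MvPowerSeries.constantCoeff a = 0 → ‖((φ a : OC C) : C)‖ ≤ S.c

/-- The base law `Γ` over `C`, with `[p](X) = X^(p^n)` exactly. -/
noncomputable def baseLaw (S : Setting C p n N k) : Law C p n where
  G := S.Γ.map S.κ
  comm := isComm_map _ _
  c := 0
  c_nonneg := le_rfl
  c_lt_one := zero_lt_one
  coeff_p := by
    intro j
    rw [mulSeries_map, S.hΓp]
    simp only [map_pow, PowerSeries.map_X, PowerSeries.coeff_X_pow]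
    split_ifs <;> simp
  dvd_p := by
    intro j hj
    rw [mulSeries_map, S.hΓp]
    simp only [map_pow, PowerSeries.map_X, PowerSeries.coeff_X_pow]
    rw [if_neg]
    rintro rfl
    exact hj (dvd_pow_self p (by have := S.hn; omega))

/-- The law `F^φ`. -/
noncomputable def lawOf (S : Setting C p n N k) (φ : MvPowerSeries (Fin N) k →+* OC C) (hφ : Adm S φ) : Law C p n where
  G := S.F.map φ
  comm := isComm_map _ _
  c := S.c
  c_nonneg := S.c0
  c_lt_one := S.c1
  coeff_p := by
    intro j
    rw [mulSeries_map, PowerSeries.coeff_map]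
    set a := PowerSeries.coeff j (mulSeries S.F p) with ha
    have h0 : MvPowerSeries.constantCoeff a = if j = p ^ n then (1 : k) else 0 := by
      have h1 := congrArg (PowerSeries.coeff j) (Setting.map_mulSeries S)
      rw [PowerSeries.coeff_map, PowerSeries.coeff_X_pow] at h1
      exact h1
    have h2 : MvPowerSeries.constantCoeff
        (a - MvPowerSeries.C (if j = p ^ n then (1 : k) else 0)) = 0 := by
      simp [h0]
    have h3 := hφ.hc _ h2
    rw [map_sub, hφ.hκ] at h3
    refine le_trans (le_of_eq ?_) h3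
    split_ifs <;> simp
  dvd_p := by
    intro j hj
    rw [mulSeries_map, PowerSeries.coeff_map]
    have := Setting.charP p (k := k) N
    rw [coeff_mulSeries_of_not_dvd p S.F j hj, map_zero]

theorem baseLaw_isBase (S : Setting C p n N k) : IsBase (baseLaw S) := ⟨rfl⟩

theorem lawOf_c (S : Setting C p n N k) {φ} (hφ : Adm S φ) : (lawOf S φ hφ).c = S.c := rfl

theorem close_lawOf (S : Setting C p n N k) {φ} (hφ : Adm S φ) : Close (baseLaw S) (lawOf S φ hφ) := by
  intro d
  have e1 : MvPowerSeries.coeff d (lawOf S φ hφ).G.toPowerSeries =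
      φ (MvPowerSeries.coeff d S.F.toPowerSeries) := by
    simp [lawOf]
  have e2 : MvPowerSeries.coeff d (baseLaw S).G.toPowerSeries =
      S.κ (MvPowerSeries.constantCoeff (MvPowerSeries.coeff d S.F.toPowerSeries)) := by
    show MvPowerSeries.coeff d (S.Γ.map S.κ).toPowerSeries = _
    rw [← S.hF]
    simp
  rw [e1, e2]
  set a := MvPowerSeries.coeff d S.F.toPowerSeries with ha
  have h2 : MvPowerSeries.constantCoeff (a - MvPowerSeries.C (MvPowerSeries.constantCoeff a)) = 0 := by
    simp
  have h3 := hφ.hc _ h2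
  rw [map_sub, hφ.hκ] at h3
  exact h3

/-- Composing with a `k`-automorphism. -/
theorem Adm.comp {S : Setting C p n N k} {φ} (hφ : Adm S φ)
    (τ : MvPowerSeries (Fin N) k ≃ₐ[k] MvPowerSeries (Fin N) k) :
    Adm S (φ.comp (τ : MvPowerSeries (Fin N) k →+* MvPowerSeries (Fin N) k)) := by
  refine ⟨?_, ?_⟩
  · intro r
    have h1 : (τ : MvPowerSeries (Fin N) k →+* MvPowerSeries (Fin N) k) (MvPowerSeries.C r) =
        MvPowerSeries.C r := by
      have := τ.commutes r
      simpa [MvPowerSeries.algebraMap_apply] using this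
    simp only [RingHom.comp_apply]
    rw [h1, hφ.hκ]
  · intro a ha
    simp only [RingHom.comp_apply]
    apply hφ.hc
    by_contra hne
    have hu : IsUnit ((τ : MvPowerSeries (Fin N) k ≃ₐ[k] MvPowerSeries (Fin N) k) a) := by
      rw [MvPowerSeries.isUnit_iff_constantCoeff]
      exact (isUnit_iff_ne_zero).mpr hne
    have hu2 : IsUnit a := by
      have h3 := hu.map (τ.symm : MvPowerSeries (Fin N) k ≃ₐ[k] MvPowerSeries (Fin N) k)
      simpa using h3
    rw [MvPowerSeries.isUnit_iff_constantCoeff, ha] at hu2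
    exact not_isUnit_zero hu2

/-- The map of a morphism `K : F → F^τ` is a homomorphism of laws. -/
theorem isHom_lawOf {S : Setting C p n N k} {φ} (hφ : Adm S φ)
    (τ : MvPowerSeries (Fin N) k ≃ₐ[k] MvPowerSeries (Fin N) k) {K : PowerSeries (MvPowerSeries (Fin N) k)}
    (hK : IsHom S.F (S.F.map (τ : MvPowerSeries (Fin N) k →+* MvPowerSeries (Fin N) k)) K) :
    IsHom (lawOf S φ hφ).G (lawOf S _ (hφ.comp τ)).G (PowerSeries.map φ K) := by
  have h1 := hK.map' φ
  have h2 : (S.F.map (τ : MvPowerSeries (Fin N) k →+* MvPowerSeries (Fin N) k)).map φ =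
      S.F.map (φ.comp (τ : MvPowerSeries (Fin N) k →+* MvPowerSeries (Fin N) k)) := by
    ext d
    simp
  rw [h2] at h1
  exact h1

/-- The map of a series over `k` is a homomorphism of the base law. -/
theorem isHom_baseLaw (S : Setting C p n N k) {g : PowerSeries k} (hg : IsHom S.Γ S.Γ g) :
    IsHom (baseLaw S).G (baseLaw S).G (PowerSeries.map S.κ g) :=
  hg.map' S.κ

/-- The endomorphism of the points of the base law given by a series over `k`. -/
noncomputable def homEnd [IsAlgClosed C] (S : Setting C p n N k) {g : PowerSeries k} (hg : IsHom S.Γ S.Γ g) :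
    AddMonoid.End (Pts (baseLaw S).G) :=
  evHom (L := baseLaw S) (L' := baseLaw S) _ (isHom_baseLaw S hg)

/-- A lift of `g` is close to `g`. -/
theorem coeff_K_close {S : Setting C p n N k} {φ} (hφ : Adm S φ) {K : PowerSeries (MvPowerSeries (Fin N) k)} {g : PowerSeries k}
    (hKg : PowerSeries.map MvPowerSeries.constantCoeff K = g) (j : ℕ) :
    ‖((PowerSeries.coeff j (PowerSeries.map φ K) : OC C) : C) - (PowerSeries.coeff j (PowerSeries.map S.κ g) : OC C)‖ ≤ S.c := by
  subst hKg
  rw [PowerSeries.coeff_map, PowerSeries.coeff_map, PowerSeries.coeff_map]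
  set a := PowerSeries.coeff j K with ha
  have h2 : MvPowerSeries.constantCoeff (a - MvPowerSeries.C (MvPowerSeries.constantCoeff a)) = 0 := by
    simp
  have h3 := hφ.hc _ h2
  rw [map_sub, hφ.hκ] at h3
  exact h3

/-- Close maps give close laws. -/
theorem coeff_lawOf_close {S : Setting C p n N k} {φ φ'} (hφ : Adm S φ) (hφ' : Adm S φ') {ε : ℝ} (hε : 0 ≤ ε)
    (h : ∀ a, ‖((φ a : OC C) : C) - (φ' a : OC C)‖ ≤ ε) (d : Fin 2 →₀ ℕ) :
    ‖((MvPowerSeries.coeff d (lawOf S φ hφ).G.toPowerSeries : OC C) : C) -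
      (MvPowerSeries.coeff d (lawOf S φ' hφ').G.toPowerSeries : OC C)‖ ≤ ε := by
  have e1 : MvPowerSeries.coeff d (lawOf S φ hφ).G.toPowerSeries =
      φ (MvPowerSeries.coeff d S.F.toPowerSeries) := by
    simp [lawOf]
  have e2 : MvPowerSeries.coeff d (lawOf S φ' hφ').G.toPowerSeries =
      φ' (MvPowerSeries.coeff d S.F.toPowerSeries) := by
    simp [lawOf]
  rw [e1, e2]
  exact h _

/-- The coefficient of `X^p` of `[p]` for `F^φ`, by `mulSeries_map`. -/
theorem coeff_p_lawOf {S : Setting C p n N k} {φ} (hφ : Adm S φ) :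
    PowerSeries.coeff p (mulSeries (lawOf S φ hφ).G p) = φ (PowerSeries.coeff p (mulSeries S.F p)) := by
  show PowerSeries.coeff p (mulSeries (S.F.map φ) p) = _
  rw [mulSeries_map, PowerSeries.coeff_map]

end Vale.Agent.Lib.P217
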