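import Vale.Agent.Lib.P217.Ev

set_option linter.unusedSectionVars false
set_option linter.unusedVariables false

namespace Vale.Agent.Lib.P217

open scoped Topology
open Filter

variable {C : Type*} [NormedField C] [IsUltrametricDist C] [CompleteSpace C]
variable {k : Type*} [CommRing k]

omit [CompleteSpace C] in
/-- Polynomial difference estimate on the ball. -/
lemma taylor_poly_sub {N : ℕ} (x Δ : Fin N → OC C) {D : ℝ} (hD : 0 ≤ D)
    (hDb : ∀ i, ‖(Δ i : C)‖ ≤ D) (p : MvPolynomial (Fin N) (OC C)) :
    MvPolynomial.eval (x + Δ) p - MvPolynomial.eval x p ∈ cballIdeal (C := C) D hD := by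
  have hΔ : ∀ i, Δ i ∈ cballIdeal (C := C) D hD := fun i => by
    rw [mem_cballIdeal]; exact hDb i
  induction p using MvPolynomial.induction_on with
  | C a => simp
  | add p q hp hq =>
    have : MvPolynomial.eval (x + Δ) (p + q) - MvPolynomial.eval x (p + q) =
        (MvPolynomial.eval (x + Δ) p - MvPolynomial.eval x p) +
        (MvPolynomial.eval (x + Δ) q - MvPolynomial.eval x q) := by
      simp only [map_add]; ring
    rw [this]
    exact Ideal.add_mem _ hp hq
  | mul_X p n hp =>
    have : MvPolynomial.eval (x + Δ) (p * MvPolynomial.X n) -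
        MvPolynomial.eval x (p * MvPolynomial.X n) =
        (MvPolynomial.eval (x + Δ) p - MvPolynomial.eval x p) * x n +
        MvPolynomial.eval (x + Δ) p * Δ n := by
      simp only [map_mul, MvPolynomial.eval_X, Pi.add_apply]; ring
    rw [this]
    exact Ideal.add_mem _ (Ideal.mul_mem_right _ _ hp) (Ideal.mul_mem_left _ _ (hΔ n))

omit [CompleteSpace C] in
/-- First order Taylor estimate for polynomials over the ball. -/
lemma taylor_poly {N : ℕ} (x Δ : Fin N → OC C) {D : ℝ} (hD : 0 ≤ D)
    (hDb : ∀ i, ‖(Δ i : C)‖ ≤ D) (p : MvPolynomial (Fin N) (OC C)) :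
    MvPolynomial.eval (x + Δ) p - MvPolynomial.eval x p -
      ∑ i, MvPolynomial.eval x (MvPolynomial.pderiv i p) * Δ i ∈
        cballIdeal (C := C) (D ^ 2) (by positivity) := by
  induction p using MvPolynomial.induction_on with
  | C a => simp
  | add p q hp hq =>
    have : MvPolynomial.eval (x + Δ) (p + q) - MvPolynomial.eval x (p + q) -
        ∑ i, MvPolynomial.eval x (MvPolynomial.pderiv i (p + q)) * Δ i =
        (MvPolynomial.eval (x + Δ) p - MvPolynomial.eval x p -
          ∑ i, MvPolynomial.eval x (MvPolynomial.pderiv i p) * Δ i) +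
        (MvPolynomial.eval (x + Δ) q - MvPolynomial.eval x q -
          ∑ i, MvPolynomial.eval x (MvPolynomial.pderiv i q) * Δ i) := by
      simp only [map_add, add_mul, Finset.sum_add_distrib]; ring
    rw [this]
    exact Ideal.add_mem _ hp hq
  | mul_X p n hp =>
    have h1 : ∀ i, MvPolynomial.eval x (MvPolynomial.pderiv i (p * MvPolynomial.X n)) * Δ i =
        MvPolynomial.eval x (MvPolynomial.pderiv i p) * Δ i * x n +
          (if i = n then MvPolynomial.eval x p * Δ n else 0) := by
      intro i
      rw [Derivation.leibniz, MvPolynomial.pderiv_X]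
      by_cases hin : i = n
      · subst hin
        simp only [smul_eq_mul, map_add, map_mul, MvPolynomial.eval_X, Pi.single_eq_same,
          if_true, map_one]
        ring
      · have : (Pi.single (M := fun _ => MvPolynomial (Fin N) (OC C)) i 1 n) = 0 :=
          Pi.single_eq_of_ne (Ne.symm hin) _
        simp only [smul_eq_mul, map_mul, MvPolynomial.eval_X, this, hin, if_false,
          mul_zero, zero_add]
        ring
    have h2 : MvPolynomial.eval (x + Δ) (p * MvPolynomial.X n) -
        MvPolynomial.eval x (p * MvPolynomial.X n) -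
        ∑ i, MvPolynomial.eval x (MvPolynomial.pderiv i (p * MvPolynomial.X n)) * Δ i =
        (MvPolynomial.eval (x + Δ) p - MvPolynomial.eval x p -
          ∑ i, MvPolynomial.eval x (MvPolynomial.pderiv i p) * Δ i) * x n +
        (MvPolynomial.eval (x + Δ) p - MvPolynomial.eval x p) * Δ n := by
      simp only [h1, Finset.sum_add_distrib, Finset.sum_ite_eq', Finset.mem_univ, if_true,
        ← Finset.sum_mul, map_mul, MvPolynomial.eval_X, Pi.add_apply]
      ring
    rw [h2]
    refine Ideal.add_mem _ (Ideal.mul_mem_right _ _ hp) ?_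
    rw [mem_cballIdeal]
    have h3 := taylor_poly_sub x Δ hD hDb p
    rw [mem_cballIdeal] at h3
    have : ((((MvPolynomial.eval (x + Δ) p - MvPolynomial.eval x p) * Δ n : OC C)) : C) =
        ((MvPolynomial.eval (x + Δ) p - MvPolynomial.eval x p : OC C) : C) * (Δ n : C) := rfl
    rw [this, norm_mul, pow_two]
    exact mul_le_mul h3 (hDb n) (norm_nonneg _) hD

/-- First order Taylor estimate for a power series over `k`, on the open unit polydisc: with `D = max ‖Δ i‖`,
`‖a(x + Δ) - a(x) - ∑ ∂ᵢa(x) Δ i‖ ≤ D²`.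

Proof: by `hasSum_Ev`, reduce to monomials: `(x + Δ)^ν - x^ν - ∑ νᵢ x^(ν - eᵢ) Δᵢ` has all its terms divisible by
products `Δᵢ Δⱼ` in `OC C`. -/
theorem norm_Ev_taylor_le {N : ℕ} (κ : k →+* OC C) (x Δ : Fin N → OC C) (hx : ∀ i, ‖(x i : C)‖ < 1)
    (hΔ : ∀ i, ‖(Δ i : C)‖ < 1) (a : MvPowerSeries (Fin N) k) {D : ℝ} (hD : 0 ≤ D)
    (hDb : ∀ i, ‖(Δ i : C)‖ ≤ D) :
    ‖((Ev κ (x + Δ) a : OC C) : C) - (Ev κ x a : OC C) -
        ∑ i, ((Ev κ x (MvPowerSeries.pderiv k i a) : OC C) : C) * (Δ i : C)‖ ≤ D ^ 2 := by
  classical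
  have hxΔ : ∀ i, ‖((x + Δ) i : C)‖ < 1 := fun i => by
    have : (((x + Δ) i : OC C) : C) = (x i : C) + (Δ i : C) := rfl
    rw [this]
    exact lt_of_le_of_lt (IsUltrametricDist.norm_add_le_max _ _) (max_lt (hx i) (hΔ i))
  have h1 := hasSum_Ev κ (x + Δ) hxΔ a
  have h2 := hasSum_Ev κ x hx a
  let f : Fin N → (Fin N →₀ ℕ) → OC C := fun i μ =>
    κ (MvPowerSeries.coeff μ a) *
      (MvPolynomial.eval x (MvPolynomial.pderiv i (MvPolynomial.monomial μ (1 : OC C))) * Δ i)
  have h3 : ∀ i, HasSum (f i) (Ev κ x (MvPowerSeries.pderiv k i a) * Δ i) := by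
    intro i
    have h4 := (hasSum_Ev κ x hx (MvPowerSeries.pderiv k i a)).mul_right (Δ i)
    have hinj : Function.Injective (fun d : Fin N →₀ ℕ => d + Finsupp.single i 1) :=
      add_left_injective _
    refine (hinj.hasSum_iff ?_).mp ?_
    · intro μ hμ
      have hμi : μ i = 0 := by
        by_contra hne
        apply hμ
        refine ⟨μ - Finsupp.single i 1, ?_⟩
        ext j
        by_cases hj : j = i
        · subst hj
          simp
          omega
        · simp [Ne.symm hj]
      simp only [f, MvPolynomial.pderiv_monomial, hμi]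
      simp
    · have heq : (f i ∘ fun d : Fin N →₀ ℕ => d + Finsupp.single i 1) =
          fun d => (κ (MvPowerSeries.coeff d (MvPowerSeries.pderiv k i a)) *
            d.prod fun s e => x s ^ e) * Δ i := by
        funext d
        simp only [f, Function.comp, MvPolynomial.pderiv_monomial, MvPowerSeries.coeff_pderiv,
          map_mul, MvPolynomial.eval_monomial, add_tsub_cancel_right]
        simp
        ring
      rw [heq]
      exact h4
  have h5 := (h1.sub h2).sub (hasSum_sum (s := Finset.univ) (fun i _ => h3 i))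
  have h6 := norm_sum_le_of_hasSum h5 (r := D ^ 2) (by positivity) ?_
  · simpa using h6
  · intro μ
    have h7 := taylor_poly x Δ hD hDb (MvPolynomial.monomial μ (1 : OC C))
    rw [mem_cballIdeal] at h7
    have h8 : κ (MvPowerSeries.coeff μ a) * (μ.prod fun s e => (x + Δ) s ^ e) -
        κ (MvPowerSeries.coeff μ a) * (μ.prod fun s e => x s ^ e) - ∑ i, f i μ =
        κ (MvPowerSeries.coeff μ a) *
        (MvPolynomial.eval (x + Δ) (MvPolynomial.monomial μ (1 : OC C)) -
          MvPolynomial.eval x (MvPolynomial.monomial μ (1 : OC C)) -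
          ∑ i, MvPolynomial.eval x (MvPolynomial.pderiv i (MvPolynomial.monomial μ (1 : OC C))) * Δ i) := by
      simp only [f, MvPolynomial.eval_monomial, one_mul, ← Finset.mul_sum]
      ring
    rw [h8]
    have h9 : ((κ (MvPowerSeries.coeff μ a) *
        (MvPolynomial.eval (x + Δ) (MvPolynomial.monomial μ (1 : OC C)) -
          MvPolynomial.eval x (MvPolynomial.monomial μ (1 : OC C)) -
          ∑ i, MvPolynomial.eval x (MvPolynomial.pderiv i (MvPolynomial.monomial μ (1 : OC C))) * Δ i) : OC C) : C) =
        ((κ (MvPowerSeries.coeff μ a) : OC C) : C) *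
        ((MvPolynomial.eval (x + Δ) (MvPolynomial.monomial μ (1 : OC C)) -
          MvPolynomial.eval x (MvPolynomial.monomial μ (1 : OC C)) -
          ∑ i, MvPolynomial.eval x (MvPolynomial.pderiv i (MvPolynomial.monomial μ (1 : OC C))) * Δ i : OC C) : C) := rfl
    rw [h9, norm_mul]
    exact (mul_le_of_le_one_left (norm_nonneg _) (norm_OC_le _)).trans h7

end Vale.Agent.Lib.P217
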