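import Mathlib

set_option linter.unusedSectionVars false
set_option linter.unusedVariables false

/-!
A prime of `W(k)⟦u_1, …, u_N⟧` not containing `p` and stable under the partial derivatives is zero.
-/

namespace Vale.Agent.Lib.P217

variable {p : ℕ} [hp : Fact p.Prime] {k : Type*} [Field k] [CharP k p] [PerfectRing k p] {N : ℕ}

section Hasse

open MvPowerSeries

variable {R : Type*} [CommRing R]

/-- One-variable Hasse derivative. -/
private noncomputable def hasseZ (l : Fin N) (j : ℕ) (f : MvPowerSeries (Fin N) R) :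
    MvPowerSeries (Fin N) R :=
  fun β => ((Nat.choose (β l + j) j : ℕ) : R) * coeff (β + Finsupp.single l j) f

private theorem coeff_hasseZ (l : Fin N) (j : ℕ) (f : MvPowerSeries (Fin N) R) (β : Fin N →₀ ℕ) :
    coeff β (hasseZ l j f) = ((Nat.choose (β l + j) j : ℕ) : R) * coeff (β + Finsupp.single l j) f :=
  rfl

private theorem nat_identity (n j : ℕ) :
    (j + 1).factorial * Nat.choose (n + (j + 1)) (j + 1) =
      j.factorial * (Nat.choose (n + (j + 1)) j * (n + 1)) := by
  have h := Nat.choose_succ_right_eq (n + (j + 1)) j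
  have h2 : n + (j + 1) - j = n + 1 := by omega
  rw [h2] at h
  rw [Nat.factorial_succ, ← h]
  ring

private theorem factorial_nsmul_hasseZ (l : Fin N) (j : ℕ) (f : MvPowerSeries (Fin N) R) :
    j.factorial • hasseZ l j f = (pderiv R l)^[j] f := by
  induction j with
  | zero =>
    ext β
    simp [coeff_hasseZ]
  | succ j ih =>
    rw [Function.iterate_succ_apply', ← ih, map_nsmul]
    ext β
    rw [map_nsmul, map_nsmul, coeff_pderiv, coeff_hasseZ, coeff_hasseZ]
    have h1 : (β + Finsupp.single l 1 : Fin N →₀ ℕ) l + j = β l + (j + 1) := by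
      simp [Finsupp.add_apply]; ring
    have h2 : β + Finsupp.single l 1 + Finsupp.single l j = β + Finsupp.single l (j + 1) := by
      rw [add_assoc, ← Finsupp.single_add, add_comm 1 j]
    rw [h1, h2]
    have h3 := nat_identity (β l) j
    have h4 : (((j + 1).factorial * Nat.choose (β l + (j + 1)) (j + 1) : ℕ) : R) =
        ((j.factorial * (Nat.choose (β l + (j + 1)) j * (β l + 1)) : ℕ) : R) := by rw [h3]
    push_cast at h4
    simp only [nsmul_eq_mul]
    linear_combination (coeff (β + Finsupp.single l (j + 1)) f) * h4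

end Hasse

open MvPowerSeries in
private theorem natCast_not_mem (P : Ideal (MvPowerSeries (Fin N) (WittVector p k))) [P.IsPrime]
    (hpP : (p : MvPowerSeries (Fin N) (WittVector p k)) ∉ P) {M : ℕ} (hM : M ≠ 0) :
    (M : MvPowerSeries (Fin N) (WittVector p k)) ∉ P := by
  intro hmem
  obtain ⟨f, m, hm, rfl⟩ := Nat.exists_eq_pow_mul_and_not_dvd hM p (Fact.out : p.Prime).ne_one
  push_cast at hmem
  rcases (inferInstance : P.IsPrime).mem_or_mem hmem with h | h
  · exact hpP ((inferInstance : P.IsPrime).mem_of_pow_mem _ h)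
  · have hunit : IsUnit (m : MvPowerSeries (Fin N) (WittVector p k)) := by
      rw [MvPowerSeries.isUnit_iff_constantCoeff, map_natCast]
      apply WittVector.isUnit_of_coeff_zero_ne_zero
      have hcc : ((m : WittVector p k)).coeff 0 = (m : k) :=
        map_natCast (WittVector.constantCoeff (p := p) (R := k)) m
      rw [hcc]
      intro h0
      exact hm ((CharP.cast_eq_zero_iff k p m).1 h0)
    exact (inferInstance : P.IsPrime).ne_top (Ideal.eq_top_of_isUnit_mem _ h hunit)

open MvPowerSeries in
/-- `P` is stable under Hasse derivatives. -/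
private theorem hasseZ_mem (P : Ideal (MvPowerSeries (Fin N) (WittVector p k))) [P.IsPrime]
    (hpP : (p : MvPowerSeries (Fin N) (WittVector p k)) ∉ P)
    (hd : ∀ a ∈ P, ∀ l, MvPowerSeries.pderiv (WittVector p k) l a ∈ P) {a} (ha : a ∈ P)
    (l : Fin N) (j : ℕ) : hasseZ l j a ∈ P := by
  have hit : (pderiv (WittVector p k) l)^[j] a ∈ P := by
    induction j with
    | zero => simpa using ha
    | succ j ih =>
      rw [Function.iterate_succ_apply']
      exact hd _ ih l
  rw [← factorial_nsmul_hasseZ, nsmul_eq_mul] at hit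
  rcases (inferInstance : P.IsPrime).mem_or_mem hit with h | h
  · exact absurd h (natCast_not_mem P hpP (Nat.factorial_ne_zero j))
  · exact h

open MvPowerSeries in
/-- Every coefficient of an element of `P` is the constant coefficient of an element of `P`. -/
private theorem exists_constantCoeff_eq (P : Ideal (MvPowerSeries (Fin N) (WittVector p k)))
    [P.IsPrime] (hpP : (p : MvPowerSeries (Fin N) (WittVector p k)) ∉ P)
    (hd : ∀ a ∈ P, ∀ l, MvPowerSeries.pderiv (WittVector p k) l a ∈ P) (n : ℕ) :
    ∀ (α : Fin N →₀ ℕ), α.degree = n → ∀ a ∈ P, ∃ b ∈ P, constantCoeff b = coeff α a := by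
  classical
  induction n using Nat.strong_induction_on with
  | _ n ih =>
    intro α hα a ha
    by_cases h0 : α = 0
    · subst h0
      exact ⟨a, ha, by simp⟩
    · obtain ⟨l, hl⟩ := Finsupp.ne_iff.1 h0
      have hl' : α l ≠ 0 := by simpa using hl
      set j := α l with hj
      set γ : Fin N →₀ ℕ := α - Finsupp.single l j with hγ
      have hγα : γ + Finsupp.single l j = α := by
        refine tsub_add_cancel_of_le ?_
        rw [Finsupp.single_le_iff]
      have hdeg : γ.degree + j = α.degree := by
        rw [← hγα, map_add, Finsupp.degree_single]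
      have hγl : γ l = 0 := by
        simp [hγ, hj]
      obtain ⟨b, hb, hbc⟩ := ih γ.degree (by omega) γ rfl (hasseZ l j a)
        (hasseZ_mem P hpP hd ha l j)
      refine ⟨b, hb, ?_⟩
      rw [hbc, coeff_hasseZ, hγl, hγα]
      simp

/-- Proof. Suppose `a ∈ P`, `a ≠ 0`. Each nonzero element of `W = WittVector p k` is `p ^ e` times a unit (`WittVector.exists_eq_pow_p_mul'`). Let `e` be the minimal valuation of the coefficients of `a` (nonzero ones);
then `a = p ^ e * a'` for a series `a'` having a coefficient `a'_α` which is a unit. Since `p ∉ P`, `P` prime, `a' ∈ P`.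
Let `b` be the Hasse derivative: `coeff β b = ∏_l (choose (β_l + α_l) α_l) * coeff (β + α) a'`. Then `(∏_l (α_l)!) * b` is the iterated partial derivative of `a'` (`α_l` times with respect to each variable `l`), so it lies in `P`.
The natural number `∏_l (α_l)!` is `p ^ f` times a natural number prime to `p`, a unit in `W` (`WittVector.isUnit_of_coeff_zero_ne_zero`), so this natural number is not in `P`: thus `b ∈ P`.
But `constantCoeff b = a'_α` is a unit, so `b` is a unit (`MvPowerSeries.isUnit_iff_constantCoeff`): contradiction with `P ≠ ⊤`. -/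
theorem eq_bot_of_pderiv_stable (P : Ideal (MvPowerSeries (Fin N) (WittVector p k))) [P.IsPrime]
    (hpP : (p : MvPowerSeries (Fin N) (WittVector p k)) ∉ P)
    (hd : ∀ a ∈ P, ∀ l, MvPowerSeries.pderiv (WittVector p k) l a ∈ P) : P = ⊥ := by
  classical
  by_contra hne
  obtain ⟨a, haP, ha0⟩ := Submodule.exists_mem_ne_zero_of_ne_bot hne
  have hp0 : (p : WittVector p k) ≠ 0 := WittVector.p_nonzero p k
  -- the minimal valuation
  have hex : ∃ e : ℕ, ∃ α : Fin N →₀ ℕ, ∃ u : (WittVector p k)ˣ,
      MvPowerSeries.coeff α a = (p : WittVector p k) ^ e * u := by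
    obtain ⟨α, hα⟩ : ∃ α, MvPowerSeries.coeff α a ≠ 0 := by
      by_contra h
      push Not at h
      exact ha0 (MvPowerSeries.ext fun β => by simpa using h β)
    obtain ⟨e, u, h⟩ := WittVector.exists_eq_pow_p_mul' _ hα
    exact ⟨e, α, u, h⟩
  set e := Nat.find hex with he
  obtain ⟨α₀, u₀, hu₀⟩ := Nat.find_spec hex
  have hall : ∀ β, ∃ q : WittVector p k, MvPowerSeries.coeff β a = (p : WittVector p k) ^ e * q := by
    intro β
    by_cases hβ : MvPowerSeries.coeff β a = 0
    · exact ⟨0, by simp [hβ]⟩
    · obtain ⟨e', u', h⟩ := WittVector.exists_eq_pow_p_mul' _ hβ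
      have hle : e ≤ e' := Nat.find_min' hex ⟨β, u', h⟩
      refine ⟨(p : WittVector p k) ^ (e' - e) * u', ?_⟩
      rw [h, ← mul_assoc, ← pow_add, Nat.add_sub_cancel' hle]
  choose q hq using hall
  let a' : MvPowerSeries (Fin N) (WittVector p k) := fun β => q β
  have hcoeff : ∀ β, MvPowerSeries.coeff β a' = q β := fun β => rfl
  have ha_eq : a = (p : MvPowerSeries (Fin N) (WittVector p k)) ^ e * a' := by
    refine MvPowerSeries.ext fun β => ?_
    have hcast : (p : MvPowerSeries (Fin N) (WittVector p k)) ^ e =
        MvPowerSeries.C ((p : WittVector p k) ^ e) := by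
      rw [map_pow, map_natCast]
    rw [hcast, MvPowerSeries.coeff_C_mul, hcoeff, hq]
  have ha'P : a' ∈ P := by
    rw [ha_eq] at haP
    rcases (inferInstance : P.IsPrime).mem_or_mem haP with h | h
    · exact absurd ((inferInstance : P.IsPrime).mem_of_pow_mem _ h) hpP
    · exact h
  have hunit : IsUnit (MvPowerSeries.coeff α₀ a') := by
    rw [hcoeff]
    have h1 := hq α₀
    rw [hu₀] at h1
    have h2 : q α₀ = u₀ := (mul_left_cancel₀ (pow_ne_zero e hp0) h1).symm
    rw [h2]
    exact u₀.isUnit
  obtain ⟨b, hb, hbc⟩ := exists_constantCoeff_eq P hpP hd _ α₀ rfl a' ha'P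
  have hbu : IsUnit b := by
    rw [MvPowerSeries.isUnit_iff_constantCoeff, hbc]
    exact hunit
  exact (inferInstance : P.IsPrime).ne_top (Ideal.eq_top_of_isUnit_mem _ hb hbu)

end Vale.Agent.Lib.P217
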