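import Vale.Agent.Lib.P217.Taylor
import Vale.Agent.Lib.P217.HGauss

set_option linter.unusedSectionVars false
set_option linter.unusedVariables false

/-!
Uniform limits of polynomial functions on a polydisc of radius `r < 1` in `O_C ^ N`, and their first order Taylor expansion.
-/

namespace Vale.Agent.Lib.P217

open scoped Topology
open Filter

variable {C : Type*} [NormedField C] [IsUltrametricDist C] [CompleteSpace C]
variable {N : ℕ}

/-- `f` is a uniform limit of polynomial functions on the closed polydisc of radius `r`. -/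
def IsUnifPoly (r : ℝ) (f : (Fin N → OC C) → C) : Prop :=
  ∀ ε : ℝ, 0 < ε → ∃ P : MvPolynomial (Fin N) C, ∀ u : Fin N → OC C, (∀ l, ‖(u l : C)‖ ≤ r) →
    ‖f u - MvPolynomial.eval (fun l => (u l : C)) P‖ ≤ ε

lemma IsUnifPoly.add {r : ℝ} {f g : (Fin N → OC C) → C} (hf : IsUnifPoly r f) (hg : IsUnifPoly r g) :
    IsUnifPoly r (fun u => f u + g u) := by
  intro ε hε
  obtain ⟨P, hP⟩ := hf ε hε
  obtain ⟨Q, hQ⟩ := hg ε hε
  refine ⟨P + Q, fun u hu => ?_⟩
  rw [map_add]
  have e : f u + g u - (MvPolynomial.eval (fun l => (u l : C)) P + MvPolynomial.eval (fun l => (u l : C)) Q) =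
      (f u - MvPolynomial.eval (fun l => (u l : C)) P) + (g u - MvPolynomial.eval (fun l => (u l : C)) Q) := by ring
  rw [e]
  exact (IsUltrametricDist.norm_add_le_max _ _).trans (max_le (hP u hu) (hQ u hu))

lemma IsUnifPoly.const_mul {r : ℝ} {f : (Fin N → OC C) → C} (a : C) (hf : IsUnifPoly r f) :
    IsUnifPoly r (fun u => a * f u) := by
  intro ε hε
  have hpos : 0 < ‖a‖ + 1 := by positivity
  obtain ⟨P, hP⟩ := hf (ε / (‖a‖ + 1)) (div_pos hε hpos)
  refine ⟨MvPolynomial.C a * P, fun u hu => ?_⟩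
  rw [map_mul, MvPolynomial.eval_C, ← mul_sub, norm_mul]
  calc ‖a‖ * ‖f u - MvPolynomial.eval (fun l => (u l : C)) P‖ ≤ ‖a‖ * (ε / (‖a‖ + 1)) :=
        mul_le_mul_of_nonneg_left (hP u hu) (norm_nonneg _)
    _ ≤ (‖a‖ + 1) * (ε / (‖a‖ + 1)) :=
        mul_le_mul_of_nonneg_right (by linarith) (div_pos hε hpos).le
    _ = ε := mul_div_cancel₀ ε hpos.ne'

/-- Uniform limits of such functions. -/
lemma IsUnifPoly.of_approx {r : ℝ} {f : (Fin N → OC C) → C}
    (h : ∀ ε : ℝ, 0 < ε → ∃ g, IsUnifPoly r g ∧ ∀ u : Fin N → OC C, (∀ l, ‖(u l : C)‖ ≤ r) → ‖f u - g u‖ ≤ ε) :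
    IsUnifPoly r f := by
  intro ε hε
  obtain ⟨g, hg, hfg⟩ := h ε hε
  obtain ⟨P, hP⟩ := hg ε hε
  refine ⟨P, fun u hu => ?_⟩
  have e : f u - MvPolynomial.eval (fun l => (u l : C)) P =
      (f u - g u) + (g u - MvPolynomial.eval (fun l => (u l : C)) P) := by ring
  rw [e]
  exact (IsUltrametricDist.norm_add_le_max _ _).trans (max_le (hfg u hu) (hP u hu))

/-- The evaluation of a power series with coefficients in a ring `B₀` mapped to `O_C`, as a function of the point.
Proof: by `hasSum_Ev`, `Ev κ u a = ∑_d κ (coeff d a) u ^ d`; take for `P` the truncation at degree `D` with `r ^ D ≤ ε`: the other terms have norm at most `r ^ D`.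
(The set of `d : Fin N →₀ ℕ` of degree less than `D` is finite. If `r ≤ 0` hmm: treat `r < 0` trivially and `r = 0` works as well with `D = 1`). -/
theorem isUnifPoly_Ev {B₀ : Type*} [CommRing B₀] (κ : B₀ →+* OC C) {r : ℝ} (hr0 : 0 ≤ r) (hr : r < 1) (a : MvPowerSeries (Fin N) B₀) :
    IsUnifPoly r (fun u => ((Ev κ u a : OC C) : C)) := by
  classical
  intro ε hε
  obtain ⟨D, hD⟩ := exists_pow_lt_of_lt_one hε hr
  let top : Fin N →₀ ℕ := Finsupp.equivFunOnFinite.symm fun _ => D
  let S : Finset (Fin N →₀ ℕ) := Finset.Iic top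
  refine ⟨∑ d ∈ S, MvPolynomial.monomial d ((κ (MvPowerSeries.coeff d a) : OC C) : C), fun u hu => ?_⟩
  have hu1 : ∀ s, ‖(u s : C)‖ < 1 := fun s => lt_of_le_of_lt (hu s) hr
  have hs := hasSum_Ev κ u hu1 a
  have hs' : HasSum (fun d : Fin N →₀ ℕ => (((κ (MvPowerSeries.coeff d a) : OC C) : C) * d.prod fun s e => (u s : C) ^ e))
      ((Ev κ u a : OC C) : C) := by
    have := hs.map (OC C).subtype continuous_subtype_val
    convert this using 1
    · ext d
      simp [Finsupp.prod]
    · rfl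
  have hev : MvPolynomial.eval (fun l => (u l : C))
      (∑ d ∈ S, MvPolynomial.monomial d ((κ (MvPowerSeries.coeff d a) : OC C) : C)) =
      ∑ d ∈ S, (((κ (MvPowerSeries.coeff d a) : OC C) : C) * d.prod fun s e => (u s : C) ^ e) := by
    rw [map_sum]
    refine Finset.sum_congr rfl fun d _ => ?_
    rw [MvPolynomial.eval_monomial]
  rw [hev]
  have h2 := hs'.sub (hasSum_sum_of_ne_finset_zero (f := fun d : Fin N →₀ ℕ =>
      if d ∈ S then (((κ (MvPowerSeries.coeff d a) : OC C) : C) * d.prod fun s e => (u s : C) ^ e) else 0) (s := S)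
      (fun d hd => by simp [hd]))
  have h3 : ∑ d ∈ S, (if d ∈ S then (((κ (MvPowerSeries.coeff d a) : OC C) : C) * d.prod fun s e => (u s : C) ^ e) else 0) =
      ∑ d ∈ S, (((κ (MvPowerSeries.coeff d a) : OC C) : C) * d.prod fun s e => (u s : C) ^ e) :=
    Finset.sum_congr rfl fun d hd => by simp [hd]
  rw [h3] at h2
  rw [← h2.tsum_eq]
  refine IsUltrametricDist.norm_tsum_le_of_forall_le_of_nonneg hε.le fun d => ?_
  by_cases hd : d ∈ S
  · simp [hd, hε.le]
  · simp only [hd, if_false, sub_zero]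
    rw [norm_mul]
    refine (mul_le_of_le_one_left (norm_nonneg _) (norm_OC_le _)).trans ?_
    have hnd : ¬ d ≤ top := fun h => hd (Finset.mem_Iic.mpr h)
    obtain ⟨l, hl⟩ : ∃ l, D < d l := by
      by_contra hcon
      push Not at hcon
      exact hnd fun l => hcon l
    have hle1 : ∀ s, ‖(u s : C)‖ ≤ 1 := fun s => (hu1 s).le
    have hprod : ‖d.prod fun s e => (u s : C) ^ e‖ ≤ ‖(u l : C)‖ ^ d l := by
      rw [Finsupp.prod, norm_prod]
      simp only [norm_pow]
      have hl' : l ∈ d.support := Finsupp.mem_support_iff.mpr (by omega)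
      rw [← Finset.mul_prod_erase _ _ hl']
      refine mul_le_of_le_one_right (by positivity) ?_
      exact Finset.prod_le_one (fun _ _ => by positivity) fun s _ => pow_le_one₀ (norm_nonneg _) (hle1 s)
    refine hprod.trans ?_
    calc ‖(u l : C)‖ ^ d l ≤ ‖(u l : C)‖ ^ D := pow_le_pow_of_le_one (norm_nonneg _) (hle1 l) hl.le
      _ ≤ r ^ D := pow_le_pow_left₀ (norm_nonneg _) (hu l) D
      _ ≤ ε := hD.le

/-- Gauss norm equals sup norm on the unit polydisc, for polynomials. -/
theorem norm_coeff_le_of_eval [IsAlgClosed C] (P : MvPolynomial (Fin N) C) {B : ℝ}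
    (h : ∀ v : Fin N → C, (∀ l, ‖v l‖ ≤ 1) → ‖MvPolynomial.eval v P‖ ≤ B) (α : Fin N →₀ ℕ) :
    ‖MvPolynomial.coeff α P‖ ≤ B := by
  classical
  have hB0 : 0 ≤ B := (norm_nonneg _).trans (h (fun _ => 0) (by simp))
  obtain ⟨M, hMge, hMn⟩ := exists_large_unit_nat (C := C) (P.totalDegree + α.degree + 1)
  have hM0 : M ≠ 0 := by omega
  have hNZ : NeZero ((M : ℕ) : C) := ⟨fun h0 => by rw [h0, norm_zero] at hMn; exact zero_ne_one hMn⟩
  haveI : NeZero M := ⟨hM0⟩
  obtain ⟨ζ, hζ⟩ := HasEnoughRootsOfUnity.exists_primitiveRoot C M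
  have hζM : ζ ^ M = 1 := hζ.pow_eq_one
  have hζn : ‖ζ‖ = 1 := by
    have h2 : ‖ζ‖ ^ M = 1 := by rw [← norm_pow, hζM, norm_one]
    exact (pow_eq_one_iff_of_nonneg (norm_nonneg _) hM0).mp h2
  have hζ0 : ζ ≠ 0 := by
    intro h0
    rw [h0, norm_zero] at hζn
    exact zero_ne_one hζn
  -- the sum over the grid
  have hβlt : ∀ β ∈ P.support, ∀ l, β l < M := by
    intro β hβ l
    have h1 : β.degree ≤ P.totalDegree := by
      have := MvPolynomial.le_totalDegree hβ
      exact this
    have h2 : β l ≤ β.degree := by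
      rw [Finsupp.degree_eq_sum]
      exact Finset.single_le_sum (f := fun i => β i) (fun _ _ => Nat.zero_le _) (Finset.mem_univ l)
    omega
  have hαlt : ∀ l, α l < M := by
    intro l
    have h2 : α l ≤ α.degree := by
      rw [Finsupp.degree_eq_sum]
      exact Finset.single_le_sum (f := fun i => α i) (fun _ _ => Nat.zero_le _) (Finset.mem_univ l)
    omega
  have hgeom : ∀ β ∈ P.support, ∀ l,
      ∑ a : Fin M, (ζ⁻¹) ^ ((a : ℕ) * α l) * (ζ ^ (a : ℕ)) ^ β l = if β l = α l then (M : C) else 0 := by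
    intro β hβ l
    have hterm : ∀ a : Fin M, (ζ⁻¹) ^ ((a : ℕ) * α l) * (ζ ^ (a : ℕ)) ^ β l = (ζ ^ β l * (ζ⁻¹) ^ α l) ^ (a : ℕ) := by
      intro a
      rw [mul_pow, ← pow_mul, ← pow_mul, ← pow_mul, mul_comm (a : ℕ) (α l), mul_comm (a : ℕ) (β l), mul_comm]
    simp only [hterm]
    rw [Fin.sum_univ_eq_sum_range (fun a => (ζ ^ β l * (ζ⁻¹) ^ α l) ^ a) M]
    split_ifs with heq
    · have : ζ ^ β l * (ζ⁻¹) ^ α l = 1 := by
        rw [heq, inv_pow, mul_inv_cancel₀ (pow_ne_zero _ hζ0)]
      rw [this]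
      simp
    · set w := ζ ^ β l * (ζ⁻¹) ^ α l with hw
      have hw1 : w ≠ 1 := by
        intro h1
        apply heq
        have h2 : ζ ^ β l = ζ ^ α l := by
          rw [hw, inv_pow] at h1
          field_simp at h1
          exact h1
        exact hζ.pow_inj (hβlt β hβ l) (hαlt l) h2
      have hwM : w ^ M = 1 := by
        rw [hw, mul_pow, ← pow_mul, ← pow_mul, inv_pow, mul_comm (β l), mul_comm (α l), pow_mul, pow_mul, hζM]
        simp
      have := geom_sum_mul w M
      rw [hwM, sub_self] at this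
      exact (mul_eq_zero.mp this).resolve_right (sub_ne_zero.mpr hw1)
  have hkey : ∑ j : Fin N → Fin M, (∏ l, (ζ⁻¹) ^ ((j l : ℕ) * α l)) * MvPolynomial.eval (fun l => ζ ^ (j l : ℕ)) P =
      (M : C) ^ N * MvPolynomial.coeff α P := by
    have h1 : ∀ j : Fin N → Fin M, (∏ l, (ζ⁻¹) ^ ((j l : ℕ) * α l)) * MvPolynomial.eval (fun l => ζ ^ (j l : ℕ)) P =
        ∑ β ∈ P.support, MvPolynomial.coeff β P * ∏ l, ((ζ⁻¹) ^ ((j l : ℕ) * α l) * (ζ ^ (j l : ℕ)) ^ β l) := by
      intro j
      rw [MvPolynomial.eval_eq', Finset.mul_sum]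
      refine Finset.sum_congr rfl fun β _ => ?_
      rw [Finset.prod_mul_distrib]
      ring
    simp only [h1]
    rw [Finset.sum_comm]
    have h2 : ∀ β ∈ P.support, ∑ j : Fin N → Fin M, MvPolynomial.coeff β P * ∏ l, ((ζ⁻¹) ^ ((j l : ℕ) * α l) * (ζ ^ (j l : ℕ)) ^ β l) =
        if β = α then (M : C) ^ N * MvPolynomial.coeff α P else 0 := by
      intro β hβ
      rw [← Finset.mul_sum]
      have h3 : ∑ j : Fin N → Fin M, ∏ l, ((ζ⁻¹) ^ ((j l : ℕ) * α l) * (ζ ^ (j l : ℕ)) ^ β l) =
          ∏ l, ∑ a : Fin M, ((ζ⁻¹) ^ ((a : ℕ) * α l) * (ζ ^ (a : ℕ)) ^ β l) := by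
        rw [Finset.prod_univ_sum]
        simp [Fintype.piFinset_univ]
      rw [h3, Finset.prod_congr rfl (fun l _ => hgeom β hβ l)]
      split_ifs with heq
      · subst heq
        simp [mul_comm]
      · obtain ⟨l, hl⟩ : ∃ l, β l ≠ α l := by
          by_contra hcon
          push Not at hcon
          exact heq (Finsupp.ext hcon)
        rw [Finset.prod_eq_zero (Finset.mem_univ l) (by simp [hl]), mul_zero]
    rw [Finset.sum_congr rfl h2, Finset.sum_ite_eq']
    split_ifs with hα
    · rfl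
    · have : MvPolynomial.coeff α P = 0 := by
        simpa [MvPolynomial.mem_support_iff] using hα
      simp [this]
  have hnorm : ‖(M : C) ^ N * MvPolynomial.coeff α P‖ = ‖MvPolynomial.coeff α P‖ := by
    rw [norm_mul, norm_pow, hMn, one_pow, one_mul]
  rw [← hnorm, ← hkey]
  refine IsUltrametricDist.norm_sum_le_of_forall_le_of_nonneg hB0 fun j _ => ?_
  rw [norm_mul, norm_prod]
  have h1 : ∀ l ∈ Finset.univ, ‖(ζ⁻¹) ^ ((j l : ℕ) * α l)‖ = 1 := by
    intro l _
    rw [norm_pow, norm_inv, hζn]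
    simp
  rw [Finset.prod_congr rfl h1]
  simp only [Finset.prod_const_one, one_mul]
  refine h _ fun l => ?_
  rw [norm_pow, hζn, one_pow]

omit [CompleteSpace C] in
lemma norm_sub_le_max_za (a b : C) : ‖a - b‖ ≤ max ‖a‖ ‖b‖ := by
  rw [sub_eq_add_neg, ← norm_neg b]
  exact IsUltrametricDist.norm_add_le_max _ _

/-- The polynomial `P (x + π v)`, as a polynomial in `v`. -/
noncomputable def recenter (x : Fin N → C) (π : C) : MvPolynomial (Fin N) C →ₐ[C] MvPolynomial (Fin N) C :=
  MvPolynomial.bind₁ fun l => MvPolynomial.C (x l) + MvPolynomial.C π * MvPolynomial.X l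

lemma eval_recenter (x : Fin N → C) (π : C) (P : MvPolynomial (Fin N) C) (v : Fin N → C) :
    MvPolynomial.eval v (recenter x π P) = MvPolynomial.eval (fun l => x l + π * v l) P := by
  have h : (MvPolynomial.eval v).comp ((recenter x π : MvPolynomial (Fin N) C →ₐ[C] MvPolynomial (Fin N) C) : MvPolynomial (Fin N) C →+* MvPolynomial (Fin N) C) =
      MvPolynomial.eval (fun l => x l + π * v l) := by
    refine MvPolynomial.ringHom_ext (fun c => ?_) (fun l => ?_)
    · simp [recenter]
    · simp [recenter]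
  exact congrArg (fun φ => φ P) h

/-- A polynomial is its constant term, plus linear terms, plus terms which are small. -/
lemma norm_eval_sub_linear_le (Q : MvPolynomial (Fin N) C) (v : Fin N → C) {θ B : ℝ} (hθ0 : 0 ≤ θ) (hθ1 : θ ≤ 1) (hB : 0 ≤ B)
    (hv : ∀ l, ‖v l‖ ≤ θ) (hQ : ∀ α, ‖MvPolynomial.coeff α Q‖ ≤ B) :
    ‖MvPolynomial.eval v Q - MvPolynomial.coeff 0 Q - ∑ l, MvPolynomial.coeff (Finsupp.single l 1) Q * v l‖ ≤ B * θ ^ 2 := by
  classical
  have hmon : ∀ α : Fin N →₀ ℕ, ∀ c : C, MvPolynomial.eval v (MvPolynomial.monomial α c) - MvPolynomial.coeff 0 (MvPolynomial.monomial α c)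
      - ∑ l, MvPolynomial.coeff (Finsupp.single l 1) (MvPolynomial.monomial α c) * v l =
      c * (MvPolynomial.eval v (MvPolynomial.monomial α 1) - MvPolynomial.coeff 0 (MvPolynomial.monomial α (1 : C))
      - ∑ l, MvPolynomial.coeff (Finsupp.single l 1) (MvPolynomial.monomial α (1 : C)) * v l) := by
    intro α c
    simp only [MvPolynomial.eval_monomial, MvPolynomial.coeff_monomial, mul_sub, Finset.mul_sum]
    congr 1
    · congr 1
      · ring
      · split_ifs <;> simp
    · refine Finset.sum_congr rfl fun l _ => ?_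
      split_ifs <;> simp
  have hsmall : ∀ α : Fin N →₀ ℕ, ‖MvPolynomial.eval v (MvPolynomial.monomial α (1 : C)) - MvPolynomial.coeff 0 (MvPolynomial.monomial α (1 : C))
      - ∑ l, MvPolynomial.coeff (Finsupp.single l 1) (MvPolynomial.monomial α (1 : C)) * v l‖ ≤ θ ^ 2 := by
    intro α
    by_cases h0 : α = 0
    · subst h0
      have : ∀ l : Fin N, MvPolynomial.coeff (Finsupp.single l 1) (MvPolynomial.monomial (0 : Fin N →₀ ℕ) (1 : C)) = 0 := by
        intro l
        rw [MvPolynomial.coeff_monomial, if_neg]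
        intro h
        have := DFunLike.congr_fun h l
        simp at this
      simp only [MvPolynomial.eval_monomial, this, zero_mul, Finset.sum_const_zero, sub_zero]
      simp [MvPolynomial.coeff_monomial]
      positivity
    by_cases h1 : ∃ l₀, α = Finsupp.single l₀ 1
    · obtain ⟨l₀, rfl⟩ := h1
      have hs : ∑ l, MvPolynomial.coeff (Finsupp.single l 1) (MvPolynomial.monomial (Finsupp.single l₀ 1) (1 : C)) * v l = v l₀ := by
        rw [Finset.sum_eq_single l₀]
        · simp
        · intro l _ hl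
          rw [MvPolynomial.coeff_monomial, if_neg, zero_mul]
          intro h
          have := Finsupp.single_left_inj (one_ne_zero : (1 : ℕ) ≠ 0) |>.mp h
          exact hl this.symm
        · simp
      have hc : MvPolynomial.coeff 0 (MvPolynomial.monomial (Finsupp.single l₀ 1) (1 : C)) = 0 := by
        rw [MvPolynomial.coeff_monomial, if_neg]
        intro h
        have := DFunLike.congr_fun h l₀
        simp at this
      rw [hs, hc]
      simp [MvPolynomial.eval_monomial]
      positivity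
    · -- degree at least two
      have hc : MvPolynomial.coeff 0 (MvPolynomial.monomial α (1 : C)) = 0 := by
        rw [MvPolynomial.coeff_monomial, if_neg (fun h => h0 h)]
      have hs : ∀ l, MvPolynomial.coeff (Finsupp.single l 1) (MvPolynomial.monomial α (1 : C)) = 0 := by
        intro l
        rw [MvPolynomial.coeff_monomial, if_neg]
        intro h
        exact h1 ⟨l, h⟩
      simp only [hc, hs, zero_mul, Finset.sum_const_zero, sub_zero, MvPolynomial.eval_monomial, one_mul]
      -- the degree is at least two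
      have hdeg : 2 ≤ α.degree := by
        by_contra hlt
        have hle : α.degree ≤ 1 := by omega
        rcases Nat.le_one_iff_eq_zero_or_eq_one.mp hle with hd | hd
        · exact h0 ((Finsupp.degree_eq_zero_iff _).mp hd)
        · rw [Finsupp.degree_eq_sum] at hd
          obtain ⟨l₀, hl₀⟩ : ∃ l₀, α l₀ ≠ 0 := by
            by_contra hcon
            push Not at hcon
            exact h0 (Finsupp.ext hcon)
          apply h1
          refine ⟨l₀, Finsupp.ext fun l => ?_⟩
          have hge : α l₀ ≤ ∑ i, α i := Finset.single_le_sum (f := fun i => α i) (fun _ _ => Nat.zero_le _) (Finset.mem_univ l₀)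
          have hl₀1 : α l₀ = 1 := by omega
          by_cases hll : l = l₀
          · subst hll
            simpa using hl₀1
          · have hsum : α l₀ + α l ≤ ∑ i, α i := by
              have := Finset.sum_le_sum_of_subset (f := fun i => α i) (Finset.subset_univ ({l₀, l} : Finset (Fin N)))
              rwa [Finset.sum_pair (Ne.symm hll)] at this
            have : α l = 0 := by omega
            simp [this, Finsupp.single_apply, Ne.symm hll]
      rw [Finsupp.prod, norm_prod]
      simp only [norm_pow]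
      have h3 : ∏ i ∈ α.support, ‖v i‖ ^ α i ≤ ∏ i ∈ α.support, θ ^ α i :=
        Finset.prod_le_prod (fun _ _ => by positivity) fun i _ => pow_le_pow_left₀ (norm_nonneg _) (hv i) _
      refine h3.trans ?_
      rw [Finset.prod_pow_eq_pow_sum]
      have h4 : ∑ i ∈ α.support, α i = α.degree := rfl
      rw [h4]
      exact pow_le_pow_of_le_one hθ0 hθ1 hdeg
  have hsum : MvPolynomial.eval v Q - MvPolynomial.coeff 0 Q - ∑ l, MvPolynomial.coeff (Finsupp.single l 1) Q * v l =
      ∑ α ∈ Q.support, MvPolynomial.coeff α Q * (MvPolynomial.eval v (MvPolynomial.monomial α 1) - MvPolynomial.coeff 0 (MvPolynomial.monomial α (1 : C))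
      - ∑ l, MvPolynomial.coeff (Finsupp.single l 1) (MvPolynomial.monomial α (1 : C)) * v l) := by
    have hL : ∀ S : Finset (Fin N →₀ ℕ), ∀ f : (Fin N →₀ ℕ) → C,
        MvPolynomial.eval v (∑ α ∈ S, MvPolynomial.monomial α (f α)) - MvPolynomial.coeff 0 (∑ α ∈ S, MvPolynomial.monomial α (f α))
          - ∑ l, MvPolynomial.coeff (Finsupp.single l 1) (∑ α ∈ S, MvPolynomial.monomial α (f α)) * v l =
        ∑ α ∈ S, f α * (MvPolynomial.eval v (MvPolynomial.monomial α 1) - MvPolynomial.coeff 0 (MvPolynomial.monomial α (1 : C))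
          - ∑ l, MvPolynomial.coeff (Finsupp.single l 1) (MvPolynomial.monomial α (1 : C)) * v l) := by
      intro S f
      rw [Finset.sum_congr rfl (fun α _ => (hmon α (f α)).symm)]
      simp only [map_sum, MvPolynomial.coeff_sum, Finset.sum_mul]
      rw [Finset.sum_sub_distrib, Finset.sum_sub_distrib, Finset.sum_comm]
    have := hL Q.support (fun α => MvPolynomial.coeff α Q)
    rwa [← MvPolynomial.as_sum] at this
  rw [hsum]
  refine IsUltrametricDist.norm_sum_le_of_forall_le_of_nonneg (by positivity) fun α _ => ?_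
  rw [norm_mul]
  exact mul_le_mul (hQ α) (hsmall α) (norm_nonneg _) hB

/-- The linear coefficient at `x` of a polynomial. -/
noncomputable def polyJ (x : Fin N → C) (π : C) (l : Fin N) (P : MvPolynomial (Fin N) C) : C :=
  MvPolynomial.coeff (Finsupp.single l 1) (recenter x π P) / π

lemma polyJ_sub (x : Fin N → C) (π : C) (l : Fin N) (P P' : MvPolynomial (Fin N) C) :
    polyJ x π l (P - P') = polyJ x π l P - polyJ x π l P' := by
  simp [polyJ, map_sub, MvPolynomial.coeff_sub, sub_div]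

/-- The polynomial case of the Taylor expansion. -/
lemma taylor_poly_ball [IsAlgClosed C] {r : ℝ} (π : C) (hπ : ‖π‖ = r) (h0 : 0 < r) (h1 : r < 1)
    (P : MvPolynomial (Fin N) C) {B : ℝ} (hB0 : 0 ≤ B)
    (hB : ∀ u : Fin N → OC C, (∀ l, ‖(u l : C)‖ ≤ r) → ‖MvPolynomial.eval (fun l => (u l : C)) P‖ ≤ B)
    (x : Fin N → OC C) (hx : ∀ l, ‖(x l : C)‖ ≤ r) :
    (∀ l, ‖polyJ (fun l => (x l : C)) π l P‖ ≤ B / r) ∧
    ∀ (Δ : Fin N → OC C) (D : ℝ), 0 ≤ D → D ≤ r → (∀ l, ‖(Δ l : C)‖ ≤ D) →
      ‖MvPolynomial.eval (fun l => ((x + Δ) l : C)) P - MvPolynomial.eval (fun l => (x l : C)) P -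
        ∑ l, polyJ (fun l => (x l : C)) π l P * (Δ l : C)‖ ≤ B * D ^ 2 / r ^ 2 := by
  have hπ0 : π ≠ 0 := by
    intro h
    rw [h, norm_zero] at hπ
    exact h0.ne hπ
  set Q := recenter (fun l => (x l : C)) π P with hQ
  have hval : ∀ v : Fin N → C, (∀ l, ‖v l‖ ≤ 1) → ‖MvPolynomial.eval v Q‖ ≤ B := by
    intro v hv
    have hu : ∀ l, ‖(x l : C) + π * v l‖ ≤ r := by
      intro l
      refine (IsUltrametricDist.norm_add_le_max _ _).trans (max_le (hx l) ?_)
      rw [norm_mul, hπ]
      exact mul_le_of_le_one_right h0.le (hv l)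
    let u : Fin N → OC C := fun l => ⟨(x l : C) + π * v l, (hu l).trans h1.le⟩
    rw [hQ, eval_recenter]
    exact hB u hu
  have hcoeff : ∀ α, ‖MvPolynomial.coeff α Q‖ ≤ B := norm_coeff_le_of_eval Q hval
  refine ⟨fun l => ?_, fun Δ D hD0 hDr hΔ => ?_⟩
  · rw [polyJ, norm_div, hπ]
    exact div_le_div_of_nonneg_right (hcoeff _) h0.le
  · set v : Fin N → C := fun l => (Δ l : C) / π with hv
    have hvΔ : ∀ l, π * v l = (Δ l : C) := fun l => by rw [hv]; field_simp
    have hvn : ∀ l, ‖v l‖ ≤ D / r := by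
      intro l
      rw [hv]
      simp only [norm_div, hπ]
      exact div_le_div_of_nonneg_right (hΔ l) h0.le
    have h2 := norm_eval_sub_linear_le Q v (div_nonneg hD0 h0.le) ((div_le_one h0).mpr hDr) hB0 hvn hcoeff
    have h3 : MvPolynomial.eval v Q = MvPolynomial.eval (fun l => ((x + Δ) l : C)) P := by
      rw [hQ, eval_recenter]
      have e : (fun l => (x l : C) + π * v l) = fun l => (((x + Δ) l : OC C) : C) := by
        funext l
        rw [hvΔ]
        rfl
      rw [e]
    have h4 : MvPolynomial.coeff 0 Q = MvPolynomial.eval (fun l => (x l : C)) P := by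
      have h5 : MvPolynomial.eval (fun _ => (0 : C)) Q = MvPolynomial.eval (fun l => (x l : C)) P := by
        rw [hQ, eval_recenter]
        have e : (fun l => (x l : C) + π * 0) = fun l => (x l : C) := by
          funext l
          simp
        rw [e]
      rw [← h5]
      have h7 := congrArg (fun φ => φ Q) (MvPolynomial.eval_zero (σ := Fin N) (R := C))
      have h8 : (fun _ : Fin N => (0 : C)) = 0 := rfl
      rw [h8, h7]
      rfl
    have h6 : ∀ l, polyJ (fun l => (x l : C)) π l P * (Δ l : C) = MvPolynomial.coeff (Finsupp.single l 1) Q * v l := by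
      intro l
      rw [polyJ, ← hQ, ← hvΔ]
      field_simp
    simp only [h6]
    rw [← h3, ← h4]
    refine h2.trans (le_of_eq ?_)
    rw [div_pow]
    ring

/-- First order Taylor expansion for uniform limits of polynomial functions, with Cauchy estimates for the error. -/
theorem taylor_of_isUnifPoly [IsAlgClosed C] {r : ℝ} (π : C) (hπ : ‖π‖ = r) (h0 : 0 < r) (h1 : r < 1)
    {f : (Fin N → OC C) → C} (hf : IsUnifPoly r f) {B : ℝ} (hB0 : 0 ≤ B)
    (hB : ∀ u : Fin N → OC C, (∀ l, ‖(u l : C)‖ ≤ r) → ‖f u‖ ≤ B)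
    (x : Fin N → OC C) (hx : ∀ l, ‖(x l : C)‖ ≤ r) :
    ∃ J : Fin N → C, (∀ l, ‖J l‖ ≤ B / r) ∧ ∀ (Δ : Fin N → OC C) (D : ℝ), 0 ≤ D → D ≤ r → (∀ l, ‖(Δ l : C)‖ ≤ D) →
      ‖f (x + Δ) - f x - ∑ l, J l * (Δ l : C)‖ ≤ B * D ^ 2 / r ^ 2 := by
  classical
  let ε : ℕ → ℝ := fun i => 1 / ((i : ℝ) + 1)
  have hε : ∀ i, 0 < ε i := fun i => by positivity
  have hε0 : Tendsto ε atTop (𝓝 0) := tendsto_one_div_add_atTop_nhds_zero_nat
  choose P hP using fun i : ℕ => hf (ε i) (hε i)
  have hbd : ∀ i, ∀ u : Fin N → OC C, (∀ l, ‖(u l : C)‖ ≤ r) →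
      ‖MvPolynomial.eval (fun l => (u l : C)) (P i)‖ ≤ max B (ε i) := by
    intro i u hu
    have e : MvPolynomial.eval (fun l => (u l : C)) (P i) = f u - (f u - MvPolynomial.eval (fun l => (u l : C)) (P i)) := by ring
    rw [e]
    refine (norm_sub_le_max_za _ _).trans (max_le_max (hB u hu) (hP i u hu))
  have hdiff : ∀ i j, ∀ u : Fin N → OC C, (∀ l, ‖(u l : C)‖ ≤ r) →
      ‖MvPolynomial.eval (fun l => (u l : C)) (P i - P j)‖ ≤ max (ε i) (ε j) := by
    intro i j u hu
    have e : MvPolynomial.eval (fun l => (u l : C)) (P i - P j) =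
        (f u - MvPolynomial.eval (fun l => (u l : C)) (P j)) - (f u - MvPolynomial.eval (fun l => (u l : C)) (P i)) := by
      rw [map_sub]; ring
    rw [e]
    refine (norm_sub_le_max_za _ _).trans ?_
    rw [max_comm]
    exact max_le_max (hP i u hu) (hP j u hu)
  set x' : Fin N → C := fun l => (x l : C) with hx'
  let Js : ℕ → Fin N → C := fun i l => polyJ x' π l (P i)
  have hJdiff : ∀ i j l, ‖Js i l - Js j l‖ ≤ max (ε i) (ε j) / r := by
    intro i j l
    have h2 := (taylor_poly_ball π hπ h0 h1 (P i - P j) (le_max_of_le_left (hε i).le) (hdiff i j) x hx).1 l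
    simpa [Js, polyJ_sub] using h2
  have hcauchy : ∀ l, CauchySeq fun i => Js i l := by
    intro l
    rw [Metric.cauchySeq_iff']
    intro e he
    have hev : ∀ᶠ i in atTop, ε i < e * r := hε0.eventually (gt_mem_nhds (mul_pos he h0))
    obtain ⟨M, hM⟩ := eventually_atTop.mp hev
    refine ⟨M, fun n hn => ?_⟩
    rw [dist_eq_norm]
    refine lt_of_le_of_lt (hJdiff n M l) ?_
    rw [div_lt_iff₀ h0]
    exact max_lt (hM n hn) (hM M le_rfl)
  choose J hJ using fun l => cauchySeq_tendsto_of_complete (hcauchy l)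
  have hmax : Tendsto (fun i => max B (ε i)) atTop (𝓝 B) := by
    have := (tendsto_const_nhds (x := B)).max hε0
    simpa [max_eq_left hB0] using this
  refine ⟨J, fun l => ?_, fun Δ D hD0 hDr hΔ => ?_⟩
  · have h2 : Tendsto (fun i => ‖Js i l‖) atTop (𝓝 ‖J l‖) := (hJ l).norm
    have h3 : Tendsto (fun i => max B (ε i) / r) atTop (𝓝 (B / r)) := hmax.div_const r
    refine le_of_tendsto_of_tendsto' h2 h3 fun i => ?_
    exact (taylor_poly_ball π hπ h0 h1 (P i) (le_max_of_le_left hB0) (hbd i) x hx).1 l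
  · have hxΔ : ∀ l, ‖((x + Δ) l : C)‖ ≤ r := by
      intro l
      have e : (((x + Δ) l : OC C) : C) = (x l : C) + (Δ l : C) := rfl
      rw [e]
      exact (IsUltrametricDist.norm_add_le_max _ _).trans (max_le (hx l) ((hΔ l).trans hDr))
    have hlim : ∀ u : Fin N → OC C, (∀ l, ‖(u l : C)‖ ≤ r) →
        Tendsto (fun i => MvPolynomial.eval (fun l => (u l : C)) (P i)) atTop (𝓝 (f u)) := by
      intro u hu
      rw [tendsto_iff_norm_sub_tendsto_zero]
      refine squeeze_zero (fun _ => norm_nonneg _) (fun i => ?_) hε0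
      rw [norm_sub_rev]
      exact hP i u hu
    have h2 : Tendsto (fun i => MvPolynomial.eval (fun l => ((x + Δ) l : C)) (P i) - MvPolynomial.eval (fun l => (x l : C)) (P i) -
        ∑ l, Js i l * (Δ l : C)) atTop (𝓝 (f (x + Δ) - f x - ∑ l, J l * (Δ l : C))) := by
      refine ((hlim _ hxΔ).sub (hlim _ hx)).sub ?_
      exact tendsto_finsetSum _ fun l _ => (hJ l).mul_const _
    have h3 : Tendsto (fun i => max B (ε i) * D ^ 2 / r ^ 2) atTop (𝓝 (B * D ^ 2 / r ^ 2)) :=
      (hmax.mul_const _).div_const _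
    refine le_of_tendsto_of_tendsto' h2.norm h3 fun i => ?_
    exact (taylor_poly_ball π hπ h0 h1 (P i) (le_max_of_le_left hB0) (hbd i) x hx).2 Δ D hD0 hDr hΔ

end Vale.Agent.Lib.P217
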