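import Vale.Agent.Lib.P217.ZLaw

set_option linter.unusedSectionVars false
set_option linter.unusedVariables false

/-!
The universal cover of a `ZLaw`: sequences of points `y_j` with `p • y_(j+1) = y_j`; and its maps to the points of close laws.

Recall that `ZClose L L'` means `L'.c = L.c`, and that the coefficients of `L.G`, `L'.G` are congruent modulo `c = L.c`.
-/

namespace Vale.Agent.Lib.P217

open scoped Topology
open Filter

variable {C : Type*} [NormedField C] [IsUltrametricDist C] [CompleteSpace C]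
variable {p n : ℕ} [hp : Fact p.Prime]

/-- The universal cover: sequences of successive `p`-division points. -/
@[ext]
structure ZCov (L : ZLaw C p n) where
  /-- the sequence -/
  seq : ℕ → Pts L.G
  step : ∀ j, p • seq (j + 1) = seq j

namespace ZCov

variable {L : ZLaw C p n}

noncomputable instance : Add (ZCov L) :=
  ⟨fun y y' => ⟨fun j => y.seq j + y'.seq j, fun j => by rw [nsmul_add, y.step, y'.step]⟩⟩

noncomputable instance : Zero (ZCov L) := ⟨⟨fun _ => 0, fun _ => by simp⟩⟩

noncomputable instance : Neg (ZCov L) := ⟨fun y => ⟨fun j => - y.seq j, fun j => by rw [smul_neg, y.step]⟩⟩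

noncomputable instance : AddCommGroup (ZCov L) where
  add_assoc a b c := ZCov.ext (funext fun j => add_assoc (a.seq j) (b.seq j) (c.seq j))
  zero_add a := ZCov.ext (funext fun j => zero_add (a.seq j))
  add_zero a := ZCov.ext (funext fun j => add_zero (a.seq j))
  neg_add_cancel a := ZCov.ext (funext fun j => neg_add_cancel (a.seq j))
  add_comm a b := ZCov.ext (funext fun j => add_comm (a.seq j) (b.seq j))
  nsmul := nsmulRec
  zsmul := zsmulRec

@[simp] lemma add_seq (y y' : ZCov L) (j : ℕ) : (y + y').seq j = y.seq j + y'.seq j := rfl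
@[simp] lemma zero_seq (j : ℕ) : (0 : ZCov L).seq j = 0 := rfl
@[simp] lemma neg_seq (y : ZCov L) (j : ℕ) : (-y).seq j = - y.seq j := rfl
@[simp] lemma nsmul_seq (m : ℕ) (y : ZCov L) (j : ℕ) : (m • y).seq j = m • y.seq j := by
  induction m with
  | zero => simp
  | succ m ih => rw [succ_nsmul, add_seq, ih, succ_nsmul]

/-- The norm on the universal cover. -/
noncomputable def nm (y : ZCov L) : ℝ := max ‖(y.seq 0).v‖ L.c

lemma nm_lt_one (y : ZCov L) : nm y < 1 := max_lt (y.seq 0).norm_lt L.c_lt_one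

lemma nm_add (y y' : ZCov L) : nm (y + y') ≤ max (nm y) (nm y') := by
  have h := Vale.Agent.Lib.P217.norm_add_le L.G (y.seq 0) (y'.seq 0)
  simp only [nm, add_seq]
  refine max_le (h.trans (max_le_max (le_max_left _ _) (le_max_left _ _))) ?_
  exact (le_max_right _ _).trans (le_max_left _ _)

lemma nm_neg (y : ZCov L) : nm (-y) = nm y := by
  simp only [nm, neg_seq]
  rw [ZLaw.norm_neg L]

lemma nm_zero_le (y : ZCov L) : nm (0 : ZCov L) ≤ nm y := by
  simp only [nm, zero_seq, Pts.zero_v, norm_zero]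
  exact max_le_max (norm_nonneg _) le_rfl

lemma nm_nsmul_le (m : ℕ) (y : ZCov L) : nm (m • y) ≤ nm y := by
  simp only [nm, nsmul_seq]
  exact max_le_max (ZLaw.norm_nsmul_le L _ _) le_rfl

lemma c_le_nm (y : ZCov L) : L.c ≤ nm y := le_max_right _ _

/-- The shift, inverse of the multiplication by `p`. -/
def shift (y : ZCov L) : ZCov L := ⟨fun j => y.seq (j + 1), fun j => y.step (j + 1)⟩

lemma nsmul_shift (y : ZCov L) : p • shift y = y := by
  apply ZCov.ext
  funext j
  rw [nsmul_seq]
  exact y.step j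

lemma shift_nsmul (y : ZCov L) : shift (p • y) = y := by
  apply ZCov.ext
  funext j
  change (p • y).seq (j + 1) = y.seq j
  rw [nsmul_seq]
  exact y.step j

/-- Multiplication by `p` is bijective on the universal cover (surjectivity). -/
lemma exists_nsmul_p_eq (y : ZCov L) : ∃ y' : ZCov L, p • y' = y := ⟨shift y, nsmul_shift y⟩

/-- Every point is the first term of a sequence, by `ZLaw.exists_nsmul_p_eq` and recursion. -/
lemma exists_seq_zero [IsAlgClosed C] (z : Pts L.G) : ∃ y : ZCov L, y.seq 0 = z := by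
  classical
  let s : ℕ → Pts L.G := fun j => Nat.rec z (fun _ w => (ZLaw.exists_nsmul_p_eq L w).choose) j
  refine ⟨⟨s, fun j => ?_⟩, rfl⟩
  exact (ZLaw.exists_nsmul_p_eq L (s j)).choose_spec

end ZCov

section mu

variable {L L' : ZLaw C p n}

/-- The map from the universal cover to the points of another law: `y ↦ lim_j (p ^ j) •_L' y_j` (and junk if it does not converge). -/
noncomputable def zmu (L L' : ZLaw C p n) (y : ZCov L) : Pts L'.G :=
  open Classical in
  if h : ∃ l : Pts L'.G, Tendsto (fun j => ((p ^ j) • (Pts.cast (y.seq j) : Pts L'.G)).v) atTop (𝓝 l.v) then h.choose else 0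

/-- The approximating sequence. -/
noncomputable def zT (L L' : ZLaw C p n) (y : ZCov L) (j : ℕ) : Pts L'.G :=
  (p ^ j) • (Pts.cast (y.seq j) : Pts L'.G)

lemma zT_v (L L' : ZLaw C p n) (y : ZCov L) (j : ℕ) :
    ((p ^ j) • (Pts.cast (y.seq j) : Pts L'.G)).v = (zT L L' y j).v := rfl

lemma ZClose.norm_zT_step (h : ZClose L L') (y : ZCov L) (j : ℕ) :
    ‖(zT L L' y (j + 1)).v - (zT L L' y j).v‖ ≤ L.c ^ (j + 1) := by
  have hc0 : 0 ≤ L.c := L.c_nonneg
  have e1 : zT L L' y (j + 1) = (p ^ j) • (p • (Pts.cast (y.seq (j + 1)) : Pts L'.G)) := by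
    simp only [zT]
    rw [pow_succ, mul_nsmul']
  have h1 : ‖(p • (Pts.cast (y.seq (j + 1)) : Pts L'.G)).v - (Pts.cast (y.seq j) : Pts L'.G).v‖ ≤ L.c := by
    have h2 := zn_nsmul_sub_of_close (G := L.G) (G' := L'.G) hc0 h.2 (y.seq (j + 1))
      (Pts.cast (y.seq (j + 1)) : Pts L'.G) (by simpa using hc0) p
    rw [norm_sub_rev, y.step j] at h2
    simpa using h2
  rw [e1, zT]
  have h3 := ZLaw.norm_nsmul_pow_sub_le L' (ε := L.c) h.1.le L.c_lt_one.le _ _ h1 j
  refine h3.trans ?_
  rw [pow_succ]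
  exact mul_le_mul_of_nonneg_left h1 (pow_nonneg hc0 j)

lemma ZClose.norm_zT_sub_zero (h : ZClose L L') (y : ZCov L) (j : ℕ) :
    ‖(zT L L' y j).v - (y.seq 0).v‖ ≤ L.c := by
  have hc0 : 0 ≤ L.c := L.c_nonneg
  induction j with
  | zero =>
    simp only [zT, pow_zero, one_smul, Pts.v_cast, sub_self, norm_zero]
    exact hc0
  | succ j ih =>
    have e : (zT L L' y (j + 1)).v - (y.seq 0).v =
        ((zT L L' y (j + 1)).v - (zT L L' y j).v) + ((zT L L' y j).v - (y.seq 0).v) := by ring
    rw [e]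
    refine (IsUltrametricDist.norm_add_le_max _ _).trans (max_le ?_ ih)
    refine (h.norm_zT_step y j).trans ?_
    calc L.c ^ (j + 1) ≤ L.c ^ 1 := pow_le_pow_of_le_one hc0 L.c_lt_one.le (by omega)
      _ = L.c := pow_one _

lemma ZClose.norm_zT_le (h : ZClose L L') (y : ZCov L) (j : ℕ) :
    ‖(zT L L' y j).v‖ ≤ ZCov.nm y := by
  have e : (zT L L' y j).v = ((zT L L' y j).v - (y.seq 0).v) + (y.seq 0).v := by ring
  rw [e]
  refine (IsUltrametricDist.norm_add_le_max _ _).trans (max_le ?_ (le_max_left _ _))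
  exact (h.norm_zT_sub_zero y j).trans (le_max_right _ _)

lemma ZClose.tendsto_step (h : ZClose L L') (y : ZCov L) :
    Tendsto (fun j => (zT L L' y (j + 1)).v - (zT L L' y j).v) atTop (𝓝 0) := by
  rw [tendsto_zero_iff_norm_tendsto_zero]
  have h1 : Tendsto (fun j : ℕ => L.c ^ (j + 1)) atTop (𝓝 0) :=
    (tendsto_pow_atTop_nhds_zero_of_lt_one L.c_nonneg L.c_lt_one).comp (tendsto_add_atTop_nat 1)
  exact squeeze_zero (fun _ => norm_nonneg _) (fun j => h.norm_zT_step y j) h1

/-- Convergence. Proof: by `zn_nsmul_sub_of_close`, `‖p •_L' y_(j+1) - y_j‖ = ‖p •_L' y_(j+1) - p •_L y_(j+1)‖ ≤ c`.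
By contraction (`ZLaw.norm_nsmul_pow_sub_le`) the difference of the `j + 1`-th and `j`-th terms has norm at most `c ^ (j + 1)`, it tends to zero; all terms have norm
at most `max ‖y_0‖ c`: the zeroth term has this bound and the differences as well. Apply `exists_lim_pts`. -/
theorem ZClose.tendsto_zmu (h : ZClose L L') (y : ZCov L) :
    Tendsto (fun j => ((p ^ j) • (Pts.cast (y.seq j) : Pts L'.G)).v) atTop (𝓝 (zmu L L' y).v) := by
  have hex : ∃ l : Pts L'.G, Tendsto (fun j => ((p ^ j) • (Pts.cast (y.seq j) : Pts L'.G)).v) atTop (𝓝 l.v) := by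
    obtain ⟨l, hl, -⟩ := exists_lim_pts (zT L L' y) (h.tendsto_step y) (ZCov.nm_lt_one y)
      (fun j => h.norm_zT_le y j)
    exact ⟨l, hl⟩
  unfold zmu
  rw [dif_pos hex]
  exact hex.choose_spec

/-- `‖zmu y - y_0‖ ≤ c`. -/
theorem ZClose.norm_zmu_sub_le (h : ZClose L L') (y : ZCov L) : ‖(zmu L L' y).v - (y.seq 0).v‖ ≤ L.c := by
  refine le_of_tendsto ((h.tendsto_zmu y).sub_const (y.seq 0).v).norm
    (Eventually.of_forall fun j => ?_)
  exact h.norm_zT_sub_zero y j

theorem ZClose.norm_zmu_le (h : ZClose L L') (y : ZCov L) : ‖(zmu L L' y).v‖ ≤ ZCov.nm y := by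
  have e : (zmu L L' y).v = ((zmu L L' y).v - (y.seq 0).v) + (y.seq 0).v := by ring
  rw [e]
  refine (IsUltrametricDist.norm_add_le_max _ _).trans (max_le ?_ (le_max_left _ _))
  exact (h.norm_zmu_sub_le y).trans (le_max_right _ _)

/-- Quantitative version of the convergence: `‖zmu y - (p ^ j) •_L' y_j‖ ≤ c ^ (j + 1)`. -/
theorem ZClose.norm_zmu_sub_nsmul_le (h : ZClose L L') (y : ZCov L) (j : ℕ) :
    ‖(zmu L L' y).v - ((p ^ j) • (Pts.cast (y.seq j) : Pts L'.G)).v‖ ≤ L.c ^ (j + 1) := by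
  have hc0 : 0 ≤ L.c := L.c_nonneg
  have hk : ∀ k, j ≤ k → ‖(zT L L' y k).v - (zT L L' y j).v‖ ≤ L.c ^ (j + 1) := by
    intro k hjk
    induction k, hjk using Nat.le_induction with
    | base => simpa using pow_nonneg hc0 (j + 1)
    | succ k hjk ih =>
      have e : (zT L L' y (k + 1)).v - (zT L L' y j).v =
          ((zT L L' y (k + 1)).v - (zT L L' y k).v) + ((zT L L' y k).v - (zT L L' y j).v) := by ring
      rw [e]
      refine (IsUltrametricDist.norm_add_le_max _ _).trans (max_le ?_ ih)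
      refine (h.norm_zT_step y k).trans ?_
      exact pow_le_pow_of_le_one hc0 L.c_lt_one.le (by omega)
  refine le_of_tendsto ((h.tendsto_zmu y).sub_const (zT L L' y j).v).norm ?_
  filter_upwards [eventually_ge_atTop j] with k hk'
  exact hk k hk'

/-- Additivity. Proof: `(p ^ j) •_L' (y_j +_L' y'_j)` and `(p ^ j) •_L' (y_j +_L y'_j)` differ by at most `c ^ (j + 1)`,
by `zn_add_sub_add_of_close` and contraction. -/
theorem ZClose.zmu_add (h : ZClose L L') (y y' : ZCov L) : zmu L L' (y + y') = zmu L L' y + zmu L L' y' := by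
  have hc0 : 0 ≤ L.c := L.c_nonneg
  apply Pts.ext
  have hdiff : Tendsto (fun j => ((p ^ j) • (Pts.cast ((y + y').seq j) : Pts L'.G)).v -
      (((p ^ j) • (Pts.cast (y.seq j) : Pts L'.G)) + ((p ^ j) • (Pts.cast (y'.seq j) : Pts L'.G))).v) atTop (𝓝 0) := by
    rw [tendsto_zero_iff_norm_tendsto_zero]
    have h1 : Tendsto (fun j : ℕ => L.c ^ (j + 1)) atTop (𝓝 0) :=
      (tendsto_pow_atTop_nhds_zero_of_lt_one hc0 L.c_lt_one).comp (tendsto_add_atTop_nat 1)
    refine squeeze_zero (fun _ => norm_nonneg _) (fun j => ?_) h1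
    have h2 : ‖(Pts.cast ((y + y').seq j) : Pts L'.G).v -
        ((Pts.cast (y.seq j) : Pts L'.G) + (Pts.cast (y'.seq j) : Pts L'.G)).v‖ ≤ L.c := by
      have := zn_add_sub_add_of_close (G := L.G) (G' := L'.G) hc0 h.2 (y.seq j) (y'.seq j)
        (Pts.cast (y.seq j) : Pts L'.G) (Pts.cast (y'.seq j) : Pts L'.G)
        (by simpa using hc0) (by simpa using hc0)
      simpa using this
    have h3 := ZLaw.norm_nsmul_pow_sub_le L' (ε := L.c) h.1.le L.c_lt_one.le _ _ h2 j
    rw [nsmul_add] at h3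
    refine h3.trans ?_
    rw [pow_succ]
    exact mul_le_mul_of_nonneg_left h2 (pow_nonneg hc0 j)
  have hlim := tendsto_nhds_unique ((h.tendsto_zmu (y + y')).sub
    (tendsto_add_add (h.tendsto_zmu y) (h.tendsto_zmu y'))) hdiff
  exact sub_eq_zero.mp hlim

/-- `zmu` for the law itself is the first term. -/
theorem zmu_self (y : ZCov L) : zmu L L y = y.seq 0 := by
  have hT : ∀ j, (p ^ j) • (Pts.cast (y.seq j) : Pts L.G) = y.seq 0 := by
    intro j
    induction j with
    | zero => simp [Pts.cast]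
    | succ j ih =>
      rw [pow_succ, mul_nsmul']
      have : p • (Pts.cast (y.seq (j + 1)) : Pts L.G) = (Pts.cast (y.seq j) : Pts L.G) := y.step j
      rw [this, ih]
  have h1 := (ZClose.refl L).tendsto_zmu y
  simp only [hT] at h1
  exact Pts.ext (tendsto_nhds_unique h1 tendsto_const_nhds)

/-- `zmu` as an additive map. -/
noncomputable def ZClose.zmuHom (h : ZClose L L') : ZCov L →+ Pts L'.G where
  toFun := zmu L L'
  map_zero' := by
    have := h.zmu_add 0 0
    simpa using this
  map_add' := h.zmu_add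

end mu

end Vale.Agent.Lib.P217
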