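import Vale.Agent.Lib.P217.ZMain
import Vale.Agent.Lib.P217.ZAlg
import Vale.Agent.Lib.P217.Val

set_option linter.unusedSectionVars false
set_option linter.unusedVariables false
set_option linter.style.haveILetI false

/-!
Invariant primes of `W(k)⟦u_1, …, u_N⟧` not containing `p` vanish.
-/

namespace Vale.Agent.Lib.P217

/-- The reduction `W(k)⟦u⟧ → k`. -/
noncomputable abbrev zred (p N : ℕ) [Fact p.Prime] (k : Type*) [Field k] : MvPowerSeries (Fin N) (WittVector p k) →+* k :=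
  (WittVector.constantCoeff).comp MvPowerSeries.constantCoeff

/-- An element with zero reduction lies in the maximal ideal of a quotient. -/
theorem mem_maximalIdeal_quotW {p N : ℕ} [Fact p.Prime] {k : Type*} [Field k] [CharP k p] [PerfectRing k p]
    (𝔭 : Ideal (MvPowerSeries (Fin N) (WittVector p k))) [𝔭.IsPrime]
    [IsLocalRing (MvPowerSeries (Fin N) (WittVector p k) ⧸ 𝔭)] (a : MvPowerSeries (Fin N) (WittVector p k))
    (h0 : zred p N k a = 0) :
    Ideal.Quotient.mk 𝔭 a ∈ IsLocalRing.maximalIdeal (MvPowerSeries (Fin N) (WittVector p k) ⧸ 𝔭) := by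
  have hpne : (𝔭 : Ideal (MvPowerSeries (Fin N) (WittVector p k))) ≠ ⊤ := Ideal.IsPrime.ne_top ‹_›
  rw [IsLocalRing.mem_maximalIdeal, mem_nonunits_iff]
  intro hu
  obtain ⟨b, hb⟩ := hu.exists_right_inv
  obtain ⟨c, rfl⟩ := Ideal.Quotient.mk_surjective b
  rw [← map_mul, ← map_one (Ideal.Quotient.mk 𝔭), Ideal.Quotient.eq] at hb
  apply hpne
  refine Ideal.eq_top_of_isUnit_mem _ hb ?_
  rw [MvPowerSeries.isUnit_iff_constantCoeff]
  apply WittVector.isUnit_of_coeff_zero_ne_zero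
  have h1 : zred p N k (a * c - 1) = -1 := by
    rw [map_sub, map_mul, h0, map_one]
    ring
  intro h2
  have h3 : zred p N k (a * c - 1) = 0 := h2
  rw [h1] at h3
  exact one_ne_zero (neg_eq_zero.mp h3)

/-- An ideal invariant under an automorphism has an invariant membership. -/
theorem mem_iff_of_map_eqW {W A : Type*} [CommRing W] [CommRing A] [Algebra W A] (τ : A ≃ₐ[W] A) (𝔭 : Ideal A)
    (h : 𝔭.map (τ : A →+* A) = 𝔭) (a : A) : τ a ∈ 𝔭 ↔ a ∈ 𝔭 := by
  constructor
  · intro ha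
    rw [← h] at ha
    obtain ⟨x, hx, hxa⟩ := (Ideal.mem_map_iff_of_surjective (τ : A →+* A) τ.surjective).mp ha
    have hxa' : τ x = τ a := hxa
    rwa [← τ.injective hxa']
  · intro ha
    rw [← h]
    exact Ideal.mem_map_of_mem (τ : A →+* A) ha

/-- Elements of the Witt vectors with zero constant coefficient are multiples of `p`. -/
theorem wittVector_dvd_p {p : ℕ} [Fact p.Prime] {k : Type*} [Field k] [CharP k p] [PerfectRing k p]
    (a : WittVector p k) (h : WittVector.constantCoeff a = 0) : ∃ b, a = (p : WittVector p k) * b := by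
  by_cases ha : a = 0
  · exact ⟨0, by simp [ha]⟩
  obtain ⟨m, b, hb, hab⟩ := WittVector.exists_eq_pow_p_mul a ha
  rcases m with - | m
  · exfalso
    apply hb
    have : a = b := by simpa using hab
    rw [← this]
    exact h
  · exact ⟨(p : WittVector p k) ^ m * b, by rw [hab, pow_succ]; ring⟩

/-- Proof. Let `E₀ = W(k)⟦u⟧`, `R = E₀ / 𝔭`, a Noetherian local domain (quotient of the local ring `E₀`, local since `W(k)` is local: `MvPowerSeries` over a local ring is local), whose maximal ideal is nonzero, as it contains the image of `p` (`p ∉ 𝔭`).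
By `exists_valued_embedding` (universe `0`), there are `C`, complete ultrametric algebraically closed, `ι : R → C` injective, `‖ι a‖ ≤ 1`, `‖ι a‖ ≤ c₀ < 1` on the maximal ideal. `φ : E₀ → O_C` is the composite, its kernel is `𝔭`.
Since `(p : C) ≠ 0`, `‖p‖ < 1`, there is `K ≥ 1` with `‖p‖ ^ (1 / K) ≥ c₀`. Let `π` be a `K`-th root of `p` in `C` (`IsAlgClosed.exists_pow_nat_eq`), `c = ‖π‖`: so `‖p‖ ≤ c`, `c₀ ≤ c < 1`.
Construct `S : ZS C p n N k (WittVector p k)` with `ρ₀ = WittVector.constantCoeff`, `t = WittVector.teichmuller p`, `κ = φ ∘ C`. `hker`: an element with zero coefficient `0` of the Witt vectors of a perfect ring is a multiple of `p` (`WittVector.verschiebung`, `WittVector.mem_span_p...`, or by `WittVector.exists_eq_pow_p_mul`); `hunit`: `WittVector.isUnit_of_coeff_zero_ne_zero`.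
`hω` from `hΓω` (the case `a = 0`: `isHom_zero`), `hfr` from `IsHom.X_pow` and `hΓF`.
The point `x₀ = (φ (X l))_l`, it has norm at most `c₀ ≤ c` as `X l` is in the maximal ideal. By `evH_unique`, `φ = evH x₀`. So `S.HInv x₀` from `hinv`, and `zmain` gives `pderiv l a ∈ 𝔭` for `a ∈ 𝔭`. Conclude by `eq_bot_of_pderiv_stable`. -/
theorem zprime {p n N : ℕ} [Fact p.Prime] (hN : N + 1 = n) {k : Type} [Field k] [Fintype k] [CharP k p]
    (hk : Fintype.card k = p ^ n)
    (Γ : FormalGroup k) [Γ.IsComm] (hΓp : mulSeries Γ p = PowerSeries.X ^ (p ^ n))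
    (hΓF : ∀ d, (MvPowerSeries.coeff d Γ.toPowerSeries) ^ p = MvPowerSeries.coeff d Γ.toPowerSeries)
    (hΓω : ∀ c : k, c ≠ 0 → IsHom Γ Γ (PowerSeries.C c * PowerSeries.X))
    (F : FormalGroup (MvPowerSeries (Fin N) (WittVector p k))) [F.IsComm]
    (hF : F.map (zred p N k) = Γ)
    (𝔭 : Ideal (MvPowerSeries (Fin N) (WittVector p k))) [𝔭.IsPrime]
    (hpP : (p : MvPowerSeries (Fin N) (WittVector p k)) ∉ 𝔭)
    (hinv : ∀ g : PowerSeries k, IsHom Γ Γ g → IsUnit (PowerSeries.coeff 1 g) →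
      ∃ (O : ℕ) (τ : MvPowerSeries (Fin N) (WittVector p k) ≃ₐ[WittVector p k] MvPowerSeries (Fin N) (WittVector p k))
        (K : PowerSeries (MvPowerSeries (Fin N) (WittVector p k))), 0 < O ∧
        IsHom F (F.map (τ : MvPowerSeries (Fin N) (WittVector p k) →+* MvPowerSeries (Fin N) (WittVector p k))) K ∧
        PowerSeries.map (zred p N k) K = iterS g O ∧
        𝔭.map (τ : MvPowerSeries (Fin N) (WittVector p k) →+* MvPowerSeries (Fin N) (WittVector p k)) = 𝔭) :
    𝔭 = ⊥ := by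
  classical
  haveI : ExpChar k p := ExpChar.prime (Fact.out : p.Prime)
  haveI : PerfectRing k p := PerfectRing.ofFiniteOfIsReduced p k
  have hpne : (𝔭 : Ideal (MvPowerSeries (Fin N) (WittVector p k))) ≠ ⊤ := Ideal.IsPrime.ne_top ‹_›
  -- the local ring
  haveI hlocW : IsLocalHom (zred p N k) := by
    refine ⟨fun a ha => ?_⟩
    rw [MvPowerSeries.isUnit_iff_constantCoeff]
    exact WittVector.isUnit_of_coeff_zero_ne_zero _ ha.ne_zero
  haveI : IsLocalRing (MvPowerSeries (Fin N) (WittVector p k)) :=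
    RingHom.domain_isLocalRing (zred p N k)
  haveI : Nontrivial (MvPowerSeries (Fin N) (WittVector p k) ⧸ 𝔭) :=
    Ideal.Quotient.nontrivial_iff.mpr hpne
  haveI : IsLocalRing (MvPowerSeries (Fin N) (WittVector p k) ⧸ 𝔭) :=
    IsLocalRing.of_surjective' (Ideal.Quotient.mk 𝔭) Ideal.Quotient.mk_surjective
  haveI : IsNoetherianRing (WittVector p k) := by
    haveI := WittVector.isDiscreteValuationRing (p := p) (k := k)
    infer_instance
  have hp0' : zred p N k (p : MvPowerSeries (Fin N) (WittVector p k)) = 0 := by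
    rw [map_natCast]
    exact CharP.cast_eq_zero k p
  have hmk0 : Ideal.Quotient.mk 𝔭 (p : MvPowerSeries (Fin N) (WittVector p k)) ≠ 0 := by
    rw [Ne, Ideal.Quotient.eq_zero_iff_mem]
    exact hpP
  have hRm : IsLocalRing.maximalIdeal (MvPowerSeries (Fin N) (WittVector p k) ⧸ 𝔭) ≠ ⊥ := by
    intro hbot
    have h1 := mem_maximalIdeal_quotW 𝔭 _ hp0'
    rw [hbot, Ideal.mem_bot] at h1
    exact hmk0 h1
  obtain ⟨C, _, _, _, _, ι, hιinj, hι1, c₀, hc₀1, hc₀⟩ := exists_valued_embedding hRm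
  -- the map to the closed unit ball
  let φ₀ : MvPowerSeries (Fin N) (WittVector p k) →+* OC C :=
    RingHom.codRestrict (ι.comp (Ideal.Quotient.mk 𝔭)) (OC C) (fun a => hι1 _)
  have hφ₀v : ∀ a, ((φ₀ a : OC C) : C) = ι (Ideal.Quotient.mk 𝔭 a) := fun a => rfl
  have hφ₀z : ∀ a, φ₀ a = 0 ↔ a ∈ 𝔭 := by
    intro a
    rw [← Ideal.Quotient.eq_zero_iff_mem, ← map_eq_zero_iff ι hιinj, ← hφ₀v]
    exact ⟨fun h => by rw [h]; rfl, fun h => Subtype.ext h⟩
  have hφ₀c : ∀ a, zred p N k a = 0 → ‖((φ₀ a : OC C) : C)‖ ≤ c₀ := fun a ha =>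
    hc₀ _ (mem_maximalIdeal_quotW 𝔭 a ha)
  -- `p` in `C`
  have hφp : ((φ₀ (p : MvPowerSeries (Fin N) (WittVector p k)) : OC C) : C) = (p : C) := by
    rw [map_natCast]
    simp
  have hp0C : (p : C) ≠ 0 := by
    rw [← hφp, hφ₀v]
    exact (map_ne_zero_iff ι hιinj).mpr hmk0
  have hpC : ‖(p : C)‖ ≤ c₀ := by
    have := hφ₀c _ hp0'
    rwa [hφp] at this
  have hppos : 0 < ‖(p : C)‖ := norm_pos_iff.mpr hp0C
  -- the radius
  set y := max c₀ 0 with hy
  have hy1 : y < 1 := max_lt hc₀1 zero_lt_one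
  have hy0 : 0 ≤ y := le_max_right _ _
  obtain ⟨K, hK⟩ := exists_pow_lt_of_lt_one hppos hy1
  have hp1 : ‖(p : C)‖ < 1 := lt_of_le_of_lt hpC hc₀1
  have hK0 : K ≠ 0 := by
    rintro rfl
    rw [pow_zero] at hK
    exact absurd hK (not_lt.mpr hp1.le)
  obtain ⟨π, hπ⟩ := IsAlgClosed.exists_pow_nat_eq (p : C) (Nat.pos_of_ne_zero hK0)
  have hπK : ‖π‖ ^ K = ‖(p : C)‖ := by rw [← norm_pow, hπ]
  have hπ1 : ‖π‖ < 1 := by
    by_contra hcon
    push Not at hcon
    have := one_le_pow₀ (n := K) hcon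
    rw [hπK] at this
    exact absurd hp1 (not_lt.mpr this)
  have hyπ : y < ‖π‖ := by
    rw [← hπK] at hK
    exact lt_of_pow_lt_pow_left₀ K (norm_nonneg _) hK
  have hpπ : ‖(p : C)‖ ≤ ‖π‖ := by
    rw [← hπK]
    exact pow_le_of_le_one (norm_nonneg _) hπ1.le hK0
  have hc₀π : c₀ ≤ ‖π‖ := (le_max_left _ _).trans hyπ.le
  -- the setting
  let S : ZS C p n N k (WittVector p k) :=
    { hN := hN
      hk := hk
      Γ := Γ
      commΓ := inferInstance
      hΓp := hΓp
      hω := fun a => by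
        by_cases ha : a = 0
        · subst ha
          simpa using isHom_zero Γ
        · exact hΓω a ha
      hfr := IsHom.X_pow p hΓF
      ρ₀ := WittVector.constantCoeff
      t := WittVector.teichmuller p
      ht0 := WittVector.teichmuller_zero p
      ρt := fun d => WittVector.teichmuller_coeff_zero p d
      hker := fun a ha => wittVector_dvd_p a ha
      hunit := fun a ha => WittVector.isUnit_of_coeff_zero_ne_zero a ha
      F := F
      commF := inferInstance
      hF := hF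
      κ := φ₀.comp MvPowerSeries.C
      c := ‖π‖
      hc1 := hπ1
      hpc := hpπ
      hp0 := hp0C
      π := π
      hπ := rfl }
  have hρ : ∀ a, S.ρ a = zred p N k a := fun a => rfl
  have hX : ∀ l, zred p N k (MvPowerSeries.X l) = 0 := by
    intro l
    simp [zred]
  let x₀ : S.Pt := ⟨fun l => φ₀ (MvPowerSeries.X l), fun l => (hφ₀c _ (hX l)).trans hc₀π⟩
  have hev : ∀ a, φ₀ a = S.evH x₀ a := fun a =>
    S.evH_unique φ₀ (fun b => rfl)
      (fun a ha => (hφ₀c a ha).trans hc₀π) x₀ (fun l => rfl) a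
  have hinvS : S.HInv x₀ := by
    intro g hg hgu
    obtain ⟨O, τ, K, hO, hK, hKg, hτ⟩ := hinv g hg hgu
    refine ⟨O, τ, K, hO, hK, hKg, fun a ha => ?_⟩
    rw [← hev] at ha ⊢
    rw [hφ₀z] at ha ⊢
    exact (mem_iff_of_map_eqW τ 𝔭 hτ a).mpr ha
  refine eq_bot_of_pderiv_stable 𝔭 hpP fun a ha l => ?_
  rw [← hφ₀z, hev]
  refine S.zmain x₀ hinvS a ?_ l
  rw [← hev, hφ₀z]
  exact ha

end Vale.Agent.Lib.P217
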