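import Vale.Agent.Lib.P217.HClass
import Vale.Agent.Lib.P217.ZPrime

set_option linter.unusedSectionVars false
set_option linter.unusedVariables false

/-!
Radical ideals containing `p`: descent to characteristic `p`.
-/

namespace Vale.Agent.Lib.P217

/-- The reduction `W(k)⟦u⟧ → k⟦u⟧`, coefficientwise. -/
noncomputable abbrev zpi (p N : ℕ) [Fact p.Prime] (k : Type*) [Field k] :
    MvPowerSeries (Fin N) (WittVector p k) →+* MvPowerSeries (Fin N) k :=
  MvPowerSeries.map (WittVector.constantCoeff)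

/-- Coefficientwise Teichmüller lift. -/
noncomputable def zsec (p N : ℕ) [Fact p.Prime] {k : Type*} [Field k]
    (a : MvPowerSeries (Fin N) k) : MvPowerSeries (Fin N) (WittVector p k) :=
  fun d => WittVector.teichmuller p (MvPowerSeries.coeff d a)

theorem zpi_zsec {p N : ℕ} [Fact p.Prime] {k : Type*} [Field k] (a : MvPowerSeries (Fin N) k) :
    zpi p N k (zsec p N a) = a := by
  ext d
  rw [MvPowerSeries.coeff_map]
  exact WittVector.teichmuller_coeff_zero p _

theorem zpi_surjective {p N : ℕ} [Fact p.Prime] {k : Type*} [Field k] :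
    Function.Surjective (zpi p N k) := fun a => ⟨_, zpi_zsec a⟩

theorem natCast_eq_C {R : Type*} [CommRing R] {N : ℕ} (m : ℕ) :
    ((m : ℕ) : MvPowerSeries (Fin N) R) = MvPowerSeries.C ((m : ℕ) : R) :=
  (map_natCast _ _).symm

theorem zpi_p {p N : ℕ} [Fact p.Prime] {k : Type*} [Field k] [CharP k p] :
    zpi p N k ((p : ℕ) : MvPowerSeries (Fin N) (WittVector p k)) = 0 := by
  rw [map_natCast, natCast_eq_C, CharP.cast_eq_zero, map_zero]

theorem zpi_ker {p N : ℕ} [Fact p.Prime] {k : Type} [Field k] [Fintype k] [CharP k p]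
    (x : MvPowerSeries (Fin N) (WittVector p k)) (hx : zpi p N k x = 0) :
    ∃ y, x = ((p : ℕ) : MvPowerSeries (Fin N) (WittVector p k)) * y := by
  have h : ∀ d, ∃ c : WittVector p k, MvPowerSeries.coeff d x = (p : WittVector p k) * c := by
    intro d
    have h1 : WittVector.constantCoeff (MvPowerSeries.coeff d x) = 0 := by
      rw [← MvPowerSeries.coeff_map]
      exact (congrArg (MvPowerSeries.coeff d) hx).trans (map_zero _)
    have h2 : MvPowerSeries.coeff d x ∈ RingHom.ker (WittVector.constantCoeff (p := p) (R := k)) := h1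
    rw [WittVector.ker_constantCoeff] at h2
    obtain ⟨c, hc⟩ := Ideal.mem_span_singleton'.mp h2
    exact ⟨c, by rw [← hc, mul_comm]⟩
  choose c hc using h
  obtain ⟨y, hy⟩ : ∃ y : MvPowerSeries (Fin N) (WittVector p k), ∀ d, MvPowerSeries.coeff d y = c d :=
    ⟨fun d => c d, fun _ => rfl⟩
  refine ⟨y, MvPowerSeries.ext fun d => ?_⟩
  rw [natCast_eq_C, MvPowerSeries.coeff_C_mul, hc, hy]

/-- Descent of a `W(k)`-automorphism to `k⟦u⟧`. -/
theorem zdescent_tau {p N : ℕ} [Fact p.Prime] {k : Type} [Field k] [Fintype k] [CharP k p]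
    (τ : MvPowerSeries (Fin N) (WittVector p k) ≃ₐ[WittVector p k] MvPowerSeries (Fin N) (WittVector p k)) :
    ∃ τ' : MvPowerSeries (Fin N) k ≃ₐ[k] MvPowerSeries (Fin N) k,
      ∀ a, τ' (zpi p N k a) = zpi p N k (τ a) := by
  have hp : τ ((p : ℕ) : MvPowerSeries (Fin N) (WittVector p k)) = ((p : ℕ) : MvPowerSeries (Fin N) (WittVector p k)) :=
    map_natCast τ p
  have key : ∀ (σ : MvPowerSeries (Fin N) (WittVector p k) ≃ₐ[WittVector p k] MvPowerSeries (Fin N) (WittVector p k)) (x : MvPowerSeries (Fin N) (WittVector p k)),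
      zpi p N k (σ (zsec p N (zpi p N k x))) = zpi p N k (σ x) := by
    intro σ x
    have h0 : zpi p N k (x - zsec p N (zpi p N k x)) = 0 := by
      rw [map_sub, zpi_zsec, sub_self]
    obtain ⟨y, hy⟩ := zpi_ker _ h0
    have h1 : x = zsec p N (zpi p N k x) + ((p : ℕ) : MvPowerSeries (Fin N) (WittVector p k)) * y := by
      rw [← hy]; ring
    have h2 : zpi p N k (σ x) = zpi p N k (σ (zsec p N (zpi p N k x))) := by
      conv_lhs => rw [h1]
      rw [map_add, map_mul, map_natCast, map_add, map_mul, zpi_p, zero_mul, add_zero]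
    exact h2.symm
  let F₁ : (MvPowerSeries (Fin N) (WittVector p k) ≃ₐ[WittVector p k] MvPowerSeries (Fin N) (WittVector p k)) →
      (MvPowerSeries (Fin N) k →+* MvPowerSeries (Fin N) k) := fun σ =>
    { toFun := fun a => zpi p N k (σ (zsec p N a))
      map_one' := by
        have := key σ 1
        rw [map_one, map_one, map_one] at this
        exact this
      map_mul' := fun a b => by
        have := key σ (zsec p N a * zsec p N b)
        rw [map_mul, zpi_zsec, zpi_zsec, map_mul, map_mul] at this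
        simpa only [map_mul] using this
      map_zero' := by
        have := key σ 0
        rw [map_zero, map_zero, map_zero] at this
        exact this
      map_add' := fun a b => by
        have := key σ (zsec p N a + zsec p N b)
        rw [map_add, zpi_zsec, zpi_zsec, map_add, map_add] at this
        simpa only [map_add] using this }
  have hF₁ : ∀ σ x, F₁ σ (zpi p N k x) = zpi p N k (σ x) := fun σ x => key σ x
  let e : MvPowerSeries (Fin N) k ≃+* MvPowerSeries (Fin N) k :=
    { toFun := F₁ τ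
      invFun := F₁ τ.symm
      left_inv := fun a => by
        obtain ⟨x, rfl⟩ := zpi_surjective (p := p) a
        rw [hF₁, hF₁, τ.symm_apply_apply]
      right_inv := fun a => by
        obtain ⟨x, rfl⟩ := zpi_surjective (p := p) a
        rw [hF₁, hF₁, τ.apply_symm_apply]
      map_mul' := map_mul _
      map_add' := map_add _ }
  refine ⟨AlgEquiv.ofRingEquiv (f := e) ?_, fun a => hF₁ τ a⟩
  intro c
  have h1 : algebraMap k (MvPowerSeries (Fin N) k) c =
      zpi p N k (algebraMap (WittVector p k) (MvPowerSeries (Fin N) (WittVector p k)) (WittVector.teichmuller p c)) := by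
    rw [MvPowerSeries.algebraMap_apply, MvPowerSeries.algebraMap_apply, Algebra.algebraMap_self_apply, Algebra.algebraMap_self_apply, MvPowerSeries.map_C]
    congr 1
  change F₁ τ (algebraMap k (MvPowerSeries (Fin N) k) c) = _
  rw [h1, hF₁, τ.commutes]

/-- Proof. Let `E₀ = W(k)⟦u⟧`, `A = k⟦u⟧`, `π₁ = MvPowerSeries.map WittVector.constantCoeff : E₀ → A`, surjective (Teichmüller lifts of coefficients) with kernel `p E₀` (coefficientwise: `hker`-property of Witt vectors over a perfect ring; `p` is not a zero divisor, or simply use the coefficientwise choice).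
Let `F̄ = F.map π₁`: commutative (`isComm_map`), lifting `Γ`. `heightIdeal F̄ p h = (heightIdeal F p h).map π₁` (`mulSeries_map`, `Ideal.map_span`). So `hht` gives `heightIdeal F̄ p h = span (X '' {l | l.val + 1 < h})`, by applying `Ideal.map π₁` (`π₁ p = 0`).
Let `J̄ = J.map π₁`. As `p ∈ J`, `ker π₁ ≤ J`, so `J = J̄.comap π₁` (`Ideal.comap_map_of_surjective`). `J̄` is radical, `≠ ⊤`.
For `g` a hom with unit linear coefficient: `τ, K` by `hinv`. Since `τ p = p`, `τ` maps `ker π₁` onto itself so it induces `τ̄ : A ≃ₐ[k] A` with `τ̄ ∘ π₁ = π₁ ∘ τ`. (`k`-linearity: for `c : k`, `C c = π₁ (C (teichmuller c))` and `τ` is `W`-linear.)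
`K̄ = map π₁ K`: by `IsHom.map'`, `IsHom F̄ (F̄.map τ̄) K̄`; `K̄` reduces to `g`; `J̄.map τ̄ = J̄`. By `classify_radical`, `J̄ = heightIdeal F̄ p h` for some `1 ≤ h ≤ n`. Then `J = comap π₁ (span (X '' ..)) = zheight p n k h`. -/
theorem classify_containing_p {p n : ℕ} [Fact p.Prime] (hn : 1 ≤ n) {k : Type} [Field k] [Fintype k] [CharP k p]
    (hk : Fintype.card k = p ^ n)
    (Γ : FormalGroup k) [Γ.IsComm] (hΓp : mulSeries Γ p = PowerSeries.X ^ (p ^ n))
    (hΓF : ∀ d, (MvPowerSeries.coeff d Γ.toPowerSeries) ^ p = MvPowerSeries.coeff d Γ.toPowerSeries)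
    (hΓω : ∀ c : k, c ≠ 0 → IsHom Γ Γ (PowerSeries.C c * PowerSeries.X))
    (F : FormalGroup (MvPowerSeries (Fin (n - 1)) (WittVector p k))) [F.IsComm]
    (hF : F.map (zred p (n - 1) k) = Γ)
    (hht : ∀ h, 1 ≤ h → h ≤ n → heightIdeal F p h ⊔ Ideal.span {(p : MvPowerSeries (Fin (n - 1)) (WittVector p k))} = zheight p n k h)
    (J : Ideal (MvPowerSeries (Fin (n - 1)) (WittVector p k))) (hJ : J.IsRadical) (hJ1 : J ≠ ⊤)
    (hpJ : (p : MvPowerSeries (Fin (n - 1)) (WittVector p k)) ∈ J)
    (hinv : ∀ g : PowerSeries k, IsHom Γ Γ g → IsUnit (PowerSeries.coeff 1 g) →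
      ∃ (τ : MvPowerSeries (Fin (n - 1)) (WittVector p k) ≃ₐ[WittVector p k] MvPowerSeries (Fin (n - 1)) (WittVector p k))
        (K : PowerSeries (MvPowerSeries (Fin (n - 1)) (WittVector p k))),
        IsHom F (F.map (τ : MvPowerSeries (Fin (n - 1)) (WittVector p k) →+* MvPowerSeries (Fin (n - 1)) (WittVector p k))) K ∧
        PowerSeries.map (zred p (n - 1) k) K = g ∧
        J.map (τ : MvPowerSeries (Fin (n - 1)) (WittVector p k) →+* MvPowerSeries (Fin (n - 1)) (WittVector p k)) = J) :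
    ∃ h, 1 ≤ h ∧ h ≤ n ∧ J = zheight p n k h := by
  classical
  set π₁ := zpi p (n - 1) k with hπ₁
  have hsurj : Function.Surjective π₁ := zpi_surjective
  have hcc : ∀ a : MvPowerSeries (Fin (n - 1)) (WittVector p k),
      MvPowerSeries.constantCoeff (π₁ a) = zred p (n - 1) k a := by
    intro a
    simp [zred, hπ₁, zpi]
  have hkerJ : ∀ x, π₁ x = 0 → x ∈ J := by
    intro x hx
    obtain ⟨y, rfl⟩ := zpi_ker x hx
    exact J.mul_mem_right _ hpJ
  have hcomap : ∀ I : Ideal (MvPowerSeries (Fin (n - 1)) (WittVector p k)), (p : MvPowerSeries (Fin (n - 1)) (WittVector p k)) ∈ I →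
      (I.map π₁).comap π₁ = I := by
    intro I hI
    apply le_antisymm
    · intro x hx
      rw [Ideal.mem_comap] at hx
      obtain ⟨y, hy, hxy⟩ := (Ideal.mem_map_iff_of_surjective π₁ hsurj).mp hx
      have h0 : π₁ (x - y) = 0 := by rw [map_sub, hxy, sub_self]
      obtain ⟨z, hz⟩ := zpi_ker _ h0
      have : x = y + (p : MvPowerSeries (Fin (n - 1)) (WittVector p k)) * z := by
        rw [← hz]; ring
      rw [this]
      exact I.add_mem hy (I.mul_mem_right _ hI)
    · exact Ideal.le_comap_map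
  have hJc := hcomap J hpJ
  -- the reduced group
  have hFb : (F.map π₁).IsComm := isComm_map F π₁
  have hFbΓ : (F.map π₁).map MvPowerSeries.constantCoeff = Γ := by
    rw [← hF]
    ext d
    simp only [FormalGroup.map_toPowerSeries, MvPowerSeries.coeff_map]
    exact hcc _
  -- height ideals
  have hmul : ∀ h, heightIdeal (F.map π₁) p h = (heightIdeal F p h).map π₁ := by
    intro h
    rw [heightIdeal, heightIdeal, Ideal.map_span]
    congr 1
    ext a
    constructor
    · rintro ⟨j, hj, rfl⟩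
      refine ⟨_, ⟨j, hj, rfl⟩, ?_⟩
      rw [mulSeries_map, PowerSeries.coeff_map]
    · rintro ⟨_, ⟨j, hj, rfl⟩, rfl⟩
      refine ⟨j, hj, ?_⟩
      rw [mulSeries_map, PowerSeries.coeff_map]
  have hzh : ∀ h, (zheight p n k h).map π₁ =
      Ideal.span ((MvPowerSeries.X : Fin (n - 1) → MvPowerSeries (Fin (n - 1)) k) '' {l | l.val + 1 < h}) := by
    intro h
    rw [zheight, Ideal.map_span]
    apply le_antisymm
    · rw [Ideal.span_le]
      rintro _ ⟨a, ha | ⟨l, hl, rfl⟩, rfl⟩
      · rw [Set.mem_singleton_iff] at ha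
        subst ha
        rw [hπ₁, zpi_p]
        exact Ideal.zero_mem _
      · exact Ideal.subset_span ⟨l, hl, (MvPowerSeries.map_X _ _).symm⟩
    · rw [Ideal.span_le]
      rintro _ ⟨l, hl, rfl⟩
      exact Ideal.subset_span ⟨MvPowerSeries.X l, Or.inr ⟨l, hl, rfl⟩, MvPowerSeries.map_X _ _⟩
  have hhtb : ∀ h, 1 ≤ h → h ≤ n → heightIdeal (F.map π₁) p h =
      Ideal.span ((MvPowerSeries.X : Fin (n - 1) → MvPowerSeries (Fin (n - 1)) k) '' {l | l.val + 1 < h}) := by
    intro h h1 h2
    rw [hmul, ← hzh, ← hht h h1 h2, Ideal.map_sup, Ideal.map_span]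
    have : π₁ '' {(p : MvPowerSeries (Fin (n - 1)) (WittVector p k))} = {0} := by
      rw [Set.image_singleton, hπ₁, zpi_p]
    rw [this, Ideal.span_singleton_zero, sup_bot_eq]
  -- the reduced ideal
  have hJbr : (J.map π₁).IsRadical := by
    intro a ha
    obtain ⟨x, rfl⟩ := hsurj a
    obtain ⟨m, hm⟩ := ha
    rw [← map_pow] at hm
    have h1 : x ^ m ∈ (J.map π₁).comap π₁ := hm
    rw [hJc] at h1
    exact Ideal.mem_map_of_mem _ (hJ ⟨m, h1⟩)
  have hJb1 : J.map π₁ ≠ ⊤ := by
    intro h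
    apply hJ1
    rw [← hJc, h, Ideal.comap_top]
  have hinvb : ∀ g : PowerSeries k, IsHom Γ Γ g → IsUnit (PowerSeries.coeff 1 g) →
      ∃ (τ : MvPowerSeries (Fin (n - 1)) k ≃ₐ[k] MvPowerSeries (Fin (n - 1)) k)
        (K : PowerSeries (MvPowerSeries (Fin (n - 1)) k)),
        IsHom (F.map π₁) ((F.map π₁).map (τ : MvPowerSeries (Fin (n - 1)) k →+* MvPowerSeries (Fin (n - 1)) k)) K ∧
        PowerSeries.map MvPowerSeries.constantCoeff K = g ∧
        (J.map π₁).map (τ : MvPowerSeries (Fin (n - 1)) k →+* MvPowerSeries (Fin (n - 1)) k) = J.map π₁ := by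
    intro g hg hgu
    obtain ⟨τ, K, hK, hKg, hτ⟩ := hinv g hg hgu
    obtain ⟨τ', hτ'⟩ := zdescent_tau τ
    refine ⟨τ', PowerSeries.map π₁ K, ?_, ?_, ?_⟩
    · have h3 := hK.map' π₁
      have h4 : (F.map (τ : MvPowerSeries (Fin (n - 1)) (WittVector p k) →+* MvPowerSeries (Fin (n - 1)) (WittVector p k))).map π₁ =
          (F.map π₁).map (τ' : MvPowerSeries (Fin (n - 1)) k →+* MvPowerSeries (Fin (n - 1)) k) := by
        ext d
        simp only [FormalGroup.map_toPowerSeries, MvPowerSeries.coeff_map]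
        exact congrArg _ (hτ' _).symm
      rwa [h4] at h3
    · rw [← hKg]
      ext j
      simp only [PowerSeries.coeff_map]
      exact hcc _
    · rw [Ideal.map_map]
      have h9 : (τ' : MvPowerSeries (Fin (n - 1)) k →+* MvPowerSeries (Fin (n - 1)) k).comp π₁ =
          π₁.comp (τ : MvPowerSeries (Fin (n - 1)) (WittVector p k) →+* MvPowerSeries (Fin (n - 1)) (WittVector p k)) :=
        RingHom.ext fun a => hτ' a
      rw [h9, ← Ideal.map_map, hτ]
  obtain ⟨h, h1, h2, hJh⟩ := classify_radical hn hk Γ hΓp hΓF hΓω (F.map π₁) hFbΓ hhtb (J.map π₁) hJbr hJb1 hinvb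
  refine ⟨h, h1, h2, ?_⟩
  have hzp : (p : MvPowerSeries (Fin (n - 1)) (WittVector p k)) ∈ zheight p n k h :=
    Ideal.subset_span (Or.inl rfl)
  rw [← hJc, hJh, hhtb h h1 h2, ← hzh, hcomap _ hzp]

end Vale.Agent.Lib.P217
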