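import Vale.Agent.Lib.P217.ZCov
import Vale.Agent.Lib.P217.CharPSeries

set_option linter.unusedSectionVars false
set_option linter.unusedVariables false

/-!
Endomorphisms of the universal cover of a `ZLaw` given by approximately additive maps of the points.

Let `f` be `ZApprox L f`: `f 0 = 0`, `f` is `1`-Lipschitz and additive up to `c = L.c`. Then for `y : ZCov L`,
`(zEnd f y)_i = lim_j (p ^ j) • f (y_(i + j))`.

Paper proofs. Fix `f`. First, `‖f (m • x) - m • f x‖ ≤ c` for all `m : ℕ`, by induction on `m`, using `f ((m + 1) • x) = f (m • x + x)`, `ZApprox.add` and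
`norm_add_sub_add_le`.
Convergence: with `x = y_(i + j + 1)`, `(p ^ (j + 1)) • f x = (p ^ j) • (p • f x)`, and `(p ^ j) • f (y_(i + j)) = (p ^ j) • f (p • x)`, and
`‖p • f x - f (p • x)‖ ≤ c`, so by contraction (`ZLaw.norm_nsmul_pow_sub_le` with `ε = c`) the difference has norm at most `c ^ (j + 1)`; apply `exists_lim_pts`
(the terms have norm at most `max ‖f (y_i)‖ c`).
The sequence `i ↦ lim_j ...` is an element of `ZCov L`, since `p • lim_j (p ^ j) • f (y_(i + 1 + j)) = lim_j (p ^ (j + 1)) • f (y_(i + j + 1))` (continuity of `p •`: `ZLaw.norm_nsmul_p_sub_le`) which is the limit for `i`, shifted.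
Additivity: `f (a + b)` is `c`-close to `f a + f b`: after applying `(p ^ j) •` the difference is at most `c ^ (j + 1)`.
`‖(zEnd f y)_i - f (y_i)‖ ≤ c`: all differences between successive terms are at most `c`.
-/

namespace Vale.Agent.Lib.P217

open scoped Topology
open Filter

variable {C : Type*} [NormedField C] [IsUltrametricDist C] [CompleteSpace C]
variable {p n : ℕ} [hp : Fact p.Prime]

/-- A map of the points of a law, additive up to `c`. -/
structure ZApprox (L : ZLaw C p n) (f : Pts L.G → Pts L.G) : Prop where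
  zero : f 0 = 0
  lip : ∀ x y, ‖(f x).v - (f y).v‖ ≤ ‖x.v - y.v‖
  add : ∀ x y, ‖(f (x + y)).v - (f x + f y).v‖ ≤ L.c

variable {L : ZLaw C p n} {f g : Pts L.G → Pts L.G}

omit [CompleteSpace C] hp in
lemma zEnd_aux_tri (a b d : C) {r : ℝ} (h1 : ‖a - b‖ ≤ r) (h2 : ‖b - d‖ ≤ r) : ‖a - d‖ ≤ r := by
  have : a - d = (a - b) + (b - d) := by ring
  rw [this]
  exact (IsUltrametricDist.norm_add_le_max _ _).trans (max_le h1 h2)

lemma zEnd_aux_contract (L : ZLaw C p n) (a b : Pts L.G) (h : ‖a.v - b.v‖ ≤ L.c) (j : ℕ) :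
    ‖((p ^ j) • a).v - ((p ^ j) • b).v‖ ≤ L.c ^ (j + 1) := by
  have h1 := L.norm_nsmul_pow_sub_le (le_refl L.c) L.c_lt_one.le a b h j
  calc ‖((p ^ j) • a).v - ((p ^ j) • b).v‖ ≤ L.c ^ j * ‖a.v - b.v‖ := h1
    _ ≤ L.c ^ j * L.c := mul_le_mul_of_nonneg_left h (pow_nonneg L.c_nonneg _)
    _ = L.c ^ (j + 1) := (pow_succ _ _).symm

lemma zEnd_aux_pow_tendsto (L : ZLaw C p n) :
    Tendsto (fun j : ℕ => L.c ^ (j + 1)) atTop (𝓝 0) :=
  (tendsto_pow_atTop_nhds_zero_of_lt_one L.c_nonneg L.c_lt_one).comp (tendsto_add_atTop_nat 1)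

lemma zEnd_aux_unique {G : FormalGroup (OC C)} {a b : ℕ → Pts G} {l l' : Pts G}
    (ha : Tendsto (fun j => (a j).v) atTop (𝓝 l.v))
    (hb : Tendsto (fun j => (b j).v) atTop (𝓝 l'.v)) {e : ℕ → ℝ}
    (he : Tendsto e atTop (𝓝 0)) (h : ∀ j, ‖(a j).v - (b j).v‖ ≤ e j) : l = l' := by
  apply Pts.ext
  have h1 := ha.sub hb
  have h2 : Tendsto (fun j => (a j).v - (b j).v) atTop (𝓝 0) := squeeze_zero_norm h he
  exact sub_eq_zero.1 (tendsto_nhds_unique h1 h2)

lemma zEnd_aux_nsmul_lip (L : ZLaw C p n) (m : ℕ) (x y : Pts L.G) :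
    ‖(m • x).v - (m • y).v‖ ≤ ‖x.v - y.v‖ :=
  zn_nsmul_sub_of_close (norm_nonneg _) (fun d => by simp) x y le_rfl m

lemma ZApprox.norm_le (hf : ZApprox L f) (x : Pts L.G) : ‖(f x).v‖ ≤ ‖x.v‖ := by
  have := hf.lip x 0
  rw [hf.zero] at this
  simpa using this

lemma ZApprox.nsmul_close (hf : ZApprox L f) (m : ℕ) (x : Pts L.G) :
    ‖(f (m • x)).v - (m • f x).v‖ ≤ L.c := by
  induction m with
  | zero => simpa [hf.zero] using L.c_nonneg
  | succ m ih =>
    rw [succ_nsmul, succ_nsmul]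
    have h1 := hf.add (m • x) x
    have h2 := norm_add_sub_add_le (f (m • x)) (f x) (m • f x) (f x) L.c_nonneg ih
      (by simpa using L.c_nonneg)
    exact zEnd_aux_tri _ _ _ h1 h2

lemma ZApprox.step (hf : ZApprox L f) (y : ZCov L) (i j : ℕ) :
    ‖((p ^ (j + 1)) • f (y.seq (i + (j + 1)))).v - ((p ^ j) • f (y.seq (i + j))).v‖
      ≤ L.c ^ (j + 1) := by
  have e1 : y.seq (i + j) = p • y.seq (i + (j + 1)) := (y.step (i + j)).symm
  have e2 : (p ^ (j + 1)) • f (y.seq (i + (j + 1)))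
      = (p ^ j) • (p • f (y.seq (i + (j + 1)))) := by
    rw [pow_succ, mul_nsmul']
  rw [e1, e2]
  refine zEnd_aux_contract L _ _ ?_ j
  rw [norm_sub_rev]
  exact hf.nsmul_close p _

lemma ZApprox.close_first (hf : ZApprox L f) (y : ZCov L) (i j : ℕ) :
    ‖((p ^ j) • f (y.seq (i + j))).v - (f (y.seq i)).v‖ ≤ L.c := by
  induction j with
  | zero => simpa using L.c_nonneg
  | succ j ih =>
    refine zEnd_aux_tri _ _ _ ((hf.step y i j).trans ?_) ih
    exact pow_le_of_le_one L.c_nonneg L.c_lt_one.le (Nat.succ_ne_zero j)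

lemma ZApprox.exists_lim (hf : ZApprox L f) (y : ZCov L) (i : ℕ) :
    ∃ l : Pts L.G, Tendsto (fun j => ((p ^ j) • f (y.seq (i + j))).v) atTop (𝓝 l.v) := by
  have hr : max ‖(f (y.seq i)).v‖ L.c < 1 := max_lt (Pts.norm_lt _) L.c_lt_one
  obtain ⟨l, hl, -⟩ := exists_lim_pts (fun j => (p ^ j) • f (y.seq (i + j))) (by
      refine squeeze_zero_norm (fun j => ?_) (zEnd_aux_pow_tendsto L)
      exact hf.step y i j) hr (fun j => by
        have h1 := hf.close_first y i j
        have h2 : ((p ^ j) • f (y.seq (i + j))).v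
            = (((p ^ j) • f (y.seq (i + j))).v - (f (y.seq i)).v) + (f (y.seq i)).v := by ring
        rw [h2]
        refine (IsUltrametricDist.norm_add_le_max _ _).trans (max_le ?_ ?_)
        · exact h1.trans (le_max_right _ _)
        · exact le_max_left _ _)
  exact ⟨l, hl⟩

/-- The `i`-th term of the image of `y`. -/
noncomputable def ZApprox.lim (hf : ZApprox L f) (y : ZCov L) (i : ℕ) : Pts L.G :=
  (hf.exists_lim y i).choose

lemma ZApprox.tendsto_lim (hf : ZApprox L f) (y : ZCov L) (i : ℕ) :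
    Tendsto (fun j => ((p ^ j) • f (y.seq (i + j))).v) atTop (𝓝 (hf.lim y i).v) :=
  (hf.exists_lim y i).choose_spec

lemma zEnd_aux_tendsto_nsmul (L : ZLaw C p n) (m : ℕ) {a : ℕ → Pts L.G} {l : Pts L.G}
    (h : Tendsto (fun j => (a j).v) atTop (𝓝 l.v)) :
    Tendsto (fun j => (m • a j).v) atTop (𝓝 (m • l).v) := by
  rw [tendsto_iff_norm_sub_tendsto_zero] at h ⊢
  exact squeeze_zero (fun _ => norm_nonneg _) (fun j => zEnd_aux_nsmul_lip L m _ _) h

lemma ZApprox.lim_step (hf : ZApprox L f) (y : ZCov L) (i : ℕ) :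
    p • hf.lim y (i + 1) = hf.lim y i := by
  have h1 := zEnd_aux_tendsto_nsmul L p (hf.tendsto_lim y (i + 1))
  have h2 := (tendsto_add_atTop_iff_nat 1).2 (hf.tendsto_lim y i)
  refine zEnd_aux_unique h1 h2 tendsto_const_nhds (fun j => ?_)
  have e1 : p • (p ^ j) • f (y.seq (i + 1 + j)) = (p ^ (j + 1)) • f (y.seq (i + (j + 1))) := by
    rw [pow_succ', mul_nsmul']
    have : i + 1 + j = i + (j + 1) := by omega
    rw [this]
  rw [e1, sub_self, norm_zero]

/-- The image of `y`. -/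
noncomputable def ZApprox.cov (hf : ZApprox L f) (y : ZCov L) : ZCov L :=
  ⟨hf.lim y, hf.lim_step y⟩

lemma ZApprox.cov_add (hf : ZApprox L f) (y y' : ZCov L) :
    hf.cov (y + y') = hf.cov y + hf.cov y' := by
  apply ZCov.ext
  funext i
  change hf.lim (y + y') i = hf.lim y i + hf.lim y' i
  have h1 := hf.tendsto_lim (y + y') i
  have h2 := tendsto_add_add (hf.tendsto_lim y i) (hf.tendsto_lim y' i)
  refine zEnd_aux_unique h1 h2 (zEnd_aux_pow_tendsto L) (fun j => ?_)
  rw [← nsmul_add]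
  exact zEnd_aux_contract L _ _ (hf.add _ _) j

lemma ZApprox.cov_zero (hf : ZApprox L f) : hf.cov 0 = 0 := by
  have h := hf.cov_add 0 0
  rw [add_zero] at h
  exact (left_eq_add.1 h)

/-- The endomorphism of the universal cover defined by an approximately additive map. -/
noncomputable def zEnd (hf : ZApprox L f) : AddMonoid.End (ZCov L) where
  toFun := hf.cov
  map_zero' := hf.cov_zero
  map_add' := hf.cov_add

lemma zEnd_apply_seq (hf : ZApprox L f) (y : ZCov L) (i : ℕ) :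
    (zEnd hf y).seq i = hf.lim y i := rfl

theorem zEnd_tendsto (hf : ZApprox L f) (y : ZCov L) (i : ℕ) :
    Tendsto (fun j => ((p ^ j) • f (y.seq (i + j))).v) atTop (𝓝 ((zEnd hf y).seq i).v) :=
  hf.tendsto_lim y i

theorem norm_zEnd_sub_le (hf : ZApprox L f) (y : ZCov L) (i : ℕ) :
    ‖((zEnd hf y).seq i).v - (f (y.seq i)).v‖ ≤ L.c := by
  have h1 := (zEnd_tendsto hf y i).sub_const (f (y.seq i)).v
  exact le_of_tendsto h1.norm (Eventually.of_forall (fun j => hf.close_first y i j))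

/-- `zEnd` depends on `f` modulo `c` only: contraction. -/
theorem zEnd_eq_of_close (hf : ZApprox L f) (hg : ZApprox L g) (h : ∀ x, ‖(f x).v - (g x).v‖ ≤ L.c) :
    zEnd hf = zEnd hg := by
  apply AddMonoidHom.ext
  intro y
  apply ZCov.ext
  funext i
  refine zEnd_aux_unique (zEnd_tendsto hf y i) (zEnd_tendsto hg y i) (zEnd_aux_pow_tendsto L)
    (fun j => ?_)
  exact zEnd_aux_contract L _ _ (h _) j

lemma ZApprox.comp (hf : ZApprox L f) (hg : ZApprox L g) : ZApprox L (f ∘ g) where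
  zero := by simp [hf.zero, hg.zero]
  lip x y := (hf.lip _ _).trans (hg.lip _ _)
  add x y := by
    refine zEnd_aux_tri _ (f (g x + g y)).v _ ?_ (hf.add _ _)
    exact (hf.lip _ _).trans (hg.add _ _)

/-- Composition. Proof: `‖(zEnd g y)_s - g (y_s)‖ ≤ c` so `‖f ((zEnd g y)_(i+j)) - f (g (y_(i+j)))‖ ≤ c`; after applying `(p ^ j) •`, the
difference is at most `c ^ (j + 1)`, so `(zEnd f (zEnd g y))_i = lim_j (p ^ j) • f (g (y_(i + j)))`. -/
theorem zEnd_comp (hf : ZApprox L f) (hg : ZApprox L g) : zEnd (hf.comp hg) = zEnd hf * zEnd hg := by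
  apply AddMonoidHom.ext
  intro y
  apply ZCov.ext
  funext i
  change (zEnd (hf.comp hg) y).seq i = (zEnd hf (zEnd hg y)).seq i
  refine zEnd_aux_unique (zEnd_tendsto (hf.comp hg) y i) (zEnd_tendsto hf (zEnd hg y) i)
    (zEnd_aux_pow_tendsto L) (fun j => ?_)
  refine zEnd_aux_contract L _ _ ?_ j
  rw [norm_sub_rev]
  exact (hf.lip _ _).trans (norm_zEnd_sub_le hg y (i + j))

lemma ZApprox.add' (hf : ZApprox L f) (hg : ZApprox L g) : ZApprox L (fun x => f x + g x) where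
  zero := by simp [hf.zero, hg.zero]
  lip x y := norm_add_sub_add_le _ _ _ _ (norm_nonneg _) (hf.lip _ _) (hg.lip _ _)
  add x y := by
    have e : f x + g x + (f y + g y) = (f x + f y) + (g x + g y) := add_add_add_comm _ _ _ _
    rw [e]
    exact norm_add_sub_add_le _ _ _ _ L.c_nonneg (hf.add _ _) (hg.add _ _)

/-- Sums: `(p ^ j) • (f x + g x) = (p ^ j) • f x + (p ^ j) • g x`, and pass to the limit (`tendsto_add_add`). -/
theorem zEnd_add (hf : ZApprox L f) (hg : ZApprox L g) : zEnd (hf.add' hg) = zEnd hf + zEnd hg := by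
  apply AddMonoidHom.ext
  intro y
  apply ZCov.ext
  funext i
  change (zEnd (hf.add' hg) y).seq i = (zEnd hf y).seq i + (zEnd hg y).seq i
  have h2 := tendsto_add_add (zEnd_tendsto hf y i) (zEnd_tendsto hg y i)
  refine zEnd_aux_unique (zEnd_tendsto (hf.add' hg) y i) h2 tendsto_const_nhds (fun j => ?_)
  rw [nsmul_add, sub_self, norm_zero]

lemma ZApprox.id' (L : ZLaw C p n) : ZApprox L (fun x => x) where
  zero := rfl
  lip x y := le_rfl
  add x y := by simpa using L.c_nonneg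

lemma zEnd_aux_pow_seq (y : ZCov L) (i j : ℕ) : (p ^ j) • y.seq (i + j) = y.seq i := by
  induction j with
  | zero => simp
  | succ j ih =>
    have e : (p ^ (j + 1)) • y.seq (i + (j + 1)) = (p ^ j) • (p • y.seq (i + (j + 1))) := by
      rw [pow_succ, mul_nsmul']
    rw [e]
    have e2 : p • y.seq (i + (j + 1)) = y.seq (i + j) := y.step (i + j)
    rw [e2, ih]

theorem zEnd_id (L : ZLaw C p n) : zEnd (ZApprox.id' L) = 1 := by
  apply AddMonoidHom.ext
  intro y
  apply ZCov.ext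
  funext i
  change (zEnd (ZApprox.id' L) y).seq i = y.seq i
  refine zEnd_aux_unique (zEnd_tendsto (ZApprox.id' L) y i) tendsto_const_nhds
    tendsto_const_nhds (fun j => ?_)
  rw [zEnd_aux_pow_seq, sub_self, norm_zero]

lemma ZApprox.nsmul' (L : ZLaw C p n) (m : ℕ) : ZApprox L (fun x => m • x) where
  zero := smul_zero m
  lip x y := zEnd_aux_nsmul_lip L m x y
  add x y := by
    rw [nsmul_add, sub_self, norm_zero]
    exact L.c_nonneg

theorem zEnd_nsmul (L : ZLaw C p n) (m : ℕ) : zEnd (ZApprox.nsmul' L m) = m • (1 : AddMonoid.End (ZCov L)) := by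
  apply AddMonoidHom.ext
  intro y
  apply ZCov.ext
  funext i
  change (zEnd (ZApprox.nsmul' L m) y).seq i = (m • y).seq i
  rw [ZCov.nsmul_seq]
  refine zEnd_aux_unique (zEnd_tendsto (ZApprox.nsmul' L m) y i) tendsto_const_nhds
    tendsto_const_nhds (fun j => ?_)
  rw [smul_comm, zEnd_aux_pow_seq, sub_self, norm_zero]

theorem nm_zEnd_le (hf : ZApprox L f) (y : ZCov L) : ZCov.nm (zEnd hf y) ≤ ZCov.nm y := by
  refine max_le ?_ (le_max_right _ _)
  have h1 := norm_zEnd_sub_le hf y 0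
  have h2 : ((zEnd hf y).seq 0).v
      = (((zEnd hf y).seq 0).v - (f (y.seq 0)).v) + (f (y.seq 0)).v := by ring
  rw [h2]
  refine (IsUltrametricDist.norm_add_le_max _ _).trans (max_le ?_ ?_)
  · exact h1.trans (le_max_right _ _)
  · exact (hf.norm_le _).trans (le_max_left _ _)

lemma zEnd_aux_evPt_lip {G G' : FormalGroup (OC C)} (f : PowerSeries (OC C))
    (hf : PowerSeries.constantCoeff f = 0) (x y : Pts G) :
    ‖(evPt f hf x : Pts G').v - (evPt f hf y : Pts G').v‖ ≤ ‖x.v - y.v‖ :=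
  norm_Ev_sub_le _ _ _ _ (fun _ => x.norm_lt) (fun _ => y.norm_lt) _ _ (norm_nonneg _)
    (fun d => by simp) (fun _ => le_rfl)

/-- Functoriality of `zmu`: for a homomorphism `K : L₁ → L₂` of close laws and a map `f` of the points of `L` which is close to `K`,
`K (zmu y) = zmu (zEnd f y)`.
Proof: `zmu L L₂ (zEnd f y) = lim_j (p ^ j) •_L₂ (zEnd f y)_j`; and `‖(zEnd f y)_j - f (y_j)‖ ≤ c`, `‖f (y_j) - K (y_j)‖ ≤ c`, so by contraction the
limit is `lim_j (p ^ j) •_L₂ K (y_j) = lim_j K ((p ^ j) •_L₁ y_j)` (`evPt_add`: `K` is additive, so commutes with `nsmul`) `= K (zmu L L₁ y)`: `K` is `1`-Lipschitz (`norm_evPt_sub_le`). -/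
theorem zmu_hom {L₁ L₂ : ZLaw C p n} (h₁ : ZClose L L₁) (h₂ : ZClose L L₂) {K : PowerSeries (OC C)} (hK : IsHom L₁.G L₂.G K)
    (hf : ZApprox L f) (hfK : ∀ x : Pts L.G, ‖(f x).v - (evPt K hK.constantCoeff_eq (Pts.cast x : Pts L₁.G) : Pts L₂.G).v‖ ≤ L.c)
    (y : ZCov L) :
    (evPt K hK.constantCoeff_eq (zmu L L₁ y) : Pts L₂.G) = zmu L L₂ (zEnd hf y) := by
  let Ψ : Pts L₁.G →+ Pts L₂.G := AddMonoidHom.mk' (evPt K hK.constantCoeff_eq) (evPt_add hK)
  have hΨ : ∀ x, Ψ x = evPt K hK.constantCoeff_eq x := fun _ => rfl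
  have hc : L₂.c = L.c := h₂.1
  have h1 : Tendsto (fun j => (evPt K hK.constantCoeff_eq ((p ^ j) • (Pts.cast (y.seq j) : Pts L₁.G)) : Pts L₂.G).v)
      atTop (𝓝 (evPt K hK.constantCoeff_eq (zmu L L₁ y) : Pts L₂.G).v) := by
    have h := h₁.tendsto_zmu y
    rw [tendsto_iff_norm_sub_tendsto_zero] at h ⊢
    exact squeeze_zero (fun _ => norm_nonneg _) (fun j => zEnd_aux_evPt_lip K _ _ _) h
  refine zEnd_aux_unique h1 (h₂.tendsto_zmu (zEnd hf y)) (zEnd_aux_pow_tendsto L₂) (fun j => ?_)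
  have e : (evPt K hK.constantCoeff_eq ((p ^ j) • (Pts.cast (y.seq j) : Pts L₁.G)) : Pts L₂.G)
      = (p ^ j) • (evPt K hK.constantCoeff_eq (Pts.cast (y.seq j) : Pts L₁.G) : Pts L₂.G) := by
    rw [← hΨ, map_nsmul]
    rfl
  rw [e]
  refine zEnd_aux_contract L₂ _ _ ?_ j
  rw [hc, norm_sub_rev]
  exact zEnd_aux_tri _ (f (y.seq j)).v _ (norm_zEnd_sub_le hf y j) (hfK _)

end Vale.Agent.Lib.P217
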