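import Vale.Agent.Lib.P217.ZRad

set_option linter.unusedSectionVars false
set_option linter.unusedVariables false

/-!
The exact form of the classification: the invariant radical ideals and primes are exactly the height ideals.
-/

namespace Vale.Agent.Lib.P217

/-- An ideal of `W(k)⟦u⟧` is invariant if it is preserved by every `W`-algebra automorphism `τ` for which an automorphism `g` of `Γ` lifts to an isomorphism `K : F → τ^* F`. -/
def ZInvariant {p N : ℕ} [Fact p.Prime] {k : Type} [Field k] (Γ : FormalGroup k)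
    (F : FormalGroup (MvPowerSeries (Fin N) (WittVector p k))) (J : Ideal (MvPowerSeries (Fin N) (WittVector p k))) : Prop :=
  ∀ g : PowerSeries k, IsHom Γ Γ g → IsUnit (PowerSeries.coeff 1 g) →
    ∀ (τ : MvPowerSeries (Fin N) (WittVector p k) ≃ₐ[WittVector p k] MvPowerSeries (Fin N) (WittVector p k))
      (K : PowerSeries (MvPowerSeries (Fin N) (WittVector p k))),
      IsHom F (F.map (τ : MvPowerSeries (Fin N) (WittVector p k) →+* MvPowerSeries (Fin N) (WittVector p k))) K →
      PowerSeries.map ((WittVector.constantCoeff).comp MvPowerSeries.constantCoeff) K = g →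
      J.map (τ : MvPowerSeries (Fin N) (WittVector p k) →+* MvPowerSeries (Fin N) (WittVector p k)) = J

/-- An automorphism with `τ I ≤ I`, of a noetherian ring, satisfies `τ I = I`. Same proof as `map_eq_of_map_le`. -/
theorem map_eq_of_map_le_R {R A : Type*} [CommRing R] [CommRing A] [Algebra R A] [IsNoetherianRing A] (τ : A ≃ₐ[R] A) (I : Ideal A)
    (h : I.map (τ : A →+* A) ≤ I) : I.map (τ : A →+* A) = I := by
  refine le_antisymm h ?_
  have hτI : ∀ x, x ∈ I → τ x ∈ I := fun x hx => h (Ideal.mem_map_of_mem _ hx)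
  let J : ℕ → Ideal A := fun m => I.comap (((τ ^ m : A ≃ₐ[R] A) : A →+* A))
  have hmem : ∀ m x, x ∈ J m ↔ (τ ^ m) x ∈ I := fun m x => Iff.rfl
  have hmono : Monotone J := by
    refine monotone_nat_of_le_succ fun m x hx => ?_
    rw [hmem] at hx ⊢
    rw [pow_succ', AlgEquiv.mul_apply]
    exact hτI _ hx
  obtain ⟨m, hm⟩ := monotone_stabilizes_iff_noetherian.mpr (inferInstance : IsNoetherian A A) ⟨J, hmono⟩
  have hm' : J m = J (m + 1) := hm (m + 1) (Nat.le_succ m)
  intro x hx
  set y := τ.symm x with hy
  have hτy : τ y = x := τ.apply_symm_apply x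
  have hyI : y ∈ I := by
    set w := (τ ^ (m + 1)).symm x with hw
    have hw1 : (τ ^ (m + 1)) w = x := (τ ^ (m + 1)).apply_symm_apply x
    have h1 : w ∈ J (m + 1) := by
      rw [hmem, hw1]
      exact hx
    rw [← hm', hmem] at h1
    have h2 : (τ ^ m) w = y := by
      rw [hy, ← hw1, pow_succ', AlgEquiv.mul_apply, τ.symm_apply_apply]
    rwa [h2] at h1
  rw [← hτy]
  exact Ideal.mem_map_of_mem _ hyI

/-- The height ideals are prime. Proof: `zheight p n k h` is the kernel of the composite of `zpi` (`ZDesc.lean`: coefficientwise reduction `W(k)⟦u⟧ → k⟦u⟧`, with kernel `(p)`) and of the retraction `π` of `exists_flag_retraction`, which is the map to the domain `k⟦N variables⟧`. -/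
theorem zheight_isPrime {p n : ℕ} [Fact p.Prime] (hn : 1 ≤ n) {k : Type} [Field k] [Fintype k] [CharP k p] {h : ℕ} (hh1 : 1 ≤ h) (hhn : h ≤ n) :
    (zheight p n k h).IsPrime := by
  classical
  obtain ⟨π, ι, hπι, hπker, hπc, hπX⟩ := exists_flag_retraction (k := k) (m := n - 1) (N := n - h) (h := h) (by omega) hh1
  let φ : MvPowerSeries (Fin (n - 1)) (WittVector p k) →+* MvPowerSeries (Fin (n - h)) k :=
    (π : MvPowerSeries (Fin (n - 1)) k →+* MvPowerSeries (Fin (n - h)) k).comp (zpi p (n - 1) k)
  have hker : RingHom.ker φ = zheight p n k h := by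
    apply le_antisymm
    · intro x hx
      have hx0 : π (zpi p (n - 1) k x) = 0 := hx
      have hmem := (hπker _).1 hx0
      -- lift the membership
      have hmap : Ideal.span ((MvPowerSeries.X : Fin (n - 1) → MvPowerSeries (Fin (n - 1)) k) '' {l | l.val + 1 < h}) =
          (Ideal.span ((MvPowerSeries.X : Fin (n - 1) → MvPowerSeries (Fin (n - 1)) (WittVector p k)) '' {l | l.val + 1 < h})).map
            (zpi p (n - 1) k) := by
        rw [Ideal.map_span]
        congr 1
        rw [Set.image_image]
        refine Set.image_congr fun l _ => ?_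
        simp [zpi, MvPowerSeries.map_X]
      rw [hmap, Ideal.mem_map_iff_of_surjective _ zpi_surjective] at hmem
      obtain ⟨y, hy, hyx⟩ := hmem
      have h0 : zpi p (n - 1) k (x - y) = 0 := by rw [map_sub, hyx, sub_self]
      obtain ⟨w, hw⟩ := zpi_ker _ h0
      have hxe : x = y + ((p : ℕ) : MvPowerSeries (Fin (n - 1)) (WittVector p k)) * w := by
        rw [← hw]; ring
      rw [hxe]
      unfold zheight
      refine Ideal.add_mem _ ?_ ?_
      · exact Ideal.span_mono Set.subset_union_right hy
      · exact Ideal.mul_mem_right _ _ (Ideal.subset_span (Set.mem_union_left _ rfl))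
    · unfold zheight
      rw [Ideal.span_le]
      rintro x (rfl | ⟨l, hl, rfl⟩)
      · change π (zpi p (n - 1) k _) = 0
        rw [zpi_p, map_zero]
      · change π (zpi p (n - 1) k _) = 0
        have : zpi p (n - 1) k (MvPowerSeries.X l) = MvPowerSeries.X l := by
          simp [zpi, MvPowerSeries.map_X]
        rw [this, hπker]
        exact Ideal.subset_span ⟨l, hl, rfl⟩
  rw [← hker]
  have : IsDomain (MvPowerSeries (Fin (n - h)) k) := NoZeroDivisors.to_isDomain _
  exact RingHom.ker_isPrime φ

/-- Height ideals are preserved by the lifts. Proof: let `I = zheight p n k h = heightIdeal F p h ⊔ (p)`. The linear coefficient of `K` reduces to that of `g`, a unit of `k`, so it is a unit of `W(k)⟦u⟧`.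
By `tau_coeff_mem_heightIdeal`, `τ` maps the generators of `heightIdeal F p h` into `heightIdeal F p h`, and `τ p = p`: `I.map τ ≤ I`. Conclude by `map_eq_of_map_le` (the proof works over `W(k)`: it has `[Field k] [Algebra k A]` in its statement; generalize it to a commutative ring of scalars if necessary, or apply its proof: ascending chain of preimages of `I` under the powers of `τ`, Noetherian). -/
theorem zheight_invariant {p n : ℕ} [Fact p.Prime] (hn : 1 ≤ n) {k : Type} [Field k] [Fintype k] [CharP k p]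
    (Γ : FormalGroup k) (F : FormalGroup (MvPowerSeries (Fin (n - 1)) (WittVector p k)))
    (hht : ∀ h, 1 ≤ h → h ≤ n → heightIdeal F p h ⊔ Ideal.span {(p : MvPowerSeries (Fin (n - 1)) (WittVector p k))} = zheight p n k h)
    {h : ℕ} (hh1 : 1 ≤ h) (hhn : h ≤ n) : ZInvariant Γ F (zheight p n k h) := by
  classical
  intro g hg hgu τ K hK hKg
  have : IsNoetherianRing (WittVector p k) := by
    have := WittVector.isDiscreteValuationRing (p := p) (k := k)
    infer_instance
  have hKu : IsUnit (PowerSeries.coeff 1 K) := by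
    rw [MvPowerSeries.isUnit_iff_constantCoeff]
    apply WittVector.isUnit_of_coeff_zero_ne_zero
    have h1 : PowerSeries.coeff 1 (PowerSeries.map ((WittVector.constantCoeff).comp MvPowerSeries.constantCoeff) K) =
        WittVector.constantCoeff (MvPowerSeries.constantCoeff (PowerSeries.coeff 1 K)) := by
      simp
    have h2 : (MvPowerSeries.constantCoeff (PowerSeries.coeff 1 K)).coeff 0 =
        WittVector.constantCoeff (MvPowerSeries.constantCoeff (PowerSeries.coeff 1 K)) := rfl
    rw [h2, ← h1, hKg]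
    exact hgu.ne_zero
  rw [← hht h hh1 hhn]
  apply map_eq_of_map_le_R τ
  rw [Ideal.map_sup, sup_le_iff]
  constructor
  · unfold heightIdeal
    rw [Ideal.map_span, Ideal.span_le]
    rintro _ ⟨a, ⟨j, hj, rfl⟩, rfl⟩
    apply Ideal.mem_sup_left
    exact tau_coeff_mem_heightIdeal (τ : MvPowerSeries (Fin (n - 1)) (WittVector p k) →+* MvPowerSeries (Fin (n - 1)) (WittVector p k)) hK hKu p h j hj
  · rw [Ideal.map_span, Ideal.span_le, Set.image_singleton]
    rw [Set.singleton_subset_iff]
    apply Ideal.mem_sup_right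
    have : (τ : MvPowerSeries (Fin (n - 1)) (WittVector p k) →+* MvPowerSeries (Fin (n - 1)) (WittVector p k)) (p : MvPowerSeries (Fin (n - 1)) (WittVector p k)) = (p : MvPowerSeries (Fin (n - 1)) (WittVector p k)) :=
      map_natCast _ p
    rw [this]
    exact Ideal.subset_span rfl

/-- The exact classification: Q1 in the form exactly. Forward direction: `classify_full`, with `hL` to produce lifts. Backward direction: `zheight_invariant`, and `⊥`, `⊤` are trivially invariant (`Ideal.map_bot`, `Ideal.map_top`-like: `τ` is surjective). -/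
theorem classify_exact {p n : ℕ} [Fact p.Prime] (hn : 1 ≤ n) {k : Type} [Field k] [Fintype k] [CharP k p]
    (hk : Fintype.card k = p ^ n)
    (Γ : FormalGroup k) [Γ.IsComm] (hΓp : mulSeries Γ p = PowerSeries.X ^ (p ^ n))
    (hΓF : ∀ d, (MvPowerSeries.coeff d Γ.toPowerSeries) ^ p = MvPowerSeries.coeff d Γ.toPowerSeries)
    (hΓω : ∀ c : k, c ≠ 0 → IsHom Γ Γ (PowerSeries.C c * PowerSeries.X))
    (F : FormalGroup (MvPowerSeries (Fin (n - 1)) (WittVector p k))) [F.IsComm]
    (hF : F.map ((WittVector.constantCoeff).comp MvPowerSeries.constantCoeff) = Γ)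
    (hht : ∀ h, 1 ≤ h → h ≤ n → heightIdeal F p h ⊔ Ideal.span {(p : MvPowerSeries (Fin (n - 1)) (WittVector p k))} = zheight p n k h)
    (hL : ∀ g : PowerSeries k, IsHom Γ Γ g → IsUnit (PowerSeries.coeff 1 g) →
      ∃ (τ : MvPowerSeries (Fin (n - 1)) (WittVector p k) ≃ₐ[WittVector p k] MvPowerSeries (Fin (n - 1)) (WittVector p k))
        (K : PowerSeries (MvPowerSeries (Fin (n - 1)) (WittVector p k))),
        IsHom F (F.map (τ : MvPowerSeries (Fin (n - 1)) (WittVector p k) →+* MvPowerSeries (Fin (n - 1)) (WittVector p k))) K ∧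
        PowerSeries.map ((WittVector.constantCoeff).comp MvPowerSeries.constantCoeff) K = g) :
    (∀ J : Ideal (MvPowerSeries (Fin (n - 1)) (WittVector p k)), J.IsRadical →
      (ZInvariant Γ F J ↔ J = ⊥ ∨ J = ⊤ ∨ ∃ h, 1 ≤ h ∧ h ≤ n ∧ J = zheight p n k h)) ∧
    (∀ J : Ideal (MvPowerSeries (Fin (n - 1)) (WittVector p k)), J.IsPrime →
      (ZInvariant Γ F J ↔ J = ⊥ ∨ ∃ h, 1 ≤ h ∧ h ≤ n ∧ J = zheight p n k h)) ∧
    (∀ h, 1 ≤ h → h ≤ n → (zheight p n k h).IsPrime) := by
  classical
  have hbot : ZInvariant Γ F (⊥ : Ideal (MvPowerSeries (Fin (n - 1)) (WittVector p k))) := by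
    intro g _ _ τ K _ _
    exact Ideal.map_bot
  have htop : ZInvariant Γ F (⊤ : Ideal (MvPowerSeries (Fin (n - 1)) (WittVector p k))) := by
    intro g _ _ τ K _ _
    exact Ideal.map_top _
  have hforward : ∀ J : Ideal (MvPowerSeries (Fin (n - 1)) (WittVector p k)), J.IsRadical → J ≠ ⊤ →
      ZInvariant Γ F J → J = ⊥ ∨ ∃ h, 1 ≤ h ∧ h ≤ n ∧ J = zheight p n k h := by
    intro J hJ hJ1 hinv
    refine classify_full hn hk Γ hΓp hΓF hΓω F hF hht J hJ hJ1 ?_
    intro g hg hgu
    obtain ⟨τ, K, hK, hKg⟩ := hL g hg hgu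
    exact ⟨τ, K, hK, hKg, hinv g hg hgu τ K hK hKg⟩
  refine ⟨?_, ?_, fun h h1 h2 => zheight_isPrime hn h1 h2⟩
  · intro J hJ
    constructor
    · intro hinv
      by_cases hJ1 : J = ⊤
      · exact Or.inr (Or.inl hJ1)
      · rcases hforward J hJ hJ1 hinv with h | h
        · exact Or.inl h
        · exact Or.inr (Or.inr h)
    · rintro (rfl | rfl | ⟨h, h1, h2, rfl⟩)
      · exact hbot
      · exact htop
      · exact zheight_invariant hn Γ F hht h1 h2
  · intro J hJ
    constructor
    · intro hinv
      exact hforward J hJ.isRadical hJ.ne_top hinv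
    · rintro (rfl | ⟨h, h1, h2, rfl⟩)
      · exact hbot
      · exact zheight_invariant hn Γ F hht h1 h2

end Vale.Agent.Lib.P217
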