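import Mathlib

set_option linter.unusedSectionVars false
set_option linter.unusedVariables false

/-!
An abstract linear independence statement by Fourier analysis on `k^×`, and the Frobenius.

Setting: `M` is an abelian group with an ultrametric norm `nm < 1`, acted on by `k` (`cE`, multiplicative, additive up to `p M`) and a Frobenius `Φ`, with `Φ ^ n = p`.
`θ : M → C` is a nonzero additive map, bounded on each `{nm ≤ t}`, `t < 1`.

Write `ι d = κ (t d) : C`, the Teichmüller character, `q = p ^ n = card k`.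
For `N : ℕ` let `θN N y = ∑_{d ≠ 0} ι (d⁻¹) ^ N * θ (cE d y)`.

(1) `θN N (cE e y) = ι e ^ N * θN N y` for `e ≠ 0`: substitute `d' = d e`.
(2) Inversion: `∑_{N < q - 1} θN N y = (q - 1) * θ y`: since for `d ≠ 1`, `ι d⁻¹ ≠ 1`, `ι (d⁻¹) ^ (q - 1) = 1` (so the geometric sum vanishes). (`ι d ≠ 1` for `d ≠ 1`: as `ρ₀ (t d - 1) = d - 1 ≠ 0`,
  `t d - 1` is invertible modulo `p`, so that `‖κ (t d - 1)‖ = 1`, using `‖p‖ < 1`.) Also, `‖q - 1‖ = 1`, since `‖p‖ < 1`.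
(3) If `N` is not congruent to a `p ^ l`, `l < n`, modulo `q - 1` and `‖θ‖ ≤ B₁` on `{nm ≤ t}`, then `‖θN N y‖ ≤ ‖p‖ * B₁` on `{nm ≤ t}`. Proof: Let `y` be with `nm y ≤ t`.
  Let `b d = θ (cE d y)`. By `hdef`, `b (d + d') - b d - b d' = p θ (w)` has norm at most `‖p‖ B₁`. Let `(e_i)` be a `ZMod p`-basis of `k`. For `d = ∑ a_i(d) e_i`, with `ã_i(d) ∈ ℕ` lifting `a_i(d)`,
  `b d - ∑_i ã_i(d) b(e_i)` has norm at most `‖p‖ B₁`. So modulo the ball of radius `‖p‖ B₁`, `θN N y` is `∑_i b(e_i) * κ(c_i)`, with `c_i = ∑_{d ≠ 0} t(d⁻¹) ^ N * ã_i(d) ∈ B`; it remains to see that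
  `‖κ(c_i)‖ ≤ ‖p‖`, i.e. (by `hker`) that `ρ₀ c_i = ∑_{d ≠ 0} d ^ (-N) a_i(d) = 0`. The linear form `a_i` is of the form `d ↦ Tr(β d)`, by nondegeneracy of the trace form, and
  `Tr(x) = ∑_{l < n} x ^ (p ^ l)` (`FiniteField.algebraMap_trace_eq_sum_pow`), and `∑_{d ≠ 0} d ^ (p ^ l) (d⁻¹) ^ N = 0`, as `N` is not congruent to `p ^ l` modulo `q - 1`
  (`d ↦ d ^ (p ^ l) (d⁻¹) ^ N` is a nontrivial multiplicative character as `k^×` is cyclic of order `q - 1`. Or see `FiniteField.sum_pow_units`).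
(4) There is `J < n` with `θN (p ^ J) ≠ 0` as a function. Otherwise, `θN (p ^ l)` vanishes for all `l`, and `θN N` only depends on `N` mod `q - 1`, so by (2), (3), if `‖θ‖ ≤ B₁` on `{nm ≤ t}`,
  then `‖θ‖ ≤ ‖p‖ B₁` on `{nm ≤ t}`. By induction, `θ = 0` on each `{nm ≤ t}`, contradiction with `hθ0`, as `nm < 1` everywhere.
(5) Let `ψ z y = θN (p ^ J) (Φ ^ z y)` for `z < n`. We have `Φ ^ z * cE e = cE (e ^ (p ^ z)) * Φ ^ z`, so `ψ z (cE e y) = ι (e ^ (p ^ z)) ^ (p ^ J) * ψ z y = ι e ^ (p ^ (J + z)) * ψ z y`.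
  `ψ z ≠ 0` as `Φ` is surjective (`Φ ^ n = p`, which is surjective).
  The characters `e ↦ ι e ^ (p ^ (J + z))` for `z < n` are pairwise distinct: for a generator `e₀` of `k^×`, the elements `e₀ ^ (p ^ (J + z))` are pairwise different since `ι` is injective on `k^×`
  and `p ^ (J + z)` are pairwise different modulo `q - 1` (as `x ↦ x ^ (p ^ z)` for `z < n` are different automorphisms of `k`).
  Hence the `ψ z` are linearly independent over `C`: if `∑_z λ_z ψ z = 0`, evaluate at `cE e y`, multiply by `ι (e⁻¹) ^ (p ^ (J + z₀))`, and sum over `e ≠ 0`: orthogonality of characters gives `(q - 1) λ_z₀ ψ z₀ y = 0`.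
(6) Linear independent functions `ψ_z`, `z : Fin n`, on `M`: there are `y_b ∈ M`, `b : Fin n`, with `det (ψ z (y b)) ≠ 0`. (Standard; e.g. the span of the vectors `(ψ z y)_z`, `y ∈ M`, in `C ^ n` is everything since otherwise a nonzero linear form
  kills it; choose a basis of this span in the spanning set.)
(7) If `ρ : Fin n → C`, with `∑_b ρ b * θ ((cE d * Φ ^ z) (y b)) = 0` for all `d ≠ 0` and `z : Fin n`, then `∑_b ρ b * ψ z (y b) = ∑_{d ≠ 0} ι(d⁻¹) ^ (p ^ J) ∑_b ρ b θ ((cE d * Φ ^ z) (y b)) = 0`, so `ρ = 0`.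
-/

namespace Vale.Agent.Lib.P217

namespace ZFourierAux

open Finset

section Arith

variable {k : Type*} [Field k] [Fintype k] [DecidableEq k]

/-- Nontrivial power characters of `k^×` sum to zero. -/
lemma sum_units_inv_pow_mul_pow_eq_zero {m m' : ℕ}
    (h : ¬ m ≡ m' [MOD (Fintype.card k - 1)]) :
    ∑ u : kˣ, ((u⁻¹ : kˣ) : k) ^ m * (u : k) ^ m' = 0 := by
  classical
  let f : kˣ →* k :=
    { toFun := fun u => ((u⁻¹ : kˣ) : k) ^ m * (u : k) ^ m'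
      map_one' := by simp
      map_mul' := by
        intro a b
        simp only [mul_inv, Units.val_mul, mul_pow]
        ring }
  have hf : f ≠ 1 := by
    obtain ⟨g, hg⟩ := IsCyclic.exists_generator (α := kˣ)
    intro hf1
    have h1 : f g = 1 := by rw [hf1]; rfl
    have h2 : ((g⁻¹ : kˣ) : k) ^ m * (g : k) ^ m' = 1 := h1
    have h3 : (g : k) ^ m' = (g : k) ^ m := by
      have h4 : ((g⁻¹ : kˣ) : k) * (g : k) = 1 := by simp
      calc (g : k) ^ m' = (((g⁻¹ : kˣ) : k) * (g : k)) ^ m * (g : k) ^ m' := by rw [h4]; simp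
        _ = (g : k) ^ m * (((g⁻¹ : kˣ) : k) ^ m * (g : k) ^ m') := by rw [mul_pow]; ring
        _ = (g : k) ^ m := by rw [h2, mul_one]
    have h5 : g ^ m' = g ^ m := by
      apply Units.ext
      simpa using h3
    have h6 := (pow_eq_pow_iff_modEq).1 h5
    have h7 : orderOf g = Fintype.card k - 1 := by
      rw [orderOf_eq_card_of_forall_mem_zpowers hg, Nat.card_eq_fintype_card, Fintype.card_units]
    rw [h7] at h6
    exact h h6.symm
  exact sum_hom_units_eq_zero f hf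

variable {p n : ℕ} [Fact p.Prime] [Algebra (ZMod p) k]

/-- A linear form on `k` is a sum of Frobenius powers; twisted sums of it vanish. -/
lemma sum_units_inv_pow_mul_linear (hk : Fintype.card k = p ^ n)
    (lam : k →ₗ[ZMod p] ZMod p) (m : ℕ)
    (hm : ∀ l < n, ¬ m ≡ p ^ l [MOD (Fintype.card k - 1)]) :
    ∑ u : kˣ, ((u⁻¹ : kˣ) : k) ^ m * algebraMap (ZMod p) k (lam (u : k)) = 0 := by
  classical
  have hnd := traceForm_nondegenerate (ZMod p) k
  obtain ⟨β, hβ⟩ : ∃ β : k, (LinearMap.BilinForm.toDual _ hnd) β = lam :=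
    ⟨(LinearMap.BilinForm.toDual _ hnd).symm lam, by simp⟩
  have hfr : Module.finrank (ZMod p) k = n := by
    have h1 := Module.card_eq_pow_finrank (K := ZMod p) (V := k)
    rw [hk, ZMod.card] at h1
    exact (Nat.pow_right_injective (Fact.out : p.Prime).two_le h1).symm
  have hform : ∀ x : k, algebraMap (ZMod p) k (lam x)
      = ∑ i ∈ range n, β ^ (p ^ i) * x ^ (p ^ i) := by
    intro x
    have h1 : lam x = Algebra.trace (ZMod p) k (β * x) := by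
      rw [← hβ, LinearMap.BilinForm.toDual_def]
      rfl
    rw [h1, FiniteField.algebraMap_trace_eq_sum_pow, hfr, Nat.card_zmod]
    exact Finset.sum_congr rfl (fun i _ => by rw [mul_pow])
  calc ∑ u : kˣ, ((u⁻¹ : kˣ) : k) ^ m * algebraMap (ZMod p) k (lam (u : k))
      = ∑ u : kˣ, ∑ i ∈ range n, β ^ (p ^ i) *
          (((u⁻¹ : kˣ) : k) ^ m * (u : k) ^ (p ^ i)) := by
        refine Finset.sum_congr rfl (fun u _ => ?_)
        rw [hform, Finset.mul_sum]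
        exact Finset.sum_congr rfl (fun i _ => by ring)
    _ = ∑ i ∈ range n, β ^ (p ^ i) * ∑ u : kˣ, ((u⁻¹ : kˣ) : k) ^ m * (u : k) ^ (p ^ i) := by
        rw [Finset.sum_comm]
        exact Finset.sum_congr rfl (fun i _ => by rw [Finset.mul_sum])
    _ = 0 := by
        refine Finset.sum_eq_zero (fun i hi => ?_)
        rw [sum_units_inv_pow_mul_pow_eq_zero (hm i (Finset.mem_range.1 hi)), mul_zero]

end Arith

section Char

variable {C : Type*} [NormedField C] [IsUltrametricDist C]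

lemma norm_one_add_of_lt {x : C} (hx : ‖x‖ < 1) : ‖1 + x‖ = 1 := by
  have h1 : ‖(1 : C)‖ ≠ ‖x‖ := by
    rw [norm_one]; exact (ne_of_lt hx).symm
  have := IsUltrametricDist.norm_add_eq_max_of_norm_ne_norm h1
  rw [this, norm_one, max_eq_left hx.le]

variable {p : ℕ} {k : Type*} [Field k] {B : Type*} [CommRing B]

lemma norm_kappa_of_ne {ρ₀ : B →+* k} {t : k →* B} {κ : B →+* C}
    (hρt : ∀ d, ρ₀ (t d) = d) (hker : ∀ a, ρ₀ a = 0 → ∃ b, a = (p : B) * b)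
    (hκ : ∀ a, ‖κ a‖ ≤ 1) (hp1 : ‖(p : C)‖ < 1) {a : B} (ha : ρ₀ a ≠ 0) : ‖κ a‖ = 1 := by
  obtain ⟨b, hb⟩ := hker (a * t (ρ₀ a)⁻¹ - 1) (by
    rw [map_sub, map_mul, hρt, map_one, mul_inv_cancel₀ ha, sub_self])
  have h1 : κ a * κ (t (ρ₀ a)⁻¹) = 1 + (p : C) * κ b := by
    have := congrArg κ hb
    rw [map_sub, map_mul, map_one, map_mul, map_natCast] at this
    rw [← this]; ring
  have h2 : ‖(p : C) * κ b‖ < 1 := by
    rw [norm_mul]
    calc ‖(p : C)‖ * ‖κ b‖ ≤ ‖(p : C)‖ * 1 := by gcongr; exact hκ b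
      _ < 1 := by rwa [mul_one]
  have h3 : ‖κ a‖ * ‖κ (t (ρ₀ a)⁻¹)‖ = 1 := by
    rw [← norm_mul, h1, norm_one_add_of_lt h2]
  apply le_antisymm (hκ a)
  calc (1 : ℝ) = ‖κ a‖ * ‖κ (t (ρ₀ a)⁻¹)‖ := h3.symm
    _ ≤ ‖κ a‖ * 1 := by gcongr; exact hκ _
    _ = ‖κ a‖ := mul_one _

lemma kappa_t_ne {ρ₀ : B →+* k} {t : k →* B} {κ : B →+* C}
    (hρt : ∀ d, ρ₀ (t d) = d) (hker : ∀ a, ρ₀ a = 0 → ∃ b, a = (p : B) * b)
    (hκ : ∀ a, ‖κ a‖ ≤ 1) (hp1 : ‖(p : C)‖ < 1) {a b : k} (hab : a ≠ b) :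
    κ (t a) ≠ κ (t b) := by
  intro h
  have h1 : ρ₀ (t a - t b) ≠ 0 := by
    rw [map_sub, hρt, hρt]; exact sub_ne_zero.2 hab
  have h2 := norm_kappa_of_ne (p := p) hρt hker hκ hp1 h1
  rw [map_sub, h, sub_self, norm_zero] at h2
  exact zero_ne_one h2

lemma norm_natCast_pow_sub_one {p n : ℕ} (hp : 1 ≤ p) (hn : 1 ≤ n) (hp1 : ‖(p : C)‖ < 1) :
    ‖((p ^ n - 1 : ℕ) : C)‖ = 1 := by
  have h1 : ((p ^ n - 1 : ℕ) : C) = (p : C) ^ n - 1 := by
    rw [Nat.cast_sub (Nat.one_le_pow _ _ hp)]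
    simp
  have h2 : ‖-(p : C) ^ n‖ < 1 := by
    rw [norm_neg, norm_pow]
    exact pow_lt_one₀ (norm_nonneg _) hp1 (by omega)
  rw [h1]
  have h3 : (p : C) ^ n - 1 = -(1 + -(p : C) ^ n) := by ring
  rw [h3, norm_neg, norm_one_add_of_lt h2]

end Char

section Approx

variable {C : Type*} [NormedField C] [IsUltrametricDist C]

lemma approx_sum {A ι : Type*} [AddCommMonoid A] (b : A → C) {R : ℝ} (hR : 0 ≤ R)
    (h0 : b 0 = 0) (hadd : ∀ x y, ‖b (x + y) - b x - b y‖ ≤ R)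
    (S : Finset ι) (f : ι → A) :
    ‖b (∑ i ∈ S, f i) - ∑ i ∈ S, b (f i)‖ ≤ R := by
  classical
  induction S using Finset.induction_on with
  | empty => simpa [h0] using hR
  | insert a S ha ih =>
    rw [Finset.sum_insert ha, Finset.sum_insert ha]
    have h1 : b (f a + ∑ i ∈ S, f i) - (b (f a) + ∑ i ∈ S, b (f i))
        = (b (f a + ∑ i ∈ S, f i) - b (f a) - b (∑ i ∈ S, f i))
          + (b (∑ i ∈ S, f i) - ∑ i ∈ S, b (f i)) := by ring
    rw [h1]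
    exact (IsUltrametricDist.norm_add_le_max _ _).trans (max_le (hadd _ _) ih)

lemma approx_nsmul {A : Type*} [AddCommMonoid A] (b : A → C) {R : ℝ} (hR : 0 ≤ R)
    (h0 : b 0 = 0) (hadd : ∀ x y, ‖b (x + y) - b x - b y‖ ≤ R) (c : ℕ) (x : A) :
    ‖b (c • x) - (c : C) * b x‖ ≤ R := by
  induction c with
  | zero => simpa [h0] using hR
  | succ c ih =>
    have h1 : b ((c + 1) • x) - ((c + 1 : ℕ) : C) * b x
        = (b (c • x + x) - b (c • x) - b x) + (b (c • x) - (c : C) * b x) := by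
      rw [add_nsmul, one_nsmul]; push_cast; ring
    rw [h1]
    exact (IsUltrametricDist.norm_add_le_max _ _).trans (max_le (hadd _ _) ih)

lemma approx_basis {p : ℕ} [Fact p.Prime] {k : Type*} [AddCommGroup k] [Module (ZMod p) k]
    {ι : Type*} [Fintype ι] (e : Module.Basis ι (ZMod p) k) (b : k → C) {R : ℝ} (hR : 0 ≤ R)
    (h0 : b 0 = 0) (hadd : ∀ x y, ‖b (x + y) - b x - b y‖ ≤ R) (d : k) :
    ‖b d - ∑ i, (((e.repr d i).val : ℕ) : C) * b (e i)‖ ≤ R := by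
  have h1 : d = ∑ i, (e.repr d i).val • e i := by
    conv_lhs => rw [← e.sum_repr d]
    refine Finset.sum_congr rfl (fun i _ => ?_)
    conv_lhs => rw [← ZMod.natCast_zmod_val (e.repr d i)]
    exact Nat.cast_smul_eq_nsmul (ZMod p) _ _
  have h2 : b d - ∑ i, (((e.repr d i).val : ℕ) : C) * b (e i)
      = (b (∑ i, (e.repr d i).val • e i) - ∑ i, b ((e.repr d i).val • e i))
        + ∑ i, (b ((e.repr d i).val • e i) - (((e.repr d i).val : ℕ) : C) * b (e i)) := by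
    rw [Finset.sum_sub_distrib, ← h1]; ring
  rw [h2]
  refine (IsUltrametricDist.norm_add_le_max _ _).trans (max_le (approx_sum b hR h0 hadd _ _) ?_)
  exact IsUltrametricDist.norm_sum_le_of_forall_le_of_nonneg hR
    (fun i _ => approx_nsmul b hR h0 hadd _ _)

end Approx

section Fourier

variable {M : Type*} [AddCommGroup M] {C : Type*} [NormedField C] [IsUltrametricDist C]
  {k : Type*} [Field k] [Fintype k] [DecidableEq k] {B : Type*} [CommRing B]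

/-- The Fourier component `∑_{u} ι(u⁻¹)^m θ(cE u y)`. -/
noncomputable def thetaN (κ : B →+* C) (t : k →* B) (cE : k → AddMonoid.End M) (θ : M →+ C)
    (m : ℕ) (y : M) : C :=
  ∑ u : kˣ, κ (t ((u⁻¹ : kˣ) : k)) ^ m * θ (cE (u : k) y)

lemma chi_pow_card (κ : B →+* C) (t : k →* B) (u : kˣ) :
    κ (t (u : k)) ^ (Fintype.card k - 1) = 1 := by
  rw [← map_pow, ← map_pow, FiniteField.pow_card_sub_one_eq_one _ u.ne_zero, map_one, map_one]

lemma chi_mul_inv (κ : B →+* C) (t : k →* B) (u : kˣ) :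
    κ (t (u : k)) * κ (t ((u⁻¹ : kˣ) : k)) = 1 := by
  rw [← map_mul, ← map_mul, Units.mul_inv, map_one, map_one]

lemma thetaN_cE (κ : B →+* C) (t : k →* B) (cE : k → AddMonoid.End M) (θ : M →+ C)
    (hcmul : ∀ a b, cE (a * b) = cE a * cE b) (m : ℕ) (e : kˣ) (y : M) :
    thetaN κ t cE θ m (cE (e : k) y) = κ (t (e : k)) ^ m * thetaN κ t cE θ m y := by
  unfold thetaN
  have := Equiv.sum_comp (Equiv.mulRight e)
    (fun u : kˣ => κ (t (e : k)) ^ m * (κ (t ((u⁻¹ : kˣ) : k)) ^ m * θ (cE (u : k) y)))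
  rw [Finset.mul_sum, ← this]
  refine Finset.sum_congr rfl (fun u _ => ?_)
  simp only [Equiv.coe_mulRight]
  have h1 : ((u * e)⁻¹ : kˣ) = u⁻¹ * e⁻¹ := mul_inv _ _
  have h2 : cE ((u * e : kˣ) : k) y = cE (u : k) (cE (e : k) y) := by
    rw [Units.val_mul, hcmul]; rfl
  rw [h1, h2, Units.val_mul, map_mul, map_mul, mul_pow]
  have h3 := chi_mul_inv κ t e
  have h4 : κ (t (e : k)) ^ m * κ (t ((e⁻¹ : kˣ) : k)) ^ m = 1 := by
    rw [← mul_pow, h3, one_pow]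
  calc κ (t ((u⁻¹ : kˣ) : k)) ^ m * θ (cE (u : k) (cE (e : k) y))
      = (κ (t (e : k)) ^ m * κ (t ((e⁻¹ : kˣ) : k)) ^ m) *
          (κ (t ((u⁻¹ : kˣ) : k)) ^ m * θ (cE (u : k) (cE (e : k) y))) := by rw [h4, one_mul]
    _ = _ := by ring

lemma thetaN_congr (κ : B →+* C) (t : k →* B) (cE : k → AddMonoid.End M) (θ : M →+ C)
    {m m' : ℕ} (h : m ≡ m' [MOD (Fintype.card k - 1)]) (y : M) :
    thetaN κ t cE θ m y = thetaN κ t cE θ m' y := by
  unfold thetaN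
  refine Finset.sum_congr rfl (fun u _ => ?_)
  have h1 := chi_pow_card κ t (u⁻¹)
  rw [pow_eq_pow_mod m h1, pow_eq_pow_mod m' h1, h]

lemma thetaN_inversion {p : ℕ} {ρ₀ : B →+* k} {t : k →* B} {κ : B →+* C}
    (hρt : ∀ d, ρ₀ (t d) = d) (hker : ∀ a, ρ₀ a = 0 → ∃ b, a = (p : B) * b)
    (hκ : ∀ a, ‖κ a‖ ≤ 1) (hp1 : ‖(p : C)‖ < 1)
    {cE : k → AddMonoid.End M} (hc1 : cE 1 = 1) (θ : M →+ C) (y : M) :
    ∑ m ∈ range (Fintype.card k - 1), thetaN κ t cE θ m y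
      = ((Fintype.card k - 1 : ℕ) : C) * θ y := by
  unfold thetaN
  rw [Finset.sum_comm, Finset.sum_eq_single (1 : kˣ)]
  · simp [hc1]
  · intro u _ hu
    have hξ : κ (t ((u⁻¹ : kˣ) : k)) ≠ 1 := by
      have h1 : ((u⁻¹ : kˣ) : k) ≠ 1 := by
        intro h
        apply hu
        have : (u⁻¹ : kˣ) = 1 := Units.ext (by simpa using h)
        simpa using this
      have h2 := kappa_t_ne (p := p) hρt hker hκ hp1 h1
      rwa [map_one, map_one] at h2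
    rw [← Finset.sum_mul, geom_sum_eq hξ, chi_pow_card, sub_self, zero_div, zero_mul]
  · simp

variable {p n : ℕ} [Fact p.Prime] [Algebra (ZMod p) k]

lemma thetaN_small (hk : Fintype.card k = p ^ n) {ρ₀ : B →+* k} {t : k →* B}
    (hρt : ∀ d, ρ₀ (t d) = d) (hker : ∀ a, ρ₀ a = 0 → ∃ b, a = (p : B) * b)
    {κ : B →+* C} (hκ : ∀ a, ‖κ a‖ ≤ 1)
    {nm : M → ℝ} {cE : k → AddMonoid.End M} (hc0 : cE 0 = 0)
    (hcnm : ∀ a y, nm (cE a y) ≤ nm y)
    (hdef : ∀ a b y, ∃ w, nm w ≤ nm y ∧ cE (a + b) y = cE a y + cE b y + p • w)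
    (θ : M →+ C) {s B₁ : ℝ} (hB₁ : 0 ≤ B₁) (hb : ∀ y, nm y ≤ s → ‖θ y‖ ≤ B₁)
    {m : ℕ} (hm : ∀ l < n, ¬ m ≡ p ^ l [MOD (Fintype.card k - 1)])
    {y : M} (hy : nm y ≤ s) :
    ‖thetaN κ t cE θ m y‖ ≤ ‖(p : C)‖ * B₁ := by
  set R : ℝ := ‖(p : C)‖ * B₁ with hRdef
  have hR : 0 ≤ R := mul_nonneg (norm_nonneg _) hB₁
  let b : k → C := fun d => θ (cE d y)
  have h0 : b 0 = 0 := by simp [b, hc0]
  have hadd : ∀ x x', ‖b (x + x') - b x - b x'‖ ≤ R := by
    intro x x'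
    obtain ⟨w, hw, hw2⟩ := hdef x x' y
    have h1 : b (x + x') - b x - b x' = (p : C) * θ w := by
      simp only [b]
      rw [hw2, map_add, map_add, map_nsmul, nsmul_eq_mul]
      ring
    rw [h1, norm_mul, hRdef]
    exact mul_le_mul_of_nonneg_left (hb w (hw.trans hy)) (norm_nonneg _)
  let e := Module.finBasis (ZMod p) k
  let c : Fin (Module.finrank (ZMod p) k) → B :=
    fun i => ∑ u : kˣ, t ((u⁻¹ : kˣ) : k) ^ m * (((e.repr (u : k) i).val : ℕ) : B)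
  have hc : ∀ i, ‖κ (c i)‖ ≤ ‖(p : C)‖ := by
    intro i
    have h1 : ρ₀ (c i) = 0 := by
      simp only [c, map_sum, map_mul, map_pow, hρt, map_natCast]
      rw [← sum_units_inv_pow_mul_linear hk (e.coord i) m hm]
      refine Finset.sum_congr rfl (fun u _ => ?_)
      congr 1
      rw [← map_natCast (algebraMap (ZMod p) k), ZMod.natCast_zmod_val,
        Module.Basis.coord_apply]
    obtain ⟨b', hb'⟩ := hker _ h1
    rw [hb', map_mul, map_natCast, norm_mul]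
    calc ‖(p : C)‖ * ‖κ b'‖ ≤ ‖(p : C)‖ * 1 :=
          mul_le_mul_of_nonneg_left (hκ b') (norm_nonneg _)
      _ = ‖(p : C)‖ := mul_one _
  have hκc : ∀ i, κ (c i) = ∑ u : kˣ, κ (t ((u⁻¹ : kˣ) : k)) ^ m * (((e.repr (u : k) i).val : ℕ) : C) := by
    intro i
    simp only [c, map_sum, map_mul, map_pow, map_natCast]
  have key : thetaN κ t cE θ m y
      = ∑ u : kˣ, κ (t ((u⁻¹ : kˣ) : k)) ^ m *
          (b (u : k) - ∑ i, (((e.repr (u : k) i).val : ℕ) : C) * b (e i))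
        + ∑ i, b (e i) * κ (c i) := by
    have h1 : ∑ i, b (e i) * κ (c i) = ∑ u : kˣ, κ (t ((u⁻¹ : kˣ) : k)) ^ m *
        (∑ i, (((e.repr (u : k) i).val : ℕ) : C) * b (e i)) := by
      simp only [hκc, Finset.mul_sum]
      rw [Finset.sum_comm]
      refine Finset.sum_congr rfl (fun u _ => Finset.sum_congr rfl (fun i _ => ?_))
      ring
    rw [h1, ← Finset.sum_add_distrib]
    unfold thetaN
    refine Finset.sum_congr rfl (fun u _ => ?_)
    simp only [b]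
    ring
  rw [key]
  refine (IsUltrametricDist.norm_add_le_max _ _).trans (max_le ?_ ?_)
  · refine IsUltrametricDist.norm_sum_le_of_forall_le_of_nonneg hR (fun u _ => ?_)
    rw [norm_mul, norm_pow]
    calc ‖κ (t ((u⁻¹ : kˣ) : k))‖ ^ m *
          ‖b (u : k) - ∑ i, (((e.repr (u : k) i).val : ℕ) : C) * b (e i)‖
        ≤ 1 * R := by
          refine mul_le_mul ?_ (approx_basis e b hR h0 hadd _) (norm_nonneg _) zero_le_one
          exact pow_le_one₀ (norm_nonneg _) (hκ _)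
      _ = R := one_mul _
  · refine IsUltrametricDist.norm_sum_le_of_forall_le_of_nonneg hR (fun i _ => ?_)
    rw [norm_mul, hRdef, mul_comm]
    exact mul_le_mul (hc i) (hb _ ((hcnm _ _).trans hy)) (norm_nonneg _) (norm_nonneg _)

end Fourier

section Improve

variable {M : Type*} [AddCommGroup M] {C : Type*} [NormedField C] [IsUltrametricDist C]
  {k : Type*} [Field k] [Fintype k] [DecidableEq k] {B : Type*} [CommRing B]
  {p n : ℕ} [Fact p.Prime] [Algebra (ZMod p) k]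

lemma theta_improve (hn : 1 ≤ n) (hk : Fintype.card k = p ^ n) {ρ₀ : B →+* k} {t : k →* B}
    (hρt : ∀ d, ρ₀ (t d) = d) (hker : ∀ a, ρ₀ a = 0 → ∃ b, a = (p : B) * b)
    {κ : B →+* C} (hκ : ∀ a, ‖κ a‖ ≤ 1) (hp1 : ‖(p : C)‖ < 1)
    {nm : M → ℝ} {cE : k → AddMonoid.End M} (hc0 : cE 0 = 0) (hc1 : cE 1 = 1)
    (hcnm : ∀ a y, nm (cE a y) ≤ nm y)
    (hdef : ∀ a b y, ∃ w, nm w ≤ nm y ∧ cE (a + b) y = cE a y + cE b y + p • w)
    (θ : M →+ C) (hzero : ∀ J < n, ∀ y, thetaN κ t cE θ (p ^ J) y = 0)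
    {s B₁ : ℝ} (hB₁ : 0 ≤ B₁) (hb : ∀ y, nm y ≤ s → ‖θ y‖ ≤ B₁) {y : M} (hy : nm y ≤ s) :
    ‖θ y‖ ≤ ‖(p : C)‖ * B₁ := by
  have hpos : 1 ≤ p := (Fact.out : p.Prime).one_lt.le
  have h1 : ‖((Fintype.card k - 1 : ℕ) : C)‖ = 1 := by
    rw [hk]; exact norm_natCast_pow_sub_one hpos hn hp1
  have h2 : ‖θ y‖ = ‖∑ m ∈ range (Fintype.card k - 1), thetaN κ t cE θ m y‖ := by
    rw [thetaN_inversion (p := p) hρt hker hκ hp1 hc1, norm_mul, h1, one_mul]
  rw [h2]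
  refine IsUltrametricDist.norm_sum_le_of_forall_le_of_nonneg
    (mul_nonneg (norm_nonneg _) hB₁) (fun m _ => ?_)
  by_cases hm : ∀ l < n, ¬ m ≡ p ^ l [MOD (Fintype.card k - 1)]
  · exact thetaN_small hk hρt hker hκ hc0 hcnm hdef θ hB₁ hb hm hy
  · push Not at hm
    obtain ⟨l, hl, hml⟩ := hm
    rw [thetaN_congr κ t cE θ hml, hzero l hl, norm_zero]
    exact mul_nonneg (norm_nonneg _) hB₁

lemma exists_nonzero_component (hn : 1 ≤ n) (hk : Fintype.card k = p ^ n)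
    {ρ₀ : B →+* k} {t : k →* B}
    (hρt : ∀ d, ρ₀ (t d) = d) (hker : ∀ a, ρ₀ a = 0 → ∃ b, a = (p : B) * b)
    {κ : B →+* C} (hκ : ∀ a, ‖κ a‖ ≤ 1) (hp1 : ‖(p : C)‖ < 1)
    {nm : M → ℝ} (hnm1 : ∀ y, nm y < 1) {cE : k → AddMonoid.End M}
    (hc0 : cE 0 = 0) (hc1 : cE 1 = 1)
    (hcnm : ∀ a y, nm (cE a y) ≤ nm y)
    (hdef : ∀ a b y, ∃ w, nm w ≤ nm y ∧ cE (a + b) y = cE a y + cE b y + p • w)
    (θ : M →+ C) (hθ0 : ∃ y, θ y ≠ 0)
    (hθB : ∀ s : ℝ, s < 1 → ∃ Bd : ℝ, ∀ y, nm y ≤ s → ‖θ y‖ ≤ Bd) :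
    ∃ J < n, ∃ y, thetaN κ t cE θ (p ^ J) y ≠ 0 := by
  by_contra hcon
  push Not at hcon
  obtain ⟨y, hy⟩ := hθ0
  obtain ⟨Bd, hBd⟩ := hθB (nm y) (hnm1 y)
  have hBd' : ∀ y', nm y' ≤ nm y → ‖θ y'‖ ≤ max Bd 0 := fun y' hy' =>
    (hBd y' hy').trans (le_max_left _ _)
  have hall : ∀ j : ℕ, ∀ y', nm y' ≤ nm y → ‖θ y'‖ ≤ ‖(p : C)‖ ^ j * max Bd 0 := by
    intro j
    induction j with
    | zero => simpa using hBd'
    | succ j ih =>
      intro y' hy'
      have := theta_improve hn hk hρt hker hκ hp1 hc0 hc1 hcnm hdef θ hcon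
        (mul_nonneg (pow_nonneg (norm_nonneg _) j) (le_max_right Bd 0)) ih hy'
      calc ‖θ y'‖ ≤ ‖(p : C)‖ * (‖(p : C)‖ ^ j * max Bd 0) := this
        _ = ‖(p : C)‖ ^ (j + 1) * max Bd 0 := by ring
  have hlim : Filter.Tendsto (fun j : ℕ => ‖(p : C)‖ ^ j * max Bd 0) Filter.atTop (nhds 0) := by
    have := (tendsto_pow_atTop_nhds_zero_of_lt_one (norm_nonneg (p : C)) hp1).mul_const (max Bd 0)
    simpa using this
  have h0 : ‖θ y‖ ≤ 0 := ge_of_tendsto' hlim (fun j => hall j y le_rfl)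
  exact hy (norm_le_zero_iff.1 h0)

end Improve

section Frob

variable {k : Type*} [Field k] [Fintype k] [DecidableEq k] {p n : ℕ} [Fact p.Prime] [CharP k p]

lemma nat_pow_not_modEq (hp : 2 ≤ p) {z z' : ℕ} (hzz : z < z') (hz' : z' < n) :
    ¬ p ^ z ≡ p ^ z' [MOD (p ^ n - 1)] := by
  intro h
  have h1 : p ^ z < p ^ z' := Nat.pow_lt_pow_right (by omega) hzz
  have h2 : p ^ n - 1 ∣ p ^ z' - p ^ z := (Nat.modEq_iff_dvd' h1.le).1 h
  have h3 := Nat.le_of_dvd (by omega) h2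
  have h4 : p ^ z' * 2 ≤ p ^ n := by
    calc p ^ z' * 2 ≤ p ^ z' * p := Nat.mul_le_mul_left _ hp
      _ = p ^ (z' + 1) := (pow_succ _ _).symm
      _ ≤ p ^ n := Nat.pow_le_pow_right (by omega) hz'
  have h5 : 1 ≤ p ^ z := Nat.one_le_pow _ _ (by omega)
  omega

lemma exists_unit_pow_ne (hk : Fintype.card k = p ^ n) {z z' : ℕ} (hz : z < n) (hz' : z' < n)
    (hne : z ≠ z') (J : ℕ) : ∃ e : kˣ, (e : k) ^ (p ^ (z + J)) ≠ (e : k) ^ (p ^ (z' + J)) := by
  obtain ⟨g, hg⟩ := IsCyclic.exists_generator (α := kˣ)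
  refine ⟨g, fun h => ?_⟩
  have hp : 2 ≤ p := (Fact.out : p.Prime).two_le
  have h1 : ((g : k) ^ (p ^ z)) ^ (p ^ J) = ((g : k) ^ (p ^ z')) ^ (p ^ J) := by
    rw [← pow_mul, ← pow_mul, ← pow_add, ← pow_add]; exact h
  have h2 : (g : k) ^ (p ^ z) = (g : k) ^ (p ^ z') := by
    have : ExpChar k p := ExpChar.prime Fact.out
    apply (iterateFrobenius k p J).injective
    simpa [iterateFrobenius_def] using h1
  have h3 : g ^ (p ^ z) = g ^ (p ^ z') := by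
    apply Units.ext
    simpa using h2
  have h4 := (pow_eq_pow_iff_modEq).1 h3
  have h5 : orderOf g = p ^ n - 1 := by
    rw [orderOf_eq_card_of_forall_mem_zpowers hg, Nat.card_eq_fintype_card, Fintype.card_units, hk]
  rw [h5] at h4
  rcases lt_or_gt_of_ne hne with hlt | hgt
  · exact nat_pow_not_modEq hp hlt hz' h4
  · exact nat_pow_not_modEq hp hgt hz h4.symm

end Frob

section Span

lemma exists_fin_li {n : ℕ} {C X : Type*} [Field C] (vec : X → Fin n → C)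
    (h : Submodule.span C (Set.range vec) = ⊤) :
    ∃ y : Fin n → X, LinearIndependent C (fun b => vec (y b)) := by
  obtain ⟨κ', a, ha, hspan, hli⟩ := exists_linearIndependent' C vec
  have hsp : ⊤ ≤ Submodule.span C (Set.range (vec ∘ a)) := by rw [hspan, h]
  let e := Module.Basis.mk hli hsp
  have : Finite κ' := Module.Finite.finite_basis e
  have : Fintype κ' := Fintype.ofFinite κ'
  have hcard : Fintype.card κ' = n := by
    have := Module.finrank_eq_card_basis e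
    rw [Module.finrank_fin_fun] at this
    exact this.symm
  let eq : Fin n ≃ κ' := (Fintype.equivFinOfCardEq hcard).symm
  refine ⟨a ∘ eq, ?_⟩
  exact hli.comp eq eq.injective

lemma span_eq_top_of_indep {n : ℕ} {C X : Type*} [Field C] (vec : X → Fin n → C)
    (h : ∀ lam : Fin n → C, (∀ y, ∑ z, lam z * vec y z = 0) → lam = 0) :
    Submodule.span C (Set.range vec) = ⊤ := by
  classical
  by_contra hne
  obtain ⟨f, hf, hle⟩ := Submodule.exists_le_ker_of_lt_top _ (lt_top_iff_ne_top.2 hne)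
  apply hf
  have hlam := h (fun z => f (fun j => if z = j then 1 else 0)) (by
    intro y
    have h1 : f (vec y) = 0 := hle (Submodule.subset_span ⟨y, rfl⟩)
    rw [LinearMap.pi_apply_eq_sum_univ f (vec y)] at h1
    refine (Finset.sum_congr rfl (fun z _ => ?_)).trans h1
    rw [smul_eq_mul, mul_comm])
  apply LinearMap.ext
  intro x
  rw [LinearMap.pi_apply_eq_sum_univ f x, LinearMap.zero_apply]
  refine Finset.sum_eq_zero (fun z _ => ?_)
  have := congrFun hlam z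
  simp only [Pi.zero_apply] at this
  rw [this, smul_zero]

end Span

section Assemble

variable {M : Type*} [AddCommGroup M] {C : Type*} [NormedField C] [IsUltrametricDist C]
  {k : Type*} [Field k] [Fintype k] [DecidableEq k] {B : Type*} [CommRing B]

lemma phi_pow_cE {p : ℕ} {Φ : AddMonoid.End M} {cE : k → AddMonoid.End M}
    (hΦc : ∀ a, Φ * cE a = cE (a ^ p) * Φ) (z : ℕ) (a : k) :
    Φ ^ z * cE a = cE (a ^ (p ^ z)) * Φ ^ z := by
  induction z generalizing a with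
  | zero => simp
  | succ z ih =>
    rw [pow_succ, mul_assoc, hΦc, ← mul_assoc, ih, ← pow_mul, ← pow_succ', mul_assoc]

lemma phi_surj {p n : ℕ} (hn : 1 ≤ n) {Φ : AddMonoid.End M}
    (hΦn : Φ ^ n = p • (1 : AddMonoid.End M)) (hpsurj : ∀ y : M, ∃ y' : M, p • y' = y)
    (z : ℕ) (y : M) : ∃ y' : M, (Φ ^ z) y' = y := by
  have hΦ : ∀ y : M, ∃ y' : M, Φ y' = y := by
    intro y
    obtain ⟨y', hy'⟩ := hpsurj y
    refine ⟨(Φ ^ (n - 1)) y', ?_⟩
    have h1 : Φ * Φ ^ (n - 1) = p • (1 : AddMonoid.End M) := by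
      rw [← pow_succ', Nat.sub_add_cancel hn, hΦn]
    have h2 : (Φ * Φ ^ (n - 1)) y' = (p • (1 : AddMonoid.End M)) y' := by rw [h1]
    calc Φ ((Φ ^ (n - 1)) y') = (Φ * Φ ^ (n - 1)) y' := rfl
      _ = (p • (1 : AddMonoid.End M)) y' := h2
      _ = p • y' := by simp
      _ = y := hy'
  induction z generalizing y with
  | zero => exact ⟨y, by simp⟩
  | succ z ih =>
    obtain ⟨y1, hy1⟩ := hΦ y
    obtain ⟨y2, hy2⟩ := ih y1
    refine ⟨y2, ?_⟩
    rw [pow_succ']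
    change Φ ((Φ ^ z) y2) = y
    rw [hy2, hy1]

end Assemble

section Assemble2

variable {M : Type*} [AddCommGroup M] {C : Type*} [NormedField C] [IsUltrametricDist C]
  {k : Type*} [Field k] [Fintype k] [DecidableEq k] {B : Type*} [CommRing B]

/-- The characters `e ↦ ι e ^ (p ^ (z + J))`. -/
noncomputable def charZ (κ : B →+* C) (t : k →* B) (p J : ℕ) (z : ℕ) : kˣ →* C where
  toFun e := κ (t (e : k)) ^ (p ^ (z + J))
  map_one' := by simp
  map_mul' a b := by simp [mul_pow]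

lemma charZ_injective {p n J : ℕ} [Fact p.Prime] [CharP k p] (hk : Fintype.card k = p ^ n)
    {ρ₀ : B →+* k} {t : k →* B} {κ : B →+* C}
    (hρt : ∀ d, ρ₀ (t d) = d) (hker : ∀ a, ρ₀ a = 0 → ∃ b, a = (p : B) * b)
    (hκ : ∀ a, ‖κ a‖ ≤ 1) (hp1 : ‖(p : C)‖ < 1) :
    Function.Injective (fun z : Fin n => charZ κ t p J (z : ℕ)) := by
  intro z z' h
  by_contra hne
  have hne' : (z : ℕ) ≠ (z' : ℕ) := fun h' => hne (Fin.ext h')
  obtain ⟨e, he⟩ := exists_unit_pow_ne (k := k) hk z.2 z'.2 hne' J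
  have h1 := kappa_t_ne (p := p) hρt hker hκ hp1 he
  apply h1
  have h2 := DFunLike.congr_fun h e
  simp only [charZ, MonoidHom.coe_mk, OneHom.coe_mk] at h2
  rw [map_pow, map_pow, map_pow, map_pow]
  exact h2

lemma psi_indep {p n J : ℕ} [Fact p.Prime] [CharP k p] (hn : 1 ≤ n)
    (hk : Fintype.card k = p ^ n)
    {ρ₀ : B →+* k} {t : k →* B} {κ : B →+* C}
    (hρt : ∀ d, ρ₀ (t d) = d) (hker : ∀ a, ρ₀ a = 0 → ∃ b, a = (p : B) * b)
    (hκ : ∀ a, ‖κ a‖ ≤ 1) (hp1 : ‖(p : C)‖ < 1)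
    {cE : k → AddMonoid.End M} {Φ : AddMonoid.End M}
    (hcmul : ∀ a b, cE (a * b) = cE a * cE b)
    (hΦc : ∀ a, Φ * cE a = cE (a ^ p) * Φ) (hΦn : Φ ^ n = p • (1 : AddMonoid.End M))
    (hpsurj : ∀ y : M, ∃ y' : M, p • y' = y)
    (θ : M →+ C) (hJ : ∃ y, thetaN κ t cE θ (p ^ J) y ≠ 0)
    (lam : Fin n → C)
    (hlam : ∀ y, ∑ z : Fin n, lam z * thetaN κ t cE θ (p ^ J) ((Φ ^ (z : ℕ)) y) = 0) :
    lam = 0 := by
  funext z0
  obtain ⟨y1, hy1⟩ := hJ
  obtain ⟨y0, hy0⟩ := phi_surj (p := p) hn hΦn hpsurj (z0 : ℕ) y1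
  have hψ : thetaN κ t cE θ (p ^ J) ((Φ ^ (z0 : ℕ)) y0) ≠ 0 := by rwa [hy0]
  have hcov : ∀ (z : ℕ) (e : kˣ), thetaN κ t cE θ (p ^ J) ((Φ ^ z) (cE (e : k) y0))
      = charZ κ t p J z e * thetaN κ t cE θ (p ^ J) ((Φ ^ z) y0) := by
    intro z e
    have h1 : (Φ ^ z) (cE (e : k) y0) = cE ((e ^ (p ^ z) : kˣ) : k) ((Φ ^ z) y0) := by
      have h2 := phi_pow_cE hΦc z (e : k)
      have h3 : (Φ ^ z * cE (e : k)) y0 = (cE ((e : k) ^ (p ^ z)) * Φ ^ z) y0 := by rw [h2]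
      rw [Units.val_pow_eq_pow_val]
      exact h3
    rw [h1, thetaN_cE κ t cE θ hcmul]
    congr 1
    simp only [charZ, MonoidHom.coe_mk, OneHom.coe_mk, Units.val_pow_eq_pow_val, map_pow]
    rw [← pow_mul, pow_add, mul_comm]
  have hli : LinearIndependent C (fun z : Fin n => (charZ κ t p J (z : ℕ) : kˣ → C)) :=
    (linearIndependent_monoidHom kˣ C).comp _ (charZ_injective (n := n) (J := J) hk hρt hker hκ hp1)
  rw [Fintype.linearIndependent_iff] at hli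
  have h4 := hli (fun z => lam z * thetaN κ t cE θ (p ^ J) ((Φ ^ (z : ℕ)) y0)) (by
    funext e
    have h5 := hlam (cE (e : k) y0)
    simp only [Finset.sum_apply, Pi.smul_apply, smul_eq_mul, Pi.zero_apply]
    rw [← h5]
    refine Finset.sum_congr rfl (fun z _ => ?_)
    rw [hcov]
    ring) z0
  simp only [Pi.zero_apply]
  exact (mul_eq_zero.1 h4).resolve_right hψ

end Assemble2

end ZFourierAux


theorem fourier_independent {M : Type*} [AddCommGroup M] {C : Type*} [NormedField C] [IsUltrametricDist C]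
    {p n : ℕ} [Fact p.Prime] (hn : 1 ≤ n) {k : Type*} [Field k] [Fintype k] [CharP k p] (hk : Fintype.card k = p ^ n)
    {B : Type*} [CommRing B] (ρ₀ : B →+* k) (t : k →* B) (hρt : ∀ d, ρ₀ (t d) = d)
    (hker : ∀ a, ρ₀ a = 0 → ∃ b, a = (p : B) * b) (κ : B →+* C) (hκ : ∀ a, ‖κ a‖ ≤ 1)
    (hp0 : (p : C) ≠ 0) (hp1 : ‖(p : C)‖ < 1)
    (nm : M → ℝ) (hnm1 : ∀ y, nm y < 1)
    (cE : k → AddMonoid.End M) (Φ : AddMonoid.End M)
    (hc0 : cE 0 = 0) (hc1 : cE 1 = 1) (hcmul : ∀ a b, cE (a * b) = cE a * cE b)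
    (hΦc : ∀ a, Φ * cE a = cE (a ^ p) * Φ) (hΦn : Φ ^ n = p • (1 : AddMonoid.End M))
    (hpsurj : ∀ y : M, ∃ y' : M, p • y' = y)
    (hcnm : ∀ a y, nm (cE a y) ≤ nm y)
    (hdef : ∀ a b y, ∃ w, nm w ≤ nm y ∧ cE (a + b) y = cE a y + cE b y + p • w)
    (θ : M →+ C) (hθ0 : ∃ y, θ y ≠ 0) (hθB : ∀ s : ℝ, s < 1 → ∃ Bd : ℝ, ∀ y, nm y ≤ s → ‖θ y‖ ≤ Bd) :
    ∃ y : Fin n → M, ∀ ρ : Fin n → C,
      (∀ d : k, ∀ z : ℕ, ∑ b, ρ b * θ ((cE d * Φ ^ z) (y b)) = 0) → ρ = 0 := by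
  classical
  let _ : Algebra (ZMod p) k := ZMod.algebra k p
  obtain ⟨J, -, hJ⟩ := ZFourierAux.exists_nonzero_component hn hk hρt hker hκ hp1 hnm1 hc0 hc1
    hcnm hdef θ hθ0 hθB
  let vec : M → Fin n → C := fun y z => ZFourierAux.thetaN κ t cE θ (p ^ J) ((Φ ^ (z : ℕ)) y)
  have hspan : Submodule.span C (Set.range vec) = ⊤ :=
    ZFourierAux.span_eq_top_of_indep vec (fun lam hlam =>
      ZFourierAux.psi_indep hn hk hρt hker hκ hp1 hcmul hΦc hΦn hpsurj θ hJ lam hlam)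
  obtain ⟨y, hy⟩ := ZFourierAux.exists_fin_li vec hspan
  refine ⟨y, fun ρ hρ => ?_⟩
  rw [Fintype.linearIndependent_iff] at hy
  funext b
  refine hy ρ ?_ b
  funext z
  simp only [Finset.sum_apply, Pi.smul_apply, smul_eq_mul, Pi.zero_apply, vec]
  unfold ZFourierAux.thetaN
  calc ∑ b, ρ b * ∑ u : kˣ, κ (t ((u⁻¹ : kˣ) : k)) ^ (p ^ J) *
          θ (cE (u : k) ((Φ ^ (z : ℕ)) (y b)))
      = ∑ u : kˣ, κ (t ((u⁻¹ : kˣ) : k)) ^ (p ^ J) *
          ∑ b, ρ b * θ ((cE (u : k) * Φ ^ (z : ℕ)) (y b)) := by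
        simp only [Finset.mul_sum]
        rw [Finset.sum_comm]
        refine Finset.sum_congr rfl (fun u _ => Finset.sum_congr rfl (fun b _ => ?_))
        change _ = κ (t ((u⁻¹ : kˣ) : k)) ^ (p ^ J) *
          (ρ b * θ (cE (u : k) ((Φ ^ (z : ℕ)) (y b))))
        ring
    _ = 0 := by
        refine Finset.sum_eq_zero (fun u _ => ?_)
        rw [hρ (u : k) (z : ℕ), mul_zero]

end Vale.Agent.Lib.P217
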