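import Vale.Agent.Lib.P217.CharPSeries
import Vale.Agent.Lib.P217.HIter

set_option linter.unusedSectionVars false
set_option linter.unusedVariables false

/-!
Facts on homomorphisms of formal groups over a field of characteristic `p`.
-/

namespace Vale.Agent.Lib.P217

open PowerSeries

section aux

variable {R : Type*} [CommRing R]

open MvPowerSeries in
/-- Chain rule for a one-variable series. -/
lemma pderiv_psubst_aux {τ : Type*} (b : MvPowerSeries τ R) (hb : constantCoeff b = 0)
    (f : PowerSeries R) (i : τ) :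
    pderiv R i (PowerSeries.subst b f) =
      PowerSeries.subst b (PowerSeries.derivative R f) * pderiv R i b := by
  have h := pderiv_subst (fun _ : Unit => b) (fun _ => hb) f i
  simp only [Finset.univ_unique, Finset.sum_singleton] at h
  exact h

/-- Substituting `X` does nothing. -/
lemma psubst_X_self_aux (f : PowerSeries R) : PowerSeries.subst (PowerSeries.X : PowerSeries R) f = f := by
  ext n
  have h : PowerSeries.coeff n (PowerSeries.subst (PowerSeries.X ^ 1 : PowerSeries R) f) = _ :=
    PowerSeries.coeff_subst_X_pow (k := 1) one_ne_zero f n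
  simp

open MvPowerSeries in
/-- The series `F₂(X, 0)` is a unit. -/
lemma isUnit_subst_pderiv_aux (F : FormalGroup R) :
    IsUnit (MvPowerSeries.subst ![(PowerSeries.X : MvPowerSeries Unit R), 0]
      (MvPowerSeries.pderiv R 1 F.toPowerSeries)) := by
  rw [MvPowerSeries.isUnit_iff_constantCoeff]
  have hs : MvPowerSeries.HasSubst ![(PowerSeries.X : MvPowerSeries Unit R), 0] :=
    hasSubst_pair PowerSeries.constantCoeff_X (by simp)
  set G := MvPowerSeries.pderiv R 1 F.toPowerSeries with hG
  have h1 : MvPowerSeries.constantCoeff G = 1 := by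
    rw [← MvPowerSeries.coeff_zero_eq_constantCoeff_apply, hG, MvPowerSeries.coeff_pderiv]
    simp [F.lin_coeff_Y]
  have h2 : G = MvPowerSeries.C 1 + (G - MvPowerSeries.C 1) := by ring
  have h3 : MvPowerSeries.constantCoeff (G - MvPowerSeries.C 1) = 0 := by
    simp [h1]
  have h4 : MvPowerSeries.constantCoeff (MvPowerSeries.subst
      ![(PowerSeries.X : MvPowerSeries Unit R), 0] (G - MvPowerSeries.C 1)) = 0 :=
    MvPowerSeries.constantCoeff_subst_eq_zero hs (by
      intro s; fin_cases s
      · exact PowerSeries.constantCoeff_X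
      · simp) h3
  have h5 : MvPowerSeries.subst ![(PowerSeries.X : MvPowerSeries Unit R), 0] G =
      MvPowerSeries.C 1 + MvPowerSeries.subst ![(PowerSeries.X : MvPowerSeries Unit R), 0]
        (G - MvPowerSeries.C 1) := by
    conv_lhs => rw [h2]
    rw [MvPowerSeries.subst_add hs, MvPowerSeries.subst_C]
  rw [h5, map_add, h4, add_zero]
  simp

/-- A homomorphism with zero linear coefficient has zero derivative. -/
lemma derivative_eq_zero_of_isHom {F G : FormalGroup R} {f : PowerSeries R} (hf : IsHom F G f)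
    (h1 : PowerSeries.coeff 1 f = 0) : PowerSeries.derivative R f = 0 := by
  classical
  set f' := PowerSeries.derivative R f with hf'
  have hf'0 : PowerSeries.constantCoeff f' = 0 := by
    have h := PowerSeries.coeff_derivative f 0
    have h2 : PowerSeries.coeff 0 f' = PowerSeries.constantCoeff f' := by simp
    rw [← h2, hf', h, h1]
    simp
  have c0 : MvPowerSeries.constantCoeff (MvPowerSeries.X 0 : MvPowerSeries (Fin 2) R) = 0 := by simp
  have c1 : MvPowerSeries.constantCoeff (MvPowerSeries.X 1 : MvPowerSeries (Fin 2) R) = 0 := by simp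
  have hX0 : PowerSeries.HasSubst (MvPowerSeries.X 0 : MvPowerSeries (Fin 2) R) :=
    PowerSeries.HasSubst.X 0
  have hX1 : PowerSeries.HasSubst (MvPowerSeries.X 1 : MvPowerSeries (Fin 2) R) :=
    PowerSeries.HasSubst.X 1
  have ca0 : MvPowerSeries.constantCoeff
      (PowerSeries.subst (MvPowerSeries.X 0 : MvPowerSeries (Fin 2) R) f) = 0 :=
    PowerSeries.constantCoeff_subst_eq_zero (by simp) f hf.constantCoeff_eq
  have ca1 : MvPowerSeries.constantCoeff
      (PowerSeries.subst (MvPowerSeries.X 1 : MvPowerSeries (Fin 2) R) f) = 0 :=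
    PowerSeries.constantCoeff_subst_eq_zero (by simp) f hf.constantCoeff_eq
  have h := congrArg (MvPowerSeries.pderiv R (1 : Fin 2)) hf.map_add
  rw [pderiv_subst_pair _ _ ca0 ca1, pderiv_psubst_aux _ c0, pderiv_psubst_aux _ c1,
    pderiv_psubst_aux _ F.zero_constantCoeff] at h
  have e0 : MvPowerSeries.pderiv R (1 : Fin 2) (MvPowerSeries.X 0 : MvPowerSeries (Fin 2) R) = 0 :=
    MvPowerSeries.pderiv_X_of_ne (by decide)
  have e1 : MvPowerSeries.pderiv R (1 : Fin 2) (MvPowerSeries.X 1 : MvPowerSeries (Fin 2) R) = 1 :=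
    MvPowerSeries.pderiv_X_self
  simp only [e0, e1, mul_zero, zero_add, mul_one] at h
  -- set `X₀ = X`, `X₁ = 0`
  have hs : MvPowerSeries.HasSubst ![(PowerSeries.X : MvPowerSeries Unit R), 0] :=
    hasSubst_pair PowerSeries.constantCoeff_X (by simp)
  have h2 := congrArg (MvPowerSeries.subst ![(PowerSeries.X : MvPowerSeries Unit R), 0]) h
  rw [MvPowerSeries.subst_mul hs, MvPowerSeries.subst_mul hs] at h2
  have key : ∀ (a : MvPowerSeries (Fin 2) R) (g : PowerSeries R), PowerSeries.HasSubst a →
      MvPowerSeries.subst ![(PowerSeries.X : MvPowerSeries Unit R), 0] (PowerSeries.subst a g) =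
        PowerSeries.subst
          (MvPowerSeries.subst ![(PowerSeries.X : MvPowerSeries Unit R), 0] a) g := by
    intro a g ha
    exact MvPowerSeries.subst_comp_subst_apply (PowerSeries.HasSubst.const ha) hs g
  have hF : PowerSeries.HasSubst F.toPowerSeries :=
    PowerSeries.HasSubst.of_constantCoeff_zero F.zero_constantCoeff
  rw [key _ _ hX1, key _ _ hF, MvPowerSeries.subst_X hs] at h2
  have e3 : MvPowerSeries.subst ![(PowerSeries.X : MvPowerSeries Unit R), 0] F.toPowerSeries =
      (PowerSeries.X : MvPowerSeries Unit R) :=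
    F.add_zero (PowerSeries.HasSubst.X' (R := R))
  rw [e3] at h2
  have e4 : PowerSeries.subst ((![(PowerSeries.X : MvPowerSeries Unit R), 0] : Fin 2 → _) 1) f' =
      (0 : MvPowerSeries Unit R) := by
    have : (![(PowerSeries.X : MvPowerSeries Unit R), 0] : Fin 2 → _) 1 = 0 := rfl
    rw [this]
    exact PowerSeries.subst_zero_of_constantCoeff_zero hf'0
  rw [e4, mul_zero] at h2
  have e5 : PowerSeries.subst (PowerSeries.X : MvPowerSeries Unit R) f' = f' :=
    psubst_X_self_aux f'
  rw [e5] at h2
  exact ((isUnit_subst_pderiv_aux F).mul_left_eq_zero).mp h2.symm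

end aux

section field

variable {p : ℕ} [hp : Fact p.Prime] {k : Type*} [Field k] [CharP k p]
variable {Γ : FormalGroup k}

/-- Coefficients at exponents prime to `p` vanish when the derivative does. -/
lemma coeff_eq_zero_of_derivative {f : PowerSeries k} (hd : PowerSeries.derivative k f = 0)
    (j : ℕ) (hj : ¬ p ∣ j) : PowerSeries.coeff j f = 0 := by
  obtain ⟨n, rfl⟩ : ∃ n, j = n + 1 := by
    cases j with
    | zero => exact absurd (dvd_zero p) hj
    | succ n => exact ⟨n, rfl⟩
  have h6 := PowerSeries.coeff_derivative f n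
  rw [hd, map_zero] at h6
  have hne : ((n + 1 : ℕ) : k) ≠ 0 := by
    intro h0
    exact hj ((CharP.cast_eq_zero_iff k p (n + 1)).mp h0)
  have h7 : PowerSeries.coeff (n + 1) f * ((n + 1 : ℕ) : k) = 0 := by
    rw [Nat.cast_succ]; exact h6.symm
  exact (mul_eq_zero.mp h7).resolve_right hne

/-- A series with exponents multiple of `p` is a series in `X ^ p`. -/
lemma exists_subst_X_pow {f : PowerSeries k} (h : ∀ j, ¬ p ∣ j → PowerSeries.coeff j f = 0) :
    ∃ f₁ : PowerSeries k, (∀ j, PowerSeries.coeff j f₁ = PowerSeries.coeff (p * j) f) ∧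
      f = PowerSeries.subst (X ^ p : PowerSeries k) f₁ := by
  have hp0 : p ≠ 0 := hp.out.ne_zero
  refine ⟨PowerSeries.mk fun j => PowerSeries.coeff (p * j) f, by simp, ?_⟩
  ext j
  rw [PowerSeries.coeff_subst_X_pow hp0]
  split_ifs with hd
  · simp only [PowerSeries.coeff_mk]
    rw [Nat.mul_div_cancel' hd]
    simp
  · exact h j hd

/-- A homomorphism with zero linear coefficient factors through the Frobenius.

Proof. `f'` vanishes: apply `pderiv 1` to `Γ(f(X₀), f(X₁)) = f(Γ(X₀, X₁))`, then set `X₁ = 0`, `X₀ = X`. By the chain rule (see `pderiv_subst`, `deriv_mulSeries`, `star_one` in `CharPSeries.lean`), this gives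
`Γ₂(f(X), 0) * f'(0) = f'(X) * Γ₂(X, 0)`, and `Γ₂(X, 0)` has constant coefficient `1`, so is a unit. Hence `f'(X) = 0` as `f'(0) = coeff 1 f = 0`.
So `coeff j f = 0` for all `j` prime to `p`: `f = f₁(X ^ p)`, where `coeff j f₁ = coeff (p * j) f`.
`f₁` is a homomorphism: `Γ(f₁(X₀ ^ p), f₁(X₁ ^ p)) = f₁(Γ(X₀, X₁) ^ p) = f₁(Γ(X₀ ^ p, X₁ ^ p))` by `hfr`. The map `a ↦ a(X₀ ^ p, X₁ ^ p)` is injective on series (coefficients are preserved; see `MvPowerSeries.expand`), so
`Γ(f₁(X₀), f₁(X₁)) = f₁(Γ(X₀, X₁))`. -/
theorem hom_factor_frob [Γ.IsComm] (hfr : IsHom Γ Γ (X ^ p)) {f : PowerSeries k} (hf : IsHom Γ Γ f) (h1 : coeff 1 f = 0) :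
    ∃ f₁, IsHom Γ Γ f₁ ∧ f = PowerSeries.subst (X ^ p : PowerSeries k) f₁ := by
  have hp0 : p ≠ 0 := hp.out.ne_zero
  have hd := derivative_eq_zero_of_isHom hf h1
  obtain ⟨f₁, hc, hff⟩ := exists_subst_X_pow (f := f) (p := p) (coeff_eq_zero_of_derivative (p := p) hd)
  refine ⟨f₁, ?_, hff⟩
  have hf₁0 : PowerSeries.constantCoeff f₁ = 0 := by
    have := hc 0
    simp only [mul_zero, PowerSeries.coeff_zero_eq_constantCoeff] at this
    simpa [hf.constantCoeff_eq] using this
  refine ⟨hf₁0, ?_⟩
  -- the expansion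
  set E := MvPowerSeries.expand (σ := Fin 2) (R := k) p hp0 with hE
  have hEs : MvPowerSeries.HasSubst (fun i : Fin 2 => (MvPowerSeries.X i : MvPowerSeries (Fin 2) k) ^ p) :=
    MvPowerSeries.HasSubst.X_pow hp0
  have hEapp : ∀ a : MvPowerSeries (Fin 2) k, E a = MvPowerSeries.subst
      (fun i : Fin 2 => (MvPowerSeries.X i : MvPowerSeries (Fin 2) k) ^ p) a := by
    intro a; simp [hE, MvPowerSeries.expand, MvPowerSeries.substAlgHom_apply]
  have hinj : Function.Injective E := by
    intro a b hab
    ext m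
    rw [← MvPowerSeries.coeff_expand_smul p hp0 a m, ← MvPowerSeries.coeff_expand_smul p hp0 b m]
    exact congrArg _ hab
  apply hinj
  have hXk0 : ∀ i : Fin 2, PowerSeries.HasSubst (MvPowerSeries.X i : MvPowerSeries (Fin 2) k) :=
    fun i => PowerSeries.HasSubst.X i
  have hc0 : ∀ i : Fin 2, MvPowerSeries.constantCoeff
      (PowerSeries.subst (MvPowerSeries.X i : MvPowerSeries (Fin 2) k) f₁) = 0 := by
    intro i
    exact PowerSeries.constantCoeff_subst_eq_zero (by simp) f₁ hf₁0
  have hpair : MvPowerSeries.HasSubst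
      ![PowerSeries.subst (MvPowerSeries.X 0 : MvPowerSeries (Fin 2) k) f₁,
        PowerSeries.subst (MvPowerSeries.X 1 : MvPowerSeries (Fin 2) k) f₁] :=
    hasSubst_pair (hc0 0) (hc0 1)
  have hXp : PowerSeries.HasSubst (X ^ p : PowerSeries k) := PowerSeries.HasSubst.X_pow hp0
  -- `E (f₁ (a)) = f₁ (E a)`
  have key : ∀ (a : MvPowerSeries (Fin 2) k), PowerSeries.HasSubst a →
      E (PowerSeries.subst a f₁) = PowerSeries.subst (E a) f₁ := by
    intro a ha
    rw [hEapp, hEapp]
    exact MvPowerSeries.subst_comp_subst_apply (PowerSeries.HasSubst.const ha) hEs f₁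
  have hXi : ∀ i : Fin 2, E (MvPowerSeries.X i) = (MvPowerSeries.X i : MvPowerSeries (Fin 2) k) ^ p := by
    intro i; simp [hE]
  -- `f (a) = f₁ (a ^ p)`
  have hfa : ∀ (a : MvPowerSeries (Fin 2) k), PowerSeries.HasSubst a →
      PowerSeries.subst a f = PowerSeries.subst (a ^ p) f₁ := by
    intro a ha
    conv_lhs => rw [hff]
    rw [PowerSeries.subst_comp_subst_apply hXp ha, PowerSeries.subst_pow ha, PowerSeries.subst_X ha]
  have hFs : PowerSeries.HasSubst Γ.toPowerSeries :=
    PowerSeries.HasSubst.of_constantCoeff_zero Γ.zero_constantCoeff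
  -- the Frobenius relation
  have hFr : MvPowerSeries.subst ![(MvPowerSeries.X 0 : MvPowerSeries (Fin 2) k) ^ p,
      (MvPowerSeries.X 1 : MvPowerSeries (Fin 2) k) ^ p] Γ.toPowerSeries = Γ.toPowerSeries ^ p := by
    have h := hfr.map_add
    rw [PowerSeries.subst_pow (hXk0 0), PowerSeries.subst_pow (hXk0 1), PowerSeries.subst_pow hFs,
      PowerSeries.subst_X (hXk0 0), PowerSeries.subst_X (hXk0 1), PowerSeries.subst_X hFs] at h
    exact h
  have hadd := hf.map_add
  rw [hfa _ (hXk0 0), hfa _ (hXk0 1), hfa _ hFs, ← hFr] at hadd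
  -- compute the two sides
  have hL : E (MvPowerSeries.subst
      ![PowerSeries.subst (MvPowerSeries.X 0 : MvPowerSeries (Fin 2) k) f₁,
        PowerSeries.subst (MvPowerSeries.X 1 : MvPowerSeries (Fin 2) k) f₁] Γ.toPowerSeries) =
      MvPowerSeries.subst
        ![PowerSeries.subst ((MvPowerSeries.X 0 : MvPowerSeries (Fin 2) k) ^ p) f₁,
          PowerSeries.subst ((MvPowerSeries.X 1 : MvPowerSeries (Fin 2) k) ^ p) f₁] Γ.toPowerSeries := by
    rw [hEapp, MvPowerSeries.subst_comp_subst_apply hpair hEs]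
    congr 1
    funext s
    fin_cases s
    · show MvPowerSeries.subst _ (PowerSeries.subst (MvPowerSeries.X 0 : MvPowerSeries (Fin 2) k) f₁) = _
      rw [← hEapp, key _ (hXk0 0), hXi]
      rfl
    · show MvPowerSeries.subst _ (PowerSeries.subst (MvPowerSeries.X 1 : MvPowerSeries (Fin 2) k) f₁) = _
      rw [← hEapp, key _ (hXk0 1), hXi]
      rfl
  have hR : E (PowerSeries.subst Γ.toPowerSeries f₁) =
      PowerSeries.subst (MvPowerSeries.subst ![(MvPowerSeries.X 0 : MvPowerSeries (Fin 2) k) ^ p,
        (MvPowerSeries.X 1 : MvPowerSeries (Fin 2) k) ^ p] Γ.toPowerSeries) f₁ := by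
    rw [key _ hFs, hEapp]
    congr 2
    funext s
    fin_cases s <;> rfl
  rw [hL, hR]
  exact hadd

/-- A homomorphism with zero linear coefficient, with nonzero coefficients in degrees congruent to `1` modulo `p ^ n - 1` only, factors through `X ^ (p ^ n)`.

Proof. By induction on `w ≤ n`, `f = f_w(X ^ (p ^ w))` with `f_w` a homomorphism. For `w < n`: `coeff 1 f_w = coeff (p ^ w) f` vanishes: for `w = 0` this is `h1` and for `0 < w < n`, `p ^ w` is not congruent to `1` modulo `p ^ n - 1`
since `1 < p ^ w < p ^ n - 1`. So `hom_factor_frob` applies. -/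
theorem hom_factor_q [Γ.IsComm] {n : ℕ} (hn : 1 ≤ n) (hfr : IsHom Γ Γ (X ^ p)) {f : PowerSeries k} (hf : IsHom Γ Γ f) (h1 : coeff 1 f = 0)
    (hsup : ∀ j, coeff j f ≠ 0 → j % (p ^ n - 1) = 1 % (p ^ n - 1)) :
    ∃ e, IsHom Γ Γ e ∧ f = PowerSeries.subst (X ^ (p ^ n) : PowerSeries k) e := by
  have hp2 : 2 ≤ p := hp.out.two_le
  have hpos : 0 < p := by omega
  have main : ∀ w, w ≤ n → ∃ e, IsHom Γ Γ e ∧ f = PowerSeries.subst (X ^ (p ^ w) : PowerSeries k) e := by
    intro w
    induction w with
    | zero =>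
      intro _
      refine ⟨f, hf, ?_⟩
      have : (X ^ (p ^ 0) : PowerSeries k) = X := by simp
      rw [this]
      exact (psubst_X_self_aux f).symm
    | succ w ih =>
      intro hw
      obtain ⟨e, he, hfe⟩ := ih (by omega)
      have hpw : p ^ w ≠ 0 := (Nat.pow_pos hpos).ne'
      have hc : coeff 1 e = coeff (p ^ w) f := by
        conv_rhs => rw [hfe]
        rw [PowerSeries.coeff_subst_X_pow hpw, if_pos dvd_rfl, Nat.div_self (Nat.pow_pos hpos)]
        simp
      have h10 : coeff 1 e = 0 := by
        rw [hc]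
        rcases Nat.eq_zero_or_pos w with rfl | hwpos
        · simpa using h1
        · by_contra hne
          have hm := hsup _ hne
          -- `1 < p ^ w < p ^ n - 1`
          have a1 : p ^ 1 ≤ p ^ w := Nat.pow_le_pow_right hpos hwpos
          have a2 : p ^ (w + 1) ≤ p ^ n := Nat.pow_le_pow_right hpos hw
          have a3 : p ^ (w + 1) = p ^ w * p := pow_succ _ _
          have a4 : p ^ w * 2 ≤ p ^ w * p := Nat.mul_le_mul_left _ hp2
          have a5 : 2 ≤ p ^ w := by simpa using le_trans hp2 (by simpa using a1)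
          have a6 : p ^ w < p ^ n - 1 := by
            have : p ^ w * 2 ≤ p ^ n := by rw [a3] at a2; exact le_trans a4 a2
            omega
          have a7 : 1 < p ^ n - 1 := by omega
          rw [Nat.mod_eq_of_lt a6, Nat.mod_eq_of_lt a7] at hm
          omega
      obtain ⟨e₁, he₁, hee⟩ := hom_factor_frob (p := p) hfr he h10
      refine ⟨e₁, he₁, ?_⟩
      have hs1 : PowerSeries.HasSubst (X ^ (p ^ w) : PowerSeries k) := PowerSeries.HasSubst.X_pow hpw
      have hs2 : PowerSeries.HasSubst (X ^ p : PowerSeries k) := PowerSeries.HasSubst.X_pow (by omega)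
      rw [hfe, hee, PowerSeries.subst_comp_subst_apply hs2 hs1, PowerSeries.subst_pow hs1, PowerSeries.subst_X hs1,
        ← pow_mul, pow_succ]
  exact main n le_rfl

/-- Series commuting with a fixed series `ω`, as used below. -/
private lemma comm_add_aux {ω g h : PowerSeries k} (hω : IsHom Γ Γ ω)
    (hg : PowerSeries.constantCoeff g = 0) (hh : PowerSeries.constantCoeff h = 0)
    (h1 : PowerSeries.subst ω g = PowerSeries.subst g ω)
    (h2 : PowerSeries.subst ω h = PowerSeries.subst h ω) :
    PowerSeries.subst ω (MvPowerSeries.subst ![g, h] Γ.toPowerSeries : PowerSeries k) =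
      PowerSeries.subst (MvPowerSeries.subst ![g, h] Γ.toPowerSeries : PowerSeries k) ω := by
  have hωs : PowerSeries.HasSubst ω := PowerSeries.HasSubst.of_constantCoeff_zero' hω.constantCoeff_eq
  have hgs : PowerSeries.HasSubst g := PowerSeries.HasSubst.of_constantCoeff_zero' hg
  have hhs : PowerSeries.HasSubst h := PowerSeries.HasSubst.of_constantCoeff_zero' hh
  have hpair : MvPowerSeries.HasSubst ![g, h] := hasSubst_pair hg hh
  have e := hω.subst_add hgs hhs
  rw [← e, ← h1, ← h2]
  have hω' : MvPowerSeries.HasSubst (fun _ : Unit => ω) := PowerSeries.HasSubst.const hωs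
  rw [PowerSeries.subst, MvPowerSeries.subst_comp_subst_apply hpair hω']
  congr 1
  funext s
  fin_cases s <;> rfl

/-- The defect of additivity of the `k`-multiplications: the sum `T = [a + b] +_Γ [p - 1] ∘ ([a] +_Γ [b])` is of the form `e ∘ X ^ (p ^ n)`.

Proof. `T` is a homomorphism (`IsHom.add`, `IsHom.comp`, `IsHom.mulSeries`). `coeff 1 T = (a + b) + (p - 1) (a + b) = p (a + b) = 0` by `coeff_one_subst_pair`, `coeff_one_subst`, `coeff_one_mulSeries` (in `EndSeries.lean`; move them if necessary).
Support: let `c` be a generator of `k^×`. Then `f = T` commutes with the homomorphism `ω = C c * X`: `f(c X) = c f(X)`. Indeed `C a * X` commute with `ω`; `Γ`-sums of series commuting with `ω` commute with `ω` since `ω(Γ(f, g)) = Γ(ω f, ω g)`;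
and `[m]_Γ` commutes with `ω` (`isHom_subst_mulSeries` in `HRed.lean`, or by induction). Comparing coefficients, `c ^ j * coeff j f = c * coeff j f`, so if `coeff j f ≠ 0`, `c ^ (j - 1) = 1` (`j ≥ 1`), so `p ^ n - 1 ∣ j - 1`. Apply `hom_factor_q`. -/
theorem exists_defect_k [Γ.IsComm] [Fintype k] {n : ℕ} (hn : 1 ≤ n) (hk : Fintype.card k = p ^ n) (hfr : IsHom Γ Γ (X ^ p))
    (hω : ∀ a : k, IsHom Γ Γ (C a * X)) (a b : k) :
    ∃ e, IsHom Γ Γ e ∧ MvPowerSeries.subst ![(C (a + b) * X : PowerSeries k),
        PowerSeries.subst (MvPowerSeries.subst ![(C a * X : PowerSeries k), C b * X] Γ.toPowerSeries : PowerSeries k) (mulSeries Γ (p - 1))] Γ.toPowerSeries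
      = PowerSeries.subst (X ^ (p ^ n) : PowerSeries k) e := by
  classical
  have hp2 : 2 ≤ p := hp.out.two_le
  set g : PowerSeries k := (MvPowerSeries.subst ![(C a * X : PowerSeries k), C b * X] Γ.toPowerSeries : PowerSeries k) with hg
  have hgHom : IsHom Γ Γ g := IsHom.add (hω a) (hω b)
  have hmHom : IsHom Γ Γ (PowerSeries.subst g (mulSeries Γ (p - 1))) := hgHom.comp (IsHom.mulSeries (p - 1))
  set T : PowerSeries k := (MvPowerSeries.subst ![(C (a + b) * X : PowerSeries k),
      PowerSeries.subst g (mulSeries Γ (p - 1))] Γ.toPowerSeries : PowerSeries k) with hT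
  have hTHom : IsHom Γ Γ T := IsHom.add (hω (a + b)) hmHom
  -- the linear coefficient
  have hlin : ∀ u : k, coeff 1 (C u * X : PowerSeries k) = u := by
    intro u; simp
  have h1 : coeff 1 T = 0 := by
    rw [hT, coeff_one_subst_pair Γ (hω (a + b)).constantCoeff_eq hmHom.constantCoeff_eq,
      coeff_one_subst hgHom.constantCoeff_eq, hg,
      coeff_one_subst_pair Γ (hω a).constantCoeff_eq (hω b).constantCoeff_eq, coeff_one_mulSeries,
      hlin, hlin, hlin]
    have hp1 : ((p - 1 : ℕ) : k) + 1 = 0 := by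
      have : ((p - 1 + 1 : ℕ) : k) = 0 := by
        rw [Nat.sub_add_cancel (by omega)]; exact CharP.cast_eq_zero k p
      rwa [Nat.cast_succ] at this
    linear_combination (a + b) * hp1
  -- the generator
  obtain ⟨c, hc⟩ := IsCyclic.exists_generator (α := kˣ)
  set ω : PowerSeries k := C (c : k) * X with hωdef
  have hωHom : IsHom Γ Γ ω := hω c
  have hωs : PowerSeries.HasSubst ω := PowerSeries.HasSubst.of_constantCoeff_zero' hωHom.constantCoeff_eq
  -- multiplication by `u` commutes with `ω`
  have hlinear : ∀ u : k, PowerSeries.subst ω (C u * X : PowerSeries k) =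
      PowerSeries.subst (C u * X : PowerSeries k) ω := by
    intro u
    have hus : PowerSeries.HasSubst (C u * X : PowerSeries k) :=
      PowerSeries.HasSubst.of_constantCoeff_zero' (hω u).constantCoeff_eq
    have e1 : PowerSeries.subst ω (C u * X : PowerSeries k) = C u * ω := by
      rw [PowerSeries.subst_mul hωs, PowerSeries.subst_X hωs]
      congr 1
      exact PowerSeries.subst_C _
    have e2 : PowerSeries.subst (C u * X : PowerSeries k) ω = C (c : k) * (C u * X) := by
      rw [hωdef, PowerSeries.subst_mul hus, PowerSeries.subst_X hus]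
      congr 1
      exact PowerSeries.subst_C _
    rw [e1, e2, hωdef]
    ring
  have hgc : PowerSeries.subst ω g = PowerSeries.subst g ω :=
    comm_add_aux hωHom (hω a).constantCoeff_eq (hω b).constantCoeff_eq (hlinear a) (hlinear b)
  have hXc : PowerSeries.subst ω (X : PowerSeries k) = PowerSeries.subst (X : PowerSeries k) ω := by
    rw [PowerSeries.subst_X hωs, psubst_X_self_aux]
  have hMc : ∀ m : ℕ, PowerSeries.subst ω (mulSeries Γ m) = PowerSeries.subst (mulSeries Γ m) ω := by
    intro m
    induction m with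
    | zero =>
      have h0 : mulSeries Γ 0 = 0 := rfl
      rw [h0]
      have e1 : PowerSeries.subst ω (0 : PowerSeries k) = 0 := by
        rw [← PowerSeries.coe_substAlgHom hωs]
        exact map_zero _
      have e2 : PowerSeries.subst (0 : PowerSeries k) ω = 0 :=
        PowerSeries.subst_zero_of_constantCoeff_zero hωHom.constantCoeff_eq
      rw [e1, e2]
    | succ m ih =>
      have e : mulSeries Γ (m + 1) = (MvPowerSeries.subst
          ![mulSeries Γ m, (PowerSeries.X : PowerSeries k)] Γ.toPowerSeries : PowerSeries k) := rfl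
      rw [e]
      exact comm_add_aux hωHom (constantCoeff_mulSeries Γ m) PowerSeries.constantCoeff_X ih hXc
  have hgs : PowerSeries.HasSubst g := PowerSeries.HasSubst.of_constantCoeff_zero' hgHom.constantCoeff_eq
  have hMs : PowerSeries.HasSubst (mulSeries Γ (p - 1)) :=
    PowerSeries.HasSubst.of_constantCoeff_zero' (constantCoeff_mulSeries Γ (p - 1))
  have hCompc : PowerSeries.subst ω (PowerSeries.subst g (mulSeries Γ (p - 1))) =
      PowerSeries.subst (PowerSeries.subst g (mulSeries Γ (p - 1))) ω := by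
    rw [PowerSeries.subst_comp_subst_apply hgs hωs, hgc,
      ← PowerSeries.subst_comp_subst_apply hωs hgs, hMc,
      PowerSeries.subst_comp_subst_apply hMs hgs]
  have hTc : PowerSeries.subst ω T = PowerSeries.subst T ω :=
    comm_add_aux hωHom (hω (a + b)).constantCoeff_eq hmHom.constantCoeff_eq (hlinear (a + b)) hCompc
  -- compare the coefficients
  have hTs : PowerSeries.HasSubst T := PowerSeries.HasSubst.of_constantCoeff_zero' hTHom.constantCoeff_eq
  have e2 : PowerSeries.subst T ω = C (c : k) * T := by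
    rw [hωdef, PowerSeries.subst_mul hTs, PowerSeries.subst_X hTs]
    congr 1
    exact PowerSeries.subst_C _
  have e1 : PowerSeries.subst ω T = PowerSeries.rescale (c : k) T := by
    rw [PowerSeries.rescale_eq_subst, hωdef, PowerSeries.smul_eq_C_mul]
  have hco : ∀ j, (c : k) ^ j * coeff j T = (c : k) * coeff j T := by
    intro j
    have h := congrArg (coeff j) hTc
    rw [e1, e2, PowerSeries.coeff_rescale, PowerSeries.coeff_C_mul] at h
    exact h
  have hq : 1 < p ^ n := Nat.one_lt_pow (by omega) (by omega)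
  have hord : orderOf c = p ^ n - 1 := by
    rw [orderOf_eq_card_of_forall_mem_zpowers hc, Nat.card_eq_fintype_card, Fintype.card_units, hk]
  have hsup : ∀ j, coeff j T ≠ 0 → j % (p ^ n - 1) = 1 % (p ^ n - 1) := by
    intro j hj
    have hj0 : j ≠ 0 := by
      rintro rfl
      apply hj
      simpa using hTHom.constantCoeff_eq
    obtain ⟨i, rfl⟩ : ∃ i, j = i + 1 := Nat.exists_eq_succ_of_ne_zero hj0
    have h3 : (c : k) ^ (i + 1) = (c : k) := mul_right_cancel₀ hj (hco _)
    have hcne : (c : k) ≠ 0 := c.ne_zero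
    have h4 : (c : k) ^ i = 1 := by
      have : (c : k) ^ i * (c : k) = 1 * (c : k) := by rw [← pow_succ, h3, one_mul]
      exact mul_right_cancel₀ hcne this
    have h5 : c ^ i = 1 := by
      apply Units.ext
      simpa using h4
    have h6 : p ^ n - 1 ∣ i := by
      rw [← hord]
      exact orderOf_dvd_of_pow_eq_one h5
    obtain ⟨q, rfl⟩ := h6
    rw [Nat.add_comm, Nat.add_mul_mod_self_left]
  exact hom_factor_q (p := p) hn hfr hTHom h1 hsup

end field

end Vale.Agent.Lib.P217
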