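import Vale.Agent.Lib.P217.ZLaw
import Vale.Agent.Lib.P217.GroupExp
import Vale.Agent.Lib.P217.EndSeries

set_option linter.unusedSectionVars false
set_option linter.unusedVariables false

/-!
The logarithm of a `ZLaw` in mixed characteristic: `log z = lim p ^ (-K) * [p ^ K] (z)`.

Basic facts for the proofs. Write `w_K = (p ^ K) • z`.
* `[p] (w) = p w + ∑_{j ≥ 2} c_j w ^ j` with `‖c_j‖ ≤ 1`, so `‖(p • w) - p * w‖ ≤ ‖w‖ ^ 2`.
* Hence if `‖w‖ < ‖p‖`, `‖p • w‖ = ‖p‖ * ‖w‖`.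
* If `t < 1`, `c ≤ t`, `‖z‖ ≤ t` then `‖w_K‖ ≤ t ^ (K + 1)`, so for `K ≥ K₀` (`K₀` depending only on `t`, `‖p‖`),
  `‖w_K‖ < ‖p‖`; and for `K ≥ K₀`, `‖w_K‖ ≤ ‖p‖ ^ (K - K₀) * ‖w_K₀‖ < ‖p‖ ^ (K - K₀ + 1)`.
* `‖p ^ (-(K+1)) w_(K+1) - p ^ (-K) w_K‖ = ‖p‖ ^ (-(K+1)) ‖w_(K+1) - p w_K‖ ≤ ‖p‖ ^ (-(K+1)) ‖w_K‖ ^ 2 ≤ ‖p‖ ^ (K + 1 - 2 K₀)`,
  which tends to zero geometrically: the sequence converges, uniformly in `z` and in the law.
-/

namespace Vale.Agent.Lib.P217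

open scoped Topology
open Filter

variable {C : Type*} [NormedField C] [IsUltrametricDist C] [CompleteSpace C]
variable {p n : ℕ} [hp : Fact p.Prime]

namespace ZLaw

variable (L : ZLaw C p n)

/-- Proof: `hasSum_nsmul_p`: constant term zero, coefficient of `x` equal to `p` (`coeff_one_mulSeries`). -/
lemma norm_nsmul_p_sub_mul_le (w : Pts L.G) : ‖(p • w).v - (p : C) * w.v‖ ≤ ‖w.v‖ ^ 2 := by
  have h1 := hasSum_nsmul_p L w
  have h0 : HasSum (fun j : ℕ => if j = 1 then ((p : OC C) * w.o) else 0) ((p : OC C) * w.o) :=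
    hasSum_ite_eq 1 _
  have h := h1.sub h0
  have hb := norm_sum_le_of_hasSum h (pow_nonneg (norm_nonneg w.v) 2) ?_
  · have e : (((p • w).o - (p : OC C) * w.o : OC C) : C) = (p • w).v - (p : C) * w.v := by
      push_cast
      rfl
    rwa [e] at hb
  · intro j
    by_cases hj1 : j = 1
    · subst hj1
      rw [coeff_one_mulSeries]
      simp
    · rw [if_neg hj1, sub_zero]
      by_cases hj0 : j = 0
      · subst hj0
        rw [PowerSeries.coeff_zero_eq_constantCoeff_apply, constantCoeff_mulSeries]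
        simp
      · have hj2 : 2 ≤ j := by omega
        have e : ((PowerSeries.coeff j (mulSeries L.G p) * w.o ^ j : OC C) : C)
            = ((PowerSeries.coeff j (mulSeries L.G p) : OC C) : C) * ((w.o ^ j : OC C) : C) := rfl
        rw [e, norm_mul]
        refine (mul_le_of_le_one_left (norm_nonneg _) (norm_OC_le _)).trans ?_
        exact norm_pow_two_le_of_two_le _ hj2

lemma norm_nsmul_p_eq [NeZero (p : C)] (w : Pts L.G) (hw : ‖w.v‖ < ‖(p : C)‖) : ‖(p • w).v‖ = ‖(p : C)‖ * ‖w.v‖ := by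
  have h1 := norm_nsmul_p_sub_mul_le L w
  by_cases hw0 : ‖w.v‖ = 0
  · have h2 : w.v = 0 := norm_eq_zero.mp hw0
    have h3 : w = 0 := Pts.ext (by simpa using h2)
    rw [hw0, h3, nsmul_zero]
    simp
  · have hw1 : 0 < ‖w.v‖ := lt_of_le_of_ne (norm_nonneg _) (Ne.symm hw0)
    have h2 : ‖w.v‖ ^ 2 < ‖(p : C)‖ * ‖w.v‖ := by
      rw [pow_two]
      exact mul_lt_mul_of_pos_right hw hw1
    have h3 : ‖(p • w).v - (p : C) * w.v‖ < ‖(p : C) * w.v‖ := by
      rw [norm_mul]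
      exact lt_of_le_of_lt h1 h2
    have h4 : ‖(p • w).v‖ = ‖(p : C) * w.v‖ := by
      have e : (p • w).v = ((p • w).v - (p : C) * w.v) + (p : C) * w.v := by ring
      rw [e]
      exact IsUltrametricDist.norm_add_eq_max_of_norm_ne_norm (ne_of_lt h3) |>.trans
        (max_eq_right h3.le)
    rw [h4, norm_mul]

end ZLaw

/-- The approximations `p ^ (-K) [p ^ K] (z)` of the logarithm. -/
noncomputable def zlogSeq (L : ZLaw C p n) (z : Pts L.G) (K : ℕ) : C := ((p : C) ^ K)⁻¹ * ((p ^ K) • z).v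

/-- The logarithm of a point. -/
noncomputable def zlog (L : ZLaw C p n) (z : Pts L.G) : C := limUnder atTop (zlogSeq L z)

variable [NeZero (p : C)]

section estimates

lemma p_pos : 0 < ‖(p : C)‖ := norm_pos_iff.mpr (NeZero.ne _)

/-- Decay of the multiples past the threshold. -/
lemma norm_w_le {t : ℝ} {K₀ : ℕ} (hK₀ : t ^ (K₀ + 1) < ‖(p : C)‖) (L : ZLaw C p n) (hc : L.c ≤ t)
    (ht : t < 1) (z : Pts L.G) (hz : ‖z.v‖ ≤ t) (i : ℕ) :
    ‖((p ^ (K₀ + i)) • z).v‖ ≤ ‖(p : C)‖ ^ i * t ^ (K₀ + 1) := by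
  have hπ1 : ‖(p : C)‖ < 1 := L.norm_p_lt_one
  have ht0 : 0 ≤ t := (norm_nonneg _).trans hz
  induction i with
  | zero =>
    have := L.norm_nsmul_pow_le hc ht.le z hz K₀
    simp only [add_zero, pow_zero, one_mul]
    refine this.trans ?_
    rw [pow_succ]
    exact mul_le_mul_of_nonneg_left hz (pow_nonneg ht0 _)
  | succ i ih =>
    have e : K₀ + (i + 1) = (K₀ + i) + 1 := rfl
    rw [e, L.nsmul_pow_succ]
    have h2 : ‖((p ^ (K₀ + i)) • z).v‖ < ‖(p : C)‖ := by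
      refine lt_of_le_of_lt ih ?_
      have h3 : ‖(p : C)‖ ^ i ≤ 1 := pow_le_one₀ (norm_nonneg _) hπ1.le
      have h4 : 0 ≤ t ^ (K₀ + 1) := pow_nonneg ht0 _
      nlinarith
    rw [L.norm_nsmul_p_eq _ h2, pow_succ]
    calc ‖(p : C)‖ * ‖((p ^ (K₀ + i)) • z).v‖ ≤ ‖(p : C)‖ * (‖(p : C)‖ ^ i * t ^ (K₀ + 1)) :=
          mul_le_mul_of_nonneg_left ih (norm_nonneg _)
      _ = _ := by ring

/-- The difference of two successive approximations. -/
lemma norm_zlogSeq_succ_sub (L : ZLaw C p n) (z : Pts L.G) (K : ℕ) :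
    ‖zlogSeq L z (K + 1) - zlogSeq L z K‖ ≤ (‖(p : C)‖ ^ (K + 1))⁻¹ * ‖((p ^ K) • z).v‖ ^ 2 := by
  have hp0 : (p : C) ≠ 0 := NeZero.ne _
  have e : zlogSeq L z (K + 1) - zlogSeq L z K
      = ((p : C) ^ (K + 1))⁻¹ * (((p ^ (K + 1)) • z).v - (p : C) * ((p ^ K) • z).v) := by
    simp only [zlogSeq]
    field_simp
    ring
  rw [e, norm_mul, norm_inv, norm_pow, L.nsmul_pow_succ]
  exact mul_le_mul_of_nonneg_left (L.norm_nsmul_p_sub_mul_le _) (by positivity)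

/-- The difference of two successive approximations past the threshold. -/
lemma norm_zlogSeq_step {t : ℝ} {K₀ : ℕ} (hK₀ : t ^ (K₀ + 1) < ‖(p : C)‖) (L : ZLaw C p n)
    (hc : L.c ≤ t) (ht : t < 1) (z : Pts L.G) (hz : ‖z.v‖ ≤ t) (i : ℕ) :
    ‖zlogSeq L z (K₀ + i + 1) - zlogSeq L z (K₀ + i)‖ ≤ (‖(p : C)‖ ^ K₀)⁻¹ * ‖(p : C)‖ ^ (i + 1) := by
  have hπ : 0 < ‖(p : C)‖ := p_pos
  have ht0 : 0 ≤ t := (norm_nonneg _).trans hz
  refine (norm_zlogSeq_succ_sub L z (K₀ + i)).trans ?_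
  have h1 := norm_w_le hK₀ L hc ht z hz i
  have h2 : ‖((p ^ (K₀ + i)) • z).v‖ ≤ ‖(p : C)‖ ^ i * ‖(p : C)‖ := by
    refine h1.trans (mul_le_mul_of_nonneg_left hK₀.le (by positivity))
  have h3 : ‖((p ^ (K₀ + i)) • z).v‖ ^ 2 ≤ (‖(p : C)‖ ^ i * ‖(p : C)‖) ^ 2 :=
    pow_le_pow_left₀ (norm_nonneg _) h2 2
  refine (mul_le_mul_of_nonneg_left h3 (by positivity)).trans (le_of_eq ?_)
  field_simp
  ring

/-- All later approximations are close. -/
lemma norm_zlogSeq_add_sub {t : ℝ} {K₀ : ℕ} (hK₀ : t ^ (K₀ + 1) < ‖(p : C)‖) (L : ZLaw C p n)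
    (hc : L.c ≤ t) (ht : t < 1) (z : Pts L.G) (hz : ‖z.v‖ ≤ t) (i j : ℕ) :
    ‖zlogSeq L z (K₀ + i + j) - zlogSeq L z (K₀ + i)‖ ≤ (‖(p : C)‖ ^ K₀)⁻¹ * ‖(p : C)‖ ^ (i + 1) := by
  have hπ : 0 < ‖(p : C)‖ := p_pos
  have hπ1 : ‖(p : C)‖ < 1 := L.norm_p_lt_one
  induction j with
  | zero =>
    simp only [add_zero, sub_self, norm_zero]
    positivity
  | succ j ih =>
    have e : zlogSeq L z (K₀ + i + (j + 1)) - zlogSeq L z (K₀ + i)
        = (zlogSeq L z (K₀ + (i + j) + 1) - zlogSeq L z (K₀ + (i + j)))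
          + (zlogSeq L z (K₀ + i + j) - zlogSeq L z (K₀ + i)) := by
      have a1 : K₀ + i + (j + 1) = K₀ + (i + j) + 1 := by ring
      have a2 : K₀ + (i + j) = K₀ + i + j := by ring
      rw [a1, a2]
      ring
    rw [e]
    refine (IsUltrametricDist.norm_add_le_max _ _).trans (max_le ?_ ih)
    refine (norm_zlogSeq_step hK₀ L hc ht z hz (i + j)).trans ?_
    apply mul_le_mul_of_nonneg_left _ (by positivity)
    exact pow_le_pow_of_le_one (norm_nonneg _) hπ1.le (by omega)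

/-- Existence of the threshold. -/
lemma exists_threshold {t : ℝ} (ht0 : 0 ≤ t) (ht : t < 1) :
    ∃ K₀ : ℕ, t ^ (K₀ + 1) < ‖(p : C)‖ := by
  have h := tendsto_pow_atTop_nhds_zero_of_lt_one ht0 ht
  have h2 := (tendsto_add_atTop_iff_nat 1).mpr h
  obtain ⟨K₀, hK₀⟩ := (h2.eventually (gt_mem_nhds (p_pos (C := C) (p := p)))).exists
  exact ⟨K₀, hK₀⟩

lemma cauchySeq_zlogSeq (L : ZLaw C p n) (z : Pts L.G) : CauchySeq (zlogSeq L z) := by
  have ht : max L.c ‖z.v‖ < 1 := max_lt L.c_lt_one z.norm_lt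
  have ht0 : 0 ≤ max L.c ‖z.v‖ := le_max_of_le_right (norm_nonneg _)
  obtain ⟨K₀, hK₀⟩ := exists_threshold (C := C) (p := p) ht0 ht
  apply NonarchimedeanAddGroup.cauchySeq_of_tendsto_sub_nhds_zero
  rw [← tendsto_add_atTop_iff_nat K₀, tendsto_zero_iff_norm_tendsto_zero]
  have hπ : 0 < ‖(p : C)‖ := p_pos
  have hπ1 : ‖(p : C)‖ < 1 := L.norm_p_lt_one
  have h0 : Tendsto (fun i : ℕ => (‖(p : C)‖ ^ K₀)⁻¹ * ‖(p : C)‖ ^ (i + 1)) atTop (𝓝 0) := by
    have := ((tendsto_add_atTop_iff_nat 1).mpr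
      (tendsto_pow_atTop_nhds_zero_of_lt_one hπ.le hπ1)).const_mul (‖(p : C)‖ ^ K₀)⁻¹
    simpa using this
  refine squeeze_zero (fun _ => norm_nonneg _) (fun i => ?_) h0
  have := norm_zlogSeq_step hK₀ L (le_max_left _ _) ht z (le_max_right _ _) i
  have e : K₀ + i + 1 = i + K₀ + 1 := by ring
  have e2 : K₀ + i = i + K₀ := by ring
  rwa [e, e2] at this

end estimates

/-- Uniform convergence of the logarithm: for `t < 1`, uniformly in the laws with `c ≤ t` and the points of norm at most `t`. -/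
theorem zlog_tendsto (L : ZLaw C p n) (z : Pts L.G) : Tendsto (zlogSeq L z) atTop (𝓝 (zlog L z)) :=
  (cauchySeq_zlogSeq L z).tendsto_limUnder

/-- The limit is within the bound of the approximations. -/
lemma norm_zlog_sub_le {t : ℝ} {K₀ : ℕ} (hK₀ : t ^ (K₀ + 1) < ‖(p : C)‖) (L : ZLaw C p n)
    (hc : L.c ≤ t) (ht : t < 1) (z : Pts L.G) (hz : ‖z.v‖ ≤ t) (i : ℕ) :
    ‖zlog L z - zlogSeq L z (K₀ + i)‖ ≤ (‖(p : C)‖ ^ K₀)⁻¹ * ‖(p : C)‖ ^ (i + 1) := by
  have h1 := (zlog_tendsto L z).sub_const (zlogSeq L z (K₀ + i))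
  have h2 := h1.norm
  have h3 : Tendsto (fun j : ℕ => ‖zlogSeq L z (K₀ + i + j) - zlogSeq L z (K₀ + i)‖) atTop
      (𝓝 ‖zlog L z - zlogSeq L z (K₀ + i)‖) := by
    have := h2.comp (tendsto_add_atTop_nat (K₀ + i))
    simpa [Function.comp_def, add_comm] using this
  exact le_of_tendsto h3 (Eventually.of_forall (norm_zlogSeq_add_sub hK₀ L hc ht z hz i))

theorem zlog_unif {t : ℝ} (ht : t < 1) {η : ℝ} (hη : 0 < η) :
    ∃ K₀ : ℕ, ∀ K, K₀ ≤ K → ∀ L : ZLaw C p n, L.c ≤ t → ∀ z : Pts L.G, ‖z.v‖ ≤ t →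
      ‖zlog L z - zlogSeq L z K‖ ≤ η := by
  by_cases ht0 : 0 ≤ t
  swap
  · refine ⟨0, fun K _ L hc z hz => absurd ((norm_nonneg _).trans hz) ht0⟩
  obtain ⟨K₁, hK₁⟩ := exists_threshold (C := C) (p := p) ht0 ht
  have hπ : 0 < ‖(p : C)‖ := p_pos
  by_cases hπ1 : ‖(p : C)‖ < 1
  swap
  · -- no law exists
    refine ⟨0, fun K _ L hc z hz => absurd L.norm_p_lt_one hπ1⟩
  have h0 : Tendsto (fun i : ℕ => (‖(p : C)‖ ^ K₁)⁻¹ * ‖(p : C)‖ ^ (i + 1)) atTop (𝓝 0) := by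
    have := ((tendsto_add_atTop_iff_nat 1).mpr
      (tendsto_pow_atTop_nhds_zero_of_lt_one hπ.le hπ1)).const_mul (‖(p : C)‖ ^ K₁)⁻¹
    simpa using this
  obtain ⟨i₀, hi₀⟩ := (h0.eventually (gt_mem_nhds hη)).exists
  refine ⟨K₁ + i₀, fun K hK L hc z hz => ?_⟩
  obtain ⟨i, rfl⟩ : ∃ i, K = K₁ + (i₀ + i) := ⟨K - (K₁ + i₀), by omega⟩
  refine (norm_zlog_sub_le hK₁ L hc ht z hz (i₀ + i)).trans ?_
  refine le_trans ?_ hi₀.le
  apply mul_le_mul_of_nonneg_left _ (by positivity)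
  exact pow_le_pow_of_le_one hπ.le hπ1.le (by omega)

/-- Uniform bound of the logarithm. Indeed, `zlog z = p ^ (-K₀) * zlog (w_K₀)` and `‖zlog w‖ = ‖w‖` for `‖w‖ < ‖p‖`. -/
theorem norm_zlog_le {t : ℝ} (ht : t < 1) :
    ∃ B : ℝ, 0 ≤ B ∧ ∀ L : ZLaw C p n, L.c ≤ t → ∀ z : Pts L.G, ‖z.v‖ ≤ t → ‖zlog L z‖ ≤ B := by
  obtain ⟨K₀, hK₀⟩ := zlog_unif (C := C) (p := p) (n := n) ht (η := 1) one_pos
  have hπ : 0 < ‖(p : C)‖ := p_pos
  refine ⟨max 1 (‖(p : C)‖ ^ K₀)⁻¹, le_max_of_le_left zero_le_one, fun L hc z hz => ?_⟩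
  have h1 := hK₀ K₀ le_rfl L hc z hz
  have e : zlog L z = (zlog L z - zlogSeq L z K₀) + zlogSeq L z K₀ := by ring
  rw [e]
  refine (IsUltrametricDist.norm_add_le_max _ _).trans (max_le_max h1 ?_)
  simp only [zlogSeq]
  rw [norm_mul, norm_inv, norm_pow]
  apply mul_le_of_le_one_right (by positivity)
  exact ((p ^ K₀) • z).norm_lt.le

/-- The logarithm is additive. Proof: `F(a, b) - a - b` has all monomials divisible by `a b` (the group law has
`F(X, 0) = X`, `F(0, Y) = Y`), so `‖F(a,b) - a - b‖ ≤ ‖a‖ ‖b‖`. With `a = w_K`, `b = w'_K`: `p ^ K • (z + z') = w_K + w'_K`,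
`‖p ^ (-K) (F(a, b) - a - b)‖ ≤ ‖p‖ ^ (-K) ‖w_K‖ ‖w'_K‖ → 0` by the decay `‖w_K‖ ≤ ‖p‖ ^ (K - K₀)`. -/
theorem zlog_add (L : ZLaw C p n) (z z' : Pts L.G) : zlog L (z + z') = zlog L z + zlog L z' := by
  have h1 := zlog_tendsto L (z + z')
  have h2 := (zlog_tendsto L z).add (zlog_tendsto L z')
  have hdiff : Tendsto (fun K => zlogSeq L (z + z') K - (zlogSeq L z K + zlogSeq L z' K)) atTop (𝓝 0) := by
    set t := max L.c (max ‖z.v‖ ‖z'.v‖) with htd
    have ht : t < 1 := max_lt L.c_lt_one (max_lt z.norm_lt z'.norm_lt)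
    have ht0 : 0 ≤ t := le_max_of_le_right (le_max_of_le_left (norm_nonneg _))
    obtain ⟨K₀, hK₀⟩ := exists_threshold (C := C) (p := p) ht0 ht
    have hπ : 0 < ‖(p : C)‖ := p_pos
    have hπ1 : ‖(p : C)‖ < 1 := L.norm_p_lt_one
    rw [← tendsto_add_atTop_iff_nat K₀, tendsto_zero_iff_norm_tendsto_zero]
    have h0 : Tendsto (fun i : ℕ => (‖(p : C)‖ ^ K₀)⁻¹ * ‖(p : C)‖ ^ i) atTop (𝓝 0) := by
      have := (tendsto_pow_atTop_nhds_zero_of_lt_one hπ.le hπ1).const_mul (‖(p : C)‖ ^ K₀)⁻¹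
      simpa using this
    refine squeeze_zero (fun _ => norm_nonneg _) (fun i => ?_) h0
    have e0 : i + K₀ = K₀ + i := by ring
    rw [e0]
    have hw := norm_w_le hK₀ L (le_max_left _ _) ht z
      ((le_max_left _ _).trans (le_max_right _ _)) i
    have hw' := norm_w_le hK₀ L (le_max_left _ _) ht z'
      ((le_max_right _ _).trans (le_max_right _ _)) i
    have hb : ∀ w : Pts L.G, ‖w.v‖ ≤ ‖(p : C)‖ ^ i * t ^ (K₀ + 1) → ‖w.v‖ ≤ ‖(p : C)‖ ^ i := by
      intro w hw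
      refine hw.trans (mul_le_of_le_one_right (by positivity) ?_)
      exact pow_le_one₀ ht0 ht.le
    have e : zlogSeq L (z + z') (K₀ + i) - (zlogSeq L z (K₀ + i) + zlogSeq L z' (K₀ + i))
        = ((p : C) ^ (K₀ + i))⁻¹ * (((p ^ (K₀ + i)) • z + (p ^ (K₀ + i)) • z').v
          - (((p ^ (K₀ + i)) • z).v + ((p ^ (K₀ + i)) • z').v)) := by
      simp only [zlogSeq, nsmul_add]
      ring
    rw [e, norm_mul, norm_inv, norm_pow]
    have h3 := norm_add_sub_field_le ((p ^ (K₀ + i)) • z) ((p ^ (K₀ + i)) • z')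
    have h4 : ‖((p ^ (K₀ + i)) • z).v‖ * ‖((p ^ (K₀ + i)) • z').v‖
        ≤ ‖(p : C)‖ ^ i * ‖(p : C)‖ ^ i :=
      mul_le_mul (hb _ hw) (hb _ hw') (norm_nonneg _) (by positivity)
    refine (mul_le_mul_of_nonneg_left (h3.trans h4) (by positivity)).trans (le_of_eq ?_)
    rw [pow_add]
    field_simp
  have h3 := h1.sub h2
  have := tendsto_nhds_unique h3 hdiff
  exact sub_eq_zero.mp this

/-- The logarithm, as an additive map. -/
noncomputable def zlogHom (L : ZLaw C p n) : Pts L.G →+ C where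
  toFun := zlog L
  map_zero' := by
    have := zlog_add L 0 0
    simpa using this
  map_add' := zlog_add L

theorem zlog_nsmul (L : ZLaw C p n) (m : ℕ) (z : Pts L.G) : zlog L (m • z) = (m : C) * zlog L z := by
  have := map_nsmul (zlogHom L) m z
  simpa [zlogHom, nsmul_eq_mul] using this

/-- A homomorphism multiplies logarithms by its linear coefficient. Proof: `f(p ^ K •_L z) = p ^ K •_L' f(z)` (`evPt_add`); for
`w = w_K`: `f(w) = a w + O(w ^ 2)` with `a = coeff 1 f`, so `p ^ (-K) f(w_K) - a p ^ (-K) w_K → 0`. -/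
theorem zlog_hom {L L' : ZLaw C p n} {f : PowerSeries (OC C)} (hf : IsHom L.G L'.G f) (z : Pts L.G) :
    zlog L' (evPt f hf.constantCoeff_eq z) = ((PowerSeries.coeff 1 f : OC C) : C) * zlog L z := by
  set a : C := ((PowerSeries.coeff 1 f : OC C) : C) with ha
  have h1 := zlog_tendsto L' (evPt f hf.constantCoeff_eq z)
  have h2 := (zlog_tendsto L z).const_mul a
  -- `f` commutes with multiples
  have hmul : ∀ (m : ℕ) (w : Pts L.G), (evPt f hf.constantCoeff_eq (m • w) : Pts L'.G)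
      = m • (evPt f hf.constantCoeff_eq w : Pts L'.G) := by
    intro m w
    induction m with
    | zero =>
      have h3 := evPt_add hf 0 0
      rw [add_zero] at h3
      have h4 : (evPt f hf.constantCoeff_eq (0 : Pts L.G) : Pts L'.G) = 0 := by
        apply Pts.ext
        have h5 := norm_ev1_le f hf.constantCoeff_eq (0 : Pts L.G)
        rw [Pts.zero_v, norm_zero] at h5
        have h6 := norm_le_zero_iff.mp h5
        rw [evPt_v, h6, Pts.zero_v]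
      simp [h4]
    | succ m ih =>
      rw [succ_nsmul, succ_nsmul, evPt_add hf, ih]
  -- first order
  have hfirst : ∀ w : Pts L.G, ‖(evPt f hf.constantCoeff_eq w : Pts L'.G).v - a * w.v‖ ≤ ‖w.v‖ ^ 2 := by
    intro w
    have h3 := hasSum_ev1 (RingHom.id (OC C)) w.norm_o_lt f
    have h0 : HasSum (fun j : ℕ => if j = 1 then (PowerSeries.coeff 1 f * w.o : OC C) else 0)
        (PowerSeries.coeff 1 f * w.o) := hasSum_ite_eq 1 _
    have h := h3.sub h0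
    have hb := norm_sum_le_of_hasSum h (pow_nonneg (norm_nonneg w.v) 2) ?_
    · have e : ((ev1 (RingHom.id (OC C)) w.o f - PowerSeries.coeff 1 f * w.o : OC C) : C)
          = (evPt f hf.constantCoeff_eq w : Pts L'.G).v - a * w.v := rfl
      rwa [e] at hb
    · intro j
      by_cases hj1 : j = 1
      · subst hj1
        simp
      · rw [if_neg hj1, sub_zero]
        by_cases hj0 : j = 0
        · subst hj0
          rw [PowerSeries.coeff_zero_eq_constantCoeff_apply, hf.constantCoeff_eq]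
          simp
        · have hj2 : 2 ≤ j := by omega
          have e : ((RingHom.id (OC C) (PowerSeries.coeff j f) * w.o ^ j : OC C) : C)
              = ((PowerSeries.coeff j f : OC C) : C) * ((w.o ^ j : OC C) : C) := rfl
          rw [e, norm_mul]
          refine (mul_le_of_le_one_left (norm_nonneg _) (norm_OC_le _)).trans ?_
          exact norm_pow_two_le_of_two_le _ hj2
  have hdiff : Tendsto (fun K => zlogSeq L' (evPt f hf.constantCoeff_eq z) K - a * zlogSeq L z K) atTop (𝓝 0) := by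
    set t := max L.c ‖z.v‖ with htd
    have ht : t < 1 := max_lt L.c_lt_one z.norm_lt
    have ht0 : 0 ≤ t := le_max_of_le_right (norm_nonneg _)
    obtain ⟨K₀, hK₀⟩ := exists_threshold (C := C) (p := p) ht0 ht
    have hπ : 0 < ‖(p : C)‖ := p_pos
    have hπ1 : ‖(p : C)‖ < 1 := L.norm_p_lt_one
    rw [← tendsto_add_atTop_iff_nat K₀, tendsto_zero_iff_norm_tendsto_zero]
    have h0 : Tendsto (fun i : ℕ => (‖(p : C)‖ ^ K₀)⁻¹ * ‖(p : C)‖ ^ i) atTop (𝓝 0) := by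
      have := (tendsto_pow_atTop_nhds_zero_of_lt_one hπ.le hπ1).const_mul (‖(p : C)‖ ^ K₀)⁻¹
      simpa using this
    refine squeeze_zero (fun _ => norm_nonneg _) (fun i => ?_) h0
    have e0 : i + K₀ = K₀ + i := by ring
    rw [e0]
    have hw := norm_w_le hK₀ L (le_max_left _ _) ht z (le_max_right _ _) i
    have hb : ‖((p ^ (K₀ + i)) • z).v‖ ≤ ‖(p : C)‖ ^ i := by
      refine hw.trans (mul_le_of_le_one_right (by positivity) ?_)
      exact pow_le_one₀ ht0 ht.le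
    have e : zlogSeq L' (evPt f hf.constantCoeff_eq z) (K₀ + i) - a * zlogSeq L z (K₀ + i)
        = ((p : C) ^ (K₀ + i))⁻¹ * ((evPt f hf.constantCoeff_eq ((p ^ (K₀ + i)) • z) : Pts L'.G).v
          - a * ((p ^ (K₀ + i)) • z).v) := by
      simp only [zlogSeq]
      rw [hmul]
      ring
    rw [e, norm_mul, norm_inv, norm_pow]
    have h3 := hfirst ((p ^ (K₀ + i)) • z)
    have h4 : ‖((p ^ (K₀ + i)) • z).v‖ ^ 2 ≤ (‖(p : C)‖ ^ i) ^ 2 :=
      pow_le_pow_left₀ (norm_nonneg _) hb 2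
    refine (mul_le_mul_of_nonneg_left (h3.trans h4) (by positivity)).trans ?_
    have e5 : ((‖(p : C)‖ ^ (K₀ + i))⁻¹ * (‖(p : C)‖ ^ i) ^ 2) = (‖(p : C)‖ ^ K₀)⁻¹ * ‖(p : C)‖ ^ i := by
      rw [pow_add]
      field_simp
    rw [e5]
  have h3 := h1.sub h2
  have := tendsto_nhds_unique h3 hdiff
  exact sub_eq_zero.mp this

/-- For small `z`, `‖zlog z‖ = ‖z‖`. Proof: `‖zlogSeq z (K + 1) - zlogSeq z K‖ ≤ ‖p‖ ^ (-(K+1)) ‖w_K‖ ^ 2 ≤ ‖p‖ ^ (K - 1) ‖z‖ ^ 2 < ‖z‖`. -/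
theorem norm_zlog_of_small (L : ZLaw C p n) (z : Pts L.G) (hz : ‖z.v‖ < ‖(p : C)‖) : ‖zlog L z‖ = ‖z.v‖ := by
  have hπ : 0 < ‖(p : C)‖ := p_pos
  have hπ1 : ‖(p : C)‖ < 1 := L.norm_p_lt_one
  by_cases hz0 : ‖z.v‖ = 0
  · have h2 : z.v = 0 := norm_eq_zero.mp hz0
    have h3 : z = 0 := Pts.ext (by simpa using h2)
    have h4 : zlog L (0 : Pts L.G) = 0 := (zlogHom L).map_zero
    rw [hz0, h3, h4, norm_zero]
  have hz1 : 0 < ‖z.v‖ := lt_of_le_of_ne (norm_nonneg _) (Ne.symm hz0)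
  -- exact decay
  have hdec : ∀ K : ℕ, ‖((p ^ K) • z).v‖ = ‖(p : C)‖ ^ K * ‖z.v‖ := by
    intro K
    induction K with
    | zero => simp
    | succ K ih =>
      rw [L.nsmul_pow_succ]
      have h2 : ‖((p ^ K) • z).v‖ < ‖(p : C)‖ := by
        rw [ih]
        refine lt_of_le_of_lt (mul_le_of_le_one_left hz1.le ?_) hz
        exact pow_le_one₀ hπ.le hπ1.le
      rw [L.norm_nsmul_p_eq _ h2, ih, pow_succ]
      ring
  -- the bound on the steps
  set r := ‖z.v‖ ^ 2 / ‖(p : C)‖ with hr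
  have hr0 : 0 < r := by positivity
  have hrlt : r < ‖z.v‖ := by
    rw [hr, div_lt_iff₀ hπ, pow_two]
    exact mul_lt_mul_of_pos_left hz hz1
  have hstep : ∀ K : ℕ, ‖zlogSeq L z (K + 1) - zlogSeq L z K‖ ≤ r := by
    intro K
    refine (norm_zlogSeq_succ_sub L z K).trans ?_
    rw [hdec K, hr]
    have e : (‖(p : C)‖ ^ (K + 1))⁻¹ * (‖(p : C)‖ ^ K * ‖z.v‖) ^ 2
        = ‖(p : C)‖ ^ K * (‖z.v‖ ^ 2 / ‖(p : C)‖) := by
      rw [pow_succ]
      field_simp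
    rw [e]
    exact mul_le_of_le_one_left (by positivity) (pow_le_one₀ hπ.le hπ1.le)
  have h0v : zlogSeq L z 0 = z.v := by
    simp [zlogSeq]
  have hall : ∀ K : ℕ, ‖zlogSeq L z K - z.v‖ ≤ r := by
    intro K
    induction K with
    | zero =>
      rw [h0v, sub_self, norm_zero]
      exact hr0.le
    | succ K ih =>
      have e : zlogSeq L z (K + 1) - z.v = (zlogSeq L z (K + 1) - zlogSeq L z K) + (zlogSeq L z K - z.v) := by
        ring
      rw [e]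
      exact (IsUltrametricDist.norm_add_le_max _ _).trans (max_le (hstep K) ih)
  have hlim : ‖zlog L z - z.v‖ ≤ r :=
    le_of_tendsto ((zlog_tendsto L z).sub_const z.v).norm (Eventually.of_forall hall)
  have h3 : ‖zlog L z - z.v‖ < ‖z.v‖ := lt_of_le_of_lt hlim hrlt
  have e : zlog L z = (zlog L z - z.v) + z.v := by ring
  rw [e]
  exact IsUltrametricDist.norm_add_eq_max_of_norm_ne_norm (ne_of_lt h3) |>.trans (max_eq_right h3.le)

end Vale.Agent.Lib.P217
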