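import Vale.Agent.Lib.P217.ZCov
import Vale.Agent.Lib.P217.CharPSeries
import Vale.Agent.Lib.P217.TauPow
import Vale.Agent.Lib.P217.Setup

set_option linter.unusedSectionVars false
set_option linter.unusedVariables false

/-!
The mixed characteristic setting: a complete valued field `C`, a ring `B` with a ring map `ρ₀ : B → k` with kernel `p B` (in the application, `B = W(k)`),
a formal group `F` over `E₀ = B⟦u_1, …, u_N⟧` lifting `Γ`.
Each point `u` of the polydisc of radius `c` in `O_C ^ N` gives a ring map `evH u : E₀ → O_C` and a law `lawAt u`.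
-/

namespace Vale.Agent.Lib.P217

open scoped Topology
open Filter

/-- The ring `B⟦u_1, …, u_N⟧`. -/
abbrev ZE (N : ℕ) (B : Type*) := MvPowerSeries (Fin N) B

/-- The setting. -/
structure ZS (C : Type*) [NormedField C] [IsUltrametricDist C] (p n N : ℕ) (k : Type*) [Field k] [Fintype k] (B : Type*) [CommRing B] where
  hN : N + 1 = n
  hk : Fintype.card k = p ^ n
  Γ : FormalGroup k
  commΓ : Γ.IsComm
  hΓp : mulSeries Γ p = PowerSeries.X ^ (p ^ n)
  hω : ∀ a : k, IsHom Γ Γ (PowerSeries.C a * PowerSeries.X)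
  hfr : IsHom Γ Γ (PowerSeries.X ^ p)
  ρ₀ : B →+* k
  t : k →* B
  ht0 : t 0 = 0
  ρt : ∀ d, ρ₀ (t d) = d
  hker : ∀ a, ρ₀ a = 0 → ∃ b, a = (p : B) * b
  hunit : ∀ a, ρ₀ a ≠ 0 → IsUnit a
  F : FormalGroup (ZE N B)
  commF : F.IsComm
  hF : F.map (ρ₀.comp MvPowerSeries.constantCoeff) = Γ
  κ : B →+* OC C
  c : ℝ
  hc1 : c < 1
  hpc : ‖(p : C)‖ ≤ c
  hp0 : (p : C) ≠ 0
  π : C
  hπ : ‖π‖ = c


section cofactor

variable {N : ℕ} {B : Type*} [CommRing B]

open MvPowerSeries in
/-- The cofactor of `X i` in the decomposition of a series without constant term. -/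
private noncomputable def zcofactorX (a : MvPowerSeries (Fin N) B) (i : Fin N) : MvPowerSeries (Fin N) B := fun e =>
  if ∀ j, j < i → e j = 0 then coeff (e + Finsupp.single i 1) a else 0

open MvPowerSeries in
private theorem coeff_X_mul_zcofactorX (a : MvPowerSeries (Fin N) B) (i : Fin N) (d : Fin N →₀ ℕ) :
    coeff d (X i * zcofactorX a i) =
      if 1 ≤ d i ∧ ∀ j, j < i → d j = 0 then coeff d a else 0 := by
  classical
  rw [X_def, coeff_monomial_mul, one_mul]
  by_cases h1 : 1 ≤ d i
  · have hle : Finsupp.single i 1 ≤ d := by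
      rw [Finsupp.single_le_iff]; exact h1
    rw [if_pos hle]
    have hc : coeff (d - Finsupp.single i 1) (zcofactorX a i) =
        if ∀ j, j < i → (d - Finsupp.single i 1 : Fin N →₀ ℕ) j = 0 then coeff (d - Finsupp.single i 1 + Finsupp.single i 1) a else 0 := rfl
    rw [hc, tsub_add_cancel_of_le hle]
    have hiff : (∀ j, j < i → (d - Finsupp.single i 1 : Fin N →₀ ℕ) j = 0) ↔ (∀ j, j < i → d j = 0) := by
      constructor
      · intro h j hj
        have := h j hj
        rw [Finsupp.tsub_apply, Finsupp.single_eq_of_ne (ne_of_lt hj), Nat.sub_zero] at this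
        exact this
      · intro h j hj
        rw [Finsupp.tsub_apply, Finsupp.single_eq_of_ne (ne_of_lt hj), Nat.sub_zero]
        exact h j hj
    simp only [hiff, h1, true_and]
  · have hle : ¬ Finsupp.single i 1 ≤ d := by
      rw [Finsupp.single_le_iff]; exact h1
    rw [if_neg hle, if_neg (fun h => h1 h.1)]

open MvPowerSeries in
private theorem eq_sum_zcofactorX (a : MvPowerSeries (Fin N) B) (ha : constantCoeff a = 0) :
    ∑ i, zcofactorX a i * X i = a := by
  classical
  ext d
  rw [map_sum]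
  simp_rw [mul_comm (zcofactorX a _) (X _), coeff_X_mul_zcofactorX]
  by_cases hd : d = 0
  · subst hd
    have h0 : coeff (0 : Fin N →₀ ℕ) a = 0 := by
      simpa using ha
    simp [h0]
  · have hne : d.support.Nonempty := Finsupp.support_nonempty_iff.mpr hd
    set i0 := d.support.min' hne with hi0
    have hmem : i0 ∈ d.support := Finset.min'_mem _ hne
    have hi0pos : 1 ≤ d i0 := Nat.one_le_iff_ne_zero.mpr (Finsupp.mem_support_iff.mp hmem)
    have hlt : ∀ j, j < i0 → d j = 0 := by
      intro j hj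
      by_contra hne'
      have := Finset.min'_le d.support j (Finsupp.mem_support_iff.mpr hne')
      exact absurd hj (not_lt.mpr this)
    rw [Finset.sum_eq_single i0]
    · rw [if_pos ⟨hi0pos, hlt⟩]
    · intro i _ hi
      rw [if_neg]
      rintro ⟨h1, h2⟩
      rcases lt_or_gt_of_ne hi with h | h
      · have := hlt i h
        omega
      · have := h2 i0 h
        omega
    · intro h
      exact absurd (Finset.mem_univ _) h

end cofactor

variable {C : Type*} [NormedField C] [IsUltrametricDist C] [CompleteSpace C]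
variable {p n N : ℕ} [hp : Fact p.Prime]
variable {k : Type*} [Field k] [Fintype k] {B : Type*} [CommRing B]

private lemma zs_norm_sub_le_max (a b : C) : ‖a - b‖ ≤ max ‖a‖ ‖b‖ := by
  rw [sub_eq_add_neg]
  simpa using IsUltrametricDist.norm_add_le_max a (-b)

namespace ZS

variable (S : ZS C p n N k B)

instance : S.Γ.IsComm := S.commΓ
instance : S.F.IsComm := S.commF

/-- The reduction map `E₀ → k`. -/
noncomputable def ρ : ZE N B →+* k := S.ρ₀.comp MvPowerSeries.constantCoeff

/-- `c` is positive. -/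
lemma c_pos : 0 < S.c := lt_of_lt_of_le (norm_pos_iff.mpr S.hp0) S.hpc

include S in
lemma norm_p_lt_one : ‖(p : C)‖ < 1 := lt_of_le_of_lt S.hpc S.hc1

include S in
lemma neZero_p : NeZero (p : C) := ⟨S.hp0⟩

/-- If `ρ₀ a = 0` then `‖κ a‖ ≤ ‖p‖`, by `hker`. -/
lemma norm_κ_of_ρ₀ {a : B} (h : S.ρ₀ a = 0) : ‖((S.κ a : OC C) : C)‖ ≤ ‖(p : C)‖ := by
  obtain ⟨b, rfl⟩ := S.hker a h
  rw [map_mul, map_natCast]
  have h1 : (((S.κ ((p : B)) * S.κ b : OC C) : C)) = ((p : ℕ) : C) * ((S.κ b : OC C) : C) := by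
    rw [map_natCast]
    push_cast
    rfl
  rw [← map_natCast S.κ p, h1, norm_mul]
  exact mul_le_of_le_one_right (norm_nonneg _) (norm_OC_le _)

/-- The points of the polydisc of radius `c`. -/
def Pt : Type _ := {u : Fin N → OC C // ∀ l, ‖(u l : C)‖ ≤ S.c}

variable {S}

lemma Pt.lt_one (u : S.Pt) (l : Fin N) : ‖(u.1 l : C)‖ < 1 := lt_of_le_of_lt (u.2 l) S.hc1

variable (S)

/-- The evaluation at a point. -/
noncomputable def evH (u : S.Pt) : ZE N B →+* OC C := EvHom S.κ u.1 u.lt_one

lemma evH_apply (u : S.Pt) (a : ZE N B) : S.evH u a = Ev S.κ u.1 a := EvHom_apply _ _ _ _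

lemma evH_C (u : S.Pt) (b : B) : S.evH u (MvPowerSeries.C b) = S.κ b := by
  rw [evH_apply, Ev_C]

lemma evH_X (u : S.Pt) (l : Fin N) : S.evH u (MvPowerSeries.X l) = u.1 l := by
  rw [evH_apply, Ev_X]

/-- If `a` reduces to zero, `‖evH u a‖ ≤ c`. Proof: `hasSum_Ev`, `norm_sum_le_of_hasSum`; the constant term has norm at most `‖p‖ ≤ c` by `norm_κ_of_ρ₀`, the others have norm at most `c`. -/
lemma norm_evH_of_ρ (u : S.Pt) {a : ZE N B} (h : S.ρ a = 0) : ‖((S.evH u a : OC C) : C)‖ ≤ S.c := by
  rw [evH_apply]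
  have hc0 := S.c_pos.le
  refine norm_sum_le_of_hasSum (hasSum_Ev S.κ u.1 u.lt_one a) hc0 ?_
  intro d
  by_cases hd : d = 0
  · subst hd
    have h0 : S.ρ₀ (MvPowerSeries.coeff (0 : Fin N →₀ ℕ) a) = 0 := by
      have : S.ρ₀ (MvPowerSeries.constantCoeff a) = 0 := h
      simpa using this
    have := S.norm_κ_of_ρ₀ h0
    simpa using this.trans S.hpc
  · obtain ⟨s, hs⟩ := Finsupp.ne_iff.mp hd
    have hs' : s ∈ d.support := by simpa using hs
    set I := cballIdeal (C := C) S.c hc0
    have h1 : u.1 s ^ d s ∈ I := by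
      have hds : d s ≠ 0 := by simpa using hs
      exact I.pow_mem_of_mem (by simpa [I, mem_cballIdeal] using u.2 s) _ (Nat.pos_of_ne_zero hds)
    have h2 : (d.prod fun s e => u.1 s ^ e) ∈ I := by
      rw [Finsupp.prod]
      exact I.prod_mem hs' h1
    have h3 : S.κ (MvPowerSeries.coeff d a) * (d.prod fun s e => u.1 s ^ e) ∈ I :=
      I.mul_mem_left _ h2
    exact h3

/-- The key closeness: elements with the same reduction have close values at all points. Indeed, by `hunit`, `hker`, write `a = C (t (ρ a)) + a'`, `a' = C b + ...`. One has `‖evH u a - κ (t (ρ a))‖ ≤ c` by `norm_evH_of_ρ` (and `evH_C`),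
same for `a'`, `u'`. -/
lemma norm_evH_sub_le (u u' : S.Pt) {a a' : ZE N B} (h : S.ρ a = S.ρ a') :
    ‖((S.evH u a : OC C) : C) - (S.evH u' a' : OC C)‖ ≤ S.c := by
  set b : B := S.t (S.ρ a) with hb
  have hρb : S.ρ (MvPowerSeries.C b) = S.ρ a := by
    simp [ρ, hb, S.ρt]
  have h1 : S.ρ (a - MvPowerSeries.C b) = 0 := by
    rw [map_sub, hρb, sub_self]
  have h2 : S.ρ (a' - MvPowerSeries.C b) = 0 := by
    rw [map_sub, hρb, h, sub_self]
  have h3 := S.norm_evH_of_ρ u h1
  have h4 := S.norm_evH_of_ρ u' h2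
  rw [map_sub, S.evH_C] at h3 h4
  have h5 : ((S.evH u a : OC C) : C) - (S.evH u' a' : OC C) =
      (((S.evH u a - S.κ b : OC C) : C)) - ((S.evH u' a' - S.κ b : OC C) : C) := by
    push_cast
    ring
  rw [h5]
  exact (zs_norm_sub_le_max _ _).trans (max_le h3 h4)

/-- The law at a point. The coefficient condition: by `mulSeries_map`, the coefficients of `[p]_(F^u)` are the `evH u` of the coefficients of `[p]_F`, and these reduce to those of `[p]_Γ = X ^ (p ^ n)`. -/
noncomputable def lawAt (u : S.Pt) : ZLaw C p n where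
  G := S.F.map (S.evH u)
  comm := isComm_map S.F _
  c := S.c
  c_nonneg := S.c_pos.le
  c_lt_one := S.hc1
  hn := by have := S.hN; omega
  coeff_p := by
    intro j
    have h1 : S.ρ (PowerSeries.coeff j (mulSeries S.F p)) = if j = p ^ n then 1 else 0 := by
      have h2 : mulSeries S.Γ p = PowerSeries.map S.ρ (mulSeries S.F p) := by
        rw [← mulSeries_map]
        have : S.F.map S.ρ = S.Γ := S.hF
        rw [this]
      have h3 : PowerSeries.coeff j (PowerSeries.map S.ρ (mulSeries S.F p)) = S.ρ (PowerSeries.coeff j (mulSeries S.F p)) :=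
        PowerSeries.coeff_map _ _ _
      rw [← h3, ← h2, S.hΓp, PowerSeries.coeff_X_pow]
    have h4 : PowerSeries.coeff j (mulSeries (S.F.map (S.evH u)) p) = S.evH u (PowerSeries.coeff j (mulSeries S.F p)) := by
      rw [mulSeries_map, PowerSeries.coeff_map]
    rw [h4]
    by_cases hj : j = p ^ n
    · rw [if_pos hj]
      rw [if_pos hj] at h1
      have h5 : S.ρ (PowerSeries.coeff j (mulSeries S.F p) - 1) = 0 := by
        rw [map_sub, h1, map_one, sub_self]
      have h6 := S.norm_evH_of_ρ u h5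
      rw [map_sub, map_one] at h6
      simpa using h6
    · rw [if_neg hj]
      rw [if_neg hj] at h1
      have h6 := S.norm_evH_of_ρ u h1
      simpa using h6

lemma lawAt_c (u : S.Pt) : (S.lawAt u).c = S.c := rfl

lemma lawAt_G (u : S.Pt) : (S.lawAt u).G = S.F.map (S.evH u) := rfl

/-- Laws at two points are close, by `norm_evH_sub_le`. -/
theorem close_lawAt (u u' : S.Pt) : ZClose (S.lawAt u) (S.lawAt u') := by
  refine ⟨rfl, fun d => ?_⟩
  have h1 : (MvPowerSeries.coeff d (S.lawAt u).G.toPowerSeries : OC C) = S.evH u (MvPowerSeries.coeff d S.F.toPowerSeries) := by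
    show MvPowerSeries.coeff d (MvPowerSeries.map (S.evH u) S.F.toPowerSeries) = _
    rw [MvPowerSeries.coeff_map]
  have h2 : (MvPowerSeries.coeff d (S.lawAt u').G.toPowerSeries : OC C) = S.evH u' (MvPowerSeries.coeff d S.F.toPowerSeries) := by
    show MvPowerSeries.coeff d (MvPowerSeries.map (S.evH u') S.F.toPowerSeries) = _
    rw [MvPowerSeries.coeff_map]
  rw [h1, h2]
  exact S.norm_evH_sub_le u u' rfl

/-- An automorphism of `E₀` over `B` preserves the kernel of the reduction: by `hunit` an element not in the kernel is a unit (`MvPowerSeries.isUnit_iff_constantCoeff`); so it is the set of non-units. -/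
lemma ρ_tau (τ : ZE N B ≃ₐ[B] ZE N B) {a : ZE N B} (h : S.ρ a = 0) : S.ρ (τ a) = 0 := by
  by_contra h1
  have h2 : IsUnit (MvPowerSeries.constantCoeff (τ a)) := S.hunit _ h1
  have h3 : IsUnit (τ a) := (MvPowerSeries.isUnit_iff_constantCoeff).mpr h2
  have h4 : IsUnit a := (isUnit_map_iff τ a).mp h3
  have h5 : IsUnit (S.ρ a) := h4.map S.ρ
  rw [h] at h5
  exact not_isUnit_zero h5

/-- Uniqueness: a ring map `φ : E₀ → O_C` which agrees with `κ` on `B` and has `‖φ a‖ ≤ c` for `a` in the kernel of the reduction, is the evaluation at the point `(φ (X l))_l`.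
Proof. Let `x l = φ (X l)`. Let `a ∈ E₀` and `D : ℕ`. Write `a = a₁ + a₂` with `a₁` the truncation of `a` at degree `D`, a polynomial in the variables with coefficients in `B` and `a₂` all of whose monomials have degree at least `D`.
`φ a₁ = evH x a₁` as both are ring maps with the same values on `C b`, `X l`. Next `a₂` is a finite sum of products `b * ∏ (X l)` of `D` variables: it lies in the `D`-th power of the ideal `(X_l)` (this can be proven by
induction using `eq_sum_cofactorX`-like arguments, see `TauPow.lean`: each series with zero constant coefficient is a `∑_l cofactor_l * X l`). So `‖φ a₂‖ ≤ c ^ D`, `‖evH x a₂‖ ≤ c ^ D`. Let `D → ∞`. -/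
theorem evH_unique (φ : ZE N B →+* OC C) (hκ : ∀ b, φ (MvPowerSeries.C b) = S.κ b)
    (hc : ∀ a, S.ρ a = 0 → ‖((φ a : OC C) : C)‖ ≤ S.c) (x : S.Pt) (hx : ∀ l, φ (MvPowerSeries.X l) = x.1 l) (a : ZE N B) :
    φ a = S.evH x a := by
  have hc0 := S.c_pos.le
  have hbound : ∀ (D : ℕ) (a : ZE N B), ‖((φ a : OC C) : C) - (S.evH x a : OC C)‖ ≤ S.c ^ D := by
    intro D
    induction D with
    | zero =>
      intro a
      rw [pow_zero]
      exact (zs_norm_sub_le_max _ _).trans (max_le (norm_OC_le _) (norm_OC_le _))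
    | succ D ih =>
      intro a
      set b := MvPowerSeries.constantCoeff a with hb
      have h1 : MvPowerSeries.constantCoeff (a - MvPowerSeries.C b) = 0 := by
        simp [hb]
      have h2 := eq_sum_zcofactorX (a - MvPowerSeries.C b) h1
      set f := zcofactorX (a - MvPowerSeries.C b) with hf
      have h3 : a = MvPowerSeries.C b + ∑ i, f i * MvPowerSeries.X i := by
        rw [h2]; ring
      have h4 : ((φ a : OC C) : C) - (S.evH x a : OC C) =
          ∑ i, (((φ (f i) : OC C) : C) - (S.evH x (f i) : OC C)) * ((x.1 i : OC C) : C) := by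
        conv_lhs => rw [h3]
        simp only [map_add, map_sum, map_mul, hκ, S.evH_C, hx, S.evH_X]
        push_cast
        rw [add_sub_add_left_eq_sub, ← Finset.sum_sub_distrib]
        refine Finset.sum_congr rfl fun i _ => ?_
        ring
      rw [h4]
      refine IsUltrametricDist.norm_sum_le_of_forall_le_of_nonneg (pow_nonneg hc0 _) ?_
      intro i _
      rw [norm_mul, pow_succ]
      exact mul_le_mul (ih _) (x.2 i) (norm_nonneg _) (pow_nonneg hc0 _)
  have hlim : Tendsto (fun D : ℕ => S.c ^ D) atTop (𝓝 0) := tendsto_pow_atTop_nhds_zero_of_lt_one hc0 S.hc1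
  have h0 : ‖((φ a : OC C) : C) - (S.evH x a : OC C)‖ ≤ 0 := ge_of_tendsto' hlim fun D => hbound D a
  have h1 : ((φ a : OC C) : C) - (S.evH x a : OC C) = 0 := norm_le_zero_iff.mp h0
  exact Subtype.ext (sub_eq_zero.mp h1)

/-- The point obtained from `u` by applying an automorphism `τ` of `E₀` over `B`. -/
noncomputable def tauPt (τ : ZE N B ≃ₐ[B] ZE N B) (u : S.Pt) : S.Pt :=
  ⟨fun l => S.evH u (τ (MvPowerSeries.X l)), fun l => S.norm_evH_of_ρ u (S.ρ_tau τ (by simp [ρ]))⟩

/-- By `evH_unique`. -/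
theorem evH_tauPt (τ : ZE N B ≃ₐ[B] ZE N B) (u : S.Pt) (a : ZE N B) : S.evH (S.tauPt τ u) a = S.evH u (τ a) := by
  have h := S.evH_unique ((S.evH u).comp (τ : ZE N B →+* ZE N B)) (fun b => by
      have h3 : τ (MvPowerSeries.C b) = MvPowerSeries.C b := τ.commutes b
      show S.evH u (τ (MvPowerSeries.C b)) = _
      rw [h3, S.evH_C]) (fun a ha => S.norm_evH_of_ρ u (S.ρ_tau τ ha)) (S.tauPt τ u) (fun l => rfl) a
  exact h.symm

end ZS

end Vale.Agent.Lib.P217
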