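import Vale.Agent.Lib.P217.ZEnd
import Vale.Agent.Lib.P217.ZLog
import Vale.Agent.Lib.P217.ZSet
import Vale.Agent.Lib.P217.ZHomK
import Vale.Agent.Lib.P217.EndSeries

set_option linter.unusedSectionVars false
set_option linter.unusedVariables false

/-!
The action of the endomorphisms of `Γ` on the universal cover of the law at a point, and the logarithm of `zmu`.

For `g : PowerSeries k`, `tser g` is its coefficientwise lift by `κ ∘ t`. The closeness of all series to be compared comes from the following: for `a, a' : E₀` with the same reduction `ρ a = ρ a'`, and points `u, u'`,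
`‖evH u a - evH u' a'‖ ≤ c` (`ZS.norm_evH_sub_le`). Note that `tser g` is the image by `evH u` of the series `lift g = mk (fun j => C (t (coeff j g)))` over `E₀`, which reduces to `g`.
Then, for any series over `E₀` (`PowerSeries` or in two variables) with the same reduction, the evaluation at close points are `c`-close (`norm_Ev_sub_le`).
-/

namespace Vale.Agent.Lib.P217

open scoped Topology
open Filter

variable {C : Type*} [NormedField C] [IsUltrametricDist C] [CompleteSpace C]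
variable {p n N : ℕ} [hp : Fact p.Prime]
variable {k : Type*} [Field k] [Fintype k] [CharP k p] {B : Type*} [CommRing B]

private lemma zs_formalGroup_ext {R : Type*} [CommRing R] {F G : FormalGroup R} (h : F.toPowerSeries = G.toPowerSeries) : F = G := by
  cases F; cases G; simp_all

namespace ZS

variable (S : ZS C p n N k B)

/-- The coefficientwise lift of a series over `k` to `O_C`, using the section `t`. -/
noncomputable def tser (g : PowerSeries k) : PowerSeries (OC C) :=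
  PowerSeries.mk fun j => S.κ (S.t (PowerSeries.coeff j g))

lemma constantCoeff_tser {g : PowerSeries k} (hg : PowerSeries.constantCoeff g = 0) :
    PowerSeries.constantCoeff (S.tser g) = 0 := by
  have h0 : PowerSeries.coeff 0 g = 0 := by simpa using hg
  have : PowerSeries.coeff 0 (S.tser g) = 0 := by
    simp only [tser, PowerSeries.coeff_mk, h0, S.ht0, map_zero]
  simpa using this

/-- The coefficientwise lift of a series over `k` to `E₀`, using the section `t`. -/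
noncomputable def liftS (g : PowerSeries k) : PowerSeries (ZE N B) :=
  PowerSeries.mk fun j => MvPowerSeries.C (S.t (PowerSeries.coeff j g))

lemma map_evH_liftS (u : S.Pt) (g : PowerSeries k) : PowerSeries.map (S.evH u) (S.liftS g) = S.tser g := by
  ext j
  simp [liftS, tser, S.evH_C]

lemma map_ρ_liftS (g : PowerSeries k) : PowerSeries.map S.ρ (S.liftS g) = g := by
  ext j
  simp [liftS, ρ, S.ρt]

lemma hF_ρ : S.F.map S.ρ = S.Γ := S.hF

lemma mulSeries_ρ (m : ℕ) : PowerSeries.map S.ρ (mulSeries S.F m) = mulSeries S.Γ m := by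
  rw [← mulSeries_map, S.hF_ρ]

/-- The basic closeness: series with the same reduction have close values. -/
lemma norm_Ev_close {σ : Type*} [Finite σ] (u u' : S.Pt) (a : σ → OC C) (ha : ∀ s, ‖(a s : C)‖ < 1)
    (f f' : MvPowerSeries σ (ZE N B)) (hff : MvPowerSeries.map S.ρ f = MvPowerSeries.map S.ρ f') :
    ‖((Ev (S.evH u) a f : OC C) : C) - (Ev (S.evH u') a f' : OC C)‖ ≤ S.c := by
  refine norm_Ev_sub_le _ _ a a ha ha f f' S.c_pos.le (fun d => S.norm_evH_sub_le u u' ?_) (fun s => by simpa using S.c_pos.le)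
  have := congrArg (MvPowerSeries.coeff d) hff
  simpa [MvPowerSeries.coeff_map] using this

/-- The value of `evPt (tser g)`. -/
lemma evPt_tser_v (x₀ : S.Pt) {g : PowerSeries k} (h : PowerSeries.constantCoeff (S.tser g) = 0)
    {G G' : FormalGroup (OC C)} (x : Pts G) :
    (evPt (S.tser g) h x : Pts G').v = ((ev1 (S.evH x₀) x.o (S.liftS g) : OC C) : C) := by
  rw [evPt_v]
  have h2 := Ev_map (S.evH x₀) (RingHom.id (OC C)) (fun _ : Unit => x.o) (fun _ => x.norm_lt) (S.liftS g)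
  have h3 : ev1 (RingHom.id _) x.o (PowerSeries.map (S.evH x₀) (S.liftS g)) = ev1 (S.evH x₀) x.o (S.liftS g) := h2
  rw [← S.map_evH_liftS x₀ g, h3]

lemma evPt_tser_o (x₀ : S.Pt) {g : PowerSeries k} (h : PowerSeries.constantCoeff (S.tser g) = 0)
    {G G' : FormalGroup (OC C)} (x : Pts G) :
    (evPt (S.tser g) h x : Pts G').o = ev1 (S.evH x₀) x.o (S.liftS g) :=
  Subtype.ext (S.evPt_tser_v x₀ h x)

/-- The value of `evPt (tser g)` is close to the value of any series reducing to `g`. -/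
lemma norm_evPt_tser_sub (x₀ : S.Pt) {g : PowerSeries k} (h : PowerSeries.constantCoeff (S.tser g) = 0)
    {G G' : FormalGroup (OC C)} (x : Pts G) (A : PowerSeries (ZE N B)) (hA : PowerSeries.map S.ρ A = g) :
    ‖(evPt (S.tser g) h x : Pts G').v - ((ev1 (S.evH x₀) x.o A : OC C) : C)‖ ≤ S.c := by
  rw [S.evPt_tser_v x₀ h x]
  refine S.norm_Ev_close x₀ x₀ (fun _ : Unit => x.o) (fun _ => x.norm_lt) (S.liftS g) A ?_
  have h1 := S.map_ρ_liftS g
  exact h1.trans hA.symm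

/-- The sum in the law at a point, as an evaluation over `E₀`. -/
lemma add_o_lawAt (x₀ : S.Pt) (x y : Pts (S.lawAt x₀).G) :
    (x + y).o = Ev (S.evH x₀) ![x.o, y.o] S.F.toPowerSeries := by
  rw [Pts.add_o]
  exact Ev_map (S.evH x₀) (RingHom.id (OC C)) ![x.o, y.o] (hb2 x y) S.F.toPowerSeries

/-- The multiple in the law at a point, as an evaluation over `E₀`. -/
lemma nsmul_o_lawAt (x₀ : S.Pt) (x : Pts (S.lawAt x₀).G) (m : ℕ) :
    (m • x).o = ev1 (S.evH x₀) x.o (mulSeries S.F m) := by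
  have h1 := ev1_mulSeries (G := (S.lawAt x₀).G) x m
  rw [← h1]
  have h2 : mulSeries (S.lawAt x₀).G m = PowerSeries.map (S.evH x₀) (mulSeries S.F m) := mulSeries_map _ _ _
  rw [h2]
  exact Ev_map (S.evH x₀) (RingHom.id (OC C)) (fun _ : Unit => x.o) (fun _ => x.norm_lt) (mulSeries S.F m)

/-- The map of the points of the law at a point given by `tser g`, for `g` an endomorphism of `Γ`, is approximately additive.

Proof. Let `L = lawAt x₀`. `zero`, `lip`: `evPt`, `norm_evPt_sub_le`. `add`: let `A = lift g = mk (fun j => C (t (coeff j g)))` over `E₀`. We have `map (evH x₀) A = tser g`.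
The reduction of `F(A(X₀), A(X₁)) - A(F(X₀, X₁))` is `Γ(g(X₀), g(X₁)) - g(Γ(X₀, X₁)) = 0`. So all coefficients of this series have `ρ = 0`, and its evaluation at `(x, x')` by `evH x₀` has norm at most `c` by `norm_evH_of_ρ`; this evaluation is
`tser g (x + x') - (tser g x + tser g x')` by `Ev_subst2`, `Ev_psubst`. -/
theorem zapprox_tser (x₀ : S.Pt) {g : PowerSeries k} (hg : IsHom S.Γ S.Γ g) :
    ZApprox (S.lawAt x₀) (evPt (S.tser g) (S.constantCoeff_tser hg.constantCoeff_eq)) := by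
  have hcA : PowerSeries.constantCoeff (S.liftS g) = 0 := by
    have h0 : PowerSeries.coeff 0 g = 0 := by simpa using hg.constantCoeff_eq
    have : PowerSeries.coeff 0 (S.liftS g) = 0 := by
      simp [liftS, h0, S.ht0]
    simpa using this
  refine ⟨?_, ?_, ?_⟩
  · apply Pts.ext
    have h := norm_ev1_le (S.tser g) (S.constantCoeff_tser hg.constantCoeff_eq) (0 : Pts (S.lawAt x₀).G)
    rw [Pts.zero_v, norm_zero] at h
    have h2 := norm_le_zero_iff.mp h
    rw [evPt_v, Pts.zero_v]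
    exact h2
  · intro x y
    exact norm_Ev_sub_le _ _ _ _ (fun _ => x.norm_lt) (fun _ => y.norm_lt) _ _ (norm_nonneg _)
      (fun d => by simp) (fun _ => le_rfl)
  · intro x y
    set A := S.liftS g with hA
    set φ := S.evH x₀ with hφ
    have hfA : MvPowerSeries.constantCoeff (A : MvPowerSeries Unit (ZE N B)) = 0 := hcA
    have hX0 : PowerSeries.HasSubst (MvPowerSeries.X 0 : MvPowerSeries (Fin 2) (ZE N B)) :=
      PowerSeries.HasSubst.X 0
    have hX1 : PowerSeries.HasSubst (MvPowerSeries.X 1 : MvPowerSeries (Fin 2) (ZE N B)) :=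
      PowerSeries.HasSubst.X 1
    have c0 : MvPowerSeries.constantCoeff
        (PowerSeries.subst (MvPowerSeries.X 0 : MvPowerSeries (Fin 2) (ZE N B)) A) = 0 :=
      PowerSeries.constantCoeff_subst_eq_zero (by simp) A hcA
    have c1 : MvPowerSeries.constantCoeff
        (PowerSeries.subst (MvPowerSeries.X 1 : MvPowerSeries (Fin 2) (ZE N B)) A) = 0 :=
      PowerSeries.constantCoeff_subst_eq_zero (by simp) A hcA
    have hF : PowerSeries.HasSubst S.F.toPowerSeries :=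
      PowerSeries.HasSubst.of_constantCoeff_zero S.F.zero_constantCoeff
    have hAs : MvPowerSeries.HasSubst ![PowerSeries.subst (MvPowerSeries.X 0 : MvPowerSeries (Fin 2) (ZE N B)) A,
        PowerSeries.subst (MvPowerSeries.X 1 : MvPowerSeries (Fin 2) (ZE N B)) A] :=
      MvPowerSeries.hasSubst_of_constantCoeff_zero (by
        intro s; fin_cases s
        · exact c0
        · exact c1)
    -- the two series in two variables over `E₀`
    set P₁ := PowerSeries.subst S.F.toPowerSeries A with hP₁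
    set P₂ := MvPowerSeries.subst ![PowerSeries.subst (MvPowerSeries.X 0 : MvPowerSeries (Fin 2) (ZE N B)) A,
        PowerSeries.subst (MvPowerSeries.X 1 : MvPowerSeries (Fin 2) (ZE N B)) A] S.F.toPowerSeries with hP₂
    have hmap₁ : MvPowerSeries.map S.ρ P₁ = PowerSeries.subst S.Γ.toPowerSeries g := by
      rw [hP₁, PowerSeries.map_subst hF]
      have e1 : PowerSeries.map S.ρ A = g := S.map_ρ_liftS g
      rw [e1]
      congr 1
      rw [← S.hF_ρ]
      rfl
    have hmap₂ : MvPowerSeries.map S.ρ P₂ = MvPowerSeries.subst ![PowerSeries.subst (MvPowerSeries.X 0 : MvPowerSeries (Fin 2) k) g,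
        PowerSeries.subst (MvPowerSeries.X 1 : MvPowerSeries (Fin 2) k) g] S.Γ.toPowerSeries := by
      rw [hP₂, MvPowerSeries.map_subst hAs]
      have e1 : PowerSeries.map S.ρ A = g := S.map_ρ_liftS g
      have e2 : MvPowerSeries.map S.ρ S.F.toPowerSeries = S.Γ.toPowerSeries := by
        rw [← S.hF_ρ]
        rfl
      rw [e2]
      congr 1
      funext s
      fin_cases s
      · simp only [Fin.zero_eta, Matrix.cons_val_zero]
        rw [PowerSeries.map_subst hX0, e1]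
        simp
      · simp only [Fin.mk_one, Matrix.cons_val_one, Matrix.cons_val_fin_one]
        rw [PowerSeries.map_subst hX1, e1]
        simp
    have hcl := S.norm_Ev_close x₀ x₀ ![x.o, y.o] (hb2 x y) P₁ P₂ (by rw [hmap₁, hmap₂]; exact hg.map_add.symm)
    -- evaluate
    have hv₁ : Ev (S.evH x₀) ![x.o, y.o] P₁ = ev1 φ (x + y).o A := by
      rw [hP₁, Ev_psubst _ hF _ (hb2 x y), S.add_o_lawAt]
    have hv₂ : Ev (S.evH x₀) ![x.o, y.o] P₂ = Ev φ ![ev1 φ x.o A, ev1 φ y.o A] S.F.toPowerSeries := by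
      rw [hP₂, Ev_subst2 _ _ _ c0 c1 _ (hb2 x y), Ev_psubst _ hX0 _ (hb2 x y), Ev_psubst _ hX1 _ (hb2 x y)]
      simp only [Ev_X]
      rfl
    rw [hv₁, hv₂] at hcl
    have e1 : (evPt (S.tser g) (S.constantCoeff_tser hg.constantCoeff_eq) (x + y) : Pts (S.lawAt x₀).G).v = ((ev1 φ (x + y).o A : OC C) : C) :=
      S.evPt_tser_v x₀ _ _
    have e2 : ((evPt (S.tser g) (S.constantCoeff_tser hg.constantCoeff_eq) x : Pts (S.lawAt x₀).G) +
        (evPt (S.tser g) (S.constantCoeff_tser hg.constantCoeff_eq) y : Pts (S.lawAt x₀).G)).o = Ev φ ![ev1 φ x.o A, ev1 φ y.o A] S.F.toPowerSeries := by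
      rw [S.add_o_lawAt, S.evPt_tser_o x₀ _ x, S.evPt_tser_o x₀ _ y]
    rw [e1]
    have e3 : ((evPt (S.tser g) (S.constantCoeff_tser hg.constantCoeff_eq) x : Pts (S.lawAt x₀).G) +
        (evPt (S.tser g) (S.constantCoeff_tser hg.constantCoeff_eq) y : Pts (S.lawAt x₀).G)).v = ((Ev φ ![ev1 φ x.o A, ev1 φ y.o A] S.F.toPowerSeries : OC C) : C) :=
      congrArg (fun t : OC C => (t : C)) e2
    rw [e3]
    exact hcl

/-- The endomorphism of the universal cover given by an endomorphism of `Γ`. -/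
noncomputable def homZ (x₀ : S.Pt) {g : PowerSeries k} (hg : IsHom S.Γ S.Γ g) : AddMonoid.End (ZCov (S.lawAt x₀)) :=
  zEnd (S.zapprox_tser x₀ hg)

/-- Depends on the series only; for rewriting. -/
lemma homZ_congr (x₀ : S.Pt) {g g' : PowerSeries k} (hg : IsHom S.Γ S.Γ g) (hg' : IsHom S.Γ S.Γ g') (h : g = g') :
    S.homZ x₀ hg = S.homZ x₀ hg' := by
  subst h; rfl

/-- Composition. Proof: `zEnd_comp`, `zEnd_eq_of_close`: `tser g (tser f x)` and `tser (g ∘ f) x` are `c`-close, by the remark at the beginning of the file. -/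
theorem homZ_comp (x₀ : S.Pt) {f g : PowerSeries k} (hf : IsHom S.Γ S.Γ f) (hg : IsHom S.Γ S.Γ g) :
    S.homZ x₀ (hf.comp hg) = S.homZ x₀ hg * S.homZ x₀ hf := by
  have hz := zEnd_comp (S.zapprox_tser x₀ hg) (S.zapprox_tser x₀ hf)
  show zEnd _ = zEnd _ * zEnd _
  rw [← hz]
  refine zEnd_eq_of_close _ _ fun x => ?_
  have hcA : PowerSeries.constantCoeff (S.liftS f) = 0 := by
    have h0 : PowerSeries.coeff 0 f = 0 := by simpa using hf.constantCoeff_eq
    have : PowerSeries.coeff 0 (S.liftS f) = 0 := by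
      simp [liftS, h0, S.ht0]
    simpa using this
  have hs : PowerSeries.HasSubst (S.liftS f) := PowerSeries.HasSubst.of_constantCoeff_zero' hcA
  have h1 := S.norm_evPt_tser_sub x₀ (S.constantCoeff_tser (hf.comp hg).constantCoeff_eq) (G' := (S.lawAt x₀).G) x
    (PowerSeries.subst (S.liftS f) (S.liftS g)) (by
      have e1 : MvPowerSeries.map S.ρ (S.liftS f) = f := S.map_ρ_liftS f
      have e2 : PowerSeries.map S.ρ (S.liftS g) = g := S.map_ρ_liftS g
      show MvPowerSeries.map S.ρ _ = _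
      rw [PowerSeries.map_subst hs, e1, e2])
  have e1 : ev1 (S.evH x₀) x.o (PowerSeries.subst (S.liftS f) (S.liftS g)) =
      ev1 (S.evH x₀) (ev1 (S.evH x₀) x.o (S.liftS f)) (S.liftS g) := ev1_subst _ hs x.norm_o_lt
  rw [e1] at h1
  have e2 : (evPt (S.tser g) (S.constantCoeff_tser hg.constantCoeff_eq)
      (evPt (S.tser f) (S.constantCoeff_tser hf.constantCoeff_eq) x : Pts (S.lawAt x₀).G) : Pts (S.lawAt x₀).G).v =
      ((ev1 (S.evH x₀) (ev1 (S.evH x₀) x.o (S.liftS f)) (S.liftS g) : OC C) : C) := by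
    rw [S.evPt_tser_v x₀ _ _, S.evPt_tser_o x₀ _ x]
  show ‖_ - (evPt (S.tser g) (S.constantCoeff_tser hg.constantCoeff_eq)
      (evPt (S.tser f) (S.constantCoeff_tser hf.constantCoeff_eq) x : Pts (S.lawAt x₀).G) : Pts (S.lawAt x₀).G).v‖ ≤ _
  rw [e2]
  exact h1

/-- Sums. Proof: `zEnd_add`, `zEnd_eq_of_close`: `tser f x +_L tser g x` and `tser (Γ(f, g)) x` are `c`-close. -/
theorem homZ_add (x₀ : S.Pt) {f g : PowerSeries k} (hf : IsHom S.Γ S.Γ f) (hg : IsHom S.Γ S.Γ g) :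
    S.homZ x₀ (hf.add hg) = S.homZ x₀ hf + S.homZ x₀ hg := by
  have hz := zEnd_add (S.zapprox_tser x₀ hf) (S.zapprox_tser x₀ hg)
  show zEnd _ = zEnd _ + zEnd _
  rw [← hz]
  refine zEnd_eq_of_close _ _ fun x => ?_
  have hc1 : PowerSeries.constantCoeff (S.liftS f) = 0 := by
    have h0 : PowerSeries.coeff 0 f = 0 := by simpa using hf.constantCoeff_eq
    have : PowerSeries.coeff 0 (S.liftS f) = 0 := by
      simp [liftS, h0, S.ht0]
    simpa using this
  have hc2 : PowerSeries.constantCoeff (S.liftS g) = 0 := by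
    have h0 : PowerSeries.coeff 0 g = 0 := by simpa using hg.constantCoeff_eq
    have : PowerSeries.coeff 0 (S.liftS g) = 0 := by
      simp [liftS, h0, S.ht0]
    simpa using this
  have hs : MvPowerSeries.HasSubst ![(S.liftS f : PowerSeries (ZE N B)), S.liftS g] :=
    MvPowerSeries.hasSubst_of_constantCoeff_zero (by
      intro s; fin_cases s
      · exact hc1
      · exact hc2)
  have h1 := S.norm_evPt_tser_sub x₀ (S.constantCoeff_tser (hf.add hg).constantCoeff_eq) (G' := (S.lawAt x₀).G) x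
    (MvPowerSeries.subst ![(S.liftS f : PowerSeries (ZE N B)), S.liftS g] S.F.toPowerSeries) (by
      show MvPowerSeries.map S.ρ _ = _
      rw [MvPowerSeries.map_subst hs]
      have e2 : MvPowerSeries.map S.ρ S.F.toPowerSeries = S.Γ.toPowerSeries := by
        rw [← S.hF_ρ]
        rfl
      rw [e2]
      congr 1
      funext s
      fin_cases s
      · exact S.map_ρ_liftS f
      · exact S.map_ρ_liftS g)
  have e1 : ev1 (S.evH x₀) x.o (MvPowerSeries.subst ![(S.liftS f : PowerSeries (ZE N B)), S.liftS g] S.F.toPowerSeries) =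
      Ev (S.evH x₀) ![ev1 (S.evH x₀) x.o (S.liftS f), ev1 (S.evH x₀) x.o (S.liftS g)] S.F.toPowerSeries :=
    Ev_subst2 (S.evH x₀) _ _ hc1 hc2 (fun _ : Unit => x.o) (fun _ => x.norm_lt) S.F.toPowerSeries
  rw [e1] at h1
  have e2 : ((evPt (S.tser f) (S.constantCoeff_tser hf.constantCoeff_eq) x : Pts (S.lawAt x₀).G) +
      (evPt (S.tser g) (S.constantCoeff_tser hg.constantCoeff_eq) x : Pts (S.lawAt x₀).G)).o =
      Ev (S.evH x₀) ![ev1 (S.evH x₀) x.o (S.liftS f), ev1 (S.evH x₀) x.o (S.liftS g)] S.F.toPowerSeries := by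
    rw [S.add_o_lawAt, S.evPt_tser_o x₀ _ x, S.evPt_tser_o x₀ _ x]
  have e3 := congrArg (fun t : OC C => (t : C)) e2
  show ‖_ - ((evPt (S.tser f) (S.constantCoeff_tser hf.constantCoeff_eq) x : Pts (S.lawAt x₀).G) +
      (evPt (S.tser g) (S.constantCoeff_tser hg.constantCoeff_eq) x : Pts (S.lawAt x₀).G)).v‖ ≤ _
  have e4 : ((evPt (S.tser f) (S.constantCoeff_tser hf.constantCoeff_eq) x : Pts (S.lawAt x₀).G) +
      (evPt (S.tser g) (S.constantCoeff_tser hg.constantCoeff_eq) x : Pts (S.lawAt x₀).G)).v =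
      ((Ev (S.evH x₀) ![ev1 (S.evH x₀) x.o (S.liftS f), ev1 (S.evH x₀) x.o (S.liftS g)] S.F.toPowerSeries : OC C) : C) := e3
  rw [e4]
  exact h1

/-- Multiplications. Proof: `zEnd_nsmul`, `zEnd_eq_of_close`: `m • x` is the evaluation of `mulSeries (F.map (evH x₀)) m` at `x`; `mulSeries_map`. This reduces to `mulSeries Γ m`. -/
theorem homZ_mulSeries (x₀ : S.Pt) (m : ℕ) :
    S.homZ x₀ (IsHom.mulSeries (F := S.Γ) m) = m • (1 : AddMonoid.End (ZCov (S.lawAt x₀))) := by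
  rw [← zEnd_nsmul (S.lawAt x₀) m]
  refine zEnd_eq_of_close _ _ fun x => ?_
  have h1 := S.norm_evPt_tser_sub x₀ (S.constantCoeff_tser (IsHom.mulSeries (F := S.Γ) m).constantCoeff_eq) (G' := (S.lawAt x₀).G) x
    (mulSeries S.F m) (S.mulSeries_ρ m)
  have e1 := congrArg (fun t : OC C => (t : C)) (S.nsmul_o_lawAt x₀ x m)
  have e2 : (m • x).v = ((ev1 (S.evH x₀) x.o (mulSeries S.F m) : OC C) : C) := e1
  show ‖_ - (m • x).v‖ ≤ _
  rw [e2]
  exact h1

theorem homZ_X (x₀ : S.Pt) : S.homZ x₀ (isHom_X S.Γ) = 1 := by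
  rw [← zEnd_id (S.lawAt x₀)]
  refine zEnd_eq_of_close _ _ fun x => ?_
  have h1 := S.norm_evPt_tser_sub x₀ (S.constantCoeff_tser (isHom_X S.Γ).constantCoeff_eq) (G' := (S.lawAt x₀).G) x
    PowerSeries.X (by simp)
  rw [ev1_X] at h1
  exact h1

theorem homZ_zero (x₀ : S.Pt) : S.homZ x₀ (isHom_zero S.Γ) = 0 := by
  have h := S.homZ_mulSeries x₀ 0
  rw [zero_smul] at h
  rw [← h]
  exact S.homZ_congr x₀ _ _ (by simp [mulSeries])

theorem nm_homZ_le (x₀ : S.Pt) {g : PowerSeries k} (hg : IsHom S.Γ S.Γ g) (y : ZCov (S.lawAt x₀)) :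
    ZCov.nm (S.homZ x₀ hg y) ≤ ZCov.nm y := nm_zEnd_le _ y

theorem homZ_iter (x₀ : S.Pt) {g : PowerSeries k} (hg : IsHom S.Γ S.Γ g) (m : ℕ) :
    S.homZ x₀ (isHom_iterS hg m) = S.homZ x₀ hg ^ m := by
  induction m with
  | zero =>
    rw [pow_zero]
    exact S.homZ_X x₀
  | succ m ih =>
    rw [pow_succ', ← ih]
    exact S.homZ_comp x₀ (isHom_iterS hg m) hg


private lemma subst_C_mul_X' {a : PowerSeries k} (ha : PowerSeries.HasSubst a) (r : k) :
    PowerSeries.subst a (PowerSeries.C r * PowerSeries.X : PowerSeries k) = PowerSeries.C r * a := by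
  rw [PowerSeries.subst_mul ha, PowerSeries.subst_X ha]
  congr 1
  exact PowerSeries.subst_C r

private lemma hasSubst_C_mul_X (r : k) : PowerSeries.HasSubst (PowerSeries.C r * PowerSeries.X : PowerSeries k) :=
  PowerSeries.HasSubst.of_constantCoeff_zero' (by simp)

private lemma iterS_X_pow (w : ℕ) : iterS (PowerSeries.X ^ p : PowerSeries k) w = PowerSeries.X ^ (p ^ w) := by
  induction w with
  | zero => simp [iterS]
  | succ w ih =>
    have hs : PowerSeries.HasSubst (PowerSeries.X ^ (p ^ w) : PowerSeries k) :=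
      PowerSeries.HasSubst.of_constantCoeff_zero' (by
        rw [map_pow, PowerSeries.constantCoeff_X, zero_pow (pow_ne_zero _ hp.out.ne_zero)])
    show PowerSeries.subst (iterS (PowerSeries.X ^ p : PowerSeries k) w) (PowerSeries.X ^ p : PowerSeries k) = _
    rw [ih, PowerSeries.subst_pow hs, PowerSeries.subst_X hs, ← pow_mul, pow_succ]

/-- The multiplication by an element of `k`. -/
noncomputable def cZ (x₀ : S.Pt) (a : k) : AddMonoid.End (ZCov (S.lawAt x₀)) := S.homZ x₀ (S.hω a)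

/-- The Frobenius. -/
noncomputable def phiZ (x₀ : S.Pt) : AddMonoid.End (ZCov (S.lawAt x₀)) := S.homZ x₀ S.hfr

theorem cZ_zero (x₀ : S.Pt) : S.cZ x₀ 0 = 0 := by
  rw [← S.homZ_zero x₀]
  exact S.homZ_congr x₀ _ _ (by simp)

theorem cZ_one (x₀ : S.Pt) : S.cZ x₀ 1 = 1 := by
  rw [← S.homZ_X x₀]
  exact S.homZ_congr x₀ _ _ (by simp)

theorem cZ_mul (x₀ : S.Pt) (a b : k) : S.cZ x₀ (a * b) = S.cZ x₀ a * S.cZ x₀ b := by
  have h := S.homZ_comp x₀ (S.hω b) (S.hω a)
  show _ = S.homZ x₀ (S.hω a) * S.homZ x₀ (S.hω b)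
  rw [← h]
  refine S.homZ_congr x₀ _ _ ?_
  rw [subst_C_mul_X' (hasSubst_C_mul_X b), map_mul, mul_assoc]

/-- `(X ^ p) ∘ (a X) = a ^ p X ^ p = (a ^ p X) ∘ X ^ p`. -/
theorem phiZ_cZ (x₀ : S.Pt) (a : k) : S.phiZ x₀ * S.cZ x₀ a = S.cZ x₀ (a ^ p) * S.phiZ x₀ := by
  have h1 := S.homZ_comp x₀ (S.hω a) S.hfr
  have h2 := S.homZ_comp x₀ S.hfr (S.hω (a ^ p))
  show S.homZ x₀ S.hfr * S.homZ x₀ (S.hω a) = S.homZ x₀ (S.hω (a ^ p)) * S.homZ x₀ S.hfr
  rw [← h1, ← h2]
  refine S.homZ_congr x₀ _ _ ?_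
  have hX : PowerSeries.HasSubst (PowerSeries.X ^ p : PowerSeries k) :=
    PowerSeries.HasSubst.of_constantCoeff_zero' (by simp [hp.out.ne_zero])
  rw [subst_C_mul_X' hX, PowerSeries.subst_pow (hasSubst_C_mul_X a), PowerSeries.subst_X (hasSubst_C_mul_X a), mul_pow, map_pow]

/-- `X ^ (p ^ n)` is `[p]_Γ`, and it is the `n`-th iterate of `X ^ p`. -/
theorem phiZ_pow (x₀ : S.Pt) : S.phiZ x₀ ^ n = p • (1 : AddMonoid.End (ZCov (S.lawAt x₀))) := by
  have h1 := S.homZ_iter x₀ S.hfr n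
  have h2 := S.homZ_mulSeries x₀ p
  rw [← h2]
  show S.homZ x₀ S.hfr ^ n = _
  rw [← h1]
  refine S.homZ_congr x₀ _ _ ?_
  rw [iterS_X_pow, S.hΓp]

theorem nm_cZ_le (x₀ : S.Pt) (a : k) (y : ZCov (S.lawAt x₀)) : ZCov.nm (S.cZ x₀ a y) ≤ ZCov.nm y := S.nm_homZ_le x₀ _ y

theorem nm_phiZ_le (x₀ : S.Pt) (y : ZCov (S.lawAt x₀)) : ZCov.nm (S.phiZ x₀ y) ≤ ZCov.nm y := S.nm_homZ_le x₀ _ y

/-- The defect of additivity of `cZ`. Proof: from `exists_defect_k`, `homZ_add`, `homZ_comp`, `homZ_mulSeries`: with `e` as in `exists_defect_k`,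
`cZ (a + b) + (p - 1) • (cZ a + cZ b) = p • homZ e`. So take `w = homZ e y - cZ a y - cZ b y`. -/
theorem exists_defect (x₀ : S.Pt) (a b : k) (y : ZCov (S.lawAt x₀)) :
    ∃ w, ZCov.nm w ≤ ZCov.nm y ∧ S.cZ x₀ (a + b) y = S.cZ x₀ a y + S.cZ x₀ b y + p • w := by
  have hn : 1 ≤ n := by have := S.hN; omega
  obtain ⟨e, he, heq⟩ := exists_defect_k (p := p) (Γ := S.Γ) hn S.hk S.hfr S.hω a b
  -- the left side
  have hs := (S.hω a).add (S.hω b)
  have hm := IsHom.mulSeries (F := S.Γ) (p - 1)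
  have hT := (S.hω (a + b)).add (hs.comp hm)
  have h1 : S.homZ x₀ hT = S.cZ x₀ (a + b) + (p - 1) • (S.cZ x₀ a + S.cZ x₀ b) := by
    rw [S.homZ_add x₀ (S.hω (a + b)) (hs.comp hm), S.homZ_comp x₀ hs hm, S.homZ_add x₀ (S.hω a) (S.hω b), S.homZ_mulSeries x₀ (p - 1)]
    congr 1
  -- the right side
  have hq := (IsHom.mulSeries (F := S.Γ) p).comp he
  have h2 : S.homZ x₀ hq = p • S.homZ x₀ he := by
    rw [S.homZ_comp x₀ (IsHom.mulSeries (F := S.Γ) p) he, S.homZ_mulSeries x₀ p, mul_smul_comm, mul_one]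
  have h3 : S.homZ x₀ hT = S.homZ x₀ hq := by
    refine S.homZ_congr x₀ _ _ ?_
    rw [heq, S.hΓp]
  rw [h1, h2] at h3
  have h4 := DFunLike.congr_fun h3 y
  refine ⟨S.homZ x₀ he y - (S.cZ x₀ a y + S.cZ x₀ b y), ?_, ?_⟩
  · rw [sub_eq_add_neg]
    refine (ZCov.nm_add _ _).trans (max_le (S.nm_homZ_le x₀ he y) ?_)
    rw [ZCov.nm_neg]
    exact (ZCov.nm_add _ _).trans (max_le (S.nm_cZ_le x₀ a y) (S.nm_cZ_le x₀ b y))
  · have h5 : S.cZ x₀ (a + b) y + (p - 1) • (S.cZ x₀ a y + S.cZ x₀ b y) = p • S.homZ x₀ he y := h4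
    obtain ⟨q, hq'⟩ : ∃ q, p = q + 1 := ⟨p - 1, (Nat.sub_add_cancel hp.out.one_le).symm⟩
    have hq1 : p - 1 = q := by omega
    rw [hq1] at h5
    have h6 : p • (S.cZ x₀ a y + S.cZ x₀ b y) = q • (S.cZ x₀ a y + S.cZ x₀ b y) + (S.cZ x₀ a y + S.cZ x₀ b y) := by
      calc p • (S.cZ x₀ a y + S.cZ x₀ b y) = (q + 1) • (S.cZ x₀ a y + S.cZ x₀ b y) := by rw [← hq']
        _ = _ := succ_nsmul _ _
    rw [smul_sub, ← h5, h6]
    abel

/-- Existence of the series `1 + p ^ (s + 1) [d] Φ ^ z`: take `g = Γ(X, d X ^ (p ^ w))` with `w = z + n (s + 1)`.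
`d X ^ (p ^ w)` is the composite of `X ^ p` (`w` times) and `C d * X`. Its `homZ` is `cZ d * phiZ ^ w = cZ d * phiZ ^ z * (phiZ ^ n) ^ (s + 1) = p ^ (s + 1) • (cZ d * phiZ ^ z)`.
The coefficient of `X` in `g` is `1`, as `w ≥ 1` (`coeff_one_subst_pair`). -/
theorem exists_digit (x₀ : S.Pt) (d : k) (z s : ℕ) :
    ∃ (g : PowerSeries k) (hg : IsHom S.Γ S.Γ g), IsUnit (PowerSeries.coeff 1 g) ∧
      S.homZ x₀ hg = 1 + (p ^ (s + 1) : ℕ) • (S.cZ x₀ d * S.phiZ x₀ ^ z) := by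
  have hn : 1 ≤ n := by have := S.hN; omega
  set w := z + n * (s + 1) with hw
  have hw1 : w ≠ 0 := by
    have : 0 < n * (s + 1) := Nat.mul_pos (by omega) (Nat.succ_pos s)
    omega
  have hf := isHom_iterS S.hfr w
  have hh := hf.comp (S.hω d)
  have hg := (isHom_X S.Γ).add hh
  refine ⟨_, hg, ?_, ?_⟩
  · have h1 := coeff_one_subst_pair S.Γ (isHom_X S.Γ).constantCoeff_eq hh.constantCoeff_eq
    rw [h1, PowerSeries.coeff_one_X, coeff_one_subst hf.constantCoeff_eq, iterS_X_pow, PowerSeries.coeff_X_pow]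
    have hne : ¬ (1 = p ^ w) := by
      intro h
      have : p ^ w > 1 := Nat.one_lt_pow hw1 hp.out.one_lt
      omega
    rw [if_neg hne, mul_zero, add_zero]
    exact isUnit_one
  · rw [S.homZ_add x₀ (isHom_X S.Γ) hh, S.homZ_X x₀, S.homZ_comp x₀ hf (S.hω d), S.homZ_iter x₀ S.hfr w]
    congr 1
    show S.cZ x₀ d * S.phiZ x₀ ^ w = _
    rw [hw, pow_add, pow_mul, S.phiZ_pow x₀, ← mul_assoc]
    have h2 : (p • (1 : AddMonoid.End (ZCov (S.lawAt x₀)))) ^ (s + 1) = (p ^ (s + 1) : ℕ) • (1 : AddMonoid.End (ZCov (S.lawAt x₀))) := by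
      rw [smul_pow, one_pow]
    rw [h2, mul_smul_comm, mul_one]

/-- The additive map `y ↦ log_(L_u) (zmu y)`, for `y` in the universal cover of the law at `x₀`, and `u` a point. -/
noncomputable def Theta (x₀ u : S.Pt) : ZCov (S.lawAt x₀) →+ C :=
  haveI := S.neZero_p
  (zlogHom (S.lawAt u)).comp (S.close_lawAt x₀ u).zmuHom

theorem Theta_apply (x₀ u : S.Pt) (y : ZCov (S.lawAt x₀)) :
    S.Theta x₀ u y = zlog (S.lawAt u) (zmu (S.lawAt x₀) (S.lawAt u) y) := rfl

/-- `zmu_self`. -/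
theorem Theta_self (x₀ : S.Pt) (y : ZCov (S.lawAt x₀)) :
    S.Theta x₀ x₀ y = zlog (S.lawAt x₀) (y.seq 0) := by
  rw [Theta_apply, zmu_self]

/-- By `norm_zlog_le`, `ZClose.norm_zmu_le`. -/
theorem norm_Theta_le {s : ℝ} (hs : s < 1) :
    ∃ Bd : ℝ, 0 ≤ Bd ∧ ∀ (x₀ u : S.Pt) (y : ZCov (S.lawAt x₀)), ZCov.nm y ≤ s → ‖S.Theta x₀ u y‖ ≤ Bd := by
  have := S.neZero_p
  obtain ⟨Bd, hBd, h⟩ := norm_zlog_le (C := C) (p := p) (n := n) (t := max s S.c) (max_lt hs S.hc1)
  refine ⟨Bd, hBd, fun x₀ u y hy => ?_⟩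
  rw [Theta_apply]
  refine h (S.lawAt u) (le_max_right _ _) _ ?_
  exact ((S.close_lawAt x₀ u).norm_zmu_le y).trans (hy.trans (le_max_left _ _))

/-- `Theta x₀ x₀` is nonzero: by `norm_zlog_of_small`, with the point `p ^ 2` and `ZCov.exists_seq_zero`. -/
theorem exists_Theta_ne_zero [IsAlgClosed C] (x₀ : S.Pt) : ∃ y, S.Theta x₀ x₀ y ≠ 0 := by
  have := S.neZero_p
  have hp1 := S.norm_p_lt_one
  have hp0 : 0 < ‖(p : C)‖ := norm_pos_iff.mpr S.hp0
  have hlt : ‖((p : C) ^ 2)‖ < ‖(p : C)‖ := by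
    rw [norm_pow]
    nlinarith
  let z : Pts (S.lawAt x₀).G := Pts.mk ((p : C) ^ 2) (hlt.trans hp1)
  obtain ⟨y, hy⟩ := ZCov.exists_seq_zero z
  refine ⟨y, ?_⟩
  rw [S.Theta_self, hy]
  have h := norm_zlog_of_small (S.lawAt x₀) z hlt
  intro h0
  rw [h0, norm_zero] at h
  have h2 : ‖((p : C) ^ 2)‖ = 0 := h.symm
  rw [norm_pow] at h2
  have : 0 < ‖(p : C)‖ ^ 2 := by positivity
  linarith

private lemma hmapG_aux (u : S.Pt) (τ : ZE N B ≃ₐ[B] ZE N B) :
    (S.F.map (τ : ZE N B →+* ZE N B)).map (S.evH u) = S.F.map (S.evH (S.tauPt τ u)) := by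
  have h1 : (S.evH u).comp (τ : ZE N B →+* ZE N B) = S.evH (S.tauPt τ u) := by
    ext1 a
    exact (S.evH_tauPt τ u a).symm
  rw [← h1]
  apply zs_formalGroup_ext
  show MvPowerSeries.map (S.evH u) (MvPowerSeries.map (τ : ZE N B →+* ZE N B) S.F.toPowerSeries) =
    MvPowerSeries.map ((S.evH u).comp (τ : ZE N B →+* ZE N B)) S.F.toPowerSeries
  ext d
  simp [MvPowerSeries.coeff_map]

private lemma hK'_aux (u : S.Pt) (τ : ZE N B ≃ₐ[B] ZE N B) {K : PowerSeries (ZE N B)}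
    (hK : IsHom S.F (S.F.map (τ : ZE N B →+* ZE N B)) K) :
    IsHom (S.F.map (S.evH u)) (S.F.map (S.evH (S.tauPt τ u))) (PowerSeries.map (S.evH u) K) := by
  have := hK.map' (S.evH u)
  rw [hmapG_aux] at this
  exact this

private lemma hcl_aux (x₀ u : S.Pt) {K : PowerSeries (ZE N B)} {g : PowerSeries k} (hg : IsHom S.Γ S.Γ g)
    (hKg : PowerSeries.map S.ρ K = g) (x : Pts (S.lawAt x₀).G) :
    ‖(evPt (S.tser g) (S.constantCoeff_tser hg.constantCoeff_eq) x : Pts (S.lawAt x₀).G).v -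
      ((ev1 (S.evH u) x.o K : OC C) : C)‖ ≤ S.c := by
  rw [S.evPt_tser_v x₀ _ x]
  refine S.norm_Ev_close x₀ u (fun _ : Unit => x.o) (fun _ => x.norm_lt) (S.liftS g) K ?_
  exact (S.map_ρ_liftS g).trans hKg.symm

private lemma evPt_map_v {L₁ L₂ : FormalGroup (OC C)} (u : S.Pt) {K : PowerSeries (ZE N B)}
    (h : PowerSeries.constantCoeff (PowerSeries.map (S.evH u) K) = 0) {L : FormalGroup (OC C)} (x : Pts L) :
    (evPt (PowerSeries.map (S.evH u) K) h (Pts.cast x : Pts L₁) : Pts L₂).v = ((ev1 (S.evH u) x.o K : OC C) : C) := by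
  rw [evPt_v]
  have h2 := Ev_map (S.evH u) (RingHom.id (OC C)) (fun _ : Unit => x.o) (fun _ => x.norm_lt) K
  have h3 : ev1 (RingHom.id _) x.o (PowerSeries.map (S.evH u) K) = ev1 (S.evH u) x.o K := h2
  exact congrArg (fun t : OC C => (t : C)) h3

private lemma zmu_lift_aux (x₀ u : S.Pt) (τ : ZE N B ≃ₐ[B] ZE N B) {K : PowerSeries (ZE N B)}
    (hK : IsHom S.F (S.F.map (τ : ZE N B →+* ZE N B)) K) {g : PowerSeries k} (hg : IsHom S.Γ S.Γ g)
    (hKg : PowerSeries.map S.ρ K = g) (y : ZCov (S.lawAt x₀)) :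
    zmu (S.lawAt x₀) (S.lawAt (S.tauPt τ u)) (S.homZ x₀ hg y) =
      (evPt (PowerSeries.map (S.evH u) K) (S.hK'_aux u τ hK).constantCoeff_eq (zmu (S.lawAt x₀) (S.lawAt u) y) : Pts (S.lawAt (S.tauPt τ u)).G) := by
  have hcl : ∀ x : Pts (S.lawAt x₀).G, ‖(evPt (S.tser g) (S.constantCoeff_tser hg.constantCoeff_eq) x : Pts (S.lawAt x₀).G).v -
      (evPt (PowerSeries.map (S.evH u) K) (S.hK'_aux u τ hK).constantCoeff_eq (Pts.cast x : Pts (S.lawAt u).G) : Pts (S.lawAt (S.tauPt τ u)).G).v‖ ≤ (S.lawAt x₀).c := by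
    intro x
    rw [S.evPt_map_v u _ x]
    exact S.hcl_aux x₀ u hg hKg x
  exact (zmu_hom (S.close_lawAt x₀ u) (S.close_lawAt x₀ (S.tauPt τ u)) (S.hK'_aux u τ hK) (S.zapprox_tser x₀ hg) hcl y).symm

/-- The fundamental relation: a lift `K : F → τ^* F` of an endomorphism `g` of `Γ` transports `Theta` at `u` to `Theta` at `τ u`, up to a scalar.

Proof. Let `L₁ = lawAt u`, `L₂ = lawAt (tauPt τ u)`. `K' = map (evH u) K` is a homomorphism from `L₁.G` to `L₂.G`: apply `IsHom.map'` to `hK` and `evH_tauPt`. Its linear coefficient is `evH u (coeff 1 K)`.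
By `zmu_hom` (`f = evPt (tser g)`; closeness since `K` and `lift g` have the same reduction `g`) and `zlog_hom`:
`log_L₂ (zmu L L₂ (homZ g y)) = log_L₂ (K' (zmu L L₁ y)) = evH u (coeff 1 K) * log_L₁ (zmu L L₁ y)`. -/
theorem Theta_lift (x₀ u : S.Pt) (τ : ZE N B ≃ₐ[B] ZE N B) {K : PowerSeries (ZE N B)}
    (hK : IsHom S.F (S.F.map (τ : ZE N B →+* ZE N B)) K) {g : PowerSeries k} (hg : IsHom S.Γ S.Γ g)
    (hKg : PowerSeries.map S.ρ K = g) (y : ZCov (S.lawAt x₀)) :
    S.Theta x₀ (S.tauPt τ u) (S.homZ x₀ hg y) = ((S.evH u (PowerSeries.coeff 1 K) : OC C) : C) * S.Theta x₀ u y := by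
  have := S.neZero_p
  rw [Theta_apply, Theta_apply, S.zmu_lift_aux x₀ u τ hK hg hKg y]
  have h := zlog_hom (L := S.lawAt u) (L' := S.lawAt (S.tauPt τ u)) (S.hK'_aux u τ hK) (zmu (S.lawAt x₀) (S.lawAt u) y)
  rw [h, PowerSeries.coeff_map]

end ZS

end Vale.Agent.Lib.P217
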