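import Vale.Agent.Lib.P217.Mu
import Vale.Agent.Lib.P217.Weier
import Vale.Agent.Lib.P217.Tors
import Vale.Agent.Lib.P217.EndSeries

set_option linter.unusedSectionVars false
set_option linter.unusedVariables false

/-!
Formal group laws over the valuation ring of a complete ultrametric field, of arbitrary characteristic, whose `[p]` is
close to `X ^ (p ^ n)` (all coefficients of `[p] - X ^ (p ^ n)` have norm at most `c < 1`).
Compared with `Law`, there is no vanishing condition on the coefficients of `[p]`; this is the setting of the mixed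
characteristic part of the argument.
-/

namespace Vale.Agent.Lib.P217

open scoped Topology
open Filter

/-- A commutative formal group over `O_C` with `[p] ≡ X ^ (p ^ n)` modulo `c`. -/
structure ZLaw (C : Type*) [NormedField C] [IsUltrametricDist C] (p n : ℕ) where
  /-- the formal group -/
  G : FormalGroup (OC C)
  /-- commutativity -/
  comm : G.IsComm
  /-- the closeness constant -/
  c : ℝ
  c_nonneg : 0 ≤ c
  c_lt_one : c < 1
  hn : 1 ≤ n
  coeff_p : ∀ j, ‖((PowerSeries.coeff j (mulSeries G p) : OC C) : C) - (if j = p ^ n then 1 else 0)‖ ≤ c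

variable {C : Type*} [NormedField C] [IsUltrametricDist C] [CompleteSpace C]
variable {p n : ℕ}

instance (L : ZLaw C p n) : L.G.IsComm := L.comm

section generic

variable {G G' : FormalGroup (OC C)}

/-- Two close laws have close sums at close points. Proof: `norm_Ev_sub_le`. -/
lemma zn_add_sub_add_of_close {ε : ℝ} (hε : 0 ≤ ε)
    (hc : ∀ d, ‖((MvPowerSeries.coeff d G.toPowerSeries : OC C) : C) - (MvPowerSeries.coeff d G'.toPowerSeries : OC C)‖ ≤ ε)
    (x y : Pts G) (x' y' : Pts G') (hx : ‖x.v - x'.v‖ ≤ ε) (hy : ‖y.v - y'.v‖ ≤ ε) :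
    ‖(x + y).v - (x' + y').v‖ ≤ ε := by
  refine norm_Ev_sub_le (RingHom.id _) (RingHom.id _) ![x.o, y.o] ![x'.o, y'.o] (hb2 x y) (hb2 x' y')
    G.toPowerSeries G'.toPowerSeries hε (fun d => by simpa using hc d) ?_
  intro s; fin_cases s
  · exact hx
  · exact hy

/-- Two close laws have close multiples at close points. Proof: induction on `m`, by `zn_add_sub_add_of_close`. -/
lemma zn_nsmul_sub_of_close {ε : ℝ} (hε : 0 ≤ ε)
    (hc : ∀ d, ‖((MvPowerSeries.coeff d G.toPowerSeries : OC C) : C) - (MvPowerSeries.coeff d G'.toPowerSeries : OC C)‖ ≤ ε)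
    (x : Pts G) (x' : Pts G') (hx : ‖x.v - x'.v‖ ≤ ε) (m : ℕ) :
    ‖(m • x).v - (m • x').v‖ ≤ ε := by
  induction m with
  | zero => simpa using hε
  | succ m ih =>
    rw [succ_nsmul, succ_nsmul]
    exact zn_add_sub_add_of_close hε hc _ _ _ _ ih hx

/-- `‖a ^ (p ^ n) - b ^ (p ^ n)‖ ≤ max (‖p‖ * ‖a - b‖) (‖a - b‖ ^ (p ^ n))` in `O_C`.
Proof: induction on `n` from the case `p`: writing `a = b + δ`, the binomial expansion
`(b + δ) ^ p - b ^ p = δ ^ p + ∑_{0 < i < p} choose p i b ^ (p - i) δ ^ i`, where `p ∣ choose p i`; so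
`‖a ^ p - b ^ p‖ ≤ max (‖p‖ ‖δ‖) (‖δ‖ ^ p)`. For the induction: let `δ' = a ^ p - b ^ p`, then
`‖(a ^ p) ^ (p ^ n) - (b ^ p) ^ (p ^ n)‖ ≤ max (‖p‖ ‖δ'‖) (‖δ'‖ ^ (p ^ n))`, etc. (Use `‖p‖ ≤ 1`, `‖δ‖ ≤ 1`.) -/
lemma norm_pow_pow_sub_pow_pow_le [hp : Fact p.Prime] (a b : OC C) (n : ℕ) :
    ‖((a ^ (p ^ n) - b ^ (p ^ n) : OC C) : C)‖ ≤
      max (‖(p : C)‖ * ‖((a - b : OC C) : C)‖) (‖((a - b : OC C) : C)‖ ^ (p ^ n)) := by
  have hp1 : ‖(p : C)‖ ≤ 1 := IsUltrametricDist.norm_natCast_le_one C p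
  -- the case of the `p`-th power
  have key : ∀ a b : OC C, ‖((a ^ p - b ^ p : OC C) : C)‖ ≤
      max (‖(p : C)‖ * ‖((a - b : OC C) : C)‖) (‖((a - b : OC C) : C)‖ ^ p) := by
    intro a b
    set δ : OC C := a - b with hδ
    have hδ1 : ‖(δ : C)‖ ≤ 1 := norm_OC_le δ
    have hpp : 1 ≤ p := hp.out.pos
    -- expansion
    have e : a ^ p - b ^ p = δ ^ p + ∑ i ∈ Finset.range p, if i = 0 then 0 else
        (δ ^ i * b ^ (p - i) * (p.choose i : OC C)) := by
      have ea : a = δ + b := by rw [hδ]; ring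
      rw [ea, add_pow, Finset.sum_range_succ]
      simp only [Nat.sub_self, pow_zero, mul_one, Nat.choose_self, Nat.cast_one]
      have e2 : ∑ i ∈ Finset.range p, δ ^ i * b ^ (p - i) * (p.choose i : OC C) =
          b ^ p + ∑ i ∈ Finset.range p, if i = 0 then 0 else
            (δ ^ i * b ^ (p - i) * (p.choose i : OC C)) := by
        obtain ⟨q, rfl⟩ : ∃ q, p = q + 1 := ⟨p - 1, by omega⟩
        rw [Finset.sum_range_succ', Finset.sum_range_succ']
        simp
        ring
      rw [e2]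
      ring
    rw [e]
    have hsum : ‖((∑ i ∈ Finset.range p, if i = 0 then 0 else
        (δ ^ i * b ^ (p - i) * (p.choose i : OC C)) : OC C) : C)‖ ≤ ‖(p : C)‖ * ‖(δ : C)‖ := by
      have e3 : ((∑ i ∈ Finset.range p, if i = 0 then 0 else
          (δ ^ i * b ^ (p - i) * (p.choose i : OC C)) : OC C) : C) =
          ∑ i ∈ Finset.range p, (((if i = 0 then 0 else
          (δ ^ i * b ^ (p - i) * (p.choose i : OC C)) : OC C)) : C) := by
        push_cast; rfl
      rw [e3]
      refine IsUltrametricDist.norm_sum_le_of_forall_le_of_nonneg (by positivity) fun i hi => ?_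
      have hi' : i < p := Finset.mem_range.mp hi
      by_cases hi0 : i = 0
      · simp only [hi0, if_true]
        have : (((0 : OC C)) : C) = 0 := rfl
        rw [this, norm_zero]
        positivity
      · rw [if_neg hi0]
        obtain ⟨m, hm⟩ : p ∣ p.choose i := hp.out.dvd_choose_self hi0 hi'
        have e4 : ((δ ^ i * b ^ (p - i) * (p.choose i : OC C) : OC C) : C) =
            (δ : C) ^ i * (b : C) ^ (p - i) * ((p : C) * (m : C)) := by
          rw [hm]; push_cast; rfl
        rw [e4, norm_mul, norm_mul, norm_pow, norm_pow, norm_mul]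
        have h1 : ‖(δ : C)‖ ^ i ≤ ‖(δ : C)‖ := by
          calc ‖(δ : C)‖ ^ i ≤ ‖(δ : C)‖ ^ 1 :=
                pow_le_pow_of_le_one (norm_nonneg _) hδ1 (by omega)
            _ = _ := pow_one _
        have h2 : ‖(b : C)‖ ^ (p - i) ≤ 1 := pow_le_one₀ (norm_nonneg _) (norm_OC_le b)
        have h3 : ‖(m : C)‖ ≤ 1 := IsUltrametricDist.norm_natCast_le_one C m
        calc ‖(δ : C)‖ ^ i * ‖(b : C)‖ ^ (p - i) * (‖(p : C)‖ * ‖(m : C)‖)
            ≤ ‖(δ : C)‖ * 1 * (‖(p : C)‖ * 1) := by gcongr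
          _ = ‖(p : C)‖ * ‖(δ : C)‖ := by ring
    have e5 : ((δ ^ p + ∑ i ∈ Finset.range p, if i = 0 then 0 else
        (δ ^ i * b ^ (p - i) * (p.choose i : OC C)) : OC C) : C) =
        (δ : C) ^ p + ((∑ i ∈ Finset.range p, if i = 0 then 0 else
        (δ ^ i * b ^ (p - i) * (p.choose i : OC C)) : OC C) : C) := by
      push_cast; rfl
    rw [e5]
    refine (IsUltrametricDist.norm_add_le_max _ _).trans (max_le ?_ ?_)
    · rw [norm_pow]; exact le_max_right _ _
    · exact hsum.trans (le_max_left _ _)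
  -- induction
  induction n generalizing a b with
  | zero =>
    simp only [pow_zero, pow_one]
    exact le_max_right _ _
  | succ n ih =>
    have e : a ^ p ^ (n + 1) = (a ^ p) ^ p ^ n := by rw [pow_succ', pow_mul]
    have e' : b ^ p ^ (n + 1) = (b ^ p) ^ p ^ n := by rw [pow_succ', pow_mul]
    rw [e, e']
    refine (ih (a ^ p) (b ^ p)).trans (max_le ?_ ?_)
    · have h1 := key a b
      set d := ‖((a - b : OC C) : C)‖ with hd
      have hd1 : d ≤ 1 := norm_OC_le _
      have hd0 : 0 ≤ d := norm_nonneg _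
      have hq0 : 0 ≤ ‖(p : C)‖ := norm_nonneg _
      refine le_max_of_le_left ?_
      refine (mul_le_mul_of_nonneg_left h1 hq0).trans ?_
      refine mul_le_mul_of_nonneg_left (max_le ?_ ?_) hq0
      · exact mul_le_of_le_one_left hd0 hp1
      · calc d ^ p ≤ d ^ 1 := pow_le_pow_of_le_one hd0 hd1 hp.out.pos
          _ = d := pow_one _
    · have h1 := key a b
      set d := ‖((a - b : OC C) : C)‖ with hd
      have hd1 : d ≤ 1 := norm_OC_le _
      have hd0 : 0 ≤ d := norm_nonneg _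
      have hq0 : 0 ≤ ‖(p : C)‖ := norm_nonneg _
      have hpn : p ^ n ≠ 0 := (Nat.pow_pos hp.out.pos).ne'
      have h2 := pow_le_pow_left₀ (norm_nonneg _) h1 (p ^ n)
      refine h2.trans ?_
      rcases le_total (‖(p : C)‖ * d) (d ^ p) with h3 | h3
      · rw [max_eq_right h3, ← pow_mul, ← pow_succ']
        exact le_max_right _ _
      · rw [max_eq_left h3]
        refine le_max_of_le_left ?_
        calc (‖(p : C)‖ * d) ^ p ^ n ≤ (‖(p : C)‖ * d) ^ 1 :=
              pow_le_pow_of_le_one (by positivity) (mul_le_one₀ hp1 hd0 hd1) (Nat.one_le_iff_ne_zero.mpr hpn)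
          _ = _ := pow_one _

end generic

namespace ZLaw

variable [hp : Fact p.Prime] (L : ZLaw C p n)

include L in
lemma two_le_q : 2 ≤ p ^ n := by
  calc 2 ≤ p := hp.out.two_le
    _ = p ^ 1 := (pow_one p).symm
    _ ≤ p ^ n := Nat.pow_le_pow_right hp.out.pos L.hn

lemma hasSum_nsmul_p (x : Pts L.G) :
    HasSum (fun j : ℕ => PowerSeries.coeff j (mulSeries L.G p) * x.o ^ j) (p • x).o := by
  have := hasSum_ev1 (RingHom.id (OC C)) x.norm_o_lt (mulSeries L.G p)
  rwa [ev1_mulSeries] at this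

/-- The coefficient of `X` in `[p]` is `p`. Use `coeff_one_mulSeries`; since `1 ≠ p ^ n`, `‖p‖ ≤ c`. -/
lemma norm_p_le : ‖(p : C)‖ ≤ L.c := by
  have h := L.coeff_p 1
  have hq := two_le_q L
  rw [if_neg (by omega), sub_zero, coeff_one_mulSeries] at h
  simpa using h

include L in
lemma norm_p_lt_one : ‖(p : C)‖ < 1 := lt_of_le_of_lt L.norm_p_le L.c_lt_one

/-- Proof: by `hasSum_nsmul_p`; subtract `x ^ (p ^ n)`; the coefficient of `x ^ 0` vanishes
(`constantCoeff_mulSeries`), so each term has norm at most `c * ‖x‖`. -/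
lemma norm_nsmul_p_sub_pow_le (x : Pts L.G) : ‖(p • x).v - x.v ^ (p ^ n)‖ ≤ L.c * ‖x.v‖ := by
  have h1 := hasSum_nsmul_p L x
  have h2 : HasSum (fun j : ℕ => if j = p ^ n then x.o ^ (p ^ n) else 0) (x.o ^ (p ^ n)) :=
    hasSum_ite_eq (p ^ n) (x.o ^ (p ^ n))
  have h3 := norm_sum_le_of_hasSum (h1.sub h2) (mul_nonneg L.c_nonneg (norm_nonneg x.v)) ?_
  · exact h3
  · intro j
    have hq := two_le_q L
    rcases Nat.eq_zero_or_pos j with rfl | hj0
    · have h0 : PowerSeries.coeff 0 (mulSeries L.G p) = 0 := by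
        simpa using constantCoeff_mulSeries L.G p
      rw [h0, if_neg (by omega)]
      simp only [zero_mul, sub_zero]
      have : (((0 : OC C)) : C) = 0 := rfl
      rw [this, norm_zero]
      exact mul_nonneg L.c_nonneg (norm_nonneg x.v)
    · have hx1 : ‖x.v‖ ≤ 1 := x.norm_lt.le
      have hx : ‖((x.o ^ j : OC C) : C)‖ ≤ ‖x.v‖ := by
        have e : ((x.o ^ j : OC C) : C) = x.v ^ j := rfl
        rw [e, norm_pow]
        calc ‖x.v‖ ^ j ≤ ‖x.v‖ ^ 1 := pow_le_pow_of_le_one (norm_nonneg _) hx1 hj0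
          _ = _ := pow_one _
      by_cases hj : j = p ^ n
      · subst hj
        have h4 := L.coeff_p (p ^ n)
        simp only [if_true] at h4 ⊢
        have e : ((PowerSeries.coeff (p ^ n) (mulSeries L.G p) * x.o ^ (p ^ n) - x.o ^ (p ^ n) : OC C) : C)
            = (((PowerSeries.coeff (p ^ n) (mulSeries L.G p) : OC C) : C) - 1) * ((x.o ^ (p ^ n) : OC C) : C) := by
          push_cast; ring
        rw [e, norm_mul]
        exact mul_le_mul h4 hx (norm_nonneg _) L.c_nonneg
      · have h4 := L.coeff_p j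
        simp only [if_neg hj, sub_zero] at h4 ⊢
        have e : ((PowerSeries.coeff j (mulSeries L.G p) * x.o ^ j : OC C) : C)
            = ((PowerSeries.coeff j (mulSeries L.G p) : OC C) : C) * ((x.o ^ j : OC C) : C) := by
          push_cast; ring
        rw [e, norm_mul]
        exact mul_le_mul h4 hx (norm_nonneg _) L.c_nonneg

lemma norm_nsmul_p_le (x : Pts L.G) : ‖(p • x).v‖ ≤ max (L.c * ‖x.v‖) (‖x.v‖ ^ (p ^ n)) := by
  have e : (p • x).v = ((p • x).v - x.v ^ (p ^ n)) + x.v ^ (p ^ n) := by ring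
  rw [e]
  refine (IsUltrametricDist.norm_add_le_max _ _).trans (max_le ?_ ?_)
  · exact (norm_nsmul_p_sub_pow_le L x).trans (le_max_left _ _)
  · rw [norm_pow]; exact le_max_right _ _

/-- Proof: `(p • x) - (p • y) = ∑_j c_j (x ^ j - y ^ j)`. For `j ≠ p ^ n`, the term has norm at most `c * ‖x - y‖`
(`norm_pow_sub_pow_le`). For `j = p ^ n`, `c_j = 1 + (c_j - 1)`, use `norm_pow_pow_sub_pow_pow_le` and `norm_p_le`. -/
lemma norm_nsmul_p_sub_le (x y : Pts L.G) :
    ‖(p • x).v - (p • y).v‖ ≤ max (L.c * ‖x.v - y.v‖) (‖x.v - y.v‖ ^ (p ^ n)) := by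
  have h := (hasSum_nsmul_p L x).sub (hasSum_nsmul_p L y)
  have hD : ‖(x.o - y.o : OC C).1‖ = ‖x.v - y.v‖ := rfl
  have hmax0 : 0 ≤ max (L.c * ‖x.v - y.v‖) (‖x.v - y.v‖ ^ (p ^ n)) :=
    le_max_of_le_left (mul_nonneg L.c_nonneg (norm_nonneg _))
  have h2 := norm_sum_le_of_hasSum h hmax0 ?_
  · exact h2
  · intro j
    have e0 : (PowerSeries.coeff j (mulSeries L.G p) * x.o ^ j -
        PowerSeries.coeff j (mulSeries L.G p) * y.o ^ j : OC C) =
        PowerSeries.coeff j (mulSeries L.G p) * (x.o ^ j - y.o ^ j) := by ring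
    rw [e0]
    have hle : ‖((x.o ^ j - y.o ^ j : OC C) : C)‖ ≤ ‖x.v - y.v‖ := norm_pow_sub_pow_le x.o y.o j
    by_cases hj : j = p ^ n
    · subst hj
      have h4 := L.coeff_p (p ^ n)
      simp only [if_true] at h4
      have e : ((PowerSeries.coeff (p ^ n) (mulSeries L.G p) * (x.o ^ (p ^ n) - y.o ^ (p ^ n)) : OC C) : C)
          = (((PowerSeries.coeff (p ^ n) (mulSeries L.G p) : OC C) : C) - 1) *
              ((x.o ^ (p ^ n) - y.o ^ (p ^ n) : OC C) : C) +
            ((x.o ^ (p ^ n) - y.o ^ (p ^ n) : OC C) : C) := by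
        push_cast; ring
      rw [e]
      refine (IsUltrametricDist.norm_add_le_max _ _).trans (max_le ?_ ?_)
      · rw [norm_mul]
        exact le_max_of_le_left (mul_le_mul h4 hle (norm_nonneg _) L.c_nonneg)
      · refine (norm_pow_pow_sub_pow_pow_le x.o y.o n).trans (max_le ?_ ?_)
        · refine le_max_of_le_left ?_
          exact mul_le_mul_of_nonneg_right L.norm_p_le (norm_nonneg _)
        · exact le_max_right _ _
    · have h4 := L.coeff_p j
      simp only [if_neg hj, sub_zero] at h4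
      have e : ((PowerSeries.coeff j (mulSeries L.G p) * (x.o ^ j - y.o ^ j) : OC C) : C)
          = ((PowerSeries.coeff j (mulSeries L.G p) : OC C) : C) * ((x.o ^ j - y.o ^ j : OC C) : C) := by
        push_cast; ring
      rw [e, norm_mul]
      exact le_max_of_le_left (mul_le_mul h4 hle (norm_nonneg _) L.c_nonneg)

/-- Contraction: if `‖x - y‖ ≤ ε`, `c ≤ ε`, `ε < 1` then `‖p • x - p • y‖ ≤ ε * ‖x - y‖` (`‖x-y‖ ^ q ≤ ε ‖x - y‖` as `q ≥ 2`).  -/
lemma norm_nsmul_p_sub_le_mul {ε : ℝ} (hc : L.c ≤ ε) (h1 : ε ≤ 1) (x y : Pts L.G) (h : ‖x.v - y.v‖ ≤ ε) :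
    ‖(p • x).v - (p • y).v‖ ≤ ε * ‖x.v - y.v‖ := by
  refine (norm_nsmul_p_sub_le L x y).trans (max_le ?_ ?_)
  · exact mul_le_mul_of_nonneg_right hc (norm_nonneg _)
  · have hq := two_le_q L
    set d := ‖x.v - y.v‖ with hd
    have hd0 : 0 ≤ d := norm_nonneg _
    have hd1 : d ≤ 1 := h.trans h1
    obtain ⟨q, hq'⟩ : ∃ q, p ^ n = q + 2 := ⟨p ^ n - 2, by omega⟩
    rw [hq', pow_succ, pow_succ]
    have h2 : d ^ q ≤ 1 := pow_le_one₀ hd0 hd1
    calc d ^ q * d * d ≤ 1 * ε * d := by gcongr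
      _ = ε * d := by ring

lemma nsmul_pow_succ (x : Pts L.G) (j : ℕ) : (p ^ (j + 1)) • x = p • ((p ^ j) • x) := by
  rw [pow_succ', mul_nsmul']

/-- Iterated contraction. -/
lemma norm_nsmul_pow_sub_le {ε : ℝ} (hc : L.c ≤ ε) (h1 : ε ≤ 1) (x y : Pts L.G) (h : ‖x.v - y.v‖ ≤ ε) (j : ℕ) :
    ‖((p ^ j) • x).v - ((p ^ j) • y).v‖ ≤ ε ^ j * ‖x.v - y.v‖ := by
  induction j with
  | zero => simp
  | succ j ih =>
    rw [nsmul_pow_succ, nsmul_pow_succ]
    have hε0 : 0 ≤ ε := (norm_nonneg _).trans h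
    have hej : ε ^ j ≤ 1 := pow_le_one₀ hε0 h1
    have h2 : ‖((p ^ j) • x).v - ((p ^ j) • y).v‖ ≤ ε := by
      refine ih.trans ?_
      calc ε ^ j * ‖x.v - y.v‖ ≤ 1 * ε := mul_le_mul hej h (norm_nonneg _) zero_le_one
        _ = ε := one_mul _
    refine (norm_nsmul_p_sub_le_mul L hc h1 _ _ h2).trans ?_
    rw [pow_succ']
    rw [mul_assoc]
    exact mul_le_mul_of_nonneg_left ih hε0

/-- `‖p ^ j • x‖ ≤ t ^ j * ‖x‖` if `‖x‖ ≤ t`, `c ≤ t`, `t ≤ 1`. (Take `y = 0` above.) -/
lemma norm_nsmul_pow_le {t : ℝ} (hc : L.c ≤ t) (h1 : t ≤ 1) (x : Pts L.G) (h : ‖x.v‖ ≤ t) (j : ℕ) :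
    ‖((p ^ j) • x).v‖ ≤ t ^ j * ‖x.v‖ := by
  have := norm_nsmul_pow_sub_le L hc h1 x 0 (by simpa using h) j
  simpa using this

lemma norm_nsmul_le (x : Pts L.G) (m : ℕ) : ‖(m • x).v‖ ≤ ‖x.v‖ := by
  induction m with
  | zero => simp
  | succ m ih =>
    rw [succ_nsmul]
    exact (Vale.Agent.Lib.P217.norm_add_le _ _ _).trans (max_le ih le_rfl)

lemma tendsto_nsmul_pow (x : Pts L.G) : Tendsto (fun j => ((p ^ j) • x).v) atTop (𝓝 0) := by
  have ht : max L.c ‖x.v‖ < 1 := max_lt L.c_lt_one x.norm_lt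
  have ht0 : 0 ≤ max L.c ‖x.v‖ := le_max_of_le_left L.c_nonneg
  rw [tendsto_zero_iff_norm_tendsto_zero]
  have h1 : Tendsto (fun j : ℕ => (max L.c ‖x.v‖) ^ j * ‖x.v‖) atTop (𝓝 (0 * ‖x.v‖)) :=
    (tendsto_pow_atTop_nhds_zero_of_lt_one ht0 ht).mul_const _
  rw [zero_mul] at h1
  exact squeeze_zero (fun _ => norm_nonneg _)
    (fun j => norm_nsmul_pow_le L (le_max_left _ _) ht.le x (le_max_right _ _) j) h1

/-- The negative of a point, as a limit. See `exists_neg` in `Law.lean` (same proof). -/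
lemma exists_neg (x : Pts L.G) : ∃ y : Pts L.G, y + x = 0 := by
  have hp1 : 1 ≤ p := hp.out.one_lt.le
  let s : ℕ → Pts L.G := fun m => (p ^ m - 1) • x
  have h1 : ∀ m, s m + x = (p ^ m) • x := by
    intro m
    simp only [s]
    rw [← succ_nsmul]
    congr 1
    have := Nat.one_le_pow m p hp1
    omega
  have hcs : Tendsto (fun m => (s (m + 1)).v - (s m).v) atTop (𝓝 0) := by
    rw [tendsto_zero_iff_norm_tendsto_zero]
    have hx := tendsto_nsmul_pow L x
    rw [tendsto_zero_iff_norm_tendsto_zero] at hx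
    refine squeeze_zero (fun _ => norm_nonneg _) (fun m => ?_) hx
    have h2 : s (m + 1) = s m + (p - 1) • ((p ^ m) • x) := by
      simp only [s]
      rw [← mul_nsmul', ← add_nsmul]
      congr 1
      have h3 : p ^ (m + 1) = p * p ^ m := pow_succ' p m
      have h4 := Nat.one_le_pow m p hp1
      have h5 : (p - 1) * p ^ m = p * p ^ m - p ^ m := by
        rw [Nat.sub_mul, one_mul]
      rw [h5, h3]
      have h6 : p ^ m ≤ p * p ^ m := Nat.le_mul_of_pos_left _ hp1
      omega
    rw [h2]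
    exact (norm_add_sub_left _ _).trans (norm_nsmul_le L _ _)
  obtain ⟨y, hy, -⟩ := exists_lim_pts s hcs (r := ‖x.v‖) x.norm_lt (fun m => norm_nsmul_le L x _)
  refine ⟨y, ?_⟩
  have h7 : Tendsto (fun m => (s m + x).v) atTop (𝓝 (y + x).v) := by
    have := tendsto_add_right x hy
    simp only [add_comm x] at this
    exact this
  simp only [h1] at h7
  have h8 := tendsto_nhds_unique h7 (tendsto_nsmul_pow L x)
  exact Pts.ext (by simpa using h8)

noncomputable instance instNegZ : Neg (Pts L.G) := ⟨fun x => (exists_neg L x).choose⟩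

lemma neg_add_z (x : Pts L.G) : -x + x = 0 := (exists_neg L x).choose_spec

/-- The group structure on the points of a law. -/
noncomputable instance instGroupZ : AddCommGroup (Pts L.G) :=
  { (inferInstance : AddCommMonoid (Pts L.G)), instNegZ L with
    zsmul := zsmulRec
    neg_add_cancel := neg_add_z L }

/-- See `norm_sub_law` in `Mu.lean` (same proof). -/
lemma norm_sub (x y : Pts L.G) : ‖(x - y).v‖ = ‖x.v - y.v‖ := by
  apply le_antisymm
  · have h := norm_add_sub_add_le x (-y) y (-y) (norm_nonneg (x.v - y.v)) le_rfl (by simp)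
    have e1 : y + -y = 0 := add_neg_cancel y
    rw [e1, ← sub_eq_add_neg] at h
    simpa using h
  · have h := norm_add_sub_add_le (x - y) y 0 y (norm_nonneg ((x - y).v)) (by simp) (by simp)
    rw [sub_add_cancel, zero_add] at h
    exact h

lemma norm_neg (x : Pts L.G) : ‖(-x).v‖ = ‖x.v‖ := by
  have := norm_sub L 0 x
  simpa using this

/-- `[p]` is surjective on the points, by Weierstrass preparation: `[p] - C y` has coefficients of norm `< 1` below degree
`p ^ n` and unit coefficient in degree `p ^ n`. See `exists_weierstrass_at`, and how it is applied in `Tors.lean`, `WeierA.lean`; a root of the distinguished polynomial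
has norm `< 1`, it is also a root of the power series. One can also argue directly. -/
lemma exists_nsmul_p_eq [IsAlgClosed C] (y : Pts L.G) : ∃ x : Pts L.G, p • x = y := by
  classical
  by_cases ht : ∃ t : C, t ≠ 0 ∧ ‖t‖ < 1
  · have hpn : 0 < p ^ n := Nat.pow_pos hp.out.pos
    have hcoeff : ∀ j, 0 < j → PowerSeries.coeff j (mulSeries L.G p - PowerSeries.C y.o)
        = PowerSeries.coeff j (mulSeries L.G p) := by
      intro j hj
      simp [PowerSeries.coeff_C, hj.ne']
    obtain ⟨f, h, r', hr', hf, hfd, hfl, hh, hfac⟩ : ∃ (f : Polynomial (OC C)) (h : PowerSeries (OC C)) (r' : ℝ), r' < 1 ∧ f.Monic ∧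
        f.natDegree = p ^ n ∧ (∀ j < p ^ n, ‖((f.coeff j : OC C) : C)‖ ≤ r') ∧ IsUnit h ∧
        mulSeries L.G p - PowerSeries.C y.o = (f : PowerSeries (OC C)) * h := by
      refine exists_factor ht _ (p ^ n) ?_ (r := max L.c ‖y.v‖) (max_lt L.c_lt_one y.norm_lt) ?_
      · rw [hcoeff _ hpn]
        have h1 := L.coeff_p (p ^ n)
        simp only [if_true] at h1
        have h2 : ‖((PowerSeries.coeff (p ^ n) (mulSeries L.G p) : OC C) : C) - 1‖ < ‖(1 : C)‖ := by
          simpa using lt_of_le_of_lt h1 L.c_lt_one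
        simpa using norm_eq_of_sub_lt h2
      · intro j hj
        rcases Nat.eq_zero_or_pos j with rfl | hj0
        · have h0 : PowerSeries.coeff 0 (mulSeries L.G p) = 0 := by
            simpa using constantCoeff_mulSeries L.G p
          have e : PowerSeries.coeff 0 (mulSeries L.G p - PowerSeries.C y.o) = - y.o := by
            rw [map_sub, h0]
            simp
          rw [e]
          have : ((-y.o : OC C) : C) = - y.v := rfl
          rw [this, _root_.norm_neg]
          exact le_max_right _ _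
        · rw [hcoeff _ hj0]
          have h1 := L.coeff_p j
          rw [if_neg hj.ne, sub_zero] at h1
          exact h1.trans (le_max_left _ _)
    have hdeg : (f.map (OC C).subtype).degree ≠ 0 := by
      rw [hf.degree_map, Polynomial.degree_eq_natDegree hf.ne_zero, hfd]
      exact_mod_cast hpn.ne'
    obtain ⟨w, hw⟩ := IsAlgClosed.exists_root _ hdeg
    have hw1 : ‖w‖ < 1 := norm_root_lt hf hr' (by rw [hfd]; exact hfl) hw (by rw [hfd]; exact hpn)
    refine ⟨Pts.mk w hw1, ?_⟩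
    set x : Pts L.G := Pts.mk w hw1 with hx
    have h1 := congrArg (ev1 (RingHom.id (OC C)) x.o) hfac
    rw [ev1_sub _ x.norm_o_lt, ev1_mul _ x.norm_o_lt, ev1_coe_poly _ x.norm_o_lt, ev1_mulSeries,
      ev1_C] at h1
    have h6 : (p • x).o - y.o = f.eval x.o * ev1 (RingHom.id _) x.o h := by simpa using h1
    have h4 : (p • x).v - y.v = ((f.eval x.o : OC C) : C) * ((ev1 (RingHom.id _) x.o h : OC C) : C) :=
      congrArg (fun t : OC C => (t : C)) h6
    have h5 : ((f.eval x.o : OC C) : C) = 0 := by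
      rw [coe_eval_eq]
      exact hw
    rw [h5, zero_mul, sub_eq_zero] at h4
    exact Pts.ext h4
  · refine ⟨0, ?_⟩
    have hy0 : y.v = 0 := by
      by_contra h0
      exact ht ⟨y.v, h0, y.norm_lt⟩
    have e0 : y = 0 := Pts.ext (by simpa using hy0)
    rw [e0, nsmul_zero]

end ZLaw

/-- Two laws are close: same constant `c`, and coefficients congruent modulo `c`. -/
def ZClose (L L' : ZLaw C p n) : Prop :=
  L'.c = L.c ∧ ∀ d, ‖((MvPowerSeries.coeff d L.G.toPowerSeries : OC C) : C) -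
    (MvPowerSeries.coeff d L'.G.toPowerSeries : OC C)‖ ≤ L.c

lemma ZClose.refl (L : ZLaw C p n) : ZClose L L := ⟨rfl, fun d => by simpa using L.c_nonneg⟩

lemma ZClose.symm {L L' : ZLaw C p n} (h : ZClose L L') : ZClose L' L := by
  refine ⟨h.1.symm, fun d => ?_⟩
  rw [norm_sub_rev, h.1]
  exact h.2 d

lemma ZClose.trans {L L' L'' : ZLaw C p n} (h : ZClose L L') (h' : ZClose L' L'') : ZClose L L'' := by
  refine ⟨h'.1.trans h.1, fun d => ?_⟩
  have h1 := h.2 d
  have h2 := h'.2 d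
  rw [h.1] at h2
  have e : ((MvPowerSeries.coeff d L.G.toPowerSeries : OC C) : C) -
      (MvPowerSeries.coeff d L''.G.toPowerSeries : OC C) =
      (((MvPowerSeries.coeff d L.G.toPowerSeries : OC C) : C) -
      (MvPowerSeries.coeff d L'.G.toPowerSeries : OC C)) +
      (((MvPowerSeries.coeff d L'.G.toPowerSeries : OC C) : C) -
      (MvPowerSeries.coeff d L''.G.toPowerSeries : OC C)) := by ring
  rw [e]
  exact (IsUltrametricDist.norm_add_le_max _ _).trans (max_le h1 h2)

end Vale.Agent.Lib.P217
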