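import Vale.Agent.Lib.P217.ZSet

set_option linter.unusedSectionVars false
set_option linter.unusedVariables false

/-!
An a priori estimate: the powers of an automorphism of `E₀ = B⟦u⟧` over `B` move the points `p`-adically little along a subsequence.
-/

namespace Vale.Agent.Lib.P217

open scoped Topology
open Filter

section cofactor

variable {N : ℕ} {B : Type*} [CommRing B]

open MvPowerSeries in
/-- The cofactor of `X i` in the decomposition of a series without constant term. -/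
private noncomputable def zcofactorX (a : MvPowerSeries (Fin N) B) (i : Fin N) : MvPowerSeries (Fin N) B := fun e =>
  if ∀ j, j < i → e j = 0 then coeff (e + Finsupp.single i 1) a else 0

open MvPowerSeries in
private theorem coeff_X_mul_zcofactorX (a : MvPowerSeries (Fin N) B) (i : Fin N) (d : Fin N →₀ ℕ) :
    coeff d (X i * zcofactorX a i) =
      if 1 ≤ d i ∧ ∀ j, j < i → d j = 0 then coeff d a else 0 := by
  classical
  rw [X_def, coeff_monomial_mul, one_mul]
  by_cases h1 : 1 ≤ d i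
  · have hle : Finsupp.single i 1 ≤ d := by
      rw [Finsupp.single_le_iff]; exact h1
    rw [if_pos hle]
    have hc : coeff (d - Finsupp.single i 1) (zcofactorX a i) =
        if ∀ j, j < i → (d - Finsupp.single i 1 : Fin N →₀ ℕ) j = 0 then coeff (d - Finsupp.single i 1 + Finsupp.single i 1) a else 0 := rfl
    rw [hc, tsub_add_cancel_of_le hle]
    have hiff : (∀ j, j < i → (d - Finsupp.single i 1 : Fin N →₀ ℕ) j = 0) ↔ (∀ j, j < i → d j = 0) := by
      constructor
      · intro h j hj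
        have := h j hj
        rw [Finsupp.tsub_apply, Finsupp.single_eq_of_ne (ne_of_lt hj), Nat.sub_zero] at this
        exact this
      · intro h j hj
        rw [Finsupp.tsub_apply, Finsupp.single_eq_of_ne (ne_of_lt hj), Nat.sub_zero]
        exact h j hj
    simp only [hiff, h1, true_and]
  · have hle : ¬ Finsupp.single i 1 ≤ d := by
      rw [Finsupp.single_le_iff]; exact h1
    rw [if_neg hle, if_neg (fun h => h1 h.1)]

open MvPowerSeries in
private theorem eq_sum_zcofactorX (a : MvPowerSeries (Fin N) B) (ha : constantCoeff a = 0) :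
    ∑ i, zcofactorX a i * X i = a := by
  classical
  ext d
  rw [map_sum]
  simp_rw [mul_comm (zcofactorX a _) (X _), coeff_X_mul_zcofactorX]
  by_cases hd : d = 0
  · subst hd
    have h0 : coeff (0 : Fin N →₀ ℕ) a = 0 := by
      simpa using ha
    simp [h0]
  · have hne : d.support.Nonempty := Finsupp.support_nonempty_iff.mpr hd
    set i0 := d.support.min' hne with hi0
    have hmem : i0 ∈ d.support := Finset.min'_mem _ hne
    have hi0pos : 1 ≤ d i0 := Nat.one_le_iff_ne_zero.mpr (Finsupp.mem_support_iff.mp hmem)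
    have hlt : ∀ j, j < i0 → d j = 0 := by
      intro j hj
      by_contra hne'
      have := Finset.min'_le d.support j (Finsupp.mem_support_iff.mpr hne')
      exact absurd hj (not_lt.mpr this)
    rw [Finset.sum_eq_single i0]
    · rw [if_pos ⟨hi0pos, hlt⟩]
    · intro i _ hi
      rw [if_neg]
      rintro ⟨h1, h2⟩
      rcases lt_or_gt_of_ne hi with h | h
      · have := hlt i h
        omega
      · have := h2 i0 h
        omega
    · intro h
      exact absurd (Finset.mem_univ _) h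

end cofactor

section periodic

variable {B E : Type*} [CommRing B] [CommRing E] [Algebra B E]

/-- An automorphism preserving an ideal of finite index has a power acting trivially on the quotient. -/
private theorem exists_pow_sub_mem_of_finite (I : Ideal E) [Finite (E ⧸ I)] (τ : E ≃ₐ[B] E)
    (h1 : ∀ x ∈ I, τ x ∈ I) (h2 : ∀ x ∈ I, τ.symm x ∈ I) :
    ∃ M₀ : ℕ, 0 < M₀ ∧ ∀ (w : ℕ) (a : E), (τ ^ (M₀ * w)) a - a ∈ I := by
  classical
  have hcongr : ∀ (x y : E), x - y ∈ I → τ x - τ y ∈ I := by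
    intro x y h
    rw [← map_sub]
    exact h1 _ h
  have hcongr' : ∀ (x y : E), x - y ∈ I → τ.symm x - τ.symm y ∈ I := by
    intro x y h
    rw [← map_sub]
    exact h2 _ h
  let f : (E ⧸ I) → (E ⧸ I) :=
    Quotient.lift (fun a => Ideal.Quotient.mk I (τ a)) (by
      intro x y hxy
      have hxy' : x - y ∈ I := by
        have := Submodule.quotientRel_def I |>.mp hxy
        exact this
      exact Ideal.Quotient.eq.mpr (hcongr x y hxy'))
  have hf : ∀ a, f (Ideal.Quotient.mk I a) = Ideal.Quotient.mk I (τ a) := fun a => rfl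
  have hfpow : ∀ (n : ℕ) (a : E),
      (f^[n]) (Ideal.Quotient.mk I a) = Ideal.Quotient.mk I ((τ ^ n) a) := by
    intro n
    induction n with
    | zero => intro a; rfl
    | succ n ih =>
      intro a
      rw [Function.iterate_succ_apply', ih, hf, pow_succ', AlgEquiv.mul_apply]
  have hinj : Function.Injective f := by
    intro x y h
    obtain ⟨x, rfl⟩ := Ideal.Quotient.mk_surjective x
    obtain ⟨y, rfl⟩ := Ideal.Quotient.mk_surjective y
    rw [hf, hf, Ideal.Quotient.eq] at h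
    rw [Ideal.Quotient.eq]
    have := hcongr' _ _ h
    simpa using this
  have hbij : Function.Bijective f := Finite.injective_iff_bijective.mp hinj
  let σ : Equiv.Perm (E ⧸ I) := Equiv.ofBijective f hbij
  have hσ : ∀ n x, (σ ^ n) x = (f^[n]) x := by
    intro n x
    rw [Equiv.Perm.iterate_eq_pow σ n |>.symm]
    rfl
  have hord : 0 < orderOf σ := orderOf_pos σ
  refine ⟨orderOf σ, hord, ?_⟩
  intro w a
  have h1 : (σ ^ (orderOf σ * w)) (Ideal.Quotient.mk I a) = Ideal.Quotient.mk I a := by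
    rw [pow_mul, pow_orderOf_eq_one, one_pow]; rfl
  rw [hσ, hfpow] at h1
  exact Ideal.Quotient.eq.mp h1

/-- The filtration step. -/
private theorem map_sub_self_mem_pow_of (I : Ideal E) (g : E ≃ₐ[B] E) (h0 : ∀ a, g a - a ∈ I) (h1 : ∀ x ∈ I, g x ∈ I)
    (hg : ∀ a : E, g a - a ∈ I ^ 2) (i : ℕ) (a : E) (ha : a ∈ I ^ i) :
    g a - a ∈ I ^ (i + 1) := by
  induction i generalizing a with
  | zero =>
    rw [zero_add, pow_one]
    exact h0 a
  | succ i ih =>
    rw [pow_succ] at ha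
    refine Submodule.mul_induction_on ha ?_ ?_
    · intro x hx y hy
      have h1' := ih x hx
      have h2 := hg y
      have h3 := h1 y hy
      have : g (x * y) - x * y = (g x - x) * g y + x * (g y - y) := by
        rw [map_mul]; ring
      rw [this]
      refine Ideal.add_mem _ ?_ ?_
      · rw [pow_succ I (i + 1)]
        exact Ideal.mul_mem_mul h1' h3
      · have : i + 1 + 1 = i + 2 := rfl
        rw [this, pow_add]
        exact Ideal.mul_mem_mul hx h2
    · intro x y hx hy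
      have : g (x + y) - (x + y) = (g x - x) + (g y - y) := by
        rw [map_add]; ring
      rw [this]
      exact Ideal.add_mem _ hx hy

/-- The iterated filtration step, in the endomorphism ring. -/
private theorem endo_pow_mem (I : Ideal E) (g : E ≃ₐ[B] E) (h0 : ∀ a, g a - a ∈ I) (h1 : ∀ x ∈ I, g x ∈ I)
    (hg : ∀ a : E, g a - a ∈ I ^ 2) (q : ℕ) (x : E) :
    (((g.toLinearMap : Module.End B E) - 1) ^ q) x ∈ I ^ q := by
  induction q with
  | zero => simp
  | succ q ih =>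
    rw [show ((g.toLinearMap : Module.End B E) - 1) ^ (q + 1) = ((g.toLinearMap : Module.End B E) - 1) * ((g.toLinearMap : Module.End B E) - 1) ^ q from pow_succ' _ q,
      Module.End.mul_apply]
    exact map_sub_self_mem_pow_of I g h0 h1 hg q _ ih

/-- The binomial expansion of a power of an automorphism. -/
private theorem endo_binom (g : E ≃ₐ[B] E) (m : ℕ) (a : E) :
    (g ^ m) a = ∑ i ∈ Finset.range (m + 1), ((m.choose i : ℕ) : E) * (((g.toLinearMap : Module.End B E) - 1) ^ i) a := by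
  let G : Module.End B E := g.toLinearMap
  have hGpow : ∀ (n : ℕ) (x : E), (G ^ n) x = (g ^ n) x := by
    intro n
    induction n with
    | zero => intro x; rfl
    | succ n ih =>
      intro x
      rw [pow_succ, Module.End.mul_apply, ih, pow_succ, AlgEquiv.mul_apply]
      rfl
  have h : G ^ m = ∑ i ∈ Finset.range (m + 1), (G - 1) ^ i * 1 ^ (m - i) * ((m.choose i : ℕ) : Module.End B E) := by
    have := (Commute.one_right (G - 1)).add_pow m
    rw [← this, sub_add_cancel]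
  rw [← hGpow, h, LinearMap.sum_apply]
  refine Finset.sum_congr rfl fun i _ => ?_
  rw [one_pow, mul_one, Module.End.mul_apply, Module.End.natCast_apply, map_nsmul, nsmul_eq_mul]

end periodic

variable {C : Type*} [NormedField C] [IsUltrametricDist C] [CompleteSpace C]
variable {p n N : ℕ} [hp : Fact p.Prime]
variable {k : Type*} [Field k] [Fintype k] [CharP k p] {B : Type*} [CommRing B]

/-- Divisibility of the binomial coefficients of `p ^ v`. -/
private theorem pow_sub_dvd_choose (p : ℕ) [hp : Fact p.Prime] {v w i' i : ℕ} (hi : i = p ^ w * i') (hi' : ¬ p ∣ i') (hi0 : 0 < i)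
    (hle : i ≤ p ^ v) : w ≤ v ∧ p ^ (v - w) ∣ (p ^ v).choose i := by
  have hp1 : 1 < p := hp.out.one_lt
  have hi'pos : 0 < i' := by
    rcases Nat.eq_zero_or_pos i' with h | h
    · subst h; simp at hi'
    · exact h
  have hwv : w ≤ v := by
    have : p ^ w ≤ p ^ v := le_trans (by rw [hi]; exact Nat.le_mul_of_pos_right _ hi'pos) hle
    exact (Nat.pow_le_pow_iff_right hp1).mp this
  refine ⟨hwv, ?_⟩
  have hpos : 0 < p ^ v := pow_pos hp.out.pos v
  have h1 : p ^ v * ((p ^ v - 1).choose (i - 1)) = (p ^ v).choose i * i := by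
    have := Nat.add_one_mul_choose_eq (p ^ v - 1) (i - 1)
    rw [Nat.sub_add_cancel hpos, Nat.sub_add_cancel hi0] at this
    exact this
  have h2 : p ^ (v - w) * p ^ w = p ^ v := by
    rw [← pow_add, Nat.sub_add_cancel hwv]
  have h3 : p ^ (v - w) ∣ (p ^ v).choose i * i' := by
    have hw : 0 < p ^ w := pow_pos hp.out.pos w
    refine Nat.dvd_of_mul_dvd_mul_right hw ?_
    refine ⟨(p ^ v - 1).choose (i - 1), ?_⟩
    rw [h2, h1, hi]; ring
  have hcop : Nat.Coprime (p ^ (v - w)) i' :=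
    Nat.Coprime.pow_left _ ((Nat.Prime.coprime_iff_not_dvd hp.out).mpr hi')
  exact hcop.dvd_of_dvd_mul_right h3

/-- Boundedness of `c ^ (p ^ w) / r ^ w`. -/
private theorem exists_bound_pow_pow (p : ℕ) [hp : Fact p.Prime] {c r : ℝ} (hc0 : 0 ≤ c) (hc1 : c < 1) (hr : 0 < r) :
    ∃ C₀ : ℝ, 0 ≤ C₀ ∧ ∀ w : ℕ, c ^ (p ^ w) ≤ C₀ * r ^ w := by
  have hp1 : 1 < p := hp.out.one_lt
  have hlim : Tendsto (fun m : ℕ => c ^ m) atTop (𝓝 0) := tendsto_pow_atTop_nhds_zero_of_lt_one hc0 hc1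
  obtain ⟨m, hm⟩ := ((tendsto_order.1 hlim).2 r hr).exists_forall_of_atTop
  -- `W` with `c ^ (p ^ w) ≤ r` for all `w ≥ W`
  have hW : ∀ w, m ≤ w → c ^ (p ^ w) ≤ r := by
    intro w hw
    have : m ≤ p ^ w := le_trans hw (Nat.lt_pow_self hp1).le
    exact (hm _ this).le
  set a : ℕ → ℝ := fun w => c ^ (p ^ w) / r ^ w with ha
  have ha0 : ∀ w, 0 ≤ a w := fun w => div_nonneg (pow_nonneg hc0 _) (pow_pos hr _).le
  have hstep : ∀ w, m ≤ w → a (w + 1) ≤ a w := by
    intro w hw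
    simp only [ha]
    rw [div_le_div_iff₀ (pow_pos hr _) (pow_pos hr _)]
    have h1 : c ^ (p ^ (w + 1)) ≤ c ^ (p ^ w) * c ^ (p ^ w) := by
      rw [← pow_add]
      refine pow_le_pow_of_le_one hc0 hc1.le ?_
      rw [pow_succ]
      nlinarith [pow_pos hp.out.pos w]
    calc c ^ (p ^ (w + 1)) * r ^ w ≤ (c ^ (p ^ w) * c ^ (p ^ w)) * r ^ w :=
          mul_le_mul_of_nonneg_right h1 (pow_pos hr _).le
      _ ≤ (c ^ (p ^ w) * r) * r ^ w :=
          mul_le_mul_of_nonneg_right (mul_le_mul_of_nonneg_left (hW w hw) (pow_nonneg hc0 _)) (pow_pos hr _).le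
      _ = c ^ (p ^ w) * r ^ (w + 1) := by rw [pow_succ]; ring
  refine ⟨∑ w ∈ Finset.range (m + 1), a w, Finset.sum_nonneg fun w _ => ha0 w, ?_⟩
  intro w
  have key : a w ≤ ∑ w ∈ Finset.range (m + 1), a w := by
    by_cases hw : w ≤ m
    · exact Finset.single_le_sum (fun i _ => ha0 i) (Finset.mem_range.mpr (by omega))
    · have h1 : ∀ j, a (m + j) ≤ a m := by
        intro j
        induction j with
        | zero => simp
        | succ j ih => exact (hstep (m + j) (by omega)).trans ih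
      have h2 : w = m + (w - m) := by omega
      rw [h2]
      exact (h1 _).trans (Finset.single_le_sum (fun i _ => ha0 i) (Finset.mem_range.mpr (by omega)))
  have := mul_le_mul_of_nonneg_right key (pow_pos hr w).le
  have h3 : a w * r ^ w = c ^ (p ^ w) := by
    simp only [ha]
    field_simp
  rwa [h3] at this

namespace ZS

variable (S : ZS C p n N k B)

/-- The kernel of the reduction. -/
private noncomputable def mI : Ideal (ZE N B) := RingHom.ker S.ρ

private lemma mem_mI {a : ZE N B} : a ∈ mI S ↔ S.ρ a = 0 := RingHom.mem_ker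

private lemma natCast_p_mem : ((p : ℕ) : ZE N B) ∈ mI S := by
  rw [mem_mI, map_natCast]
  exact CharP.cast_eq_zero k p

private lemma X_mem (l : Fin N) : (MvPowerSeries.X l : ZE N B) ∈ mI S := by
  rw [mem_mI]
  simp [ρ]

private lemma tau_mem (τ : ZE N B ≃ₐ[B] ZE N B) {x : ZE N B} (hx : x ∈ mI S) : τ x ∈ mI S := by
  rw [mem_mI] at hx ⊢
  exact S.ρ_tau τ hx

private lemma tau_mem_pow (τ : ZE N B ≃ₐ[B] ZE N B) (i : ℕ) {a : ZE N B} (ha : a ∈ (mI S) ^ i) : τ a ∈ (mI S) ^ i := by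
  have hle : Ideal.map (τ : ZE N B →+* ZE N B) (mI S) ≤ mI S := by
    rw [Ideal.map_le_iff_le_comap]
    intro x hx
    exact tau_mem S τ hx
  have h1 : τ a ∈ Ideal.map (τ : ZE N B →+* ZE N B) ((mI S) ^ i) := Ideal.mem_map_of_mem (τ : ZE N B →+* ZE N B) ha
  rw [Ideal.map_pow] at h1
  exact Ideal.pow_right_mono hle i h1

private lemma tau_sub_mem (τ : ZE N B ≃ₐ[B] ZE N B) (a : ZE N B) : τ a - a ∈ mI S := by
  set c := MvPowerSeries.constantCoeff a with hc
  have h1 : a - MvPowerSeries.C c ∈ mI S := by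
    rw [mem_mI]
    simp [ρ, hc]
  have h2 := tau_mem S τ h1
  have h3 : τ (MvPowerSeries.C c) = MvPowerSeries.C c := τ.commutes c
  rw [map_sub, h3] at h2
  have : τ a - a = (τ a - MvPowerSeries.C c) - (a - MvPowerSeries.C c) := by ring
  rw [this]
  exact Ideal.sub_mem _ h2 h1

/-- The quotient by the square of the kernel of the reduction is finite. -/
private theorem finite_quot : Finite (ZE N B ⧸ (mI S) ^ 2) := by
  classical
  have : Finite (k × k × (Fin N → k)) := inferInstance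
  let π : k × k × (Fin N → k) → (ZE N B ⧸ (mI S) ^ 2) :=
    fun v => Ideal.Quotient.mk _ (MvPowerSeries.C (S.t v.1 + (p : B) * S.t v.2.1) + ∑ i, MvPowerSeries.C (S.t (v.2.2 i)) * MvPowerSeries.X i)
  refine Finite.of_surjective π ?_
  intro q
  obtain ⟨a, rfl⟩ := Ideal.Quotient.mk_surjective q
  set b := MvPowerSeries.constantCoeff a with hb
  obtain ⟨b', hb'⟩ := S.hker (b - S.t (S.ρ₀ b)) (by rw [map_sub, S.ρt, sub_self])
  obtain ⟨b'', hb''⟩ := S.hker (b' - S.t (S.ρ₀ b')) (by rw [map_sub, S.ρt, sub_self])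
  have h1 : MvPowerSeries.constantCoeff (a - MvPowerSeries.C b) = 0 := by
    simp [hb]
  have h2 := eq_sum_zcofactorX (a - MvPowerSeries.C b) h1
  set f := zcofactorX (a - MvPowerSeries.C b) with hf
  refine ⟨(S.ρ₀ b, S.ρ₀ b', fun i => S.ρ₀ (MvPowerSeries.constantCoeff (f i))), ?_⟩
  show Ideal.Quotient.mk _ _ = Ideal.Quotient.mk _ _
  rw [Ideal.Quotient.eq]
  have hbb : b = S.t (S.ρ₀ b) + (p : B) * S.t (S.ρ₀ b') + (p : B) * ((p : B) * b'') := by
    have e1 : b = S.t (S.ρ₀ b) + (p : B) * b' := by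
      rw [← hb']; ring
    have e2 : b' = S.t (S.ρ₀ b') + (p : B) * b'' := by
      rw [← hb'']; ring
    calc b = S.t (S.ρ₀ b) + (p : B) * b' := e1
      _ = S.t (S.ρ₀ b) + (p : B) * (S.t (S.ρ₀ b') + (p : B) * b'') := by rw [← e2]
      _ = _ := by ring
  have hCb : (MvPowerSeries.C b : ZE N B) = MvPowerSeries.C (S.t (S.ρ₀ b) + (p : B) * S.t (S.ρ₀ b')) +
      ((p : ℕ) : ZE N B) * (((p : ℕ) : ZE N B) * MvPowerSeries.C b'') := by
    conv_lhs => rw [hbb]
    simp only [map_add, map_mul, map_natCast]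
  have h3 : MvPowerSeries.C (S.t (S.ρ₀ b) + (p : B) * S.t (S.ρ₀ b')) +
      ∑ i, MvPowerSeries.C (S.t (S.ρ₀ (MvPowerSeries.constantCoeff (f i)))) * MvPowerSeries.X i - a =
      - (((p : ℕ) : ZE N B) * (((p : ℕ) : ZE N B) * MvPowerSeries.C b'') +
        ∑ i, (f i - MvPowerSeries.C (S.t (S.ρ₀ (MvPowerSeries.constantCoeff (f i))))) * MvPowerSeries.X i) := by
    simp_rw [sub_mul]
    rw [Finset.sum_sub_distrib, h2]
    rw [hCb]
    ring
  rw [h3, pow_two]
  refine Ideal.neg_mem_iff _ |>.mpr (Ideal.add_mem _ ?_ (Ideal.sum_mem _ fun i _ => Ideal.mul_mem_mul ?_ ?_))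
  · exact Ideal.mul_mem_mul (natCast_p_mem S) (Ideal.mul_mem_right _ _ (natCast_p_mem S))
  · rw [mem_mI, map_sub]
    simp [ρ, S.ρt]
  · exact X_mem S i

/-- `‖evH x a‖ ≤ c ^ q` for `a ∈ 𝔪 ^ q`. -/
private theorem norm_evH_of_mem_pow (x : S.Pt) (q : ℕ) (a : ZE N B) (ha : a ∈ (mI S) ^ q) :
    ‖((S.evH x a : OC C) : C)‖ ≤ S.c ^ q := by
  induction q generalizing a with
  | zero => simpa using (norm_OC_le (S.evH x a))
  | succ q ih =>
    rw [pow_succ] at ha
    refine Submodule.mul_induction_on ha ?_ ?_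
    · intro u hu v hv
      rw [map_mul]
      show ‖((S.evH x u : OC C) : C) * ((S.evH x v : OC C) : C)‖ ≤ _
      rw [norm_mul, pow_succ]
      exact mul_le_mul (ih u hu) (S.norm_evH_of_ρ x ((mem_mI S).mp hv)) (norm_nonneg _) (pow_nonneg S.c_pos.le q)
    · intro u v hu hv
      rw [map_add]
      show ‖((S.evH x u : OC C) : C) + ((S.evH x v : OC C) : C)‖ ≤ _
      exact (IsUltrametricDist.norm_add_le_max _ _).trans (max_le hu hv)

/-- `‖evH x (τ ^ (M₀ p ^ v) a) - evH x a‖ ≤ C₀ ‖p‖ ^ v`.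

Proof. Let `𝔪` be the kernel of `S.ρ`: it is the ideal generated by `p` and the variables (use `hker`; `eq_sum_cofactorX`-like arguments in `TauPow.lean`) and is preserved by `τ` (`ρ_tau`).
(i) `E₀ / 𝔪 ^ 2` is finite: it is the image of the finite set of the `C (t d₀ + p t d₁) + ∑_l C (t e_l) X l`, by `ρt`, `hker`. So `τ` permutes a finite set, and there is `M₀ > 0` with `τ ^ M₀ a - a ∈ 𝔪 ^ 2` for all `a` (see `exists_pow_sub_mem_sq`).
(ii) Let `T = τ ^ M₀ - 1`. By `T (a b) = T a * b + τ ^ M₀ a * T b`, `T` maps `𝔪 ^ i` to `𝔪 ^ (i + 1)`: (see `map_sub_self_mem_pow`). So `T ^ i a ∈ 𝔪 ^ i`.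
(iii) `‖evH x a‖ ≤ c ^ i` for `a ∈ 𝔪 ^ i` (`norm_evH_of_ρ`, see `norm_le_of_mem_pow`).
(iv) `τ ^ (M₀ p ^ v) = (1 + T) ^ (p ^ v) = ∑_i choose (p ^ v) i T ^ i`. And `‖choose (p ^ v) i‖ ≤ ‖p‖ ^ (v - v_p(i))` for `1 ≤ i ≤ p ^ v`. So
`‖evH x (τ ^ (M₀ p ^ v) a - a)‖ ≤ max_{1 ≤ i ≤ p ^ v} ‖p‖ ^ (v - v_p(i)) c ^ i`. Since `i ≥ p ^ (v_p(i))`, `c ^ i ‖p‖ ^ (-v_p(i)) ≤ c ^ (p ^ w) ‖p‖ ^ (-w)`, `w = v_p(i)`, and the sequence `c ^ (p ^ w) ‖p‖ ^ (-w)` is bounded (it tends to zero). Take for `C₀` a bound.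
 -/
theorem ztau_close (x : S.Pt) (τ : ZE N B ≃ₐ[B] ZE N B) :
    ∃ (M₀ : ℕ) (C₀ : ℝ), 0 < M₀ ∧ 0 ≤ C₀ ∧ ∀ (v : ℕ) (a : ZE N B),
      ‖((S.evH x ((τ ^ (M₀ * p ^ v)) a) : OC C) : C) - (S.evH x a : OC C)‖ ≤ C₀ * ‖(p : C)‖ ^ v := by
  have hfin := finite_quot S
  have hsq : ∀ (τ' : ZE N B ≃ₐ[B] ZE N B), ∀ x ∈ (mI S) ^ 2, τ' x ∈ (mI S) ^ 2 :=
    fun τ' x hx => tau_mem_pow S τ' 2 hx
  obtain ⟨M₀, hM₀, hM⟩ := exists_pow_sub_mem_of_finite ((mI S) ^ 2) τ (hsq τ) (hsq τ.symm)
  have hp0 := S.hp0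
  have hr : 0 < ‖(p : C)‖ := norm_pos_iff.mpr hp0
  obtain ⟨C₀, hC₀, hC⟩ := exists_bound_pow_pow p S.c_pos.le S.hc1 hr
  refine ⟨M₀, C₀, hM₀, hC₀, ?_⟩
  intro v a
  set g : ZE N B ≃ₐ[B] ZE N B := τ ^ M₀ with hg
  have hgsq : ∀ a, g a - a ∈ (mI S) ^ 2 := by
    intro a
    have := hM 1 a
    rwa [mul_one] at this
  have hpow : τ ^ (M₀ * p ^ v) = g ^ (p ^ v) := by
    rw [hg, pow_mul]
  rw [hpow, endo_binom g (p ^ v) a, Finset.sum_range_succ']
  -- the term for `i = 0` is `a`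
  set T : Module.End B (ZE N B) := g.toLinearMap - 1 with hT
  have hT0 : ((p ^ v).choose 0 : ZE N B) * (T ^ 0) a = a := by simp
  rw [hT0, map_add]
  have hcoe : ∀ u w : OC C, ((u + w : OC C) : C) - (w : C) = (u : C) := by
    intro u w
    push_cast
    ring
  rw [hcoe, map_sum]
  have hcoe2 : ((∑ i ∈ Finset.range (p ^ v), S.evH x ((((p ^ v).choose (i + 1) : ℕ) : ZE N B) * (T ^ (i + 1)) a) : OC C) : C) =
      ∑ i ∈ Finset.range (p ^ v), ((S.evH x ((((p ^ v).choose (i + 1) : ℕ) : ZE N B) * (T ^ (i + 1)) a) : OC C) : C) := by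
    push_cast
    rfl
  rw [hcoe2]
  have hbound : 0 ≤ C₀ * ‖(p : C)‖ ^ v := mul_nonneg hC₀ (pow_nonneg hr.le _)
  refine IsUltrametricDist.norm_sum_le_of_forall_le_of_nonneg hbound ?_
  intro i hi
  have hi1 : i + 1 ≤ p ^ v := Finset.mem_range.mp hi
  rw [map_mul, map_natCast]
  show ‖(((((p ^ v).choose (i + 1) : ℕ) : OC C) : C)) * ((S.evH x ((T ^ (i + 1)) a) : OC C) : C)‖ ≤ _
  have hc1 : (((((p ^ v).choose (i + 1) : ℕ) : OC C) : C)) = (((p ^ v).choose (i + 1) : ℕ) : C) := by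
    push_cast
    rfl
  rw [hc1, norm_mul]
  obtain ⟨w, i', hi'1, hi'2⟩ := Nat.exists_eq_pow_mul_and_not_dvd (n := i + 1) (by omega) p hp.out.ne_one
  obtain ⟨hwv, hdvd⟩ := pow_sub_dvd_choose p hi'2 hi'1 (by omega) hi1
  have h1 : ‖(((p ^ v).choose (i + 1) : ℕ) : C)‖ ≤ ‖(p : C)‖ ^ (v - w) := by
    obtain ⟨e, he⟩ := hdvd
    rw [he]
    push_cast
    rw [norm_mul, norm_pow]
    exact mul_le_of_le_one_right (pow_nonneg hr.le _) (IsUltrametricDist.norm_natCast_le_one C e)
  have h2 : ‖((S.evH x ((T ^ (i + 1)) a) : OC C) : C)‖ ≤ S.c ^ (p ^ w) := by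
    have h3 := norm_evH_of_mem_pow S x (i + 1) _ (endo_pow_mem ((mI S)) g (tau_sub_mem S g) (fun x hx => tau_mem S g hx) hgsq (i + 1) a)
    refine h3.trans ?_
    refine pow_le_pow_of_le_one S.c_pos.le S.hc1.le ?_
    rw [hi'2]
    exact Nat.le_mul_of_pos_right _ (by
      rcases Nat.eq_zero_or_pos i' with h | h
      · subst h; simp at hi'1
      · exact h)
  calc ‖(((p ^ v).choose (i + 1) : ℕ) : C)‖ * ‖((S.evH x ((T ^ (i + 1)) a) : OC C) : C)‖
      ≤ ‖(p : C)‖ ^ (v - w) * (C₀ * ‖(p : C)‖ ^ w) :=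
        mul_le_mul h1 (h2.trans (hC w)) (norm_nonneg _) (pow_nonneg hr.le _)
    _ = C₀ * ‖(p : C)‖ ^ v := by
        have : ‖(p : C)‖ ^ (v - w) * ‖(p : C)‖ ^ w = ‖(p : C)‖ ^ v := by
          rw [← pow_add, Nat.sub_add_cancel hwv]
        rw [← this]; ring

/-- The iterated points. -/
noncomputable def tauIter (τ : ZE N B ≃ₐ[B] ZE N B) (x : S.Pt) : ℕ → S.Pt
  | 0 => x
  | m + 1 => S.tauPt τ (tauIter τ x m)

/-- By `evH_tauPt` and induction. -/
theorem evH_tauIter (τ : ZE N B ≃ₐ[B] ZE N B) (x : S.Pt) (m : ℕ) (a : ZE N B) :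
    S.evH (S.tauIter τ x m) a = S.evH x ((τ ^ m) a) := by
  induction m generalizing a with
  | zero => rfl
  | succ m ih =>
    show S.evH (S.tauPt τ (S.tauIter τ x m)) a = _
    rw [S.evH_tauPt, ih, pow_succ, AlgEquiv.mul_apply]

end ZS

end Vale.Agent.Lib.P217
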