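import Vale.Agent.Lib.P217.ZTheta
import Vale.Agent.Lib.P217.ZTau
import Vale.Agent.Lib.P217.Binom

set_option linter.unusedSectionVars false
set_option linter.unusedVariables false

/-!
The main estimate: orbit points and the Taylor expansions of `Theta`.
-/

namespace Vale.Agent.Lib.P217

open scoped Topology
open Filter

variable {C : Type*} [NormedField C] [IsUltrametricDist C] [CompleteSpace C] [IsAlgClosed C]
variable {p n N : ℕ} [hp : Fact p.Prime]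
variable {k : Type*} [Field k] [Fintype k] [CharP k p] {B : Type*} [CommRing B]

namespace ZS

variable (S : ZS C p n N k B)

/-- Consequence of `Theta_lift`: `Theta` at the `m`-th iterate, up to a scalar, is the original `Theta` composed with the `m`-th power of `homZ g`. -/
theorem Theta_iter (x₀ : S.Pt) (τ : ZE N B ≃ₐ[B] ZE N B) {K : PowerSeries (ZE N B)}
    (hK : IsHom S.F (S.F.map (τ : ZE N B →+* ZE N B)) K) {g : PowerSeries k} (hg : IsHom S.Γ S.Γ g)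
    (hKg : PowerSeries.map S.ρ K = g) (m : ℕ) :
    ∃ a : C, ∀ y : ZCov (S.lawAt x₀), S.Theta x₀ (S.tauIter τ x₀ m) ((S.homZ x₀ hg ^ m) y) = a * S.Theta x₀ x₀ y := by
  induction m with
  | zero => exact ⟨1, fun y => by simp [tauIter]⟩
  | succ m ih =>
    obtain ⟨a, ha⟩ := ih
    refine ⟨((S.evH (S.tauIter τ x₀ m) (PowerSeries.coeff 1 K) : OC C) : C) * a, fun y => ?_⟩
    rw [pow_succ']
    show S.Theta x₀ (S.tauPt τ (S.tauIter τ x₀ m)) (S.homZ x₀ hg ((S.homZ x₀ hg ^ m) y)) = _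
    rw [S.Theta_lift x₀ _ τ hK hg hKg, ha, mul_assoc]

/-- The invariance hypothesis for the kernel of the evaluation at `x₀`. -/
def HInv (x₀ : S.Pt) : Prop :=
  ∀ g : PowerSeries k, IsHom S.Γ S.Γ g → IsUnit (PowerSeries.coeff 1 g) →
    ∃ (O : ℕ) (τ : ZE N B ≃ₐ[B] ZE N B) (K : PowerSeries (ZE N B)), 0 < O ∧
      IsHom S.F (S.F.map (τ : ZE N B →+* ZE N B)) K ∧
      PowerSeries.map S.ρ K = iterS g O ∧
      ∀ a, S.evH x₀ a = 0 → S.evH x₀ (τ a) = 0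

omit [CompleteSpace C] [IsAlgClosed C] in
/-- An integer prime to `p` has norm one when `‖p‖ < 1`. -/
lemma norm_natCast_of_not_dvd_of_lt (hlt : ‖(p : C)‖ < 1) {m : ℕ} (hm : ¬ p ∣ m) : ‖(m : C)‖ = 1 := by
  have hcop : Nat.Coprime m p := ((Nat.Prime.coprime_iff_not_dvd hp.out).2 hm).symm
  obtain ⟨a, b, hab⟩ : IsCoprime (m : ℤ) (p : ℤ) := Nat.isCoprime_iff_coprime.2 hcop
  have h1 : (a : C) * (m : C) + (b : C) * (p : C) = 1 := by
    have := congrArg (Int.cast : ℤ → C) hab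
    push_cast at this
    exact this
  have hle : ‖(m : C)‖ ≤ 1 := IsUltrametricDist.norm_natCast_le_one C m
  refine le_antisymm hle ?_
  by_contra hcon
  replace hcon := not_le.mp hcon
  have ha : ‖(a : C)‖ ≤ 1 := IsUltrametricDist.norm_intCast_le_one C a
  have hb : ‖(b : C)‖ ≤ 1 := IsUltrametricDist.norm_intCast_le_one C b
  have h2 : ‖(a : C) * (m : C)‖ < 1 := by
    rw [norm_mul]
    calc ‖(a : C)‖ * ‖(m : C)‖ ≤ 1 * ‖(m : C)‖ := mul_le_mul_of_nonneg_right ha (norm_nonneg _)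
      _ < 1 := by rwa [one_mul]
  have h3 : ‖(b : C) * (p : C)‖ < 1 := by
    rw [norm_mul]
    calc ‖(b : C)‖ * ‖(p : C)‖ ≤ 1 * ‖(p : C)‖ := mul_le_mul_of_nonneg_right hb (norm_nonneg _)
      _ < 1 := by rwa [one_mul]
  have h4 : ‖(1 : C)‖ < 1 := by
    rw [← h1]
    exact lt_of_le_of_lt (IsUltrametricDist.norm_add_le_max _ _) (max_lt h2 h3)
  rw [norm_one] at h4
  exact lt_irrefl _ h4

omit [IsAlgClosed C] [CharP k p] in
/-- The powers of `τ` preserve the kernel of the evaluation. -/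
lemma evH_pow_eq_zero (x₀ : S.Pt) (τ : ZE N B ≃ₐ[B] ZE N B)
    (hτ : ∀ a, S.evH x₀ a = 0 → S.evH x₀ (τ a) = 0) (m : ℕ) {a : ZE N B} (ha : S.evH x₀ a = 0) :
    S.evH x₀ ((τ ^ m) a) = 0 := by
  induction m with
  | zero => simpa using ha
  | succ m ih =>
    rw [pow_succ']
    exact hτ _ ih

omit [IsAlgClosed C] in
/-- Powers of the Frobenius do not increase `nm`. -/
lemma nm_gamma_le (x₀ : S.Pt) (d : k) (z : ℕ) (y : ZCov (S.lawAt x₀)) :
    ZCov.nm ((S.cZ x₀ d * S.phiZ x₀ ^ z) y) ≤ ZCov.nm y := by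
  have h : ∀ (z : ℕ) (y : ZCov (S.lawAt x₀)), ZCov.nm ((S.phiZ x₀ ^ z) y) ≤ ZCov.nm y := by
    intro z
    induction z with
    | zero => intro y; simp
    | succ z ih =>
      intro y
      rw [pow_succ', end_mul_apply]
      exact (S.nm_phiZ_le x₀ _).trans (ih y)
  rw [end_mul_apply]
  exact (S.nm_cZ_le x₀ d _).trans (h z y)

omit [IsAlgClosed C] [CharP k p] in
/-- The Taylor term of an element of the kernel: if `a` vanishes at two points `x₀`, `u`, with difference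
bounded by `D ≤ c`, the first order term of `a` at `x₀` has norm at most `D ^ 2`. -/
lemma norm_sum_pderiv_le (x₀ u : S.Pt) {a : ZE N B} (ha : S.evH x₀ a = 0) (hu : S.evH u a = 0) {D : ℝ}
    (hD : 0 ≤ D) (hDc : D ≤ S.c)
    (hΔ : ∀ l, ‖((u.1 l : OC C) : C) - (x₀.1 l : OC C)‖ ≤ D) :
    ‖∑ l, ((S.evH x₀ (MvPowerSeries.pderiv B l a) : OC C) : C) * (((u.1 l : OC C) : C) - (x₀.1 l : OC C))‖ ≤ D ^ 2 := by
  have hb : ∀ l, ‖(((u.1 l - x₀.1 l : OC C)) : C)‖ ≤ D := by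
    intro l
    have : (((u.1 l - x₀.1 l : OC C)) : C) = ((u.1 l : OC C) : C) - (x₀.1 l : OC C) := rfl
    rw [this]
    exact hΔ l
  have hb' : ∀ l, ‖(((u.1 l - x₀.1 l : OC C)) : C)‖ < 1 := fun l =>
    lt_of_le_of_lt ((hb l).trans hDc) S.hc1
  have h := norm_Ev_taylor_le S.κ x₀.1 (fun l => u.1 l - x₀.1 l) x₀.lt_one hb' a hD hb
  have hsum : x₀.1 + (fun l => u.1 l - x₀.1 l) = u.1 := by
    funext l
    simp
  rw [hsum] at h
  rw [← S.evH_apply u, ← S.evH_apply x₀, hu, ha] at h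
  simp only [ZeroMemClass.coe_zero, sub_zero, zero_sub, norm_neg] at h
  have e : ∀ l, Ev S.κ x₀.1 (MvPowerSeries.pderiv B l a) = S.evH x₀ (MvPowerSeries.pderiv B l a) :=
    fun l => (S.evH_apply x₀ _).symm
  simp only [e] at h
  exact h

/-- Main lemma. Let `y_b`, `b ∈ ι` (a finite index), be elements of the universal cover with Taylor expansions `J b` of `Theta` at `x₀`. Let `ρ` be a linear form with `∑ ρ_b Theta(y_b) = 0` and `∑ ρ_b J_b = grad a (x₀)`, where `a` is in the kernel of the evaluation at `x₀`.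
Then `∑ ρ_b Theta(γ y_b) = 0` for `γ = [d] Φ ^ z`.

Proof. Notation: `θ = Theta x₀ x₀`, `Θ_u = Theta x₀ u`, `γ = cZ d * phiZ ^ z`, `t = max_b nm (y_b)`, `t < 1`; `‖ρ‖ = max ‖ρ_b‖`. `Bd` is the bound of `norm_Theta_le` for `t`: note `nm (γ y) ≤ nm y`. Let `S_∞ = ∑_b ρ_b θ(γ y_b)`.
We show `‖S_∞‖ ≤ ‖p‖ ^ s ‖ρ‖ Bd` for every `s`, which gives the result as `‖p‖ < 1`.
Fix `s`. By `exists_digit`, there is `g` with `E := homZ g = 1 + p ^ (s + 1) • γ`, `IsUnit (coeff 1 g)`. `hinv` provides `O, τ, K`, with `K` lifting `iterS g O` for which `homZ = E ^ O` (`homZ_iter`).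
`ztau_close` for `τ` gives `M₀, C₀`. Write `O * M₀ = u₀ * p ^ w` with `p ∤ u₀`; so `‖(u₀ : C)‖ = 1` (as `‖p‖ < 1`).
For `v : ℕ`, let `m = M₀ * p ^ v`, `x_v = tauIter τ x₀ m`, `Δ_l = x_v l - x₀ l`. We have (`evH_tauIter`, `evH_X`, `ztau_close`) `‖Δ_l‖ ≤ D_v := C₀ ‖p‖ ^ v`. We only consider `v` so large that `D_v ≤ c`.
`exists_end_binom` with `nm = ZCov.nm` and `T = w + v` gives `ζ = ζ_v` with `nm (ζ y) ≤ nm y` and `(E ^ O) ^ m y = E ^ (u₀ * p ^ (w + v)) y = y + p ^ A • (u₀ • γ y + p ^ s • ζ y)`, where `A = w + v + s + 1`.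
By `Theta_iter` there is a scalar `e` such that for all `y`: `Θ_{x_v}(y) + p ^ A (u₀ Θ_{x_v}(γ y) + p ^ s Θ_{x_v}(ζ y)) = e θ(y)`.
Multiply by `ρ_b` for `y = y_b` and sum; the right side vanishes. By Taylor (`hJ`): `Θ_{x_v}(y_b) = θ(y_b) + ∑_l J b l Δ_l + R_b`, `‖R_b‖ ≤ B₁ D_v ^ 2`, `B₁` the maximum of the finitely many constants.
So `∑_b ρ_b Θ_{x_v}(y_b) = ∑_l (evH x₀ (pderiv l a)) Δ_l + ∑_b ρ_b R_b`. Since `evH x_v a = evH x₀ (τ ^ m a) = 0` and `evH x₀ a = 0`, by `norm_Ev_taylor_le`: `‖∑_l (evH x₀ (pderiv l a)) Δ_l‖ ≤ D_v ^ 2`.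
Altogether: `‖p‖ ^ A ‖u₀ S_v + p ^ s S'_v‖ ≤ C₁ D_v ^ 2` where `C₁ = max 1 (‖ρ‖ B₁)`, `S_v = ∑_b ρ_b Θ_{x_v}(γ y_b)`, `S'_v = ∑_b ρ_b Θ_{x_v}(ζ y_b)` (`‖S'_v‖ ≤ ‖ρ‖ Bd`). So `‖u₀ S_v + p ^ s S'_v‖ ≤ C₁ C₀ ^ 2 ‖p‖ ^ (2 v - w - v - s - 1) = C₂ ‖p‖ ^ v`, with `C₂ = C₁ C₀ ^ 2 ‖p‖ ^ (-w-s-1)`.
So `‖S_v‖ ≤ max (C₂ ‖p‖ ^ v) (‖p‖ ^ s ‖ρ‖ Bd)`.
Finally, `Theta_taylor` applied to `γ y_b` shows that `S_v → S_∞` as `v → ∞` (`‖Δ‖ ≤ D_v → 0`). Hence `‖S_∞‖ ≤ ‖p‖ ^ s ‖ρ‖ Bd`. -/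
theorem lemma_T (x₀ : S.Pt) (hinv : S.HInv x₀) {ι : Type*} [Fintype ι] (y : ι → ZCov (S.lawAt x₀)) (J : ι → Fin N → C)
    (hJ : ∀ b, ∃ B₁ : ℝ, 0 ≤ B₁ ∧ ∀ (u : S.Pt) (D : ℝ), 0 ≤ D → D ≤ S.c →
      (∀ l, ‖((u.1 l : OC C) : C) - (x₀.1 l : OC C)‖ ≤ D) →
      ‖S.Theta x₀ u (y b) - S.Theta x₀ x₀ (y b) - ∑ l, J b l * (((u.1 l : OC C) : C) - (x₀.1 l : OC C))‖ ≤ B₁ * D ^ 2)
    (ρ : ι → C) (hρ : ∑ b, ρ b * S.Theta x₀ x₀ (y b) = 0)
    (a : ZE N B) (ha : S.evH x₀ a = 0)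
    (hρJ : ∀ l, ∑ b, ρ b * J b l = ((S.evH x₀ (MvPowerSeries.pderiv B l a) : OC C) : C)) (d : k) (z : ℕ) :
    ∑ b, ρ b * S.Theta x₀ x₀ ((S.cZ x₀ d * S.phiZ x₀ ^ z) (y b)) = 0 := by
  classical
  rcases isEmpty_or_nonempty ι with hι | hι
  · simp
  set γ : AddMonoid.End (ZCov (S.lawAt x₀)) := S.cZ x₀ d * S.phiZ x₀ ^ z with hγdef
  have hγ : ∀ x, ZCov.nm (γ x) ≤ ZCov.nm x := fun x => S.nm_gamma_le x₀ d z x
  obtain ⟨b₀, hb₀⟩ := Finite.exists_max (fun b => ZCov.nm (y b))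
  obtain ⟨Bd, hBd0, hBd⟩ := S.norm_Theta_le (ZCov.nm_lt_one (y b₀))
  set R : ℝ := ∑ b, ‖ρ b‖ with hR
  have hR0 : 0 ≤ R := Finset.sum_nonneg fun _ _ => norm_nonneg _
  set q : ℝ := ‖(p : C)‖ with hq
  have hq0 : 0 < q := norm_pos_iff.mpr S.hp0
  have hq1 : q < 1 := S.norm_p_lt_one
  have hqlim : Tendsto (fun v : ℕ => q ^ v) atTop (𝓝 0) :=
    tendsto_pow_atTop_nhds_zero_of_lt_one hq0.le hq1
  choose B₁ hB₁0 hB₁ using hJ
  choose J' B' hB'0 hB' using fun b => S.Theta_taylor x₀ (γ (y b))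
  -- the bound for every `s`
  have key : ∀ s : ℕ, ‖∑ b, ρ b * S.Theta x₀ x₀ (γ (y b))‖ ≤ q ^ s * (R * Bd) := by
    intro s
    obtain ⟨g, hg, hunit, hgE⟩ := S.exists_digit x₀ d z s
    obtain ⟨O, τ, K, hO, hK, hKg, hτ⟩ := hinv g hg hunit
    obtain ⟨M₀, C₀, hM₀, hC₀, hclose⟩ := S.ztau_close x₀ τ
    obtain ⟨w, u₀, hu₀, hOM⟩ := Nat.exists_eq_pow_mul_and_not_dvd (n := O * M₀)
      (Nat.mul_ne_zero hO.ne' hM₀.ne') p hp.out.ne_one
    have hu₀norm : ‖(u₀ : C)‖ = 1 := norm_natCast_of_not_dvd_of_lt S.norm_p_lt_one hu₀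
    -- the constants
    set B₁t : ℝ := ∑ b, ‖ρ b‖ * B₁ b with hB₁t
    have hB₁t0 : 0 ≤ B₁t := Finset.sum_nonneg fun b _ => mul_nonneg (norm_nonneg _) (hB₁0 b)
    set K₁ : ℝ := ∑ b, ‖ρ b‖ * ∑ l, ‖J' b l‖ with hK₁
    set K₂ : ℝ := ∑ b, ‖ρ b‖ * B' b with hK₂
    set C₂ : ℝ := (1 + B₁t) * C₀ ^ 2 / q ^ (w + s + 1) with hC₂
    -- the estimate for large `v`
    have hmain : ∀ v : ℕ, C₀ * q ^ v ≤ S.c →
        ‖∑ b, ρ b * S.Theta x₀ x₀ (γ (y b))‖ ≤
          C₂ * q ^ v + q ^ s * (R * Bd) + K₁ * (C₀ * q ^ v) + K₂ * (C₀ * q ^ v) ^ 2 := by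
      intro v hv
      set D : ℝ := C₀ * q ^ v with hD
      have hD0 : 0 ≤ D := mul_nonneg hC₀ (pow_nonneg hq0.le v)
      set m : ℕ := M₀ * p ^ v with hm
      set u : S.Pt := S.tauIter τ x₀ m with hu
      have hΔ : ∀ l, ‖((u.1 l : OC C) : C) - (x₀.1 l : OC C)‖ ≤ D := by
        intro l
        have h1 := hclose v (MvPowerSeries.X l)
        rw [S.evH_X, ← S.evH_tauIter, S.evH_X] at h1
        exact h1
      obtain ⟨e, he⟩ := S.Theta_iter x₀ τ hK (isHom_iterS hg O) hKg m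
      obtain ⟨ζ, hζ, hζeq⟩ := exists_end_binom (ZCov.nm (L := S.lawAt x₀)) ZCov.nm_add ZCov.nm_neg
        ZCov.nm_zero_le p γ hγ s u₀ (w + v)
      -- the power identity
      have hpow : (S.homZ x₀ (isHom_iterS hg O)) ^ m = (1 + (p ^ (s + 1) : ℕ) • γ) ^ (u₀ * p ^ (w + v)) := by
        rw [S.homZ_iter x₀ hg O, hgE, ← pow_mul]
        congr 1
        calc O * m = (O * M₀) * p ^ v := by rw [hm]; ring
          _ = u₀ * p ^ (w + v) := by rw [hOM]; ring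
      -- the relation
      have hrel : ∀ y' : ZCov (S.lawAt x₀), S.Theta x₀ u y' +
          (p : C) ^ (w + v + s + 1) * ((u₀ : C) * S.Theta x₀ u (γ y') + (p : C) ^ s * S.Theta x₀ u (ζ y')) =
          e * S.Theta x₀ x₀ y' := by
        intro y'
        have h1 := he y'
        rw [hpow, hζeq y'] at h1
        rw [map_add, map_nsmul, map_add, map_nsmul, map_nsmul] at h1
        simp only [nsmul_eq_mul] at h1
        push_cast at h1
        exact h1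
      set Sv : C := ∑ b, ρ b * S.Theta x₀ u (γ (y b)) with hSv
      set Sv' : C := ∑ b, ρ b * S.Theta x₀ u (ζ (y b)) with hSv'
      set Sinf : C := ∑ b, ρ b * S.Theta x₀ x₀ (γ (y b)) with hSinf
      set S0 : C := ∑ b, ρ b * S.Theta x₀ u (y b) with hS0
      -- summing the relation
      have hsum : S0 + (p : C) ^ (w + v + s + 1) * ((u₀ : C) * Sv + (p : C) ^ s * Sv') = 0 := by
        have h1 : ∑ b, ρ b * (S.Theta x₀ u (y b) +
            (p : C) ^ (w + v + s + 1) * ((u₀ : C) * S.Theta x₀ u (γ (y b)) + (p : C) ^ s * S.Theta x₀ u (ζ (y b)))) =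
            ∑ b, ρ b * (e * S.Theta x₀ x₀ (y b)) :=
          Finset.sum_congr rfl fun b _ => by rw [hrel (y b)]
        have h2 : ∑ b, ρ b * (e * S.Theta x₀ x₀ (y b)) = e * ∑ b, ρ b * S.Theta x₀ x₀ (y b) := by
          rw [Finset.mul_sum]
          exact Finset.sum_congr rfl fun b _ => by ring
        have h3 : ∑ b, ρ b * (S.Theta x₀ u (y b) +
            (p : C) ^ (w + v + s + 1) * ((u₀ : C) * S.Theta x₀ u (γ (y b)) + (p : C) ^ s * S.Theta x₀ u (ζ (y b)))) =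
            S0 + (p : C) ^ (w + v + s + 1) * ((u₀ : C) * Sv + (p : C) ^ s * Sv') := by
          rw [hS0, hSv, hSv', Finset.mul_sum, Finset.mul_sum, ← Finset.sum_add_distrib, Finset.mul_sum,
            ← Finset.sum_add_distrib]
          refine Finset.sum_congr rfl fun b _ => ?_
          ring
        rw [← h3, h1, h2, hρ, mul_zero]
      -- the bound for `S0`
      have hS0bd : ‖S0‖ ≤ (1 + B₁t) * D ^ 2 := by
        have hid : S0 = ∑ b, ρ b * (S.Theta x₀ u (y b) - S.Theta x₀ x₀ (y b) -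
              ∑ l, J b l * (((u.1 l : OC C) : C) - (x₀.1 l : OC C))) +
            ∑ l, ((S.evH x₀ (MvPowerSeries.pderiv B l a) : OC C) : C) * (((u.1 l : OC C) : C) - (x₀.1 l : OC C)) := by
          have h1 : ∑ l, ((S.evH x₀ (MvPowerSeries.pderiv B l a) : OC C) : C) * (((u.1 l : OC C) : C) - (x₀.1 l : OC C)) =
              ∑ b, ρ b * ∑ l, J b l * (((u.1 l : OC C) : C) - (x₀.1 l : OC C)) := by
            simp only [← hρJ, Finset.sum_mul, Finset.mul_sum]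
            rw [Finset.sum_comm]
            refine Finset.sum_congr rfl fun b _ => Finset.sum_congr rfl fun l _ => ?_
            ring
          rw [h1, hS0]
          have h2 : ∑ b, ρ b * (S.Theta x₀ u (y b) - S.Theta x₀ x₀ (y b) -
              ∑ l, J b l * (((u.1 l : OC C) : C) - (x₀.1 l : OC C))) +
              ∑ b, ρ b * ∑ l, J b l * (((u.1 l : OC C) : C) - (x₀.1 l : OC C)) =
              ∑ b, ρ b * S.Theta x₀ u (y b) - ∑ b, ρ b * S.Theta x₀ x₀ (y b) := by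
            rw [← Finset.sum_add_distrib, ← Finset.sum_sub_distrib]
            refine Finset.sum_congr rfl fun b _ => ?_
            ring
          rw [h2, hρ, sub_zero]
        have h1 : ‖∑ b, ρ b * (S.Theta x₀ u (y b) - S.Theta x₀ x₀ (y b) -
              ∑ l, J b l * (((u.1 l : OC C) : C) - (x₀.1 l : OC C)))‖ ≤ B₁t * D ^ 2 := by
          rw [hB₁t, Finset.sum_mul]
          refine (norm_sum_le _ _).trans (Finset.sum_le_sum fun b _ => ?_)
          rw [norm_mul, mul_assoc]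
          exact mul_le_mul_of_nonneg_left (hB₁ b u D hD0 hv hΔ) (norm_nonneg _)
        have hau : S.evH u a = 0 := by
          rw [hu, S.evH_tauIter]
          exact S.evH_pow_eq_zero x₀ τ hτ m ha
        have h2 := S.norm_sum_pderiv_le x₀ u ha hau hD0 hv hΔ
        rw [hid]
        refine (_root_.norm_add_le _ _).trans ?_
        nlinarith [h1, h2]
      -- the bound for `Sv'`
      have hSv'bd : ‖Sv'‖ ≤ R * Bd := by
        rw [hSv', hR, Finset.sum_mul]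
        refine (norm_sum_le _ _).trans (Finset.sum_le_sum fun b _ => ?_)
        rw [norm_mul]
        refine mul_le_mul_of_nonneg_left ?_ (norm_nonneg _)
        exact hBd x₀ u _ ((hζ _).trans (hb₀ b))
      -- the bound for `Sv`
      have hq_pow : q ^ (w + v + s + 1) * (C₂ * q ^ v) = (1 + B₁t) * D ^ 2 := by
        rw [hC₂, hD]
        have hne : q ^ (w + s + 1) ≠ 0 := pow_ne_zero _ hq0.ne'
        have e1 : q ^ (w + v + s + 1) = q ^ (w + s + 1) * q ^ v := by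
          rw [← pow_add]; congr 1; omega
        rw [e1]
        field_simp
      have hcomb : ‖(u₀ : C) * Sv + (p : C) ^ s * Sv'‖ ≤ C₂ * q ^ v := by
        have h1 : (p : C) ^ (w + v + s + 1) * ((u₀ : C) * Sv + (p : C) ^ s * Sv') = - S0 := by
          linear_combination hsum
        have h2 : q ^ (w + v + s + 1) * ‖(u₀ : C) * Sv + (p : C) ^ s * Sv'‖ = ‖S0‖ := by
          rw [← norm_neg S0, ← h1, norm_mul, norm_pow]
        have h3 : q ^ (w + v + s + 1) * ‖(u₀ : C) * Sv + (p : C) ^ s * Sv'‖ ≤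
            q ^ (w + v + s + 1) * (C₂ * q ^ v) := by
          rw [h2, hq_pow]
          exact hS0bd
        exact le_of_mul_le_mul_left h3 (pow_pos hq0 _)
      have hSvbd : ‖Sv‖ ≤ C₂ * q ^ v + q ^ s * (R * Bd) := by
        have h1 : Sv = ((u₀ : C) * Sv + (p : C) ^ s * Sv') - (p : C) ^ s * Sv' + (1 - (u₀ : C)) * Sv := by ring
        have h2 : ‖(u₀ : C) * Sv‖ = ‖Sv‖ := by rw [norm_mul, hu₀norm, one_mul]
        have h3 : ‖(u₀ : C) * Sv‖ ≤ ‖(u₀ : C) * Sv + (p : C) ^ s * Sv'‖ + ‖(p : C) ^ s * Sv'‖ := by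
          have : (u₀ : C) * Sv = ((u₀ : C) * Sv + (p : C) ^ s * Sv') - (p : C) ^ s * Sv' := by ring
          calc ‖(u₀ : C) * Sv‖ = ‖((u₀ : C) * Sv + (p : C) ^ s * Sv') - (p : C) ^ s * Sv'‖ := by rw [← this]
            _ ≤ _ := norm_sub_le _ _
        have h4 : ‖(p : C) ^ s * Sv'‖ ≤ q ^ s * (R * Bd) := by
          rw [norm_mul, norm_pow]
          exact mul_le_mul_of_nonneg_left hSv'bd (pow_nonneg hq0.le s)
        rw [← h2]
        linarith
      -- the difference `Sinf - Sv`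
      have hdiff : ‖Sinf - Sv‖ ≤ K₁ * D + K₂ * D ^ 2 := by
        have hid : Sinf - Sv = ∑ b, ρ b * (S.Theta x₀ x₀ (γ (y b)) - S.Theta x₀ u (γ (y b))) := by
          rw [hSinf, hSv, ← Finset.sum_sub_distrib]
          exact Finset.sum_congr rfl fun b _ => by ring
        rw [hid, hK₁, hK₂, Finset.sum_mul, Finset.sum_mul, ← Finset.sum_add_distrib]
        refine (norm_sum_le _ _).trans (Finset.sum_le_sum fun b _ => ?_)
        rw [norm_mul, mul_assoc, mul_assoc, ← mul_add]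
        refine mul_le_mul_of_nonneg_left ?_ (norm_nonneg _)
        have h1 := hB' b u D hD0 hv hΔ
        have h2 : ‖∑ l, J' b l * (((u.1 l : OC C) : C) - (x₀.1 l : OC C))‖ ≤ (∑ l, ‖J' b l‖) * D := by
          rw [Finset.sum_mul]
          refine (norm_sum_le _ _).trans (Finset.sum_le_sum fun l _ => ?_)
          rw [norm_mul]
          exact mul_le_mul_of_nonneg_left (hΔ l) (norm_nonneg _)
        have h3 : S.Theta x₀ x₀ (γ (y b)) - S.Theta x₀ u (γ (y b)) =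
            - ((S.Theta x₀ u (γ (y b)) - S.Theta x₀ x₀ (γ (y b)) - ∑ l, J' b l * (((u.1 l : OC C) : C) - (x₀.1 l : OC C))) +
              ∑ l, J' b l * (((u.1 l : OC C) : C) - (x₀.1 l : OC C))) := by ring
        rw [h3, norm_neg]
        refine (_root_.norm_add_le _ _).trans ?_
        linarith
      have hfin : ‖Sinf‖ ≤ ‖Sv‖ + ‖Sinf - Sv‖ := by
        have : Sinf = Sv + (Sinf - Sv) := by ring
        calc ‖Sinf‖ = ‖Sv + (Sinf - Sv)‖ := by rw [← this]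
          _ ≤ _ := _root_.norm_add_le _ _
      linarith
    -- passage to the limit
    have hlim : Tendsto (fun v : ℕ => C₂ * q ^ v + q ^ s * (R * Bd) + K₁ * (C₀ * q ^ v) + K₂ * (C₀ * q ^ v) ^ 2)
        atTop (𝓝 (q ^ s * (R * Bd))) := by
      have h1 : Tendsto (fun v : ℕ => C₀ * q ^ v) atTop (𝓝 0) := by
        simpa using hqlim.const_mul C₀
      have h2 : Tendsto (fun v : ℕ => C₂ * q ^ v) atTop (𝓝 0) := by
        simpa using hqlim.const_mul C₂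
      have h3 : Tendsto (fun v : ℕ => K₁ * (C₀ * q ^ v)) atTop (𝓝 0) := by
        simpa using h1.const_mul K₁
      have h4 : Tendsto (fun v : ℕ => K₂ * (C₀ * q ^ v) ^ 2) atTop (𝓝 0) := by
        simpa using (h1.pow 2).const_mul K₂
      simpa using ((h2.add tendsto_const_nhds).add h3).add h4
    have hev : ∀ᶠ v : ℕ in atTop, C₀ * q ^ v ≤ S.c := by
      have h1 : Tendsto (fun v : ℕ => C₀ * q ^ v) atTop (𝓝 0) := by
        simpa using hqlim.const_mul C₀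
      exact (h1.eventually (Iio_mem_nhds S.c_pos)).mono fun v hv => le_of_lt hv
    exact ge_of_tendsto hlim (hev.mono hmain)
  -- conclusion
  have hlim0 : Tendsto (fun s : ℕ => q ^ s * (R * Bd)) atTop (𝓝 0) := by
    simpa using hqlim.mul_const (R * Bd)
  have hzero : ‖∑ b, ρ b * S.Theta x₀ x₀ (γ (y b))‖ ≤ 0 := ge_of_tendsto' hlim0 key
  exact norm_le_zero_iff.mp hzero

end ZS

end Vale.Agent.Lib.P217
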