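import Vale.Agent.Lib.P217.ZLemT
import Vale.Agent.Lib.P217.ZFourier

set_option linter.unusedSectionVars false
set_option linter.unusedVariables false

/-!
The kernel of the evaluation at a point with invariance is stable under the derivations.
-/

namespace Vale.Agent.Lib.P217

open scoped Topology
open Filter

variable {C : Type*} [NormedField C] [IsUltrametricDist C] [CompleteSpace C] [IsAlgClosed C]
variable {p n N : ℕ} [hp : Fact p.Prime]
variable {k : Type*} [Field k] [Fintype k] [CharP k p] {B : Type*} [CommRing B]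

namespace ZS

variable (S : ZS C p n N k B)

/-- From `fourier_independent`, with `M = ZCov (lawAt x₀)`, `nm = ZCov.nm`, `cE = cZ x₀`, `Φ = phiZ x₀`, `θ = Theta x₀ x₀`, `κ := (fun b => (S.κ b : C))`. -/
theorem exists_indep (x₀ : S.Pt) :
    ∃ y : Fin n → ZCov (S.lawAt x₀), ∀ ρ : Fin n → C,
      (∀ (d : k) (z : ℕ), ∑ b, ρ b * S.Theta x₀ x₀ ((S.cZ x₀ d * S.phiZ x₀ ^ z) (y b)) = 0) → ρ = 0 := by
  have hn : 1 ≤ n := by
    have := S.hN
    omega
  obtain ⟨y₀, hy₀⟩ := S.exists_Theta_ne_zero x₀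
  refine fourier_independent (M := ZCov (S.lawAt x₀)) (C := C) (p := p) (n := n) hn (k := k) S.hk
    (B := B) S.ρ₀ S.t S.ρt S.hker ((OC C).subtype.comp S.κ) (fun a => (S.κ a).2) S.hp0
    S.norm_p_lt_one ZCov.nm ZCov.nm_lt_one (S.cZ x₀) (S.phiZ x₀) (S.cZ_zero x₀) (S.cZ_one x₀)
    (S.cZ_mul x₀) (S.phiZ_cZ x₀) (S.phiZ_pow x₀) ZCov.exists_nsmul_p_eq (S.nm_cZ_le x₀)
    (S.exists_defect x₀) (S.Theta x₀ x₀) ⟨y₀, hy₀⟩ ?_
  intro s hs
  obtain ⟨Bd, -, hBd⟩ := S.norm_Theta_le hs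
  exact ⟨Bd, fun y hy => hBd x₀ x₀ y hy⟩

/-- The kernel is stable under the derivations.

Proof. Let `y` be as in `exists_indep`. By `Theta_taylor`, there are Taylor coefficients `J b`, for `y b`. Let `W = {ρ : Fin n → C | ∑ b, ρ b * θ (y b) = 0}` (a subspace of dimension at least `n - 1 = N` as the kernel of a linear form), and
`Jac : W → (Fin N → C)`, `(Jac ρ) l = ∑ b, ρ b * J b l`. By `lemma_T`, if `ρ ∈ W`, `a` in the kernel of `evH x₀`, and `Jac ρ = (evH x₀ (pderiv l a))_l` then `∑ b, ρ b * θ ((cZ d * phiZ ^ z) (y b)) = 0` for all `d`, `z`, so `ρ = 0` by `exists_indep`.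
For `a = 0`: `Jac` is injective. Since `dim W ≥ N`, `Jac` is surjective. For general `a`: there is `ρ ∈ W` with `Jac ρ = (evH x₀ (pderiv l a))_l`, then `ρ = 0`, so that `evH x₀ (pderiv l a) = 0` for all `l`. -/
theorem zmain (x₀ : S.Pt) (hinv : S.HInv x₀) (a : ZE N B) (ha : S.evH x₀ a = 0) (l : Fin N) :
    S.evH x₀ (MvPowerSeries.pderiv B l a) = 0 := by
  obtain ⟨y, hy⟩ := S.exists_indep x₀
  choose J B₁ hB₁ hJ using fun b => S.Theta_taylor x₀ (y b)
  have hTaylor : ∀ b, ∃ B₁ : ℝ, 0 ≤ B₁ ∧ ∀ (u : S.Pt) (D : ℝ), 0 ≤ D → D ≤ S.c →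
      (∀ l, ‖((u.1 l : OC C) : C) - (x₀.1 l : OC C)‖ ≤ D) →
      ‖S.Theta x₀ u (y b) - S.Theta x₀ x₀ (y b) -
        ∑ l, J b l * (((u.1 l : OC C) : C) - (x₀.1 l : OC C))‖ ≤ B₁ * D ^ 2 :=
    fun b => ⟨B₁ b, hB₁ b, hJ b⟩
  -- the linear map `ρ ↦ (∑ ρ_b θ (y_b), ∑ ρ_b J_b)`
  let Ψ : (Fin n → C) →ₗ[C] (C × (Fin N → C)) :=
    { toFun := fun ρ => (∑ b, ρ b * S.Theta x₀ x₀ (y b), fun l => ∑ b, ρ b * J b l)
      map_add' := by
        intro ρ ρ'
        refine Prod.ext ?_ (funext fun l => ?_)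
        · simp [add_mul, Finset.sum_add_distrib]
        · simp [add_mul, Finset.sum_add_distrib]
      map_smul' := by
        intro e ρ
        refine Prod.ext ?_ (funext fun l => ?_)
        · simp [mul_assoc, Finset.mul_sum]
        · simp [mul_assoc, Finset.mul_sum] }
  have hΨ₁ : ∀ ρ, (Ψ ρ).1 = ∑ b, ρ b * S.Theta x₀ x₀ (y b) := fun ρ => rfl
  have hΨ₂ : ∀ ρ l, (Ψ ρ).2 l = ∑ b, ρ b * J b l := fun ρ l => rfl
  have hinj : Function.Injective Ψ := by
    rw [← LinearMap.ker_eq_bot, LinearMap.ker_eq_bot']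
    intro ρ hρ
    apply hy
    intro d z
    refine S.lemma_T x₀ hinv y J hTaylor ρ ?_ 0 (map_zero _) ?_ d z
    · rw [← hΨ₁, hρ]
      rfl
    · intro l
      rw [← hΨ₂, hρ, map_zero, map_zero]
      rfl
  have hfin : Module.finrank C (Fin n → C) = Module.finrank C (C × (Fin N → C)) := by
    have := S.hN
    simp [Module.finrank_prod]
    omega
  have hsurj : Function.Surjective Ψ :=
    (LinearMap.injective_iff_surjective_of_finrank_eq_finrank hfin).1 hinj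
  obtain ⟨ρ, hρ⟩ := hsurj (0, fun l => ((S.evH x₀ (MvPowerSeries.pderiv B l a) : OC C) : C))
  have hρ0 : ρ = 0 := by
    apply hy
    intro d z
    refine S.lemma_T x₀ hinv y J hTaylor ρ ?_ a ha ?_ d z
    · rw [← hΨ₁, hρ]
    · intro l'
      rw [← hΨ₂, hρ]
  have h2 := congrFun (congrArg Prod.snd hρ) l
  rw [hρ0, map_zero] at h2
  apply Subtype.ext
  exact h2.symm

end ZS

end Vale.Agent.Lib.P217
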