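import Vale.Agent.Lib.P217.ZDesc

set_option linter.unusedSectionVars false
set_option linter.unusedVariables false

/-!
The full classification of invariant radical ideals of `W(k)⟦u_1, …, u_(n-1)⟧`.
-/

namespace Vale.Agent.Lib.P217

/-- The reduction to `k` is invariant under `W(k)`-algebra automorphisms. -/
theorem zred_alg {p N : ℕ} [Fact p.Prime] {k : Type} [Field k] [CharP k p]
    (τ : MvPowerSeries (Fin N) (WittVector p k) ≃ₐ[WittVector p k] MvPowerSeries (Fin N) (WittVector p k))
    (a : MvPowerSeries (Fin N) (WittVector p k)) :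
    zred p N k (τ a) = zred p N k a := by
  have hunit : ∀ b : MvPowerSeries (Fin N) (WittVector p k), IsUnit b ↔ zred p N k b ≠ 0 := by
    intro b
    rw [MvPowerSeries.isUnit_iff_constantCoeff]
    constructor
    · intro h
      have h2 := h.map (WittVector.constantCoeff : WittVector p k →+* k)
      exact h2.ne_zero
    · intro h
      exact WittVector.isUnit_of_coeff_zero_ne_zero _ h
  set w : WittVector p k := WittVector.teichmuller p (zred p N k a) with hw
  have hzC : ∀ v : WittVector p k, zred p N k (MvPowerSeries.C v) = WittVector.constantCoeff v := by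
    intro v
    simp [zred]
  have hzw : zred p N k (MvPowerSeries.C w) = zred p N k a := by
    rw [hzC, hw]
    exact WittVector.teichmuller_coeff_zero p _
  have hC : τ (MvPowerSeries.C w) = MvPowerSeries.C w := τ.commutes w
  have h1 : zred p N k (a - MvPowerSeries.C w) = 0 := by
    rw [map_sub, hzw, sub_self]
  have h2 : ¬ IsUnit (a - MvPowerSeries.C w) := by
    rw [hunit]; simpa using h1
  have h3 : ¬ IsUnit (τ (a - MvPowerSeries.C w)) := fun hu =>
    h2 ((MulEquiv.isUnit_map τ.toMulEquiv).mp hu)
  rw [hunit, not_not, map_sub, hC, map_sub, hzw, sub_eq_zero] at h3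
  exact h3

/-- Iterated lifts, over `W(k)⟦u⟧`: same proof as `exists_iter_lift`. -/
theorem exists_iter_lift_W {p N : ℕ} [Fact p.Prime] {k : Type} [Field k] [Fintype k] [CharP k p]
    {F : FormalGroup (MvPowerSeries (Fin N) (WittVector p k))}
    (τ : MvPowerSeries (Fin N) (WittVector p k) ≃ₐ[WittVector p k] MvPowerSeries (Fin N) (WittVector p k))
    {K : PowerSeries (MvPowerSeries (Fin N) (WittVector p k))} {g : PowerSeries k}
    (hK : IsHom F (F.map (τ : MvPowerSeries (Fin N) (WittVector p k) →+* MvPowerSeries (Fin N) (WittVector p k))) K)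
    (hKg : PowerSeries.map (zred p N k) K = g) (m : ℕ) :
    ∃ K' : PowerSeries (MvPowerSeries (Fin N) (WittVector p k)),
      IsHom F (F.map (((τ ^ m : MvPowerSeries (Fin N) (WittVector p k) ≃ₐ[WittVector p k] MvPowerSeries (Fin N) (WittVector p k))) : MvPowerSeries (Fin N) (WittVector p k) →+* MvPowerSeries (Fin N) (WittVector p k))) K' ∧
      PowerSeries.map (zred p N k) K' = iterS g m := by
  have hmap : ∀ (G : FormalGroup (MvPowerSeries (Fin N) (WittVector p k)))
      (u v : MvPowerSeries (Fin N) (WittVector p k) →+* MvPowerSeries (Fin N) (WittVector p k)),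
      (G.map u).map v = G.map (v.comp u) := by
    intro G u v
    apply FormalGroup.ext
    simp only [FormalGroup.map_toPowerSeries]
    ext d
    simp
  have hmapid : ∀ G : FormalGroup (MvPowerSeries (Fin N) (WittVector p k)), G.map (RingHom.id _) = G := by
    intro G
    apply FormalGroup.ext
    simp only [FormalGroup.map_toPowerSeries]
    ext d
    simp [MvPowerSeries.coeff_map]
  induction m with
  | zero =>
    refine ⟨PowerSeries.X, ?_, ?_⟩
    · have e : (((τ ^ 0 : MvPowerSeries (Fin N) (WittVector p k) ≃ₐ[WittVector p k] MvPowerSeries (Fin N) (WittVector p k))) : MvPowerSeries (Fin N) (WittVector p k) →+* MvPowerSeries (Fin N) (WittVector p k)) = RingHom.id _ := by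
        ext1 a
        simp
      rw [e, hmapid]
      exact isHom_X F
    · simp [iterS]
  | succ m ih =>
    obtain ⟨K', hK', hK'g⟩ := ih
    set T : MvPowerSeries (Fin N) (WittVector p k) →+* MvPowerSeries (Fin N) (WittVector p k) :=
      ((τ ^ m : MvPowerSeries (Fin N) (WittVector p k) ≃ₐ[WittVector p k] MvPowerSeries (Fin N) (WittVector p k)) : MvPowerSeries (Fin N) (WittVector p k) →+* MvPowerSeries (Fin N) (WittVector p k)) with hT
    have h1 := hK.map' T
    rw [hmap] at h1
    have e : T.comp (τ : MvPowerSeries (Fin N) (WittVector p k) →+* MvPowerSeries (Fin N) (WittVector p k)) =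
        ((τ ^ (m + 1) : MvPowerSeries (Fin N) (WittVector p k) ≃ₐ[WittVector p k] MvPowerSeries (Fin N) (WittVector p k)) : MvPowerSeries (Fin N) (WittVector p k) →+* MvPowerSeries (Fin N) (WittVector p k)) := by
      ext1 a
      simp [hT, pow_succ]
    rw [e] at h1
    refine ⟨PowerSeries.subst K' (PowerSeries.map T K), hK'.comp h1, ?_⟩
    have hs : PowerSeries.HasSubst K' :=
      PowerSeries.HasSubst.of_constantCoeff_zero' hK'.constantCoeff_eq
    have h2 : PowerSeries.map (zred p N k) (PowerSeries.subst K' (PowerSeries.map T K)) =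
        PowerSeries.subst (PowerSeries.map (zred p N k) K')
          (PowerSeries.map (zred p N k) (PowerSeries.map T K)) :=
      PowerSeries.map_subst hs _
    rw [h2, hK'g]
    have e2 : PowerSeries.map (zred p N k) (PowerSeries.map T K) = g := by
      rw [← hKg]
      ext j
      simp only [PowerSeries.coeff_map]
      exact zred_alg _ _
    rw [e2]
    rfl

section minimal

variable {R A : Type*} [CommRing R] [CommRing A] [Algebra R A]

theorem map_map_symm_R (τ : A ≃ₐ[R] A) (I : Ideal A) :
    (I.map (τ : A →+* A)).map (τ.symm : A →+* A) = I := by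
  rw [Ideal.map_map]
  have h : (τ.symm : A →+* A).comp (τ : A →+* A) = RingHom.id A := RingHom.ext fun a => by simp
  rw [h, Ideal.map_id]

theorem map_symm_map_R (τ : A ≃ₐ[R] A) (I : Ideal A) :
    (I.map (τ.symm : A →+* A)).map (τ : A →+* A) = I := by
  rw [Ideal.map_map]
  have h : (τ : A →+* A).comp (τ.symm : A →+* A) = RingHom.id A := RingHom.ext fun a => by simp
  rw [h, Ideal.map_id]

theorem isPrime_map_alg_R (τ : A ≃ₐ[R] A) (Q : Ideal A) [Q.IsPrime] :
    (Q.map (τ : A →+* A)).IsPrime := by
  refine Ideal.map_isPrime_of_surjective (f := (τ : A →+* A)) τ.surjective ?_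
  intro a ha
  have h0 : τ a = 0 := ha
  have h1 : a = 0 := by simpa using h0
  rw [h1]
  exact Q.zero_mem

theorem map_mem_minimalPrimes_R (τ : A ≃ₐ[R] A) (J Q : Ideal A)
    (hJ : J.map (τ : A →+* A) = J) (hQ : Q ∈ J.minimalPrimes) : Q.map (τ : A →+* A) ∈ J.minimalPrimes := by
  have hQp : Q.IsPrime := hQ.1.1
  have hJQ : J ≤ Q := hQ.1.2
  have hJs : J.map (τ.symm : A →+* A) = J := by
    conv_lhs => rw [← hJ]
    exact map_map_symm_R τ J
  refine ⟨⟨isPrime_map_alg_R τ Q, ?_⟩, ?_⟩
  · calc J = J.map (τ : A →+* A) := hJ.symm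
      _ ≤ Q.map (τ : A →+* A) := Ideal.map_mono hJQ
  · rintro y ⟨hyp, hJy⟩ hyQ
    have h1 : (y.map (τ.symm : A →+* A)).IsPrime := isPrime_map_alg_R τ.symm y
    have h2 : J ≤ y.map (τ.symm : A →+* A) := by
      calc J = J.map (τ.symm : A →+* A) := hJs.symm
        _ ≤ y.map (τ.symm : A →+* A) := Ideal.map_mono hJy
    have h3 : y.map (τ.symm : A →+* A) ≤ Q := by
      calc y.map (τ.symm : A →+* A) ≤ (Q.map (τ : A →+* A)).map (τ.symm : A →+* A) := Ideal.map_mono hyQ
        _ = Q := map_map_symm_R τ Q
    have h4 := hQ.2 ⟨h1, h2⟩ h3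
    calc Q.map (τ : A →+* A) ≤ (y.map (τ.symm : A →+* A)).map (τ : A →+* A) := Ideal.map_mono h4
      _ = y := map_symm_map_R τ y

end minimal

/-- Proof. `J` is the intersection of its minimal primes, a finite set (`Ideal.finite_minimalPrimes_of_isNoetherianRing`), as in the proof of `classify_radical`.
Case 1: a minimal prime `P` of `J` does not contain `p`. Then for `g` as in `hinv`, let `τ, K` be given by `hinv`: `τ` permutes the minimal primes of `J` since `J.map τ = J`, so `τ ^ O` fixes `P` for some `O > 0`.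
So by `exists_iter_lift_W`, `zprime` applies to `P` (`N = n - 1`), `P = ⊥` so `J ≤ P = ⊥`.
Case 2: All minimal primes of `J` contain `p`: `p ∈ J`, apply `classify_containing_p`. -/
theorem classify_full {p n : ℕ} [Fact p.Prime] (hn : 1 ≤ n) {k : Type} [Field k] [Fintype k] [CharP k p]
    (hk : Fintype.card k = p ^ n)
    (Γ : FormalGroup k) [Γ.IsComm] (hΓp : mulSeries Γ p = PowerSeries.X ^ (p ^ n))
    (hΓF : ∀ d, (MvPowerSeries.coeff d Γ.toPowerSeries) ^ p = MvPowerSeries.coeff d Γ.toPowerSeries)
    (hΓω : ∀ c : k, c ≠ 0 → IsHom Γ Γ (PowerSeries.C c * PowerSeries.X))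
    (F : FormalGroup (MvPowerSeries (Fin (n - 1)) (WittVector p k))) [F.IsComm]
    (hF : F.map (zred p (n - 1) k) = Γ)
    (hht : ∀ h, 1 ≤ h → h ≤ n → heightIdeal F p h ⊔ Ideal.span {(p : MvPowerSeries (Fin (n - 1)) (WittVector p k))} = zheight p n k h)
    (J : Ideal (MvPowerSeries (Fin (n - 1)) (WittVector p k))) (hJ : J.IsRadical) (hJ1 : J ≠ ⊤)
    (hinv : ∀ g : PowerSeries k, IsHom Γ Γ g → IsUnit (PowerSeries.coeff 1 g) →
      ∃ (τ : MvPowerSeries (Fin (n - 1)) (WittVector p k) ≃ₐ[WittVector p k] MvPowerSeries (Fin (n - 1)) (WittVector p k))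
        (K : PowerSeries (MvPowerSeries (Fin (n - 1)) (WittVector p k))),
        IsHom F (F.map (τ : MvPowerSeries (Fin (n - 1)) (WittVector p k) →+* MvPowerSeries (Fin (n - 1)) (WittVector p k))) K ∧
        PowerSeries.map (zred p (n - 1) k) K = g ∧
        J.map (τ : MvPowerSeries (Fin (n - 1)) (WittVector p k) →+* MvPowerSeries (Fin (n - 1)) (WittVector p k)) = J) :
    J = ⊥ ∨ ∃ h, 1 ≤ h ∧ h ≤ n ∧ J = zheight p n k h := by
  classical
  have hN : n - 1 + 1 = n := by omega
  have hfin : J.minimalPrimes.Finite := Ideal.finite_minimalPrimes_of_isNoetherianRing _ J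
  by_cases hcase : ∃ P ∈ J.minimalPrimes, (p : MvPowerSeries (Fin (n - 1)) (WittVector p k)) ∉ P
  · obtain ⟨P, hP, hpP⟩ := hcase
    left
    have hPp : P.IsPrime := hP.1.1
    have hPbot : P = ⊥ := by
      refine zprime hN hk Γ hΓp hΓF hΓω F hF P hpP ?_
      intro g hg hgu
      obtain ⟨τ, K, hK, hKg, hτ⟩ := hinv g hg hgu
      -- the action on the minimal primes
      let θ : J.minimalPrimes → J.minimalPrimes := fun Q =>
        ⟨Q.1.map (τ : MvPowerSeries (Fin (n - 1)) (WittVector p k) →+* MvPowerSeries (Fin (n - 1)) (WittVector p k)), map_mem_minimalPrimes_R τ J Q.1 hτ Q.2⟩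
      have hθinj : Function.Injective θ := by
        intro Q Q' hQQ
        have h1 : Q.1.map (τ : MvPowerSeries (Fin (n - 1)) (WittVector p k) →+* MvPowerSeries (Fin (n - 1)) (WittVector p k)) =
            Q'.1.map (τ : MvPowerSeries (Fin (n - 1)) (WittVector p k) →+* MvPowerSeries (Fin (n - 1)) (WittVector p k)) := congrArg Subtype.val hQQ
        apply Subtype.ext
        rw [← map_map_symm_R τ Q.1, h1, map_map_symm_R]
      have : Finite J.minimalPrimes := hfin
      obtain ⟨O, hO, hit⟩ := exists_iterate_eq_id θ hθinj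
      have hiter : ∀ (m : ℕ) (Q : J.minimalPrimes),
          Q.1.map (((τ ^ m : MvPowerSeries (Fin (n - 1)) (WittVector p k) ≃ₐ[WittVector p k] MvPowerSeries (Fin (n - 1)) (WittVector p k))) : MvPowerSeries (Fin (n - 1)) (WittVector p k) →+* MvPowerSeries (Fin (n - 1)) (WittVector p k)) = ((θ^[m]) Q).1 := by
        intro m Q
        induction m with
        | zero =>
          have h0 : ((τ ^ 0 : MvPowerSeries (Fin (n - 1)) (WittVector p k) ≃ₐ[WittVector p k] MvPowerSeries (Fin (n - 1)) (WittVector p k)) : MvPowerSeries (Fin (n - 1)) (WittVector p k) →+* MvPowerSeries (Fin (n - 1)) (WittVector p k)) = RingHom.id _ := RingHom.ext fun a => rfl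
          rw [h0, Ideal.map_id]
          rfl
        | succ m ih =>
          rw [Function.iterate_succ_apply']
          show _ = ((θ^[m]) Q).1.map (τ : MvPowerSeries (Fin (n - 1)) (WittVector p k) →+* MvPowerSeries (Fin (n - 1)) (WittVector p k))
          rw [← ih, Ideal.map_map]
          congr 1
          refine RingHom.ext fun a => ?_
          simp only [RingHom.comp_apply]
          rw [pow_succ']
          rfl
      obtain ⟨K', hK', hK'g⟩ := exists_iter_lift_W τ hK hKg O
      refine ⟨O, τ ^ O, K', hO, hK', hK'g, ?_⟩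
      have h2 := hiter O ⟨P, hP⟩
      rw [hit O dvd_rfl] at h2
      exact h2
    have hJP : J ≤ P := hP.1.2
    rw [hPbot] at hJP
    exact le_bot_iff.mp hJP
  · right
    push Not at hcase
    have hpJ : (p : MvPowerSeries (Fin (n - 1)) (WittVector p k)) ∈ J := by
      have h5 : J.radical = J := hJ.radical
      rw [← h5, ← Ideal.sInf_minimalPrimes]
      exact (Ideal.mem_sInf).mpr fun P hP => hcase P hP
    exact classify_containing_p hn hk Γ hΓp hΓF hΓω F hF hht J hJ hJ1 hpJ hinv

end Vale.Agent.Lib.P217
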