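import Vale.Agent.Lib.P217.ZHom
import Vale.Agent.Lib.P217.ZAnalytic

set_option linter.unusedSectionVars false
set_option linter.unusedVariables false

/-!
`Theta` as a function of the point is a uniform limit of polynomial functions; first order Taylor expansion.
-/

namespace Vale.Agent.Lib.P217

open scoped Topology
open Filter

variable {C : Type*} [NormedField C] [IsUltrametricDist C] [CompleteSpace C]
variable {p n N : ℕ} [hp : Fact p.Prime]
variable {k : Type*} [Field k] [Fintype k] [CharP k p] {B : Type*} [CommRing B]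

omit [CharP k p] in
lemma isUnifPoly_zero_fn {r : ℝ} : IsUnifPoly (N := N) (C := C) r (fun _ => 0) := by
  intro ε hε
  refine ⟨0, fun u _ => ?_⟩
  simpa using hε.le

omit [CharP k p] in
lemma isUnifPoly_sum {ι : Type*} (s : Finset ι) {r : ℝ} (f : ι → (Fin N → OC C) → C)
    (hf : ∀ i ∈ s, IsUnifPoly r (f i)) : IsUnifPoly r (fun u => ∑ i ∈ s, f i u) := by
  classical
  induction s using Finset.induction_on with
  | empty => simpa using isUnifPoly_zero_fn
  | insert a s ha ih =>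
    simp only [Finset.sum_insert ha]
    exact (hf a (Finset.mem_insert_self a s)).add (ih fun i hi => hf i (Finset.mem_insert_of_mem hi))

namespace ZS

variable (S : ZS C p n N k B)

/-- The function `Theta` on all tuples (extended by zero outside of the polydisc). -/
noncomputable def ThetaF (x₀ : S.Pt) (y : ZCov (S.lawAt x₀)) (u : Fin N → OC C) : C :=
  open Classical in if hu : ∀ l, ‖(u l : C)‖ ≤ S.c then S.Theta x₀ ⟨u, hu⟩ y else 0

/-- `ThetaF` is a uniform limit of polynomial functions on the polydisc of radius `c`.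

Proof. Let `η > 0`. For a point `u`, write `L_u = lawAt u`, `ε = nm y`, so that `c ≤ ε < 1`.
By `zlog_unif` (applied with `t = ε`, uniform in `u`) there is `K` with `‖zlog L_u z - p ^ (-K) * ((p ^ K) •_u z)‖ ≤ η`  for all `u` and `‖z‖ ≤ ε`. Apply this to `z = zmu y` (`ZClose.norm_zmu_le`).
By `ZClose.norm_zmu_sub_nsmul_le`, `‖zmu y - (p ^ j) •_u y_j‖ ≤ c ^ (j + 1)`, thus by contraction `‖(p ^ K) •_u zmu y - (p ^ (K + j)) •_u y_j‖ ≤ c ^ (j + 1)`. Choose `j` with `c ^ (j + 1) ≤ η ‖p‖ ^ K`.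
So `Theta_u y` is `η`-close to `p ^ (-K) * ((p ^ (K + j)) •_u y_j)`, uniformly in `u`. Now, with `A = mulSeries F (p ^ (K + j))`, over `E₀`, `b = y_j`:
`((p ^ (K + j)) •_u b).v = ∑_i evH u (coeff i A) * b ^ i` (`hasSum_ev1`, `ev1_mulSeries`, `mulSeries_map`), the terms with `i ≥ I` having norm at most `‖b‖ ^ I`, uniformly in `u`.
Each `u ↦ evH u (coeff i A) = Ev κ u (coeff i A)` is a uniform limit of polynomial functions (`isUnifPoly_Ev`). Conclude by `IsUnifPoly.add`, `IsUnifPoly.const_mul`, `IsUnifPoly.of_approx`. -/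
theorem isUnifPoly_ThetaF [IsAlgClosed C] (x₀ : S.Pt) (y : ZCov (S.lawAt x₀)) : IsUnifPoly S.c (S.ThetaF x₀ y) := by
  have := S.neZero_p
  have hc0 : 0 ≤ S.c := S.c_pos.le
  have hc1 : S.c ≤ 1 := S.hc1.le
  have hp0 : 0 < ‖(p : C)‖ := norm_pos_iff.mpr S.hp0
  have hnm : ZCov.nm y < 1 := ZCov.nm_lt_one y
  have hcnm : S.c ≤ ZCov.nm y := ZCov.c_le_nm y
  refine IsUnifPoly.of_approx fun η hη => ?_
  obtain ⟨K, hK⟩ := zlog_unif (C := C) (p := p) (n := n) hnm hη
  have hK' := hK K le_rfl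
  have hηK : 0 < η * ‖(p : C)‖ ^ K := by positivity
  -- the level `j`
  obtain ⟨j, hj⟩ : ∃ j : ℕ, S.c ^ (j + 1) ≤ η * ‖(p : C)‖ ^ K := by
    have h1 : Tendsto (fun j : ℕ => S.c ^ (j + 1)) atTop (𝓝 0) :=
      (tendsto_pow_atTop_nhds_zero_of_lt_one hc0 S.hc1).comp (tendsto_add_atTop_nat 1)
    obtain ⟨j, hj⟩ := (h1.eventually (gt_mem_nhds hηK)).exists
    exact ⟨j, hj.le⟩
  set b : OC C := (y.seq j).o with hb
  have hb1 : ‖(b : C)‖ < 1 := (y.seq j).norm_lt
  -- the truncation level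
  obtain ⟨I, hI⟩ : ∃ I : ℕ, ‖(b : C)‖ ^ I ≤ η * ‖(p : C)‖ ^ K := by
    have h1 : Tendsto (fun j : ℕ => ‖(b : C)‖ ^ j) atTop (𝓝 0) :=
      tendsto_pow_atTop_nhds_zero_of_lt_one (norm_nonneg _) hb1
    obtain ⟨j, hj⟩ := (h1.eventually (gt_mem_nhds hηK)).exists
    exact ⟨j, hj.le⟩
  set A : PowerSeries (ZE N B) := mulSeries S.F (p ^ (K + j)) with hA
  set g : (Fin N → OC C) → C := fun u =>
    ((p : C) ^ K)⁻¹ * ∑ i ∈ Finset.range I,
      (((Ev S.κ u (PowerSeries.coeff i A) : OC C) : C) * (b : C) ^ i) with hg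
  refine ⟨g, ?_, ?_⟩
  · refine IsUnifPoly.const_mul _ ?_
    refine isUnifPoly_sum _ _ fun i _ => ?_
    have h1 := isUnifPoly_Ev (N := N) S.κ hc0 S.hc1 (PowerSeries.coeff i A)
    have h2 := IsUnifPoly.const_mul ((b : C) ^ i) h1
    simpa only [mul_comm] using h2
  · intro u hu
    set pt : S.Pt := ⟨u, hu⟩ with hpt
    have hF : S.ThetaF x₀ y u = S.Theta x₀ pt y := by
      simp only [ThetaF]
      rw [dif_pos hu]
    rw [hF, Theta_apply]
    set L := S.lawAt pt with hL
    have hLc : L.c = S.c := rfl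
    have hclose := S.close_lawAt x₀ pt
    set z : Pts L.G := zmu (S.lawAt x₀) L y with hz
    have hzn : ‖z.v‖ ≤ ZCov.nm y := hclose.norm_zmu_le y
    have h1 : ‖zlog L z - zlogSeq L z K‖ ≤ η := hK' L (hLc.le.trans hcnm) z hzn
    set w : Pts L.G := (p ^ j) • (Pts.cast (y.seq j) : Pts L.G) with hw
    have hzw : ‖z.v - w.v‖ ≤ S.c ^ (j + 1) := hclose.norm_zmu_sub_nsmul_le y j
    have hzw' : ‖z.v - w.v‖ ≤ S.c := by
      refine hzw.trans ?_
      calc S.c ^ (j + 1) ≤ S.c ^ 1 := pow_le_pow_of_le_one hc0 hc1 (by omega)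
        _ = S.c := pow_one _
    have hinv : ‖((p : C) ^ K)⁻¹‖ = (‖(p : C)‖ ^ K)⁻¹ := by
      rw [norm_inv, norm_pow]
    have hpK : 0 < ‖(p : C)‖ ^ K := by positivity
    -- second step
    have h2 : ‖zlogSeq L z K - ((p : C) ^ K)⁻¹ * ((p ^ K) • w).v‖ ≤ η := by
      simp only [zlogSeq]
      rw [← mul_sub, norm_mul, hinv]
      have h3 := ZLaw.norm_nsmul_pow_sub_le L (ε := S.c) le_rfl hc1 z w hzw' K
      have h4 : ‖((p ^ K) • z).v - ((p ^ K) • w).v‖ ≤ η * ‖(p : C)‖ ^ K := by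
        refine h3.trans ?_
        calc S.c ^ K * ‖z.v - w.v‖ ≤ 1 * ‖z.v - w.v‖ :=
              mul_le_mul_of_nonneg_right (pow_le_one₀ hc0 hc1) (norm_nonneg _)
          _ ≤ S.c ^ (j + 1) := by rw [one_mul]; exact hzw
          _ ≤ _ := hj
      rw [inv_mul_le_iff₀ hpK]
      rw [mul_comm]
      exact h4
    -- third step
    have e1 : (p ^ K) • w = (p ^ (K + j)) • (Pts.cast (y.seq j) : Pts L.G) := by
      rw [hw, ← mul_nsmul', pow_add]
    have hsum := hasSum_ev1 (RingHom.id (OC C)) (Pts.norm_o_lt (Pts.cast (y.seq j) : Pts L.G))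
      (mulSeries L.G (p ^ (K + j)))
    rw [ev1_mulSeries] at hsum
    have hcoef : ∀ i, PowerSeries.coeff i (mulSeries L.G (p ^ (K + j))) =
        Ev S.κ u (PowerSeries.coeff i A) := by
      intro i
      have h5 : mulSeries L.G (p ^ (K + j)) = PowerSeries.map (S.evH pt) A := by
        rw [hA]
        exact mulSeries_map (S.evH pt) S.F (p ^ (K + j))
      rw [h5, PowerSeries.coeff_map, S.evH_apply]
    have h3 : ‖((p : C) ^ K)⁻¹ * ((p ^ K) • w).v - g u‖ ≤ η := by
      simp only [hg]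
      rw [← mul_sub, norm_mul, hinv, inv_mul_le_iff₀ hpK, mul_comm (‖(p : C)‖ ^ K) η]
      refine le_trans ?_ hI
      rw [e1]
      -- truncation
      set f : ℕ → OC C := fun i => (RingHom.id (OC C)) (PowerSeries.coeff i (mulSeries L.G (p ^ (K + j)))) *
        (Pts.cast (y.seq j) : Pts L.G).o ^ i with hf
      have h6 : HasSum (fun i => if i ∈ Finset.range I then f i else 0) (∑ i ∈ Finset.range I, f i) := by
        have h8 : HasSum (fun i => if i ∈ Finset.range I then f i else 0)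
            (∑ i ∈ Finset.range I, (if i ∈ Finset.range I then f i else 0)) := by
          apply hasSum_sum_of_ne_finset_zero
          intro i hi
          simp only [if_neg hi]
        rwa [Finset.sum_congr rfl (fun i hi => if_pos hi)] at h8
      have h7 := norm_sum_le_of_hasSum (hsum.sub h6) (pow_nonneg (norm_nonneg (b : C)) I) ?_
      · have e2 : (((((p ^ (K + j)) • (Pts.cast (y.seq j) : Pts L.G)).o - ∑ i ∈ Finset.range I, f i : OC C)) : C) =
            ((p ^ (K + j)) • (Pts.cast (y.seq j) : Pts L.G)).v -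
              ∑ i ∈ Finset.range I, (((Ev S.κ u (PowerSeries.coeff i A) : OC C) : C) * (b : C) ^ i) := by
          push_cast
          congr 1
          refine Finset.sum_congr rfl fun i _ => ?_
          simp only [hf, RingHom.id_apply, hcoef]
          rfl
        rw [← e2]
        exact h7
      · intro i
        by_cases hi : i ∈ Finset.range I
        · simp only [if_pos hi, hf, sub_self]
          have : (((0 : OC C)) : C) = 0 := rfl
          rw [this, norm_zero]
          positivity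
        · simp only [if_neg hi, sub_zero]
          have hiI : I ≤ i := by simpa using hi
          have e3 : ((f i : OC C) : C) = ((PowerSeries.coeff i (mulSeries L.G (p ^ (K + j))) : OC C) : C) * (b : C) ^ i := by
            simp only [hf, RingHom.id_apply]
            rfl
          rw [e3, norm_mul, norm_pow]
          calc _ ≤ 1 * ‖(b : C)‖ ^ i := mul_le_mul_of_nonneg_right (norm_OC_le _) (by positivity)
            _ = ‖(b : C)‖ ^ i := one_mul _
            _ ≤ ‖(b : C)‖ ^ I := pow_le_pow_of_le_one (norm_nonneg _) hb1.le hiI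
    have e4 : zlog L z - g u = (zlog L z - zlogSeq L z K) +
        ((zlogSeq L z K - ((p : C) ^ K)⁻¹ * ((p ^ K) • w).v) +
        (((p : C) ^ K)⁻¹ * ((p ^ K) • w).v - g u)) := by ring
    rw [e4]
    refine (IsUltrametricDist.norm_add_le_max _ _).trans (max_le h1 ?_)
    exact (IsUltrametricDist.norm_add_le_max _ _).trans (max_le h2 h3)

/-- First order Taylor expansion of `Theta` at `x₀`, from `taylor_of_isUnifPoly` with `π`, and `norm_Theta_le`.
(`u = x₀ + Δ` where `Δ l = u l - x₀ l` has norm at most `c`.) -/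
theorem Theta_taylor [IsAlgClosed C] (x₀ : S.Pt) (y : ZCov (S.lawAt x₀)) :
    ∃ (J : Fin N → C) (B₁ : ℝ), 0 ≤ B₁ ∧ ∀ (u : S.Pt) (D : ℝ), 0 ≤ D → D ≤ S.c →
      (∀ l, ‖((u.1 l : OC C) : C) - (x₀.1 l : OC C)‖ ≤ D) →
      ‖S.Theta x₀ u y - S.Theta x₀ x₀ y - ∑ l, J l * (((u.1 l : OC C) : C) - (x₀.1 l : OC C))‖ ≤ B₁ * D ^ 2 := by
  have hc : 0 < S.c := S.c_pos
  obtain ⟨Bd, hBd0, hBd⟩ := S.norm_Theta_le (ZCov.nm_lt_one y)
  have hf := S.isUnifPoly_ThetaF x₀ y
  have hB : ∀ u : Fin N → OC C, (∀ l, ‖(u l : C)‖ ≤ S.c) → ‖S.ThetaF x₀ y u‖ ≤ Bd := by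
    intro u hu
    simp only [ThetaF]
    rw [dif_pos hu]
    exact hBd x₀ ⟨u, hu⟩ y le_rfl
  obtain ⟨J, -, hJ⟩ := taylor_of_isUnifPoly S.π S.hπ hc S.hc1 hf hBd0 hB x₀.1 x₀.2
  refine ⟨J, Bd / S.c ^ 2, by positivity, fun u D hD0 hDc hu => ?_⟩
  have h1 := hJ (u.1 - x₀.1) D hD0 hDc (fun l => by simpa using hu l)
  have e1 : x₀.1 + (u.1 - x₀.1) = u.1 := by
    funext l
    simp
  rw [e1] at h1
  have e2 : S.ThetaF x₀ y u.1 = S.Theta x₀ u y := by
    simp only [ThetaF]
    rw [dif_pos u.2]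
    rfl
  have e3 : S.ThetaF x₀ y x₀.1 = S.Theta x₀ x₀ y := by
    simp only [ThetaF]
    rw [dif_pos x₀.2]
    rfl
  rw [e2, e3] at h1
  have e4 : Bd / S.c ^ 2 * D ^ 2 = Bd * D ^ 2 / S.c ^ 2 := by ring
  rw [e4]
  simpa using h1

end ZS

end Vale.Agent.Lib.P217
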